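/-
A complete ultrametric normed field with a dense algebraically closed subfield is algebraically
closed (any characteristic; Mathlib's `IsAlgClosed.of_denseRange` needs characteristic zero).
-/
import Mathlib

set_option autoImplicit false
set_option linter.unusedSectionVars false
set_option linter.unusedVariables false
set_option linter.style.haveILetI false
set_option linter.unusedSimpArgs false

namespace Crest.Agent.LT

open Polynomial

section

variable {K : Type*} [NormedField K] [IsUltrametricDist K]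

lemma norm_root_le_of_monic (h : K[X]) (hm : h.Monic) (hn : 1 ≤ h.natDegree) {M : ℝ} (hM1 : 1 ≤ M)
    (hM : ∀ i, ‖h.coeff i‖ ≤ M) {β : K} (hβ : h.eval β = 0) : ‖β‖ ≤ M := by
  by_contra hlt
  push Not at hlt
  have hβ1 : 1 < ‖β‖ := lt_of_le_of_lt hM1 hlt
  have hexp := Polynomial.eval_eq_sum_range (p := h) β
  rw [hβ, Finset.sum_range_succ, hm.coeff_natDegree, one_mul] at hexp
  have hxn : β ^ h.natDegree = - ∑ i ∈ Finset.range h.natDegree, h.coeff i * β ^ i := by
    rw [eq_neg_iff_add_eq_zero, add_comm]; exact hexp.symm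
  have hb : ‖∑ i ∈ Finset.range h.natDegree, h.coeff i * β ^ i‖ ≤ M * ‖β‖ ^ (h.natDegree - 1) := by
    refine IsUltrametricDist.norm_sum_le_of_forall_le_of_nonneg (by positivity) fun i hi => ?_
    rw [norm_mul, norm_pow]
    have hi' : i ≤ h.natDegree - 1 := by have := Finset.mem_range.mp hi; omega
    have h5 : ‖β‖ ^ i ≤ ‖β‖ ^ (h.natDegree - 1) := pow_le_pow_right₀ hβ1.le hi'
    exact mul_le_mul (hM i) h5 (by positivity) (by linarith)
  have h1 : ‖β‖ ^ h.natDegree ≤ M * ‖β‖ ^ (h.natDegree - 1) := by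
    rw [← norm_pow, hxn, norm_neg]; exact hb
  have h2 : M * ‖β‖ ^ (h.natDegree - 1) < ‖β‖ * ‖β‖ ^ (h.natDegree - 1) := by
    gcongr
  have h3 : ‖β‖ * ‖β‖ ^ (h.natDegree - 1) = ‖β‖ ^ h.natDegree := by
    rw [← pow_succ']; congr 1; omega
  linarith

lemma prod_lower_bound (s : Multiset ℝ) {b : ℝ} (hb : 0 ≤ b) (h : ∀ y ∈ s, b ≤ y) :
    b ^ Multiset.card s ≤ s.prod := by
  induction s using Multiset.induction_on with
  | empty => simp
  | cons a s ih =>
    rw [Multiset.prod_cons, Multiset.card_cons, pow_succ']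
    have ha := h a (Multiset.mem_cons_self a s)
    have hs := ih (fun y hy => h y (Multiset.mem_cons_of_mem hy))
    exact mul_le_mul ha hs (pow_nonneg hb _) (hb.trans ha)

/-- Close-root lemma. -/
lemma exists_close_root {L₀ : Type*} [Field L₀] [IsAlgClosed L₀] [Algebra L₀ K] (g : L₀[X])
    (hg : g.Monic) (hn : 1 ≤ g.natDegree) (x : K) :
    ∃ β : L₀, g.eval β = 0 ∧
      ‖x - algebraMap L₀ K β‖ ^ g.natDegree ≤ ‖(g.map (algebraMap L₀ K)).eval x‖ := by
  classical
  have hs : g.Splits := IsAlgClosed.splits g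
  have hprod : g = (g.roots.map (fun a => X - C a)).prod := by
    have := hs.eq_prod_roots_of_monic hg
    simpa using this
  have hcard : Multiset.card g.roots = g.natDegree := (hs.natDegree_eq_card_roots).symm
  have hne : g.roots.toFinset.Nonempty := by
    rw [Multiset.toFinset_nonempty]
    intro h0
    rw [h0] at hcard
    simp at hcard
    omega
  obtain ⟨β, hβ, hmin⟩ := g.roots.toFinset.exists_min_image (fun a => ‖x - algebraMap L₀ K a‖) hne
  have hβ' : β ∈ g.roots := Multiset.mem_toFinset.mp hβ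
  refine ⟨β, (mem_roots'.mp hβ').2, ?_⟩
  have heval : (g.map (algebraMap L₀ K)).eval x =
      (g.roots.map (fun a => x - algebraMap L₀ K a)).prod := by
    rw [eval_map]
    conv_lhs => rw [hprod]
    rw [← coe_eval₂RingHom, map_multiset_prod, Multiset.map_map]
    congr 2
    ext a
    simp [eval₂_sub]
  rw [heval, ← hcard]
  have hnorm : ‖(g.roots.map (fun a => x - algebraMap L₀ K a)).prod‖ =
      ((g.roots.map (fun a => x - algebraMap L₀ K a)).map (fun y => ‖y‖)).prod := by
    have := map_multiset_prod (normHom : K →*₀ ℝ) (g.roots.map (fun a => x - algebraMap L₀ K a))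
    simpa using this
  rw [hnorm]
  have := prod_lower_bound ((g.roots.map (fun a => x - algebraMap L₀ K a)).map (fun y => ‖y‖))
    (b := ‖x - algebraMap L₀ K β‖) (norm_nonneg _) (by
      intro y hy
      simp only [Multiset.mem_map] at hy
      obtain ⟨z, ⟨a, ha, rfl⟩, rfl⟩ := hy
      exact hmin a (Multiset.mem_toFinset.mpr ha))
  simpa using this

end

theorem isAlgClosed_of_denseRange {L₀ K : Type*} [Field L₀] [NontriviallyNormedField K]
    [IsUltrametricDist K] [CompleteSpace K] [Algebra L₀ K] (hd : DenseRange (algebraMap L₀ K))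
    [IsAlgClosed L₀] : IsAlgClosed K := by
  classical
  apply IsAlgClosed.of_exists_root
  intro f hf hirr
  set n := f.natDegree with hn_def
  have hn : 1 ≤ n := hirr.natDegree_pos
  obtain ⟨M, hM1, hM⟩ : ∃ M : ℝ, 1 ≤ M ∧ ∀ i, ‖f.coeff i‖ ≤ M := by
    refine ⟨1 + ∑ i ∈ Finset.range (n + 1), ‖f.coeff i‖, ?_, ?_⟩
    · have : 0 ≤ ∑ i ∈ Finset.range (n + 1), ‖f.coeff i‖ :=
        Finset.sum_nonneg fun _ _ => norm_nonneg _
      linarith
    · intro i
      by_cases hi : i < n + 1
      · have := Finset.single_le_sum (f := fun i => ‖f.coeff i‖) (fun _ _ => norm_nonneg _)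
          (Finset.mem_range.mpr hi)
        linarith
      · rw [coeff_eq_zero_of_natDegree_lt (by omega), norm_zero]
        have : 0 ≤ ∑ i ∈ Finset.range (n + 1), ‖f.coeff i‖ :=
          Finset.sum_nonneg fun _ _ => norm_nonneg _
        linarith
  have hMpos : 0 < M := by linarith
  have hMn : 0 < M ^ n := by positivity
  -- approximation
  have approx : ∀ ε : ℝ, 0 < ε → ∃ g : L₀[X], g.Monic ∧ g.natDegree = n ∧
      ∀ i, ‖(g.map (algebraMap L₀ K)).coeff i - f.coeff i‖ ≤ ε := by
    intro ε hε
    choose a ha using fun i => hd.exists_dist_lt (f.coeff i) hε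
    let q : L₀[X] := ∑ i ∈ Finset.range n, C (a i) * X ^ i
    have hqdeg : q.degree < (n : WithBot ℕ) := by
      refine (Polynomial.degree_sum_le _ _).trans_lt ?_
      rw [Finset.sup_lt_iff (by exact WithBot.bot_lt_coe n)]
      intro i hi
      refine (Polynomial.degree_C_mul_X_pow_le i (a i)).trans_lt ?_
      exact_mod_cast Finset.mem_range.mp hi
    refine ⟨X ^ n + q, monic_X_pow_add hqdeg, natDegree_eq_of_degree_eq_some
      ((degree_add_eq_left_of_degree_lt (by rwa [degree_X_pow])).trans (degree_X_pow n)), ?_⟩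
    intro i
    have hqc : ∀ i, q.coeff i = if i < n then a i else 0 := by
      intro i
      simp only [q, finsetSum_coeff, coeff_C_mul, coeff_X_pow, mul_ite, mul_one, mul_zero]
      rw [Finset.sum_ite_eq]
      simp
    rw [coeff_map, coeff_add, coeff_X_pow, hqc]
    rcases lt_trichotomy i n with hi | hi | hi
    · have := ha i
      rw [if_neg hi.ne, if_pos hi, zero_add]
      rw [dist_comm, dist_eq_norm] at this
      exact this.le
    · subst hi
      have : f.coeff n = 1 := hf.coeff_natDegree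
      rw [this, if_pos rfl, if_neg (lt_irrefl _)]
      simpa using hε.le
    · rw [if_neg hi.ne', if_neg (by omega), coeff_eq_zero_of_natDegree_lt (by omega)]
      simpa using hε.le
  -- evaluation bound
  have hevalbd : ∀ (g : L₀[X]) (ε : ℝ), 0 ≤ ε → g.natDegree = n →
      (∀ i, ‖(g.map (algebraMap L₀ K)).coeff i - f.coeff i‖ ≤ ε) → g.Monic → ∀ x : K, ‖x‖ ≤ M →
      ‖(g.map (algebraMap L₀ K)).eval x - f.eval x‖ ≤ ε * M ^ n := by
    intro g ε hε hgn hc hgm x hx
    have hg' : (g.map (algebraMap L₀ K)).natDegree = n := by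
      rw [natDegree_map]; exact hgn
    rw [eval_eq_sum_range' (show (g.map (algebraMap L₀ K)).natDegree < n + 1 by omega) x,
      eval_eq_sum_range' (show f.natDegree < n + 1 by omega) x, ← Finset.sum_sub_distrib]
    refine IsUltrametricDist.norm_sum_le_of_forall_le_of_nonneg (by positivity) fun i hi => ?_
    rw [← sub_mul, norm_mul, norm_pow]
    have hi' : i ≤ n := by have := Finset.mem_range.mp hi; omega
    calc _ ≤ ε * M ^ i := by
          gcongr
          exact hc i
      _ ≤ ε * M ^ n := by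
          gcongr
  -- the step
  have step : ∀ (x : K) (η : ℝ), 0 < η → ‖x‖ ≤ M → ∃ y : K, ‖y‖ ≤ M ∧ ‖f.eval y‖ ≤ η ∧
      ‖x - y‖ ^ n ≤ max ‖f.eval x‖ η := by
    intro x η hη hx
    set ε := min 1 (η / M ^ n) with hε_def
    have hεpos : 0 < ε := lt_min one_pos (div_pos hη hMn)
    have hεM : ε * M ^ n ≤ η := by
      calc ε * M ^ n ≤ (η / M ^ n) * M ^ n := by
            gcongr
            exact min_le_right _ _
        _ = η := by field_simp
    obtain ⟨g, hgm, hgn, hgc⟩ := approx ε hεpos
    obtain ⟨β, hβ, hclose⟩ := exists_close_root g hgm (by omega) x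
    have hg1 : ‖(g.map (algebraMap L₀ K)).eval x‖ ≤ max ‖f.eval x‖ η := by
      have h := hevalbd g ε hεpos.le hgn hgc hgm x hx
      have : (g.map (algebraMap L₀ K)).eval x =
          ((g.map (algebraMap L₀ K)).eval x - f.eval x) + f.eval x := by ring
      rw [this]
      refine (IsUltrametricDist.norm_add_le_max _ _).trans ?_
      exact max_le ((h.trans hεM).trans (le_max_right _ _)) (le_max_left _ _)
    have hrootbd : ‖algebraMap L₀ K β‖ ≤ M := by
      refine norm_root_le_of_monic (g.map (algebraMap L₀ K)) (hgm.map _) (by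
        rw [natDegree_map]; omega) hM1 ?_ (by
        rw [eval_map_algebraMap, aeval_algebraMap_apply, aeval_def]
        have : eval₂ (algebraMap L₀ L₀) β g = 0 := by
          simpa [eval₂_eq_eval_map] using hβ
        rw [this, map_zero])
      intro i
      have : (g.map (algebraMap L₀ K)).coeff i =
          ((g.map (algebraMap L₀ K)).coeff i - f.coeff i) + f.coeff i := by ring
      rw [this]
      refine (IsUltrametricDist.norm_add_le_max _ _).trans ?_
      refine max_le ((hgc i).trans ?_) (hM i)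
      exact (min_le_left _ _).trans hM1
    refine ⟨algebraMap L₀ K β, hrootbd, ?_, ?_⟩
    · have h := hevalbd g ε hεpos.le hgn hgc hgm _ hrootbd
      have h0 : (g.map (algebraMap L₀ K)).eval (algebraMap L₀ K β) = 0 := by
        rw [eval_map_algebraMap, aeval_algebraMap_apply, aeval_def]
        have : eval₂ (algebraMap L₀ L₀) β g = 0 := by
          simpa [eval₂_eq_eval_map] using hβ
        rw [this, map_zero]
      rw [h0, zero_sub, norm_neg] at h
      exact h.trans hεM
    · rw [hgn] at hclose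
      exact hclose.trans hg1
  choose! F hF1 hF2 hF3 using step
  let δ : ℕ → ℝ := fun j => (1 / 2 : ℝ) ^ j
  have hδpos : ∀ j, 0 < δ j := fun j => by positivity
  have hδnpos : ∀ j, 0 < δ j ^ n := fun j => pow_pos (hδpos j) n
  let a : ℕ → K := fun j => Nat.rec (F 0 1) (fun j x => F x (δ (j + 1) ^ n)) j
  have ha0 : a 0 = F 0 1 := rfl
  have haS : ∀ j, a (j + 1) = F (a j) (δ (j + 1) ^ n) := fun j => rfl
  have hinv : ∀ j, ‖a j‖ ≤ M ∧ ‖f.eval (a j)‖ ≤ δ j ^ n := by
    intro j
    induction j with
    | zero =>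
      rw [ha0]
      have h0 : ‖(0 : K)‖ ≤ M := by simpa using hMpos.le
      exact ⟨hF1 0 1 one_pos h0, by simpa [δ] using hF2 0 1 one_pos h0⟩
    | succ j ih =>
      rw [haS]
      exact ⟨hF1 _ _ (hδnpos _) ih.1, hF2 _ _ (hδnpos _) ih.1⟩
  have hδmono : ∀ j, δ (j + 1) ^ n ≤ δ j ^ n := by
    intro j
    have : δ (j + 1) ≤ δ j := by
      simp only [δ, pow_succ]
      have : (0 : ℝ) < (1 / 2) ^ j := by positivity
      nlinarith
    exact pow_le_pow_left₀ (hδpos _).le this n
  have hdist : ∀ j, dist (a j) (a (j + 1)) ≤ 1 * (1 / 2 : ℝ) ^ j := by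
    intro j
    rw [one_mul, dist_eq_norm, haS]
    have h := hF3 (a j) (δ (j + 1) ^ n) (hδnpos _) (hinv j).1
    have h2 : ‖a j - F (a j) (δ (j + 1) ^ n)‖ ^ n ≤ δ j ^ n :=
      h.trans (max_le (hinv j).2 (hδmono j))
    exact le_of_pow_le_pow_left₀ (by omega) (hδpos j).le h2
  have hc : CauchySeq a := cauchySeq_of_le_geometric (1 / 2) 1 (by norm_num) hdist
  obtain ⟨x, hx⟩ := cauchySeq_tendsto_of_complete hc
  refine ⟨x, ?_⟩
  have hlim1 : Filter.Tendsto (fun j => f.eval (a j)) Filter.atTop (nhds (f.eval x)) :=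
    (f.continuous.tendsto x).comp hx
  have hlim2 : Filter.Tendsto (fun j => f.eval (a j)) Filter.atTop (nhds 0) := by
    rw [tendsto_zero_iff_norm_tendsto_zero]
    have hδ0 : Filter.Tendsto (fun j => (1 / 2 : ℝ) ^ j) Filter.atTop (nhds 0) :=
      tendsto_pow_atTop_nhds_zero_of_lt_one (by norm_num) (by norm_num)
    refine squeeze_zero (fun _ => norm_nonneg _) (fun j => ?_) hδ0
    refine (hinv j).2.trans ?_
    calc δ j ^ n ≤ δ j ^ 1 := pow_le_pow_of_le_one (hδpos j).le
          (by simp only [δ]; exact pow_le_one₀ (by norm_num) (by norm_num)) hn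
      _ = (1 / 2 : ℝ) ^ j := by simp [δ]
  exact tendsto_nhds_unique hlim1 hlim2

end Crest.Agent.LT
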