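/-
Abstract functional equation lemma (Hazewinkel), BLUEPRINT §A4.
-/
import Mathlib

set_option autoImplicit false
set_option linter.unusedSectionVars false

namespace Crest.Agent.LT.FE

open Finset

section Order

variable {τ R : Type*} [CommRing R]

open MvPowerSeries

lemma order_sum_ge {ι : Type*} (s : Finset ι) (f : ι → MvPowerSeries τ R) (K : ℕ∞)
    (h : ∀ i ∈ s, K ≤ (f i).order) : K ≤ (∑ i ∈ s, f i).order := by
  classical
  induction s using Finset.induction_on with
  | empty => simp
  | insert a s ha ih =>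
    rw [Finset.sum_insert ha]
    refine le_trans ?_ min_order_le_add
    exact le_min (h a (Finset.mem_insert_self _ _))
      (ih fun i hi => h i (Finset.mem_insert_of_mem hi))

lemma order_mul_ge_left (f g : MvPowerSeries τ R) : f.order ≤ (f * g).order :=
  le_trans (by simp) (le_order_mul (f := f) (g := g))

lemma order_pow_sub_pow_ge (a b : MvPowerSeries τ R) (k : ℕ) :
    (a - b).order ≤ (a ^ k - b ^ k).order := by
  obtain ⟨q, hq⟩ := sub_dvd_pow_sub_pow a b k
  rw [hq]
  exact order_mul_ge_left _ _

lemma order_pow_sub_pow_ge' (a b : MvPowerSeries τ R) (ha : constantCoeff a = 0)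
    (hb : constantCoeff b = 0) (k : ℕ) (hk : 1 ≤ k) :
    (a - b).order + ((k - 1 : ℕ) : ℕ∞) ≤ (a ^ k - b ^ k).order := by
  have h := (Commute.all a b).geom_sum₂_mul k
  rw [← h, mul_comm]
  refine le_trans ?_ le_order_mul
  gcongr
  refine order_sum_ge _ _ _ fun i hi => ?_
  have hi' : i < k := Finset.mem_range.mp hi
  refine le_trans ?_ le_order_mul
  have h1 := le_order_pow_of_constantCoeff_eq_zero (f := a) i ha
  have h2 := le_order_pow_of_constantCoeff_eq_zero (f := b) (k - 1 - i) hb
  refine le_trans ?_ (add_le_add h1 h2)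
  rw [← Nat.cast_add]
  gcongr
  omega

/-- Coefficients below the order of the difference agree. -/
lemma coeff_eq_of_order_sub {a b : MvPowerSeries τ R} {K : ℕ∞} (h : K ≤ (a - b).order)
    (e : τ →₀ ℕ) (he : (e.degree : ℕ∞) < K) : coeff e a = coeff e b := by
  have := coeff_of_lt_order (f := a - b) (d := e) (lt_of_lt_of_le he h)
  rw [map_sub, sub_eq_zero] at this
  exact this

variable {S : Type*} [CommRing S] [Algebra S R]

lemma order_subst_sub_subst_ge [Finite τ] (a b : MvPowerSeries τ R) (ha : constantCoeff a = 0)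
    (hb : constantCoeff b = 0) (f : PowerSeries S) :
    (a - b).order ≤ (PowerSeries.subst a f - PowerSeries.subst b f).order := by
  refine le_order fun e he => ?_
  have ha' : PowerSeries.HasSubst a := PowerSeries.HasSubst.of_constantCoeff_zero ha
  have hb' : PowerSeries.HasSubst b := PowerSeries.HasSubst.of_constantCoeff_zero hb
  rw [map_sub, PowerSeries.coeff_subst ha', PowerSeries.coeff_subst hb', sub_eq_zero]
  refine finsum_congr fun d => ?_
  congr 1
  exact coeff_eq_of_order_sub (order_pow_sub_pow_ge a b d |>.trans' le_rfl) e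
    (lt_of_lt_of_le he le_rfl)

end Order


/-! ### The series `L c = ∑ c m X^(p^m)` -/

section L

variable {R : Type*} [CommRing R] (p : ℕ)

/-- The series `∑ c m X^(p^m)`. -/
noncomputable def L (c : ℕ → R) : PowerSeries R :=
  PowerSeries.mk fun i => if i = p ^ Nat.log p i then c (Nat.log p i) else 0

variable {p}

lemma coeff_L_pow (hp : 1 < p) (c : ℕ → R) (m : ℕ) : PowerSeries.coeff (p ^ m) (L p c) = c m := by
  simp [L, Nat.log_pow hp]

lemma coeff_L_of_ne (c : ℕ → R) (i : ℕ) (hi : ∀ m, i ≠ p ^ m) : PowerSeries.coeff i (L p c) = 0 := by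
  simp only [L, PowerSeries.coeff_mk]
  rw [if_neg (hi _)]

lemma map_L {S : Type*} [CommRing S] (f : R →+* S) (c : ℕ → R) :
    PowerSeries.map f (L p c) = L p (fun m => f (c m)) := by
  ext i
  simp only [L, PowerSeries.coeff_map, PowerSeries.coeff_mk]
  split_ifs <;> simp

lemma constantCoeff_L (hp : 1 < p) (c : ℕ → R) : PowerSeries.constantCoeff (L p c) = 0 := by
  rw [← PowerSeries.coeff_zero_eq_constantCoeff_apply]
  refine coeff_L_of_ne c 0 fun m h => ?_
  exact (pow_pos (by omega : 0 < p) m).ne h

end L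

/-! ### Abstract data -/

/-- The data of the functional equation lemma. -/
structure Data (p : ℕ) (A R Ā : Type*) [CommRing A] [CommRing R] [CommRing Ā] where
  ι : A →+* R
  ι_inj : Function.Injective ι
  π : R
  π_mul : π * (p : R) = 1
  σA : A →+* A
  σ : R →+* R
  σ_ι : ∀ a, σ (ι a) = ι (σA a)
  red : A →+* Ā
  red_ker : ∀ x, red x = 0 → ∃ y, x = (p : A) * y
  red_σ : ∀ a, red (σA a) = red a ^ p
  N : ℕ
  w : ℕ → A
  c : ℕ → R
  c_zero : c 0 = 1
  c_succ : ∀ m, c (m + 1) = ∑ i ∈ range (m + 1), π * ι (w (i + 1)) * (σ ^ (i + 1)) (c (m - i))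
  w_large : ∀ i, N < i → w i = 0

namespace Data

variable {p : ℕ} [hp : Fact p.Prime] {A R Ā : Type*} [CommRing A] [CommRing R] [CommRing Ā]
  [CharP Ā p] (D : Data p A R Ā)

lemma σ_pow_ι (i : ℕ) (a : A) : (D.σ ^ i) (D.ι a) = D.ι ((D.σA ^ i) a) := by
  induction i with
  | zero => simp
  | succ i ih =>
    simp only [RingHom.coe_pow, Function.iterate_succ_apply'] at ih ⊢
    rw [ih, D.σ_ι]

lemma red_σ_pow [ExpChar Ā p] (i : ℕ) (a : A) :
    D.red ((D.σA ^ i) a) = iterateFrobenius Ā p i (D.red a) := by
  induction i with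
  | zero => simp
  | succ i ih =>
    simp only [RingHom.coe_pow, Function.iterate_succ_apply'] at ih ⊢
    rw [D.red_σ, ih, iterateFrobenius_def, iterateFrobenius_def, pow_succ, pow_mul]

/-- `p^m c_m` is integral. -/
lemma exists_pow_mul_c (m : ℕ) : ∃ d : A, (p : R) ^ m * D.c m = D.ι d := by
  induction m using Nat.strong_induction_on with
  | _ m ih =>
    cases m with
    | zero => exact ⟨1, by simp [D.c_zero]⟩
    | succ m =>
      have key : ∀ i ∈ range (m + 1), ∃ d : A, (p : R) ^ (m + 1) *
          (D.π * D.ι (D.w (i + 1)) * (D.σ ^ (i + 1)) (D.c (m - i))) = D.ι d := by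
        intro i hi
        have hi' : i ≤ m := Nat.lt_succ_iff.mp (mem_range.mp hi)
        obtain ⟨d, hd⟩ := ih (m - i) (by omega)
        refine ⟨(p : A) ^ i * D.w (i + 1) * (D.σA ^ (i + 1)) d, ?_⟩
        have h2 : (p : R) ^ (m - i) * (D.σ ^ (i + 1)) (D.c (m - i)) = D.ι ((D.σA ^ (i + 1)) d) := by
          rw [← σ_pow_ι, ← hd, map_mul, map_pow, map_natCast]
        have h3 : (p : R) ^ (m + 1) = (p : R) * (p : R) ^ i * (p : R) ^ (m - i) := by
          rw [mul_assoc, ← pow_add, ← pow_succ']
          congr 1; omega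
        rw [h3, map_mul, map_mul, map_pow, map_natCast, ← h2]
        calc _ = (D.π * (p : R)) * ((p : R) ^ i * D.ι (D.w (i + 1)) *
              ((p : R) ^ (m - i) * (D.σ ^ (i + 1)) (D.c (m - i)))) := by ring
          _ = _ := by rw [D.π_mul]; ring
      choose! d hd using key
      refine ⟨∑ i ∈ range (m + 1), d i, ?_⟩
      rw [D.c_succ, map_sum, mul_sum]
      exact Finset.sum_congr rfl hd

/-- `p^m σ^i c_m` is integral. -/
lemma exists_pow_mul_σ_c (i m : ℕ) : ∃ d : A, (p : R) ^ m * (D.σ ^ i) (D.c m) = D.ι d := by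
  obtain ⟨d, hd⟩ := D.exists_pow_mul_c m
  refine ⟨(D.σA ^ i) d, ?_⟩
  rw [← σ_pow_ι, ← hd, map_mul, map_pow, map_natCast]

variable {τ : Type*} 

/-- Frobenius congruence at series level. -/
lemma exists_pow_sub_expand (i : ℕ) (G : MvPowerSeries τ A) :
    ∃ E : MvPowerSeries τ A, G ^ p ^ i - MvPowerSeries.expand (p ^ i)
        (pow_ne_zero i hp.out.ne_zero) (MvPowerSeries.map (D.σA ^ i) G) =
      MvPowerSeries.C (p : A) * E := by
  have : ExpChar Ā p := ExpChar.prime hp.out
  have key : ∀ e, ∃ y : A, MvPowerSeries.coeff e (G ^ p ^ i - MvPowerSeries.expand (p ^ i)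
        (pow_ne_zero i hp.out.ne_zero) (MvPowerSeries.map (D.σA ^ i) G)) = (p : A) * y := by
    intro e
    apply D.red_ker
    have h1 : MvPowerSeries.map D.red (G ^ p ^ i - MvPowerSeries.expand (p ^ i)
        (pow_ne_zero i hp.out.ne_zero) (MvPowerSeries.map (D.σA ^ i) G)) = 0 := by
      rw [map_sub, map_pow, MvPowerSeries.map_expand,
        ← MvPowerSeries.map_iterateFrobenius_expand p hp.out.ne_zero]
      rw [sub_eq_zero, MvPowerSeries.map_expand]
      congr 1
      ext e
      simp only [MvPowerSeries.coeff_map]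
      rw [D.red_σ_pow]
    have := congrArg (MvPowerSeries.coeff e) h1
    rw [MvPowerSeries.coeff_map, map_zero] at this
    exact this
  choose y hy using key
  obtain ⟨E, hE⟩ : ∃ E : MvPowerSeries τ A, ∀ e, MvPowerSeries.coeff e E = y e :=
    ⟨fun e => y e, fun e => rfl⟩
  refine ⟨E, ?_⟩
  ext e
  rw [hy, MvPowerSeries.coeff_C_mul, hE]

/-- the twisted Frobenius operator `Φ_i` on series over `R`. -/
noncomputable def Φ (i : ℕ) (u : MvPowerSeries τ R) : MvPowerSeries τ R :=
  MvPowerSeries.expand (p ^ i) (pow_ne_zero i hp.out.ne_zero) (MvPowerSeries.map (D.σ ^ i) u)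

lemma coeff_subst_L_congr [Finite τ] (i : ℕ) {a b : MvPowerSeries τ A}
    (ha : MvPowerSeries.constantCoeff a = 0) (hb : MvPowerSeries.constantCoeff b = 0)
    (E : MvPowerSeries τ A) (hab : a - b = MvPowerSeries.C (p : A) * E)
    (e : τ →₀ ℕ) :
    ∃ y : A, MvPowerSeries.coeff e (PowerSeries.subst (MvPowerSeries.map D.ι a)
          (L p fun m => (D.σ ^ i) (D.c m))) -
        MvPowerSeries.coeff e (PowerSeries.subst (MvPowerSeries.map D.ι b)
          (L p fun m => (D.σ ^ i) (D.c m))) = (p : R) * D.ι y := by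
  classical
  have hp1 : 1 < p := hp.out.one_lt
  have ha' : PowerSeries.HasSubst (MvPowerSeries.map D.ι a) :=
    PowerSeries.HasSubst.of_constantCoeff_zero (by simp [ha])
  have hb' : PowerSeries.HasSubst (MvPowerSeries.map D.ι b) :=
    PowerSeries.HasSubst.of_constantCoeff_zero (by simp [hb])
  set l := L p fun m => (D.σ ^ i) (D.c m) with hl
  -- the finite sum formula
  have hfin : ∀ (x : MvPowerSeries τ A), MvPowerSeries.constantCoeff x = 0 →
      MvPowerSeries.coeff e (PowerSeries.subst (MvPowerSeries.map D.ι x) l) =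
        ∑ d ∈ range (e.degree + 1), PowerSeries.coeff d l *
          D.ι (MvPowerSeries.coeff e (x ^ d)) := by
    intro x hx
    have hx' : PowerSeries.HasSubst (MvPowerSeries.map D.ι x) :=
      PowerSeries.HasSubst.of_constantCoeff_zero (by simp [hx])
    rw [PowerSeries.coeff_subst hx', finsum_eq_sum_of_support_subset (s := range (e.degree + 1))]
    · refine Finset.sum_congr rfl fun d _ => ?_
      rw [smul_eq_mul, ← map_pow, MvPowerSeries.coeff_map]
    · intro d hd
      simp only [Function.mem_support, smul_eq_mul] at hd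
      simp only [coe_range, Set.mem_Iio]
      by_contra hlt
      apply hd
      have hz : MvPowerSeries.coeff e ((MvPowerSeries.map D.ι x) ^ d) = 0 := by
        apply MvPowerSeries.coeff_of_lt_order
        refine lt_of_lt_of_le ?_ (MvPowerSeries.le_order_pow_of_constantCoeff_eq_zero d
          (by simp [hx]))
        exact_mod_cast (by omega : e.degree < d)
      rw [hz, mul_zero]
  rw [hfin a ha, hfin b hb, ← Finset.sum_sub_distrib]
  have key : ∀ d ∈ range (e.degree + 1), ∃ y : A, PowerSeries.coeff d l *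
      D.ι (MvPowerSeries.coeff e (a ^ d)) - PowerSeries.coeff d l *
      D.ι (MvPowerSeries.coeff e (b ^ d)) = (p : R) * D.ι y := by
    intro d _
    by_cases hd : ∃ m, d = p ^ m
    · obtain ⟨m, rfl⟩ := hd
      rw [hl, coeff_L_pow hp1, ← mul_sub, ← map_sub, ← map_sub]
      have hdvd : ((p : MvPowerSeries τ A)) ∣ a - b := by
        refine ⟨E, ?_⟩
        rw [hab]
        congr 1
      obtain ⟨K, hK⟩ := dvd_sub_pow_of_dvd_sub hdvd m
      obtain ⟨d', hd'⟩ := D.exists_pow_mul_σ_c i m
      refine ⟨d' * MvPowerSeries.coeff e K, ?_⟩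
      rw [hK]
      have : ((p : MvPowerSeries τ A)) ^ (m + 1) = MvPowerSeries.C ((p : A) ^ (m + 1)) := by
        simp
      rw [this, MvPowerSeries.coeff_C_mul, map_mul, map_mul, map_pow, map_natCast, pow_succ]
      linear_combination (D.ι (MvPowerSeries.coeff e K) * (p : R)) * hd'
    · rw [hl, coeff_L_of_ne _ _ (fun m h => hd ⟨m, h⟩)]
      exact ⟨0, by simp⟩
  choose! y hy using key
  refine ⟨∑ d ∈ range (e.degree + 1), y d, ?_⟩
  rw [map_sum, mul_sum]
  exact Finset.sum_congr rfl hy

/-- The functional equation of `L`, as an identity of series. -/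
lemma L_eq_series : L p D.c = PowerSeries.X + ∑ i ∈ Icc 1 D.N,
    PowerSeries.C (D.π * D.ι (D.w i)) * PowerSeries.subst (PowerSeries.X ^ (p ^ i) : PowerSeries R)
      (L p fun m => (D.σ ^ i) (D.c m)) := by
  classical
  have hp1 : 1 < p := hp.out.one_lt
  ext j
  rw [map_add, map_sum]
  simp only [PowerSeries.coeff_C_mul]
  have hpi : ∀ i, p ^ i ≠ 0 := fun i => pow_ne_zero i hp.out.ne_zero
  simp only [PowerSeries.coeff_subst_X_pow (hpi _), Algebra.algebraMap_self, RingHom.id_apply]
  by_cases hj : ∃ m, j = p ^ m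
  · obtain ⟨m, rfl⟩ := hj
    rw [coeff_L_pow hp1]
    cases m with
    | zero =>
      simp only [pow_zero, D.c_zero, PowerSeries.coeff_one_X]
      rw [Finset.sum_eq_zero, add_zero]
      intro i hi
      have hi1 : 1 ≤ i := (mem_Icc.mp hi).1
      rw [if_neg, mul_zero]
      intro hdvd
      have := Nat.le_of_dvd one_pos hdvd
      have h2 : p ^ 1 ≤ p ^ i := Nat.pow_le_pow_right hp.out.pos hi1
      rw [pow_one] at h2
      omega
    | succ m =>
      have hX : PowerSeries.coeff (p ^ (m + 1)) (PowerSeries.X : PowerSeries R) = 0 := by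
        rw [PowerSeries.coeff_X, if_neg]
        have : 1 < p ^ (m + 1) := Nat.one_lt_pow (by omega) hp1
        omega
      rw [hX, zero_add, D.c_succ]
      set T : ℕ → R := fun i => if i ≤ m + 1 then
        D.π * D.ι (D.w i) * (D.σ ^ i) (D.c (m + 1 - i)) else 0 with hT
      have h1 : ∑ i ∈ Icc 1 D.N, (D.π * D.ι (D.w i)) * (if p ^ i ∣ p ^ (m + 1) then
          PowerSeries.coeff (p ^ (m + 1) / p ^ i) (L p fun m => (D.σ ^ i) (D.c m)) else 0) =
          ∑ i ∈ Icc 1 D.N, T i := by
        refine Finset.sum_congr rfl fun i hi => ?_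
        by_cases hle : i ≤ m + 1
        · rw [if_pos ((Nat.pow_dvd_pow_iff_le_right hp1).mpr hle), hT]
          simp only
          rw [if_pos hle, Nat.pow_div hle hp.out.pos, coeff_L_pow hp1]
        · rw [if_neg (mt (Nat.pow_dvd_pow_iff_le_right hp1).mp hle), hT]
          simp only
          rw [if_neg hle, mul_zero]
      have h2 : ∑ i ∈ range (m + 1), D.π * D.ι (D.w (i + 1)) * (D.σ ^ (i + 1)) (D.c (m - i)) =
          ∑ i ∈ Icc 1 (m + 1), T i := by
        have : Ico (0 + 1) (m + 1 + 1) = Icc 1 (m + 1) := by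
          ext x; simp only [mem_Ico, mem_Icc]; omega
        rw [range_eq_Ico, ← this, ← Finset.sum_Ico_add' (fun i => T i) 0 (m + 1) 1]
        refine Finset.sum_congr rfl fun i hi => ?_
        have hi' : i < m + 1 := (mem_Ico.mp hi).2
        simp only [hT]
        rw [if_pos (by omega)]
        congr 3
        omega
      rw [h1, h2]
      have hsub1 : Icc 1 D.N ⊆ Icc 1 (D.N + (m + 1)) := by
        intro x; simp only [mem_Icc]; omega
      have hsub2 : Icc 1 (m + 1) ⊆ Icc 1 (D.N + (m + 1)) := by
        intro x; simp only [mem_Icc]; omega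
      rw [Finset.sum_subset hsub1, Finset.sum_subset hsub2]
      · intro x _ hx
        simp only [mem_Icc, not_and, not_le] at hx
        simp only [hT]
        by_cases h1x : 1 ≤ x
        · rw [if_neg (by have := hx h1x; omega)]
        · have hx0 : x ≤ D.N + (m + 1) ∧ 1 ≤ x := by
            rename_i hxx
            have := mem_Icc.mp hxx
            omega
          omega
      · intro x _ hx
        simp only [mem_Icc, not_and, not_le] at hx
        simp only [hT]
        rename_i hxx
        have := mem_Icc.mp hxx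
        have hN := hx this.1
        rw [D.w_large x hN]
        simp
  · have hj1 : j ≠ 1 := fun h => hj ⟨0, by simp [h]⟩
    rw [coeff_L_of_ne _ _ (fun m h => hj ⟨m, h⟩), PowerSeries.coeff_X, if_neg hj1, zero_add]
    symm
    refine Finset.sum_eq_zero fun i _ => ?_
    split_ifs with hdvd
    · rw [coeff_L_of_ne, mul_zero]
      intro m hm
      apply hj
      refine ⟨i + m, ?_⟩
      rw [pow_add, ← hm, Nat.mul_div_cancel' hdvd]
    · simp

omit [CharP Ā p] in
lemma subst_X_pow_comp {b : MvPowerSeries τ R} (hb : PowerSeries.HasSubst b)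
    (k : ℕ) (hk : k ≠ 0) (f : PowerSeries R) :
    PowerSeries.subst b (PowerSeries.subst (PowerSeries.X ^ k : PowerSeries R) f) =
      PowerSeries.subst (b ^ k) f := by
  rw [PowerSeries.subst_comp_subst_apply (PowerSeries.HasSubst.X_pow hk) hb]
  congr 1
  rw [PowerSeries.subst_pow hb, PowerSeries.subst_X hb]

/-- The functional equation after substitution. -/
lemma subst_L (Z : MvPowerSeries τ R) (hZ : MvPowerSeries.constantCoeff Z = 0) :
    PowerSeries.subst Z (L p D.c) = Z + ∑ i ∈ Icc 1 D.N,
      MvPowerSeries.C (D.π * D.ι (D.w i)) * PowerSeries.subst (Z ^ (p ^ i))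
        (L p fun m => (D.σ ^ i) (D.c m)) := by
  have hZ' : PowerSeries.HasSubst Z := PowerSeries.HasSubst.of_constantCoeff_zero hZ
  conv_lhs => rw [D.L_eq_series]
  rw [PowerSeries.subst_add hZ', PowerSeries.subst_X hZ']
  congr 1
  rw [← PowerSeries.coe_substAlgHom hZ', map_sum]
  refine Finset.sum_congr rfl fun i _ => ?_
  rw [map_mul, PowerSeries.coe_substAlgHom hZ', PowerSeries.subst_C,
    subst_X_pow_comp hZ' _ (pow_ne_zero i hp.out.ne_zero)]

lemma Φ_subst (i : ℕ) (Z : MvPowerSeries τ R) (hZ : MvPowerSeries.constantCoeff Z = 0)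
    (c : ℕ → R) :
    D.Φ i (PowerSeries.subst Z (L p c)) =
      PowerSeries.subst (D.Φ i Z) (L p fun m => (D.σ ^ i) (c m)) := by
  have hZ' : PowerSeries.HasSubst Z := PowerSeries.HasSubst.of_constantCoeff_zero hZ
  unfold Φ
  rw [PowerSeries.map_subst hZ', map_L]
  exact MvPowerSeries.expand_subst _ _ (PowerSeries.HasSubst.const
    (PowerSeries.HasSubst.of_constantCoeff_zero (by simp [hZ])))

lemma Φ_sub (i : ℕ) (a b : MvPowerSeries τ R) : D.Φ i (a - b) = D.Φ i a - D.Φ i b := by
  unfold Φ
  rw [map_sub, map_sub]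

lemma Φ_map (i : ℕ) (G : MvPowerSeries τ A) :
    D.Φ i (MvPowerSeries.map D.ι G) = MvPowerSeries.map D.ι
      (MvPowerSeries.expand (p ^ i) (pow_ne_zero i hp.out.ne_zero)
        (MvPowerSeries.map (D.σA ^ i) G)) := by
  unfold Φ
  rw [MvPowerSeries.map_expand]
  congr 1
  ext e
  simp only [MvPowerSeries.coeff_map]
  rw [σ_pow_ι]

lemma order_Φ_ge (i : ℕ) (a : MvPowerSeries τ R) (d : ℕ) (ha : (d : ℕ∞) ≤ a.order) :
    ((p ^ i * d : ℕ) : ℕ∞) ≤ (D.Φ i a).order := by
  unfold Φ
  rw [MvPowerSeries.order_expand]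
  have h1 : (d : ℕ∞) ≤ (MvPowerSeries.map (D.σ ^ i) a).order :=
    ha.trans (MvPowerSeries.le_order_map _)
  rw [Nat.cast_mul, nsmul_eq_mul]
  gcongr

/-- **Functional equation lemma**: if `L(Z) = u` and `u - ∑ π w_i Φ_i u` is integral, then `Z` is
integral. -/
theorem integral_of_subst_L [Finite τ] (Z u : MvPowerSeries τ R)
    (hZ : MvPowerSeries.constantCoeff Z = 0) (hu : PowerSeries.subst Z (L p D.c) = u)
    (hH : ∀ e, MvPowerSeries.coeff e (u - ∑ i ∈ Icc 1 D.N,
        MvPowerSeries.C (D.π * D.ι (D.w i)) * D.Φ i u) ∈ D.ι.range) :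
    ∀ e, MvPowerSeries.coeff e Z ∈ D.ι.range := by
  classical
  have hp1 : 1 < p := hp.out.one_lt
  have main : ∀ (d : ℕ) (e : τ →₀ ℕ), e.degree < d → MvPowerSeries.coeff e Z ∈ D.ι.range := by
    intro d
    induction d with
    | zero => intro e he; omega
    | succ d ih =>
      intro e he
      by_cases hed : e.degree < d
      · exact ih e hed
      have hed' : e.degree = d := by omega
      by_cases hd : d = 0
      · subst hd
        have he0 : e = 0 := by
          have := (Finsupp.degree_eq_zero_iff e).mp hed'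
          exact this
        rw [he0, MvPowerSeries.coeff_zero_eq_constantCoeff_apply, hZ]
        exact zero_mem _
      have hd1 : 1 ≤ d := by omega
      -- the integral truncation
      choose! g hg using (show ∀ e' : τ →₀ ℕ, e'.degree < d →
        ∃ a : A, D.ι a = MvPowerSeries.coeff e' Z from fun e' h => ih e' h)
      obtain ⟨G, hGc⟩ : ∃ G : MvPowerSeries τ A, ∀ e', MvPowerSeries.coeff e' G =
          if e'.degree < d then g e' else 0 :=
        ⟨fun e' => if e'.degree < d then g e' else 0, fun e' => rfl⟩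
      set G' := MvPowerSeries.map D.ι G with hG'
      have hG'c : ∀ e', e'.degree < d → MvPowerSeries.coeff e' G' = MvPowerSeries.coeff e' Z := by
        intro e' h
        rw [hG', MvPowerSeries.coeff_map, hGc, if_pos h, hg e' h]
      have hG0 : MvPowerSeries.constantCoeff G = 0 := by
        apply D.ι_inj
        rw [map_zero, ← MvPowerSeries.coeff_zero_eq_constantCoeff_apply, ← MvPowerSeries.coeff_map,
          ← hG', hG'c 0 (by simp; omega), MvPowerSeries.coeff_zero_eq_constantCoeff_apply, hZ]
      have hG'0 : MvPowerSeries.constantCoeff G' = 0 := by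
        rw [hG']; simp [hG0]
      have hord : (d : ℕ∞) ≤ (Z - G').order := by
        refine MvPowerSeries.nat_le_order fun e' h => ?_
        rw [map_sub, hG'c e' h, sub_self]
      -- coefficient identity
      have hZeq : Z = (u - ∑ i ∈ Icc 1 D.N, MvPowerSeries.C (D.π * D.ι (D.w i)) * D.Φ i u) +
          ∑ i ∈ Icc 1 D.N, MvPowerSeries.C (D.π * D.ι (D.w i)) *
            (PowerSeries.subst (D.Φ i Z) (L p fun m => (D.σ ^ i) (D.c m)) -
              PowerSeries.subst (Z ^ p ^ i) (L p fun m => (D.σ ^ i) (D.c m))) := by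
        have h1 := D.subst_L Z hZ
        rw [hu] at h1
        have h2 : ∀ i, D.Φ i u = PowerSeries.subst (D.Φ i Z) (L p fun m => (D.σ ^ i) (D.c m)) := by
          intro i
          rw [← hu, D.Φ_subst i Z hZ]
        simp only [mul_sub, Finset.sum_sub_distrib, h2]
        rw [h1]
        ring
      rw [hZeq, map_add, map_sum]
      refine add_mem (hH e) (sum_mem fun i hi => ?_)
      have hi1 : 1 ≤ i := (mem_Icc.mp hi).1
      rw [MvPowerSeries.coeff_C_mul, map_sub]
      have hpi : p ≤ p ^ i := by
        calc p = p ^ 1 := (pow_one p).symm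
          _ ≤ p ^ i := Nat.pow_le_pow_right hp.out.pos hi1
      have hpi0 : p ^ i ≠ 0 := pow_ne_zero i hp.out.ne_zero
      have hΦ0 : ∀ x : MvPowerSeries τ R, MvPowerSeries.constantCoeff x = 0 →
          MvPowerSeries.constantCoeff (D.Φ i x) = 0 := by
        intro x hx
        unfold Φ
        rw [MvPowerSeries.constantCoeff_expand]
        simp [hx]
      -- step a
      have ha : MvPowerSeries.coeff e (PowerSeries.subst (D.Φ i Z)
            (L p fun m => (D.σ ^ i) (D.c m))) =
          MvPowerSeries.coeff e (PowerSeries.subst (D.Φ i G')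
            (L p fun m => (D.σ ^ i) (D.c m))) := by
        refine coeff_eq_of_order_sub (K := (D.Φ i Z - D.Φ i G').order)
          (order_subst_sub_subst_ge _ _ (hΦ0 _ hZ) (hΦ0 _ hG'0) _) e ?_
        rw [← D.Φ_sub]
        refine lt_of_lt_of_le ?_ (D.order_Φ_ge i _ d hord)
        rw [hed']
        have : d < p ^ i * d := by nlinarith
        exact_mod_cast this
      -- step b
      have hb : MvPowerSeries.coeff e (PowerSeries.subst (Z ^ p ^ i)
            (L p fun m => (D.σ ^ i) (D.c m))) =
          MvPowerSeries.coeff e (PowerSeries.subst (G' ^ p ^ i)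
            (L p fun m => (D.σ ^ i) (D.c m))) := by
        refine coeff_eq_of_order_sub (K := (Z ^ p ^ i - G' ^ p ^ i).order)
          (order_subst_sub_subst_ge _ _ (by rw [map_pow, hZ, zero_pow hpi0])
            (by rw [map_pow, hG'0, zero_pow hpi0]) _) e ?_
        refine lt_of_lt_of_le ?_ (order_pow_sub_pow_ge' Z G' hZ hG'0 _ (by omega))
        refine lt_of_lt_of_le ?_ (add_le_add_left hord _)
        rw [hed', ← Nat.cast_add]
        have : d < d + (p ^ i - 1) := by omega
        exact_mod_cast this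
      -- step c
      obtain ⟨E, hE⟩ := D.exists_pow_sub_expand i G
      have hc := D.coeff_subst_L_congr i
        (a := MvPowerSeries.expand (p ^ i) hpi0 (MvPowerSeries.map (D.σA ^ i) G))
        (b := G ^ p ^ i) (by simp [hG0]) (by rw [map_pow, hG0, zero_pow hpi0]) (-E)
        (by rw [mul_neg, ← hE]; ring) e
      obtain ⟨y, hy⟩ := hc
      rw [ha, hb, hG', D.Φ_map, ← map_pow, hy]
      refine ⟨D.w i * y, ?_⟩
      rw [map_mul]
      linear_combination (- D.ι (D.w i) * D.ι y) * D.π_mul
  intro e
  exact main _ e (Nat.lt_succ_self _)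

/-- The nonlinear part of `l` gains a degree. -/
lemma coeff_subst_eq_of_order_two [Finite τ] {a b : MvPowerSeries τ R} (ha : MvPowerSeries.constantCoeff a = 0)
    (hb : MvPowerSeries.constantCoeff b = 0) (f : PowerSeries R)
    (hf : ∀ k, k < 2 → PowerSeries.coeff k f = 0) (e : τ →₀ ℕ)
    (he : (e.degree : ℕ∞) < (a - b).order + 1) :
    MvPowerSeries.coeff e (PowerSeries.subst a f) = MvPowerSeries.coeff e (PowerSeries.subst b f) := by
  have ha' : PowerSeries.HasSubst a := PowerSeries.HasSubst.of_constantCoeff_zero ha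
  have hb' : PowerSeries.HasSubst b := PowerSeries.HasSubst.of_constantCoeff_zero hb
  rw [PowerSeries.coeff_subst ha', PowerSeries.coeff_subst hb']
  refine finsum_congr fun k => ?_
  by_cases hk : k < 2
  · rw [hf k hk, zero_smul, zero_smul]
  congr 1
  refine coeff_eq_of_order_sub (order_pow_sub_pow_ge' a b ha hb k (by omega)) e
    (lt_of_lt_of_le he ?_)
  gcongr
  have : 1 ≤ k - 1 := by omega
  exact_mod_cast this

lemma coeff_L_low (c : ℕ → R) (h0 : c 0 = 1) (k : ℕ) (hk : k < 2) :
    PowerSeries.coeff k (L p c - PowerSeries.X) = 0 := by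
  have hp1 : 1 < p := hp.out.one_lt
  interval_cases k
  · rw [map_sub, PowerSeries.coeff_zero_eq_constantCoeff_apply, constantCoeff_L hp1]
    simp
  · have := coeff_L_pow hp1 c 0
    rw [pow_zero, h0] at this
    rw [map_sub, this, PowerSeries.coeff_one_X, sub_self]

/-- Converse congruence: if `l(a) ≡ l(b)` mod `p` then `a ≡ b` mod `p`. -/
theorem exists_sub_eq_of_subst_L [Finite τ] (a b : MvPowerSeries τ A)
    (ha : MvPowerSeries.constantCoeff a = 0) (hb : MvPowerSeries.constantCoeff b = 0)
    (h : ∀ e, ∃ y : A, MvPowerSeries.coeff e (PowerSeries.subst (MvPowerSeries.map D.ι a) (L p D.c)) -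
        MvPowerSeries.coeff e (PowerSeries.subst (MvPowerSeries.map D.ι b) (L p D.c)) =
        (p : R) * D.ι y) :
    ∃ E : MvPowerSeries τ A, a - b = MvPowerSeries.C (p : A) * E := by
  classical
  have hp1 : 1 < p := hp.out.one_lt
  have main : ∀ (d : ℕ) (e : τ →₀ ℕ), e.degree < d →
      ∃ y : A, MvPowerSeries.coeff e (a - b) = (p : A) * y := by
    intro d
    induction d with
    | zero => intro e he; omega
    | succ d ih =>
      intro e he
      by_cases hed : e.degree < d
      · exact ih e hed
      have hed' : e.degree = d := by omega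
      by_cases hd : d = 0
      · subst hd
        have he0 : e = 0 := (Finsupp.degree_eq_zero_iff e).mp hed'
        refine ⟨0, ?_⟩
        rw [he0, MvPowerSeries.coeff_zero_eq_constantCoeff_apply, map_sub, ha, hb]
        simp
      choose! g hg using (show ∀ e' : τ →₀ ℕ, e'.degree < d →
        ∃ y : A, MvPowerSeries.coeff e' (a - b) = (p : A) * y from fun e' h => ih e' h)
      obtain ⟨E, hEc⟩ : ∃ E : MvPowerSeries τ A, ∀ e', MvPowerSeries.coeff e' E =
          if e'.degree < d then g e' else 0 :=
        ⟨fun e' => if e'.degree < d then g e' else 0, fun e' => rfl⟩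
      set b' := b + MvPowerSeries.C (p : A) * E with hb'
      have hab' : ∀ e', e'.degree < d → MvPowerSeries.coeff e' (a - b') = 0 := by
        intro e' h'
        have := hg e' h'
        rw [hb', ← sub_sub, map_sub, this, MvPowerSeries.coeff_C_mul, hEc, if_pos h', sub_self]
      have hb'0 : MvPowerSeries.constantCoeff b' = 0 := by
        have := hab' 0 (by simp; omega)
        rw [map_sub, MvPowerSeries.coeff_zero_eq_constantCoeff_apply, ha, zero_sub, neg_eq_zero,
          ] at this
        exact this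
      have hcg := D.coeff_subst_L_congr 0 (a := b') (b := b) hb'0 hb E
        (by rw [hb']; ring) e
      simp only [pow_zero, RingHom.one_def, RingHom.id_apply] at hcg
      obtain ⟨y2, hy2⟩ := hcg
      obtain ⟨y1, hy1⟩ := h e
      have hι0 : MvPowerSeries.constantCoeff (MvPowerSeries.map D.ι a) = 0 := by simp [ha]
      have hι0' : MvPowerSeries.constantCoeff (MvPowerSeries.map D.ι b') = 0 := by simp [hb'0]
      have hord : (d : ℕ∞) ≤ (MvPowerSeries.map D.ι a - MvPowerSeries.map D.ι b').order := by
        refine MvPowerSeries.nat_le_order fun e' h' => ?_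
        rw [← map_sub, MvPowerSeries.coeff_map, hab' e' h', map_zero]
      have hl : ∀ x : MvPowerSeries τ R, MvPowerSeries.constantCoeff x = 0 →
          PowerSeries.subst x (L p D.c) = x + PowerSeries.subst x (L p D.c - PowerSeries.X) := by
        intro x hx
        have hx' : PowerSeries.HasSubst x := PowerSeries.HasSubst.of_constantCoeff_zero hx
        rw [PowerSeries.subst_sub hx', PowerSeries.subst_X hx']
        ring
      have hnl := coeff_subst_eq_of_order_two hι0 hι0' (L p D.c - PowerSeries.X)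
        (coeff_L_low D.c D.c_zero) e (by
          refine lt_of_lt_of_le ?_ (add_le_add_left hord _)
          rw [hed']
          exact_mod_cast Nat.lt_succ_self d)
      have key : D.ι (MvPowerSeries.coeff e a - MvPowerSeries.coeff e b') =
          D.ι ((p : A) * (y1 - y2)) := by
        have e1 := hl _ hι0
        have e2 := hl _ hι0'
        have h3 := hy1
        rw [e1, map_add, hnl] at h3
        have h4 := hy2
        rw [e2, map_add] at h4
        rw [map_sub, map_mul, map_natCast, map_sub]
        simp only [MvPowerSeries.coeff_map] at h3 h4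
        linear_combination h3 - h4
      have key' := D.ι_inj key
      refine ⟨y1 - y2 + MvPowerSeries.coeff e E, ?_⟩
      have : a - b = (a - b') + MvPowerSeries.C (p : A) * E := by rw [hb']; ring
      rw [this, map_add, MvPowerSeries.coeff_C_mul, map_sub, key']
      ring
  choose y hy using fun e => main (e.degree + 1) e (Nat.lt_succ_self _)
  obtain ⟨E, hE⟩ : ∃ E : MvPowerSeries τ A, ∀ e, MvPowerSeries.coeff e E = y e :=
    ⟨fun e => y e, fun e => rfl⟩
  refine ⟨E, ?_⟩
  ext e
  rw [hy, MvPowerSeries.coeff_C_mul, hE]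

end Data

end Crest.Agent.LT.FE
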