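/-
Formal group laws from logarithms (BLUEPRINT §A4).
-/
import Mathlib
import Crest.Prelude.Def_LubinTate
import Crest.Agent.Lib.LT.FE

set_option autoImplicit false
set_option linter.unusedSectionVars false

namespace Crest.Agent.LT.LogLaw

open MvPowerSeries

variable {R : Type*} [CommRing R] {τ σ' : Type*}

section Subst

/-- Substituting into a `PowerSeries.subst`. -/
lemma subst_powerSeries_subst {ρ : Type*} [Finite ρ] {b : ρ → MvPowerSeries τ R}
    (hb : MvPowerSeries.HasSubst b)
    {u : MvPowerSeries ρ R} (hu : PowerSeries.HasSubst u) (f : PowerSeries R) :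
    MvPowerSeries.subst b (PowerSeries.subst u f) =
      PowerSeries.subst (MvPowerSeries.subst b u) f := by
  rw [PowerSeries.subst, MvPowerSeries.subst_comp_subst_apply hu.const hb]
  rfl

lemma hasSubst_pair {a b : MvPowerSeries τ R} (ha : constantCoeff a = 0)
    (hb : constantCoeff b = 0) : MvPowerSeries.HasSubst ![a, b] :=
  hasSubst_of_constantCoeff_zero (fun i => by fin_cases i <;> simp [ha, hb])

lemma subst_pair_X0 {a b : MvPowerSeries τ R} (ha : constantCoeff a = 0)
    (hb : constantCoeff b = 0) : MvPowerSeries.subst ![a, b] (X 0 : MvPowerSeries (Fin 2) R) = a := by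
  rw [MvPowerSeries.subst_X (hasSubst_pair ha hb)]; rfl

lemma subst_pair_X1 {a b : MvPowerSeries τ R} (ha : constantCoeff a = 0)
    (hb : constantCoeff b = 0) : MvPowerSeries.subst ![a, b] (X 1 : MvPowerSeries (Fin 2) R) = b := by
  rw [MvPowerSeries.subst_X (hasSubst_pair ha hb)]; rfl

lemma IsLog.hasSubst_pair' {a b : MvPowerSeries τ R} (ha : constantCoeff a = 0)
    (hb : constantCoeff b = 0) : MvPowerSeries.HasSubst ![a, b] :=
  hasSubst_pair ha hb

end Subst

/-- A logarithm: zero constant coefficient, linear coefficient one. -/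
structure IsLog (l : PowerSeries R) : Prop where
  zero : PowerSeries.constantCoeff l = 0
  one : PowerSeries.coeff 1 l = 1

namespace IsLog

variable {l : PowerSeries R} (hl : IsLog l)

include hl

lemma isUnit : IsUnit (PowerSeries.coeff 1 l) := by rw [hl.one]; exact isUnit_one

/-- The inverse of the logarithm. -/
noncomputable def inv : PowerSeries R :=
  PowerSeries.substInvOfIsUnit l hl.isUnit

lemma inv_zero : PowerSeries.constantCoeff hl.inv = 0 :=
  PowerSeries.constantCoeff_substInvOfIsUnit l hl.isUnit

lemma inv_hasSubst : PowerSeries.HasSubst hl.inv :=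
  PowerSeries.HasSubst.of_constantCoeff_zero' hl.inv_zero

lemma l_hasSubst : PowerSeries.HasSubst l :=
  PowerSeries.HasSubst.of_constantCoeff_zero' hl.zero

lemma subst_inv_right : PowerSeries.subst hl.inv l = PowerSeries.X :=
  PowerSeries.subst_substInvOfIsUnit_right l hl.zero hl.isUnit

lemma subst_inv_left : PowerSeries.subst l hl.inv = PowerSeries.X :=
  PowerSeries.subst_substInvOfIsUnit_left l hl.zero hl.isUnit

lemma const_subst_l {a : MvPowerSeries τ R} (ha : constantCoeff a = 0) :
    constantCoeff (PowerSeries.subst a l) = 0 :=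
  PowerSeries.constantCoeff_subst_eq_zero ha l hl.zero

lemma const_subst_inv {a : MvPowerSeries τ R} (ha : constantCoeff a = 0) :
    constantCoeff (PowerSeries.subst a hl.inv) = 0 :=
  PowerSeries.constantCoeff_subst_eq_zero ha _ hl.inv_zero

/-- `l (l⁻¹ a) = a`. -/
lemma l_inv {a : MvPowerSeries τ R} (ha : constantCoeff a = 0) :
    PowerSeries.subst (PowerSeries.subst a hl.inv) l = a := by
  have ha' : PowerSeries.HasSubst a := PowerSeries.HasSubst.of_constantCoeff_zero ha
  rw [← PowerSeries.subst_comp_subst_apply hl.inv_hasSubst ha', hl.subst_inv_right,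
    PowerSeries.subst_X ha']

/-- `l⁻¹ (l a) = a`. -/
lemma inv_l {a : MvPowerSeries τ R} (ha : constantCoeff a = 0) :
    PowerSeries.subst (PowerSeries.subst a l) hl.inv = a := by
  have ha' : PowerSeries.HasSubst a := PowerSeries.HasSubst.of_constantCoeff_zero ha
  rw [← PowerSeries.subst_comp_subst_apply hl.l_hasSubst ha', hl.subst_inv_left,
    PowerSeries.subst_X ha']

/-- `l` is injective on series with zero constant coefficient. -/
lemma l_inj {a b : MvPowerSeries τ R} (ha : constantCoeff a = 0) (hb : constantCoeff b = 0)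
    (h : PowerSeries.subst a l = PowerSeries.subst b l) : a = b := by
  rw [← hl.inv_l ha, h, hl.inv_l hb]

/-- The series `l⁻¹(l X + l Y)`. -/
noncomputable def lawSeries : MvPowerSeries (Fin 2) R :=
  PowerSeries.subst
    (PowerSeries.subst (X 0 : MvPowerSeries (Fin 2) R) l +
      PowerSeries.subst (X 1 : MvPowerSeries (Fin 2) R) l) hl.inv

lemma u_const : constantCoeff (PowerSeries.subst (X 0 : MvPowerSeries (Fin 2) R) l +
      PowerSeries.subst (X 1 : MvPowerSeries (Fin 2) R) l) = 0 := by
  rw [map_add, hl.const_subst_l (by simp), hl.const_subst_l (by simp), add_zero]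

lemma lawSeries_const : constantCoeff hl.lawSeries = 0 :=
  hl.const_subst_inv hl.u_const

/-- evaluation of the law series at a pair -/
lemma subst_lawSeries {a b : MvPowerSeries τ R} (ha : constantCoeff a = 0)
    (hb : constantCoeff b = 0) :
    MvPowerSeries.subst ![a, b] hl.lawSeries =
      PowerSeries.subst (PowerSeries.subst a l + PowerSeries.subst b l) hl.inv := by
  have hp := hasSubst_pair ha hb
  unfold lawSeries
  rw [subst_powerSeries_subst hp (PowerSeries.HasSubst.of_constantCoeff_zero hl.u_const),
    MvPowerSeries.subst_add hp,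
    subst_powerSeries_subst hp (PowerSeries.HasSubst.X _),
    subst_powerSeries_subst hp (PowerSeries.HasSubst.X _),
    subst_pair_X0 ha hb, subst_pair_X1 ha hb]

lemma l_subst_lawSeries {a b : MvPowerSeries τ R} (ha : constantCoeff a = 0)
    (hb : constantCoeff b = 0) :
    PowerSeries.subst (MvPowerSeries.subst ![a, b] hl.lawSeries) l =
      PowerSeries.subst a l + PowerSeries.subst b l := by
  rw [hl.subst_lawSeries ha hb, hl.l_inv]
  rw [map_add, hl.const_subst_l ha, hl.const_subst_l hb, add_zero]

lemma l_lawSeries : PowerSeries.subst hl.lawSeries l =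
    PowerSeries.subst (X 0 : MvPowerSeries (Fin 2) R) l +
      PowerSeries.subst (X 1 : MvPowerSeries (Fin 2) R) l := by
  unfold lawSeries
  rw [hl.l_inv hl.u_const]

lemma const_subst_pair {a b : MvPowerSeries τ R} (ha : constantCoeff a = 0)
    (hb : constantCoeff b = 0) :
    constantCoeff (MvPowerSeries.subst ![a, b] hl.lawSeries) = 0 := by
  rw [hl.subst_lawSeries ha hb]
  apply hl.const_subst_inv
  rw [map_add, hl.const_subst_l ha, hl.const_subst_l hb, add_zero]

/-- Uniqueness of the law with a given logarithm. -/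
lemma eq_lawSeries {G : MvPowerSeries (Fin 2) R} (h0 : constantCoeff G = 0)
    (hG : PowerSeries.subst G l = PowerSeries.subst (X 0 : MvPowerSeries (Fin 2) R) l +
      PowerSeries.subst (X 1 : MvPowerSeries (Fin 2) R) l) : G = hl.lawSeries :=
  hl.l_inj h0 hl.lawSeries_const (by rw [hG, hl.l_lawSeries])

/-- `l(a) = a + (l-X)(a)`. -/
lemma subst_l_eq {a : MvPowerSeries τ R} (ha : constantCoeff a = 0) :
    PowerSeries.subst a l = a + PowerSeries.subst a (l - PowerSeries.X) := by
  have ha' : PowerSeries.HasSubst a := PowerSeries.HasSubst.of_constantCoeff_zero ha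
  rw [PowerSeries.subst_sub ha', PowerSeries.subst_X ha']
  ring

omit hl in
lemma order_subst_ge {a : MvPowerSeries τ R} (ha : constantCoeff a = 0) (f : PowerSeries R)
    (q : ℕ∞) (hq : q ≤ f.order) : q ≤ (PowerSeries.subst a f).order :=
  hq.trans (PowerSeries.le_order_subst_left ha)

/-- If `l = X + (order ≥ q)` then `F = X + Y + (order ≥ q)`. -/
lemma order_lawSeries_sub (q : ℕ∞) (hq : q ≤ (l - PowerSeries.X).order) :
    q ≤ (hl.lawSeries - X 0 - X 1).order := by
  have h := hl.l_lawSeries
  rw [hl.subst_l_eq hl.lawSeries_const, hl.subst_l_eq (a := (X 0 : MvPowerSeries (Fin 2) R))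
    (by simp), hl.subst_l_eq (a := (X 1 : MvPowerSeries (Fin 2) R)) (by simp)] at h
  have e : hl.lawSeries - X 0 - X 1 =
      PowerSeries.subst (X 0 : MvPowerSeries (Fin 2) R) (l - PowerSeries.X) +
      PowerSeries.subst (X 1 : MvPowerSeries (Fin 2) R) (l - PowerSeries.X) +
      - PowerSeries.subst hl.lawSeries (l - PowerSeries.X) := by
    linear_combination h
  rw [e]
  refine le_trans (le_min (le_trans (le_min ?_ ?_) min_order_le_add) ?_) min_order_le_add
  · exact order_subst_ge (by simp) _ _ hq
  · exact order_subst_ge (by simp) _ _ hq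
  · rw [order_neg]
    exact order_subst_ge hl.lawSeries_const _ _ hq

lemma two_le_order : (2 : ℕ∞) ≤ (l - PowerSeries.X).order := by
  have := PowerSeries.nat_le_order (l - PowerSeries.X) 2 (fun i hi => by
    interval_cases i
    · simp [hl.zero]
    · simp [hl.one])
  exact_mod_cast this

lemma lawSeries_lin_X : coeff (Finsupp.single 0 1) hl.lawSeries = 1 := by
  have h := coeff_of_lt_order (f := hl.lawSeries - X 0 - X 1) (d := Finsupp.single (0 : Fin 2) 1)
    (lt_of_lt_of_le (by simp) (hl.order_lawSeries_sub 2 hl.two_le_order))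
  simp only [map_sub, coeff_index_single_X] at h
  simpa [sub_eq_zero] using h

lemma lawSeries_lin_Y : coeff (Finsupp.single 1 1) hl.lawSeries = 1 := by
  have h := coeff_of_lt_order (f := hl.lawSeries - X 0 - X 1) (d := Finsupp.single (1 : Fin 2) 1)
    (lt_of_lt_of_le (by simp) (hl.order_lawSeries_sub 2 hl.two_le_order))
  simp only [map_sub, coeff_index_single_X] at h
  simpa [sub_eq_zero] using h

/-- The formal group law with logarithm `l`. -/
noncomputable def law : FormalGroup R where
  toPowerSeries := hl.lawSeries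
  zero_constantCoeff := hl.lawSeries_const
  lin_coeff_X := hl.lawSeries_lin_X
  lin_coeff_Y := hl.lawSeries_lin_Y
  assoc := by
    have h3 : ∀ i : Fin 3, constantCoeff (X i : MvPowerSeries (Fin 3) R) = 0 := fun i => by simp
    refine hl.l_inj (hl.const_subst_pair (hl.const_subst_pair (h3 0) (h3 1)) (h3 2))
      (hl.const_subst_pair (h3 0) (hl.const_subst_pair (h3 1) (h3 2))) ?_
    rw [hl.l_subst_lawSeries (hl.const_subst_pair (h3 0) (h3 1)) (h3 2),
      hl.l_subst_lawSeries (h3 0) (hl.const_subst_pair (h3 1) (h3 2)),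
      hl.l_subst_lawSeries (h3 0) (h3 1), hl.l_subst_lawSeries (h3 1) (h3 2), add_assoc]

lemma law_toPowerSeries : hl.law.toPowerSeries = hl.lawSeries := rfl

instance law_comm : hl.law.IsComm where
  comm := by
    rw [law_toPowerSeries, hl.subst_lawSeries (by simp) (by simp)]
    unfold lawSeries
    rw [add_comm]

/-- Pushforward of a logarithm. -/
lemma map {S : Type*} [CommRing S] (η : R →+* S) : IsLog (PowerSeries.map η l) :=
  ⟨by rw [← PowerSeries.coeff_zero_eq_constantCoeff_apply, PowerSeries.coeff_map,
      PowerSeries.coeff_zero_eq_constantCoeff_apply, hl.zero, map_zero],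
    by rw [PowerSeries.coeff_map, hl.one, map_one]⟩

lemma map_law {S : Type*} [CommRing S] (η : R →+* S) :
    hl.law.map η = (hl.map η).law := by
  ext1
  show MvPowerSeries.map η hl.lawSeries = (hl.map η).lawSeries
  apply (hl.map η).eq_lawSeries (by simp [hl.lawSeries_const])
  have h := congrArg (MvPowerSeries.map η) hl.l_lawSeries
  rw [map_add, PowerSeries.map_subst (PowerSeries.HasSubst.of_constantCoeff_zero hl.lawSeries_const),
    PowerSeries.map_subst (PowerSeries.HasSubst.X _), PowerSeries.map_subst (PowerSeries.HasSubst.X _)] at h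
  simpa using h

end IsLog

open Crest.LubinTate

/-- `mulSeries` has zero constant coefficient. -/
lemma mulSeries_const (F : FormalGroup R) (m : ℕ) :
    PowerSeries.constantCoeff (mulSeries F m) = 0 := by
  induction m with
  | zero => simp [mulSeries]
  | succ m ih =>
    show MvPowerSeries.constantCoeff (F.toPowerSeries.subst ![mulSeries F m, PowerSeries.X]) = 0
    have hX : MvPowerSeries.constantCoeff (PowerSeries.X : PowerSeries R) = 0 := by
      simp [PowerSeries.X]
    refine MvPowerSeries.constantCoeff_subst_eq_zero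
      (IsLog.hasSubst_pair' ih hX) (fun i => ?_) F.zero_constantCoeff
    fin_cases i
    · exact ih
    · exact hX

lemma IsLog.l_mulSeries {l : PowerSeries R} (hl : IsLog l) (m : ℕ) :
    PowerSeries.subst (mulSeries hl.law m) l = (m : PowerSeries R) * l := by
  induction m with
  | zero =>
    simp only [mulSeries, Nat.cast_zero, zero_mul]
    exact PowerSeries.subst_zero_of_constantCoeff_zero hl.zero
  | succ m ih =>
    show PowerSeries.subst (MvPowerSeries.subst ![mulSeries hl.law m, PowerSeries.X]
      hl.lawSeries) l = _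
    rw [hl.l_subst_lawSeries (mulSeries_const _ m) (by simp [PowerSeries.X]), ih,
      PowerSeries.X_subst]
    push_cast
    ring

lemma IsLog.eq_mulSeries {l : PowerSeries R} (hl : IsLog l) (m : ℕ) {Z : PowerSeries R}
    (hZ : PowerSeries.constantCoeff Z = 0)
    (h : PowerSeries.subst Z l = (m : PowerSeries R) * l) : Z = mulSeries hl.law m :=
  hl.l_inj hZ (mulSeries_const _ m) (by rw [h, hl.l_mulSeries])

lemma mulSeries_map {S : Type*} [CommRing S] (F : FormalGroup R) (f : R →+* S) (m : ℕ) :
    PowerSeries.map f (mulSeries F m) = mulSeries (F.map f) m := by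
  induction m with
  | zero => simp [mulSeries]
  | succ m ih =>
    show MvPowerSeries.map f (MvPowerSeries.subst ![mulSeries F m, PowerSeries.X]
      F.toPowerSeries) = MvPowerSeries.subst ![mulSeries (F.map f) m, PowerSeries.X]
        (MvPowerSeries.map f F.toPowerSeries)
    rw [MvPowerSeries.map_subst (hasSubst_pair (mulSeries_const _ m) (by simp [PowerSeries.X]))]
    congr 1
    funext i
    fin_cases i
    · exact ih
    · exact PowerSeries.map_X f

lemma map_subst_pair {A τ' : Type*} [CommRing A] (ι : A →+* R) (G : MvPowerSeries (Fin 2) A)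
    {a b : MvPowerSeries τ' A} (ha : constantCoeff a = 0) (hb : constantCoeff b = 0) :
    MvPowerSeries.map ι (MvPowerSeries.subst ![a, b] G) =
      MvPowerSeries.subst ![MvPowerSeries.map ι a, MvPowerSeries.map ι b] (MvPowerSeries.map ι G) := by
  rw [MvPowerSeries.map_subst (hasSubst_pair ha hb)]
  congr 1
  funext i
  fin_cases i <;> rfl

lemma map_injective' {A τ' : Type*} [CommRing A] (ι : A →+* R) (hι : Function.Injective ι) :
    Function.Injective (MvPowerSeries.map (σ := τ') ι) := by
  intro a b h
  ext e
  apply hι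
  have := congrArg (MvPowerSeries.coeff e) h
  simpa using this

/-- Descend a law along an injective ring homomorphism. -/
noncomputable def ofMap {A : Type*} [CommRing A] (ι : A →+* R) (hι : Function.Injective ι)
    (F : FormalGroup R) (G : MvPowerSeries (Fin 2) A)
    (h : MvPowerSeries.map ι G = F.toPowerSeries) : FormalGroup A where
  toPowerSeries := G
  zero_constantCoeff := by
    apply hι
    have := congrArg MvPowerSeries.constantCoeff h
    rw [F.zero_constantCoeff] at this
    simpa using this
  lin_coeff_X := by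
    apply hι
    have := congrArg (MvPowerSeries.coeff (Finsupp.single 0 1)) h
    rw [F.lin_coeff_X] at this
    simpa using this
  lin_coeff_Y := by
    apply hι
    have := congrArg (MvPowerSeries.coeff (Finsupp.single 1 1)) h
    rw [F.lin_coeff_Y] at this
    simpa using this
  assoc := by
    apply map_injective' ι hι
    have hG0 : constantCoeff G = 0 := by
      apply hι
      have := congrArg MvPowerSeries.constantCoeff h
      rw [F.zero_constantCoeff] at this
      simpa using this
    have h3 : ∀ i : Fin 3, constantCoeff (X i : MvPowerSeries (Fin 3) A) = 0 := fun i => by simp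
    have hs : ∀ {a b : MvPowerSeries (Fin 3) A}, constantCoeff a = 0 → constantCoeff b = 0 →
        constantCoeff (MvPowerSeries.subst ![a, b] G) = 0 := fun ha hb =>
      MvPowerSeries.constantCoeff_subst_eq_zero (hasSubst_pair ha hb)
        (fun i => by fin_cases i <;> simpa) hG0
    rw [map_subst_pair ι G (hs (h3 0) (h3 1)) (h3 2), map_subst_pair ι G (h3 0) (hs (h3 1) (h3 2)),
      map_subst_pair ι G (h3 0) (h3 1), map_subst_pair ι G (h3 1) (h3 2), h]
    simp only [MvPowerSeries.map_X]
    exact F.assoc

lemma isComm_map {A : Type*} [CommRing A] (ι : A →+* R) (F : FormalGroup A) [hF : F.IsComm] :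
    (F.map ι).IsComm where
  comm := by
    show MvPowerSeries.map ι F.toPowerSeries =
      MvPowerSeries.subst ![MvPowerSeries.X 1, MvPowerSeries.X 0]
        (MvPowerSeries.map ι F.toPowerSeries)
    conv_lhs => rw [hF.comm]
    rw [map_subst_pair ι _ (by simp) (by simp)]
    simp only [MvPowerSeries.map_X]

lemma isComm_of_map {A : Type*} [CommRing A] (ι : A →+* R) (hι : Function.Injective ι)
    (F : FormalGroup A) (hF : (F.map ι).IsComm) : F.IsComm where
  comm := by
    apply map_injective' ι hι
    rw [map_subst_pair ι _ (by simp) (by simp)]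
    simp only [MvPowerSeries.map_X]
    exact hF.comm

/-- Scaling: if `l(ζ X) = ζ l(X)` then `F(ζ X, ζ Y) = ζ F(X, Y)`. -/
lemma IsLog.rescale_lawSeries {l : PowerSeries R} (hl : IsLog l) (ζ : R)
    (hs : PowerSeries.rescale ζ l = PowerSeries.C ζ * l) :
    MvPowerSeries.rescale (fun _ => ζ) hl.lawSeries = MvPowerSeries.C ζ * hl.lawSeries := by
  have hmul : ∀ {ρ : Type} {x : MvPowerSeries ρ R}, constantCoeff x = 0 →
      PowerSeries.subst (MvPowerSeries.C ζ * x) l = MvPowerSeries.C ζ * PowerSeries.subst x l := by
    intro ρ x hx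
    have hx' : PowerSeries.HasSubst x := PowerSeries.HasSubst.of_constantCoeff_zero hx
    have h1 : PowerSeries.subst x (PowerSeries.rescale ζ l) =
        PowerSeries.subst (MvPowerSeries.C ζ * x) l := by
      rw [PowerSeries.rescale_eq_subst, PowerSeries.subst_comp_subst_apply
        (PowerSeries.HasSubst.smul_X' ζ) hx']
      congr 1
      rw [PowerSeries.subst_smul hx', PowerSeries.subst_X hx', MvPowerSeries.smul_eq_C_mul]
    rw [← h1, hs, PowerSeries.subst_mul hx', PowerSeries.subst_C]
  have hX : ∀ i : Fin 2, constantCoeff (MvPowerSeries.C ζ * (X i : MvPowerSeries (Fin 2) R)) = 0 :=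
    fun i => by simp
  have heq : MvPowerSeries.rescale (fun _ => ζ) hl.lawSeries =
      MvPowerSeries.subst ![MvPowerSeries.C ζ * (X 0 : MvPowerSeries (Fin 2) R),
        MvPowerSeries.C ζ * (X 1 : MvPowerSeries (Fin 2) R)] hl.lawSeries := by
    rw [MvPowerSeries.rescale_eq_subst]
    congr 1
    funext i
    fin_cases i <;> simp [MvPowerSeries.smul_eq_C_mul]
  rw [heq]
  refine hl.l_inj (hl.const_subst_pair (hX 0) (hX 1)) (by simp [hl.lawSeries_const]) ?_
  rw [hl.l_subst_lawSeries (hX 0) (hX 1), hmul (by simp), hmul (by simp),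
    hmul hl.lawSeries_const, hl.l_lawSeries, mul_add]

/-- The linear coefficient of `[k]`. -/
lemma IsLog.coeff_mulSeries_low {l : PowerSeries R} (hl : IsLog l) (k : ℕ) (q : ℕ)
    (hq : (q : ℕ∞) ≤ (l - PowerSeries.X).order) (i : ℕ) (hi : i < q) :
    PowerSeries.coeff i (mulSeries hl.law k) = PowerSeries.coeff i ((k : PowerSeries R) * PowerSeries.X) := by
  set Z := mulSeries hl.law k with hZdef
  have hZ0 : MvPowerSeries.constantCoeff Z = 0 := mulSeries_const _ k
  have h := hl.l_mulSeries k
  rw [← hZdef, hl.subst_l_eq hZ0] at h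
  have hll : l = PowerSeries.X + (l - PowerSeries.X) := by ring
  have e : Z - (k : PowerSeries R) * PowerSeries.X =
      (k : PowerSeries R) * (l - PowerSeries.X) + -PowerSeries.subst Z (l - PowerSeries.X) := by
    linear_combination h
  have ho : (q : ℕ∞) ≤ PowerSeries.order (Z - (k : PowerSeries R) * PowerSeries.X) := by
    rw [e]
    refine le_trans (le_min ?_ ?_) (PowerSeries.min_order_le_order_add _ _)
    · exact hq.trans (le_trans (by simp) (PowerSeries.le_order_mul _ _))
    · rw [PowerSeries.order_neg]
      exact hq.trans (PowerSeries.le_order_subst_left' hZ0)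
  have := PowerSeries.coeff_of_lt_order i (lt_of_lt_of_le (by exact_mod_cast hi) ho)
  rw [map_sub, sub_eq_zero] at this
  exact this

lemma IsLog.coeff_one_mulSeries {l : PowerSeries R} (hl : IsLog l) (k : ℕ) :
    PowerSeries.coeff 1 (mulSeries hl.law k) = k := by
  rw [hl.coeff_mulSeries_low k 2 hl.two_le_order 1 (by norm_num)]
  have : (k : PowerSeries R) = PowerSeries.C (k : R) := by simp
  rw [this, PowerSeries.coeff_C_mul, PowerSeries.coeff_one_X, mul_one]

/-- The first non-linear coefficient of `[k]`. -/
lemma IsLog.coeff_mulSeries_of_log {l : PowerSeries R} (hl : IsLog l) (N : ℕ) (hN : 2 ≤ N) (c : R)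
    (hlow : ∀ i, i ≤ N → PowerSeries.coeff i (l - PowerSeries.X - PowerSeries.C c * PowerSeries.X ^ N) = 0)
    (k : ℕ) :
    PowerSeries.coeff N (mulSeries hl.law k) = (k : R) * c - c * (k : R) ^ N := by
  set r := l - PowerSeries.X - PowerSeries.C c * PowerSeries.X ^ N with hr
  have hrord : ((N + 1 : ℕ) : ℕ∞) ≤ r.order :=
    PowerSeries.nat_le_order _ _ fun i hi => hlow i (by omega)
  set Z := mulSeries hl.law k with hZdef
  have hZ0 : MvPowerSeries.constantCoeff Z = 0 := mulSeries_const _ k
  have hZ' : PowerSeries.HasSubst Z := PowerSeries.HasSubst.of_constantCoeff_zero hZ0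
  have hXN : (PowerSeries.X : PowerSeries R) ^ N ≠ 0 ∨ True := Or.inr trivial
  have hk : (k : PowerSeries R) = PowerSeries.C (k : R) := by simp
  have hll : l = PowerSeries.X + PowerSeries.C c * PowerSeries.X ^ N + r := by rw [hr]; ring
  have h := hl.l_mulSeries k
  rw [← hZdef] at h
  have hsub : PowerSeries.subst Z l = Z + PowerSeries.C c * Z ^ N + PowerSeries.subst Z r := by
    conv_lhs => rw [hll]
    rw [PowerSeries.subst_add hZ', PowerSeries.subst_add hZ', PowerSeries.subst_X hZ',
      PowerSeries.subst_mul hZ', PowerSeries.subst_C, PowerSeries.subst_pow hZ',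
      PowerSeries.subst_X hZ']
    rfl
  rw [hsub] at h
  have e1 : Z = (k : PowerSeries R) * (PowerSeries.X + PowerSeries.C c * PowerSeries.X ^ N + r) -
      PowerSeries.C c * Z ^ N - PowerSeries.subst Z r := by
    rw [← hll]
    linear_combination h
  have hrZ : ((N + 1 : ℕ) : ℕ∞) ≤ PowerSeries.order (PowerSeries.subst Z r) :=
    hrord.trans (PowerSeries.le_order_subst_left' hZ0)
  have hcoefr : ∀ i, i ≤ N → PowerSeries.coeff i (PowerSeries.subst Z r) = 0 := fun i hi =>
    PowerSeries.coeff_of_lt_order i (lt_of_lt_of_le (by exact_mod_cast Nat.lt_succ_of_le hi) hrZ)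
  have hcoefr' : ∀ i, i ≤ N → PowerSeries.coeff i r = 0 := fun i hi =>
    PowerSeries.coeff_of_lt_order i (lt_of_lt_of_le (by exact_mod_cast Nat.lt_succ_of_le hi) hrord)
  have hZpow : (N : ℕ∞) ≤ PowerSeries.order (Z ^ N) :=
    PowerSeries.le_order_pow_of_constantCoeff_eq_zero N hZ0
  -- order of `Z - kX`
  have hW : ∀ i, i < N → PowerSeries.coeff i Z = PowerSeries.coeff i ((k : PowerSeries R) * PowerSeries.X) := by
    intro i hi
    have h1 : PowerSeries.coeff i (Z ^ N) = 0 := PowerSeries.coeff_of_lt_order i
      (lt_of_lt_of_le (by exact_mod_cast hi) hZpow)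
    conv_lhs => rw [e1]
    rw [map_sub, map_sub, PowerSeries.coeff_C_mul, h1, hcoefr i hi.le, hk, PowerSeries.coeff_C_mul,
      PowerSeries.coeff_C_mul, map_add, map_add, hcoefr' i hi.le, PowerSeries.coeff_C_mul,
      PowerSeries.coeff_X_pow, if_neg (by omega)]
    simp
  have hWord : (N : ℕ∞) ≤ (Z - (k : PowerSeries R) * PowerSeries.X : MvPowerSeries Unit R).order := by
    rw [← PowerSeries.order_eq_order]
    refine PowerSeries.nat_le_order _ _ fun i hi => ?_
    rw [map_sub, hW i hi, sub_self]
  have hkX0 : MvPowerSeries.constantCoeff ((k : PowerSeries R) * PowerSeries.X) = 0 := by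
    have : MvPowerSeries.constantCoeff (PowerSeries.X : PowerSeries R) = 0 := by
      simp [PowerSeries.X]
    rw [map_mul, this, mul_zero]
  have hpow : PowerSeries.coeff N (Z ^ N) =
      PowerSeries.coeff N (((k : PowerSeries R) * PowerSeries.X) ^ N) := by
    refine FE.coeff_eq_of_order_sub (K := ((N + 1 : ℕ) : ℕ∞)) ?_ (Finsupp.single () N) (by
      simp only [Finsupp.degree_single]
      exact_mod_cast Nat.lt_succ_self N)
    refine le_trans ?_ (FE.order_pow_sub_pow_ge' Z _ hZ0 hkX0 N (by omega))
    refine le_trans ?_ (add_le_add_left hWord _)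
    rw [← Nat.cast_add]
    gcongr
    omega
  have hkN : ((k : PowerSeries R) * PowerSeries.X) ^ N = PowerSeries.C ((k : R) ^ N) * PowerSeries.X ^ N := by
    rw [mul_pow, hk, map_pow]
  conv_lhs => rw [e1]
  rw [map_sub, map_sub, PowerSeries.coeff_C_mul, hpow, hkN, PowerSeries.coeff_C_mul,
    PowerSeries.coeff_X_pow_self, hcoefr N le_rfl, hk, PowerSeries.coeff_C_mul, map_add, map_add,
    hcoefr' N le_rfl, PowerSeries.coeff_C_mul, PowerSeries.coeff_X_pow_self, PowerSeries.coeff_X,
    if_neg (by omega)]
  ring

end Crest.Agent.LT.LogLaw
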