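/-
S0351 project core definitions (see BLUEPRINT.md in this folder).
-/
import Mathlib
import Crest.Prelude.Def_LubinTate

set_option autoImplicit false

namespace Crest.Agent.LT

open Crest.LubinTate

/-- Composition `f ∘ g` of one-variable power series (`g` should have zero constant term). -/
noncomputable abbrev cmp {R : Type*} [CommRing R] (f g : PowerSeries R) : PowerSeries R :=
  PowerSeries.subst g f

/-- `g ≡ X mod X^M` as in `IsStableIdeal`. -/
def CongX {R : Type*} [CommRing R] (M : ℕ) (g : PowerSeries R) : Prop :=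
  ∀ i : ℕ, i < M → PowerSeries.coeff i g = PowerSeries.coeff i (PowerSeries.X : PowerSeries R)

/-- The action of the automorphisms of `Γ` on the deformation `F` over `A` (`res : A → k`),
packaged with deepness.  `φ g`, `θ g` are only meaningful when `g` is an automorphism of `Γ`. -/
structure DeepAction {k A : Type*} [Field k] [CommRing A] (res : A →+* k) (𝔪 : Ideal A)
    (Γ : FormalGroup k) (F : FormalGroup A) where
  /-- the ring endomorphism attached to `g` -/
  φ : PowerSeries k → (A →+* A)
  /-- the homomorphism `F^φ → F` attached to `g` -/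
  θ : PowerSeries k → PowerSeries A
  hom : ∀ g, IsFGAut Γ g → IsFGHom (F.map (φ g)) F (θ g)
  red : ∀ g, IsFGAut Γ g → PowerSeries.map res (θ g) = g
  res_φ : ∀ g, IsFGAut Γ g → res.comp (φ g) = res
  /-- `φ_{g' ∘ g} = φ_{g'} ∘ φ_g` -/
  comp : ∀ g g', IsFGAut Γ g → IsFGAut Γ g' → φ (cmp g' g) = (φ g').comp (φ g)
  one : φ PowerSeries.X = RingHom.id A
  /-- deep automorphisms act trivially modulo `𝔪^c` and have `θ ≡ X` modulo `(𝔪^c, X^N)`. -/
  deep : ∀ c N : ℕ, ∃ M : ℕ, ∀ g, IsFGAut Γ g → CongX M g →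
    (∀ a, φ g a - a ∈ 𝔪 ^ c) ∧
      (∀ i, i < N → PowerSeries.coeff i (θ g) - PowerSeries.coeff i (PowerSeries.X : PowerSeries A)
        ∈ 𝔪 ^ c)

end Crest.Agent.LT
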