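/-
B1: the ring `E₀ = W(k)[[u]]` (BLUEPRINT §B1): local, Noetherian, complete; test rings.
-/
import Crest.Agent.Lib.LT.Core

set_option autoImplicit false
set_option linter.unusedSectionVars false

namespace Crest.Agent.LT

open Crest.LubinTate

section Vars

variable {R : Type*} [CommRing R] {r : ℕ}

open MvPowerSeries

/-- Splitting off the variables: a series of order `≥ c + 1` is a combination of the
variables, with coefficients of order `≥ c`. -/
lemma exists_sum_X_mul (f : MvPowerSeries (Fin r) R) (c : ℕ) (hf : ((c + 1 : ℕ) : ℕ∞) ≤ f.order) :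
    ∃ g : Fin r → MvPowerSeries (Fin r) R, (∀ i, (c : ℕ∞) ≤ (g i).order) ∧
      f = ∑ i, X i * g i := by
  classical
  let P : Fin r → (Fin r →₀ ℕ) → Prop := fun i e => e i ≠ 0 ∧ ∀ j, j < i → e j = 0
  obtain ⟨g, hg⟩ : ∃ g : Fin r → MvPowerSeries (Fin r) R, ∀ i e, coeff e (g i) =
      if P i (e + Finsupp.single i 1) then coeff (e + Finsupp.single i 1) f else 0 :=
    ⟨fun i e => if P i (e + Finsupp.single i 1) then coeff (e + Finsupp.single i 1) f else 0,
      fun i e => rfl⟩
  refine ⟨g, ?_, ?_⟩
  · intro i
    refine nat_le_order fun d hd => ?_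
    rw [hg]
    split_ifs
    · apply coeff_of_lt_order
      refine lt_of_lt_of_le ?_ hf
      rw [map_add, Finsupp.degree_single]
      exact_mod_cast (by omega : d.degree + 1 < c + 1)
    · rfl
  · ext e
    rw [map_sum]
    have hterm : ∀ i, coeff e (X i * g i) = if P i e then coeff e f else 0 := by
      intro i
      rw [X_def, coeff_monomial_mul]
      by_cases hi : e i = 0
      · rw [if_neg, if_neg]
        · intro h; exact h.1 hi
        · intro h
          have := h i
          simp only [Finsupp.single_eq_same] at this
          omega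
      · have hle : Finsupp.single i 1 ≤ e := by
          rw [Finsupp.single_le_iff]
          omega
        rw [if_pos hle, one_mul, hg, tsub_add_cancel_of_le hle]
    simp only [hterm]
    by_cases he : e = 0
    · subst he
      rw [Finset.sum_eq_zero]
      · rw [coeff_zero_eq_constantCoeff_apply]
        have := coeff_of_lt_order (f := f) (d := 0) (lt_of_lt_of_le (by simp) hf)
        rw [coeff_zero_eq_constantCoeff_apply] at this
        exact this
      · intro i _
        rw [if_neg]
        intro h
        exact h.1 rfl
    · -- the first variable of `e`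
      have hne : e.support.Nonempty := Finsupp.support_nonempty_iff.mpr he
      set i₀ := e.support.min' hne with hi₀
      have hi0 : P i₀ e := by
        refine ⟨Finsupp.mem_support_iff.mp (Finset.min'_mem _ _), fun j hj => ?_⟩
        by_contra hcon
        have := Finset.min'_le e.support j (Finsupp.mem_support_iff.mpr hcon)
        omega
      rw [Finset.sum_eq_single i₀]
      · rw [if_pos hi0]
      · intro j _ hj
        rw [if_neg]
        intro h
        rcases lt_or_gt_of_ne hj with hlt | hgt
        · exact hi0.1 (by
            have := h.2 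
            exact absurd (hi0.2 j hlt) h.1)
        · exact hi0.1 (h.2 i₀ hgt)
      · intro h
        exact absurd (Finset.mem_univ _) h

end Vars

variable (p : ℕ) [hp : Fact p.Prime] (n : ℕ)

local notation "k" => GaloisField p n
local notation "W" => WittVector p (GaloisField p n)
local notation "E₀" => LTRing p n

instance : NoZeroDivisors (LTRing p n) := inferInstance

instance E0_isDomain : IsDomain (LTRing p n) :=
  NoZeroDivisors.to_isDomain _

lemma residue_surjective : Function.Surjective (LTRing.residue p n) := by
  intro a
  obtain ⟨b, hb⟩ := WittVector.constantCoeff_surjective (R := GaloisField p n) p a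
  exact ⟨MvPowerSeries.C b, by simp [LTRing.residue, hb]⟩

lemma residue_C (a : WittVector p (GaloisField p n)) :
    LTRing.residue p n (MvPowerSeries.C a) = WittVector.constantCoeff a := by
  simp [LTRing.residue]

lemma residue_X (i : Fin (n - 1)) : LTRing.residue p n (MvPowerSeries.X i) = 0 := by
  simp [LTRing.residue]

lemma ker_residue : RingHom.ker (LTRing.residue p n) = IsLocalRing.maximalIdeal (LTRing p n) := by
  have : (RingHom.ker (LTRing.residue p n)).IsMaximal :=
    RingHom.ker_isMaximal_of_surjective _ (residue_surjective p n)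
  exact IsLocalRing.eq_maximalIdeal this

lemma residue_comp_algebraMap : (LTRing.residue p n).comp
    (algebraMap (WittVector p (GaloisField p n)) (LTRing p n)) = WittVector.constantCoeff := by
  ext a
  exact residue_C p n a

/-- The ideals `K_c` of series with `p^(c-|e|) ∣ a_e`. -/
def KK (c : ℕ) : Ideal (LTRing p n) where
  carrier := {f | ∀ e : Fin (n - 1) →₀ ℕ, ((p : WittVector p (GaloisField p n)) ^ (c - e.degree)) ∣
    MvPowerSeries.coeff e f}
  add_mem' := fun ha hb e => by
    rw [map_add]
    exact dvd_add (ha e) (hb e)
  zero_mem' := fun e => by simp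
  smul_mem' := by
    classical
    intro g f hf e
    rw [smul_eq_mul, MvPowerSeries.coeff_mul]
    refine Finset.dvd_sum fun x hx => ?_
    have hx' : x.1 + x.2 = e := Finset.HasAntidiagonal.mem_antidiagonal.mp hx
    refine dvd_mul_of_dvd_right ?_ _
    refine (pow_dvd_pow _ ?_).trans (hf x.2)
    have : e.degree = x.1.degree + x.2.degree := by rw [← hx', map_add]
    omega

lemma mem_KK {c : ℕ} {f : LTRing p n} : f ∈ KK p n c ↔ ∀ e : Fin (n - 1) →₀ ℕ,
    ((p : WittVector p (GaloisField p n)) ^ (c - e.degree)) ∣ MvPowerSeries.coeff e f := Iff.rfl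

/-- `m = (p, u)`. -/
noncomputable def mE : Ideal (LTRing p n) :=
  Ideal.span ({(p : LTRing p n)} ∪ Set.range (MvPowerSeries.X : Fin (n - 1) → LTRing p n))

lemma KK_mul_mE {c : ℕ} {x y : LTRing p n} (hx : x ∈ KK p n c) (hy : y ∈ mE p n) :
    x * y ∈ KK p n (c + 1) := by
  classical
  unfold mE at hy
  induction hy using Submodule.span_induction with
  | mem y hy =>
    rcases hy with hy | ⟨i, rfl⟩
    · have hy' : y = (p : LTRing p n) := hy
      subst hy'
      intro e
      have h1 : (p : LTRing p n) = MvPowerSeries.C (p : WittVector p (GaloisField p n)) := by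
        simp
      rw [mul_comm, h1, MvPowerSeries.coeff_C_mul]
      have := hx e
      have h2 : ((p : WittVector p (GaloisField p n)) ^ (c + 1 - e.degree)) ∣
          (p : WittVector p (GaloisField p n)) * (p : WittVector p (GaloisField p n)) ^ (c - e.degree) := by
        rw [← pow_succ']
        exact pow_dvd_pow _ (by omega)
      exact h2.trans (mul_dvd_mul_left _ this)
    · intro e
      rw [mul_comm, MvPowerSeries.X_def, MvPowerSeries.coeff_monomial_mul]
      split_ifs with hle
      · rw [one_mul]
        have h3 := hx (e - Finsupp.single i 1)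
        refine (pow_dvd_pow _ ?_).trans h3
        have : e.degree = (e - Finsupp.single i 1).degree + 1 := by
          conv_lhs => rw [← tsub_add_cancel_of_le hle, map_add, Finsupp.degree_single]
        omega
      · exact dvd_zero _
  | zero => rw [mul_zero]; exact zero_mem _
  | add a b _ _ ha hb => rw [mul_add]; exact add_mem ha hb
  | smul r a _ ha =>
    rw [smul_eq_mul, mul_left_comm]
    exact (KK p n (c + 1)).mul_mem_left _ ha

lemma pow_le_KK (c : ℕ) : mE p n ^ c ≤ KK p n c := by
  induction c with
  | zero =>
    intro x _ e
    simp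
  | succ c ih =>
    rw [pow_succ, Ideal.mul_le]
    intro x hx y hy
    exact KK_mul_mE p n (ih hx) hy

lemma X_mem_mE (i : Fin (n - 1)) : (MvPowerSeries.X i : LTRing p n) ∈ mE p n :=
  Ideal.subset_span (Or.inr ⟨i, rfl⟩)

lemma p_mem_mE : (p : LTRing p n) ∈ mE p n :=
  Ideal.subset_span (Or.inl rfl)

/-- high order series are in `m^c`. -/
lemma mem_pow_of_order (c : ℕ) (f : LTRing p n) (hf : (c : ℕ∞) ≤ f.order) : f ∈ mE p n ^ c := by
  induction c generalizing f with
  | zero => simp
  | succ c ih =>
    obtain ⟨g, hg, rfl⟩ := exists_sum_X_mul f c hf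
    refine Ideal.sum_mem _ fun i _ => ?_
    rw [pow_succ', ]
    exact Ideal.mul_mem_mul (X_mem_mE p n i) (ih _ (hg i))

lemma KK_le_pow (c : ℕ) : KK p n c ≤ mE p n ^ c := by
  classical
  induction c with
  | zero => simp
  | succ c ih =>
    intro f hf
    -- split `f` into the low part, divisible by `p`, and the high part
    have hdiv : ∀ e : Fin (n - 1) →₀ ℕ, e.degree ≤ c →
        ((p : WittVector p (GaloisField p n)) ∣ MvPowerSeries.coeff e f) := by
      intro e he
      exact (dvd_pow_self _ (by omega)).trans (hf e)
    choose! b hb using hdiv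
    obtain ⟨g, hgc⟩ : ∃ g : LTRing p n, ∀ e, MvPowerSeries.coeff e g =
        if e.degree ≤ c then b e else 0 :=
      ⟨fun e => if e.degree ≤ c then b e else 0, fun e => rfl⟩
    have hgK : g ∈ KK p n c := by
      intro e
      rw [hgc]
      split_ifs with he
      · have h := hf e
        rw [hb e he] at h
        have hne : (p : WittVector p (GaloisField p n)) ≠ 0 :=
          (WittVector.irreducible p).ne_zero
        have e1 : c + 1 - e.degree = (c - e.degree) + 1 := by omega
        rw [e1, pow_succ'] at h
        exact (mul_dvd_mul_iff_left hne).mp h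
      · exact dvd_zero _
    have hP : (p : LTRing p n) = MvPowerSeries.C (p : WittVector p (GaloisField p n)) := by
      simp
    have hrest : f - (p : LTRing p n) * g ∈ mE p n ^ (c + 1) := by
      apply mem_pow_of_order
      refine MvPowerSeries.nat_le_order fun e he => ?_
      rw [map_sub, hP, MvPowerSeries.coeff_C_mul, hgc, if_pos (by omega), ← hb e (by omega),
        sub_self]
    have hpg : (p : LTRing p n) * g ∈ mE p n ^ (c + 1) := by
      rw [pow_succ']
      exact Ideal.mul_mem_mul (p_mem_mE p n) (ih hgK)
    have := add_mem hrest hpg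
    rwa [sub_add_cancel] at this

lemma mE_eq : mE p n = IsLocalRing.maximalIdeal (LTRing p n) := by
  classical
  rw [← ker_residue]
  apply le_antisymm
  · rw [mE, Ideal.span_le]
    rintro x (hx | ⟨i, rfl⟩)
    · have hx' : x = (p : LTRing p n) := hx
      subst hx'
      simp [RingHom.mem_ker]
    · exact residue_X p n i
  · intro f hf
    rw [RingHom.mem_ker] at hf
    have : f ∈ KK p n 1 := by
      intro e
      by_cases he : e.degree = 0
      · have he0 : e = 0 := (Finsupp.degree_eq_zero_iff e).mp he
        subst he0
        rw [he, MvPowerSeries.coeff_zero_eq_constantCoeff_apply, pow_one]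
        have h2 : (MvPowerSeries.constantCoeff f) ∈ RingHom.ker
            (WittVector.constantCoeff : WittVector p (GaloisField p n) →+* GaloisField p n) := hf
        rw [WittVector.ker_constantCoeff] at h2
        exact Ideal.mem_span_singleton.mp h2
      · have : 1 - e.degree = 0 := by omega
        rw [this, pow_zero]
        exact one_dvd _
    simpa using KK_le_pow p n 1 this

lemma mem_maximalIdeal_pow_iff (c : ℕ) (f : LTRing p n) :
    f ∈ IsLocalRing.maximalIdeal (LTRing p n) ^ c ↔ f ∈ KK p n c := by
  rw [← mE_eq]
  exact ⟨fun h => pow_le_KK p n c h, fun h => KK_le_pow p n c h⟩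

/-- `E₀` is `m`-adically complete. -/
theorem isAdicComplete_E0 : IsAdicComplete (IsLocalRing.maximalIdeal (LTRing p n)) (LTRing p n) where
  haus' := (inferInstance : IsHausdorff (IsLocalRing.maximalIdeal (LTRing p n)) (LTRing p n)).haus'
  prec' := by
    classical
    intro f hf
    have hW : IsPrecomplete (Ideal.span {(p : WittVector p (GaloisField p n))})
        (WittVector p (GaloisField p n)) := inferInstance
    -- coefficientwise limits
    have hlim : ∀ e : Fin (n - 1) →₀ ℕ, ∃ L : WittVector p (GaloisField p n), ∀ j : ℕ,
        (p : WittVector p (GaloisField p n)) ^ j ∣ MvPowerSeries.coeff e (f (j + e.degree)) - L := by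
      intro e
      obtain ⟨L, hL⟩ := hW.prec' (fun j => MvPowerSeries.coeff e (f (j + e.degree))) (by
        intro a b hab
        have h1 := hf (show a + e.degree ≤ b + e.degree by omega)
        rw [SModEq.sub_mem, smul_eq_mul, Ideal.mul_top, mem_maximalIdeal_pow_iff] at h1
        have h2 := h1 e
        rw [map_sub, Nat.add_sub_cancel] at h2
        rw [SModEq.sub_mem, smul_eq_mul, Ideal.mul_top, Ideal.span_singleton_pow,
          Ideal.mem_span_singleton]
        exact h2)
      refine ⟨L, fun j => ?_⟩
      have := hL j
      rw [SModEq.sub_mem, smul_eq_mul, Ideal.mul_top, Ideal.span_singleton_pow,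
        Ideal.mem_span_singleton] at this
      exact this
    choose L hL using hlim
    obtain ⟨g, hg⟩ : ∃ g : LTRing p n, ∀ e, MvPowerSeries.coeff e g = L e :=
      ⟨fun e => L e, fun e => rfl⟩
    refine ⟨g, fun c => ?_⟩
    rw [SModEq.sub_mem, smul_eq_mul, Ideal.mul_top, mem_maximalIdeal_pow_iff]
    intro e
    rw [map_sub, hg]
    by_cases he : e.degree ≤ c
    · have := hL e (c - e.degree)
      rwa [Nat.sub_add_cancel he] at this
    · have : c - e.degree = 0 := by omega
      rw [this, pow_zero]
      exact one_dvd _

end Crest.Agent.LT
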