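/-
A1: laws over a ring, points as abelian groups (BLUEPRINT §A1).
-/
import Crest.Agent.Lib.LT.Core

set_option autoImplicit false

namespace Crest.Agent.LT

open Crest.LubinTate

variable {R S : Type*} [CommRing R] [CommRing S] {τ υ : Type*}

/-- `F(a, b)` for series `a, b`. -/
noncomputable abbrev fgAdd (F : FormalGroup R) (a b : MvPowerSeries τ R) : MvPowerSeries τ R :=
  F.toPowerSeries.subst ![a, b]

/-! ### Substitution basics -/

lemma hasSubst_pair {a b : MvPowerSeries τ R} (ha : PowerSeries.HasSubst a)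
    (hb : PowerSeries.HasSubst b) : MvPowerSeries.HasSubst ![a, b] :=
  MvPowerSeries.hasSubst_of_constantCoeff_nilpotent fun s => by fin_cases s <;> simpa

lemma constantCoeff_fgAdd_of (F : FormalGroup R) {a b : MvPowerSeries τ R}
    (ha : MvPowerSeries.constantCoeff a = 0) (hb : MvPowerSeries.constantCoeff b = 0) :
    MvPowerSeries.constantCoeff (fgAdd F a b) = 0 := by
  apply MvPowerSeries.constantCoeff_subst_eq_zero
  · exact MvPowerSeries.hasSubst_of_constantCoeff_zero fun s => by fin_cases s <;> simpa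
  · intro s; fin_cases s <;> simpa
  · exact F.zero_constantCoeff

lemma hasSubst_fgAdd (F : FormalGroup R) {a b : MvPowerSeries τ R} (ha : PowerSeries.HasSubst a)
    (hb : PowerSeries.HasSubst b) : PowerSeries.HasSubst (fgAdd F a b) :=
  MvPowerSeries.IsNilpotent_subst (hasSubst_pair ha hb)
    (F.zero_constantCoeff ▸ IsNilpotent.zero)

/-- `(F(a,b))(c) = F(a(c), b(c))` for mv substitution. -/
lemma subst_fgAdd (F : FormalGroup R) {a b : MvPowerSeries τ R} (ha : PowerSeries.HasSubst a)
    (hb : PowerSeries.HasSubst b) {c : τ → MvPowerSeries υ R} (hc : MvPowerSeries.HasSubst c) :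
    (fgAdd F a b).subst c = fgAdd F (a.subst c) (b.subst c) := by
  rw [fgAdd, MvPowerSeries.subst_comp_subst_apply (hasSubst_pair ha hb) hc]
  congr! 2 with s
  fin_cases s <;> rfl

/-- `(f(a))(c) = f(a(c))`. -/
lemma subst_psubst {f : PowerSeries R} {a : MvPowerSeries τ R} (ha : PowerSeries.HasSubst a)
    {c : τ → MvPowerSeries υ R} (hc : MvPowerSeries.HasSubst c) :
    (PowerSeries.subst a f).subst c = PowerSeries.subst (a.subst c) f := by
  rw [PowerSeries.subst, PowerSeries.subst, MvPowerSeries.subst_comp_subst_apply ha.const hc]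

/-- `f(g)(c) = f(g(c))` when all are one-variable. -/
lemma psubst_psubst {f g c : PowerSeries R} (hg : PowerSeries.HasSubst g)
    (hc : PowerSeries.HasSubst c) :
    PowerSeries.subst c (PowerSeries.subst g f) = PowerSeries.subst (PowerSeries.subst c g) f :=
  PowerSeries.subst_comp_subst_apply hg hc f

/-- `F(a, b)(c) = F(a(c), b(c))`, one-variable substitution. -/
lemma psubst_fgAdd (F : FormalGroup R) {a b : MvPowerSeries Unit R} (ha : PowerSeries.HasSubst a)
    (hb : PowerSeries.HasSubst b) {c : MvPowerSeries υ R} (hc : PowerSeries.HasSubst c) :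
    PowerSeries.subst c (fgAdd F a b : PowerSeries R) =
      fgAdd F (PowerSeries.subst c (a : PowerSeries R)) (PowerSeries.subst c (b : PowerSeries R)) :=
  subst_fgAdd F ha hb hc.const

lemma fgAdd_zero (F : FormalGroup R) {a : MvPowerSeries τ R} (ha : PowerSeries.HasSubst a) :
    fgAdd F a 0 = a := F.add_zero ha

lemma zero_fgAdd (F : FormalGroup R) {a : MvPowerSeries τ R} (ha : PowerSeries.HasSubst a) :
    fgAdd F 0 a = a := F.zero_add ha

lemma fgAdd_assoc (F : FormalGroup R) {a b c : MvPowerSeries τ R} (ha : PowerSeries.HasSubst a)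
    (hb : PowerSeries.HasSubst b) (hc : PowerSeries.HasSubst c) :
    fgAdd F (fgAdd F a b) c = fgAdd F a (fgAdd F b c) := F.assoc' ha hb hc

lemma fgAdd_comm (F : FormalGroup R) [F.IsComm] {a b : MvPowerSeries τ R}
    (ha : PowerSeries.HasSubst a) (hb : PowerSeries.HasSubst b) :
    fgAdd F a b = fgAdd F b a := F.comm' ha hb

/-! ### Coefficient-wise congruences -/

open Classical in
/-- A congruence principle: if `a s ≡ a' s` modulo an ideal `J` whose membership is the vanishing of
a set `E` of coefficients, then `f(a) ≡ f(a')`. -/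
lemma subst_sub_subst_coeff {σ : Type*} {a a' : σ → MvPowerSeries τ R}
    (ha : MvPowerSeries.HasSubst a) (ha' : MvPowerSeries.HasSubst a')
    (J : Ideal (MvPowerSeries τ R)) (E : Set (τ →₀ ℕ))
    (hJ : ∀ x, x ∈ J ↔ ∀ e ∈ E, MvPowerSeries.coeff e x = 0)
    (haJ : ∀ s, a s - a' s ∈ J) (f : MvPowerSeries σ R) :
    MvPowerSeries.subst a f - MvPowerSeries.subst a' f ∈ J := by
  rw [hJ]
  intro e he
  rw [map_sub, MvPowerSeries.coeff_subst ha, MvPowerSeries.coeff_subst ha', sub_eq_zero]
  apply finsum_congr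
  intro d
  congr 1
  have hp : ((d.prod fun s n => a s ^ n) - d.prod fun s n => a' s ^ n) ∈ J := by
    rw [← Ideal.Quotient.eq]
    simp only [Finsupp.prod, map_prod, map_pow]
    refine Finset.prod_congr rfl fun s _ => ?_
    rw [Ideal.Quotient.eq.2 (haJ s)]
  have := (hJ _).1 hp e he
  rw [map_sub, sub_eq_zero] at this
  rw [this]

/-- The ideal of one-variable series divisible by `X^k` is coefficient-closed. -/
lemma mem_span_X_pow_iff (k : ℕ) (x : PowerSeries R) :
    x ∈ Ideal.span {(PowerSeries.X : PowerSeries R) ^ k} ↔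
      ∀ e ∈ {e : Unit →₀ ℕ | e () < k}, MvPowerSeries.coeff e x = 0 := by
  rw [Ideal.mem_span_singleton, PowerSeries.X_pow_dvd_iff]
  constructor
  · intro h e he
    have := h (e ()) he
    rw [PowerSeries.coeff] at this
    have he' : e = Finsupp.single () (e ()) := Finsupp.ext fun _ => by simp
    rw [he']; exact this
  · intro h m hm
    rw [PowerSeries.coeff]
    apply h
    simpa using hm

/-- If `a ≡ a'`, `b ≡ b'` modulo `X^k` then `F(a,b) ≡ F(a',b')`. -/
lemma subst_congr_X_pow {σ : Type*} {a a' : σ → PowerSeries R}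
    (ha : MvPowerSeries.HasSubst a) (ha' : MvPowerSeries.HasSubst a') (k : ℕ)
    (haJ : ∀ s, (PowerSeries.X : PowerSeries R) ^ k ∣ a s - a' s) (f : MvPowerSeries σ R) :
    (PowerSeries.X : PowerSeries R) ^ k ∣ MvPowerSeries.subst a f - MvPowerSeries.subst a' f := by
  rw [← Ideal.mem_span_singleton]
  exact subst_sub_subst_coeff ha ha' _ _ (mem_span_X_pow_iff k)
    (fun s => Ideal.mem_span_singleton.2 (haJ s)) f

/-- `f(a) ≡ f(a')` modulo `X^k` if `a ≡ a'` modulo `X^k`. -/
lemma psubst_congr_X_pow {a a' : PowerSeries R} (ha : PowerSeries.HasSubst a)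
    (ha' : PowerSeries.HasSubst a') (k : ℕ) (h : (PowerSeries.X : PowerSeries R) ^ k ∣ a - a')
    (f : PowerSeries R) :
    (PowerSeries.X : PowerSeries R) ^ k ∣ PowerSeries.subst a f - PowerSeries.subst a' f :=
  subst_congr_X_pow (σ := Unit) ha.const ha'.const k (fun _ => h) f

lemma fgAdd_congr_X_pow (F : FormalGroup R) {a a' b b' : PowerSeries R}
    (ha : PowerSeries.HasSubst a) (ha' : PowerSeries.HasSubst a') (hb : PowerSeries.HasSubst b)
    (hb' : PowerSeries.HasSubst b') (k : ℕ) (h : (PowerSeries.X : PowerSeries R) ^ k ∣ a - a')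
    (h' : (PowerSeries.X : PowerSeries R) ^ k ∣ b - b') :
    (PowerSeries.X : PowerSeries R) ^ k ∣
      (fgAdd F a b - fgAdd F a' b' : MvPowerSeries Unit R) := by
  apply subst_congr_X_pow (hasSubst_pair ha hb) (hasSubst_pair ha' hb') k
  intro s
  fin_cases s
  · exact h
  · exact h'

/-! ### Coefficients of a law on the axes -/

lemma hasSubst_X_zero : MvPowerSeries.HasSubst ![PowerSeries.X (R := R), 0] :=
  MvPowerSeries.hasSubst_of_constantCoeff_zero fun s => by
    fin_cases s
    · exact PowerSeries.constantCoeff_X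
    · simp

lemma hasSubst_zero_X : MvPowerSeries.HasSubst ![0, PowerSeries.X (R := R)] :=
  MvPowerSeries.hasSubst_of_constantCoeff_zero fun s => by
    fin_cases s
    · simp
    · exact PowerSeries.constantCoeff_X

lemma prod_pair {A : Type*} [CommMonoid A] (a b : A) (d : Fin 2 →₀ ℕ) :
    (d.prod fun s n => ![a, b] s ^ n) = a ^ (d 0) * b ^ (d 1) := by
  rw [Finsupp.prod_fintype _ _ (fun i => pow_zero _), Fin.prod_univ_two]
  rfl

lemma coeff_subst_X_zero (G : MvPowerSeries (Fin 2) R) (a : ℕ) :
    PowerSeries.coeff a (G.subst ![PowerSeries.X (R := R), 0] : PowerSeries R) =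
      MvPowerSeries.coeff (Finsupp.single 0 a) G := by
  classical
  rw [PowerSeries.coeff, MvPowerSeries.coeff_subst hasSubst_X_zero,
    finsum_eq_single _ (Finsupp.single 0 a)]
  · rw [prod_pair]
    have h1 : (Finsupp.single (0 : Fin 2) a) 1 = 0 := by simp
    rw [h1, pow_zero, mul_one, Finsupp.single_eq_same, ← PowerSeries.coeff_def rfl,
      PowerSeries.coeff_X_pow]
    simp
  · intro d hd
    rw [prod_pair]
    by_cases hd₁ : d 1 = 0
    · have : d 0 ≠ a := by
        intro h0
        apply hd
        ext i; fin_cases i <;> simp [h0, hd₁]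
      rw [hd₁, pow_zero, mul_one, ← PowerSeries.coeff_def rfl, PowerSeries.coeff_X_pow]
      simp [Ne.symm this]
    · rw [zero_pow hd₁, mul_zero, map_zero, smul_zero]

lemma coeff_subst_zero_X (G : MvPowerSeries (Fin 2) R) (a : ℕ) :
    PowerSeries.coeff a (G.subst ![0, PowerSeries.X (R := R)] : PowerSeries R) =
      MvPowerSeries.coeff (Finsupp.single 1 a) G := by
  classical
  rw [PowerSeries.coeff, MvPowerSeries.coeff_subst hasSubst_zero_X,
    finsum_eq_single _ (Finsupp.single 1 a)]
  · rw [prod_pair]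
    have h1 : (Finsupp.single (1 : Fin 2) a) 0 = 0 := by simp
    rw [h1, pow_zero, one_mul, Finsupp.single_eq_same, ← PowerSeries.coeff_def rfl,
      PowerSeries.coeff_X_pow]
    simp
  · intro d hd
    rw [prod_pair]
    by_cases hd₁ : d 0 = 0
    · have : d 1 ≠ a := by
        intro h0
        apply hd
        ext i; fin_cases i <;> simp [h0, hd₁]
      rw [hd₁, pow_zero, one_mul, ← PowerSeries.coeff_def rfl, PowerSeries.coeff_X_pow]
      simp [Ne.symm this]
    · rw [zero_pow hd₁, zero_mul, map_zero, smul_zero]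

/-- On the `X` axis a law has only the linear term. -/
lemma coeff_single_zero (F : FormalGroup R) (a : ℕ) :
    MvPowerSeries.coeff (Finsupp.single 0 a) F.toPowerSeries = if a = 1 then 1 else 0 := by
  rw [← coeff_subst_X_zero]
  have : (F.toPowerSeries.subst ![PowerSeries.X (R := R), 0] : PowerSeries R) = PowerSeries.X :=
    F.Xzero_eq_X
  rw [this, PowerSeries.coeff_X]

/-- On the `Y` axis a law has only the linear term. -/
lemma coeff_single_one (F : FormalGroup R) (a : ℕ) :
    MvPowerSeries.coeff (Finsupp.single 1 a) F.toPowerSeries = if a = 1 then 1 else 0 := by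
  rw [← coeff_subst_zero_X]
  have : (F.toPowerSeries.subst ![0, PowerSeries.X (R := R)] : PowerSeries R) = PowerSeries.X :=
    F.zeroX_eq_X
  rw [this, PowerSeries.coeff_X]

/-- `F = X₀ + X₁ + X₀ X₁ G`. -/
theorem exists_fgRem (F : FormalGroup R) : ∃ G : MvPowerSeries (Fin 2) R,
    F.toPowerSeries = MvPowerSeries.X 0 + MvPowerSeries.X 1 +
      MvPowerSeries.X 0 * MvPowerSeries.X 1 * G := by
  classical
  have hne01 : ∀ x y : ℕ, y ≠ 0 → Finsupp.single (0 : Fin 2) x ≠ Finsupp.single 1 y := by
    intro x y hy h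
    have := DFunLike.congr_fun h 1
    simp at this
    exact hy this.symm
  have hne10 : ∀ x y : ℕ, y ≠ 0 → Finsupp.single (1 : Fin 2) x ≠ Finsupp.single 0 y := by
    intro x y hy h
    have := DFunLike.congr_fun h 0
    simp at this
    exact hy this.symm
  set φ := F.toPowerSeries - MvPowerSeries.X 0 - MvPowerSeries.X 1 with hφ
  have h0 : (MvPowerSeries.X 0 : MvPowerSeries (Fin 2) R) ∣ φ := by
    rw [MvPowerSeries.X_dvd_iff]
    intro m hm
    have hm' : m = Finsupp.single 1 (m 1) := by
      ext i; fin_cases i <;> simp [hm]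
    rw [hm', hφ]
    simp only [map_sub, coeff_single_one, MvPowerSeries.coeff_X]
    rw [if_neg (hne10 _ 1 one_ne_zero)]
    by_cases h1 : m 1 = 1
    · simp [h1]
    · have h2 : (Finsupp.single (1 : Fin 2) (m 1)) ≠ Finsupp.single 1 1 := by
        intro h; exact h1 (Finsupp.single_injective 1 h)
      rw [if_neg h1, if_neg h2]; simp
  obtain ⟨φ₀, hφ₀⟩ := h0
  have h1 : (MvPowerSeries.X 1 : MvPowerSeries (Fin 2) R) ∣ φ₀ := by
    rw [MvPowerSeries.X_dvd_iff]
    intro m hm
    have hm' : m = Finsupp.single 0 (m 0) := by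
      ext i; fin_cases i <;> simp [hm]
    have key : MvPowerSeries.coeff (Finsupp.single 0 1 + m) φ = MvPowerSeries.coeff m φ₀ := by
      rw [hφ₀, MvPowerSeries.X_def, MvPowerSeries.coeff_add_monomial_mul, one_mul]
    rw [← key, hm', ← Finsupp.single_add, hφ]
    simp only [map_sub, coeff_single_zero, MvPowerSeries.coeff_X]
    rw [if_neg (hne01 _ 1 one_ne_zero)]
    by_cases h1 : m 0 = 0
    · simp [h1]
    · have h2 : (Finsupp.single (0 : Fin 2) (1 + m 0)) ≠ Finsupp.single 0 1 := by
        intro h
        have := Finsupp.single_injective 0 h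
        omega
      have h4 : 1 + m 0 ≠ 1 := by omega
      rw [if_neg h4, if_neg h2]; simp
  obtain ⟨G, hG⟩ := h1
  refine ⟨G, ?_⟩
  have : F.toPowerSeries = φ + MvPowerSeries.X 0 + MvPowerSeries.X 1 := by rw [hφ]; ring
  rw [this, hφ₀, hG]; ring

/-- The remainder series `G` with `F = X₀ + X₁ + X₀ X₁ G`. -/
noncomputable def fgRem (F : FormalGroup R) : MvPowerSeries (Fin 2) R := (exists_fgRem F).choose

theorem fg_eq_rem (F : FormalGroup R) : F.toPowerSeries = MvPowerSeries.X 0 + MvPowerSeries.X 1 +
      MvPowerSeries.X 0 * MvPowerSeries.X 1 * fgRem F := (exists_fgRem F).choose_spec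

/-- `F(a, b) = a + b + a b G(a, b)`. -/
theorem fgAdd_eq (F : FormalGroup R) {a b : MvPowerSeries τ R} (ha : PowerSeries.HasSubst a)
    (hb : PowerSeries.HasSubst b) :
    fgAdd F a b = a + b + a * b * (fgRem F).subst ![a, b] := by
  have hab := hasSubst_pair ha hb
  have := congrArg (MvPowerSeries.subst ![a, b]) (fg_eq_rem F)
  rw [MvPowerSeries.subst_add hab, MvPowerSeries.subst_add hab, MvPowerSeries.subst_mul hab,
    MvPowerSeries.subst_mul hab, MvPowerSeries.subst_X hab, MvPowerSeries.subst_X hab] at this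
  exact this

/-! ### Homomorphisms -/

variable {F G K : FormalGroup R}

lemma hasSubst_law (F : FormalGroup R) : PowerSeries.HasSubst F.toPowerSeries :=
  PowerSeries.HasSubst.of_constantCoeff_zero F.zero_constantCoeff

lemma hasSubst_X_i (i : τ) : PowerSeries.HasSubst (MvPowerSeries.X i : MvPowerSeries τ R) :=
  PowerSeries.HasSubst.X i

/-- `(f(X_i))(c) = f(c_i)`. -/
lemma subst_psubst_X {f : PowerSeries R} {σ : Type*} (i : σ)
    {c : σ → MvPowerSeries υ R} (hc : MvPowerSeries.HasSubst c) :
    (PowerSeries.subst (MvPowerSeries.X i : MvPowerSeries σ R) f).subst c =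
      PowerSeries.subst (c i) f := by
  rw [subst_psubst (hasSubst_X_i i) hc, MvPowerSeries.subst_X hc]

lemma hasSubst_homXX {f : PowerSeries R} (h0 : PowerSeries.constantCoeff f = 0) :
    MvPowerSeries.HasSubst
      ![PowerSeries.subst (MvPowerSeries.X 0 : MvPowerSeries (Fin 2) R) f,
        PowerSeries.subst (MvPowerSeries.X 1 : MvPowerSeries (Fin 2) R) f] :=
  MvPowerSeries.hasSubst_of_constantCoeff_zero fun s => by
    fin_cases s <;> exact PowerSeries.constantCoeff_subst_eq_zero
      (MvPowerSeries.constantCoeff_X _) _ h0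

/-- A homomorphism is additive at all points. -/
theorem _root_.Crest.LubinTate.IsFGHom.apply {f : PowerSeries R} (h : IsFGHom F G f) {a b : MvPowerSeries τ R}
    (ha : PowerSeries.HasSubst a) (hb : PowerSeries.HasSubst b) :
    PowerSeries.subst (fgAdd F a b) f =
      fgAdd G (PowerSeries.subst a f) (PowerSeries.subst b f) := by
  have hab := hasSubst_pair ha hb
  have := congrArg (MvPowerSeries.subst ![a, b]) h.2
  rw [subst_psubst (hasSubst_law F) hab] at this
  refine this.trans ?_
  have hc := hasSubst_homXX h.1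
  rw [MvPowerSeries.subst_comp_subst_apply hc hab]
  congr! 2 with s
  fin_cases s
  · simp only [Fin.zero_eta, Fin.isValue, Matrix.cons_val_zero]
    rw [subst_psubst_X _ hab]; rfl
  · simp only [Fin.mk_one, Fin.isValue, Matrix.cons_val_one, Matrix.cons_val_fin_one]
    rw [subst_psubst_X _ hab]; rfl

lemma fgAdd_X_X (F : FormalGroup R) :
    fgAdd F (MvPowerSeries.X 0) (MvPowerSeries.X 1) = F.toPowerSeries := by
  have : ![(MvPowerSeries.X 0 : MvPowerSeries (Fin 2) R), MvPowerSeries.X 1] =
      MvPowerSeries.X := by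
    ext1 i; fin_cases i <;> rfl
  rw [fgAdd, this, MvPowerSeries.subst_self]; rfl

/-- Converse of `IsFGHom.apply`. -/
theorem _root_.Crest.LubinTate.IsFGHom.of_apply {f : PowerSeries R} (h0 : PowerSeries.constantCoeff f = 0)
    (h : PowerSeries.subst (fgAdd F (MvPowerSeries.X 0) (MvPowerSeries.X 1)) f =
      fgAdd G (PowerSeries.subst (MvPowerSeries.X 0 : MvPowerSeries (Fin 2) R) f)
        (PowerSeries.subst (MvPowerSeries.X 1 : MvPowerSeries (Fin 2) R) f)) : IsFGHom F G f :=
  ⟨h0, by rwa [fgAdd_X_X] at h⟩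

lemma constantCoeff_cmp {f g : PowerSeries R} (hf : PowerSeries.constantCoeff f = 0)
    (hg : PowerSeries.constantCoeff g = 0) : PowerSeries.constantCoeff (cmp f g) = 0 :=
  PowerSeries.constantCoeff_subst_eq_zero hg _ hf

lemma hasSubst_of_cc {f : PowerSeries R} (hf : PowerSeries.constantCoeff f = 0) :
    PowerSeries.HasSubst f := PowerSeries.HasSubst.of_constantCoeff_zero' hf

theorem isFGHom_X (F : FormalGroup R) : IsFGHom F F PowerSeries.X := by
  refine ⟨by simp, ?_⟩
  have h1 : ∀ {σ : Type} (a : MvPowerSeries σ R), PowerSeries.HasSubst a →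
      PowerSeries.subst a (PowerSeries.X : PowerSeries R) = a := fun a ha =>
    PowerSeries.subst_X ha
  rw [h1 _ (hasSubst_law F), h1 _ (hasSubst_X_i 0), h1 _ (hasSubst_X_i 1)]
  exact (fgAdd_X_X F).symm

/-- Composition of homomorphisms. -/
theorem _root_.Crest.LubinTate.IsFGHom.comp {f g : PowerSeries R} (hg : IsFGHom G K g) (hf : IsFGHom F G f) :
    IsFGHom F K (cmp g f) := by
  refine ⟨constantCoeff_cmp hg.1 hf.1, ?_⟩
  have hfs := hasSubst_of_cc hf.1
  have hi : ∀ i : Fin 2, PowerSeries.HasSubst
      (PowerSeries.subst (MvPowerSeries.X i : MvPowerSeries (Fin 2) R) f) := fun i =>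
    PowerSeries.HasSubst.of_constantCoeff_zero
      (PowerSeries.constantCoeff_subst_eq_zero (by simp) _ hf.1)
  rw [cmp, PowerSeries.subst_comp_subst_apply hfs (hasSubst_law F), hf.2,
    PowerSeries.subst_comp_subst_apply hfs (hasSubst_X_i 0),
    PowerSeries.subst_comp_subst_apply hfs (hasSubst_X_i 1)]
  exact hg.apply (hi 0) (hi 1)

/-- Ring homomorphisms transport homomorphisms. -/
theorem _root_.Crest.LubinTate.IsFGHom.map {f : PowerSeries R} (h : IsFGHom F G f) (φ : R →+* S) :
    IsFGHom (F.map φ) (G.map φ) (f.map φ) := by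
  refine ⟨by rw [← PowerSeries.coeff_zero_eq_constantCoeff_apply, PowerSeries.coeff_map,
    PowerSeries.coeff_zero_eq_constantCoeff_apply, h.1, map_zero], ?_⟩
  have h2 := congrArg (MvPowerSeries.map φ) h.2
  have hc := hasSubst_homXX h.1
  rw [MvPowerSeries.map_subst hc] at h2
  rw [PowerSeries.map_subst (hasSubst_law F)] at h2
  have e : (fun i => MvPowerSeries.map φ (![PowerSeries.subst (MvPowerSeries.X 0 : MvPowerSeries (Fin 2) R) f,
        PowerSeries.subst (MvPowerSeries.X 1 : MvPowerSeries (Fin 2) R) f] i)) =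
      ![PowerSeries.subst (MvPowerSeries.X 0 : MvPowerSeries (Fin 2) S) (PowerSeries.map φ f),
        PowerSeries.subst (MvPowerSeries.X 1 : MvPowerSeries (Fin 2) S) (PowerSeries.map φ f)] := by
    ext1 i
    fin_cases i
    · simp only [Fin.zero_eta, Fin.isValue, Matrix.cons_val_zero]
      rw [PowerSeries.map_subst (hasSubst_X_i 0), MvPowerSeries.map_X]
    · simp only [Fin.mk_one, Fin.isValue, Matrix.cons_val_one, Matrix.cons_val_fin_one]
      rw [PowerSeries.map_subst (hasSubst_X_i 1), MvPowerSeries.map_X]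
  rw [e] at h2
  exact h2

/-! ### Functoriality of `FormalGroup.map` -/

lemma fg_map_map (F : FormalGroup R) {T : Type*} [CommRing T] (φ : R →+* S) (ψ : S →+* T) :
    (F.map φ).map ψ = F.map (ψ.comp φ) := by
  apply FormalGroup.ext
  ext d
  simp [FormalGroup.map]

lemma fg_map_id (F : FormalGroup R) : F.map (RingHom.id R) = F := by
  apply FormalGroup.ext
  ext d
  simp [FormalGroup.map]

lemma map_subst_pair (φ : R →+* S) (L : MvPowerSeries (Fin 2) R) {a b : MvPowerSeries τ R}
    (ha : PowerSeries.HasSubst a) (hb : PowerSeries.HasSubst b) :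
    MvPowerSeries.map φ (L.subst ![a, b]) =
      (MvPowerSeries.map φ L).subst ![MvPowerSeries.map φ a, MvPowerSeries.map φ b] := by
  rw [MvPowerSeries.map_subst (hasSubst_pair ha hb)]
  congr! 2 with s
  fin_cases s <;> rfl

/-- Base change of `F(a,b)`. -/
lemma map_fgAdd (F : FormalGroup R) (φ : R →+* S) {a b : MvPowerSeries τ R}
    (ha : PowerSeries.HasSubst a) (hb : PowerSeries.HasSubst b) :
    MvPowerSeries.map φ (fgAdd F a b) =
      fgAdd (F.map φ) (MvPowerSeries.map φ a) (MvPowerSeries.map φ b) :=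
  map_subst_pair φ _ ha hb

/-- Base change of a one-variable composition. -/
lemma map_cmp (φ : R →+* S) {f g : PowerSeries R} (hg : PowerSeries.constantCoeff g = 0) :
    PowerSeries.map φ (cmp f g) = cmp (PowerSeries.map φ f) (PowerSeries.map φ g) :=
  PowerSeries.map_subst (hasSubst_of_cc hg) f

instance fg_map_comm (F : FormalGroup R) [F.IsComm] (φ : R →+* S) : (F.map φ).IsComm where
  comm := by
    have h : (F : MvPowerSeries (Fin 2) R) =
        (F : MvPowerSeries (Fin 2) R).subst ![MvPowerSeries.X 1, MvPowerSeries.X 0] :=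
      FormalGroup.IsComm.comm
    have h2 := congrArg (MvPowerSeries.map φ) h
    rw [map_subst_pair φ _ (hasSubst_X_i 1) (hasSubst_X_i 0), MvPowerSeries.map_X,
      MvPowerSeries.map_X] at h2
    exact h2

/-- Injective base change reflects commutativity. -/
lemma fg_comm_of_map_inj (F : FormalGroup R) (φ : R →+* S) (hφ : Function.Injective φ)
    [(F.map φ).IsComm] : F.IsComm where
  comm := by
    have h : ((F.map φ) : MvPowerSeries (Fin 2) S) =
        ((F.map φ) : MvPowerSeries (Fin 2) S).subst ![MvPowerSeries.X 1, MvPowerSeries.X 0] :=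
      FormalGroup.IsComm.comm
    have h2 := map_subst_pair (τ := Fin 2) φ (F : MvPowerSeries (Fin 2) R) (a := MvPowerSeries.X 1)
      (b := MvPowerSeries.X 0) (hasSubst_X_i 1) (hasSubst_X_i 0)
    rw [MvPowerSeries.map_X, MvPowerSeries.map_X] at h2
    have h3 : MvPowerSeries.map φ (F : MvPowerSeries (Fin 2) R) = MvPowerSeries.map φ
        ((F : MvPowerSeries (Fin 2) R).subst ![MvPowerSeries.X 1, MvPowerSeries.X 0]) :=
      h.trans h2.symm
    exact MvPowerSeries.ext fun n => hφ (by
      have := congrArg (MvPowerSeries.coeff n) h3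
      simpa using this)

/-! ### The inverse series -/

/-- Division of `F - X₁` by `X₀`: `F = X₁ + X₀ A`. -/
theorem exists_fgDiv (F : FormalGroup R) : ∃ A : MvPowerSeries (Fin 2) R,
    F.toPowerSeries = MvPowerSeries.X 1 + MvPowerSeries.X 0 * A := by
  refine ⟨MvPowerSeries.X 1 * fgRem F + 1, ?_⟩
  rw [fg_eq_rem F]; ring

/-- The iteration `y ↦ -X A(X,y)`. -/
private noncomputable def invIter (F : FormalGroup R) : ℕ → PowerSeries R
  | 0 => 0
  | k + 1 => -(PowerSeries.X *
      ((exists_fgDiv F).choose.subst ![PowerSeries.X (R := R), invIter F k] : PowerSeries R))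

private lemma invIter_cc (F : FormalGroup R) (k : ℕ) :
    PowerSeries.constantCoeff (invIter F k) = 0 := by
  cases k with
  | zero => simp [invIter]
  | succ k => simp [invIter]

private lemma pair_X (F : FormalGroup R) (k : ℕ) :
    MvPowerSeries.HasSubst ![PowerSeries.X (R := R), invIter F k] :=
  hasSubst_pair (PowerSeries.HasSubst.of_constantCoeff_zero' (by simp))
    (PowerSeries.HasSubst.of_constantCoeff_zero' (invIter_cc F k))

private lemma add_invIter (F : FormalGroup R) (y : PowerSeries R)
    (hy : PowerSeries.HasSubst y) :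
    fgAdd F (PowerSeries.X (R := R)) y =
      y + PowerSeries.X * ((exists_fgDiv F).choose.subst ![PowerSeries.X (R := R), y]
        : PowerSeries R) := by
  have hp := hasSubst_pair (PowerSeries.HasSubst.of_constantCoeff_zero'
    (PowerSeries.constantCoeff_X (R := R))) hy
  have h := congrArg (MvPowerSeries.subst ![PowerSeries.X (R := R), y])
    (exists_fgDiv F).choose_spec
  rw [MvPowerSeries.subst_add hp, MvPowerSeries.subst_mul hp, MvPowerSeries.subst_X hp,
    MvPowerSeries.subst_X hp] at h
  exact h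

private lemma invIter_step (F : FormalGroup R) (k : ℕ) :
    (PowerSeries.X : PowerSeries R) ^ (k + 1) ∣ invIter F k - invIter F (k + 1) := by
  induction k with
  | zero =>
    have : invIter F 0 - invIter F 1 = PowerSeries.X *
        ((exists_fgDiv F).choose.subst ![PowerSeries.X (R := R), invIter F 0] : PowerSeries R) := by
      simp [invIter]
    rw [this]; simp
  | succ k ih =>
    have hcong := subst_congr_X_pow (pair_X F k) (pair_X F (k + 1)) (k + 1) (by
      intro s; fin_cases s
      · simp
      · exact ih) (exists_fgDiv F).choose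
    have : invIter F (k + 1) - invIter F (k + 1 + 1) = PowerSeries.X *
        (((exists_fgDiv F).choose.subst ![PowerSeries.X (R := R), invIter F (k + 1)] : PowerSeries R) -
         ((exists_fgDiv F).choose.subst ![PowerSeries.X (R := R), invIter F k] : PowerSeries R)) := by
      conv_lhs => rw [invIter, invIter]
      ring
    rw [this, pow_succ']
    refine mul_dvd_mul_left _ ?_
    rw [← dvd_neg, neg_sub]
    exact hcong

private lemma invIter_agree (F : FormalGroup R) (k m : ℕ) (hkm : k ≤ m) :
    (PowerSeries.X : PowerSeries R) ^ (k + 1) ∣ invIter F k - invIter F m := by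
  induction m, hkm using Nat.le_induction with
  | base => simp
  | succ m hm ih =>
    have h1 := invIter_step F m
    have h2 : (PowerSeries.X : PowerSeries R) ^ (k + 1) ∣ invIter F m - invIter F (m + 1) :=
      (pow_dvd_pow _ (by omega)).trans h1
    have := dvd_add ih h2
    simpa using this

/-- The inverse series of a law: `F(X, ι X) = 0`. -/
noncomputable def fgInv (F : FormalGroup R) : PowerSeries R :=
  PowerSeries.mk fun n => PowerSeries.coeff n (invIter F n)

lemma fgInv_congr (F : FormalGroup R) (k : ℕ) :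
    (PowerSeries.X : PowerSeries R) ^ (k + 1) ∣ fgInv F - invIter F k := by
  rw [PowerSeries.X_pow_dvd_iff]
  intro m hm
  rw [map_sub, fgInv, PowerSeries.coeff_mk, sub_eq_zero]
  have h := invIter_agree F m k (by omega)
  rw [PowerSeries.X_pow_dvd_iff] at h
  have := h m (by omega)
  rwa [map_sub, sub_eq_zero] at this

@[simp] lemma constantCoeff_fgInv (F : FormalGroup R) : PowerSeries.constantCoeff (fgInv F) = 0 := by
  rw [fgInv, ← PowerSeries.coeff_zero_eq_constantCoeff_apply, PowerSeries.coeff_mk]
  simp [invIter]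

lemma hasSubst_fgInv (F : FormalGroup R) : PowerSeries.HasSubst (fgInv F) :=
  hasSubst_of_cc (constantCoeff_fgInv F)

/-- `F(X, ι X) = 0`. -/
theorem fgAdd_X_inv (F : FormalGroup R) : fgAdd F (PowerSeries.X (R := R)) (fgInv F) = 0 := by
  ext n
  have hX : PowerSeries.HasSubst (PowerSeries.X (R := R)) :=
    PowerSeries.HasSubst.of_constantCoeff_zero' PowerSeries.constantCoeff_X
  have hk := fgInv_congr F n
  have hy := PowerSeries.HasSubst.of_constantCoeff_zero' (invIter_cc F n)
  have hcong := fgAdd_congr_X_pow F hX hX (hasSubst_fgInv F) hy (n + 1) (by simp) hk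
  have e1 : fgAdd F (PowerSeries.X (R := R)) (invIter F n) = invIter F n - invIter F (n + 1) := by
    rw [add_invIter F _ hy]
    conv_rhs => rw [invIter]
    ring
  rw [e1] at hcong
  have h2 := (invIter_step F n)
  have h3 := dvd_add hcong h2
  simp only [sub_add_cancel] at h3
  rw [PowerSeries.X_pow_dvd_iff] at h3
  simpa using h3 n (by omega)

/-! ### `Point` as an abelian group -/

/-- The `F`-inverse of a series. -/
noncomputable abbrev fgNeg (F : FormalGroup R) (a : MvPowerSeries τ R) : MvPowerSeries τ R :=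
  PowerSeries.subst a (fgInv F)

lemma hasSubst_fgNeg (F : FormalGroup R) {a : MvPowerSeries τ R} (ha : PowerSeries.HasSubst a) :
    PowerSeries.HasSubst (fgNeg F a) := by
  rw [fgNeg, PowerSeries.subst]
  exact MvPowerSeries.IsNilpotent_subst ha.const
    (by rw [show MvPowerSeries.constantCoeff (fgInv F) = 0 from constantCoeff_fgInv F]
        exact IsNilpotent.zero)

theorem fgAdd_fgNeg (F : FormalGroup R) {a : MvPowerSeries τ R} (ha : PowerSeries.HasSubst a) :
    fgAdd F a (fgNeg F a) = 0 := by
  have hX : PowerSeries.HasSubst (PowerSeries.X (R := R)) :=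
    PowerSeries.HasSubst.of_constantCoeff_zero' PowerSeries.constantCoeff_X
  have := congrArg (PowerSeries.subst a) (fgAdd_X_inv F)
  rw [psubst_fgAdd F hX (hasSubst_fgInv F) ha, PowerSeries.subst_X ha] at this
  rw [this]
  have h0 : PowerSeries.subst a (0 : PowerSeries R) = 0 := by
    rw [← PowerSeries.coe_substAlgHom ha]; simp
  exact h0

theorem fgNeg_fgAdd (F : FormalGroup R) [F.IsComm] {a : MvPowerSeries τ R}
    (ha : PowerSeries.HasSubst a) : fgAdd F (fgNeg F a) a = 0 := by
  rw [fgAdd_comm F (hasSubst_fgNeg F ha) ha, fgAdd_fgNeg F ha]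

noncomputable instance instNegPoint (F : FormalGroup R) : Neg (F.Point τ) :=
  ⟨fun x => ⟨fgNeg F x.val, hasSubst_fgNeg F x.prop⟩⟩

/-- `F.Point τ` is an abelian group for a commutative law. -/
noncomputable instance instAddCommGroupPoint (F : FormalGroup R) [F.IsComm] :
    AddCommGroup (F.Point τ) :=
  { (inferInstance : AddCommMonoid (F.Point τ)), instNegPoint F with
    zsmul := zsmulRec
    neg_add_cancel := fun x => Subtype.ext (fgNeg_fgAdd F x.prop) }

@[simp] lemma point_neg_val (F : FormalGroup R) [F.IsComm] (x : F.Point τ) :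
    (-x).val = fgNeg F x.val := rfl

/-- A point from a series. -/
def mkPt (F : FormalGroup R) (a : MvPowerSeries τ R) (ha : PowerSeries.HasSubst a) : F.Point τ :=
  ⟨a, ha⟩

/-- The tautological point `X`. -/
noncomputable def ptX (F : FormalGroup R) : F.Point Unit :=
  ⟨PowerSeries.X, PowerSeries.HasSubst.of_constantCoeff_zero' PowerSeries.constantCoeff_X⟩

/-- Push-forward of points along a homomorphism. -/
noncomputable def _root_.Crest.LubinTate.IsFGHom.pointHom {f : PowerSeries R} (h : IsFGHom F G f) :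
    F.Point τ →+ G.Point τ where
  toFun x := ⟨PowerSeries.subst x.val f,
    by
      rw [PowerSeries.subst]
      exact MvPowerSeries.IsNilpotent_subst x.prop.const
        (by rw [show MvPowerSeries.constantCoeff f = 0 from h.1]; exact IsNilpotent.zero)⟩
  map_zero' := Subtype.ext (by
    show PowerSeries.subst (0 : MvPowerSeries τ R) f = 0
    rw [PowerSeries.subst_zero_of_constantCoeff_zero h.1])
  map_add' x y := Subtype.ext (h.apply x.prop y.prop)

@[simp] lemma pointHom_val {f : PowerSeries R} (h : IsFGHom F G f) (x : F.Point τ) :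
    (h.pointHom x).val = PowerSeries.subst x.val f := rfl

/-! ### Multiplication series -/

@[simp] lemma mulSeries_zero (F : FormalGroup R) : mulSeries F 0 = 0 := rfl

lemma mulSeries_succ (F : FormalGroup R) (m : ℕ) :
    mulSeries F (m + 1) = fgAdd F (mulSeries F m : PowerSeries R) (PowerSeries.X (R := R)) := rfl

lemma constantCoeff_mulSeries (F : FormalGroup R) (m : ℕ) :
    PowerSeries.constantCoeff (mulSeries F m) = 0 := by
  induction m with
  | zero => simp
  | succ m ih =>
    rw [mulSeries_succ]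
    exact constantCoeff_fgAdd_of F ih PowerSeries.constantCoeff_X

lemma hasSubst_mulSeries (F : FormalGroup R) (m : ℕ) : PowerSeries.HasSubst (mulSeries F m) :=
  hasSubst_of_cc (constantCoeff_mulSeries F m)

/-- `x ↦ m • x` is substitution in `[m]`. -/
theorem subst_mulSeries (F : FormalGroup R) (m : ℕ) (x : F.Point τ) :
    PowerSeries.subst x.val (mulSeries F m) = (m • x).val := by
  induction m with
  | zero =>
    simp only [mulSeries_zero, zero_nsmul, FormalGroup.zero_apply]
    rw [← PowerSeries.coe_substAlgHom x.prop]; simp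
  | succ m ih =>
    have hX : PowerSeries.HasSubst (PowerSeries.X (R := R)) :=
      PowerSeries.HasSubst.of_constantCoeff_zero' PowerSeries.constantCoeff_X
    rw [mulSeries_succ, psubst_fgAdd F (hasSubst_mulSeries F m) hX x.prop, PowerSeries.subst_X x.prop,
      ih, succ_nsmul]
    rfl

/-- `[m]` is the `m`-th multiple of the tautological point. -/
theorem mulSeries_eq_nsmul (F : FormalGroup R) (m : ℕ) : mulSeries F m = (m • ptX F).val := by
  rw [← subst_mulSeries]
  exact (PowerSeries.X_subst _).symm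

theorem mulSeries_add (F : FormalGroup R) (m m' : ℕ) :
    mulSeries F (m + m') =
      fgAdd F (mulSeries F m : PowerSeries R) (mulSeries F m' : PowerSeries R) := by
  calc mulSeries F (m + m') = ((m + m') • ptX F).val := mulSeries_eq_nsmul F _
    _ = (m • ptX F + m' • ptX F).val := by rw [add_nsmul]
    _ = fgAdd F (m • ptX F).val (m' • ptX F).val := rfl
    _ = _ := by rw [← mulSeries_eq_nsmul, ← mulSeries_eq_nsmul]

theorem mulSeries_mul (F : FormalGroup R) (m m' : ℕ) :
    mulSeries F (m * m') = cmp (mulSeries F m) (mulSeries F m') := by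
  rw [cmp, mulSeries_eq_nsmul F m', subst_mulSeries, mulSeries_eq_nsmul, mul_nsmul']

@[simp] lemma mulSeries_one (F : FormalGroup R) : mulSeries F 1 = PowerSeries.X := by
  rw [mulSeries_eq_nsmul, one_nsmul]; rfl

/-- `[m]` commutes with homomorphisms. -/
theorem _root_.Crest.LubinTate.IsFGHom.cmp_mulSeries {f : PowerSeries R} (h : IsFGHom F G f)
    (m : ℕ) : cmp f (mulSeries F m) = cmp (mulSeries G m) f := by
  have hf := hasSubst_of_cc h.1
  rw [cmp, cmp, subst_mulSeries G m ⟨f, hf⟩, mulSeries_eq_nsmul F m]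
  have := map_nsmul (h.pointHom (τ := Unit)) m (ptX F)
  have h2 := congrArg Subtype.val this
  rw [pointHom_val] at h2
  rw [h2]
  congr 2
  exact Subtype.ext (PowerSeries.X_subst f)

/-- `[m]` is an endomorphism of a commutative law. -/
theorem isFGHom_mulSeries (F : FormalGroup R) [F.IsComm] (m : ℕ) :
    IsFGHom F F (mulSeries F m) := by
  apply Crest.LubinTate.IsFGHom.of_apply (constantCoeff_mulSeries F m)
  let x0 : F.Point (Fin 2) := ⟨MvPowerSeries.X 0, hasSubst_X_i 0⟩
  let x1 : F.Point (Fin 2) := ⟨MvPowerSeries.X 1, hasSubst_X_i 1⟩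
  have a := subst_mulSeries F m (x0 + x1)
  have a0 := subst_mulSeries F m x0
  have a1 := subst_mulSeries F m x1
  calc _ = (m • (x0 + x1)).val := a
    _ = (m • x0 + m • x1).val := by rw [nsmul_add]
    _ = fgAdd F (m • x0).val (m • x1).val := rfl
    _ = _ := by rw [← a0, ← a1]

/-- Base change of `[m]`. -/
theorem mulSeries_map (F : FormalGroup R) (φ : R →+* S) (m : ℕ) :
    mulSeries (F.map φ) m = PowerSeries.map φ (mulSeries F m) := by
  induction m with
  | zero => simp
  | succ m ih =>
    have hX : PowerSeries.HasSubst (PowerSeries.X (R := R)) :=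
      PowerSeries.HasSubst.of_constantCoeff_zero' PowerSeries.constantCoeff_X
    rw [mulSeries_succ, mulSeries_succ, ih]
    have := map_fgAdd F φ (hasSubst_mulSeries F m) hX
    refine Eq.trans ?_ this.symm
    congr 1
    exact (PowerSeries.map_X φ).symm

/-! ### Linear coefficients of compositions -/

lemma coeff_zero_pow_of_cc {f : PowerSeries R} (hf : PowerSeries.constantCoeff f = 0) (d n : ℕ)
    (hn : n < d) : PowerSeries.coeff n (f ^ d) = 0 := by
  have : (PowerSeries.X : PowerSeries R) ∣ f := PowerSeries.X_dvd_iff.2 hf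
  have h2 : (PowerSeries.X : PowerSeries R) ^ d ∣ f ^ d := pow_dvd_pow_of_dvd this d
  exact PowerSeries.X_pow_dvd_iff.1 h2 n hn

/-- `f ∘ g` modulo `X^(m+1)` only depends on terms of `f` of degree `≤ m` if `g` has no constant
term, in particular the coefficient formula as a finite sum. -/
lemma coeff_cmp_eq_sum {f g : PowerSeries R} (hg : PowerSeries.constantCoeff g = 0) (n : ℕ) :
    PowerSeries.coeff n (cmp f g) =
      ∑ d ∈ Finset.range (n + 1), PowerSeries.coeff d f * PowerSeries.coeff n (g ^ d) := by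
  rw [cmp, PowerSeries.coeff_subst' (hasSubst_of_cc hg),
    finsum_eq_sum_of_support_subset (s := Finset.range (n + 1))]
  · rfl
  · intro d hd
    simp only [Function.mem_support, ne_eq] at hd
    by_contra hdn
    simp only [Finset.coe_range, Set.mem_Iio, not_lt] at hdn
    exact hd (by rw [coeff_zero_pow_of_cc hg d n (by omega), smul_zero])

lemma coeff_one_cmp {f g : PowerSeries R} (hf : PowerSeries.constantCoeff f = 0)
    (hg : PowerSeries.constantCoeff g = 0) :
    PowerSeries.coeff 1 (cmp f g) = PowerSeries.coeff 1 f * PowerSeries.coeff 1 g := by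
  rw [coeff_cmp_eq_sum hg, Finset.sum_range_succ, Finset.sum_range_one]
  simp [hf]

lemma coeff_zero_cmp_X {f : PowerSeries R} :
    cmp f PowerSeries.X = f := PowerSeries.X_subst f

lemma cmp_X_left {g : PowerSeries R} (hg : PowerSeries.constantCoeff g = 0) :
    cmp PowerSeries.X g = g := PowerSeries.subst_X (hasSubst_of_cc hg)

lemma cmp_assoc {f g h : PowerSeries R} (hg : PowerSeries.constantCoeff g = 0)
    (hh : PowerSeries.constantCoeff h = 0) : cmp (cmp f g) h = cmp f (cmp g h) :=
  PowerSeries.subst_comp_subst_apply (hasSubst_of_cc hg) (hasSubst_of_cc hh) f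

/-- `[m]` has linear coefficient `m`. -/
theorem coeff_one_mulSeries (F : FormalGroup R) (m : ℕ) :
    PowerSeries.coeff 1 (mulSeries F m) = m := by
  induction m with
  | zero => simp
  | succ m ih =>
    have hX : PowerSeries.HasSubst (PowerSeries.X (R := R)) :=
      PowerSeries.HasSubst.of_constantCoeff_zero' PowerSeries.constantCoeff_X
    rw [mulSeries_succ, fgAdd_eq F (hasSubst_mulSeries F m) hX]
    have hc : PowerSeries.coeff 1 ((mulSeries F m : PowerSeries R) * PowerSeries.X *
        ((fgRem F).subst ![(mulSeries F m : PowerSeries R), PowerSeries.X] : PowerSeries R)) = 0 := by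
      have : (PowerSeries.X : PowerSeries R) ^ 2 ∣ (mulSeries F m : PowerSeries R) * PowerSeries.X *
          ((fgRem F).subst ![(mulSeries F m : PowerSeries R), PowerSeries.X] : PowerSeries R) := by
        generalize ((fgRem F).subst ![(mulSeries F m : PowerSeries R), PowerSeries.X] :
          PowerSeries R) = w
        obtain ⟨u, hu⟩ := PowerSeries.X_dvd_iff.2 (constantCoeff_mulSeries F m)
        rw [hu]
        exact ⟨u * w, by ring⟩
      exact PowerSeries.X_pow_dvd_iff.1 this 1 (by norm_num)
    have e : PowerSeries.coeff 1 ((mulSeries F m : PowerSeries R) + PowerSeries.X +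
        (mulSeries F m : PowerSeries R) * PowerSeries.X *
        ((fgRem F).subst ![(mulSeries F m : PowerSeries R), PowerSeries.X] : PowerSeries R))
        = PowerSeries.coeff 1 (mulSeries F m) + 1 := by
      rw [map_add, map_add, hc, PowerSeries.coeff_one_X, add_zero]
    refine e.trans ?_
    rw [ih]; push_cast; ring

/-! ### Inverses of homomorphisms -/

/-- The compositional inverse of a series with unit linear coefficient. -/
noncomputable abbrev sInv (f : PowerSeries R) (hu : IsUnit (PowerSeries.coeff 1 f)) :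
    PowerSeries R := f.substInvOfIsUnit hu

lemma cc_sInv (f : PowerSeries R) (hu : IsUnit (PowerSeries.coeff 1 f)) :
    PowerSeries.constantCoeff (sInv f hu) = 0 := PowerSeries.constantCoeff_substInvOfIsUnit f hu

lemma cmp_sInv (f : PowerSeries R) (h0 : PowerSeries.constantCoeff f = 0)
    (hu : IsUnit (PowerSeries.coeff 1 f)) : cmp f (sInv f hu) = PowerSeries.X :=
  PowerSeries.subst_substInvOfIsUnit_right f h0 hu

lemma cmp_sInv' (f : PowerSeries R) (h0 : PowerSeries.constantCoeff f = 0)
    (hu : IsUnit (PowerSeries.coeff 1 f)) : cmp (sInv f hu) f = PowerSeries.X :=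
  PowerSeries.subst_substInvOfIsUnit_left f h0 hu

lemma coeff_one_sInv (f : PowerSeries R) (hu : IsUnit (PowerSeries.coeff 1 f)) :
    PowerSeries.coeff 1 (sInv f hu) = (hu.unit⁻¹ : Rˣ) := PowerSeries.coeff_one_substInvOfIsUnit f hu

lemma isUnit_coeff_one_sInv (f : PowerSeries R) (hu : IsUnit (PowerSeries.coeff 1 f)) :
    IsUnit (PowerSeries.coeff 1 (sInv f hu)) := by
  rw [coeff_one_sInv]; exact Units.isUnit _

/-- `g(f(a)) = a` at all points when `g ∘ f = X`. -/
lemma psubst_psubst_eq {f g : PowerSeries R} (hf : PowerSeries.constantCoeff f = 0)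
    (hgf : cmp g f = PowerSeries.X) {a : MvPowerSeries τ R} (ha : PowerSeries.HasSubst a) :
    PowerSeries.subst (PowerSeries.subst a f) g = a := by
  rw [← PowerSeries.subst_comp_subst_apply (hasSubst_of_cc hf) ha]
  have : PowerSeries.subst f g = PowerSeries.X := hgf
  rw [this, PowerSeries.subst_X ha]

lemma hasSubst_psubst {f : PowerSeries R} (hf : PowerSeries.constantCoeff f = 0)
    {a : MvPowerSeries τ R} (ha : PowerSeries.HasSubst a) :
    PowerSeries.HasSubst (PowerSeries.subst a f) := by
  rw [PowerSeries.subst]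
  exact MvPowerSeries.IsNilpotent_subst ha.const
    (by rw [show MvPowerSeries.constantCoeff f = 0 from hf]; exact IsNilpotent.zero)

/-- The inverse of a homomorphism with unit linear coefficient is a homomorphism. -/
theorem _root_.Crest.LubinTate.IsFGHom.inv {f : PowerSeries R} (h : IsFGHom F G f)
    (hu : IsUnit (PowerSeries.coeff 1 f)) : IsFGHom G F (sInv f hu) := by
  have hg0 := cc_sInv f hu
  have hfg := cmp_sInv f h.1 hu
  have hgf := cmp_sInv' f h.1 hu
  apply Crest.LubinTate.IsFGHom.of_apply hg0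
  have hs : ∀ i : Fin 2, PowerSeries.HasSubst
      (PowerSeries.subst (MvPowerSeries.X i : MvPowerSeries (Fin 2) R) (sInv f hu)) := fun i =>
    hasSubst_psubst hg0 (hasSubst_X_i i)
  have h1 := h.apply (hs 0) (hs 1)
  rw [psubst_psubst_eq hg0 hfg (hasSubst_X_i 0), psubst_psubst_eq hg0 hfg (hasSubst_X_i 1)] at h1
  rw [← h1, psubst_psubst_eq h.1 hgf (hasSubst_fgAdd F (hs 0) (hs 1))]

/-! ### Conjugation -/

lemma psubst_zero {f : PowerSeries R} (h0 : PowerSeries.constantCoeff f = 0) :
    PowerSeries.subst (0 : MvPowerSeries τ R) f = 0 :=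
  PowerSeries.subst_zero_of_constantCoeff_zero h0

section conj

variable (F) (f : PowerSeries R) (hu : IsUnit (PowerSeries.coeff 1 f))

/-- The raw series `f(F(f⁻¹ X, f⁻¹ Y))`. -/
private noncomputable def conjRaw : MvPowerSeries (Fin 2) R :=
  PowerSeries.subst (fgAdd F
    (PowerSeries.subst (MvPowerSeries.X 0 : MvPowerSeries (Fin 2) R) (sInv f hu))
    (PowerSeries.subst (MvPowerSeries.X 1 : MvPowerSeries (Fin 2) R) (sInv f hu))) f

private lemma hs_conj (i : Fin 2) : PowerSeries.HasSubst
    (PowerSeries.subst (MvPowerSeries.X i : MvPowerSeries (Fin 2) R) (sInv f hu)) :=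
  hasSubst_psubst (cc_sInv f hu) (hasSubst_X_i i)

/-- `(conjRaw)(a, b) = f(F(f⁻¹ a, f⁻¹ b))`. -/
private lemma conjRaw_apply {a b : MvPowerSeries τ R} (ha : PowerSeries.HasSubst a)
    (hb : PowerSeries.HasSubst b) :
    (conjRaw F f hu).subst ![a, b] = PowerSeries.subst (fgAdd F
      (PowerSeries.subst a (sInv f hu)) (PowerSeries.subst b (sInv f hu))) f := by
  have hab := hasSubst_pair ha hb
  have hs := hs_conj f hu
  rw [conjRaw, subst_psubst (hasSubst_fgAdd F (hs 0) (hs 1)) hab,
    subst_fgAdd F (hs 0) (hs 1) hab, subst_psubst_X _ hab, subst_psubst_X _ hab]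
  rfl

variable (h0 : PowerSeries.constantCoeff f = 0)

include h0 in
private lemma conjRaw_hasSubst {a b : MvPowerSeries τ R} (ha : PowerSeries.HasSubst a)
    (hb : PowerSeries.HasSubst b) : PowerSeries.HasSubst ((conjRaw F f hu).subst ![a, b]) := by
  rw [conjRaw_apply F f hu ha hb]
  exact hasSubst_psubst h0 (hasSubst_fgAdd F (hasSubst_psubst (cc_sInv f hu) ha)
    (hasSubst_psubst (cc_sInv f hu) hb))

include h0 in
/-- `f⁻¹ (C(a,b)) = F(f⁻¹ a, f⁻¹ b)`. -/
private lemma sInv_conjRaw {a b : MvPowerSeries τ R} (ha : PowerSeries.HasSubst a)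
    (hb : PowerSeries.HasSubst b) :
    PowerSeries.subst ((conjRaw F f hu).subst ![a, b]) (sInv f hu) =
      fgAdd F (PowerSeries.subst a (sInv f hu)) (PowerSeries.subst b (sInv f hu)) := by
  rw [conjRaw_apply F f hu ha hb]
  exact psubst_psubst_eq h0 (cmp_sInv' f h0 hu) (hasSubst_fgAdd F
    (hasSubst_psubst (cc_sInv f hu) ha) (hasSubst_psubst (cc_sInv f hu) hb))

/-- The conjugate law `f F f⁻¹`. -/
noncomputable def conjLaw : FormalGroup R where
  toPowerSeries := conjRaw F f hu
  zero_constantCoeff := by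
    have hs := hs_conj f hu
    exact PowerSeries.constantCoeff_subst_eq_zero (constantCoeff_fgAdd_of F
      (PowerSeries.constantCoeff_subst_eq_zero (MvPowerSeries.constantCoeff_X _) _ (cc_sInv f hu))
      (PowerSeries.constantCoeff_subst_eq_zero (MvPowerSeries.constantCoeff_X _) _ (cc_sInv f hu)))
      _ h0
  lin_coeff_X := by
    have hX : PowerSeries.HasSubst (PowerSeries.X (R := R)) :=
      PowerSeries.HasSubst.of_constantCoeff_zero' PowerSeries.constantCoeff_X
    rw [← coeff_subst_X_zero, conjRaw_apply F f hu hX PowerSeries.HasSubst.zero,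
      psubst_zero (cc_sInv f hu), fgAdd_zero F (hasSubst_psubst (cc_sInv f hu) hX),
      psubst_psubst_eq (cc_sInv f hu) (cmp_sInv f h0 hu) hX]
    exact PowerSeries.coeff_one_X
  lin_coeff_Y := by
    have hX : PowerSeries.HasSubst (PowerSeries.X (R := R)) :=
      PowerSeries.HasSubst.of_constantCoeff_zero' PowerSeries.constantCoeff_X
    rw [← coeff_subst_zero_X, conjRaw_apply F f hu PowerSeries.HasSubst.zero hX,
      psubst_zero (cc_sInv f hu), zero_fgAdd F (hasSubst_psubst (cc_sInv f hu) hX),
      psubst_psubst_eq (cc_sInv f hu) (cmp_sInv f h0 hu) hX]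
    exact PowerSeries.coeff_one_X
  assoc := by
    have hY : ∀ i : Fin 3, PowerSeries.HasSubst (MvPowerSeries.X i : MvPowerSeries (Fin 3) R) :=
      hasSubst_X_i
    have hg := cc_sInv f hu
    rw [conjRaw_apply F f hu (conjRaw_hasSubst F f hu h0 (hY 0) (hY 1)) (hY 2),
      conjRaw_apply F f hu (hY 0) (conjRaw_hasSubst F f hu h0 (hY 1) (hY 2)),
      sInv_conjRaw F f hu h0 (hY 0) (hY 1), sInv_conjRaw F f hu h0 (hY 1) (hY 2),
      fgAdd_assoc F (hasSubst_psubst hg (hY 0)) (hasSubst_psubst hg (hY 1))
        (hasSubst_psubst hg (hY 2))]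

/-- `C(a, b) = f(F(f⁻¹ a, f⁻¹ b))`. -/
theorem fgAdd_conjLaw {a b : MvPowerSeries τ R} (ha : PowerSeries.HasSubst a)
    (hb : PowerSeries.HasSubst b) :
    fgAdd (conjLaw F f hu h0) a b = PowerSeries.subst (fgAdd F
      (PowerSeries.subst a (sInv f hu)) (PowerSeries.subst b (sInv f hu))) f :=
  conjRaw_apply F f hu ha hb

instance conjLaw_comm [F.IsComm] : (conjLaw F f hu h0).IsComm where
  comm := by
    have hX : ∀ i : Fin 2, PowerSeries.HasSubst (MvPowerSeries.X i : MvPowerSeries (Fin 2) R) :=
      hasSubst_X_i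
    have hg := cc_sInv f hu
    show conjRaw F f hu = (conjRaw F f hu).subst ![MvPowerSeries.X 1, MvPowerSeries.X 0]
    rw [conjRaw_apply F f hu (hX 1) (hX 0), conjRaw,
      fgAdd_comm F (hasSubst_psubst hg (hX 0)) (hasSubst_psubst hg (hX 1))]

/-- `f : F → f F f⁻¹` is a homomorphism. -/
theorem isFGHom_conjLaw : IsFGHom F (conjLaw F f hu h0) f := by
  apply Crest.LubinTate.IsFGHom.of_apply h0
  have hX : ∀ i : Fin 2, PowerSeries.HasSubst (MvPowerSeries.X i : MvPowerSeries (Fin 2) R) :=
    hasSubst_X_i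
  rw [fgAdd_conjLaw F f hu h0 (hasSubst_psubst h0 (hX 0)) (hasSubst_psubst h0 (hX 1)),
    psubst_psubst_eq h0 (cmp_sInv' f h0 hu) (hX 0), psubst_psubst_eq h0 (cmp_sInv' f h0 hu) (hX 1)]

/-- If `f : F → G` is an isomorphism then `G = f F f⁻¹`. -/
theorem conjLaw_eq_of_hom (hf : IsFGHom F G f) : conjLaw F f hu hf.1 = G := by
  apply FormalGroup.ext
  show conjRaw F f hu = G.toPowerSeries
  have hs := hs_conj f hu
  rw [conjRaw, hf.apply (hs 0) (hs 1), psubst_psubst_eq (cc_sInv f hu) (cmp_sInv f hf.1 hu)
    (hasSubst_X_i 0), psubst_psubst_eq (cc_sInv f hu) (cmp_sInv f hf.1 hu) (hasSubst_X_i 1)]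
  exact fgAdd_X_X G

end conj

/-- Uniqueness of the compositional inverse. -/
lemma eq_sInv {f g : PowerSeries R} (hu : IsUnit (PowerSeries.coeff 1 f))
    (h0 : PowerSeries.constantCoeff f = 0) (hg : PowerSeries.constantCoeff g = 0)
    (h : cmp f g = PowerSeries.X) : g = sInv f hu := by
  have h1 := cmp_sInv' f h0 hu
  calc g = cmp PowerSeries.X g := (cmp_X_left hg).symm
    _ = cmp (cmp (sInv f hu) f) g := by rw [h1]
    _ = cmp (sInv f hu) (cmp f g) := cmp_assoc h0 hg
    _ = sInv f hu := by rw [h]; exact coeff_zero_cmp_X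

lemma isUnit_coeff_one_map (φ : R →+* S) {f : PowerSeries R}
    (hu : IsUnit (PowerSeries.coeff 1 f)) : IsUnit (PowerSeries.coeff 1 (PowerSeries.map φ f)) := by
  rw [PowerSeries.coeff_map]; exact hu.map φ

lemma constantCoeff_map' (φ : R →+* S) {f : PowerSeries R}
    (h0 : PowerSeries.constantCoeff f = 0) : PowerSeries.constantCoeff (PowerSeries.map φ f) = 0 := by
  rw [← PowerSeries.coeff_zero_eq_constantCoeff_apply, PowerSeries.coeff_map,
    PowerSeries.coeff_zero_eq_constantCoeff_apply, h0, map_zero]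

/-- `sInv` commutes with base change. -/
theorem map_sInv (φ : R →+* S) {f : PowerSeries R} (hu : IsUnit (PowerSeries.coeff 1 f))
    (h0 : PowerSeries.constantCoeff f = 0) :
    PowerSeries.map φ (sInv f hu) = sInv (PowerSeries.map φ f) (isUnit_coeff_one_map φ hu) := by
  apply eq_sInv _ (constantCoeff_map' φ h0) (constantCoeff_map' φ (cc_sInv f hu))
  rw [← map_cmp φ (cc_sInv f hu), cmp_sInv f h0 hu, PowerSeries.map_X]

/-- Base change of the conjugate law. -/
theorem map_conjLaw (F : FormalGroup R) (φ : R →+* S) {f : PowerSeries R}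
    (hu : IsUnit (PowerSeries.coeff 1 f)) (h0 : PowerSeries.constantCoeff f = 0) :
    (conjLaw F f hu h0).map φ = conjLaw (F.map φ) (PowerSeries.map φ f) (isUnit_coeff_one_map φ hu)
      (constantCoeff_map' φ h0) := by
  apply Eq.symm
  apply conjLaw_eq_of_hom
  exact (isFGHom_conjLaw F f hu h0).map φ

/-! ### Automorphisms: basic facts -/

lemma _root_.Crest.LubinTate.IsFGAut.inv {f : PowerSeries R} (h : IsFGAut F f) :
    IsFGAut F (sInv f h.2) :=
  ⟨h.1.inv h.2, isUnit_coeff_one_sInv f h.2⟩

lemma _root_.Crest.LubinTate.IsFGAut.comp {f g : PowerSeries R} (hg : IsFGAut F g)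
    (hf : IsFGAut F f) : IsFGAut F (cmp g f) :=
  ⟨hg.1.comp hf.1, by rw [coeff_one_cmp hg.1.1 hf.1.1]; exact hg.2.mul hf.2⟩

lemma isFGAut_X (F : FormalGroup R) : IsFGAut F PowerSeries.X :=
  ⟨isFGHom_X F, by simp [PowerSeries.coeff_one_X]⟩

end Crest.Agent.LT
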