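/-
A2: characteristic `p` facts (BLUEPRINT §A2).
-/
import Crest.Agent.Lib.LT.FG

set_option autoImplicit false

namespace Crest.Agent.LT

open Crest.LubinTate

section chain

variable {R S : Type*} [CommRing R] [CommRing S] {σ τ : Type*}

open scoped MvPowerSeries.WithPiTopology in
private lemma continuous_pderiv [UniformSpace R] [DiscreteUniformity R] (i : τ) :
    Continuous (MvPowerSeries.pderiv R i : MvPowerSeries τ R → MvPowerSeries τ R) := by
  apply continuous_pi
  intro n
  have h : (fun x : MvPowerSeries τ R => (MvPowerSeries.pderiv R i x) n) =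
      fun x => MvPowerSeries.coeff n (MvPowerSeries.pderiv R i x) := rfl
  rw [h]
  simp only [MvPowerSeries.coeff_pderiv]
  exact ((MvPowerSeries.WithPiTopology.continuous_coeff R _).mul continuous_const)

lemma msubst_zero {a : σ → MvPowerSeries τ R} (ha : MvPowerSeries.HasSubst a) :
    MvPowerSeries.subst a (0 : MvPowerSeries σ R) = 0 := by
  have := map_zero (MvPowerSeries.substAlgHom (R := R) ha)
  rwa [MvPowerSeries.coe_substAlgHom] at this

lemma msubst_one {a : σ → MvPowerSeries τ R} (ha : MvPowerSeries.HasSubst a) :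
    MvPowerSeries.subst a (1 : MvPowerSeries σ R) = 1 := by
  have := map_one (MvPowerSeries.substAlgHom (R := R) ha)
  rwa [MvPowerSeries.coe_substAlgHom] at this

private lemma pderiv_subst_coe [Fintype σ] {a : σ → MvPowerSeries τ R}
    (ha : MvPowerSeries.HasSubst a) (p : MvPolynomial σ R) (i : τ) :
    MvPowerSeries.pderiv R i (MvPowerSeries.subst a (p : MvPowerSeries σ R)) =
      ∑ s, MvPowerSeries.subst a (MvPowerSeries.pderiv R s (p : MvPowerSeries σ R)) *
        MvPowerSeries.pderiv R i (a s) := by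
  classical
  induction p using MvPolynomial.induction_on with
  | C r =>
    have h1 : ((MvPolynomial.C r : MvPolynomial σ R) : MvPowerSeries σ R) = MvPowerSeries.C r :=
      MvPolynomial.coe_C r
    rw [h1, MvPowerSeries.subst_C]
    simp [MvPowerSeries.pderiv_C, msubst_zero ha]
  | add p q hp hq =>
    rw [MvPolynomial.coe_add, MvPowerSeries.subst_add ha, map_add, hp, hq, ← Finset.sum_add_distrib]
    refine Finset.sum_congr rfl fun s _ => ?_
    rw [map_add, MvPowerSeries.subst_add ha, add_mul]
  | mul_X p s₀ hp =>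
    rw [MvPolynomial.coe_mul, MvPolynomial.coe_X, MvPowerSeries.subst_mul ha,
      MvPowerSeries.subst_X ha, Derivation.leibniz, hp]
    have : ∀ s, MvPowerSeries.subst a (MvPowerSeries.pderiv R s
        ((p : MvPowerSeries σ R) * MvPowerSeries.X s₀)) * MvPowerSeries.pderiv R i (a s) =
        (if s = s₀ then MvPowerSeries.subst a (p : MvPowerSeries σ R) *
            MvPowerSeries.pderiv R i (a s) else 0) +
          a s₀ * (MvPowerSeries.subst a (MvPowerSeries.pderiv R s (p : MvPowerSeries σ R)) *
            MvPowerSeries.pderiv R i (a s)) := by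
      intro s
      rw [Derivation.leibniz, smul_eq_mul, smul_eq_mul,
        MvPowerSeries.subst_add ha, MvPowerSeries.subst_mul ha, MvPowerSeries.subst_mul ha,
        MvPowerSeries.subst_X ha]
      by_cases hs : s = s₀
      · subst hs
        rw [MvPowerSeries.pderiv_X_self, msubst_one ha, if_pos rfl]
        ring
      · rw [MvPowerSeries.pderiv_X_of_ne (Ne.symm hs), msubst_zero ha, if_neg hs]
        ring
    simp only [this, Finset.sum_add_distrib, Finset.sum_ite_eq', Finset.mem_univ, if_true,
      smul_eq_mul, ← Finset.mul_sum]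

open scoped MvPowerSeries.WithPiTopology in
/-- The chain rule for substitution into a multivariate power series. -/
theorem pderiv_subst [Fintype σ] {a : σ → MvPowerSeries τ R} (ha : MvPowerSeries.HasSubst a)
    (φ : MvPowerSeries σ R) (i : τ) :
    MvPowerSeries.pderiv R i (MvPowerSeries.subst a φ) =
      ∑ s, MvPowerSeries.subst a (MvPowerSeries.pderiv R s φ) * MvPowerSeries.pderiv R i (a s) := by
  classical
  let _ : UniformSpace R := ⊥
  have : DiscreteUniformity R := ⟨rfl⟩
  have hcl : IsClosed {φ : MvPowerSeries σ R | MvPowerSeries.pderiv R i (MvPowerSeries.subst a φ) =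
      ∑ s, MvPowerSeries.subst a (MvPowerSeries.pderiv R s φ) * MvPowerSeries.pderiv R i (a s)} := by
    apply isClosed_eq
    · exact (continuous_pderiv i).comp (MvPowerSeries.continuous_subst ha)
    · refine continuous_finsetSum _ fun s _ => ?_
      exact ((MvPowerSeries.continuous_subst ha).comp (continuous_pderiv s)).mul continuous_const
  have hd := MvPowerSeries.WithPiTopology.denseRange_toMvPowerSeries (σ := σ) (R := R)
  exact hd.induction_on (p := fun φ => MvPowerSeries.pderiv R i (MvPowerSeries.subst a φ) =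
      ∑ s, MvPowerSeries.subst a (MvPowerSeries.pderiv R s φ) * MvPowerSeries.pderiv R i (a s))
    φ hcl (fun p => pderiv_subst_coe ha p i)

/-- The chain rule for `f(a)`. -/
theorem pderiv_psubst {a : MvPowerSeries τ R} (ha : PowerSeries.HasSubst a) (f : PowerSeries R)
    (i : τ) :
    MvPowerSeries.pderiv R i (PowerSeries.subst a f) =
      PowerSeries.subst a (PowerSeries.derivative R f) * MvPowerSeries.pderiv R i a := by
  have := pderiv_subst (σ := Unit) ha.const f i
  rw [Fintype.sum_unique] at this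
  exact this

/-! ### The ODE -/

variable {F G : FormalGroup R}

/-- `∂₂F(X, 0)`. -/
noncomputable def fgD (F : FormalGroup R) : PowerSeries R :=
  (MvPowerSeries.pderiv R 1 F.toPowerSeries).subst ![PowerSeries.X (R := R), 0]

lemma constantCoeff_fgD (F : FormalGroup R) : PowerSeries.constantCoeff (fgD F) = 1 := by
  rw [← PowerSeries.coeff_zero_eq_constantCoeff_apply, fgD, coeff_subst_X_zero,
    MvPowerSeries.coeff_pderiv]
  have : (Finsupp.single (0 : Fin 2) 0) + Finsupp.single (1 : Fin 2) 1 = Finsupp.single 1 1 := by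
    simp
  rw [this, F.lin_coeff_Y]
  simp

lemma isUnit_fgD (F : FormalGroup R) : IsUnit (fgD F) := by
  rw [PowerSeries.isUnit_iff_constantCoeff, constantCoeff_fgD]
  exact isUnit_one

lemma hasSubst_X' : PowerSeries.HasSubst (PowerSeries.X (R := R)) :=
  PowerSeries.HasSubst.of_constantCoeff_zero' PowerSeries.constantCoeff_X

/-- The invariant-differential ODE: `f'(X) ∂₂F(X,0) = ∂₂G(f X,0) f'(0)` for a hom `f : F → G`. -/
theorem hom_ode {f : PowerSeries R} (h : IsFGHom F G f) :
    PowerSeries.derivative R f * fgD F =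
      cmp (fgD G) f * PowerSeries.C (PowerSeries.coeff 1 f) := by
  have hX : ∀ i : Fin 2, PowerSeries.HasSubst (MvPowerSeries.X i : MvPowerSeries (Fin 2) R) :=
    hasSubst_X_i
  have hfX := fun i => hasSubst_psubst h.1 (hX i)
  have hpair : MvPowerSeries.HasSubst ![PowerSeries.subst (MvPowerSeries.X 0 : MvPowerSeries (Fin 2) R) f,
      PowerSeries.subst (MvPowerSeries.X 1 : MvPowerSeries (Fin 2) R) f] :=
    hasSubst_pair (hfX 0) (hfX 1)
  have h1 := congrArg (MvPowerSeries.pderiv R (1 : Fin 2)) h.2
  rw [pderiv_psubst (hasSubst_law F), pderiv_subst hpair, Fin.sum_univ_two] at h1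
  simp only [Matrix.cons_val_zero, Matrix.cons_val_one, Matrix.cons_val_fin_one] at h1
  rw [pderiv_psubst (hX 0), pderiv_psubst (hX 1), MvPowerSeries.pderiv_X_of_ne (by decide),
    MvPowerSeries.pderiv_X_self, mul_zero, mul_zero, zero_add, mul_one] at h1
  -- now set `X₁ = 0`
  have hs := hasSubst_X_zero (R := R)
  have h2 := congrArg (MvPowerSeries.subst ![PowerSeries.X (R := R), 0]) h1
  rw [MvPowerSeries.subst_mul hs, MvPowerSeries.subst_mul hs,
    subst_psubst (hasSubst_law F) hs, subst_psubst_X _ hs] at h2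
  have e1 : MvPowerSeries.subst ![PowerSeries.X (R := R), 0] F.toPowerSeries = PowerSeries.X :=
    F.Xzero_eq_X
  rw [e1, PowerSeries.X_subst] at h2
  have hf := hasSubst_of_cc h.1
  have e3 : PowerSeries.subst (![PowerSeries.X (R := R), 0] 1) (PowerSeries.derivative R f) =
      PowerSeries.C (PowerSeries.coeff 1 f) := by
    simp only [Matrix.cons_val_one, Matrix.cons_val_fin_one]
    rw [PowerSeries.subst_zero_eq_C_constantCoeff]
    have : PowerSeries.constantCoeff (PowerSeries.derivative R f) = PowerSeries.coeff 1 f := by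
      rw [← PowerSeries.coeff_zero_eq_constantCoeff_apply, PowerSeries.coeff_derivative]
      simp
    rw [this]
    simp only [Algebra.algebraMap_self, MvPowerSeries.map_C]
    rfl
  have e4 : MvPowerSeries.subst ![PowerSeries.X (R := R), 0]
      (MvPowerSeries.subst ![PowerSeries.subst (MvPowerSeries.X 0 : MvPowerSeries (Fin 2) R) f,
          PowerSeries.subst (MvPowerSeries.X 1 : MvPowerSeries (Fin 2) R) f]
        (MvPowerSeries.pderiv R 1 G.toPowerSeries)) = cmp (fgD G) f := by
    set D := MvPowerSeries.pderiv R 1 G.toPowerSeries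
    have step1 : (fun s => MvPowerSeries.subst ![PowerSeries.X (R := R), 0]
        (![PowerSeries.subst (MvPowerSeries.X 0 : MvPowerSeries (Fin 2) R) f,
          PowerSeries.subst (MvPowerSeries.X 1 : MvPowerSeries (Fin 2) R) f] s)) = ![f, 0] := by
      funext s
      fin_cases s
      · show MvPowerSeries.subst ![PowerSeries.X (R := R), 0]
          (PowerSeries.subst (MvPowerSeries.X 0 : MvPowerSeries (Fin 2) R) f) = f
        rw [subst_psubst_X _ hs]
        exact PowerSeries.X_subst f
      · show MvPowerSeries.subst ![PowerSeries.X (R := R), 0]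
          (PowerSeries.subst (MvPowerSeries.X 1 : MvPowerSeries (Fin 2) R) f) = 0
        rw [subst_psubst_X _ hs]
        exact psubst_zero h.1
    have step2 : (fun s => PowerSeries.subst f (![PowerSeries.X (R := R), 0] s)) = ![f, 0] := by
      funext s
      fin_cases s
      · exact PowerSeries.subst_X hf
      · exact msubst_zero hf.const
    calc _ = MvPowerSeries.subst (fun s => MvPowerSeries.subst ![PowerSeries.X (R := R), 0]
            (![PowerSeries.subst (MvPowerSeries.X 0 : MvPowerSeries (Fin 2) R) f,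
              PowerSeries.subst (MvPowerSeries.X 1 : MvPowerSeries (Fin 2) R) f] s)) D :=
          MvPowerSeries.subst_comp_subst_apply hpair hs D
      _ = MvPowerSeries.subst (fun s => PowerSeries.subst f (![PowerSeries.X (R := R), 0] s)) D := by
          rw [step1, step2]
      _ = cmp (fgD G) f :=
          (MvPowerSeries.subst_comp_subst_apply hasSubst_X_zero hf.const D).symm
  rw [e4, e3] at h2
  exact h2

/-- If `f'(0) = 0` then `f' = 0`. -/
theorem hom_derivative_eq_zero {f : PowerSeries R} (h : IsFGHom F G f)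
    (h1 : PowerSeries.coeff 1 f = 0) : PowerSeries.derivative R f = 0 := by
  have := hom_ode h
  rw [h1, map_zero, mul_zero] at this
  exact ((isUnit_fgD F).mul_left_eq_zero).1 this

/-- The derivative of a hom is `f'(0)` times a unit, `u = (∂₂G(fX,0)) / (∂₂F(X,0))`. -/
theorem hom_derivative_eq {f : PowerSeries R} (h : IsFGHom F G f) :
    ∃ u : PowerSeries R, IsUnit u ∧
      PowerSeries.derivative R f = u * PowerSeries.C (PowerSeries.coeff 1 f) := by
  obtain ⟨v, hv⟩ := (isUnit_fgD F).exists_left_inv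
  refine ⟨cmp (fgD G) f * v, ?_, ?_⟩
  · refine IsUnit.mul ?_ (IsUnit.of_mul_eq_one _ hv)
    rw [PowerSeries.isUnit_iff_constantCoeff]
    have : PowerSeries.constantCoeff (cmp (fgD G) f) = 1 := by
      rw [← PowerSeries.coeff_zero_eq_constantCoeff_apply, coeff_cmp_eq_sum h.1,
        Finset.sum_range_one, PowerSeries.coeff_zero_eq_constantCoeff_apply, constantCoeff_fgD]
      simp
    rw [this]; exact isUnit_one
  · have e := hom_ode h
    calc _ = PowerSeries.derivative R f * (fgD F * v) := by
            rw [mul_comm (fgD F) v, hv, mul_one]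
      _ = (PowerSeries.derivative R f * fgD F) * v := by ring
      _ = _ := by rw [e]; ring

end chain

section char

variable (p : ℕ) [Fact p.Prime] {A : Type*} [CommRing A] [CharP A p] {τ σ : Type*}

lemma prime_ne_zero : p ≠ 0 := (Fact.out : p.Prime).ne_zero

lemma prime_pow_ne_zero (e : ℕ) : p ^ e ≠ 0 := pow_ne_zero e (prime_ne_zero p)

/-- `φ(a)^(p^e) = φ^(p^e) (a^(p^e))`. -/
theorem pow_subst_eq (e : ℕ) (φ : MvPowerSeries σ A) {a : σ → MvPowerSeries τ A}
    (ha : MvPowerSeries.HasSubst a) :
    (φ.subst a) ^ (p ^ e) =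
      (MvPowerSeries.map (iterateFrobenius A p e) φ).subst (fun s => a s ^ (p ^ e)) := by
  have hq := prime_pow_ne_zero p e
  have hp := prime_ne_zero p
  rw [← MvPowerSeries.subst_pow ha, ← MvPowerSeries.map_iterateFrobenius_expand p hp φ e,
    MvPowerSeries.map_expand, MvPowerSeries.expand, MvPowerSeries.substAlgHom_apply,
    MvPowerSeries.subst_comp_subst_apply (MvPowerSeries.HasSubst.X_pow hq) ha]
  congr! 2 with s
  rw [MvPowerSeries.subst_pow ha, MvPowerSeries.subst_X ha]

/-- `f(a)^(p^e) = f^(p^e) (a^(p^e))`, one-variable `f`. -/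
theorem pow_psubst_eq (e : ℕ) (f : PowerSeries A) {a : MvPowerSeries τ A}
    (ha : PowerSeries.HasSubst a) :
    (PowerSeries.subst a f) ^ (p ^ e) =
      PowerSeries.subst (a ^ (p ^ e)) (PowerSeries.map (iterateFrobenius A p e) f) :=
  pow_subst_eq p e f ha.const

/-- `f^(p^e) = f^(p^e)(X^(p^e))`. -/
theorem pow_eq_cmp (e : ℕ) (f : PowerSeries A) :
    f ^ (p ^ e) = cmp (PowerSeries.map (iterateFrobenius A p e) f) (PowerSeries.X ^ (p ^ e)) := by
  have := pow_psubst_eq p e f hasSubst_X'
  rwa [PowerSeries.X_subst] at this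

lemma cmp_X_pow_left {f : PowerSeries A} (k : ℕ) (hf : PowerSeries.constantCoeff f = 0) :
    cmp (PowerSeries.X ^ k) f = f ^ k := by
  rw [cmp, PowerSeries.subst_pow (hasSubst_of_cc hf), PowerSeries.subst_X (hasSubst_of_cc hf)]

lemma psubst_X_pow_left {f : MvPowerSeries τ A} (k : ℕ) (hf : PowerSeries.HasSubst f) :
    PowerSeries.subst f (PowerSeries.X ^ k : PowerSeries A) = f ^ k := by
  rw [PowerSeries.subst_pow hf, PowerSeries.subst_X hf]

lemma constantCoeff_X_pow {k : ℕ} (hk : k ≠ 0) :
    PowerSeries.constantCoeff (PowerSeries.X ^ k : PowerSeries A) = 0 := by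
  simp [hk]

/-- The Frobenius `X^(p^e)` is a homomorphism `F → F^(p^e)`. -/
theorem frob_hom (F : FormalGroup A) (e : ℕ) :
    IsFGHom F (F.map (iterateFrobenius A p e)) (PowerSeries.X ^ (p ^ e)) := by
  have hq := prime_pow_ne_zero p e
  refine ⟨constantCoeff_X_pow hq, ?_⟩
  have hXX : MvPowerSeries.HasSubst ![(MvPowerSeries.X 0 : MvPowerSeries (Fin 2) A),
      MvPowerSeries.X 1] := MvPowerSeries.HasSubst.X_X
  rw [psubst_X_pow_left _ (hasSubst_law F), psubst_X_pow_left _ (hasSubst_X_i 0),
    psubst_X_pow_left _ (hasSubst_X_i 1)]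
  have := pow_subst_eq p e F.toPowerSeries hXX
  have e1 : MvPowerSeries.subst ![(MvPowerSeries.X 0 : MvPowerSeries (Fin 2) A),
      MvPowerSeries.X 1] F.toPowerSeries = F.toPowerSeries := fgAdd_X_X F
  rw [e1] at this
  rw [this]
  congr! 1
  funext s
  fin_cases s <;> rfl

/-- In characteristic `p`, coefficients of exponents prime to `p` of a series with zero derivative
vanish. -/
theorem coeff_eq_zero_of_derivative {f : PowerSeries A} (hd : PowerSeries.derivative A f = 0)
    {i : ℕ} (hi : ¬ p ∣ i) : PowerSeries.coeff i f = 0 := by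
  have hp : p.Prime := Fact.out
  cases i with
  | zero => exact absurd (dvd_zero p) hi
  | succ k =>
    have h1 := PowerSeries.coeff_derivative f k
    rw [hd, map_zero] at h1
    have hc : Nat.Coprime (k + 1) p := ((Nat.Prime.coprime_iff_not_dvd hp).2 hi).symm
    obtain ⟨a, b, hab⟩ := Nat.isCoprime_iff_coprime.2 hc
    have h2 : (a : A) * ((k : A) + 1) = 1 := by
      have := congrArg (Int.cast : ℤ → A) hab
      push_cast at this
      rw [CharP.cast_eq_zero A p, mul_zero, add_zero] at this
      exact this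
    calc PowerSeries.coeff (k + 1) f = PowerSeries.coeff (k + 1) f * ((a : A) * ((k : A) + 1)) := by
          rw [h2, mul_one]
      _ = (PowerSeries.coeff (k + 1) f * ((k : A) + 1)) * a := by ring
      _ = 0 := by rw [← h1, zero_mul]

/-- `g ↦ g ∘ X^k` is injective. -/
theorem cmp_X_pow_injective {k : ℕ} (hk : k ≠ 0) {g g' : PowerSeries A}
    (h : cmp g (PowerSeries.X ^ k) = cmp g' (PowerSeries.X ^ k)) : g = g' := by
  ext m
  have := congrArg (PowerSeries.coeff (k * m)) h
  rw [cmp, cmp, PowerSeries.coeff_subst_X_pow hk, PowerSeries.coeff_subst_X_pow hk,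
    if_pos (Dvd.intro m rfl), if_pos (Dvd.intro m rfl), Nat.mul_div_cancel_left m hk.bot_lt] at this
  simpa using this

lemma coeff_cmp_X_pow {k : ℕ} (hk : k ≠ 0) (g : PowerSeries A) (m : ℕ) :
    PowerSeries.coeff (k * m) (cmp g (PowerSeries.X ^ k)) = PowerSeries.coeff m g := by
  rw [cmp, PowerSeries.coeff_subst_X_pow hk, if_pos (Dvd.intro m rfl),
    Nat.mul_div_cancel_left m hk.bot_lt]
  rfl

lemma coeff_cmp_X_pow_of_not_dvd {k : ℕ} (hk : k ≠ 0) (g : PowerSeries A) {m : ℕ} (hm : ¬ k ∣ m) :
    PowerSeries.coeff m (cmp g (PowerSeries.X ^ k)) = 0 := by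
  rw [cmp, PowerSeries.coeff_subst_X_pow hk, if_neg hm]

/-- A series with zero derivative is a series in `X^p`. -/
theorem exists_cmp_of_derivative {f : PowerSeries A} (hd : PowerSeries.derivative A f = 0) :
    ∃ g : PowerSeries A, f = cmp g (PowerSeries.X ^ p) ∧
      ∀ m, PowerSeries.coeff m g = PowerSeries.coeff (p * m) f := by
  have hp := prime_ne_zero p
  refine ⟨PowerSeries.mk fun m => PowerSeries.coeff (p * m) f, ?_, fun m => by simp⟩
  ext n
  rw [cmp, PowerSeries.coeff_subst_X_pow hp]
  split_ifs with h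
  · obtain ⟨m, rfl⟩ := h
    rw [Nat.mul_div_cancel_left m hp.bot_lt]
    simp
  · exact coeff_eq_zero_of_derivative p hd h

/-- `expand` is injective on multivariate series. -/
theorem mv_expand_injective {q : ℕ} (hq : q ≠ 0) {g g' : MvPowerSeries τ A}
    (h : MvPowerSeries.expand q hq g = MvPowerSeries.expand q hq g') : g = g' := by
  ext m
  have := congrArg (MvPowerSeries.coeff (q • m)) h
  simpa using this

variable {F G : FormalGroup A}

/-- Factorisation through Frobenius: a hom with `f'(0) = 0` is `g ∘ X^p` with `g : F^(p) → G`. -/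
theorem hom_factor_frob {f : PowerSeries A} (h : IsFGHom F G f)
    (h1 : PowerSeries.coeff 1 f = 0) :
    ∃ g : PowerSeries A, f = cmp g (PowerSeries.X ^ p) ∧
      IsFGHom (F.map (iterateFrobenius A p 1)) G g ∧
      ∀ m, PowerSeries.coeff m g = PowerSeries.coeff (p * m) f := by
  have hp := prime_ne_zero p
  obtain ⟨g, hg, hco⟩ := exists_cmp_of_derivative p (hom_derivative_eq_zero h h1)
  have hXp : PowerSeries.HasSubst (PowerSeries.X ^ p : PowerSeries A) :=
    PowerSeries.HasSubst.X_pow hp
  have hg0 : PowerSeries.constantCoeff g = 0 := by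
    rw [← PowerSeries.coeff_zero_eq_constantCoeff_apply, hco, mul_zero,
      PowerSeries.coeff_zero_eq_constantCoeff_apply, h.1]
  refine ⟨g, hg, ⟨hg0, ?_⟩, hco⟩
  apply mv_expand_injective (prime_ne_zero p)
  have e1 : iterateFrobenius A p 1 = frobenius A p := iterateFrobenius_one A p
  rw [e1]
  have hF' : PowerSeries.HasSubst (F.map (frobenius A p)).toPowerSeries := hasSubst_law _
  have hF := hasSubst_law F
  have h2 : MvPowerSeries.expand p hp (F.map (frobenius A p)).toPowerSeries =
      F.toPowerSeries ^ p := by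
    have := MvPowerSeries.map_frobenius_expand p hp (f := F.toPowerSeries)
    rw [MvPowerSeries.map_expand] at this
    exact this
  have hmv : ∀ {a : MvPowerSeries (Fin 2) A}, PowerSeries.HasSubst a →
      MvPowerSeries.expand p hp (PowerSeries.subst a g) =
        PowerSeries.subst (MvPowerSeries.expand p hp a) g := by
    intro a ha
    rw [PowerSeries.subst, MvPowerSeries.expand_subst _ hp ha.const, PowerSeries.subst]
  have hpsub : ∀ {a : MvPowerSeries (Fin 2) A}, PowerSeries.HasSubst a →
      PowerSeries.subst (a ^ p) g = PowerSeries.subst a f := by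
    intro a ha
    rw [hg, cmp, PowerSeries.subst_comp_subst_apply hXp ha, psubst_X_pow_left _ ha]
  have eL : MvPowerSeries.expand p hp (PowerSeries.subst (F.map (frobenius A p)).toPowerSeries g)
      = PowerSeries.subst F.toPowerSeries f := by
    rw [hmv hF', h2, hpsub hF]
  have hgX : ∀ i : Fin 2, MvPowerSeries.expand p hp
      (PowerSeries.subst (MvPowerSeries.X i : MvPowerSeries (Fin 2) A) g) =
      PowerSeries.subst (MvPowerSeries.X i : MvPowerSeries (Fin 2) A) f := by
    intro i
    rw [hmv (hasSubst_X_i i), MvPowerSeries.expand_X, hpsub (hasSubst_X_i i)]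
  have hpair : MvPowerSeries.HasSubst
      ![PowerSeries.subst (MvPowerSeries.X 0 : MvPowerSeries (Fin 2) A) g,
        PowerSeries.subst (MvPowerSeries.X 1 : MvPowerSeries (Fin 2) A) g] := hasSubst_homXX hg0
  have eR : MvPowerSeries.expand p hp (MvPowerSeries.subst
      ![PowerSeries.subst (MvPowerSeries.X 0 : MvPowerSeries (Fin 2) A) g,
        PowerSeries.subst (MvPowerSeries.X 1 : MvPowerSeries (Fin 2) A) g] G.toPowerSeries) =
      MvPowerSeries.subst
      ![PowerSeries.subst (MvPowerSeries.X 0 : MvPowerSeries (Fin 2) A) f,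
        PowerSeries.subst (MvPowerSeries.X 1 : MvPowerSeries (Fin 2) A) f] G.toPowerSeries := by
    rw [MvPowerSeries.expand_subst _ hp hpair]
    congr! 1
    funext s
    fin_cases s
    · exact hgX 0
    · exact hgX 1
  rw [eL, eR]
  exact h.2

/-- Factorisation: a hom whose coefficients of `X^(p^i)`, `i < k`, vanish is `V ∘ X^(p^k)`. -/
theorem hom_factor {f : PowerSeries A} (h : IsFGHom F G f) (k : ℕ)
    (hk : ∀ i, i < k → PowerSeries.coeff (p ^ i) f = 0) :
    ∃ V : PowerSeries A, f = cmp V (PowerSeries.X ^ (p ^ k)) ∧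
      IsFGHom (F.map (iterateFrobenius A p k)) G V ∧
      ∀ m, PowerSeries.coeff m V = PowerSeries.coeff (p ^ k * m) f := by
  induction k with
  | zero =>
    refine ⟨f, ?_, ?_, fun m => by simp⟩
    · rw [pow_zero, pow_one]; exact (coeff_zero_cmp_X).symm
    · rw [iterateFrobenius_zero, fg_map_id]; exact h
  | succ k ih =>
    obtain ⟨V, hV, hVh, hVc⟩ := ih (fun i hi => hk i (by omega))
    have hV1 : PowerSeries.coeff 1 V = 0 := by
      rw [hVc, mul_one]; exact hk k (by omega)
    obtain ⟨W, hW, hWh, hWc⟩ := hom_factor_frob p hVh hV1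
    refine ⟨W, ?_, ?_, ?_⟩
    · rw [hV, hW]
      have hq := prime_pow_ne_zero p k
      have hpp := prime_ne_zero p
      rw [cmp_assoc (constantCoeff_X_pow hpp) (constantCoeff_X_pow hq),
        cmp_X_pow_left _ (constantCoeff_X_pow hq), ← pow_mul, pow_succ]
    · have e : iterateFrobenius A p (k + 1) =
          (iterateFrobenius A p 1).comp (iterateFrobenius A p k) := by
        rw [add_comm, iterateFrobenius_add]
      rw [e, ← fg_map_map]; exact hWh
    · intro m
      rw [hWc, hVc, pow_succ, mul_assoc]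

/-- (A2 d) the `p`-series of a law of height `≥ h` is `V(X^(p^h))`. -/
theorem exists_V (F : FormalGroup A) [F.IsComm] (h : ℕ)
    (hi : ∀ i, i < h → PowerSeries.coeff (p ^ i) (mulSeries F p) = 0) :
    ∃ V : PowerSeries A, mulSeries F p = cmp V (PowerSeries.X ^ (p ^ h)) ∧
      IsFGHom (F.map (iterateFrobenius A p h)) F V ∧
      ∀ m, PowerSeries.coeff m V = PowerSeries.coeff (p ^ h * m) (mulSeries F p) :=
  hom_factor p (isFGHom_mulSeries F p) h hi

/-- (A2 f) `X^(p^h) ∘ V = [p]` of the twist. -/
theorem X_pow_cmp_V (F : FormalGroup A) {V : PowerSeries A} {h : ℕ}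
    (hV0 : PowerSeries.constantCoeff V = 0)
    (hV : mulSeries F p = cmp V (PowerSeries.X ^ (p ^ h))) :
    cmp (PowerSeries.X ^ (p ^ h)) V = mulSeries (F.map (iterateFrobenius A p h)) p := by
  have hq := prime_pow_ne_zero p h
  rw [cmp_X_pow_left _ hV0, pow_eq_cmp p h V, mulSeries_map, hV,
    map_cmp _ (constantCoeff_X_pow hq)]
  simp

/-- (A2 f) A hom `θ : F → G` satisfies `θ ∘ V_F = V_G ∘ θ^(p^h)`. -/
theorem cmp_V_eq {θ VF VG : PowerSeries A} {h : ℕ} (hθ : IsFGHom F G θ)
    (hVF0 : PowerSeries.constantCoeff VF = 0)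
    (hVF : mulSeries F p = cmp VF (PowerSeries.X ^ (p ^ h)))
    (hVG : mulSeries G p = cmp VG (PowerSeries.X ^ (p ^ h))) :
    cmp θ VF = cmp VG (PowerSeries.map (iterateFrobenius A p h) θ) := by
  have hq := prime_pow_ne_zero p h
  have hXq := constantCoeff_X_pow (A := A) hq
  apply cmp_X_pow_injective hq
  have hθ' : PowerSeries.constantCoeff (PowerSeries.map (iterateFrobenius A p h) θ) = 0 :=
    constantCoeff_map' _ hθ.1
  rw [cmp_assoc hVF0 hXq, ← hVF, hθ.cmp_mulSeries, hVG,
    cmp_assoc hXq hθ.1, cmp_assoc hθ' hXq, cmp_X_pow_left _ hθ.1, ← pow_eq_cmp]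

/-! ### Lowest term lemma -/

lemma le_order_X (i : Fin 2) : (1 : ℕ∞) ≤ (MvPowerSeries.X i : MvPowerSeries (Fin 2) A).order := by
  rw [MvPowerSeries.one_le_order_iff_constCoeff_eq_zero]
  exact MvPowerSeries.constantCoeff_X i

/-- `F^m ≡ (X₀ + X₁)^m` modulo total degree `m + 1`. -/
theorem law_pow_congr (F : FormalGroup A) (m : ℕ) :
    ((m + 1 : ℕ) : ℕ∞) ≤ (F.toPowerSeries ^ m -
      (MvPowerSeries.X 0 + MvPowerSeries.X 1 : MvPowerSeries (Fin 2) A) ^ m).order := by
  set L : MvPowerSeries (Fin 2) A := MvPowerSeries.X 0 + MvPowerSeries.X 1 with hL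
  have hL1 : (1 : ℕ∞) ≤ L.order := by
    refine le_trans ?_ MvPowerSeries.min_order_le_add
    exact le_min (le_order_X 0) (le_order_X 1)
  set E : MvPowerSeries (Fin 2) A := MvPowerSeries.X 0 * MvPowerSeries.X 1 * fgRem F with hE
  have hE2 : (2 : ℕ∞) ≤ E.order := by
    refine le_trans ?_ MvPowerSeries.le_order_mul
    refine le_trans ?_ (add_le_add_left MvPowerSeries.le_order_mul _)
    have h1 := le_order_X (A := A) 0
    have h2 := le_order_X (A := A) 1
    calc (2 : ℕ∞) = 1 + 1 + 0 := by norm_num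
      _ ≤ _ := add_le_add (add_le_add h1 h2) (by simp)
  have hF : F.toPowerSeries = L + E := fg_eq_rem F
  have hF1 : (1 : ℕ∞) ≤ F.toPowerSeries.order := by
    rw [MvPowerSeries.one_le_order_iff_constCoeff_eq_zero]
    exact F.zero_constantCoeff
  induction m with
  | zero => simp
  | succ m ih =>
    have e : F.toPowerSeries ^ (m + 1) - L ^ (m + 1) =
        (F.toPowerSeries ^ m - L ^ m) * F.toPowerSeries + L ^ m * E := by
      rw [pow_succ, pow_succ]
      nth_rw 2 [hF]
      ring_nf
      rw [hF]; ring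
    rw [e]
    refine le_trans (le_min ?_ ?_) MvPowerSeries.min_order_le_add
    · refine le_trans ?_ MvPowerSeries.le_order_mul
      calc ((m + 1 + 1 : ℕ) : ℕ∞) = ((m + 1 : ℕ) : ℕ∞) + 1 := by push_cast; rfl
        _ ≤ _ := add_le_add ih hF1
    · refine le_trans ?_ MvPowerSeries.le_order_mul
      have h3 : ((m : ℕ) : ℕ∞) ≤ (L ^ m).order := by
        refine le_trans ?_ (MvPowerSeries.le_order_pow m)
        calc ((m : ℕ) : ℕ∞) = m • (1 : ℕ∞) := by simp
          _ ≤ _ := nsmul_le_nsmul_right hL1 m
      calc ((m + 1 + 1 : ℕ) : ℕ∞) = ((m : ℕ) : ℕ∞) + 2 := by push_cast; ring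
        _ ≤ _ := add_le_add h3 hE2

lemma coeff_X_pow_mul_X_pow (a b : ℕ) (e : Fin 2 →₀ ℕ) :
    MvPowerSeries.coeff e ((MvPowerSeries.X 0 : MvPowerSeries (Fin 2) A) ^ a *
        (MvPowerSeries.X 1 : MvPowerSeries (Fin 2) A) ^ b) =
      if e = Finsupp.single 0 a + Finsupp.single 1 b then 1 else 0 := by
  classical
  rw [MvPowerSeries.X_pow_eq, MvPowerSeries.X_pow_eq, MvPowerSeries.monomial_mul_monomial,
    MvPowerSeries.coeff_monomial, mul_one]

/-- The coefficient of `X₀^q X₁^(q(t-1))` in `(X₀^q + X₁^q)^t` is `t`. -/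
lemma coeff_add_pow_X (q t : ℕ) (hq : q ≠ 0) (ht : 1 ≤ t) :
    MvPowerSeries.coeff (Finsupp.single 0 q + Finsupp.single 1 (q * (t - 1)))
      (((MvPowerSeries.X 0 : MvPowerSeries (Fin 2) A) ^ q +
        (MvPowerSeries.X 1 : MvPowerSeries (Fin 2) A) ^ q) ^ t) = t := by
  classical
  rw [add_pow, map_sum, Finset.sum_eq_single 1]
  · rw [← map_natCast (MvPowerSeries.C (σ := Fin 2) (R := A)), MvPowerSeries.coeff_mul_C,
      pow_one, ← pow_mul, coeff_X_pow_mul_X_pow, if_pos rfl, one_mul, Nat.choose_one_right]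
  · intro k _ hk
    rw [← map_natCast (MvPowerSeries.C (σ := Fin 2) (R := A)), MvPowerSeries.coeff_mul_C,
      ← pow_mul, ← pow_mul, coeff_X_pow_mul_X_pow, if_neg, zero_mul]
    intro h
    have h0 := DFunLike.congr_fun h 0
    have h1 : q = q * k := by simpa using h0
    exact hk (Nat.eq_of_mul_eq_mul_left (Nat.pos_of_ne_zero hq) (by rw [mul_one]; exact h1.symm))
  · intro h
    exfalso
    exact h (Finset.mem_range.2 (by omega))

/-- (A2 e) Lowest term lemma. If `f` is a hom in characteristic `p`, its lowest non-zero term occurs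
at a power of `p`: if `coeff i f = 0` for `i < m` and `m` is not a power of `p` then `coeff m f = 0`. -/
theorem lowest_term {f : PowerSeries A} (h : IsFGHom F G f) {m : ℕ}
    (hm : ∀ i, i < m → PowerSeries.coeff i f = 0) (hpow : ∀ k, m ≠ p ^ k) :
    PowerSeries.coeff m f = 0 := by
  classical
  have hp : p.Prime := Fact.out
  rcases Nat.eq_zero_or_pos m with rfl | hm0
  · rw [PowerSeries.coeff_zero_eq_constantCoeff_apply]; exact h.1
  -- `m = q t` with `q = p^v`, `t` prime to `p`, `t ≥ 2`.
  set v := m.factorization p with hv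
  set q := p ^ v with hq
  set t := m / q with ht
  have hqt : q * t = m := Nat.ordProj_mul_ordCompl_eq_self m p
  have htp : ¬ p ∣ t := Nat.not_dvd_ordCompl hp hm0.ne'
  have hq0 : q ≠ 0 := prime_pow_ne_zero p v
  have ht0 : t ≠ 0 := by
    intro h0
    rw [h0, mul_zero] at hqt
    exact hm0.ne hqt
  have ht1 : t ≠ 1 := by
    intro h1
    rw [h1, mul_one] at hqt
    exact hpow v hqt.symm
  have ht2 : 2 ≤ t := by
    clear_value t
    omega
  set e : Fin 2 →₀ ℕ := Finsupp.single 0 q + Finsupp.single 1 (q * (t - 1)) with he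
  have hedeg : e.degree = m := by
    rw [he, map_add, Finsupp.degree_single, Finsupp.degree_single]
    rw [← hqt]
    obtain ⟨t', ht'⟩ : ∃ t', t = t' + 1 := ⟨t - 1, by omega⟩
    rw [ht']
    simp only [Nat.add_sub_cancel]
    ring
  have he0 : e 0 = q := by simp [he]
  have he1 : e 1 = q * (t - 1) := by simp [he]
  have hqm : q < m := by
    rw [← hqt]
    nlinarith [Nat.pos_of_ne_zero hq0]
  have h1m : q * (t - 1) < m := by
    rw [← hqt]
    obtain ⟨t', ht'⟩ : ∃ t', t = t' + 1 := ⟨t - 1, by omega⟩
    rw [ht']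
    simp only [Nat.add_sub_cancel]
    nlinarith [Nat.pos_of_ne_zero hq0]
  have h1pos : q * (t - 1) ≠ 0 := Nat.mul_ne_zero hq0 (by omega)
  -- the right side vanishes
  have hXm : (PowerSeries.X : PowerSeries A) ^ m ∣ f := PowerSeries.X_pow_dvd_iff.2 hm
  obtain ⟨u, hu⟩ := hXm
  have hsubX : ∀ i : Fin 2, (MvPowerSeries.X i : MvPowerSeries (Fin 2) A) ^ m ∣
      PowerSeries.subst (MvPowerSeries.X i : MvPowerSeries (Fin 2) A) f := by
    intro i
    rw [hu, PowerSeries.subst_mul (hasSubst_X_i i), psubst_X_pow_left _ (hasSubst_X_i i)]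
    exact Dvd.intro _ rfl
  have hR : MvPowerSeries.coeff e (PowerSeries.subst F.toPowerSeries f) = 0 := by
    rw [h.2]
    have hf0 := hasSubst_psubst h.1 (hasSubst_X_i (R := A) (0 : Fin 2))
    have hf1 := hasSubst_psubst h.1 (hasSubst_X_i (R := A) (1 : Fin 2))
    have := fgAdd_eq G hf0 hf1
    rw [show MvPowerSeries.subst ![PowerSeries.subst (MvPowerSeries.X 0 : MvPowerSeries (Fin 2) A) f,
        PowerSeries.subst (MvPowerSeries.X 1 : MvPowerSeries (Fin 2) A) f] G.toPowerSeries =
        fgAdd G (PowerSeries.subst (MvPowerSeries.X 0 : MvPowerSeries (Fin 2) A) f)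
        (PowerSeries.subst (MvPowerSeries.X 1 : MvPowerSeries (Fin 2) A) f) from rfl, this,
      map_add, map_add]
    have c0 : MvPowerSeries.coeff e
        (PowerSeries.subst (MvPowerSeries.X 0 : MvPowerSeries (Fin 2) A) f) = 0 := by
      have := (MvPowerSeries.X_pow_dvd_iff.1 (hsubX 0)) e (by rw [he0]; exact hqm)
      exact this
    have c1 : MvPowerSeries.coeff e
        (PowerSeries.subst (MvPowerSeries.X 1 : MvPowerSeries (Fin 2) A) f) = 0 := by
      have := (MvPowerSeries.X_pow_dvd_iff.1 (hsubX 1)) e (by rw [he1]; exact h1m)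
      exact this
    have c2 : MvPowerSeries.coeff e
        (PowerSeries.subst (MvPowerSeries.X 0 : MvPowerSeries (Fin 2) A) f *
          PowerSeries.subst (MvPowerSeries.X 1 : MvPowerSeries (Fin 2) A) f *
          MvPowerSeries.subst ![PowerSeries.subst (MvPowerSeries.X 0 : MvPowerSeries (Fin 2) A) f,
            PowerSeries.subst (MvPowerSeries.X 1 : MvPowerSeries (Fin 2) A) f] (fgRem G)) = 0 := by
      have hd : (MvPowerSeries.X 0 : MvPowerSeries (Fin 2) A) ^ m ∣
          PowerSeries.subst (MvPowerSeries.X 0 : MvPowerSeries (Fin 2) A) f *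
          PowerSeries.subst (MvPowerSeries.X 1 : MvPowerSeries (Fin 2) A) f *
          MvPowerSeries.subst ![PowerSeries.subst (MvPowerSeries.X 0 : MvPowerSeries (Fin 2) A) f,
            PowerSeries.subst (MvPowerSeries.X 1 : MvPowerSeries (Fin 2) A) f] (fgRem G) :=
        Dvd.dvd.mul_right (Dvd.dvd.mul_right (hsubX 0) _) _
      exact (MvPowerSeries.X_pow_dvd_iff.1 hd) e (by rw [he0]; exact hqm)
    rw [c0, c1, c2]; simp
  -- the left side
  have hFh := hasSubst_law F
  have hF1 : MvPowerSeries.constantCoeff F.toPowerSeries = 0 := F.zero_constantCoeff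
  have hL : MvPowerSeries.coeff e (PowerSeries.subst F.toPowerSeries f) =
      PowerSeries.coeff m f * (t : A) := by
    rw [PowerSeries.coeff_subst hFh, finsum_eq_single _ m]
    · rw [smul_eq_mul]
      congr 1
      have hc := law_pow_congr F m
      have h0 : MvPowerSeries.coeff e (F.toPowerSeries ^ m -
          (MvPowerSeries.X 0 + MvPowerSeries.X 1 : MvPowerSeries (Fin 2) A) ^ m) = 0 := by
        apply MvPowerSeries.coeff_of_lt_order
        refine lt_of_lt_of_le ?_ hc
        rw [hedeg]
        exact_mod_cast Nat.lt_succ_self m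
      rw [map_sub, sub_eq_zero] at h0
      have : CharP (MvPowerSeries (Fin 2) A) p :=
        charP_of_injective_ringHom (f := MvPowerSeries.C (σ := Fin 2) (R := A))
          (fun _ _ h => by simpa using congrArg MvPowerSeries.constantCoeff h) p
      rw [h0, ← hqt, pow_mul, hq, add_pow_char_pow, ← hq, he]
      exact coeff_add_pow_X q t hq0 (by omega)
    · intro d hd
      rw [smul_eq_mul]
      rcases lt_or_gt_of_ne hd with hlt | hgt
      · rw [hm d hlt, zero_mul]
      · have hlo := MvPowerSeries.le_order_pow_of_constantCoeff_eq_zero (f := F.toPowerSeries) d hF1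
        rw [MvPowerSeries.coeff_of_lt_order (lt_of_lt_of_le ?_ hlo), mul_zero]
        rw [hedeg]
        exact_mod_cast hgt
  -- conclude
  have hc : Nat.Coprime t p := ((Nat.Prime.coprime_iff_not_dvd hp).2 htp).symm
  obtain ⟨a, b, hab⟩ := Nat.isCoprime_iff_coprime.2 hc
  have h2 : (a : A) * (t : A) = 1 := by
    have := congrArg (Int.cast : ℤ → A) hab
    push_cast at this
    rw [CharP.cast_eq_zero A p, mul_zero, add_zero] at this
    exact this
  have h3 : PowerSeries.coeff m f * (t : A) = 0 := by rw [← hL, hR]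
  calc PowerSeries.coeff m f = PowerSeries.coeff m f * ((a : A) * (t : A)) := by rw [h2, mul_one]
    _ = (PowerSeries.coeff m f * (t : A)) * a := by ring
    _ = 0 := by rw [h3, zero_mul]

end char

/-! ### Height ideals over an arbitrary ring -/

section height

variable (p : ℕ) {A B : Type*} [CommRing A] [CommRing B]

/-- The height ideals of a law over any ring: `I_0 = 0`, `I_{h+1} = I_h + (coeff (p^h) [p])`. -/
noncomputable def hIdeal (F : FormalGroup A) : ℕ → Ideal A
  | 0 => ⊥
  | h + 1 => hIdeal F h ⊔ Ideal.span {PowerSeries.coeff (p ^ h) (mulSeries F p)}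

@[simp] lemma hIdeal_zero (F : FormalGroup A) : hIdeal p F 0 = ⊥ := rfl

lemma hIdeal_succ (F : FormalGroup A) (h : ℕ) : hIdeal p F (h + 1) =
    hIdeal p F h ⊔ Ideal.span {PowerSeries.coeff (p ^ h) (mulSeries F p)} := rfl

lemma hIdeal_le_succ (F : FormalGroup A) (h : ℕ) : hIdeal p F h ≤ hIdeal p F (h + 1) := le_sup_left

lemma hIdeal_mono (F : FormalGroup A) : Monotone (hIdeal p F) :=
  monotone_nat_of_le_succ (hIdeal_le_succ p F)

lemma coeff_mem_hIdeal (F : FormalGroup A) {i h : ℕ} (hi : i < h) :
    PowerSeries.coeff (p ^ i) (mulSeries F p) ∈ hIdeal p F h := by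
  refine hIdeal_mono p F (Nat.succ_le_of_lt hi) ?_
  rw [hIdeal_succ]
  exact Ideal.mem_sup_right (Ideal.mem_span_singleton_self _)

lemma natCast_mem_hIdeal (F : FormalGroup A) {h : ℕ} (hh : 1 ≤ h) : (p : A) ∈ hIdeal p F h := by
  have := coeff_mem_hIdeal p F (i := 0) (h := h) (by omega)
  rwa [pow_zero, coeff_one_mulSeries] at this

/-- The Prelude height ideals are `hIdeal`. -/
theorem heightIdeal_eq_hIdeal [Fact p.Prime] (n : ℕ) (H : FormalGroup (LTRing p n)) (h : ℕ) :
    heightIdeal p n H h = hIdeal p H h := by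
  induction h with
  | zero => rfl
  | succ h ih =>
    rw [hIdeal_succ, ← ih]
    rfl

/-- (A2 h) Push-forward of height ideals. -/
theorem hIdeal_map (F : FormalGroup A) (φ : A →+* B) (h : ℕ) :
    hIdeal p (F.map φ) h = (hIdeal p F h).map φ := by
  induction h with
  | zero => simp
  | succ h ih =>
    rw [hIdeal_succ, hIdeal_succ, ih, Ideal.map_sup, Ideal.map_span, Set.image_singleton,
      mulSeries_map, PowerSeries.coeff_map]

/-- (A2 g) Height ideals are invariant under isomorphism. -/
theorem hIdeal_eq_of_iso [Fact p.Prime] {F G : FormalGroup A} [F.IsComm] [G.IsComm]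
    {θ : PowerSeries A} (hθ : IsFGHom F G θ)
    (hu : IsUnit (PowerSeries.coeff 1 θ)) (h : ℕ) : hIdeal p F h = hIdeal p G h := by
  induction h with
  | zero => rfl
  | succ h ih =>
    rw [hIdeal_succ, hIdeal_succ, ← ih]
    cases h with
    | zero =>
      simp only [pow_zero, coeff_one_mulSeries]
    | succ k =>
      set I := hIdeal p F (k + 1) with hI
      set aF := PowerSeries.coeff (p ^ (k + 1)) (mulSeries F p) with haF
      set aG := PowerSeries.coeff (p ^ (k + 1)) (mulSeries G p) with haG
      by_cases hIt : I = ⊤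
      · rw [hIt, top_sup_eq, top_sup_eq]
      have : Nontrivial (A ⧸ I) := Ideal.Quotient.nontrivial_iff.2 hIt
      let π : A →+* A ⧸ I := Ideal.Quotient.mk I
      have hπp : ((p : ℕ) : A ⧸ I) = 0 := by
        have : (p : A) ∈ I := natCast_mem_hIdeal p F (by omega)
        have h2 := Ideal.Quotient.eq_zero_iff_mem.2 this
        simpa using h2
      have : CharP (A ⧸ I) p := (CharP.charP_iff_prime_eq_zero Fact.out).2 hπp
      have hFi : ∀ i, i < k + 1 → PowerSeries.coeff (p ^ i) (mulSeries (F.map π) p) = 0 := by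
        intro i hi
        rw [mulSeries_map, PowerSeries.coeff_map]
        exact Ideal.Quotient.eq_zero_iff_mem.2 (coeff_mem_hIdeal p F hi)
      have hGi : ∀ i, i < k + 1 → PowerSeries.coeff (p ^ i) (mulSeries (G.map π) p) = 0 := by
        intro i hi
        rw [mulSeries_map, PowerSeries.coeff_map]
        refine Ideal.Quotient.eq_zero_iff_mem.2 ?_
        rw [ih]
        exact coeff_mem_hIdeal p G hi
      obtain ⟨V, hV, hVh, hVc⟩ := exists_V p (F.map π) (k + 1) hFi
      obtain ⟨W, hW, hWh, hWc⟩ := exists_V p (G.map π) (k + 1) hGi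
      have hθ' := hθ.map π
      have hrel := cmp_V_eq p hθ' hVh.1 hV hW
      have hc := congrArg (PowerSeries.coeff 1) hrel
      have hθ'' : PowerSeries.constantCoeff (PowerSeries.map (iterateFrobenius (A ⧸ I) p (k + 1))
          (PowerSeries.map π θ)) = 0 := constantCoeff_map' _ hθ'.1
      rw [coeff_one_cmp hθ'.1 hVh.1, coeff_one_cmp hWh.1 hθ'', hVc, hWc, mul_one, mulSeries_map,
        mulSeries_map, PowerSeries.coeff_map, PowerSeries.coeff_map, PowerSeries.coeff_map,
        PowerSeries.coeff_map, PowerSeries.coeff_map, iterateFrobenius_def, ← map_pow,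
        ← map_mul, ← map_mul, Ideal.Quotient.eq] at hc
      set U := PowerSeries.coeff 1 θ with hU
      have hUq : IsUnit (U ^ p ^ (k + 1)) := hu.pow _
      apply le_antisymm
      · apply sup_le le_sup_left
        rw [Ideal.span_singleton_le_iff_mem]
        rw [← Ideal.unit_mul_mem_iff_mem _ hu]
        have e : U * aF = (U * aF - aG * U ^ p ^ (k + 1)) + aG * U ^ p ^ (k + 1) := by ring
        rw [e]
        refine Ideal.add_mem _ (Ideal.mem_sup_left hc) ?_
        exact Ideal.mem_sup_right (Ideal.mul_mem_right _ _ (Ideal.mem_span_singleton_self _))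
      · apply sup_le le_sup_left
        rw [Ideal.span_singleton_le_iff_mem]
        rw [← Ideal.mul_unit_mem_iff_mem _ hUq]
        have e : aG * U ^ p ^ (k + 1) = U * aF - (U * aF - aG * U ^ p ^ (k + 1)) := by ring
        rw [e]
        refine Ideal.sub_mem _ ?_ (Ideal.mem_sup_left hc)
        exact Ideal.mem_sup_right (Ideal.mul_mem_left _ _ (Ideal.mem_span_singleton_self _))

end height

end Crest.Agent.LT
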