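/-
B2: consequences of universality (BLUEPRINT §B2): test rings, stabilizer maps, composition.
-/
import Crest.Agent.Lib.LT.E0
import Crest.Agent.Lib.LT.FG
import Crest.Agent.Lib.LT.Frob

set_option autoImplicit false
set_option linter.unusedSectionVars false

namespace Crest.Agent.LT

open Crest.LubinTate

variable (p : ℕ) [hp : Fact p.Prime] (n : ℕ)

/-! ### Test rings -/

/-- The data making `B` a test ring of `IsUniversalDeformation`. -/
structure TestData (B : Type) [CommRing B] [IsLocalRing B] [IsNoetherianRing B]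
    [Algebra (WittVector p (GaloisField p n)) B] where
  complete : IsAdicComplete (IsLocalRing.maximalIdeal B) B
  r : B →+* GaloisField p n
  surj : Function.Surjective r
  ker : RingHom.ker r = IsLocalRing.maximalIdeal B
  comp : r.comp (algebraMap (WittVector p (GaloisField p n)) B) = WittVector.constantCoeff

/-- `E₀` as a test ring. -/
noncomputable def testE0 : TestData p n (LTRing p n) where
  complete := isAdicComplete_E0 p n
  r := LTRing.residue p n
  surj := residue_surjective p n
  ker := ker_residue p n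
  comp := residue_comp_algebraMap p n

section TestRing

variable {p n}
variable {B : Type} [CommRing B] [IsLocalRing B] [IsNoetherianRing B]
  [Algebra (WittVector p (GaloisField p n)) B] (T : TestData p n B)

include T

/-- An element is a unit as soon as its image in the residue field is. -/
lemma TestData.isUnit_of_r {x : B} (hx : IsUnit (T.r x)) : IsUnit x := by
  by_contra h
  have : x ∈ IsLocalRing.maximalIdeal B := (IsLocalRing.mem_maximalIdeal x).mpr h
  rw [← T.ker, RingHom.mem_ker] at this
  rw [this] at hx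
  exact not_isUnit_zero hx

/-- Coefficientwise Teichmüller lift of a series. -/
noncomputable def TestData.lift (_T : TestData p n B) (g : PowerSeries (GaloisField p n)) :
    PowerSeries B :=
  PowerSeries.mk fun i => algebraMap (WittVector p (GaloisField p n)) B
    (WittVector.teichmuller p (PowerSeries.coeff i g))

lemma TestData.coeff_lift (g : PowerSeries (GaloisField p n)) (i : ℕ) :
    PowerSeries.coeff i (T.lift g) = algebraMap (WittVector p (GaloisField p n)) B
      (WittVector.teichmuller p (PowerSeries.coeff i g)) := by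
  simp [TestData.lift]

lemma TestData.map_lift (g : PowerSeries (GaloisField p n)) :
    PowerSeries.map T.r (T.lift g) = g := by
  ext i
  rw [PowerSeries.coeff_map, T.coeff_lift, ← RingHom.comp_apply, T.comp]
  simp

lemma TestData.coeff_lift_of_zero (g : PowerSeries (GaloisField p n)) (i : ℕ)
    (h : PowerSeries.coeff i g = 0) : PowerSeries.coeff i (T.lift g) = 0 := by
  rw [T.coeff_lift, h]
  simp

lemma TestData.lift_cc {g : PowerSeries (GaloisField p n)}
    (h : PowerSeries.constantCoeff g = 0) : PowerSeries.constantCoeff (T.lift g) = 0 := by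
  rw [← PowerSeries.coeff_zero_eq_constantCoeff_apply]
  exact T.coeff_lift_of_zero g 0 (by rwa [PowerSeries.coeff_zero_eq_constantCoeff_apply])

lemma TestData.lift_unit {g : PowerSeries (GaloisField p n)}
    (h : IsUnit (PowerSeries.coeff 1 g)) : IsUnit (PowerSeries.coeff 1 (T.lift g)) := by
  apply T.isUnit_of_r
  rw [← PowerSeries.coeff_map, T.map_lift]
  exact h

end TestRing

lemma conjLaw_congr {R : Type*} [CommRing R] (F : FormalGroup R) {f f' : PowerSeries R} (h : f = f')
    (hu : IsUnit (PowerSeries.coeff 1 f)) (h0 : PowerSeries.constantCoeff f = 0)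
    (hu' : IsUnit (PowerSeries.coeff 1 f')) (h0' : PowerSeries.constantCoeff f' = 0) :
    conjLaw F f hu h0 = conjLaw F f' hu' h0' := by
  subst h; rfl

lemma sInv_sInv {R : Type*} [CommRing R] (f : PowerSeries R) (h0 : PowerSeries.constantCoeff f = 0)
    (hu : IsUnit (PowerSeries.coeff 1 f)) :
    sInv (sInv f hu) (isUnit_coeff_one_sInv f hu) = f :=
  (eq_sInv (isUnit_coeff_one_sInv f hu) (cc_sInv f hu) h0 (cmp_sInv' f h0 hu)).symm

lemma sInv_congr {R : Type*} [CommRing R] {f f' : PowerSeries R} (h : f = f')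
    (hu : IsUnit (PowerSeries.coeff 1 f)) (hu' : IsUnit (PowerSeries.coeff 1 f')) :
    sInv f hu = sInv f' hu' := by
  subst h; rfl

/-! ### Existence and uniqueness from universality -/

section Universal

variable {p n}
variable {Γ : FormalGroup (GaloisField p n)} {H : FormalGroup (LTRing p n)}
  (hU : IsUniversalDeformation p n Γ H)
variable {B : Type} [CommRing B] [IsLocalRing B] [IsNoetherianRing B]
  [Algebra (WittVector p (GaloisField p n)) B] (T : TestData p n B)

include hU in
/-- Existence: every law over a test ring whose reduction is isomorphic to `Γ` by `g` receives a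
homomorphism from a pushforward of `H` reducing to `g`. -/
theorem exists_hom_of_law (G : FormalGroup B) {g : PowerSeries (GaloisField p n)}
    (hgu : IsUnit (PowerSeries.coeff 1 g)) (hG : IsFGHom Γ (G.map T.r) g) :
    ∃ φ : LTRing p n →ₐ[WittVector p (GaloisField p n)] B,
      T.r.comp φ.toRingHom = LTRing.residue p n ∧
      ∃ θ : PowerSeries B, IsFGHom (H.map φ.toRingHom) G θ ∧ PowerSeries.map T.r θ = g := by
  have hg0 := hG.1
  -- the lift of `g⁻¹`
  set g' := sInv g hgu with hg'
  have hg'0 : PowerSeries.constantCoeff g' = 0 := cc_sInv g hgu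
  have hg'u : IsUnit (PowerSeries.coeff 1 g') := isUnit_coeff_one_sInv g hgu
  set f := T.lift g' with hf
  have hf0 : PowerSeries.constantCoeff f = 0 := T.lift_cc hg'0
  have hfu : IsUnit (PowerSeries.coeff 1 f) := T.lift_unit hg'u
  have hfr : PowerSeries.map T.r f = g' := T.map_lift g'
  set G' := conjLaw G f hfu hf0 with hG'
  have hG'r : G'.map T.r = Γ := by
    rw [hG', map_conjLaw]
    have h1 : IsFGHom (G.map T.r) Γ g' := hG.inv hgu
    rw [conjLaw_congr (G.map T.r) hfr _ _ hg'u hg'0]
    exact conjLaw_eq_of_hom _ g' hg'u h1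
  obtain ⟨φ, ⟨hφ, θ', hθ', hθ'r⟩, -⟩ :=
    hU.2 B T.complete T.r T.surj T.ker T.comp G' hG'r
  refine ⟨φ, hφ, cmp (sInv f hfu) θ', ?_, ?_⟩
  · exact ((isFGHom_conjLaw G f hfu hf0).inv hfu).comp hθ'
  · rw [map_cmp T.r hθ'.1, hθ'r, map_sInv T.r hfu hf0, sInv_congr hfr _ hg'u]
    have : cmp (sInv g' hg'u) PowerSeries.X = sInv g' hg'u := coeff_zero_cmp_X
    rw [this]
    exact sInv_sInv g hg0 hgu

include hU in
/-- Uniqueness: two homomorphisms from pushforwards of `H` to the same law with the same reduction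
come from the same map. -/
theorem unique_of_hom {φ₁ φ₂ : LTRing p n →ₐ[WittVector p (GaloisField p n)] B}
    (h₁ : T.r.comp φ₁.toRingHom = LTRing.residue p n)
    (h₂ : T.r.comp φ₂.toRingHom = LTRing.residue p n)
    {G : FormalGroup B} {θ₁ θ₂ : PowerSeries B}
    (hθ₁ : IsFGHom (H.map φ₁.toRingHom) G θ₁) (hθ₂ : IsFGHom (H.map φ₂.toRingHom) G θ₂)
    (hred : PowerSeries.map T.r θ₁ = PowerSeries.map T.r θ₂)
    (hu : IsUnit (PowerSeries.coeff 1 (PowerSeries.map T.r θ₂))) : φ₁ = φ₂ := by
  have hu2 : IsUnit (PowerSeries.coeff 1 θ₂) := by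
    apply T.isUnit_of_r
    rwa [← PowerSeries.coeff_map]
  set K := H.map φ₂.toRingHom with hK
  have hKr : K.map T.r = Γ := by
    rw [hK, fg_map_map, h₂]
    exact hU.1
  obtain ⟨φ, -, huniq⟩ := hU.2 B T.complete T.r T.surj T.ker T.comp K hKr
  have e2 := huniq φ₂ ⟨h₂, PowerSeries.X, isFGHom_X _, PowerSeries.map_X _⟩
  have e1 := huniq φ₁ ⟨h₁, cmp (sInv θ₂ hu2) θ₁, (hθ₂.inv hu2).comp hθ₁, by
    rw [map_cmp T.r hθ₁.1, map_sInv T.r hu2 hθ₂.1, hred]
    exact cmp_sInv' _ (constantCoeff_map' T.r hθ₂.1) _⟩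
  rw [e1, e2]

end Universal

/-! ### Stabilizer maps -/

section Stabilizer

variable {p n}
variable {Γ : FormalGroup (GaloisField p n)} {H : FormalGroup (LTRing p n)}
  (hU : IsUniversalDeformation p n Γ H)

include hU in
theorem exists_stab {g : PowerSeries (GaloisField p n)} (hg : IsFGAut Γ g) :
    ∃ φ : LTRing p n →ₐ[WittVector p (GaloisField p n)] LTRing p n, IsStabilizerMap p n H g φ := by
  have hG : IsFGHom Γ (H.map (testE0 p n).r) g := by
    have : H.map (testE0 p n).r = Γ := hU.1
    rw [this]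
    exact hg.1
  obtain ⟨φ, h1, θ, h2, h3⟩ := exists_hom_of_law hU (testE0 p n) H hg.2 hG
  exact ⟨φ, h1, θ, h2, h3⟩

include hU in
theorem stab_unique {g : PowerSeries (GaloisField p n)} (hg : IsFGAut Γ g)
    {φ₁ φ₂ : LTRing p n →ₐ[WittVector p (GaloisField p n)] LTRing p n}
    (h₁ : IsStabilizerMap p n H g φ₁) (h₂ : IsStabilizerMap p n H g φ₂) : φ₁ = φ₂ := by
  obtain ⟨h1, θ₁, hθ₁, hr₁⟩ := h₁
  obtain ⟨h2, θ₂, hθ₂, hr₂⟩ := h₂
  refine unique_of_hom hU (testE0 p n) h1 h2 hθ₁ hθ₂ ?_ ?_
  · exact hr₁.trans hr₂.symm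
  · have : PowerSeries.map (testE0 p n).r θ₂ = g := hr₂
    rw [this]
    exact hg.2

lemma stab_id : IsStabilizerMap p n H PowerSeries.X (AlgHom.id _ _) := by
  refine ⟨RingHom.ext fun a => rfl, PowerSeries.X, ?_, PowerSeries.map_X _⟩
  show IsFGHom (H.map (RingHom.id _)) H PowerSeries.X
  rw [fg_map_id]
  exact isFGHom_X H

lemma stab_comp {g g' : PowerSeries (GaloisField p n)}
    {φ φ' : LTRing p n →ₐ[WittVector p (GaloisField p n)] LTRing p n}
    (h : IsStabilizerMap p n H g φ) (h' : IsStabilizerMap p n H g' φ') :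
    IsStabilizerMap p n H (cmp g' g) (φ'.comp φ) := by
  obtain ⟨h1, θ, hθ, hr⟩ := h
  obtain ⟨h1', θ', hθ', hr'⟩ := h'
  refine ⟨?_, cmp θ' (PowerSeries.map φ'.toRingHom θ), ?_, ?_⟩
  · ext a
    have e1 := congrArg (fun f => f a) h1
    have e2 := congrArg (fun f => f (φ a)) h1'
    simp only [RingHom.comp_apply] at e1 e2
    exact e2.trans e1
  · have h2 := hθ.map φ'.toRingHom
    rw [fg_map_map] at h2
    exact hθ'.comp h2
  · have h3 : PowerSeries.map (LTRing.residue p n) (PowerSeries.map φ'.toRingHom θ) = g := by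
      ext i
      rw [PowerSeries.coeff_map, PowerSeries.coeff_map]
      have e := congrArg (fun f => f (PowerSeries.coeff i θ)) h1'
      simp only [RingHom.comp_apply] at e
      rw [e, ← PowerSeries.coeff_map, hr]
    rw [map_cmp _ (constantCoeff_map' _ hθ.1), hr', h3]

end Stabilizer

end Crest.Agent.LT
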