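/-
B2 (3),(4): rigidity and the Drinfeld deep lift (BLUEPRINT §B2).
-/
import Crest.Agent.Lib.LT.Univ
import Crest.Agent.Lib.LT.LogLaw

set_option autoImplicit false
set_option linter.unusedSectionVars false

namespace Crest.Agent.LT

open Crest.LubinTate

section CIn

variable {B τ : Type*} [CommRing B]

/-- All coefficients lie in the ideal. -/
def CIn (J : Ideal B) (f : MvPowerSeries τ B) : Prop := ∀ e, MvPowerSeries.coeff e f ∈ J

lemma CIn.mul {J J' : Ideal B} {f g : MvPowerSeries τ B} (hf : CIn J f) (hg : CIn J' g) :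
    CIn (J * J') (f * g) := by
  classical
  intro e
  rw [MvPowerSeries.coeff_mul]
  exact Ideal.sum_mem _ fun x _ => Ideal.mul_mem_mul (hf _) (hg _)

lemma CIn.pow {J : Ideal B} {f : MvPowerSeries τ B} (hf : CIn J f) (j : ℕ) : CIn (J ^ j) (f ^ j) := by
  induction j with
  | zero => intro e; simp
  | succ j ih =>
    rw [pow_succ, pow_succ]
    exact ih.mul hf

lemma CIn.mono {J J' : Ideal B} (h : J ≤ J') {f : MvPowerSeries τ B} (hf : CIn J f) : CIn J' f :=
  fun e => h (hf e)

lemma cin_of_map_eq {K : Type*} [CommRing K] (r : B →+* K) {f g : MvPowerSeries τ B}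
    (h : MvPowerSeries.map r f = MvPowerSeries.map r g) : CIn (RingHom.ker r) (f - g) := by
  intro e
  rw [RingHom.mem_ker, map_sub, map_sub, ← MvPowerSeries.coeff_map, ← MvPowerSeries.coeff_map, h,
    sub_self]

lemma cin_of_map_eq_zero {K : Type*} [CommRing K] (r : B →+* K) {f : MvPowerSeries τ B}
    (h : MvPowerSeries.map r f = 0) : CIn (RingHom.ker r) f := by
  intro e
  rw [RingHom.mem_ker, ← MvPowerSeries.coeff_map, h, map_zero]

lemma coeff_subst_sum (f : PowerSeries B) {a : MvPowerSeries τ B}
    (ha : MvPowerSeries.constantCoeff a = 0) (e : τ →₀ ℕ) :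
    MvPowerSeries.coeff e (PowerSeries.subst a f) =
      ∑ j ∈ Finset.range (e.degree + 1), PowerSeries.coeff j f * MvPowerSeries.coeff e (a ^ j) := by
  have ha' : PowerSeries.HasSubst a := PowerSeries.HasSubst.of_constantCoeff_zero ha
  rw [PowerSeries.coeff_subst ha', finsum_eq_sum_of_support_subset (s := Finset.range (e.degree + 1))]
  · rfl
  · intro d hd
    simp only [Function.mem_support, smul_eq_mul] at hd
    simp only [Finset.coe_range, Set.mem_Iio]
    by_contra hlt
    apply hd
    have hz : MvPowerSeries.coeff e (a ^ d) = 0 := by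
      apply MvPowerSeries.coeff_of_lt_order
      refine lt_of_lt_of_le ?_ (MvPowerSeries.le_order_pow_of_constantCoeff_eq_zero d ha)
      exact_mod_cast (by omega : e.degree < d)
    rw [hz, mul_zero]

/-- The multiplication by `p` raises the power of the ideal. -/
lemma cin_mulSeries_step (F : FormalGroup B) (m : Ideal B) (p : ℕ) (hp : (p : B) ∈ m) (i : ℕ)
    (hi : 1 ≤ i) {e : MvPowerSeries τ B} (he0 : MvPowerSeries.constantCoeff e = 0)
    (he : CIn (m ^ i) e) : CIn (m ^ (i + 1)) (PowerSeries.subst e (mulSeries F p)) := by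
  intro d
  rw [coeff_subst_sum _ he0]
  refine Ideal.sum_mem _ fun j _ => ?_
  rcases j with _ | _ | j
  · rw [PowerSeries.coeff_zero_eq_constantCoeff_apply, constantCoeff_mulSeries, zero_mul]
    exact zero_mem _
  · rw [zero_add, coeff_one_mulSeries, pow_one, pow_succ', ]
    exact Ideal.mul_mem_mul hp (he d)
  · refine Ideal.mul_mem_left _ _ ?_
    have h := (he.pow (j + 1 + 1)) d
    refine Ideal.pow_le_pow_right ?_ (by rw [← pow_mul] at h; exact h)
    nlinarith

lemma cin_mulSeries_iter (F : FormalGroup B) (m : Ideal B) (p : ℕ) (hp : (p : B) ∈ m) (c : ℕ)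
    {a : MvPowerSeries τ B} (ha0 : MvPowerSeries.constantCoeff a = 0) (ha : CIn m a) :
    CIn (m ^ (c + 1)) (PowerSeries.subst a (mulSeries F (p ^ c))) := by
  have ha' : PowerSeries.HasSubst a := PowerSeries.HasSubst.of_constantCoeff_zero ha0
  induction c with
  | zero =>
    simp only [pow_zero, mulSeries_one, zero_add, pow_one]
    rw [PowerSeries.subst_X ha']
    exact ha
  | succ c ih =>
    rw [pow_succ' p c, mulSeries_mul, cmp,
      PowerSeries.subst_comp_subst_apply (hasSubst_mulSeries F _) ha']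
    refine cin_mulSeries_step F m p hp (c + 1) (by omega) ?_ ih
    exact PowerSeries.constantCoeff_subst_eq_zero ha0 _ (constantCoeff_mulSeries F _)

end CIn

/-! ### Sums of homomorphisms -/

section HomAdd

variable {R : Type*} [CommRing R] {F G : FormalGroup R}

theorem isFGHom_add [G.IsComm] {f₁ f₂ : PowerSeries R} (h₁ : IsFGHom F G f₁) (h₂ : IsFGHom F G f₂) :
    IsFGHom F G (fgAdd G f₁ f₂ : PowerSeries R) := by
  apply Crest.LubinTate.IsFGHom.of_apply (constantCoeff_fgAdd_of G h₁.1 h₂.1)
  have hf₁ := hasSubst_of_cc h₁.1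
  have hf₂ := hasSubst_of_cc h₂.1
  have hX : ∀ i : Fin 2, PowerSeries.HasSubst (MvPowerSeries.X i : MvPowerSeries (Fin 2) R) :=
    hasSubst_X_i
  rw [psubst_fgAdd G hf₁ hf₂ (hasSubst_fgAdd F (hX 0) (hX 1)), psubst_fgAdd G hf₁ hf₂ (hX 0),
    psubst_fgAdd G hf₁ hf₂ (hX 1), h₁.apply (hX 0) (hX 1), h₂.apply (hX 0) (hX 1)]
  have hs : ∀ {f : PowerSeries R}, PowerSeries.constantCoeff f = 0 → ∀ i : Fin 2,
      PowerSeries.HasSubst (PowerSeries.subst (MvPowerSeries.X i : MvPowerSeries (Fin 2) R) f) :=
    fun hf i => hasSubst_psubst hf (hX i)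
  let A : G.Point (Fin 2) := ⟨_, hs h₁.1 0⟩
  let B : G.Point (Fin 2) := ⟨_, hs h₁.1 1⟩
  let C : G.Point (Fin 2) := ⟨_, hs h₂.1 0⟩
  let D : G.Point (Fin 2) := ⟨_, hs h₂.1 1⟩
  have : (A + B) + (C + D) = (A + C) + (B + D) := by abel
  exact congrArg Subtype.val this

theorem isFGHom_fgInv_deep (F : FormalGroup R) [F.IsComm] : IsFGHom F F (fgInv F) := by
  apply Crest.LubinTate.IsFGHom.of_apply (constantCoeff_fgInv F)
  let x0 : F.Point (Fin 2) := ⟨MvPowerSeries.X 0, hasSubst_X_i 0⟩
  let x1 : F.Point (Fin 2) := ⟨MvPowerSeries.X 1, hasSubst_X_i 1⟩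
  have : -(x0 + x1) = -x0 + -x1 := by abel
  exact congrArg Subtype.val this

/-- `a +_F (-b) +_F b = a`. -/
lemma fgAdd_neg_add [F.IsComm] {τ : Type*} {a b : MvPowerSeries τ R} (ha : PowerSeries.HasSubst a)
    (hb : PowerSeries.HasSubst b) : fgAdd F (fgAdd F a (fgNeg F b)) b = a := by
  rw [fgAdd_assoc F ha (hasSubst_fgNeg F hb) hb, fgNeg_fgAdd F hb, fgAdd_zero F ha]

end HomAdd

/-! ### Rigidity -/

section Rigid

variable {B K : Type*} [CommRing B] [CommRing K]

/-- (B2.3) A homomorphism reducing to `X` is `X`, over a ring whose reduction ideal is nilpotent. -/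
theorem rigid (F : FormalGroup B) [F.IsComm] (r : B →+* K) (p : ℕ) (hpm : (p : B) ∈ RingHom.ker r)
    (c : ℕ) (hc : RingHom.ker r ^ (c + 1) = ⊥) (q : ℕ) (hq : 1 ≤ q)
    (hP : PowerSeries.map r (mulSeries F p) = PowerSeries.X ^ q)
    {D : PowerSeries B} (hD : IsFGHom F F D) (hDr : PowerSeries.map r D = PowerSeries.X) :
    D = PowerSeries.X := by
  classical
  set m := RingHom.ker r with hm
  set e : PowerSeries B := fgAdd F D (fgInv F) with he
  have hhe : IsFGHom F F e := isFGHom_add hD (isFGHom_fgInv_deep F)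
  have hX : PowerSeries.HasSubst (PowerSeries.X : PowerSeries B) :=
    PowerSeries.HasSubst.of_constantCoeff_zero' PowerSeries.constantCoeff_X
  have hI : PowerSeries.HasSubst (fgInv F) := hasSubst_fgInv F
  have hD' : PowerSeries.HasSubst D := hasSubst_of_cc hD.1
  have key : ∀ i : ℕ, CIn (m ^ (i + 1)) e := by
    intro i
    induction i with
    | zero =>
      rw [zero_add, pow_one]
      apply cin_of_map_eq_zero
      have h1 : MvPowerSeries.map r e = fgAdd (F.map r) (MvPowerSeries.map r D)
          (MvPowerSeries.map r (fgInv F)) := map_fgAdd F r hD' hI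
      have h2 : fgAdd (F.map r) (MvPowerSeries.map r (PowerSeries.X : PowerSeries B))
          (MvPowerSeries.map r (fgInv F)) = 0 := by
        rw [← map_fgAdd F r hX hI, fgAdd_X_inv, map_zero]
      have h3 : MvPowerSeries.map r D = MvPowerSeries.map r (PowerSeries.X : PowerSeries B) := by
        refine Eq.trans hDr ?_
        exact (PowerSeries.map_X r).symm
      rw [h1, h3, h2]
    | succ i ih =>
      have hcomm := hhe.cmp_mulSeries p
      have hR : CIn (m ^ (i + 1 + 1)) (cmp (mulSeries F p) e) :=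
        cin_mulSeries_step F m p hpm (i + 1) (by omega) hhe.1 ih
      rw [← hcomm] at hR
      -- the coefficient of `P^j`
      have hPj : ∀ j d : ℕ, PowerSeries.coeff d (mulSeries F p ^ j) -
          PowerSeries.coeff d ((PowerSeries.X ^ q) ^ j : PowerSeries B) ∈ m := by
        intro j d
        rw [hm, RingHom.mem_ker, map_sub, ← PowerSeries.coeff_map, ← PowerSeries.coeff_map,
          map_pow (PowerSeries.map r), hP, map_pow (PowerSeries.map r),
          map_pow (PowerSeries.map r), PowerSeries.map_X, sub_self]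
      have hpowX : ∀ j d : ℕ, PowerSeries.coeff d ((PowerSeries.X ^ q) ^ j : PowerSeries B) =
          if d = q * j then 1 else 0 := by
        intro j d
        rw [← pow_mul, PowerSeries.coeff_X_pow]
      intro x
      -- `x` is the index of the coefficient; as a one-variable series
      have hx : x = Finsupp.single () (x ()) := Finsupp.ext fun _ => by simp
      set j₀ := x () with hj₀
      rw [hx]
      show PowerSeries.coeff j₀ e ∈ _
      have hR' := hR (Finsupp.single () (q * j₀))
      have hR'' : PowerSeries.coeff (q * j₀) (cmp e (mulSeries F p)) ∈ m ^ (i + 1 + 1) := hR'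
      rw [coeff_cmp_eq_sum (constantCoeff_mulSeries F p)] at hR''
      have hsum : ∑ d ∈ Finset.range (q * j₀ + 1), PowerSeries.coeff d e *
            PowerSeries.coeff (q * j₀) (mulSeries F p ^ d) =
          PowerSeries.coeff j₀ e + ∑ d ∈ Finset.range (q * j₀ + 1), PowerSeries.coeff d e *
            (PowerSeries.coeff (q * j₀) (mulSeries F p ^ d) -
              PowerSeries.coeff (q * j₀) ((PowerSeries.X ^ q) ^ d : PowerSeries B)) := by
        have h0 : ∑ d ∈ Finset.range (q * j₀ + 1), PowerSeries.coeff d e *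
            PowerSeries.coeff (q * j₀) ((PowerSeries.X ^ q) ^ d : PowerSeries B) =
            PowerSeries.coeff j₀ e := by
          rw [Finset.sum_eq_single j₀]
          · rw [hpowX, if_pos rfl, mul_one]
          · intro b _ hb
            rw [hpowX, if_neg, mul_zero]
            intro h
            exact hb (Nat.eq_of_mul_eq_mul_left (by omega) h.symm)
          · intro h
            exfalso
            apply h
            rw [Finset.mem_range]
            nlinarith
        simp only [mul_sub, Finset.sum_sub_distrib]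
        rw [h0]
        ring
      rw [hsum] at hR''
      have hrest : ∑ d ∈ Finset.range (q * j₀ + 1), PowerSeries.coeff d e *
            (PowerSeries.coeff (q * j₀) (mulSeries F p ^ d) -
              PowerSeries.coeff (q * j₀) ((PowerSeries.X ^ q) ^ d : PowerSeries B)) ∈
            m ^ (i + 1 + 1) := by
        refine Ideal.sum_mem _ fun d _ => ?_
        rw [pow_succ _ (i + 1)]
        exact Ideal.mul_mem_mul (ih (Finsupp.single () d)) (hPj d _)
      have := sub_mem hR'' hrest
      rwa [add_sub_cancel_right] at this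
  -- conclusion
  have he0 : e = 0 := by
    ext d
    have := key c (Finsupp.single () d)
    rw [hc] at this
    simpa using this
  have h1 : fgAdd F e PowerSeries.X = D := by
    rw [he, fgAdd_assoc F hD' hI hX, fgAdd_comm F hI hX, fgAdd_X_inv, fgAdd_zero F hD']
  rw [he0, zero_fgAdd F hX] at h1
  exact h1.symm

end Rigid

/-! ### The Drinfeld deep lift -/

section DeepLift

variable {p n : ℕ} [Fact p.Prime]
variable {B : Type} [CommRing B] [IsLocalRing B] [IsNoetherianRing B]
  [Algebra (WittVector p (GaloisField p n)) B] (T : TestData p n B)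

lemma iterateFrobenius_galois_eq_id (hn : 1 ≤ n) (c : ℕ) :
    iterateFrobenius (GaloisField p n) p (n * c) = RingHom.id _ := by
  ext x
  rw [iterateFrobenius_def, RingHom.id_apply]
  have hcardN : Nat.card (GaloisField p n) = p ^ n := GaloisField.card p n (by omega)
  have : Finite (GaloisField p n) := Nat.finite_of_card_ne_zero (by
    rw [hcardN]; exact pow_ne_zero _ (prime_ne_zero p))
  let _ : Fintype (GaloisField p n) := Fintype.ofFinite _
  have hcard : Fintype.card (GaloisField p n) = p ^ n := by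
    rw [← Nat.card_eq_fintype_card]
    exact GaloisField.card p n (by omega)
  induction c with
  | zero => simp
  | succ c ih =>
    rw [mul_add, mul_one, pow_add, pow_mul, ih, ← hcard]
    exact FiniteField.pow_card x

lemma mulSeries_p_pow (R : Type*) [CommRing R] (G : FormalGroup R) (q : ℕ) (hq : q ≠ 0)
    [ExpChar R p] (hG : mulSeries G p = PowerSeries.X ^ q) (c : ℕ) :
    mulSeries G (p ^ c) = PowerSeries.X ^ (q ^ c) := by
  induction c with
  | zero => simp
  | succ c ih =>
    have h0 : q ^ c ≠ 0 := pow_ne_zero c hq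
    rw [pow_succ', mulSeries_mul, hG, ih, cmp_X_pow_left _ (constantCoeff_X_pow h0), ← pow_mul,
      pow_succ, ]

include T in
/-- (B2.4) Deep automorphisms of the reduction lift to endomorphisms of `F`, up to `X^N`. -/
theorem exists_deep_lift (hn : 1 ≤ n) (Γ : FormalGroup (GaloisField p n)) [Γ.IsComm]
    (hΓ : mulSeries Γ p = PowerSeries.X ^ (p ^ n))
    (F : FormalGroup B) [F.IsComm] (hF : F.map T.r = Γ) (c : ℕ)
    (hm : IsLocalRing.maximalIdeal B ^ (c + 1) = ⊥) (N : ℕ)
    {g : PowerSeries (GaloisField p n)} (hg : IsFGAut Γ g)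
    (hcong : CongX (p ^ (n * c) * (N + 1)) g) :
    ∃ g' : PowerSeries B, IsFGHom F F g' ∧ PowerSeries.map T.r g' = g ∧ CongX N g' := by
  classical
  have hp0 : p ≠ 0 := prime_ne_zero p
  have hXΓ : PowerSeries.HasSubst (PowerSeries.X : PowerSeries (GaloisField p n)) :=
    PowerSeries.HasSubst.of_constantCoeff_zero' PowerSeries.constantCoeff_X
  have hgS : PowerSeries.HasSubst g := hasSubst_of_cc hg.1.1
  have hI : PowerSeries.HasSubst (fgInv Γ) := hasSubst_fgInv Γ
  set M := p ^ (n * c) * (N + 1) with hM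
  set w : PowerSeries (GaloisField p n) := fgAdd Γ g (fgInv Γ) with hw
  have hwh : IsFGHom Γ Γ w := isFGHom_add hg.1 (isFGHom_fgInv_deep Γ)
  -- `w ≡ 0` mod `X^M`
  have hgX : (PowerSeries.X : PowerSeries (GaloisField p n)) ^ M ∣ g - PowerSeries.X := by
    rw [PowerSeries.X_pow_dvd_iff]
    intro i hi
    rw [map_sub, hcong i hi, sub_self]
  have hwdvd : (PowerSeries.X : PowerSeries (GaloisField p n)) ^ M ∣ w := by
    have := fgAdd_congr_X_pow Γ hgS hXΓ hI hI M hgX (by simp)
    rwa [fgAdd_X_inv, sub_zero] at this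
  have hwc : ∀ i, i < M → PowerSeries.coeff i w = 0 := PowerSeries.X_pow_dvd_iff.1 hwdvd
  have hpow : ∀ i, i < n * c → p ^ i < M := fun i hi => by
    have h1 : p ^ i < p ^ (n * c) := Nat.pow_lt_pow_right (Fact.out : p.Prime).one_lt hi
    have h2 : p ^ (n * c) ≤ M := Nat.le_mul_of_pos_right _ (by omega)
    omega
  obtain ⟨V, hwV, hVh, hVc⟩ := hom_factor p hwh (n * c) (fun i hi => hwc _ (hpow i hi))
  rw [iterateFrobenius_galois_eq_id hn c, fg_map_id] at hVh
  have hV0 : ∀ i, i < N + 1 → PowerSeries.coeff i V = 0 := by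
    intro i hi
    rw [hVc]
    apply hwc
    rw [hM]
    exact Nat.mul_lt_mul_of_pos_left hi (pow_pos (Nat.pos_of_ne_zero hp0) _)
  -- the lift
  set u := T.lift V with hu
  have hu0 : PowerSeries.constantCoeff u = 0 := T.lift_cc hVh.1
  have hur : PowerSeries.map T.r u = V := T.map_lift V
  have huS : PowerSeries.HasSubst u := hasSubst_of_cc hu0
  have huc : ∀ i, i < N + 1 → PowerSeries.coeff i u = 0 := fun i hi =>
    T.coeff_lift_of_zero V i (hV0 i hi)
  set P := mulSeries F (p ^ c) with hP
  have hP0 : PowerSeries.constantCoeff P = 0 := constantCoeff_mulSeries F _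
  have hPh : IsFGHom F F P := isFGHom_mulSeries F _
  have hpm : (p : B) ∈ IsLocalRing.maximalIdeal B := by
    rw [← T.ker, RingHom.mem_ker, map_natCast]
    exact CharP.cast_eq_zero _ p
  set D := cmp P u with hD
  have hD0 : PowerSeries.constantCoeff D = 0 := constantCoeff_cmp hP0 hu0
  -- the homomorphism claim
  have hDh : IsFGHom F F D := by
    apply Crest.LubinTate.IsFGHom.of_apply hD0
    have hX0 : PowerSeries.HasSubst (MvPowerSeries.X 0 : MvPowerSeries (Fin 2) B) := hasSubst_X_i 0
    have hX1 : PowerSeries.HasSubst (MvPowerSeries.X 1 : MvPowerSeries (Fin 2) B) := hasSubst_X_i 1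
    have huX0 : PowerSeries.HasSubst (PowerSeries.subst (MvPowerSeries.X 0 : MvPowerSeries (Fin 2) B) u) :=
      hasSubst_psubst hu0 hX0
    have huX1 : PowerSeries.HasSubst (PowerSeries.subst (MvPowerSeries.X 1 : MvPowerSeries (Fin 2) B) u) :=
      hasSubst_psubst hu0 hX1
    set a : MvPowerSeries (Fin 2) B :=
      PowerSeries.subst (fgAdd F (MvPowerSeries.X 0) (MvPowerSeries.X 1)) u with ha
    set b : MvPowerSeries (Fin 2) B :=
      fgAdd F (PowerSeries.subst (MvPowerSeries.X 0 : MvPowerSeries (Fin 2) B) u)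
        (PowerSeries.subst (MvPowerSeries.X 1 : MvPowerSeries (Fin 2) B) u) with hb
    have hXX : PowerSeries.HasSubst (fgAdd F (MvPowerSeries.X 0 : MvPowerSeries (Fin 2) B) (MvPowerSeries.X 1)) :=
      hasSubst_fgAdd F hX0 hX1
    have haS : PowerSeries.HasSubst a := hasSubst_psubst hu0 hXX
    have hbS : PowerSeries.HasSubst b := hasSubst_fgAdd F huX0 huX1
    -- reductions agree
    have hVa := hVh.apply (a := (MvPowerSeries.X 0 : MvPowerSeries (Fin 2) (GaloisField p n)))
      (b := MvPowerSeries.X 1) (hasSubst_X_i 0) (hasSubst_X_i 1)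
    have hab : MvPowerSeries.map T.r a = MvPowerSeries.map T.r b := by
      have e1 : MvPowerSeries.map T.r a =
          PowerSeries.subst (fgAdd Γ (MvPowerSeries.X 0 : MvPowerSeries (Fin 2) (GaloisField p n))
            (MvPowerSeries.X 1)) V := by
        rw [ha, PowerSeries.map_subst hXX, map_fgAdd F T.r hX0 hX1, hF, MvPowerSeries.map_X,
          MvPowerSeries.map_X, hur]
      have e2 : MvPowerSeries.map T.r b = fgAdd Γ
          (PowerSeries.subst (MvPowerSeries.X 0 : MvPowerSeries (Fin 2) (GaloisField p n)) V)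
          (PowerSeries.subst (MvPowerSeries.X 1 : MvPowerSeries (Fin 2) (GaloisField p n)) V) := by
        rw [hb, map_fgAdd F T.r huX0 huX1, hF, PowerSeries.map_subst hX0, PowerSeries.map_subst hX1,
          MvPowerSeries.map_X, MvPowerSeries.map_X, hur]
      rw [e1, e2, hVa]
    set t : MvPowerSeries (Fin 2) B := fgAdd F a (fgNeg F b) with ht
    have hnb : PowerSeries.HasSubst (fgNeg F b) := hasSubst_fgNeg F hbS
    have htS : PowerSeries.HasSubst t := hasSubst_fgAdd F haS hnb
    have hcX0 : MvPowerSeries.constantCoeff (MvPowerSeries.X 0 : MvPowerSeries (Fin 2) B) = 0 :=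
      MvPowerSeries.constantCoeff_X _
    have hcX1 : MvPowerSeries.constantCoeff (MvPowerSeries.X 1 : MvPowerSeries (Fin 2) B) = 0 :=
      MvPowerSeries.constantCoeff_X _
    have ha0 : MvPowerSeries.constantCoeff a = 0 :=
      PowerSeries.constantCoeff_subst_eq_zero (constantCoeff_fgAdd_of F hcX0 hcX1) _ hu0
    have hb0 : MvPowerSeries.constantCoeff b = 0 :=
      constantCoeff_fgAdd_of F (PowerSeries.constantCoeff_subst_eq_zero hcX0 _ hu0)
        (PowerSeries.constantCoeff_subst_eq_zero hcX1 _ hu0)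
    have ht0 : MvPowerSeries.constantCoeff t = 0 :=
      constantCoeff_fgAdd_of F ha0 (PowerSeries.constantCoeff_subst_eq_zero hb0 _ (constantCoeff_fgInv F))
    have eab0 : fgAdd F t b = a := fgAdd_neg_add haS hbS
    have htr : MvPowerSeries.map T.r t = 0 := by
      have hb' : PowerSeries.HasSubst (MvPowerSeries.map T.r b) :=
        PowerSeries.HasSubst.of_constantCoeff_zero (by
          have : MvPowerSeries.constantCoeff (MvPowerSeries.map T.r b) =
              T.r (MvPowerSeries.constantCoeff b) := by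
            rw [← MvPowerSeries.coeff_zero_eq_constantCoeff_apply, MvPowerSeries.coeff_map,
              MvPowerSeries.coeff_zero_eq_constantCoeff_apply]
          rw [this, hb0, map_zero])
      have ht' : PowerSeries.HasSubst (MvPowerSeries.map T.r t) :=
        PowerSeries.HasSubst.of_constantCoeff_zero (by
          have : MvPowerSeries.constantCoeff (MvPowerSeries.map T.r t) =
              T.r (MvPowerSeries.constantCoeff t) := by
            rw [← MvPowerSeries.coeff_zero_eq_constantCoeff_apply, MvPowerSeries.coeff_map,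
              MvPowerSeries.coeff_zero_eq_constantCoeff_apply]
          rw [this, ht0, map_zero])
      have e := congrArg (MvPowerSeries.map T.r) eab0
      rw [map_fgAdd F T.r htS hbS, hab] at e
      have h1 := congrArg (fun x => fgAdd (F.map T.r) x (fgNeg (F.map T.r) (MvPowerSeries.map T.r b))) e
      rw [fgAdd_assoc _ ht' hb' (hasSubst_fgNeg _ hb'), fgAdd_fgNeg _ hb', fgAdd_zero _ ht'] at h1
      exact h1
    have htc : CIn (IsLocalRing.maximalIdeal B) t := by
      rw [← T.ker]
      exact cin_of_map_eq_zero T.r htr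
    have htP : PowerSeries.subst t P = 0 := by
      have h1 := cin_mulSeries_iter F (IsLocalRing.maximalIdeal B) p hpm c ht0 htc
      rw [hm] at h1
      ext e
      simpa using h1 e
    have eab : a = fgAdd F t b := eab0.symm
    have hPa : PowerSeries.subst a P = PowerSeries.subst b P := by
      rw [eab, hPh.apply htS hbS, htP]
      exact zero_fgAdd F (hasSubst_psubst hP0 hbS)
    have hfin : PowerSeries.subst b P = fgAdd F (PowerSeries.subst (MvPowerSeries.X 0 : MvPowerSeries (Fin 2) B) D)
        (PowerSeries.subst (MvPowerSeries.X 1 : MvPowerSeries (Fin 2) B) D) := by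
      rw [hPh.apply huX0 huX1, hD, cmp, PowerSeries.subst_comp_subst_apply huS hX0,
        PowerSeries.subst_comp_subst_apply huS hX1]
    rw [← hfin, ← hPa, hD, cmp, PowerSeries.subst_comp_subst_apply huS hXX]
  -- definition of the lift
  have hXB : PowerSeries.HasSubst (PowerSeries.X : PowerSeries B) :=
    PowerSeries.HasSubst.of_constantCoeff_zero' PowerSeries.constantCoeff_X
  have hDS : PowerSeries.HasSubst D := hasSubst_of_cc hD0
  refine ⟨fgAdd F PowerSeries.X D, isFGHom_add (isFGHom_X F) hDh, ?_, ?_⟩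
  · have hmD : PowerSeries.map T.r D = w := by
      rw [hD, map_cmp T.r hu0, hur, hP]
      have h1 : PowerSeries.map T.r (mulSeries F (p ^ c)) = mulSeries Γ (p ^ c) := by
        rw [← mulSeries_map, hF]
      rw [h1, ← hVh.cmp_mulSeries, mulSeries_p_pow (GaloisField p n) Γ (p ^ n)
        (prime_pow_ne_zero p n) hΓ c, ← pow_mul, hwV]
    have := map_fgAdd F T.r hXB hDS
    refine Eq.trans this ?_
    rw [hF]
    have hmap : MvPowerSeries.map T.r (PowerSeries.X : PowerSeries B) = PowerSeries.X :=
      PowerSeries.map_X T.r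
    rw [hmap]
    have hmD' : MvPowerSeries.map T.r D = w := hmD
    rw [hmD', hw, ← fgAdd_assoc Γ hXΓ hgS hI, fgAdd_comm Γ hXΓ hgS, fgAdd_assoc Γ hgS hXΓ hI,
      fgAdd_X_inv, fgAdd_zero Γ hgS]
  · have hDd : (PowerSeries.X : PowerSeries B) ^ (N + 1) ∣ D := by
      have hud : (PowerSeries.X : PowerSeries B) ^ (N + 1) ∣ u - 0 := by
        rw [sub_zero, PowerSeries.X_pow_dvd_iff]
        exact huc
      have h0S : PowerSeries.HasSubst (0 : PowerSeries B) :=
        PowerSeries.HasSubst.of_constantCoeff_zero' (by simp)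
      have := psubst_congr_X_pow huS h0S (N + 1) hud P
      rwa [psubst_zero hP0, sub_zero] at this
    have h1 := fgAdd_congr_X_pow F hXB hXB hDS (PowerSeries.HasSubst.of_constantCoeff_zero' (by simp))
      (N + 1) (by simp) (by rwa [sub_zero] : (PowerSeries.X : PowerSeries B) ^ (N + 1) ∣ D - 0)
    rw [fgAdd_zero F hXB] at h1
    intro i hi
    have h2 := PowerSeries.X_pow_dvd_iff.1 h1 i (by omega)
    rw [map_sub, sub_eq_zero] at h2
    exact h2

end DeepLift

/-! ### The Artinian test rings `E₀ / 𝔪^(c+1)` -/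

section AA

lemma isAdicComplete_of_nilp {A : Type*} [CommRing A] [IsNoetherianRing A] [IsLocalRing A] (c : ℕ)
    (h : IsLocalRing.maximalIdeal A ^ (c + 1) = ⊥) : IsAdicComplete (IsLocalRing.maximalIdeal A) A := by
  have : IsArtinianRing A :=
    (isArtinianRing_iff_isNilpotent_maximalIdeal A).mpr ⟨c + 1, by simpa using h⟩
  infer_instance

variable (p n : ℕ) [Fact p.Prime]

/-- `𝔪^(c+1)` -/
noncomputable abbrev IE (c : ℕ) : Ideal (LTRing p n) := IsLocalRing.maximalIdeal (LTRing p n) ^ (c + 1)

/-- `E₀ / 𝔪^(c+1)` -/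
abbrev AA (c : ℕ) : Type := LTRing p n ⧸ IE p n c

lemma IE_le (c : ℕ) : IE p n c ≤ IsLocalRing.maximalIdeal (LTRing p n) :=
  Ideal.pow_le_self (by omega)

instance (c : ℕ) : Nontrivial (AA p n c) :=
  Ideal.Quotient.nontrivial_iff.2 fun h => by
    have := IE_le p n c
    rw [h] at this
    exact (IsLocalRing.maximalIdeal.isMaximal (LTRing p n)).ne_top (top_le_iff.1 this)

instance (c : ℕ) : IsLocalRing (AA p n c) :=
  IsLocalRing.of_surjective' (Ideal.Quotient.mk (IE p n c)) Ideal.Quotient.mk_surjective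

lemma maximalIdeal_AA_le (c : ℕ) : IsLocalRing.maximalIdeal (AA p n c) ≤
    (IsLocalRing.maximalIdeal (LTRing p n)).map (Ideal.Quotient.mk (IE p n c)) := by
  intro x hx
  obtain ⟨y, rfl⟩ := Ideal.Quotient.mk_surjective x
  refine Ideal.mem_map_of_mem _ ?_
  rw [IsLocalRing.mem_maximalIdeal] at hx ⊢
  intro hy
  exact hx (hy.map _)

lemma maximalIdeal_AA_pow (c : ℕ) : IsLocalRing.maximalIdeal (AA p n c) ^ (c + 1) = ⊥ := by
  rw [eq_bot_iff]
  refine (Ideal.pow_right_mono (maximalIdeal_AA_le p n c) (c + 1)).trans ?_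
  rw [← Ideal.map_pow, Ideal.map_quotient_self]

/-- residue map of `E₀ / 𝔪^(c+1)` -/
noncomputable def resAA (c : ℕ) : AA p n c →+* GaloisField p n :=
  Ideal.Quotient.lift (IE p n c) (LTRing.residue p n) fun a ha => by
    rw [← RingHom.mem_ker, ker_residue]
    exact IE_le p n c ha

@[simp] lemma resAA_mk (c : ℕ) (a : LTRing p n) :
    resAA p n c (Ideal.Quotient.mk (IE p n c) a) = LTRing.residue p n a := by
  simp [resAA]

lemma resAA_comp (c : ℕ) : (resAA p n c).comp (Ideal.Quotient.mk (IE p n c)) = LTRing.residue p n :=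
  RingHom.ext fun a => resAA_mk p n c a

/-- `E₀ / 𝔪^(c+1)` is a test ring. -/
noncomputable def testAA (c : ℕ) : TestData p n (AA p n c) where
  complete := isAdicComplete_of_nilp c (maximalIdeal_AA_pow p n c)
  r := resAA p n c
  surj := by
    intro x
    obtain ⟨y, hy⟩ := residue_surjective p n x
    exact ⟨Ideal.Quotient.mk _ y, by rw [resAA_mk, hy]⟩
  ker := by
    ext x
    obtain ⟨y, rfl⟩ := Ideal.Quotient.mk_surjective x
    rw [RingHom.mem_ker, resAA_mk, IsLocalRing.mem_maximalIdeal, mem_nonunits_iff]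
    constructor
    · intro h h2
      have : y ∈ IsLocalRing.maximalIdeal (LTRing p n) := by
        rw [← ker_residue]; exact h
      have h3 : Ideal.Quotient.mk (IE p n c) y ∈ (IsLocalRing.maximalIdeal (LTRing p n)).map
          (Ideal.Quotient.mk (IE p n c)) := Ideal.mem_map_of_mem _ this
      -- the image of the maximal ideal is proper
      have h4 : (IsLocalRing.maximalIdeal (LTRing p n)).map (Ideal.Quotient.mk (IE p n c)) = ⊤ :=
        Ideal.eq_top_of_isUnit_mem _ h3 h2
      have h5 := Ideal.comap_map_of_surjective (Ideal.Quotient.mk (IE p n c))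
        Ideal.Quotient.mk_surjective (IsLocalRing.maximalIdeal (LTRing p n))
      rw [h4, Ideal.comap_top] at h5
      have h6 : (IsLocalRing.maximalIdeal (LTRing p n)) ⊔
          Ideal.comap (Ideal.Quotient.mk (IE p n c)) ⊥ = IsLocalRing.maximalIdeal (LTRing p n) := by
        rw [← RingHom.ker_eq_comap_bot, Ideal.mk_ker]
        exact sup_eq_left.2 (IE_le p n c)
      rw [h6] at h5
      exact (IsLocalRing.maximalIdeal.isMaximal (LTRing p n)).ne_top h5.symm
    · intro h
      by_contra hne
      apply h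
      have : y ∉ IsLocalRing.maximalIdeal (LTRing p n) := by
        rw [← ker_residue]; exact hne
      rw [IsLocalRing.mem_maximalIdeal, mem_nonunits_iff, not_not] at this
      exact this.map _
  comp := by
    ext x
    have : (resAA p n c).comp (algebraMap (WittVector p (GaloisField p n)) (AA p n c)) x =
        (LTRing.residue p n).comp (algebraMap (WittVector p (GaloisField p n)) (LTRing p n)) x :=
      resAA_mk p n c _
    rw [this, residue_comp_algebraMap]

end AA

/-! ### The deep theorem -/

section DeepThm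

variable {p n : ℕ} [Fact p.Prime]
variable {Γ : FormalGroup (GaloisField p n)} {H : FormalGroup (LTRing p n)}

/-- The deep theorem for `𝔪^(c+1)`. -/
theorem deep_core [Γ.IsComm] [H.IsComm] (hU : IsUniversalDeformation p n Γ H) (hn : 1 ≤ n)
    (hΓ : mulSeries Γ p = PowerSeries.X ^ (p ^ n)) (c N : ℕ)
    {g : PowerSeries (GaloisField p n)} (hg : IsFGAut Γ g)
    (hcong : CongX (p ^ (n * c) * (N + 1)) g)
    {φ : LTRing p n →ₐ[WittVector p (GaloisField p n)] LTRing p n}
    (hφ : (LTRing.residue p n).comp φ.toRingHom = LTRing.residue p n)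
    {θ : PowerSeries (LTRing p n)} (hθ : IsFGHom (H.map φ.toRingHom) H θ)
    (hθr : PowerSeries.map (LTRing.residue p n) θ = g) :
    (∀ a, φ a - a ∈ IE p n c) ∧
      ∀ i, i < N → PowerSeries.coeff i θ - PowerSeries.coeff i (PowerSeries.X : PowerSeries (LTRing p n))
        ∈ IE p n c := by
  classical
  set T := testAA p n c with hT
  set π : LTRing p n →ₐ[WittVector p (GaloisField p n)] AA p n c :=
    Ideal.Quotient.mkₐ _ (IE p n c) with hπ
  have hπr : T.r.comp π.toRingHom = LTRing.residue p n := resAA_comp p n c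
  set F : FormalGroup (AA p n c) := H.map π.toRingHom with hF
  have hFr : F.map T.r = Γ := by
    rw [hF, fg_map_map, hπr]
    exact hU.1
  have : F.IsComm := LogLaw.isComm_map _ _
  obtain ⟨g', hg'h, hg'r, hg'c⟩ := exists_deep_lift T hn Γ hΓ F hFr c (maximalIdeal_AA_pow p n c) N hg hcong
  -- the comparison map
  have hφ' : T.r.comp (π.comp φ).toRingHom = LTRing.residue p n := by
    ext a
    have e1 := congrArg (fun f => f a) hφ
    have e2 := congrArg (fun f => f (φ a)) hπr
    simp only [RingHom.comp_apply] at e1 e2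
    exact e2.trans e1
  have hmapθ : IsFGHom (H.map (π.comp φ).toRingHom) F (PowerSeries.map π.toRingHom θ) := by
    have h2 := hθ.map π.toRingHom
    rwa [fg_map_map] at h2
  have hθ'r : PowerSeries.map T.r (PowerSeries.map π.toRingHom θ) = g := by
    rw [← hθr]
    ext i
    rw [PowerSeries.coeff_map, PowerSeries.coeff_map, PowerSeries.coeff_map]
    exact congrArg (fun f => f (PowerSeries.coeff i θ)) hπr
  have heq : π.comp φ = π := unique_of_hom hU T hφ' hπr hmapθ hg'h
    (hθ'r.trans hg'r.symm) (by rw [hg'r]; exact hg.2)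
  have hmem : ∀ a, φ a - a ∈ IE p n c := by
    intro a
    have := congrArg (fun f => f a) heq
    exact Ideal.Quotient.eq.1 this
  refine ⟨hmem, ?_⟩
  -- rigidity
  have hu' : IsUnit (PowerSeries.coeff 1 g') := by
    apply T.isUnit_of_r
    rw [← PowerSeries.coeff_map, hg'r]
    exact hg.2
  have hθF : IsFGHom F F (PowerSeries.map π.toRingHom θ) := by
    have : H.map (π.comp φ).toRingHom = F := by rw [heq]
    rwa [this] at hmapθ
  have hDh : IsFGHom F F (cmp (sInv g' hu') (PowerSeries.map π.toRingHom θ)) :=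
    (hg'h.inv hu').comp hθF
  have hP : PowerSeries.map T.r (mulSeries F p) = PowerSeries.X ^ (p ^ n) := by
    rw [← mulSeries_map, hFr, hΓ]
  have hDr : PowerSeries.map T.r (cmp (sInv g' hu') (PowerSeries.map π.toRingHom θ)) =
      PowerSeries.X := by
    rw [map_cmp T.r hθF.1, hθ'r, map_sInv T.r hu' hg'h.1]
    rw [← hg'r]
    exact cmp_sInv' _ (constantCoeff_map' T.r hg'h.1) _
  have hD := rigid F T.r p (by
      rw [RingHom.mem_ker, map_natCast]
      exact CharP.cast_eq_zero _ p) c (by rw [T.ker]; exact maximalIdeal_AA_pow p n c) (p ^ n)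
      (Nat.one_le_iff_ne_zero.2 (prime_pow_ne_zero p n)) hP hDh hDr
  have hθg : PowerSeries.map π.toRingHom θ = g' := by
    have h1 := congrArg (cmp g') hD
    rw [← cmp_assoc (cc_sInv g' hu') hθF.1, cmp_sInv g' hg'h.1 hu', cmp_X_left hθF.1] at h1
    rw [h1]
    exact coeff_zero_cmp_X
  intro i hi
  have h1 := congrArg (PowerSeries.coeff i) hθg
  rw [PowerSeries.coeff_map, hg'c i hi] at h1
  rw [← Ideal.Quotient.eq_zero_iff_mem, map_sub, sub_eq_zero]
  refine h1.trans ?_
  simp [PowerSeries.coeff_X, apply_ite (Ideal.Quotient.mk (IE p n c))]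

/-- The map attached to an automorphism. -/
noncomputable def stabφ (hU : IsUniversalDeformation p n Γ H) (g : PowerSeries (GaloisField p n)) :
    LTRing p n →ₐ[WittVector p (GaloisField p n)] LTRing p n :=
  by
    classical
    exact if hg : IsFGAut Γ g then (exists_stab hU hg).choose else AlgHom.id _ _

lemma stabφ_spec (hU : IsUniversalDeformation p n Γ H) {g : PowerSeries (GaloisField p n)}
    (hg : IsFGAut Γ g) : IsStabilizerMap p n H g (stabφ hU g) := by
  rw [stabφ, dif_pos hg]
  exact (exists_stab hU hg).choose_spec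

/-- The homomorphism attached to an automorphism. -/
noncomputable def stabθ (hU : IsUniversalDeformation p n Γ H) (g : PowerSeries (GaloisField p n)) :
    PowerSeries (LTRing p n) :=
  by
    classical
    exact if hg : IsFGAut Γ g then (stabφ_spec hU hg).2.choose else PowerSeries.X

lemma stabθ_spec (hU : IsUniversalDeformation p n Γ H) {g : PowerSeries (GaloisField p n)}
    (hg : IsFGAut Γ g) : IsFGHom (H.map (stabφ hU g).toRingHom) H (stabθ hU g) ∧
      PowerSeries.map (LTRing.residue p n) (stabθ hU g) = g := by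
  rw [stabθ, dif_pos hg]
  exact (stabφ_spec hU hg).2.choose_spec

/-- The deep action attached to a universal deformation. -/
noncomputable def deepActionOf [Γ.IsComm] [H.IsComm] (hU : IsUniversalDeformation p n Γ H) (hn : 1 ≤ n)
    (hΓ : mulSeries Γ p = PowerSeries.X ^ (p ^ n)) :
    DeepAction (LTRing.residue p n) (IsLocalRing.maximalIdeal (LTRing p n)) Γ H where
  φ g := (stabφ hU g).toRingHom
  θ g := stabθ hU g
  hom g hg := (stabθ_spec hU hg).1
  red g hg := (stabθ_spec hU hg).2
  res_φ g hg := (stabφ_spec hU hg).1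
  comp g g' hg hg' := by
    have h1 := stab_comp (stabφ_spec hU hg) (stabφ_spec hU hg')
    have h2 := stab_unique hU (hg'.comp hg) (stabφ_spec hU (hg'.comp hg)) h1
    rw [h2]
    rfl
  one := by
    have h2 := stab_unique hU (isFGAut_X Γ) (stabφ_spec hU (isFGAut_X Γ)) stab_id
    rw [h2]
    rfl
  deep c N := by
    cases c with
    | zero =>
      refine ⟨0, fun g _ _ => ⟨fun a => ?_, fun i _ => ?_⟩⟩ <;> simp
    | succ c =>
      refine ⟨p ^ (n * c) * (N + 1), fun g hg hcong => ?_⟩
      exact deep_core hU hn hΓ c N hg hcong (stabφ_spec hU hg).1 (stabθ_spec hU hg).1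
        (stabθ_spec hU hg).2

lemma deepActionOf_φ [Γ.IsComm] [H.IsComm] (hU : IsUniversalDeformation p n Γ H) (hn : 1 ≤ n)
    (hΓ : mulSeries Γ p = PowerSeries.X ^ (p ^ n)) {g : PowerSeries (GaloisField p n)}
    (hg : IsFGAut Γ g) {φ : LTRing p n →ₐ[WittVector p (GaloisField p n)] LTRing p n}
    (hφ : IsStabilizerMap p n H g φ) : (deepActionOf hU hn hΓ).φ g = φ.toRingHom := by
  have h2 := stab_unique hU hg (stabφ_spec hU hg) hφ
  show (stabφ hU g).toRingHom = _
  rw [h2]

end DeepThm

end Crest.Agent.LT
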