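/-
A4: Hazewinkel and Honda laws (BLUEPRINT §A4).
-/
import Crest.Agent.Lib.LT.Core
import Crest.Agent.Lib.LT.FE
import Crest.Agent.Lib.LT.LogLaw

set_option autoImplicit false
set_option linter.unusedSectionVars false

namespace Crest.Agent.LT

open Crest.LubinTate

open Finset in
/-- Triangle reindexing. -/
lemma sum_triangle {M : Type*} [AddCommMonoid M] (m : ℕ) (f : ℕ → ℕ → M) :
    ∑ i ∈ range m, ∑ a ∈ range (m - i), f i a =
      ∑ b ∈ range m, ∑ i ∈ range (b + 1), f i (b - i) := by
  rw [Finset.sum_sigma', Finset.sum_sigma']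
  refine Finset.sum_nbij' (fun x => ⟨x.1 + x.2, x.1⟩) (fun x => ⟨x.2, x.1 - x.2⟩) ?_ ?_ ?_ ?_ ?_
  · rintro ⟨i, a⟩ h
    simp only [mem_sigma, mem_range] at h ⊢
    omega
  · rintro ⟨b, i⟩ h
    simp only [mem_sigma, mem_range] at h ⊢
    omega
  · rintro ⟨i, a⟩ h
    simp
  · rintro ⟨b, i⟩ h
    simp only [mem_sigma, mem_range] at h
    simp only [Sigma.mk.injEq]
    have : i + (b - i) = b := by omega
    simp [this]
  · rintro ⟨i, a⟩ h
    simp

variable (p : ℕ) [hp : Fact p.Prime]

/-! ### Parameters `v_j` and log coefficients -/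

section Haze

variable (n : ℕ)

/-- The parameters: `v_j = X_{j-1}` for `1 ≤ j < n`, `v_n = 1`, `v_j = 0` for `j > n`. -/
noncomputable def vv (T : Type*) [CommRing T] (j : ℕ) : MvPolynomial (Fin (n - 1)) T :=
  if h : 1 ≤ j ∧ j < n then MvPolynomial.X ⟨j - 1, by omega⟩ else if j = n then 1 else 0

lemma vv_large (T : Type*) [CommRing T] (j : ℕ) (hj : n < j) : vv n T j = 0 := by
  unfold vv
  rw [dif_neg (by omega), if_neg (by omega)]

lemma map_vv {T T' : Type*} [CommRing T] [CommRing T'] (f : T →+* T') (j : ℕ) :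
    MvPolynomial.map f (vv n T j) = vv n T' j := by
  unfold vv
  split_ifs <;> simp

lemma expand_vv (T : Type*) [CommRing T] (j k : ℕ) (hk : k ≠ 0) :
    MvPolynomial.expand k (vv n T j) = vv n T j ^ k := by
  unfold vv
  split_ifs
  · simp
  · simp
  · simp [hk]

/-- Coefficients `ℓ_m ∈ ℚ[v_1..v_{n-1}]` of the logarithm: `ℓ_0 = 1`,
`p ℓ_m = ∑_{a<m} ℓ_a v_{m-a}^(p^a)` with `v_n = 1`, `v_i = 0` for `i>n`; variable `X i` is `v_{i+1}`. -/
noncomputable def hazeLogCoeff : ℕ → MvPolynomial (Fin (n - 1)) ℚ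
  | 0 => 1
  | m + 1 => MvPolynomial.C (1 / (p : ℚ)) *
      ∑ a : Fin (m + 1), hazeLogCoeff a.1 * vv n ℚ (m + 1 - a.1) ^ (p ^ a.1)
decreasing_by exact a.2

lemma hazeLogCoeff_zero : hazeLogCoeff p n 0 = 1 := by
  rw [hazeLogCoeff]

lemma hazeLogCoeff_succ (m : ℕ) : hazeLogCoeff p n (m + 1) = MvPolynomial.C (1 / (p : ℚ)) *
    ∑ a ∈ Finset.range (m + 1), hazeLogCoeff p n a * vv n ℚ (m + 1 - a) ^ (p ^ a) := by
  rw [hazeLogCoeff, Fin.sum_univ_eq_sum_range
    (fun a => hazeLogCoeff p n a * vv n ℚ (m + 1 - a) ^ (p ^ a))]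

/-- The recursion of the log coefficients: `p ℓ_{m+1} = ∑_{a ≤ m} ℓ_a v_{m+1-a}^(p^a)`. -/
theorem hazeLogCoeff_rec (m : ℕ) : (p : MvPolynomial (Fin (n - 1)) ℚ) * hazeLogCoeff p n (m + 1) =
    ∑ a ∈ Finset.range (m + 1), hazeLogCoeff p n a * vv n ℚ (m + 1 - a) ^ (p ^ a) := by
  have hpC : (p : MvPolynomial (Fin (n - 1)) ℚ) * MvPolynomial.C (1 / (p : ℚ)) = 1 := by
    have : (p : MvPolynomial (Fin (n - 1)) ℚ) = MvPolynomial.C (p : ℚ) := by simp
    rw [this, ← map_mul, mul_one_div_cancel (by exact_mod_cast hp.out.ne_zero), map_one]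
  rw [hazeLogCoeff_succ, ← mul_assoc, hpC, one_mul]

/-- The first form of the recursion. -/
lemma hazeLogCoeff_first (m : ℕ) : hazeLogCoeff p n (m + 1) =
    ∑ i ∈ Finset.range (m + 1), MvPolynomial.C (1 / (p : ℚ)) * vv n ℚ (i + 1) *
      MvPolynomial.expand (p ^ (i + 1)) (hazeLogCoeff p n (m - i)) := by
  induction m using Nat.strong_induction_on with
  | _ m ih =>
    have hp0 : ∀ k, p ^ k ≠ 0 := fun k => pow_ne_zero k hp.out.ne_zero
    set P := MvPolynomial.C (σ := Fin (n - 1)) (1 / (p : ℚ)) with hP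
    -- expand the terms with `i < m`
    have h1 : ∀ i ∈ Finset.range m, P * vv n ℚ (i + 1) *
        MvPolynomial.expand (p ^ (i + 1)) (hazeLogCoeff p n (m - i)) =
        ∑ a ∈ Finset.range (m - i), P * (P * vv n ℚ (i + 1) *
          MvPolynomial.expand (p ^ (i + 1)) (hazeLogCoeff p n a)) *
            vv n ℚ (m - i - a) ^ (p ^ (a + i + 1)) := by
      intro i hi
      have hi' : i < m := Finset.mem_range.mp hi
      obtain ⟨r, hr⟩ : ∃ r, m - i = r + 1 := ⟨m - i - 1, by omega⟩
      rw [hr, hazeLogCoeff_succ, map_mul, MvPolynomial.expand_C, map_sum, Finset.mul_sum,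
        ← hP, Finset.mul_sum]
      refine Finset.sum_congr rfl fun a ha => ?_
      rw [map_mul, map_pow, expand_vv n ℚ _ _ (hp0 _), ← pow_mul, ← pow_add]
      have : i + 1 + a = a + i + 1 := by omega
      rw [this]
      ring
    rw [Finset.sum_range_succ, hazeLogCoeff_succ p n m, Finset.sum_range_succ' _ m, ← hP]
    rw [Finset.sum_congr rfl h1, sum_triangle, mul_add, Finset.mul_sum]
    simp only [hazeLogCoeff_zero, pow_zero, pow_one, map_one, mul_one, one_mul, Nat.sub_zero,
      Nat.sub_self]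
    congr 1
    · refine Finset.sum_congr rfl fun b hb => ?_
      have hb' : b < m := Finset.mem_range.mp hb
      rw [ih b hb', Finset.sum_mul, Finset.mul_sum]
      refine Finset.sum_congr rfl fun i hi => ?_
      have hi' : i < b + 1 := Finset.mem_range.mp hi
      have e1 : m - i - (b - i) = m + 1 - (b + 1) := by omega
      have e2 : b - i + i + 1 = b + 1 := by omega
      rw [e1, e2]
      ring

/-- The functional equation data for the Hazewinkel law over `ℤ[v]`. -/
noncomputable def hazeData : FE.Data p (MvPolynomial (Fin (n - 1)) ℤ)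
    (MvPolynomial (Fin (n - 1)) ℚ) (MvPolynomial (Fin (n - 1)) (ZMod p)) where
  ι := MvPolynomial.map (Int.castRingHom ℚ)
  ι_inj := MvPolynomial.map_injective _ Int.cast_injective
  π := MvPolynomial.C (1 / (p : ℚ))
  π_mul := by
    have : ((p : ℕ) : MvPolynomial (Fin (n - 1)) ℚ) = MvPolynomial.C (p : ℚ) := by simp
    rw [this, ← map_mul, one_div, inv_mul_cancel₀ (by exact_mod_cast hp.out.ne_zero), map_one]
  σA := (MvPolynomial.expand p).toRingHom
  σ := (MvPolynomial.expand p).toRingHom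
  σ_ι a := by simp [MvPolynomial.map_expand]
  red := MvPolynomial.map (Int.castRingHom (ZMod p))
  red_ker x hx := by
    obtain ⟨y, hy⟩ := (MvPolynomial.C_dvd_iff_zmod p x).mpr hx
    exact ⟨y, by rw [hy]; simp⟩
  red_σ a := by
    show MvPolynomial.map _ (MvPolynomial.expand p a) = _
    rw [MvPolynomial.map_expand, MvPolynomial.expand_zmod]
  N := n
  w := vv n ℤ
  c := hazeLogCoeff p n
  c_zero := hazeLogCoeff_zero p n
  c_succ m := by
    rw [hazeLogCoeff_first]
    refine Finset.sum_congr rfl fun i _ => ?_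
    rw [map_vv]
    congr 1
    generalize hazeLogCoeff p n (m - i) = x
    generalize i + 1 = k
    clear * -
    induction k generalizing x with
    | zero => simp
    | succ k ih =>
      simp only [RingHom.coe_pow, Function.iterate_succ_apply'] at ih ⊢
      rw [pow_succ', MvPolynomial.expand_mul, ih]
      rfl
  w_large i hi := vv_large n ℤ i hi

end Haze

/-! ### The law attached to functional equation data -/

section LawA

open LogLaw

variable {p} {A R Ā : Type*} [CommRing A] [CommRing R] [CommRing Ā] [CharP Ā p]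
  (D : FE.Data p A R Ā)

lemma isLog_L : IsLog (FE.L p D.c) := by
  have hp1 : 1 < p := hp.out.one_lt
  refine ⟨FE.constantCoeff_L hp1 _, ?_⟩
  have := FE.coeff_L_pow hp1 D.c 0
  rwa [pow_zero, D.c_zero] at this

/-- `l(X_j) - ∑ π w_i Φ_i l(X_j) = X_j`. -/
lemma subst_L_X {τ : Type*} (j : τ) :
    PowerSeries.subst (MvPowerSeries.X j : MvPowerSeries τ R) (FE.L p D.c) -
      ∑ i ∈ Finset.Icc 1 D.N, MvPowerSeries.C (D.π * D.ι (D.w i)) *
        D.Φ i (PowerSeries.subst (MvPowerSeries.X j : MvPowerSeries τ R) (FE.L p D.c)) =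
      MvPowerSeries.X j := by
  have h := D.subst_L (MvPowerSeries.X j : MvPowerSeries τ R) (by simp)
  have h2 : ∀ i, D.Φ i (PowerSeries.subst (MvPowerSeries.X j : MvPowerSeries τ R) (FE.L p D.c)) =
      PowerSeries.subst ((MvPowerSeries.X j : MvPowerSeries τ R) ^ p ^ i)
        (FE.L p fun m => (D.σ ^ i) (D.c m)) := by
    intro i
    rw [D.Φ_subst i _ (by simp)]
    congr 1
    unfold FE.Data.Φ
    rw [MvPowerSeries.map_X, MvPowerSeries.expand_X]
  simp only [h2]
  rw [h]
  ring

/-- Integrality of the law with logarithm `L c`. -/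
lemma coeff_lawSeries_mem (e : Fin 2 →₀ ℕ) :
    MvPowerSeries.coeff e (isLog_L D).lawSeries ∈ D.ι.range := by
  refine D.integral_of_subst_L _ _ (isLog_L D).lawSeries_const (isLog_L D).l_lawSeries ?_ e
  intro e
  have hΦ : ∀ i (a b : MvPowerSeries (Fin 2) R), D.Φ i (a + b) = D.Φ i a + D.Φ i b := by
    intro i a b
    unfold FE.Data.Φ
    rw [map_add, map_add]
  simp only [hΦ, mul_add, Finset.sum_add_distrib]
  have : ∀ (a b c d : MvPowerSeries (Fin 2) R), a + b - (c + d) = (a - c) + (b - d) := by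
    intros; ring
  rw [this, subst_L_X, subst_L_X, map_add]
  refine add_mem ?_ ?_
  · classical
    rw [MvPowerSeries.coeff_X]
    split_ifs
    · exact ⟨1, map_one _⟩
    · exact ⟨0, map_zero _⟩
  · classical
    rw [MvPowerSeries.coeff_X]
    split_ifs
    · exact ⟨1, map_one _⟩
    · exact ⟨0, map_zero _⟩

lemma exists_lawA : ∃ G : MvPowerSeries (Fin 2) A,
    MvPowerSeries.map D.ι G = (isLog_L D).law.toPowerSeries := by
  choose g hg using fun e => coeff_lawSeries_mem D e
  obtain ⟨G, hG⟩ : ∃ G : MvPowerSeries (Fin 2) A, ∀ e, MvPowerSeries.coeff e G = g e :=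
    ⟨fun e => g e, fun e => rfl⟩
  refine ⟨G, ?_⟩
  ext e
  rw [MvPowerSeries.coeff_map, hG, hg]
  rfl

/-- The formal group law over `A`. -/
noncomputable def lawA : FormalGroup A :=
  ofMap D.ι D.ι_inj (isLog_L D).law (Classical.choose (exists_lawA D))
    (Classical.choose_spec (exists_lawA D))

lemma lawA_map : (lawA D).map D.ι = (isLog_L D).law := by
  ext1
  exact Classical.choose_spec (exists_lawA D)

lemma lawA_comm : (lawA D).IsComm :=
  isComm_of_map D.ι D.ι_inj _ (by rw [lawA_map]; exact IsLog.law_comm _)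

end LawA

open LogLaw

/-! ### The Hazewinkel law over `ℤ[v]` and `E₀` -/

section HazeLaw

variable (n : ℕ)

/-- The Hazewinkel law over `ℤ[v]`. -/
noncomputable def hazeA : FormalGroup (MvPolynomial (Fin (n - 1)) ℤ) := lawA (hazeData p n)

instance hazeA_comm : (hazeA p n).IsComm := lawA_comm _

/-- The logarithm over `ℚ[v]`. -/
noncomputable abbrev hazeLog : PowerSeries (MvPolynomial (Fin (n - 1)) ℚ) :=
  FE.L p (hazeLogCoeff p n)

lemma hazeLog_isLog : IsLog (hazeLog p n) := isLog_L (hazeData p n)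

lemma hazeA_map : (hazeA p n).map (MvPolynomial.map (Int.castRingHom ℚ)) =
    (hazeLog_isLog p n).law := lawA_map (hazeData p n)

/-- The map `ℤ[v] → E₀`. -/
noncomputable def toE0 : MvPolynomial (Fin (n - 1)) ℤ →+* LTRing p n :=
  MvPolynomial.eval₂Hom (Int.castRingHom _) fun i => MvPowerSeries.X i

/-- The Hazewinkel law over `E₀` (variable `X i` of `LTRing` ↔ `v_{i+1}`). -/
noncomputable def hazeE0 : FormalGroup (LTRing p n) := (hazeA p n).map (toE0 p n)

instance hazeE0_comm : (hazeE0 p n).IsComm := isComm_map _ _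

open Classical in
/-- The logarithm at a point of a field of characteristic zero. -/
noncomputable def logAt {K : Type*} [Field K] [CharZero K] (y : Fin (n - 1) → K) : PowerSeries K :=
  PowerSeries.mk fun i =>
    if ∃ m, i = p ^ m then
      MvPolynomial.aeval y (hazeLogCoeff p n (Nat.log p i)) else 0

lemma logAt_eq {K : Type*} [Field K] [CharZero K] (y : Fin (n - 1) → K) :
    logAt p n y = PowerSeries.map (MvPolynomial.aeval y : _ →ₐ[ℚ] K).toRingHom (hazeLog p n) := by
  classical
  have hp1 : 1 < p := hp.out.one_lt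
  ext i
  rw [PowerSeries.coeff_map]
  unfold logAt
  rw [PowerSeries.coeff_mk]
  by_cases h : ∃ m, i = p ^ m
  · rw [if_pos h]
    obtain ⟨m, rfl⟩ := h
    rw [FE.coeff_L_pow hp1, Nat.log_pow hp1]
    rfl
  · rw [if_neg h, FE.coeff_L_of_ne _ _ (fun m hm => h ⟨m, hm⟩), map_zero]

/-- (L1) `log` of the Hazewinkel law at any point `ψ : E₀ → K`, `K` of characteristic zero. -/
theorem logAt_hom {K : Type*} [Field K] [CharZero K] (ψ : LTRing p n →+* K) :
    IsFGHom ((hazeE0 p n).map ψ) FormalGroup.𝔾ₐ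
      (logAt p n fun i => ψ (MvPowerSeries.X i)) := by
  set y : Fin (n - 1) → K := fun i => ψ (MvPowerSeries.X i) with hy
  set η : MvPolynomial (Fin (n - 1)) ℚ →+* K := (MvPolynomial.aeval y : _ →ₐ[ℚ] K).toRingHom
    with hη
  have hcomp : (ψ.comp (toE0 p n)) = η.comp (MvPolynomial.map (Int.castRingHom ℚ)) := by
    apply MvPolynomial.ringHom_ext
    · intro r
      simp
    · intro i
      simp [toE0, hη, hy]
  have hlaw : (hazeE0 p n).map ψ = (hazeLog_isLog p n).law.map η := by
    rw [← hazeA_map]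
    ext e
    simp only [hazeE0, FormalGroup.map_toPowerSeries, MvPowerSeries.coeff_map]
    rw [← RingHom.comp_apply, hcomp]
    rfl
  rw [hlaw, IsLog.map_law, logAt_eq]
  have hl := (hazeLog_isLog p n).map η
  refine ⟨?_, ?_⟩
  · exact hl.zero
  · show PowerSeries.subst hl.lawSeries _ = _
    rw [hl.l_lawSeries]
    simp only [FormalGroup.𝔾ₐ_toPowerSeries]
    have hX : ∀ i : Fin 2, MvPowerSeries.constantCoeff
        (PowerSeries.subst (MvPowerSeries.X i : MvPowerSeries (Fin 2) K)
          (PowerSeries.map η (hazeLog p n))) = 0 := fun i =>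
      hl.const_subst_l (by simp)
    rw [MvPowerSeries.subst_add (hasSubst_pair (hX 0) (hX 1)),
      subst_pair_X0 (hX 0) (hX 1), subst_pair_X1 (hX 0) (hX 1)]

end HazeLaw

/-! ### The Honda law -/

section HondaLaw

variable (m : ℕ)

/-- The Honda law over `ℤ`. -/
noncomputable def hondaZ : FormalGroup ℤ := (hazeA p m).map MvPolynomial.constantCoeff

instance hondaZ_comm : (hondaZ p m).IsComm := isComm_map _ _

/-- The Honda law of height `m` (`log = ∑ X^(q^i)/p^i`, `q = p^m`) over a ring of characteristic `p`. -/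
noncomputable def honda (m : ℕ) (C : Type*) [CommRing C] [CharP C p] : FormalGroup C :=
  (hondaZ p m).map (Int.castRingHom C)

instance honda_comm (m : ℕ) (C : Type*) [CommRing C] [CharP C p] : (honda p m C).IsComm :=
  isComm_map _ _

theorem honda_map (m : ℕ) {C D : Type*} [CommRing C] [CommRing D] [CharP C p] [CharP D p]
    (f : C →+* D) : (honda p m C).map f = honda p m D := by
  ext e
  simp [honda]

/-- The coefficients of the Honda logarithm. -/
noncomputable def hondaLogCoeff (j : ℕ) : ℚ := MvPolynomial.constantCoeff (hazeLogCoeff p m j)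

lemma constantCoeff_vv (hm : 1 ≤ m) (j : ℕ) (hj : 1 ≤ j) :
    MvPolynomial.constantCoeff (vv m ℚ j) = if j = m then 1 else 0 := by
  unfold vv
  split_ifs with h1 h2 h2 <;> first | omega | simp

lemma hondaLogCoeff_zero : hondaLogCoeff p m 0 = 1 := by
  simp [hondaLogCoeff, hazeLogCoeff_zero]

lemma hondaLogCoeff_succ (hm : 1 ≤ m) (k : ℕ) : hondaLogCoeff p m (k + 1) =
    (1 / (p : ℚ)) * if m ≤ k + 1 then hondaLogCoeff p m (k + 1 - m) else 0 := by
  classical
  have hp0 : ∀ a, p ^ a ≠ 0 := fun a => pow_ne_zero a hp.out.ne_zero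
  unfold hondaLogCoeff
  rw [hazeLogCoeff_succ, map_mul, map_sum, MvPolynomial.constantCoeff_C]
  congr 1
  have hterm : ∀ a ∈ Finset.range (k + 1),
      MvPolynomial.constantCoeff (hazeLogCoeff p m a * vv m ℚ (k + 1 - a) ^ p ^ a) =
        if a + m = k + 1 then MvPolynomial.constantCoeff (hazeLogCoeff p m a) else 0 := by
    intro a ha
    have ha' : a < k + 1 := Finset.mem_range.mp ha
    rw [map_mul, map_pow, constantCoeff_vv m hm _ (by omega)]
    by_cases h : a + m = k + 1
    · rw [if_pos (by omega), if_pos h]; simp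
    · rw [if_neg (by omega), if_neg h, zero_pow (hp0 a), mul_zero]
  rw [Finset.sum_congr rfl hterm]
  by_cases h : m ≤ k + 1
  · rw [if_pos h, Finset.sum_eq_single (k + 1 - m)]
    · rw [if_pos (by omega)]
    · intro b _ hb
      rw [if_neg (by omega)]
    · intro hb
      exfalso
      apply hb
      exact Finset.mem_range.mpr (by omega)
  · rw [if_neg h]
    exact Finset.sum_eq_zero fun a _ => by rw [if_neg (by omega)]

lemma hondaLogCoeff_low (hm : 1 ≤ m) (j : ℕ) (h0 : 0 < j) (hj : j < m) :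
    hondaLogCoeff p m j = 0 := by
  obtain ⟨k, rfl⟩ : ∃ k, j = k + 1 := ⟨j - 1, by omega⟩
  rw [hondaLogCoeff_succ p m hm, if_neg (by omega), mul_zero]

/-- The functional equation data of the Honda logarithm over `ℤ ⊂ ℚ`. -/
noncomputable def hondaData (hm : 1 ≤ m) : FE.Data p ℤ ℚ (ZMod p) where
  ι := Int.castRingHom ℚ
  ι_inj := Int.cast_injective
  π := 1 / (p : ℚ)
  π_mul := by
    rw [one_div, inv_mul_cancel₀ (by exact_mod_cast hp.out.ne_zero)]
  σA := RingHom.id ℤ
  σ := RingHom.id ℚ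
  σ_ι _ := rfl
  red := Int.castRingHom (ZMod p)
  red_ker x hx := by
    obtain ⟨y, hy⟩ := (ZMod.intCast_zmod_eq_zero_iff_dvd x p).mp (by simpa using hx)
    exact ⟨y, hy⟩
  red_σ a := by simp [ZMod.pow_card]
  N := m
  w j := if j = m then 1 else 0
  c := hondaLogCoeff p m
  c_zero := hondaLogCoeff_zero p m
  c_succ k := by
    classical
    rw [hondaLogCoeff_succ p m hm]
    have hid : ∀ i : ℕ, (RingHom.id ℚ ^ i) = RingHom.id ℚ := fun i => one_pow i
    simp only [hid, RingHom.id_apply]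
    by_cases h : m ≤ k + 1
    · rw [if_pos h, Finset.sum_eq_single (m - 1)]
      · have e : m - 1 + 1 = m := by omega
        have e2 : k - (m - 1) = k + 1 - m := by omega
        rw [e, e2, if_pos rfl]
        simp
      · intro b _ hb
        rw [if_neg (by omega)]
        simp
      · intro hb
        exfalso
        apply hb
        exact Finset.mem_range.mpr (by omega)
    · rw [if_neg h, mul_zero]
      refine (Finset.sum_eq_zero fun a ha => ?_).symm
      have ha' : a < k + 1 := Finset.mem_range.mp ha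
      rw [if_neg (by omega)]
      simp
  w_large i hi := by
    rw [if_neg (by omega)]

lemma hazeLog_map_constantCoeff :
    PowerSeries.map MvPolynomial.constantCoeff (hazeLog p m) = FE.L p (hondaLogCoeff p m) :=
  FE.map_L _ _

lemma map_map_law {R S T : Type*} [CommRing R] [CommRing S] [CommRing T] (F : FormalGroup R)
    (f : R →+* S) (g : S →+* T) : (F.map f).map g = F.map (g.comp f) := by
  ext e
  simp

lemma IsLog_law_congr {R : Type*} [CommRing R] {l l' : PowerSeries R} (h : l = l') (hl : IsLog l)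
    (hl' : IsLog l') : hl.law = hl'.law := by
  subst h; rfl

lemma hondaLog_isLog (hm : 1 ≤ m) : IsLog (FE.L p (hondaLogCoeff p m)) :=
  isLog_L (hondaData p m hm)

/-- The Honda law base-changed to `ℚ` has the Honda logarithm. -/
lemma hondaZ_map (hm : 1 ≤ m) : (hondaZ p m).map (Int.castRingHom ℚ) = (hondaLog_isLog p m hm).law := by
  have hc : (Int.castRingHom ℚ).comp MvPolynomial.constantCoeff =
      (MvPolynomial.constantCoeff : MvPolynomial (Fin (m - 1)) ℚ →+* ℚ).comp
        (MvPolynomial.map (Int.castRingHom ℚ)) := by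
    apply MvPolynomial.ringHom_ext
    · intro r; simp
    · intro i; simp
  rw [hondaZ, map_map_law, hc, ← map_map_law, hazeA_map, IsLog.map_law]
  exact IsLog_law_congr (hazeLog_map_constantCoeff p m) _ _

lemma coeff_hondaZ_cast (hm : 1 ≤ m) (e : Fin 2 →₀ ℕ) :
    ((MvPowerSeries.coeff e (hondaZ p m).toPowerSeries : ℤ) : ℚ) =
      MvPowerSeries.coeff e (hondaLog_isLog p m hm).lawSeries := by
  have := congrArg (fun F : FormalGroup ℚ => MvPowerSeries.coeff e F.toPowerSeries)
    (hondaZ_map p m hm)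
  simp only [FormalGroup.map_toPowerSeries, MvPowerSeries.coeff_map] at this
  exact this

lemma coeff_honda (C : Type*) [CommRing C] [CharP C p] (e : Fin 2 →₀ ℕ) :
    MvPowerSeries.coeff e (honda p m C).toPowerSeries =
      ((MvPowerSeries.coeff e (hondaZ p m).toPowerSeries : ℤ) : C) := by
  simp [honda]

/-- `l = X + (order ≥ q)`. -/
lemma order_hondaLog_sub (hm : 1 ≤ m) :
    ((p ^ m : ℕ) : ℕ∞) ≤ (FE.L p (hondaLogCoeff p m) - PowerSeries.X).order := by
  classical
  have hp1 : 1 < p := hp.out.one_lt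
  refine PowerSeries.nat_le_order _ _ fun i hi => ?_
  rw [map_sub, PowerSeries.coeff_X]
  by_cases hpi : ∃ j, i = p ^ j
  · obtain ⟨j, rfl⟩ := hpi
    rw [FE.coeff_L_pow hp1]
    have hj : j < m := (Nat.pow_lt_pow_iff_right hp1).mp hi
    by_cases h0 : j = 0
    · subst h0
      simp [hondaLogCoeff_zero]
    · rw [hondaLogCoeff_low p m hm j (by omega) hj, if_neg, sub_zero]
      have : 1 < p ^ j := Nat.one_lt_pow h0 hp1
      omega
  · rw [FE.coeff_L_of_ne _ _ (fun j h => hpi ⟨j, h⟩), if_neg (fun h => hpi ⟨0, by simp [h]⟩),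
      sub_zero]

/-- (H1) the law is additive modulo degree `p^m`. -/
theorem honda_coeff_low (m : ℕ) (hm : 1 ≤ m) (C : Type*) [CommRing C] [CharP C p]
    (a b : ℕ) (ha : 1 ≤ a) (hb : 1 ≤ b) (hab : a + b < p ^ m) :
    MvPowerSeries.coeff (Finsupp.single (0 : Fin 2) a + Finsupp.single (1 : Fin 2) b)
      (honda p m C).toPowerSeries = 0 := by
  classical
  rw [coeff_honda]
  have hl := hondaLog_isLog p m hm
  set e := Finsupp.single (0 : Fin 2) a + Finsupp.single (1 : Fin 2) b with he
  have hdeg : e.degree = a + b := by simp [he, map_add]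
  have h := MvPowerSeries.coeff_of_lt_order (f := hl.lawSeries - MvPowerSeries.X 0 - MvPowerSeries.X 1)
    (d := e) (lt_of_lt_of_le (by rw [hdeg]; exact_mod_cast hab)
      (hl.order_lawSeries_sub _ (order_hondaLog_sub p m hm)))
  rw [map_sub, map_sub, MvPowerSeries.coeff_X, MvPowerSeries.coeff_X, if_neg, if_neg, sub_zero,
    sub_zero] at h
  · have h2 := coeff_hondaZ_cast p m hm e
    rw [h] at h2
    have : MvPowerSeries.coeff e (hondaZ p m).toPowerSeries = 0 := by exact_mod_cast h2
    rw [this]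
    simp
  · intro h'
    have := DFunLike.congr_fun h' 0
    simp [he] at this
    omega
  · intro h'
    have := DFunLike.congr_fun h' 1
    simp [he] at this
    omega

lemma hondaLogCoeff_dvd (hm : 1 ≤ m) (j : ℕ) (hj : ¬ m ∣ j) : hondaLogCoeff p m j = 0 := by
  induction j using Nat.strong_induction_on with
  | _ j ih =>
    obtain ⟨k, rfl⟩ : ∃ k, j = k + 1 := by
      cases j with
      | zero => exact absurd (dvd_zero m) hj
      | succ k => exact ⟨k, rfl⟩
    rw [hondaLogCoeff_succ p m hm]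
    split_ifs with h
    · rw [ih (k + 1 - m) (by omega), mul_zero]
      intro hd
      apply hj
      have e : k + 1 = (k + 1 - m) + m := by omega
      rw [e]
      exact Dvd.dvd.add hd (dvd_refl m)
    · simp

lemma zeta_pow_pow {K : Type*} [CommRing K] (ζ : K) (q : ℕ) (hq : 1 ≤ q) (hζ : ζ ^ (q - 1) = 1)
    (k : ℕ) : ζ ^ q ^ k = ζ := by
  induction k with
  | zero => simp
  | succ k ih =>
    rw [pow_succ, pow_mul, ih]
    obtain ⟨r, rfl⟩ : ∃ r, q = r + 1 := ⟨q - 1, by omega⟩
    rw [pow_succ, show r + 1 - 1 = r by omega] at *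
    rw [hζ, one_mul]

/-- (H2) only total degrees `≡ 1 mod (q-1)` occur. -/
theorem honda_coeff_grade (m : ℕ) (hm : 1 ≤ m) (C : Type*) [CommRing C] [CharP C p]
    (a b : ℕ) (hab : ¬ (p ^ m - 1) ∣ (a + b - 1)) :
    MvPowerSeries.coeff (Finsupp.single (0 : Fin 2) a + Finsupp.single (1 : Fin 2) b)
      (honda p m C).toPowerSeries = 0 := by
  classical
  have hp1 : 1 < p := hp.out.one_lt
  have hq : 1 < p ^ m := Nat.one_lt_pow (by omega) hp1
  rw [coeff_honda]
  set e := Finsupp.single (0 : Fin 2) a + Finsupp.single (1 : Fin 2) b with he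
  suffices h : MvPowerSeries.coeff e (hondaZ p m).toPowerSeries = 0 by rw [h]; simp
  have hl := hondaLog_isLog p m hm
  -- work over `ℂ`
  set η : ℚ →+* ℂ := algebraMap ℚ ℂ with hη
  have hlC := hl.map η
  set ζ : ℂ := Complex.exp (2 * Real.pi * Complex.I / ((p ^ m - 1 : ℕ) : ℂ)) with hζ
  have hprim : IsPrimitiveRoot ζ (p ^ m - 1) := Complex.isPrimitiveRoot_exp _ (by omega)
  have hζ1 : ζ ^ (p ^ m - 1) = 1 := hprim.pow_eq_one
  have hζ0 : ζ ≠ 0 := hprim.ne_zero (by omega)
  have hs : PowerSeries.rescale ζ (PowerSeries.map η (FE.L p (hondaLogCoeff p m))) =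
      PowerSeries.C ζ * PowerSeries.map η (FE.L p (hondaLogCoeff p m)) := by
    ext i
    rw [PowerSeries.coeff_rescale, PowerSeries.coeff_C_mul, PowerSeries.coeff_map]
    by_cases hi : ∃ j, i = p ^ j
    · obtain ⟨j, rfl⟩ := hi
      rw [FE.coeff_L_pow hp1]
      by_cases hj : m ∣ j
      · obtain ⟨k, rfl⟩ := hj
        rw [pow_mul, zeta_pow_pow ζ (p ^ m) hq.le hζ1]
      · rw [hondaLogCoeff_dvd p m hm j hj]
        simp
    · rw [FE.coeff_L_of_ne _ _ (fun j h => hi ⟨j, h⟩)]
      simp
  have hr := hlC.rescale_lawSeries ζ hs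
  have hlaw : hlC.lawSeries = MvPowerSeries.map η hl.lawSeries := by
    have := hl.map_law η
    have h2 := congrArg FormalGroup.toPowerSeries this
    exact h2.symm
  have hce := congrArg (MvPowerSeries.coeff e) hr
  rw [MvPowerSeries.coeff_rescale, MvPowerSeries.coeff_C_mul, hlaw, MvPowerSeries.coeff_map,
    ← coeff_hondaZ_cast p m hm e] at hce
  set c := MvPowerSeries.coeff e (hondaZ p m).toPowerSeries with hc
  have hprod : (e.prod fun _ k => ζ ^ k) = ζ ^ (a + b) := by
    rw [Finsupp.prod_pow]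
    simp [he, Fin.prod_univ_two, pow_add]
  rw [hprod] at hce
  by_contra hne
  have hcC : η (c : ℚ) ≠ 0 := by
    simp only [map_intCast]
    exact_mod_cast hne
  have h1 : ζ ^ (a + b) = ζ := mul_right_cancel₀ hcC hce
  have hab0 : 1 ≤ a + b := by
    by_contra h0
    apply hab
    have : a + b - 1 = 0 := by omega
    rw [this]
    exact dvd_zero _
  obtain ⟨r, hr'⟩ : ∃ r, a + b = r + 1 := ⟨a + b - 1, by omega⟩
  rw [hr', pow_succ] at h1
  have h2 : ζ ^ r = 1 := by
    have := mul_right_cancel₀ hζ0 (h1.trans (one_mul ζ).symm)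
    exact this
  apply hab
  rw [hr', Nat.add_sub_cancel]
  exact (hprim.pow_eq_one_iff_dvd r).mp h2

lemma single_add_single (e : Fin 2 →₀ ℕ) :
    e = Finsupp.single (0 : Fin 2) (e 0) + Finsupp.single (1 : Fin 2) (e 1) := by
  ext i
  fin_cases i <;> simp

/-- (H3) `t X` is an endomorphism when `t^q = t`. -/
theorem honda_smul_hom (m : ℕ) (hm : 1 ≤ m) (C : Type*) [CommRing C] [CharP C p] (t : C)
    (ht : t ^ (p ^ m) = t) :
    IsFGHom (honda p m C) (honda p m C) (PowerSeries.C t * PowerSeries.X) := by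
  classical
  have hp1 : 1 < p := hp.out.one_lt
  have hq : 1 < p ^ m := Nat.one_lt_pow (by omega) hp1
  set F := (honda p m C).toPowerSeries with hF
  have hF0 : MvPowerSeries.constantCoeff F = 0 := (honda p m C).zero_constantCoeff
  refine ⟨by simp, ?_⟩
  have hFh : PowerSeries.HasSubst F := PowerSeries.HasSubst.of_constantCoeff_zero hF0
  rw [PowerSeries.subst_mul hFh, PowerSeries.subst_C, PowerSeries.subst_X hFh]
  have hXh : ∀ i : Fin 2, PowerSeries.HasSubst (MvPowerSeries.X i : MvPowerSeries (Fin 2) C) :=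
    fun i => PowerSeries.HasSubst.X i
  rw [PowerSeries.subst_mul (hXh 0), PowerSeries.subst_mul (hXh 1), PowerSeries.subst_C,
    PowerSeries.subst_C, PowerSeries.subst_X (hXh 0), PowerSeries.subst_X (hXh 1)]
  have heq : MvPowerSeries.rescale (fun _ => t) F =
      MvPowerSeries.subst ![MvPowerSeries.C t * (MvPowerSeries.X 0 : MvPowerSeries (Fin 2) C),
        MvPowerSeries.C t * (MvPowerSeries.X 1 : MvPowerSeries (Fin 2) C)] F := by
    rw [MvPowerSeries.rescale_eq_subst]
    congr 1
    funext i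
    fin_cases i <;> simp [MvPowerSeries.smul_eq_C_mul]
  rw [← heq]
  ext e
  rw [MvPowerSeries.coeff_C_mul, MvPowerSeries.coeff_rescale]
  have hprod : (e.prod fun _ k => t ^ k) = t ^ (e 0 + e 1) := by
    rw [Finsupp.prod_pow]
    simp [Fin.prod_univ_two, pow_add]
  rw [hprod]
  by_cases hc : MvPowerSeries.coeff e F = 0
  · rw [hc, mul_zero, mul_zero]
  have hdvd : (p ^ m - 1) ∣ (e 0 + e 1 - 1) := by
    by_contra hd
    apply hc
    rw [single_add_single e]
    exact honda_coeff_grade p m hm C _ _ hd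
  have h1 : 1 ≤ e 0 + e 1 := by
    by_contra h0
    apply hc
    have he0 : e = 0 := by
      ext i
      fin_cases i <;> simp <;> omega
    rw [he0, MvPowerSeries.coeff_zero_eq_constantCoeff_apply, hF0]
  obtain ⟨k, hk⟩ := hdvd
  have hpow : t ^ (e 0 + e 1) = t := by
    have e1 : e 0 + e 1 = (p ^ m - 1) * k + 1 := by omega
    rw [e1]
    clear e1 hk
    induction k with
    | zero => simp
    | succ k ih =>
      have : (p ^ m - 1) * (k + 1) + 1 = ((p ^ m - 1) * k + 1) + (p ^ m - 1) := by ring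
      rw [this, pow_add, ih]
      have h3 : t * t ^ (p ^ m - 1) = t ^ (p ^ m) := by
        rw [← pow_succ']
        congr 1
        omega
      rw [h3, ht]
  rw [hpow]

/-- (H3) `X^p` is an endomorphism. -/
theorem honda_frob_hom (m : ℕ) (hm : 1 ≤ m) (C : Type*) [CommRing C] [CharP C p] :
    IsFGHom (honda p m C) (honda p m C) (PowerSeries.X ^ p) := by
  have hp0 : p ≠ 0 := hp.out.ne_zero
  have : ExpChar C p := ExpChar.prime hp.out
  set F := (honda p m C).toPowerSeries with hF
  have hF0 : MvPowerSeries.constantCoeff F = 0 := (honda p m C).zero_constantCoeff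
  refine ⟨by simp [hp0], ?_⟩
  have hFh : PowerSeries.HasSubst F := PowerSeries.HasSubst.of_constantCoeff_zero hF0
  rw [PowerSeries.subst_pow hFh, PowerSeries.subst_X hFh]
  have hXh : ∀ i : Fin 2, PowerSeries.HasSubst (MvPowerSeries.X i : MvPowerSeries (Fin 2) C) :=
    fun i => PowerSeries.HasSubst.X i
  rw [PowerSeries.subst_pow (hXh 0), PowerSeries.subst_pow (hXh 1), PowerSeries.subst_X (hXh 0),
    PowerSeries.subst_X (hXh 1)]
  have hmapF : MvPowerSeries.map (frobenius C p) F = F := by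
    ext e
    rw [MvPowerSeries.coeff_map, hF, coeff_honda]
    simp
  have h1 := MvPowerSeries.map_frobenius_expand (σ := Fin 2) (R := C) p hp0 (f := F)
  rw [MvPowerSeries.map_expand, hmapF] at h1
  rw [← h1]
  rw [MvPowerSeries.expand, MvPowerSeries.substAlgHom_apply]
  congr 1
  funext i
  fin_cases i <;> rfl

lemma hondaLog_functional (hm : 1 ≤ m) :
    (p : PowerSeries ℚ) * FE.L p (hondaLogCoeff p m) =
      (p : PowerSeries ℚ) * PowerSeries.X + PowerSeries.subst (PowerSeries.X ^ p ^ m : PowerSeries ℚ)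
        (FE.L p (hondaLogCoeff p m)) := by
  classical
  set D := hondaData p m hm with hD
  have h := D.L_eq_series
  have hid : ∀ i : ℕ, (D.σ ^ i) = RingHom.id ℚ := fun i => one_pow i
  have hsum : ∑ i ∈ Finset.Icc 1 D.N, PowerSeries.C (D.π * D.ι (D.w i)) *
      PowerSeries.subst (PowerSeries.X ^ (p ^ i) : PowerSeries ℚ)
        (FE.L p fun j => (D.σ ^ i) (D.c j)) =
      PowerSeries.C (1 / (p : ℚ)) * PowerSeries.subst (PowerSeries.X ^ (p ^ m) : PowerSeries ℚ)
        (FE.L p (hondaLogCoeff p m)) := by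
    rw [Finset.sum_eq_single m]
    · have h1 : D.w m = 1 := by simp [hD, hondaData]
      have h2 : D.π = 1 / (p : ℚ) := rfl
      have h3 : (fun j => (D.σ ^ m) (D.c j)) = hondaLogCoeff p m := by
        funext j
        rw [hid]
        rfl
      rw [h1, h2, h3, map_one, mul_one]
    · intro b hb hbm
      have h1 : D.w b = 0 := by simp [hD, hondaData, hbm]
      rw [h1, map_zero, mul_zero, map_zero, zero_mul]
    · intro hb
      exfalso
      apply hb
      exact Finset.mem_Icc.mpr ⟨hm, le_rfl⟩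
  rw [hsum] at h
  have hc : D.c = hondaLogCoeff p m := rfl
  rw [hc] at h
  have hp0 : (p : ℚ) ≠ 0 := by exact_mod_cast hp.out.ne_zero
  have hpC : (p : PowerSeries ℚ) * PowerSeries.C (1 / (p : ℚ)) = 1 := by
    have : (p : PowerSeries ℚ) = PowerSeries.C (p : ℚ) := by simp
    rw [this, ← map_mul, mul_one_div_cancel hp0, map_one]
  conv_lhs => rw [h]
  rw [mul_add, ← mul_assoc, hpC, one_mul]

/-- (H3) `[p] = X^(p^m)`, over `ℤ` modulo `p`. -/
lemma hondaZ_mulSeries (hm : 1 ≤ m) : ∃ E : PowerSeries ℤ,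
    mulSeries (hondaZ p m) p - PowerSeries.X ^ (p ^ m) = PowerSeries.C (p : ℤ) * E := by
  classical
  set D := hondaData p m hm with hD
  have hι : D.ι = Int.castRingHom ℚ := rfl
  have hp' : p ^ m ≠ 0 := pow_ne_zero m hp.out.ne_zero
  have hl := hondaLog_isLog p m hm
  have hZ : PowerSeries.map (Int.castRingHom ℚ) (mulSeries (hondaZ p m) p) = mulSeries hl.law p := by
    rw [mulSeries_map, hondaZ_map p m hm]
  have hXq : (PowerSeries.map (Int.castRingHom ℚ)) (PowerSeries.X ^ p ^ m : PowerSeries ℤ) =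
      PowerSeries.X ^ p ^ m := by simp
  obtain ⟨E, hE⟩ := D.exists_sub_eq_of_subst_L (τ := Unit) (mulSeries (hondaZ p m) p)
    (PowerSeries.X ^ p ^ m : PowerSeries ℤ) (mulSeries_const _ p)
    (by
      rw [map_pow, show MvPowerSeries.constantCoeff (PowerSeries.X : PowerSeries ℤ) = 0 by
        simp [PowerSeries.X], zero_pow hp'])
    (by
      intro e
      refine ⟨MvPowerSeries.coeff e (PowerSeries.X : PowerSeries ℤ), ?_⟩
      rw [hι]
      have h1 : MvPowerSeries.map (Int.castRingHom ℚ) (mulSeries (hondaZ p m) p) =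
          mulSeries hl.law p := hZ
      have h2 : MvPowerSeries.map (Int.castRingHom ℚ) (PowerSeries.X ^ p ^ m : PowerSeries ℤ) =
          (PowerSeries.X ^ p ^ m : PowerSeries ℚ) := hXq
      rw [h1, h2]
      have hc : D.c = hondaLogCoeff p m := rfl
      rw [hc, hl.l_mulSeries, hondaLog_functional p m hm, ← map_sub, add_sub_cancel_right]
      have hpC : (p : PowerSeries ℚ) = MvPowerSeries.C (p : ℚ) := by simp
      rw [hpC, MvPowerSeries.coeff_C_mul]
      congr 1
      have : MvPowerSeries.map (Int.castRingHom ℚ) (PowerSeries.X : PowerSeries ℤ) =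
          (PowerSeries.X : PowerSeries ℚ) := PowerSeries.map_X _
      rw [← this, MvPowerSeries.coeff_map])
  exact ⟨E, hE⟩

/-- (H3) `[p] = X^(p^m)`. -/
theorem honda_mulSeries (m : ℕ) (hm : 1 ≤ m) (C : Type*) [CommRing C] [CharP C p] :
    mulSeries (honda p m C) p = PowerSeries.X ^ (p ^ m) := by
  obtain ⟨E, hE⟩ := hondaZ_mulSeries p m hm
  have h := congrArg (PowerSeries.map (Int.castRingHom C)) hE
  rw [map_sub, map_mul, mulSeries_map, map_pow, PowerSeries.map_X, PowerSeries.map_C] at h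
  have hp0 : (Int.castRingHom C) (p : ℤ) = 0 := by simp
  rw [hp0, map_zero, zero_mul, sub_eq_zero] at h
  exact h

/-- `[c](X) = c X` modulo degree `p^m`. -/
theorem honda_mulSeries_coeff_low (m : ℕ) (hm : 1 ≤ m) (C : Type*) [CommRing C] [CharP C p]
    (c i : ℕ) (hi : i < p ^ m) :
    PowerSeries.coeff i (mulSeries (honda p m C) c) =
      PowerSeries.coeff i ((c : PowerSeries C) * PowerSeries.X) := by
  have hl := hondaLog_isLog p m hm
  have h := hl.coeff_mulSeries_low c (p ^ m) (order_hondaLog_sub p m hm) i hi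
  have hZ : PowerSeries.map (Int.castRingHom ℚ) (mulSeries (hondaZ p m) c) = mulSeries hl.law c := by
    rw [mulSeries_map, hondaZ_map p m hm]
  have h2 : ((PowerSeries.coeff i (mulSeries (hondaZ p m) c) : ℤ) : ℚ) =
      PowerSeries.coeff i ((c : PowerSeries ℚ) * PowerSeries.X) := by
    rw [← h, ← hZ, PowerSeries.coeff_map]
    rfl
  have h3 : PowerSeries.coeff i (mulSeries (hondaZ p m) c) =
      PowerSeries.coeff i ((c : PowerSeries ℤ) * PowerSeries.X) := by
    have e1 : ((c : PowerSeries ℚ) * PowerSeries.X) =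
        PowerSeries.map (Int.castRingHom ℚ) ((c : PowerSeries ℤ) * PowerSeries.X) := by
      simp
    rw [e1, PowerSeries.coeff_map, eq_intCast] at h2
    exact_mod_cast h2
  have e2 : mulSeries (honda p m C) c = PowerSeries.map (Int.castRingHom C) (mulSeries (hondaZ p m) c) := by
    rw [mulSeries_map]
    rfl
  have e3 : ((c : PowerSeries C) * PowerSeries.X) =
      PowerSeries.map (Int.castRingHom C) ((c : PowerSeries ℤ) * PowerSeries.X) := by
    simp
  rw [e2, e3, PowerSeries.coeff_map, PowerSeries.coeff_map, h3]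

end HondaLaw

/-! ### Height ideals of the Hazewinkel law -/

section Height

variable (n : ℕ)

/-- `H_0` reduces to the Honda law over `k`. -/
theorem hazeE0_red (hn : 1 ≤ n) :
    (hazeE0 p n).map (LTRing.residue p n) = honda p n (GaloisField p n) := by
  have hc : (LTRing.residue p n).comp (toE0 p n) =
      (Int.castRingHom (GaloisField p n)).comp MvPolynomial.constantCoeff := by
    apply MvPolynomial.ringHom_ext
    · intro r
      simp [toE0, LTRing.residue]
    · intro i
      simp [toE0, LTRing.residue]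
  rw [hazeE0, map_map_law, hc, honda, hondaZ, map_map_law]

/-- Setting the variables `v_1 .. v_{h-1}` to zero. -/
noncomputable def cut (T : Type*) [CommRing T] (h : ℕ) :
    MvPolynomial (Fin (n - 1)) T →ₐ[T] MvPolynomial (Fin (n - 1)) T :=
  MvPolynomial.aeval fun i => if i.1 + 1 < h then 0 else MvPolynomial.X i

lemma cut_X (T : Type*) [CommRing T] (h : ℕ) (i : Fin (n - 1)) :
    cut n T h (MvPolynomial.X i) = if i.1 + 1 < h then 0 else MvPolynomial.X i := by
  simp [cut]

lemma cut_map (h : ℕ) (x : MvPolynomial (Fin (n - 1)) ℤ) :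
    cut n ℚ h (MvPolynomial.map (Int.castRingHom ℚ) x) =
      MvPolynomial.map (Int.castRingHom ℚ) (cut n ℤ h x) := by
  induction x using MvPolynomial.induction_on with
  | C a => simp [cut]
  | add a b ha hb => simp [ha, hb]
  | mul_X a i ha =>
    simp only [map_mul, ha, MvPolynomial.map_X, cut_X]
    split_ifs <;> simp

lemma cut_vv_low (h j : ℕ) (hj1 : 1 ≤ j) (hj : j < h) (hjn : j < n) : cut n ℚ h (vv n ℚ j) = 0 := by
  unfold vv
  rw [dif_pos ⟨hj1, hjn⟩, cut_X, if_pos (by simp; omega)]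

lemma cut_vv_eq (h : ℕ) (hh : 1 ≤ h) (hn : h < n) : cut n ℚ h (vv n ℚ h) = vv n ℚ h := by
  unfold vv
  rw [dif_pos ⟨hh, hn⟩, cut_X, if_neg (by simp; omega)]

lemma cut_log_low (h : ℕ) (hn : h < n) (j : ℕ) (h0 : 0 < j) (hj : j < h) :
    cut n ℚ h (hazeLogCoeff p n j) = 0 := by
  induction j using Nat.strong_induction_on with
  | _ j ih =>
    obtain ⟨k, rfl⟩ : ∃ k, j = k + 1 := ⟨j - 1, by omega⟩
    have hp0 : ∀ a, p ^ a ≠ 0 := fun a => pow_ne_zero a hp.out.ne_zero
    rw [hazeLogCoeff_succ, map_mul, map_sum]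
    rw [Finset.sum_eq_zero, mul_zero]
    intro a ha
    have ha' : a < k + 1 := Finset.mem_range.mp ha
    rw [map_mul]
    by_cases h1 : a = 0
    · subst h1
      rw [map_pow, cut_vv_low n h _ (by omega) (by omega) (by omega)]
      simp [hp0]
    · rw [ih a ha' (by omega) (by omega), zero_mul]

lemma cut_log_eq (h : ℕ) (hh : 1 ≤ h) (hn : h < n) :
    cut n ℚ h (hazeLogCoeff p n h) = MvPolynomial.C (1 / (p : ℚ)) * vv n ℚ h := by
  obtain ⟨k, rfl⟩ : ∃ k, h = k + 1 := ⟨h - 1, by omega⟩
  have hp0 : ∀ a, p ^ a ≠ 0 := fun a => pow_ne_zero a hp.out.ne_zero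
  rw [hazeLogCoeff_succ, map_mul, map_sum, Finset.sum_eq_single 0]
  · rw [map_mul, map_pow, Nat.sub_zero, cut_vv_eq n _ hh hn, hazeLogCoeff_zero]
    simp
  · intro a ha ha0
    have ha' : a < k + 1 := Finset.mem_range.mp ha
    rw [map_mul, cut_log_low p n (k + 1) hn a (by omega) ha', zero_mul]
  · intro h0
    exact absurd (Finset.mem_range.mpr (by omega)) h0

/-- the log after cutting -/
lemma cutLog_low (h : ℕ) (hh : 1 ≤ h) (hn : h < n) (i : ℕ) (hi : i ≤ p ^ h) :
    PowerSeries.coeff i (PowerSeries.map (cut n ℚ h).toRingHom (hazeLog p n) - PowerSeries.X -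
      PowerSeries.C (MvPolynomial.C (1 / (p : ℚ)) * vv n ℚ h) * PowerSeries.X ^ (p ^ h)) = 0 := by
  classical
  have hp1 : 1 < p := hp.out.one_lt
  rw [map_sub, map_sub, PowerSeries.coeff_map, PowerSeries.coeff_C_mul, PowerSeries.coeff_X_pow,
    PowerSeries.coeff_X]
  by_cases hpi : ∃ j, i = p ^ j
  · obtain ⟨j, rfl⟩ := hpi
    have hj : j ≤ h := (Nat.pow_le_pow_iff_right hp1).mp hi
    rw [FE.coeff_L_pow hp1]
    by_cases h0 : j = 0
    · subst h0
      have hne : ¬ p ^ 0 = p ^ h := by
        rw [pow_zero]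
        have : 1 < p ^ h := Nat.one_lt_pow (by omega) hp1
        omega
      rw [if_neg hne, hazeLogCoeff_zero]
      simp
    · have hne1 : p ^ j ≠ 1 := by
        have : 1 < p ^ j := Nat.one_lt_pow h0 hp1
        omega
      rw [if_neg hne1, sub_zero]
      by_cases hjh : j = h
      · subst hjh
        rw [if_pos rfl]
        show cut n ℚ j (hazeLogCoeff p n j) - _ = _
        rw [cut_log_eq p n j hh hn]
        simp
      · have hne : ¬ p ^ j = p ^ h := fun e => hjh (Nat.pow_right_injective hp.out.two_le e)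
        rw [if_neg hne]
        show cut n ℚ h (hazeLogCoeff p n j) - _ = _
        rw [cut_log_low p n h hn j (by omega) (by omega)]
        simp
  · rw [FE.coeff_L_of_ne _ _ (fun j h' => hpi ⟨j, h'⟩), if_neg (fun h' => hpi ⟨h, h'⟩),
      if_neg (fun h' => hpi ⟨0, by simp [h']⟩)]
    simp

/-- The coefficient of `X^(p^h)` in `[p]` over `ℤ[v]`, after cutting. -/
lemma cut_coeff_mulSeries (h : ℕ) (hh : 1 ≤ h) (hn : h < n) :
    cut n ℤ h (PowerSeries.coeff (p ^ h) (mulSeries (hazeA p n) p)) =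
      vv n ℤ h - (p : MvPolynomial (Fin (n - 1)) ℤ) ^ (p ^ h - 1) * vv n ℤ h := by
  have hp1 : 1 < p := hp.out.one_lt
  have hN : 2 ≤ p ^ h := by
    calc 2 ≤ p := hp1
      _ = p ^ 1 := (pow_one p).symm
      _ ≤ p ^ h := Nat.pow_le_pow_right hp.out.pos hh
  apply (hazeData p n).ι_inj
  show MvPolynomial.map (Int.castRingHom ℚ) _ = MvPolynomial.map (Int.castRingHom ℚ) _
  rw [← cut_map, map_sub, map_mul, map_pow, map_natCast, map_vv]
  set l := hazeLog p n with hl_def
  have hl := hazeLog_isLog p n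
  set η := (cut n ℚ h).toRingHom with hη
  have hlη := hl.map η
  have hZ : PowerSeries.map η (PowerSeries.map (MvPolynomial.map (Int.castRingHom ℚ))
      (mulSeries (hazeA p n) p)) = mulSeries hlη.law p := by
    rw [mulSeries_map, mulSeries_map, hazeA_map, hl.map_law]
  have h1 := hlη.coeff_mulSeries_of_log (p ^ h) hN (MvPolynomial.C (1 / (p : ℚ)) * vv n ℚ h)
    (fun i hi => cutLog_low p n h hh hn i hi) p
  rw [← hZ, PowerSeries.coeff_map, PowerSeries.coeff_map] at h1
  have h2 : η (MvPolynomial.map (Int.castRingHom ℚ)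
      (PowerSeries.coeff (p ^ h) (mulSeries (hazeA p n) p))) =
      cut n ℚ h (MvPolynomial.map (Int.castRingHom ℚ)
        (PowerSeries.coeff (p ^ h) (mulSeries (hazeA p n) p))) := rfl
  rw [← h2, h1]
  have hpC : (p : MvPolynomial (Fin (n - 1)) ℚ) * MvPolynomial.C (1 / (p : ℚ)) = 1 := by
    have : (p : MvPolynomial (Fin (n - 1)) ℚ) = MvPolynomial.C (p : ℚ) := by simp
    rw [this, ← map_mul, mul_one_div_cancel (by exact_mod_cast hp.out.ne_zero), map_one]
  obtain ⟨N, hNe⟩ : ∃ N, p ^ h = N + 1 := ⟨p ^ h - 1, by omega⟩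
  rw [hNe, Nat.add_sub_cancel, pow_succ]
  linear_combination (vv n ℚ h - (p : MvPolynomial (Fin (n - 1)) ℚ) ^ N * vv n ℚ h) * hpC

lemma cut_sub_mem (h : ℕ) (J : Ideal (MvPolynomial (Fin (n - 1)) ℤ))
    (hJ : ∀ i : Fin (n - 1), i.1 + 1 < h → (MvPolynomial.X i : MvPolynomial (Fin (n - 1)) ℤ) ∈ J)
    (f : MvPolynomial (Fin (n - 1)) ℤ) : f - cut n ℤ h f ∈ J := by
  induction f using MvPolynomial.induction_on with
  | C a => simp
  | add a b ha hb =>
    rw [map_add]
    have : a + b - (cut n ℤ h a + cut n ℤ h b) = (a - cut n ℤ h a) + (b - cut n ℤ h b) := by ring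
    rw [this]
    exact add_mem ha hb
  | mul_X a i ha =>
    rw [map_mul, cut_X]
    split_ifs with hi
    · rw [mul_zero, sub_zero]
      exact J.mul_mem_left _ (hJ i hi)
    · have : a * MvPolynomial.X i - cut n ℤ h a * MvPolynomial.X i =
        (a - cut n ℤ h a) * MvPolynomial.X i := by ring
      rw [this]
      exact J.mul_mem_right _ ha

/-- the ideal `(p, u_1, …, u_{h-1})` -/
noncomputable def JE (h : ℕ) : Ideal (LTRing p n) :=
  Ideal.span ({(p : LTRing p n)} ∪ {x | ∃ i : Fin (n - 1), i.1 + 1 < h ∧ x = MvPowerSeries.X i})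

lemma toE0_vv (h : ℕ) (hh : 1 ≤ h) (hn : h < n) :
    toE0 p n (vv n ℤ h) = MvPowerSeries.X ⟨h - 1, by omega⟩ := by
  unfold vv
  rw [dif_pos ⟨hh, hn⟩]
  simp [toE0]

lemma toE0_coeff_sub_mem (h : ℕ) (hh : 1 ≤ h) (hn : h < n) :
    PowerSeries.coeff (p ^ h) (mulSeries (hazeE0 p n) p) -
      MvPowerSeries.X ⟨h - 1, by omega⟩ ∈ JE p n h := by
  have hp1 : 1 < p := hp.out.one_lt
  have hN : 2 ≤ p ^ h := by
    calc 2 ≤ p := hp1
      _ = p ^ 1 := (pow_one p).symm
      _ ≤ p ^ h := Nat.pow_le_pow_right hp.out.pos hh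
  set J : Ideal (MvPolynomial (Fin (n - 1)) ℤ) := (JE p n h).comap (toE0 p n) with hJ
  have hJp : (p : MvPolynomial (Fin (n - 1)) ℤ) ∈ J := by
    rw [hJ, Ideal.mem_comap, map_natCast]
    exact Ideal.subset_span (Or.inl rfl)
  have hJX : ∀ i : Fin (n - 1), i.1 + 1 < h →
      (MvPolynomial.X i : MvPolynomial (Fin (n - 1)) ℤ) ∈ J := by
    intro i hi
    rw [hJ, Ideal.mem_comap]
    refine Ideal.subset_span (Or.inr ⟨i, hi, ?_⟩)
    simp [toE0]
  have h1 := cut_sub_mem n h J hJX (PowerSeries.coeff (p ^ h) (mulSeries (hazeA p n) p))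
  rw [cut_coeff_mulSeries p n h hh hn] at h1
  have h2 : PowerSeries.coeff (p ^ h) (mulSeries (hazeA p n) p) - vv n ℤ h ∈ J := by
    have : PowerSeries.coeff (p ^ h) (mulSeries (hazeA p n) p) - vv n ℤ h =
        (PowerSeries.coeff (p ^ h) (mulSeries (hazeA p n) p) -
          (vv n ℤ h - (p : MvPolynomial (Fin (n - 1)) ℤ) ^ (p ^ h - 1) * vv n ℤ h)) -
        (p : MvPolynomial (Fin (n - 1)) ℤ) ^ (p ^ h - 1) * vv n ℤ h := by ring
    rw [this]
    refine sub_mem h1 (J.mul_mem_right _ (J.pow_mem_of_mem hJp _ (by omega)))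
  rw [hJ, Ideal.mem_comap, map_sub, toE0_vv p n h hh hn] at h2
  have h3 : PowerSeries.coeff (p ^ h) (mulSeries (hazeE0 p n) p) =
      toE0 p n (PowerSeries.coeff (p ^ h) (mulSeries (hazeA p n) p)) := by
    rw [hazeE0, ← mulSeries_map, PowerSeries.coeff_map]
  rw [h3]
  exact h2

lemma coeff_one_mulSeries_hazeE0 :
    PowerSeries.coeff 1 (mulSeries (hazeE0 p n) p) = (p : LTRing p n) := by
  have hl := hazeLog_isLog p n
  have h1 := hl.coeff_one_mulSeries p
  have h2 : PowerSeries.coeff 1 (mulSeries (hazeA p n) p) = (p : MvPolynomial (Fin (n - 1)) ℤ) := by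
    apply (hazeData p n).ι_inj
    show MvPolynomial.map (Int.castRingHom ℚ) _ = MvPolynomial.map (Int.castRingHom ℚ) _
    rw [← PowerSeries.coeff_map, mulSeries_map, hazeA_map, h1]
    simp
  rw [hazeE0, ← mulSeries_map, PowerSeries.coeff_map, h2, map_natCast]

/-- (L2) consequence: the height ideals of `H_0` are `(p, u_1, …, u_{h-1})`. -/
theorem hazeE0_heightIdeal (hn : 1 ≤ n) (h : ℕ) (hh : 1 ≤ h) (hhn : h ≤ n) :
    heightIdeal p n (hazeE0 p n) h =
      Ideal.span ({(p : LTRing p n)} ∪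
        {x | ∃ i : Fin (n - 1), i.1 + 1 < h ∧ x = MvPowerSeries.X i}) := by
  induction h, hh using Nat.le_induction with
  | base =>
    have : ({(p : LTRing p n)} ∪
        {x | ∃ i : Fin (n - 1), i.1 + 1 < 1 ∧ x = MvPowerSeries.X i}) = {(p : LTRing p n)} := by
      ext x
      simp
    rw [this]
    simp only [heightIdeal, pow_zero, bot_sup_eq, coeff_one_mulSeries_hazeE0]
  | succ h hh ih =>
    have hlt : h < n := by omega
    rw [heightIdeal, ih (by omega)]
    set a := PowerSeries.coeff (p ^ h) (mulSeries (hazeE0 p n) p) with ha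
    set x : LTRing p n := MvPowerSeries.X ⟨h - 1, by omega⟩ with hx
    have hmem : a - x ∈ JE p n h := toE0_coeff_sub_mem p n h hh hlt
    have hJE : Ideal.span ({(p : LTRing p n)} ∪
        {x | ∃ i : Fin (n - 1), i.1 + 1 < h ∧ x = MvPowerSeries.X i}) = JE p n h := rfl
    rw [hJE]
    apply le_antisymm
    · refine sup_le ?_ ?_
      · refine Ideal.span_mono ?_
        rintro y (hy | ⟨i, hi, hy⟩)
        · exact Or.inl hy
        · exact Or.inr ⟨i, by omega, hy⟩
      · rw [Ideal.span_singleton_le_iff_mem]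
        have hxm : x ∈ Ideal.span ({(p : LTRing p n)} ∪
            {x | ∃ i : Fin (n - 1), i.1 + 1 < h + 1 ∧ x = MvPowerSeries.X i}) :=
          Ideal.subset_span (Or.inr ⟨⟨h - 1, by omega⟩, by simp; omega, rfl⟩)
        have hle : JE p n h ≤ Ideal.span ({(p : LTRing p n)} ∪
            {x | ∃ i : Fin (n - 1), i.1 + 1 < h + 1 ∧ x = MvPowerSeries.X i}) := by
          refine Ideal.span_mono ?_
          rintro y (hy | ⟨i, hi, hy⟩)
          · exact Or.inl hy
          · exact Or.inr ⟨i, by omega, hy⟩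
        have : a = (a - x) + x := by ring
        rw [this]
        exact add_mem (hle hmem) hxm
    · rw [Ideal.span_le]
      rintro y (hy | ⟨i, hi, rfl⟩)
      · exact Ideal.mem_sup_left (Ideal.subset_span (Or.inl hy))
      · by_cases hih : i.1 + 1 < h
        · exact Ideal.mem_sup_left (Ideal.subset_span (Or.inr ⟨i, hih, rfl⟩))
        · have hi' : i = ⟨h - 1, by omega⟩ := by
            ext
            simp
            omega
          rw [hi']
          have hax : x = a - (a - x) := by ring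
          change x ∈ _
          rw [hax]
          exact sub_mem (Ideal.mem_sup_right (Ideal.mem_span_singleton_self a))
            (Ideal.mem_sup_left hmem)

end Height

end Crest.Agent.LT
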