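/-
A3 (part 1): the symmetric 2-cocycle lemma, purely on coefficients (BLUEPRINT §A3).
-/
import Mathlib

set_option autoImplicit false

namespace Crest.Agent.LT

open Nat

variable (p : ℕ) [hp : Fact p.Prime]

/-- Lucas: `C(p^u A, p^u B) ≡ C(A, B) mod p`. -/
lemma choose_pow_mul_modEq (u A B : ℕ) : (p ^ u * A).choose (p ^ u * B) ≡ A.choose B [MOD p] := by
  induction u with
  | zero => simp; rfl
  | succ u ih =>
    have h := Choose.choose_modEq_choose_mod_mul_choose_div_nat (p := p)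
      (n := p ^ (u + 1) * A) (k := p ^ (u + 1) * B)
    have hp0 : 0 < p := hp.out.pos
    have e1 : p ^ (u + 1) * A = p * (p ^ u * A) := by ring
    have e2 : p ^ (u + 1) * B = p * (p ^ u * B) := by ring
    rw [e1, e2] at h ⊢
    simp only [Nat.mul_mod_right, Nat.choose_self, one_mul, Nat.mul_div_cancel_left _ hp0] at h
    exact h.trans ih

/-- `C(p^u s, p^u) ≡ s mod p`. -/
lemma choose_pow_mul_one (u s : ℕ) : (p ^ u * s).choose (p ^ u) ≡ s [MOD p] := by
  have := choose_pow_mul_modEq p u s 1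
  simpa using this

/-- If `p ∣ A + 1` then `C(A, p - 1) ≡ 1 mod p`. -/
lemma choose_pred_modEq_one {A : ℕ} (h : p ∣ A + 1) : A.choose (p - 1) ≡ 1 [MOD p] := by
  have hp1 : 1 ≤ p := hp.out.one_lt.le
  have hp0 : 0 < p := hp.out.pos
  obtain ⟨c, hc⟩ := h
  have hc0 : 1 ≤ c := by
    rcases Nat.eq_zero_or_pos c with rfl | h
    · simp at hc
    · exact h
  have hA : A = p * (c - 1) + (p - 1) := by
    have : p * c = p * (c - 1) + p := by
      conv_lhs => rw [show c = (c - 1) + 1 by omega]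
      ring
    omega
  have h' := Choose.choose_modEq_choose_mod_mul_choose_div_nat (p := p) (n := A) (k := p - 1)
  have h1 : A % p = p - 1 := by
    rw [hA, Nat.mul_add_mod]; exact Nat.mod_eq_of_lt (by omega)
  have h2 : (p - 1) % p = p - 1 := Nat.mod_eq_of_lt (by omega)
  have h3 : (p - 1) / p = 0 := Nat.div_eq_of_lt (by omega)
  rw [h1, h2, h3] at h'
  simpa using h'

/-- `C(p^e - 1, p^(e-1) - 1) ≡ 1 mod p`. -/
lemma choose_top_modEq_one (e : ℕ) : (p ^ (e + 1) - 1).choose (p ^ e - 1) ≡ 1 [MOD p] := by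
  have hp1 : 1 < p := hp.out.one_lt
  have hp0 : 0 < p := hp.out.pos
  induction e with
  | zero =>
    simp
    rfl
  | succ e ih =>
    have h' := Choose.choose_modEq_choose_mod_mul_choose_div_nat (p := p)
      (n := p ^ (e + 1 + 1) - 1) (k := p ^ (e + 1) - 1)
    have key : ∀ k : ℕ, p ^ (k + 1) - 1 = p * (p ^ k - 1) + (p - 1) := by
      intro k
      have h1 : 1 ≤ p ^ k := Nat.one_le_pow _ _ hp0
      have e2 : p ^ (k + 1) = p * p ^ k := by ring
      have e3 : p * p ^ k = p * (p ^ k - 1) + p := by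
        conv_lhs => rw [show p ^ k = (p ^ k - 1) + 1 by omega]
        ring
      omega
    have hlt : p - 1 < p := by omega
    have h1 : (p ^ (e + 1 + 1) - 1) % p = p - 1 := by
      rw [key, Nat.mul_add_mod]; exact Nat.mod_eq_of_lt hlt
    have h2 : (p ^ (e + 1) - 1) % p = p - 1 := by
      rw [key, Nat.mul_add_mod]; exact Nat.mod_eq_of_lt hlt
    have h3 : (p ^ (e + 1 + 1) - 1) / p = p ^ (e + 1) - 1 := by
      rw [key (e + 1), Nat.mul_add_div hp0, Nat.div_eq_of_lt hlt, add_zero]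
    have h4 : (p ^ (e + 1) - 1) / p = p ^ e - 1 := by
      rw [key e, Nat.mul_add_div hp0, Nat.div_eq_of_lt hlt, add_zero]
    rw [h1, h2, h3, h4] at h'
    simp only [Nat.choose_self, one_mul] at h'
    exact h'.trans ih

/-- `N` is a positive power of `p`. -/
def IsPPow (N : ℕ) : Prop := ∃ e : ℕ, N = p ^ (e + 1)

open Classical in
/-- The normalised binomial coefficient: `C(N,s)/p` if `N` is a power of `p`, `C(N,s)` otherwise. -/
noncomputable def cn (N s : ℕ) : ℕ := if IsPPow p N then N.choose s / p else N.choose s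

lemma cn_of_ppow {N : ℕ} (h : IsPPow p N) (s : ℕ) : cn p N s = N.choose s / p := if_pos h

lemma cn_of_not_ppow {N : ℕ} (h : ¬ IsPPow p N) (s : ℕ) : cn p N s = N.choose s := if_neg h

lemma p_dvd_choose_of_ppow {N s : ℕ} (h : IsPPow p N) (h1 : 1 ≤ s) (h2 : s < N) : p ∣ N.choose s := by
  obtain ⟨e, rfl⟩ := h
  exact hp.out.dvd_choose_pow (by omega) (by omega)

lemma cn_mul_of_ppow {N s : ℕ} (h : IsPPow p N) (h1 : 1 ≤ s) (h2 : s < N) :
    p * cn p N s = N.choose s := by
  rw [cn_of_ppow p h]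
  exact Nat.mul_div_cancel' (p_dvd_choose_of_ppow p h h1 h2)

lemma cn_symm {N s : ℕ} (h2 : s ≤ N) : cn p N s = cn p N (N - s) := by
  unfold cn
  rw [Nat.choose_symm h2]

/-- the cocycle relation for `cn` -/
lemma cn_coc {N i s : ℕ} (h1 : 1 ≤ i) (his : i < s) (hs : s < N) :
    s.choose i * cn p N s = (N - i).choose (s - i) * cn p N i := by
  have key : N.choose s * s.choose i = N.choose i * (N - i).choose (s - i) :=
    Nat.choose_mul his.le
  by_cases h : IsPPow p N
  · have hp0 : 0 < p := hp.out.pos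
    apply Nat.eq_of_mul_eq_mul_left hp0
    have e1 := cn_mul_of_ppow p h (by omega : 1 ≤ s) hs
    have e2 := cn_mul_of_ppow p h h1 (by omega : i < N)
    calc p * (s.choose i * cn p N s) = (p * cn p N s) * s.choose i := by ring
      _ = N.choose s * s.choose i := by rw [e1]
      _ = N.choose i * (N - i).choose (s - i) := key
      _ = (p * cn p N i) * (N - i).choose (s - i) := by rw [e2]
      _ = _ := by ring
  · rw [cn_of_not_ppow p h, cn_of_not_ppow p h]
    calc s.choose i * N.choose s = N.choose s * s.choose i := by ring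
      _ = N.choose i * (N - i).choose (s - i) := key
      _ = _ := by ring

/-- Decompose `N = p^v * N'` with `p ∤ N'`. -/
lemma exists_pow_mul {N : ℕ} (hN : N ≠ 0) : ∃ v N', N = p ^ v * N' ∧ ¬ p ∣ N' := by
  obtain ⟨v, N', h, h'⟩ := Nat.exists_eq_pow_mul_and_not_dvd hN p hp.out.ne_one
  exact ⟨v, N', h', h⟩

section field

variable {L : Type*} [Field L] [CharP L p]

lemma cast_ne_zero_of_modEq_one {a : ℕ} (h : a ≡ 1 [MOD p]) : (a : L) ≠ 0 := by
  intro h0
  rw [CharP.cast_eq_zero_iff L p] at h0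
  have : 1 % p = 0 := by
    have := h.symm
    rw [Nat.ModEq, Nat.mod_eq_zero_of_dvd h0] at this
    exact this
  have hp1 := hp.out.one_lt
  rw [Nat.mod_eq_of_lt hp1] at this
  omega

lemma cast_ne_zero_of_modEq {a s : ℕ} (h : a ≡ s [MOD p]) (hs : ¬ p ∣ s) : (a : L) ≠ 0 := by
  intro h0
  rw [CharP.cast_eq_zero_iff L p] at h0
  exact hs ((Nat.ModEq.dvd_iff h (dvd_refl p)).1 h0)

/-- Step 1: `d (p^u) = 0` when `p^(u+1)` divides `N` properly. -/
lemma coc_step1 {N : ℕ} (d : ℕ → L)
    (hcoc : ∀ i s, 1 ≤ i → i < s → s < N →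
      (s.choose i : L) * d s = ((N - i).choose (s - i) : L) * d i)
    {u : ℕ} (hdvd : p ^ (u + 1) ∣ N) (hlt : p ^ (u + 1) < N) : d (p ^ u) = 0 := by
  have hp1 : 1 < p := hp.out.one_lt
  have hp0 : 0 < p := hp.out.pos
  have hu : 0 < p ^ u := pow_pos hp0 u
  have hlt' : p ^ u < p ^ (u + 1) := Nat.pow_lt_pow_right hp1 (by omega)
  have h := hcoc (p ^ u) (p ^ (u + 1)) hu hlt' hlt
  have hz : ((p ^ (u + 1)).choose (p ^ u) : L) = 0 := by
    rw [CharP.cast_eq_zero_iff L p]
    exact hp.out.dvd_choose_pow (by omega) (by omega)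
  rw [hz, zero_mul] at h
  obtain ⟨c, hc⟩ := hdvd
  have hc1 : 1 ≤ c := by
    rcases Nat.eq_zero_or_pos c with rfl | hh
    · simp at hc
      omega
    · exact hh
  have e1 : N - p ^ u = p ^ u * (p * c - 1) := by
    have : p * c ≥ 1 := Nat.mul_pos hp0 hc1
    rw [Nat.mul_sub, mul_one, hc]
    congr 1
    ring
  have e2 : p ^ (u + 1) - p ^ u = p ^ u * (p - 1) := by
    rw [Nat.mul_sub, mul_one, pow_succ]
  rw [e1, e2] at h
  have hne : (((p ^ u * (p * c - 1)).choose (p ^ u * (p - 1)) : ℕ) : L) ≠ 0 := by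
    apply cast_ne_zero_of_modEq_one p
    refine (choose_pow_mul_modEq p u _ _).trans (choose_pred_modEq_one p ?_)
    have : p * c - 1 + 1 = p * c := Nat.sub_add_cancel (Nat.mul_pos hp0 hc1)
    rw [this]
    exact dvd_mul_right _ _
  exact (mul_eq_zero.1 h.symm).resolve_left hne

/-- Step 4: everything is determined by powers of `p`. -/
lemma coc_step4 {N : ℕ} (d : ℕ → L)
    (hcoc : ∀ i s, 1 ≤ i → i < s → s < N →
      (s.choose i : L) * d s = ((N - i).choose (s - i) : L) * d i)
    (hpow : ∀ u, p ^ u < N → d (p ^ u) = 0) {s : ℕ} (h1 : 1 ≤ s) (h2 : s < N) : d s = 0 := by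
  have hp0 : 0 < p := hp.out.pos
  obtain ⟨u, s', hs, hs'⟩ := exists_pow_mul p (by omega : s ≠ 0)
  have hs'0 : 1 ≤ s' := by
    rcases Nat.eq_zero_or_pos s' with rfl | hh
    · simp at hs
      omega
    · exact hh
  have hule : p ^ u ≤ s := by
    rw [hs]; exact Nat.le_mul_of_pos_right _ hs'0
  rcases hule.lt_or_eq with hlt | heq
  · have h := hcoc (p ^ u) s (pow_pos hp0 u) hlt h2
    rw [hpow u (by omega), mul_zero] at h
    have hne : ((s.choose (p ^ u) : ℕ) : L) ≠ 0 := by
      apply cast_ne_zero_of_modEq p (s := s') _ hs'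
      rw [hs]
      exact choose_pow_mul_one p u s'
    exact (mul_eq_zero.1 h).resolve_left hne
  · rw [← heq]; exact hpow u (by omega)

/-- The symmetric 2-cocycle lemma. -/
theorem cocycle_lemma {N : ℕ} (hN : 2 ≤ N) (r : ℕ → L)
    (hsym : ∀ i, 1 ≤ i → i < N → r i = r (N - i))
    (hcoc : ∀ i s, 1 ≤ i → i < s → s < N →
      (s.choose i : L) * r s = ((N - i).choose (s - i) : L) * r i) :
    ∃ i₀, 1 ≤ i₀ ∧ i₀ < N ∧ (cn p N i₀ : L) ≠ 0 ∧
      ∀ s, 1 ≤ s → s < N → r s * (cn p N i₀ : L) = r i₀ * (cn p N s : L) := by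
  have hp1 : 1 < p := hp.out.one_lt
  have hp0 : 0 < p := hp.out.pos
  obtain ⟨v, N', hNv, hN'⟩ := exists_pow_mul p (by omega : N ≠ 0)
  have hN'0 : 1 ≤ N' := by
    rcases Nat.eq_zero_or_pos N' with rfl | hh
    · simp at hNv
      omega
    · exact hh
  -- the vanishing principle
  have main : ∀ i₀ : ℕ, 1 ≤ i₀ → i₀ < N →
      (∀ d : ℕ → L, (∀ i, 1 ≤ i → i < N → d i = d (N - i)) →
        (∀ i s, 1 ≤ i → i < s → s < N →
          (s.choose i : L) * d s = ((N - i).choose (s - i) : L) * d i) →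
        d i₀ = 0 → ∀ u, p ^ u < N → d (p ^ u) = 0) →
      (cn p N i₀ : L) ≠ 0 →
      ∃ i₀, 1 ≤ i₀ ∧ i₀ < N ∧ (cn p N i₀ : L) ≠ 0 ∧
        ∀ s, 1 ≤ s → s < N → r s * (cn p N i₀ : L) = r i₀ * (cn p N s : L) := by
    intro i₀ h1 h2 hvan hne
    refine ⟨i₀, h1, h2, hne, ?_⟩
    set c0 : L := (cn p N i₀ : L)
    set d : ℕ → L := fun s => r s * c0 - r i₀ * (cn p N s : L) with hd
    have dsym : ∀ i, 1 ≤ i → i < N → d i = d (N - i) := by
      intro i hi hi'
      simp only [hd]
      rw [hsym i hi hi', ← cn_symm p hi'.le]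
    have dcoc : ∀ i s, 1 ≤ i → i < s → s < N →
        (s.choose i : L) * d s = ((N - i).choose (s - i) : L) * d i := by
      intro i s hi his hs
      have h3 : ((s.choose i : ℕ) : L) * (cn p N s : L) = ((N - i).choose (s - i) : L) * (cn p N i : L) := by
        exact_mod_cast congrArg (Nat.cast (R := L)) (cn_coc p hi his hs)
      simp only [hd]
      have h4 := hcoc i s hi his hs
      calc ((s.choose i : ℕ) : L) * (r s * c0 - r i₀ * (cn p N s : L))
          = (((s.choose i : ℕ) : L) * r s) * c0 - r i₀ * (((s.choose i : ℕ) : L) * (cn p N s : L)) := by ring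
        _ = _ := by rw [h3, h4]; ring
    have d0 : d i₀ = 0 := by simp only [hd]; rw [sub_eq_zero]
    have hpow := hvan d dsym dcoc d0
    intro s hs1 hs2
    have := coc_step4 p d dcoc hpow hs1 hs2
    simp only [hd] at this
    exact sub_eq_zero.1 this
  by_cases hcase : N' = 1
  · -- `N = p^v`, `v ≥ 1`
    subst hcase
    rw [mul_one] at hNv
    have hv : 1 ≤ v := by
      rcases Nat.eq_zero_or_pos v with rfl | hh
      · simp at hNv
        omega
      · exact hh
    obtain ⟨e, rfl⟩ : ∃ e, v = e + 1 := ⟨v - 1, by omega⟩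
    have hlt : p ^ e < N := by
      rw [hNv]; exact Nat.pow_lt_pow_right hp1 (by omega)
    refine main (p ^ e) (pow_pos hp0 e) hlt ?_ ?_
    · intro d _ dcoc d0 u hu
      have hue : u ≤ e := by
        by_contra hcon
        push Not at hcon
        have : p ^ (e + 1) ≤ p ^ u := Nat.pow_le_pow_right hp0 (by omega)
        omega
      rcases hue.lt_or_eq with hlt' | rfl
      · apply coc_step1 p d dcoc
        · rw [hNv]; exact pow_dvd_pow _ (by omega)
        · rw [hNv]; exact Nat.pow_lt_pow_right hp1 (by omega)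
      · exact d0
    · have hpp : IsPPow p N := ⟨e, hNv⟩
      rw [cn_of_ppow p hpp]
      have hpe : 1 ≤ p ^ e := Nat.one_le_pow _ _ hp0
      have hpe' : 1 ≤ p ^ (e + 1) := Nat.one_le_pow _ _ hp0
      have key := Nat.add_one_mul_choose_eq (p ^ (e + 1) - 1) (p ^ e - 1)
      have e1 : (p ^ (e + 1) - 1) + 1 = p ^ (e + 1) := by omega
      have e2 : (p ^ e - 1) + 1 = p ^ e := by omega
      rw [e1, e2] at key
      have key2 : (p ^ (e + 1)).choose (p ^ e) = p * (p ^ (e + 1) - 1).choose (p ^ e - 1) := by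
        apply Nat.eq_of_mul_eq_mul_right (pow_pos hp0 e)
        rw [← key]; ring
      rw [hNv, key2, Nat.mul_div_cancel_left _ hp0]
      exact cast_ne_zero_of_modEq_one p (choose_top_modEq_one p e)
  · -- `N'` is at least two
    have hN'2 : 2 ≤ N' := by omega
    have hlt : p ^ v < N := by
      rw [hNv]
      have : 0 < p ^ v := pow_pos hp0 v
      nlinarith
    refine main (p ^ v) (pow_pos hp0 v) hlt ?_ ?_
    · intro d dsym dcoc d0 u hu
      rcases lt_trichotomy u v with hlt' | rfl | hgt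
      · apply coc_step1 p d dcoc
        · rw [hNv]; exact Dvd.dvd.mul_right (pow_dvd_pow _ (by omega)) _
        · have : p ^ (u + 1) ≤ p ^ v := Nat.pow_le_pow_right hp0 (by omega)
          omega
      · exact d0
      · -- Step 3
        rw [dsym (p ^ u) (pow_pos hp0 u) hu]
        obtain ⟨w, rfl⟩ : ∃ w, u = v + (w + 1) := ⟨u - v - 1, by omega⟩
        have hvpos : 0 < p ^ v := pow_pos hp0 v
        have e1 : p ^ (v + (w + 1)) = p ^ v * p ^ (w + 1) := pow_add _ _ _
        have hw : p ^ (w + 1) < N' := by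
          rw [e1, hNv] at hu
          exact Nat.lt_of_mul_lt_mul_left hu
        set s' := N' - p ^ (w + 1) with hs'
        have hs'pos : 1 ≤ s' := by omega
        have es : N - p ^ (v + (w + 1)) = p ^ v * s' := by
          rw [e1, hs', Nat.mul_sub, ← hNv]
        have hs'nd : ¬ p ∣ s' := by
          intro hd
          apply hN'
          have : N' = s' + p ^ (w + 1) := by omega
          rw [this]
          exact dvd_add hd (dvd_pow_self p (by omega))
        rw [es]
        by_cases h1 : s' = 1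
        · rw [h1, mul_one]; exact d0
        · have hlt2 : p ^ v < p ^ v * s' := by
            have : 2 ≤ s' := by omega
            nlinarith
          have hlt3 : p ^ v * s' < N := by
            rw [← es]
            have : 0 < p ^ (v + (w + 1)) := pow_pos hp0 _
            omega
          have h := dcoc (p ^ v) (p ^ v * s') hvpos hlt2 hlt3
          rw [d0, mul_zero] at h
          have hne : (((p ^ v * s').choose (p ^ v) : ℕ) : L) ≠ 0 :=
            cast_ne_zero_of_modEq p (s := s') (choose_pow_mul_one p v s') hs'nd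
          exact (mul_eq_zero.1 h).resolve_left hne
    · have hnp : ¬ IsPPow p N := by
        rintro ⟨e, he⟩
        have hd : N' ∣ p ^ (e + 1) := by
          rw [← he, hNv]; exact dvd_mul_left _ _
        obtain ⟨k, _, hk⟩ := (Nat.dvd_prime_pow hp.out).1 hd
        rcases Nat.eq_zero_or_pos k with rfl | hk0
        · simp at hk; exact hcase hk
        · exact hN' (by rw [hk]; exact dvd_pow_self p (by omega))
      rw [cn_of_not_ppow p hnp]
      apply cast_ne_zero_of_modEq p (s := N') _ hN'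
      rw [hNv]
      exact choose_pow_mul_one p v N'

/-- The `p`-series constant: `∑_{m<p} ∑_{0<s<N} c(N,s) m^s = -1` for `N = p^(e+1)`. -/
theorem sum_cn_ppow {N : ℕ} (hpp : IsPPow p N) :
    ∑ m ∈ Finset.range p, ∑ s ∈ Finset.Ico 1 N, (cn p N s : L) * (m : L) ^ s = -1 := by
  have hp1 : 1 < p := hp.out.one_lt
  have hp0 : 0 < p := hp.out.pos
  have hN2 : 2 ≤ N := by
    obtain ⟨e, rfl⟩ := hpp
    calc 2 ≤ p := hp.out.two_le
      _ = p ^ 1 := (pow_one p).symm
      _ ≤ p ^ (e + 1) := Nat.pow_le_pow_right hp0 (by omega)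
  have hone : ∀ m : ℤ, ∑ s ∈ Finset.Ico 1 N, ((N.choose s : ℕ) : ℤ) * m ^ s =
      (m + 1) ^ N - m ^ N - 1 := by
    intro m
    have h := add_pow m 1 N
    simp only [one_pow, mul_one] at h
    rw [Finset.sum_range_succ, Finset.range_eq_Ico, Finset.sum_eq_sum_Ico_succ_bot (by omega)] at h
    simp only [pow_zero, Nat.choose_zero_right, Nat.cast_one, mul_one, Nat.choose_self, zero_add] at h
    rw [h]
    have : ∑ s ∈ Finset.Ico 1 N, ((N.choose s : ℕ) : ℤ) * m ^ s =
        ∑ s ∈ Finset.Ico 1 N, m ^ s * ((N.choose s : ℕ) : ℤ) :=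
      Finset.sum_congr rfl fun _ _ => mul_comm _ _
    rw [this]; ring
  have hZ : (p : ℤ) * ∑ m ∈ Finset.range p, ∑ s ∈ Finset.Ico 1 N, ((cn p N s : ℕ) : ℤ) * (m : ℤ) ^ s =
      (p : ℤ) ^ N - p := by
    rw [Finset.mul_sum]
    have : ∀ m ∈ Finset.range p, (p : ℤ) * ∑ s ∈ Finset.Ico 1 N, ((cn p N s : ℕ) : ℤ) * (m : ℤ) ^ s =
        (((m + 1 : ℕ) : ℤ) ^ N - (m : ℤ) ^ N) - 1 := by
      intro m _
      rw [Finset.mul_sum]
      have : ∀ s ∈ Finset.Ico 1 N, (p : ℤ) * (((cn p N s : ℕ) : ℤ) * (m : ℤ) ^ s) =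
          ((N.choose s : ℕ) : ℤ) * (m : ℤ) ^ s := by
        intro s hs
        rw [Finset.mem_Ico] at hs
        rw [← cn_mul_of_ppow p hpp hs.1 hs.2]
        push_cast
        ring
      rw [Finset.sum_congr rfl this, hone]
      push_cast
      ring
    rw [Finset.sum_congr rfl this, Finset.sum_sub_distrib,
      Finset.sum_range_sub (fun m : ℕ => ((m : ℕ) : ℤ) ^ N)]
    simp only [Nat.cast_zero, zero_pow (by omega : N ≠ 0), Finset.sum_const, Finset.card_range,
      nsmul_eq_mul, mul_one]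
    push_cast
    ring
  have hZ2 : ∑ m ∈ Finset.range p, ∑ s ∈ Finset.Ico 1 N, ((cn p N s : ℕ) : ℤ) * (m : ℤ) ^ s =
      (p : ℤ) ^ (N - 1) - 1 := by
    have hp' : (p : ℤ) ≠ 0 := by exact_mod_cast hp0.ne'
    apply mul_left_cancel₀ hp'
    rw [hZ, mul_sub, mul_one, ← _root_.pow_succ']
    congr 2
    omega
  have hL := congrArg (Int.cast (R := L)) hZ2
  push_cast at hL
  rw [hL, CharP.cast_eq_zero L p, zero_pow (by omega), zero_sub]

end field

end Crest.Agent.LT
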