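/-
Formal fixed point theorem for multivariate power series over any commutative ring.
`T = A(v, T)`, `A` with zero constant term and no linear term in `T`, has a unique solution.
Basis of the implicit function theorem (`IFT.lean`) and the multivariate inverse.
-/
import Crest.Agent.Lib.LT.Core

set_option autoImplicit false
set_option linter.unusedSectionVars false
set_option linter.unusedVariables false

namespace Crest.Agent.LT

open MvPowerSeries

variable {R : Type*} [CommRing R] {σ : Type*}

/-- `a` and `b` agree in degrees below `m`. -/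
def CongO (m : ℕ) (a b : MvPowerSeries σ R) : Prop :=
  ∀ γ : σ →₀ ℕ, Finsupp.degree γ < m → coeff γ a = coeff γ b

/-- `a` has order at least `m`. -/
def OrdGe (m : ℕ) (a : MvPowerSeries σ R) : Prop :=
  ∀ γ : σ →₀ ℕ, Finsupp.degree γ < m → coeff γ a = 0

lemma congO_iff {m : ℕ} {a b : MvPowerSeries σ R} : CongO m a b ↔ OrdGe m (a - b) := by
  simp only [CongO, OrdGe, map_sub, sub_eq_zero]

lemma OrdGe.mono {m n : ℕ} {a : MvPowerSeries σ R} (h : OrdGe m a) (hn : n ≤ m) : OrdGe n a :=
  fun γ hγ => h γ (lt_of_lt_of_le hγ hn)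

lemma ordGe_zero (m : ℕ) : OrdGe m (0 : MvPowerSeries σ R) := fun _ _ => by simp

lemma OrdGe.add {m : ℕ} {a b : MvPowerSeries σ R} (ha : OrdGe m a) (hb : OrdGe m b) :
    OrdGe m (a + b) := fun γ hγ => by simp [ha γ hγ, hb γ hγ]

lemma OrdGe.sub {m : ℕ} {a b : MvPowerSeries σ R} (ha : OrdGe m a) (hb : OrdGe m b) :
    OrdGe m (a - b) := fun γ hγ => by simp [ha γ hγ, hb γ hγ]

lemma OrdGe.mul {m n : ℕ} {a b : MvPowerSeries σ R} (ha : OrdGe m a) (hb : OrdGe n b) :
    OrdGe (m + n) (a * b) := by
  classical
  intro γ hγ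
  rw [coeff_mul]
  refine Finset.sum_eq_zero fun p hp => ?_
  have hsum : Finsupp.degree p.1 + Finsupp.degree p.2 = Finsupp.degree γ := by
    rw [← map_add, (Finset.HasAntidiagonal.mem_antidiagonal.mp hp)]
  by_cases h : Finsupp.degree p.1 < m
  · rw [ha _ h, zero_mul]
  · rw [hb _ (by omega), mul_zero]

lemma ordGe_one_of_const {a : MvPowerSeries σ R} (h : constantCoeff a = 0) : OrdGe 1 a := by
  intro γ hγ
  have : γ = 0 := (Finsupp.degree_eq_zero_iff γ).mp (by omega)
  subst this
  simpa using h

lemma OrdGe.const {a : MvPowerSeries σ R} (h : OrdGe 1 a) : constantCoeff a = 0 := by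
  have := h 0 (by simp)
  simpa using this

lemma OrdGe.pow {m : ℕ} {a : MvPowerSeries σ R} (h : OrdGe m a) (k : ℕ) : OrdGe (k * m) (a ^ k) := by
  induction k with
  | zero => intro γ hγ; simp at hγ
  | succ k ih =>
    rw [pow_succ, Nat.succ_mul]
    exact ih.mul h

/-- `a^k - b^k` has order at least `m + k - 1`. -/
lemma ordGe_pow_sub {m : ℕ} {a b : MvPowerSeries σ R} (ha : OrdGe 1 a) (hb : OrdGe 1 b)
    (hab : OrdGe m (a - b)) (k : ℕ) (hk : 1 ≤ k) : OrdGe (m + k - 1) (a ^ k - b ^ k) := by
  induction k, hk using Nat.le_induction with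
  | base => simpa using hab
  | succ k hk ih =>
    have h1 : a ^ (k + 1) - b ^ (k + 1) = a ^ k * (a - b) + (a ^ k - b ^ k) * b := by ring
    rw [h1]
    refine OrdGe.add ?_ ?_
    · have := (by simpa using ha.pow k : OrdGe k (a ^ k)).mul hab
      exact this.mono (by omega)
    · have := ih.mul hb
      exact this.mono (by omega)

section product

variable {τ : Type*} [Fintype τ]

/-- A product of powers has order at least its degree. -/
lemma ordGe_prod {G : τ → MvPowerSeries σ R} (hG : ∀ i, OrdGe 1 (G i)) (d : τ → ℕ)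
    (s : Finset τ) : OrdGe (∑ i ∈ s, d i) (∏ i ∈ s, G i ^ d i) := by
  classical
  induction s using Finset.induction_on with
  | empty => intro γ hγ; simp at hγ
  | insert a s ha ih =>
    rw [Finset.prod_insert ha, Finset.sum_insert ha]
    exact (by simpa using (hG a).pow (d a) : OrdGe (d a) (G a ^ d a)).mul ih

/-- Difference of monomials in nearby tuples. -/
lemma ordGe_prod_sub {G G' : τ → MvPowerSeries σ R} (hG : ∀ i, OrdGe 1 (G i))
    (hG' : ∀ i, OrdGe 1 (G' i)) {m : ℕ} (hm : 1 ≤ m) (h : ∀ i, OrdGe m (G i - G' i)) (d : τ → ℕ)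
    (s : Finset τ) :
    OrdGe (m + ∑ i ∈ s, d i - 1) (∏ i ∈ s, G i ^ d i - ∏ i ∈ s, G' i ^ d i) := by
  classical
  induction s using Finset.induction_on with
  | empty => simpa using ordGe_zero _
  | insert a s ha ih =>
    rw [Finset.prod_insert ha, Finset.prod_insert ha, Finset.sum_insert ha]
    have h1 : G a ^ d a * ∏ i ∈ s, G i ^ d i - G' a ^ d a * ∏ i ∈ s, G' i ^ d i =
        G a ^ d a * (∏ i ∈ s, G i ^ d i - ∏ i ∈ s, G' i ^ d i) +
          (G a ^ d a - G' a ^ d a) * ∏ i ∈ s, G' i ^ d i := by ring
    rw [h1]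
    refine OrdGe.add ?_ ?_
    · have := (by simpa using (hG a).pow (d a) : OrdGe (d a) (G a ^ d a)).mul ih
      exact this.mono (by omega)
    · by_cases hd : d a = 0
      · rw [hd]; simpa using ordGe_zero _
      · have := (ordGe_pow_sub (hG a) (hG' a) (h a) (d a) (by omega)).mul
          (ordGe_prod hG' d s)
        exact this.mono (by omega)

end product

/-- An exponent of degree one is a single variable. -/
lemma exists_single_of_degree_one {τ : Type*} {d : τ →₀ ℕ} (hd1 : Finsupp.degree d = 1) :
    ∃ i, d = Finsupp.single i 1 := by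
  classical
  have hne : d ≠ 0 := fun h0 => by simp [h0] at hd1
  obtain ⟨i, hi⟩ := Finsupp.ne_iff.mp hne
  refine ⟨i, ?_⟩
  have hsum : ∑ j ∈ d.support, d j = 1 := by simpa [Finsupp.degree_apply] using hd1
  have hi1 : 1 ≤ d i := Nat.one_le_iff_ne_zero.mpr (by simpa using hi)
  have hmem : i ∈ d.support := by simpa using hi
  have hsingle := Finset.single_le_sum (f := fun j => d j) (fun j _ => Nat.zero_le _) hmem
  have hi_eq : d i = 1 := by omega
  ext j
  by_cases hj : j = i
  · subst hj; simp [hi_eq]
  · rw [Finsupp.single_apply, if_neg (Ne.symm hj)]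
    by_contra hne'
    have hjmem : j ∈ d.support := by simpa using hne'
    have h2 : d i + d j ≤ ∑ k ∈ d.support, d k := by
      have hsub : ({i, j} : Finset τ) ⊆ d.support := by
        intro x hx; simp only [Finset.mem_insert, Finset.mem_singleton] at hx
        rcases hx with rfl | rfl <;> assumption
      have := Finset.sum_le_sum_of_subset (f := fun k => d k) hsub
      rwa [Finset.sum_pair (Ne.symm hj)] at this
    omega

section subst

variable {τ : Type*} [Fintype τ]

/-- Substitution compatibility with `CongO`. If `G ≡ G'` modulo order `m`, then `A(G) ≡ A(G')` modulo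
order `m + 1`, provided `A` has zero coefficient on every monomial of degree one in a variable where
`G` and `G'` differ. -/
lemma congO_subst {G G' : τ → MvPowerSeries σ R} (hG : ∀ i, constantCoeff (G i) = 0)
    (hG' : ∀ i, constantCoeff (G' i) = 0) {m : ℕ} (hm : 1 ≤ m)
    (h : ∀ i, OrdGe m (G i - G' i)) (A : MvPowerSeries τ R)
    (hA : ∀ i, G i ≠ G' i → coeff (Finsupp.single i 1) A = 0) :
    CongO (m + 1) (A.subst G) (A.subst G') := by
  classical
  intro e he
  have ha : HasSubst G := hasSubst_of_constantCoeff_zero hG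
  have ha' : HasSubst G' := hasSubst_of_constantCoeff_zero hG'
  -- both coefficients are finite sums over the union of supports
  rw [coeff_subst ha, coeff_subst ha']
  simp only [smul_eq_mul, Finsupp.prod_fintype _ _ (fun i => pow_zero _)]
  have hfin1 := coeff_subst_finite ha A e
  have hfin2 := coeff_subst_finite ha' A e
  simp only [smul_eq_mul, Finsupp.prod_fintype _ _ (fun i => pow_zero _)] at hfin1 hfin2
  refine finsum_congr fun d => ?_
  have key : coeff d A * coeff e (∏ i, G i ^ d i - ∏ i, G' i ^ d i) = 0 := by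
    by_cases hd2 : 2 ≤ Finsupp.degree d
    · have hd : Finsupp.degree d = ∑ i, d i := by
        rw [Finsupp.degree_apply]
        exact Finset.sum_subset (Finset.subset_univ _) (fun i _ hi => by simpa using hi)
      have := ordGe_prod_sub (fun i => ordGe_one_of_const (hG i))
        (fun i => ordGe_one_of_const (hG' i)) hm h (fun i => d i) Finset.univ
      rw [← hd] at this
      rw [this e (by omega), mul_zero]
    · have hle : Finsupp.degree d ≤ 1 := by omega
      by_cases hd0 : Finsupp.degree d = 0
      · have : d = 0 := (Finsupp.degree_eq_zero_iff d).mp hd0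
        subst this
        simp
      · have hd1 : Finsupp.degree d = 1 := by omega
        obtain ⟨i, hi⟩ := exists_single_of_degree_one hd1
        subst hi
        by_cases heq : G i = G' i
        · have hprod : ∏ j, G j ^ (Finsupp.single i 1 : τ →₀ ℕ) j =
              ∏ j, G' j ^ (Finsupp.single i 1 : τ →₀ ℕ) j := by
            refine Finset.prod_congr rfl fun j _ => ?_
            by_cases hj : j = i
            · subst hj; simp [heq]
            · simp [Finsupp.single_apply, Ne.symm hj]
          rw [hprod]; simp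
        · rw [hA i heq, zero_mul]
  rw [map_sub, mul_sub, sub_eq_zero] at key
  exact key

end subst

section fixedpoint

variable {α β : Type*} [Fintype α] [Fintype β]

/-- The map `T ↦ A(v, T)`. -/
noncomputable def fpStep (A : β → MvPowerSeries (α ⊕ β) R) (T : β → MvPowerSeries α R) :
    β → MvPowerSeries α R :=
  fun i => (A i).subst (Sum.elim (fun a => (X a : MvPowerSeries α R)) T)

/-- iterates -/
noncomputable def fpIter (A : β → MvPowerSeries (α ⊕ β) R) : ℕ → β → MvPowerSeries α R
  | 0 => fun _ => 0
  | n + 1 => fpStep A (fpIter A n)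

lemma const_elim {T : β → MvPowerSeries α R} (hT : ∀ i, constantCoeff (T i) = 0) (i : α ⊕ β) :
    constantCoeff (Sum.elim (fun a => (X a : MvPowerSeries α R)) T i) = 0 := by
  cases i with
  | inl a => simp
  | inr b => simpa using hT b

lemma const_fpStep {A : β → MvPowerSeries (α ⊕ β) R} (hA0 : ∀ i, constantCoeff (A i) = 0)
    {T : β → MvPowerSeries α R} (hT : ∀ i, constantCoeff (T i) = 0) (i : β) :
    constantCoeff (fpStep A T i) = 0 := by
  refine constantCoeff_subst_eq_zero (hasSubst_of_constantCoeff_zero (const_elim hT))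
    (const_elim hT) (hA0 i)

/-- one step improves the congruence -/
lemma fpStep_cong {A : β → MvPowerSeries (α ⊕ β) R}
    (hA1 : ∀ i j, coeff (Finsupp.single (Sum.inr j) 1) (A i) = 0)
    {T T' : β → MvPowerSeries α R} (hT : ∀ i, constantCoeff (T i) = 0)
    (hT' : ∀ i, constantCoeff (T' i) = 0) {m : ℕ} (hm : 1 ≤ m)
    (h : ∀ i, CongO m (T i) (T' i)) (i : β) :
    CongO (m + 1) (fpStep A T i) (fpStep A T' i) := by
  refine congO_subst (const_elim hT) (const_elim hT') hm ?_ (A i) ?_
  · rintro (a | b)
    · simpa using ordGe_zero m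
    · simpa using congO_iff.mp (h b)
  · rintro (a | b) hne
    · exact absurd rfl hne
    · exact hA1 i b

lemma const_fpIter {A : β → MvPowerSeries (α ⊕ β) R} (hA0 : ∀ i, constantCoeff (A i) = 0) (n : ℕ)
    (i : β) : constantCoeff (fpIter A n i) = 0 := by
  induction n generalizing i with
  | zero => simp [fpIter]
  | succ n ih => exact const_fpStep hA0 ih i

lemma fpIter_cong {A : β → MvPowerSeries (α ⊕ β) R} (hA0 : ∀ i, constantCoeff (A i) = 0)
    (hA1 : ∀ i j, coeff (Finsupp.single (Sum.inr j) 1) (A i) = 0) (n : ℕ) (i : β) :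
    CongO (n + 1) (fpIter A n i) (fpIter A (n + 1) i) := by
  induction n generalizing i with
  | zero =>
    intro γ hγ
    have : γ = 0 := (Finsupp.degree_eq_zero_iff γ).mp (by omega)
    subst this
    have := const_fpIter hA0 1 i
    simp only [fpIter, map_zero] at this ⊢
    simpa using this.symm
  | succ n ih =>
    exact fpStep_cong hA1 (const_fpIter hA0 n) (const_fpIter hA0 (n + 1)) (by omega) ih i

lemma CongO.mono {m n : ℕ} {a b : MvPowerSeries α R} (h : CongO m a b) (hn : n ≤ m) : CongO n a b :=
  fun γ hγ => h γ (lt_of_lt_of_le hγ hn)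

lemma fpIter_cong_le {A : β → MvPowerSeries (α ⊕ β) R} (hA0 : ∀ i, constantCoeff (A i) = 0)
    (hA1 : ∀ i j, coeff (Finsupp.single (Sum.inr j) 1) (A i) = 0) {n k : ℕ} (hnk : n ≤ k) (i : β) :
    CongO (n + 1) (fpIter A n i) (fpIter A k i) := by
  induction k, hnk using Nat.le_induction with
  | base => intro γ _; rfl
  | succ k hnk ih =>
    intro γ hγ
    rw [ih γ hγ]
    exact (fpIter_cong hA0 hA1 k i) γ (by omega)

/-- The limit of the iterates: the formal solution. -/
noncomputable def fpSol (A : β → MvPowerSeries (α ⊕ β) R) (i : β) : MvPowerSeries α R :=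
  fun γ => coeff γ (fpIter A (Finsupp.degree γ) i)

lemma coeff_fpSol (A : β → MvPowerSeries (α ⊕ β) R) (i : β) (γ : α →₀ ℕ) :
    coeff γ (fpSol A i) = coeff γ (fpIter A (Finsupp.degree γ) i) := rfl

lemma fpSol_cong {A : β → MvPowerSeries (α ⊕ β) R} (hA0 : ∀ i, constantCoeff (A i) = 0)
    (hA1 : ∀ i j, coeff (Finsupp.single (Sum.inr j) 1) (A i) = 0) (n : ℕ) (i : β) :
    CongO (n + 1) (fpSol A i) (fpIter A n i) := by
  intro γ hγ
  rw [coeff_fpSol]
  exact (fpIter_cong_le hA0 hA1 (show Finsupp.degree γ ≤ n by omega) i) γ (by omega)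

lemma const_fpSol {A : β → MvPowerSeries (α ⊕ β) R} (hA0 : ∀ i, constantCoeff (A i) = 0) (i : β) :
    constantCoeff (fpSol A i) = 0 := by
  rw [← coeff_zero_eq_constantCoeff_apply, coeff_fpSol, coeff_zero_eq_constantCoeff_apply]
  exact const_fpIter hA0 _ i

/-- The formal solution solves the equation. -/
theorem fpSol_eq {A : β → MvPowerSeries (α ⊕ β) R} (hA0 : ∀ i, constantCoeff (A i) = 0)
    (hA1 : ∀ i j, coeff (Finsupp.single (Sum.inr j) 1) (A i) = 0) (i : β) :
    fpSol A i = fpStep A (fpSol A) i := by
  ext γ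
  set n := Finsupp.degree γ with hn
  have h1 : coeff γ (fpSol A i) = coeff γ (fpIter A (n + 1) i) :=
    (fpSol_cong hA0 hA1 (n + 1) i) γ (by omega)
  have h2 : coeff γ (fpStep A (fpSol A) i) = coeff γ (fpStep A (fpIter A n) i) :=
    (fpStep_cong hA1 (const_fpSol hA0) (const_fpIter hA0 n) (by omega)
      (fun j => fpSol_cong hA0 hA1 n j) i) γ (by omega)
  rw [h1, h2]; rfl

/-- Uniqueness of the formal solution. -/
theorem fpSol_unique {A : β → MvPowerSeries (α ⊕ β) R} (hA0 : ∀ i, constantCoeff (A i) = 0)
    (hA1 : ∀ i j, coeff (Finsupp.single (Sum.inr j) 1) (A i) = 0)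
    {T : β → MvPowerSeries α R} (hT0 : ∀ i, constantCoeff (T i) = 0)
    (hT : ∀ i, T i = fpStep A T i) : T = fpSol A := by
  have key : ∀ n i, CongO (n + 1) (T i) (fpIter A n i) := by
    intro n
    induction n with
    | zero =>
      intro i γ hγ
      have : γ = 0 := (Finsupp.degree_eq_zero_iff γ).mp (by omega)
      subst this
      simpa [fpIter] using hT0 i
    | succ n ih =>
      intro i
      have := fpStep_cong hA1 hT0 (const_fpIter hA0 n) (by omega) ih i
      rw [← hT i] at this
      exact this
  funext i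
  ext γ
  rw [coeff_fpSol]
  exact key _ i γ (by omega)

end fixedpoint

/-! ### Multivariate formal inverse -/

section inverse

variable {α : Type*} [Fintype α] [DecidableEq α]

/-- Linear part matrix of a tuple of series. -/
noncomputable def linMat (f : α → MvPowerSeries α R) : Matrix α α R :=
  Matrix.of fun i j => coeff (Finsupp.single j 1) (f i)

/-- The fixed point map for the right inverse of `f` with inverse linear part `N`:
`T_i = ∑_j N_ij (v_j - f_j(T)) + T_i`. -/
noncomputable def invA (f : α → MvPowerSeries α R) (N : Matrix α α R) (i : α) :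
    MvPowerSeries (α ⊕ α) R :=
  X (Sum.inr i) + ∑ j, C (N i j) *
    (X (Sum.inl j) - (f j).subst (fun k => (X (Sum.inr k) : MvPowerSeries (α ⊕ α) R)))

end inverse

end Crest.Agent.LT
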