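/-
A3 (part 2): order bookkeeping for substitution, the defect series `Err` (BLUEPRINT §A3).
-/
import Crest.Agent.Lib.LT.Frob
import Crest.Agent.Lib.LT.Formal
import Crest.Agent.Lib.LT.Cocycle

set_option autoImplicit false
set_option linter.unusedSectionVars false
set_option linter.unusedVariables false

namespace Crest.Agent.LT

open Crest.LubinTate MvPowerSeries

variable {R : Type*} [CommRing R] {σ τ : Type*}

section order

variable [Fintype σ]

/-- Termwise comparison of two substitutions. -/
lemma coeff_subst_congr_of {a a' : σ → MvPowerSeries τ R} (ha : HasSubst a) (ha' : HasSubst a')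
    (A : MvPowerSeries σ R) (e : τ →₀ ℕ)
    (key : ∀ d : σ →₀ ℕ, coeff d A * coeff e (∏ i, a i ^ d i - ∏ i, a' i ^ d i) = 0) :
    coeff e (A.subst a) = coeff e (A.subst a') := by
  rw [coeff_subst ha, coeff_subst ha']
  simp only [smul_eq_mul, Finsupp.prod_fintype _ _ (fun i => pow_zero _)]
  refine finsum_congr fun d => ?_
  have := key d
  rw [map_sub, mul_sub, sub_eq_zero] at this
  exact this

lemma degree_eq_sum' (d : σ →₀ ℕ) : Finsupp.degree d = ∑ i, d i := by
  rw [Finsupp.degree_apply]
  exact Finset.sum_subset (Finset.subset_univ _) (fun i _ hi => by simpa using hi)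

/-- Congruent arguments give congruent values. -/
lemma ordGe_subst_sub {a a' : σ → MvPowerSeries τ R} (hG : ∀ i, constantCoeff (a i) = 0)
    (hG' : ∀ i, constantCoeff (a' i) = 0) {m : ℕ} (hm : 1 ≤ m) (h : ∀ i, OrdGe m (a i - a' i))
    (A : MvPowerSeries σ R) : OrdGe m (A.subst a - A.subst a') := by
  classical
  intro e he
  rw [map_sub, sub_eq_zero]
  apply coeff_subst_congr_of (hasSubst_of_constantCoeff_zero hG)
    (hasSubst_of_constantCoeff_zero hG')
  intro d
  by_cases hd0 : Finsupp.degree d = 0
  · have : d = 0 := (Finsupp.degree_eq_zero_iff d).mp hd0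
    subst this
    simp
  · have := ordGe_prod_sub (fun i => ordGe_one_of_const (hG i))
      (fun i => ordGe_one_of_const (hG' i)) hm h (fun i => d i) Finset.univ
    rw [← degree_eq_sum'] at this
    rw [this e (by omega), mul_zero]

/-- Substituting arguments that are congruent modulo order two into a series of order `N`
gives a congruence modulo order `N + 1`. -/
lemma ordGe_subst_sub_two {a a' : σ → MvPowerSeries τ R} (hG : ∀ i, constantCoeff (a i) = 0)
    (hG' : ∀ i, constantCoeff (a' i) = 0) (h : ∀ i, OrdGe 2 (a i - a' i))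
    {A : MvPowerSeries σ R} {N : ℕ} (hA : OrdGe N A) :
    OrdGe (N + 1) (A.subst a - A.subst a') := by
  classical
  intro e he
  rw [map_sub, sub_eq_zero]
  apply coeff_subst_congr_of (hasSubst_of_constantCoeff_zero hG)
    (hasSubst_of_constantCoeff_zero hG')
  intro d
  by_cases hd : Finsupp.degree d < N
  · rw [hA d hd, zero_mul]
  · have := ordGe_prod_sub (fun i => ordGe_one_of_const (hG i))
      (fun i => ordGe_one_of_const (hG' i)) (by omega : 1 ≤ 2) h (fun i => d i) Finset.univ
    rw [← degree_eq_sum'] at this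
    rw [this e (by omega), mul_zero]

/-- Substitution preserves order. -/
lemma ordGe_subst {a : σ → MvPowerSeries τ R} (hG : ∀ i, constantCoeff (a i) = 0)
    {A : MvPowerSeries σ R} {N : ℕ} (hA : OrdGe N A) : OrdGe N (A.subst a) := by
  classical
  intro e he
  rw [coeff_subst (hasSubst_of_constantCoeff_zero hG)]
  apply finsum_eq_zero_of_forall_eq_zero
  intro d
  by_cases hd : Finsupp.degree d < N
  · rw [hA d hd, zero_smul]
  · have := ordGe_prod (fun i => ordGe_one_of_const (hG i)) (fun i => d i) Finset.univ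
    rw [← degree_eq_sum'] at this
    simp only [Finsupp.prod_fintype _ _ (fun i => pow_zero _)]
    rw [this e (by omega), smul_zero]

end order

lemma ordGe_zero_any (a : MvPowerSeries τ R) : OrdGe 0 a := fun _ h => absurd h (by omega)

lemma ordGe_one_subst_f {f : PowerSeries R} (h0 : PowerSeries.constantCoeff f = 0)
    {a : MvPowerSeries τ R} (ha : constantCoeff a = 0) :
    constantCoeff (PowerSeries.subst a f) = 0 :=
  PowerSeries.constantCoeff_subst_eq_zero ha _ h0

/-- First order expansion of a law in its first argument. -/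
lemma fgAdd_perturb_left (F : FormalGroup R) {u c e : MvPowerSeries τ R}
    (hu : constantCoeff u = 0) (hc : constantCoeff c = 0) {N : ℕ} (hN : 1 ≤ N) (he : OrdGe N e) :
    OrdGe (N + 1) (fgAdd F (u + e) c - fgAdd F u c - e) := by
  have hes : constantCoeff e = 0 := (he.mono hN).const
  have hue : constantCoeff (u + e) = 0 := by simp [hu, hes]
  have s1 : PowerSeries.HasSubst (u + e) := PowerSeries.HasSubst.of_constantCoeff_zero hue
  have s2 : PowerSeries.HasSubst u := PowerSeries.HasSubst.of_constantCoeff_zero hu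
  have s3 : PowerSeries.HasSubst c := PowerSeries.HasSubst.of_constantCoeff_zero hc
  rw [fgAdd_eq F s1 s3, fgAdd_eq F s2 s3]
  set R1 := (fgRem F).subst ![u + e, c]
  set R2 := (fgRem F).subst ![u, c]
  have hR : OrdGe N (R1 - R2) := by
    apply ordGe_subst_sub _ _ hN
    · intro i; fin_cases i
      · simpa using he
      · simpa using ordGe_zero N
    · intro i; fin_cases i <;> simp [hue, hc]
    · intro i; fin_cases i <;> simp [hu, hc]
  have e1 : u + e + c + (u + e) * c * R1 - (u + c + u * c * R2) - e =
      e * c * R1 + u * c * (R1 - R2) := by ring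
  rw [e1]
  refine OrdGe.add ?_ ?_
  · have := (he.mul (ordGe_one_of_const hc)).mul (ordGe_zero_any R1)
    simpa using this
  · have := ((ordGe_one_of_const hu).mul (ordGe_one_of_const hc)).mul hR
    exact this.mono (by omega)

/-- First order expansion of a law in its second argument. -/
lemma fgAdd_perturb_right (F : FormalGroup R) [F.IsComm] {u c e : MvPowerSeries τ R}
    (hu : constantCoeff u = 0) (hc : constantCoeff c = 0) {N : ℕ} (hN : 1 ≤ N) (he : OrdGe N e) :
    OrdGe (N + 1) (fgAdd F c (u + e) - fgAdd F c u - e) := by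
  have hes : constantCoeff e = 0 := (he.mono hN).const
  have hue : constantCoeff (u + e) = 0 := by simp [hu, hes]
  have s1 : PowerSeries.HasSubst (u + e) := PowerSeries.HasSubst.of_constantCoeff_zero hue
  have s2 : PowerSeries.HasSubst u := PowerSeries.HasSubst.of_constantCoeff_zero hu
  have s3 : PowerSeries.HasSubst c := PowerSeries.HasSubst.of_constantCoeff_zero hc
  rw [fgAdd_comm F s3 s1, fgAdd_comm F s3 s2]
  exact fgAdd_perturb_left F hu hc hN he

/-- `F(X₀, X₁) ≡ X₀ + X₁` modulo order two, at any points of order one. -/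
lemma fgAdd_sub_add (F : FormalGroup R) {a b : MvPowerSeries τ R}
    (ha : constantCoeff a = 0) (hb : constantCoeff b = 0) :
    OrdGe 2 (fgAdd F a b - (a + b)) := by
  have s1 : PowerSeries.HasSubst a := PowerSeries.HasSubst.of_constantCoeff_zero ha
  have s3 : PowerSeries.HasSubst b := PowerSeries.HasSubst.of_constantCoeff_zero hb
  rw [fgAdd_eq F s1 s3]
  have e1 : a + b + a * b * (fgRem F).subst ![a, b] - (a + b) =
      a * b * (fgRem F).subst ![a, b] := by ring
  rw [e1]
  have := ((ordGe_one_of_const ha).mul (ordGe_one_of_const hb)).mul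
    (ordGe_zero_any ((fgRem F).subst ![a, b]))
  simpa using this

/-! ### The defect -/

section err

variable (G Γ : FormalGroup R) (κ : PowerSeries R)

/-- `κ(G(X,Y)) - Γ(κ X, κ Y)`. -/
noncomputable def Err : MvPowerSeries (Fin 2) R :=
  PowerSeries.subst G.toPowerSeries κ -
    Γ.toPowerSeries.subst ![PowerSeries.subst (X 0 : MvPowerSeries (Fin 2) R) κ,
      PowerSeries.subst (X 1 : MvPowerSeries (Fin 2) R) κ]

variable {G Γ κ}

lemma isFGHom_of_err (h0 : PowerSeries.constantCoeff κ = 0) (h : Err G Γ κ = 0) :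
    IsFGHom G Γ κ := ⟨h0, sub_eq_zero.1 h⟩

/-- Evaluation of the defect: `Err(U,V) = κ(G(U,V)) - Γ(κ U, κ V)`. -/
lemma err_subst (h0 : PowerSeries.constantCoeff κ = 0) {U V : MvPowerSeries τ R}
    (hU : PowerSeries.HasSubst U) (hV : PowerSeries.HasSubst V) :
    (Err G Γ κ).subst ![U, V] =
      PowerSeries.subst (fgAdd G U V) κ -
        fgAdd Γ (PowerSeries.subst U κ) (PowerSeries.subst V κ) := by
  have hUV := hasSubst_pair hU hV
  have hc : HasSubst ![PowerSeries.subst (X 0 : MvPowerSeries (Fin 2) R) κ,
      PowerSeries.subst (X 1 : MvPowerSeries (Fin 2) R) κ] := hasSubst_homXX h0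
  rw [Err, subst_sub hUV, subst_psubst (hasSubst_law G) hUV]
  congr 1
  rw [subst_comp_subst_apply hc hUV]
  congr! 2 with s
  fin_cases s
  · simp only [Fin.zero_eta, Fin.isValue, Matrix.cons_val_zero]
    rw [subst_psubst_X _ hUV]; rfl
  · simp only [Fin.mk_one, Fin.isValue, Matrix.cons_val_one, Matrix.cons_val_fin_one]
    rw [subst_psubst_X _ hUV]; rfl

/-- The defect equation: `κ(G(U,V)) = Γ(κ U, κ V) + Err(U,V)`. -/
lemma kappa_fgAdd (h0 : PowerSeries.constantCoeff κ = 0) {U V : MvPowerSeries τ R}
    (hU : PowerSeries.HasSubst U) (hV : PowerSeries.HasSubst V) :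
    PowerSeries.subst (fgAdd G U V) κ =
      fgAdd Γ (PowerSeries.subst U κ) (PowerSeries.subst V κ) + (Err G Γ κ).subst ![U, V] := by
  rw [err_subst h0 hU hV]; ring

lemma cc_subst_kappa (h0 : PowerSeries.constantCoeff κ = 0) {U : MvPowerSeries τ R}
    (hU : constantCoeff U = 0) : constantCoeff (PowerSeries.subst U κ) = 0 :=
  PowerSeries.constantCoeff_subst_eq_zero hU _ h0

end err

end Crest.Agent.LT
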