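/-
A3 (part 3): coefficient relations of the leading term of the defect (BLUEPRINT §A3).
-/
import Crest.Agent.Lib.LT.LazardA

set_option autoImplicit false
set_option linter.unusedSectionVars false
set_option linter.unusedVariables false

namespace Crest.Agent.LT

open Crest.LubinTate MvPowerSeries

variable {L : Type*} [CommRing L]

/-! ### Monomials in two and three variables -/

/-- exponent in three variables -/
noncomputable def e3 (i j k : ℕ) : Fin 3 →₀ ℕ :=
  Finsupp.single 0 i + Finsupp.single 1 j + Finsupp.single 2 k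

/-- exponent in two variables -/
noncomputable def e2 (i j : ℕ) : Fin 2 →₀ ℕ := Finsupp.single 0 i + Finsupp.single 1 j

lemma e3_apply0 (i j k : ℕ) : e3 i j k 0 = i := by simp [e3]
lemma e3_apply1 (i j k : ℕ) : e3 i j k 1 = j := by simp [e3]
lemma e3_apply2 (i j k : ℕ) : e3 i j k 2 = k := by simp [e3]
lemma e2_apply0 (i j : ℕ) : e2 i j 0 = i := by simp [e2]
lemma e2_apply1 (i j : ℕ) : e2 i j 1 = j := by simp [e2]

lemma e3_inj {i j k i' j' k' : ℕ} : e3 i j k = e3 i' j' k' ↔ i = i' ∧ j = j' ∧ k = k' := by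
  constructor
  · intro h
    refine ⟨?_, ?_, ?_⟩
    · simpa [e3_apply0] using DFunLike.congr_fun h 0
    · simpa [e3_apply1] using DFunLike.congr_fun h 1
    · simpa [e3_apply2] using DFunLike.congr_fun h 2
  · rintro ⟨rfl, rfl, rfl⟩; rfl

lemma e2_inj {i j i' j' : ℕ} : e2 i j = e2 i' j' ↔ i = i' ∧ j = j' := by
  constructor
  · intro h
    refine ⟨?_, ?_⟩
    · simpa [e2_apply0] using DFunLike.congr_fun h 0
    · simpa [e2_apply1] using DFunLike.congr_fun h 1
  · rintro ⟨rfl, rfl⟩; rfl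

lemma e2_eta (d : Fin 2 →₀ ℕ) : d = e2 (d 0) (d 1) := by
  ext i; fin_cases i <;> simp [e2]

lemma degree_e2 (i j : ℕ) : Finsupp.degree (e2 i j) = i + j := by
  simp [e2, map_add]

lemma degree_e3 (i j k : ℕ) : Finsupp.degree (e3 i j k) = i + j + k := by
  simp [e3, map_add]

/-- the monomial `x^m y^n z^b` -/
lemma xyz_monomial (m n b : ℕ) :
    (X 0 : MvPowerSeries (Fin 3) L) ^ m * X 1 ^ n * X 2 ^ b = monomial (e3 m n b) (1 : L) := by
  rw [X_pow_eq, X_pow_eq, X_pow_eq, monomial_mul_monomial, monomial_mul_monomial]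
  simp [e3]

lemma xy_monomial (m n : ℕ) :
    (X 0 : MvPowerSeries (Fin 2) L) ^ m * X 1 ^ n = monomial (e2 m n) (1 : L) := by
  rw [X_pow_eq, X_pow_eq, monomial_mul_monomial]
  simp [e2]

open Classical in
/-- Coefficients of `(x+y)^a z^b`. -/
lemma coeff_xy_pow_z (a b i j k : ℕ) :
    coeff (e3 i j k) (((X 0 + X 1 : MvPowerSeries (Fin 3) L)) ^ a * X 2 ^ b) =
      if a = i + j ∧ b = k then (a.choose i : L) else 0 := by
  rw [add_pow, Finset.sum_mul, map_sum]
  have h1 : ∀ m ∈ Finset.range (a + 1),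
      coeff (e3 i j k) ((X 0 : MvPowerSeries (Fin 3) L) ^ m * X 1 ^ (a - m) * (a.choose m : MvPowerSeries (Fin 3) L) * X 2 ^ b) =
        if (m = i ∧ a - m = j ∧ b = k) then (a.choose m : L) else 0 := by
    intro m _
    have : (X 0 : MvPowerSeries (Fin 3) L) ^ m * X 1 ^ (a - m) * (a.choose m : MvPowerSeries (Fin 3) L) * X 2 ^ b =
        ((a.choose m : ℕ) : MvPowerSeries (Fin 3) L) * monomial (e3 m (a - m) b) (1 : L) := by
      rw [← xyz_monomial]; ring
    rw [this, ← map_natCast (C (σ := Fin 3) (R := L)), coeff_C_mul, coeff_monomial]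
    by_cases h : m = i ∧ a - m = j ∧ b = k
    · rcases h with ⟨rfl, rfl, rfl⟩
      simp
    · rw [if_neg h, if_neg, mul_zero]
      intro h2
      exact h ⟨(e3_inj.1 h2).1.symm, (e3_inj.1 h2).2.1.symm, (e3_inj.1 h2).2.2.symm⟩
  rw [Finset.sum_congr rfl h1]
  by_cases hh : a = i + j ∧ b = k
  · rw [if_pos hh, Finset.sum_eq_single i]
    · rw [if_pos ⟨rfl, by omega, hh.2⟩]
    · intro m _ hm
      rw [if_neg (fun h => hm h.1)]
    · intro hi
      exact absurd (Finset.mem_range.2 (by omega)) hi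
  · rw [if_neg hh]
    apply Finset.sum_eq_zero
    intro m hm
    rw [if_neg]
    rintro ⟨rfl, rfl, rfl⟩
    apply hh
    have := Finset.mem_range.1 hm
    exact ⟨by omega, rfl⟩

open Classical in
/-- Coefficients of `x^a (y+z)^b`. -/
lemma coeff_x_yz_pow (a b i j k : ℕ) :
    coeff (e3 i j k) ((X 0 : MvPowerSeries (Fin 3) L) ^ a * (X 1 + X 2) ^ b) =
      if a = i ∧ b = j + k then (b.choose j : L) else 0 := by
  rw [add_pow, Finset.mul_sum, map_sum]
  have h1 : ∀ m ∈ Finset.range (b + 1),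
      coeff (e3 i j k) ((X 0 : MvPowerSeries (Fin 3) L) ^ a * ((X 1) ^ m * X 2 ^ (b - m) * (b.choose m : MvPowerSeries (Fin 3) L))) =
        if (a = i ∧ m = j ∧ b - m = k) then (b.choose m : L) else 0 := by
    intro m _
    have : (X 0 : MvPowerSeries (Fin 3) L) ^ a * ((X 1) ^ m * X 2 ^ (b - m) * (b.choose m : MvPowerSeries (Fin 3) L)) =
        ((b.choose m : ℕ) : MvPowerSeries (Fin 3) L) * monomial (e3 a m (b - m)) (1 : L) := by
      rw [← xyz_monomial]; ring
    rw [this, ← map_natCast (C (σ := Fin 3) (R := L)), coeff_C_mul, coeff_monomial]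
    by_cases h : a = i ∧ m = j ∧ b - m = k
    · rcases h with ⟨rfl, rfl, rfl⟩
      simp
    · rw [if_neg h, if_neg, mul_zero]
      intro h2
      exact h ⟨(e3_inj.1 h2).1.symm, (e3_inj.1 h2).2.1.symm, (e3_inj.1 h2).2.2.symm⟩
  rw [Finset.sum_congr rfl h1]
  by_cases hh : a = i ∧ b = j + k
  · rw [if_pos hh, Finset.sum_eq_single j]
    · rw [if_pos ⟨hh.1, rfl, by omega⟩]
    · intro m _ hm
      rw [if_neg (fun h => hm h.2.1)]
    · intro hi
      exact absurd (Finset.mem_range.2 (by omega)) hi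
  · rw [if_neg hh]
    apply Finset.sum_eq_zero
    intro m hm
    rw [if_neg]
    rintro ⟨rfl, rfl, rfl⟩
    apply hh
    have := Finset.mem_range.1 hm
    exact ⟨rfl, by omega⟩

/-- Coefficients of `A(x+y, z)` at `x^i y^j z^k`. -/
lemma coeff_subst_xy_z (A : MvPowerSeries (Fin 2) L) (i j k : ℕ) :
    coeff (e3 i j k) (A.subst ![(X 0 + X 1 : MvPowerSeries (Fin 3) L), X 2]) =
      coeff (e2 (i + j) k) A * ((i + j).choose i : L) := by
  classical
  have hc : HasSubst ![(X 0 + X 1 : MvPowerSeries (Fin 3) L), X 2] :=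
    hasSubst_of_constantCoeff_zero fun s => by fin_cases s <;> simp
  rw [coeff_subst hc, finsum_eq_single _ (e2 (i + j) k)]
  · rw [prod_pair, e2_apply0, e2_apply1, coeff_xy_pow_z, if_pos ⟨rfl, rfl⟩, smul_eq_mul]
  · intro d hd
    rw [prod_pair, coeff_xy_pow_z, if_neg, smul_zero]
    rintro ⟨h1, h2⟩
    apply hd
    rw [e2_eta d, h1, h2]

/-- Coefficients of `A(x, y+z)` at `x^i y^j z^k`. -/
lemma coeff_subst_x_yz (A : MvPowerSeries (Fin 2) L) (i j k : ℕ) :
    coeff (e3 i j k) (A.subst ![(X 0 : MvPowerSeries (Fin 3) L), X 1 + X 2]) =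
      coeff (e2 i (j + k)) A * ((j + k).choose j : L) := by
  classical
  have hc : HasSubst ![(X 0 : MvPowerSeries (Fin 3) L), X 1 + X 2] :=
    hasSubst_of_constantCoeff_zero fun s => by fin_cases s <;> simp
  rw [coeff_subst hc, finsum_eq_single _ (e2 i (j + k))]
  · rw [prod_pair, e2_apply0, e2_apply1, coeff_x_yz_pow, if_pos ⟨rfl, rfl⟩, smul_eq_mul]
  · intro d hd
    rw [prod_pair, coeff_x_yz_pow, if_neg, smul_zero]
    rintro ⟨h1, h2⟩
    apply hd
    rw [e2_eta d, h1, h2]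

/-- `A(x,y)` has no monomial containing `z`. -/
lemma coeff_subst_x_y (A : MvPowerSeries (Fin 2) L) (i j k : ℕ) (hk : 1 ≤ k) :
    coeff (e3 i j k) (A.subst ![(X 0 : MvPowerSeries (Fin 3) L), X 1]) = 0 := by
  classical
  have hc : HasSubst ![(X 0 : MvPowerSeries (Fin 3) L), X 1] :=
    hasSubst_of_constantCoeff_zero fun s => by fin_cases s <;> simp
  rw [coeff_subst hc]
  apply finsum_eq_zero_of_forall_eq_zero
  intro d
  rw [prod_pair]
  have : (X 0 : MvPowerSeries (Fin 3) L) ^ d 0 * X 1 ^ d 1 = monomial (e3 (d 0) (d 1) 0) (1 : L) := by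
    rw [← xyz_monomial]; simp
  rw [this, coeff_monomial, if_neg, smul_zero]
  intro h
  have := (e3_inj.1 h).2.2
  omega

/-- `A(y,z)` has no monomial containing `x`. -/
lemma coeff_subst_y_z (A : MvPowerSeries (Fin 2) L) (i j k : ℕ) (hi : 1 ≤ i) :
    coeff (e3 i j k) (A.subst ![(X 1 : MvPowerSeries (Fin 3) L), X 2]) = 0 := by
  classical
  have hc : HasSubst ![(X 1 : MvPowerSeries (Fin 3) L), X 2] :=
    hasSubst_of_constantCoeff_zero fun s => by fin_cases s <;> simp
  rw [coeff_subst hc]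
  apply finsum_eq_zero_of_forall_eq_zero
  intro d
  rw [prod_pair]
  have : (X 1 : MvPowerSeries (Fin 3) L) ^ d 0 * X 2 ^ d 1 = monomial (e3 0 (d 0) (d 1)) (1 : L) := by
    rw [← xyz_monomial]; simp
  rw [this, coeff_monomial, if_neg, smul_zero]
  intro h
  have := (e3_inj.1 h).1
  omega

/-! ### The cocycle relation for the defect -/

section cocycle

variable {G Γ : FormalGroup L} [Γ.IsComm] {κ : PowerSeries L}

local notation "x" => (X 0 : MvPowerSeries (Fin 3) L)
local notation "y" => (X 1 : MvPowerSeries (Fin 3) L)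
local notation "z" => (X 2 : MvPowerSeries (Fin 3) L)

lemma hs_X3 (i : Fin 3) : PowerSeries.HasSubst (X i : MvPowerSeries (Fin 3) L) := PowerSeries.HasSubst.X i

lemma cc_X3 (i : Fin 3) : constantCoeff (X i : MvPowerSeries (Fin 3) L) = 0 := by simp

/-- The modular cocycle equation. -/
theorem err_cocycle (h0 : PowerSeries.constantCoeff κ = 0) {N : ℕ} (hN : 1 ≤ N)
    (hE : OrdGe N (Err G Γ κ)) :
    OrdGe (N + 1) ((Err G Γ κ).subst ![x, y] + (Err G Γ κ).subst ![x + y, z]
      - (Err G Γ κ).subst ![y, z] - (Err G Γ κ).subst ![x, y + z]) := by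
  set E := Err G Γ κ with hEdef
  have ccG : ∀ {a b : MvPowerSeries (Fin 3) L}, constantCoeff a = 0 → constantCoeff b = 0 →
      constantCoeff (fgAdd G a b) = 0 := fun ha hb => constantCoeff_fgAdd_of G ha hb
  have ccΓ : ∀ {a b : MvPowerSeries (Fin 3) L}, constantCoeff a = 0 → constantCoeff b = 0 →
      constantCoeff (fgAdd Γ a b) = 0 := fun ha hb => constantCoeff_fgAdd_of Γ ha hb
  have hsub : ∀ {a b : MvPowerSeries (Fin 3) L}, constantCoeff a = 0 → constantCoeff b = 0 →
      constantCoeff (![a, b] 0) = 0 ∧ constantCoeff (![a, b] 1) = 0 := fun ha hb => ⟨ha, hb⟩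
  have hccpair : ∀ {a b : MvPowerSeries (Fin 3) L}, constantCoeff a = 0 → constantCoeff b = 0 →
      ∀ i : Fin 2, constantCoeff (![a, b] i) = 0 := by
    intro a b ha hb i; fin_cases i
    · exact ha
    · exact hb
  set K : MvPowerSeries (Fin 3) L → MvPowerSeries (Fin 3) L := fun U => PowerSeries.subst U κ with hK
  have hKcc : ∀ {U : MvPowerSeries (Fin 3) L}, constantCoeff U = 0 → constantCoeff (K U) = 0 :=
    fun hU => cc_subst_kappa h0 hU
  have hsX : ∀ {U : MvPowerSeries (Fin 3) L}, constantCoeff U = 0 → PowerSeries.HasSubst U :=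
    fun hU => PowerSeries.HasSubst.of_constantCoeff_zero hU
  have cx : constantCoeff x = 0 := cc_X3 0
  have cy : constantCoeff y = 0 := cc_X3 1
  have cz : constantCoeff z = 0 := cc_X3 2
  -- values of the defect at the relevant points have order N
  have hEo : ∀ {a b : MvPowerSeries (Fin 3) L}, constantCoeff a = 0 → constantCoeff b = 0 →
      OrdGe N (E.subst ![a, b]) := fun ha hb => ordGe_subst (hccpair ha hb) hE
  -- left bracketing
  have hL : OrdGe (N + 1) (K (fgAdd G (fgAdd G x y) z) -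
      (fgAdd Γ (fgAdd Γ (K x) (K y)) (K z) + E.subst ![x, y] + E.subst ![fgAdd G x y, z])) := by
    have e1 : K (fgAdd G (fgAdd G x y) z) =
        fgAdd Γ (K (fgAdd G x y)) (K z) + E.subst ![fgAdd G x y, z] :=
      kappa_fgAdd h0 (hsX (ccG cx cy)) (hsX cz)
    have e2 : K (fgAdd G x y) = fgAdd Γ (K x) (K y) + E.subst ![x, y] :=
      kappa_fgAdd h0 (hsX cx) (hsX cy)
    rw [e1, e2]
    have := fgAdd_perturb_left Γ (ccΓ (hKcc cx) (hKcc cy)) (hKcc cz) hN (hEo cx cy)
    convert this using 1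
    ring
  -- right bracketing
  have hR : OrdGe (N + 1) (K (fgAdd G x (fgAdd G y z)) -
      (fgAdd Γ (K x) (fgAdd Γ (K y) (K z)) + E.subst ![y, z] + E.subst ![x, fgAdd G y z])) := by
    have e1 : K (fgAdd G x (fgAdd G y z)) =
        fgAdd Γ (K x) (K (fgAdd G y z)) + E.subst ![x, fgAdd G y z] :=
      kappa_fgAdd h0 (hsX cx) (hsX (ccG cy cz))
    have e2 : K (fgAdd G y z) = fgAdd Γ (K y) (K z) + E.subst ![y, z] :=
      kappa_fgAdd h0 (hsX cy) (hsX cz)
    rw [e1, e2]
    have := fgAdd_perturb_right Γ (ccΓ (hKcc cy) (hKcc cz)) (hKcc cx) hN (hEo cy cz)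
    convert this using 1
    ring
  have hassG : fgAdd G (fgAdd G x y) z = fgAdd G x (fgAdd G y z) :=
    fgAdd_assoc G (hsX cx) (hsX cy) (hsX cz)
  have hassΓ : fgAdd Γ (fgAdd Γ (K x) (K y)) (K z) = fgAdd Γ (K x) (fgAdd Γ (K y) (K z)) :=
    fgAdd_assoc Γ (hsX (hKcc cx)) (hsX (hKcc cy)) (hsX (hKcc cz))
  rw [← hassG, ← hassΓ] at hR
  have h1 : OrdGe (N + 1) (E.subst ![fgAdd G x y, z] - E.subst ![x + y, z]) := by
    apply ordGe_subst_sub_two (hccpair (ccG cx cy) cz) (hccpair (by simp) cz) _ hE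
    intro i; fin_cases i
    · exact fgAdd_sub_add G cx cy
    · simpa using ordGe_zero 2
  have h2 : OrdGe (N + 1) (E.subst ![x, fgAdd G y z] - E.subst ![x, y + z]) := by
    apply ordGe_subst_sub_two (hccpair cx (ccG cy cz)) (hccpair cx (by simp)) _ hE
    intro i; fin_cases i
    · simpa using ordGe_zero 2
    · exact fgAdd_sub_add G cy cz
  have key := (((hR.sub hL).add h2).sub h1)
  convert key using 1
  ring

/-- The coefficient relation. -/
theorem err_coeff_rel (h0 : PowerSeries.constantCoeff κ = 0) {N : ℕ} (hN : 1 ≤ N)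
    (hE : OrdGe N (Err G Γ κ)) {i j k : ℕ} (hi : 1 ≤ i) (hk : 1 ≤ k) (hijk : i + j + k = N) :
    coeff (e2 (i + j) k) (Err G Γ κ) * ((i + j).choose i : L) =
      coeff (e2 i (j + k)) (Err G Γ κ) * ((j + k).choose j : L) := by
  have h := err_cocycle h0 hN hE (e3 i j k) (by rw [degree_e3]; omega)
  simp only [map_sub, map_add] at h
  rw [coeff_subst_x_y _ i j k hk, coeff_subst_y_z _ i j k hi, coeff_subst_xy_z, coeff_subst_x_yz]
    at h
  have h' : coeff (e2 (i + j) k) (Err G Γ κ) * ((i + j).choose i : L) -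
      coeff (e2 i (j + k)) (Err G Γ κ) * ((j + k).choose j : L) = 0 := by
    simpa using h
  exact sub_eq_zero.1 h'

end cocycle

/-! ### Symmetry and pure terms -/

section sym

variable {G Γ : FormalGroup L} [G.IsComm] [Γ.IsComm] {κ : PowerSeries L}

lemma hs2 (i : Fin 2) : PowerSeries.HasSubst (X i : MvPowerSeries (Fin 2) L) := PowerSeries.HasSubst.X i

/-- The defect is symmetric. -/
lemma err_swap (h0 : PowerSeries.constantCoeff κ = 0) :
    (Err G Γ κ).subst ![(X 1 : MvPowerSeries (Fin 2) L), X 0] = Err G Γ κ := by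
  rw [err_subst h0 (hs2 1) (hs2 0)]
  have h1 : (Err G Γ κ) = PowerSeries.subst (fgAdd G (X 0) (X 1)) κ -
      fgAdd Γ (PowerSeries.subst (X 0 : MvPowerSeries (Fin 2) L) κ)
        (PowerSeries.subst (X 1 : MvPowerSeries (Fin 2) L) κ) := by
    rw [fgAdd_X_X]; rfl
  conv_rhs => rw [h1]
  rw [fgAdd_comm G (hs2 1) (hs2 0),
    fgAdd_comm Γ (PowerSeries.HasSubst.of_constantCoeff_zero (cc_subst_kappa h0 (by simp)))
      (PowerSeries.HasSubst.of_constantCoeff_zero (cc_subst_kappa h0 (by simp)))]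

lemma coeff_subst_swap (A : MvPowerSeries (Fin 2) L) (i j : ℕ) :
    coeff (e2 i j) (A.subst ![(X 1 : MvPowerSeries (Fin 2) L), X 0]) = coeff (e2 j i) A := by
  classical
  have hc : HasSubst ![(X 1 : MvPowerSeries (Fin 2) L), X 0] :=
    hasSubst_of_constantCoeff_zero fun s => by fin_cases s <;> simp
  rw [coeff_subst hc, finsum_eq_single _ (e2 j i)]
  · rw [prod_pair, e2_apply0, e2_apply1]
    have : (X 1 : MvPowerSeries (Fin 2) L) ^ j * X 0 ^ i = monomial (e2 i j) (1 : L) := by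
      rw [← xy_monomial]; ring
    rw [this, coeff_monomial, if_pos rfl, smul_eq_mul, mul_one]
  · intro d hd
    rw [prod_pair]
    have : (X 1 : MvPowerSeries (Fin 2) L) ^ d 0 * X 0 ^ d 1 = monomial (e2 (d 1) (d 0)) (1 : L) := by
      rw [← xy_monomial]; ring
    rw [this, coeff_monomial, if_neg, smul_zero]
    intro h
    apply hd
    rw [e2_eta d, (e2_inj.1 h).1, (e2_inj.1 h).2]

lemma err_coeff_symm (h0 : PowerSeries.constantCoeff κ = 0) (i j : ℕ) :
    coeff (e2 i j) (Err G Γ κ) = coeff (e2 j i) (Err G Γ κ) := by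
  conv_lhs => rw [← err_swap h0]
  exact coeff_subst_swap _ i j

/-- no pure terms -/
lemma err_coeff_pure (h0 : PowerSeries.constantCoeff κ = 0) (i : ℕ) :
    coeff (e2 i 0) (Err G Γ κ) = 0 := by
  have hX : PowerSeries.HasSubst (PowerSeries.X : PowerSeries L) :=
    PowerSeries.HasSubst.of_constantCoeff_zero' (by simp)
  have h0' : PowerSeries.HasSubst (0 : PowerSeries L) :=
    PowerSeries.HasSubst.of_constantCoeff_zero' (by simp)
  have h1 := err_subst (G := G) (Γ := Γ) h0 (U := (PowerSeries.X : PowerSeries L)) (V := 0) hX h0'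
  have hz : PowerSeries.subst (0 : PowerSeries L) κ = 0 := psubst_zero (τ := Unit) h0
  have e1 : fgAdd G (PowerSeries.X : PowerSeries L) 0 = (PowerSeries.X : PowerSeries L) :=
    fgAdd_zero G hX
  rw [e1, hz, PowerSeries.X_subst, fgAdd_zero Γ (hasSubst_of_cc h0), sub_self] at h1
  have h2 := coeff_subst_X_zero (Err G Γ κ) i
  rw [show ((Err G Γ κ).subst ![PowerSeries.X (R := L), 0] : PowerSeries L) = 0 from h1] at h2
  rw [map_zero] at h2
  have : e2 i 0 = Finsupp.single 0 i := by simp [e2]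
  rw [this]
  exact h2.symm

end sym

end Crest.Agent.LT
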