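/-
A3 (part 4): the leading form of the defect and the `p`-series relation (BLUEPRINT §A3).
-/
import Crest.Agent.Lib.LT.LazardB

set_option autoImplicit false
set_option linter.unusedSectionVars false
set_option linter.unusedVariables false

namespace Crest.Agent.LT

open Crest.LubinTate MvPowerSeries

variable {L : Type*} [CommRing L] {τ : Type*}

/-- The homogeneous part of degree `N`. -/
noncomputable def lead (N : ℕ) (E : MvPowerSeries (Fin 2) L) : MvPowerSeries (Fin 2) L :=
  ∑ s ∈ Finset.range (N + 1), C (coeff (e2 s (N - s)) E) * (X 0 ^ s * X 1 ^ (N - s))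

lemma exists_e2_of_degree {N : ℕ} (γ : Fin 2 →₀ ℕ) (hγ : Finsupp.degree γ = N) :
    ∃ s, s ≤ N ∧ γ = e2 s (N - s) := by
  rw [e2_eta γ, degree_e2] at hγ
  refine ⟨γ 0, by omega, ?_⟩
  conv_lhs => rw [e2_eta γ]
  have : N - γ 0 = γ 1 := by omega
  rw [this]

lemma coeff_lead (N : ℕ) (E : MvPowerSeries (Fin 2) L) (γ : Fin 2 →₀ ℕ) :
    coeff γ (lead N E) = if Finsupp.degree γ = N then coeff γ E else 0 := by
  classical
  rw [lead, map_sum]
  have h1 : ∀ s ∈ Finset.range (N + 1),
      coeff γ (C (coeff (e2 s (N - s)) E) * ((X 0 : MvPowerSeries (Fin 2) L) ^ s * X 1 ^ (N - s))) =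
        if γ = e2 s (N - s) then coeff (e2 s (N - s)) E else 0 := by
    intro s _
    rw [xy_monomial, coeff_C_mul, coeff_monomial]
    split_ifs <;> simp
  rw [Finset.sum_congr rfl h1]
  by_cases h : Finsupp.degree γ = N
  · rw [if_pos h]
    obtain ⟨s, hs, rfl⟩ := exists_e2_of_degree γ h
    rw [Finset.sum_eq_single s]
    · rw [if_pos rfl]
    · intro t ht hts
      rw [if_neg]
      intro h2
      exact hts (e2_inj.1 h2).1.symm
    · intro hi
      exact absurd (Finset.mem_range.2 (by omega)) hi
  · rw [if_neg h]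
    apply Finset.sum_eq_zero
    intro s hs
    rw [if_neg]
    rintro rfl
    apply h
    rw [degree_e2]
    have := Finset.mem_range.1 hs
    omega

lemma ordGe_sub_lead {N : ℕ} {E : MvPowerSeries (Fin 2) L} (hE : OrdGe N E) :
    OrdGe (N + 1) (E - lead N E) := by
  intro γ hγ
  rw [map_sub, coeff_lead]
  by_cases h : Finsupp.degree γ = N
  · rw [if_pos h, sub_self]
  · rw [if_neg h, sub_zero]
    exact hE γ (by omega)

/-- Evaluate the leading form. -/
lemma subst_lead (N : ℕ) (E : MvPowerSeries (Fin 2) L) {a : Fin 2 → MvPowerSeries τ L}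
    (ha : HasSubst a) :
    (lead N E).subst a = ∑ s ∈ Finset.range (N + 1),
      C (coeff (e2 s (N - s)) E) * (a 0 ^ s * a 1 ^ (N - s)) := by
  rw [lead, ← coe_substAlgHom ha, map_sum]
  refine Finset.sum_congr rfl fun s _ => ?_
  rw [coe_substAlgHom ha, subst_mul ha, subst_mul ha, subst_pow ha, subst_pow ha, subst_X ha,
    subst_X ha]
  congr 1
  exact subst_C (coeff (e2 s (N - s)) E)

lemma ordGe_lead (N : ℕ) (E : MvPowerSeries (Fin 2) L) : OrdGe N (lead N E) := by
  intro γ hγ
  rw [coeff_lead, if_neg (by omega)]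

/-! ### Order in one variable -/

lemma degree_unit_lz (γ : Unit →₀ ℕ) : Finsupp.degree γ = γ () := by
  rw [degree_eq_sum']; simp

lemma coeff_unit_L (γ : Unit →₀ ℕ) (f : PowerSeries L) :
    coeff γ f = PowerSeries.coeff (γ ()) f := by
  have h : γ = Finsupp.single () (γ ()) := by ext; simp
  conv_lhs => rw [h]
  rfl

lemma ordGe_ps_iff {M : ℕ} {f : PowerSeries L} :
    OrdGe M f ↔ ∀ n, n < M → PowerSeries.coeff n f = 0 := by
  constructor
  · intro h n hn
    rw [PowerSeries.coeff]
    apply h
    rw [degree_unit_lz]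
    simpa using hn
  · intro h γ hγ
    rw [coeff_unit_L]
    rw [degree_unit_lz] at hγ
    exact h _ hγ

/-! ### The `p`-series relation -/

section pseries

variable {G Γ : FormalGroup L} {κ : PowerSeries L}

/-- The defect of `κ` against `[k]`. -/
noncomputable def devR (G Γ : FormalGroup L) (κ : PowerSeries L) (k : ℕ) : PowerSeries L :=
  PowerSeries.subst (mulSeries G k) κ - PowerSeries.subst κ (mulSeries Γ k)

/-- the coefficient `r s` -/
noncomputable abbrev rr (G Γ : FormalGroup L) (κ : PowerSeries L) (N s : ℕ) : L :=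
  coeff (e2 s (N - s)) (Err G Γ κ)

lemma err_at_mul (h0 : PowerSeries.constantCoeff κ = 0) {N : ℕ}
    (hE : OrdGe N (Err G Γ κ)) (k : ℕ) :
    OrdGe (N + 1) ((Err G Γ κ).subst ![(mulSeries G k : MvPowerSeries Unit L),
        (PowerSeries.X : MvPowerSeries Unit L)] -
      PowerSeries.C (∑ s ∈ Finset.range (N + 1), rr G Γ κ N s * (k : L) ^ s) *
        (PowerSeries.X : PowerSeries L) ^ N : PowerSeries L) := by
  set E := Err G Γ κ
  have hcU : constantCoeff (mulSeries G k : MvPowerSeries Unit L) = 0 :=
    constantCoeff_mulSeries G k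
  have hcX : constantCoeff (PowerSeries.X : MvPowerSeries Unit L) = 0 :=
    PowerSeries.constantCoeff_X
  have hcCX : constantCoeff (PowerSeries.C (k : L) * PowerSeries.X : MvPowerSeries Unit L) = 0 := by
    have : PowerSeries.constantCoeff (PowerSeries.C (k : L) * PowerSeries.X) = 0 := by simp
    exact this
  set a : Fin 2 → MvPowerSeries Unit L := ![(mulSeries G k : MvPowerSeries Unit L),
      (PowerSeries.X : MvPowerSeries Unit L)]
  set a' : Fin 2 → MvPowerSeries Unit L :=
    ![(PowerSeries.C (k : L) * PowerSeries.X : MvPowerSeries Unit L),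
      (PowerSeries.X : MvPowerSeries Unit L)]
  have hca : ∀ i, constantCoeff (a i) = 0 := by
    intro i; fin_cases i
    · exact hcU
    · exact hcX
  have hca' : ∀ i, constantCoeff (a' i) = 0 := by
    intro i; fin_cases i
    · exact hcCX
    · exact hcX
  have hsa : HasSubst a := hasSubst_of_constantCoeff_zero hca
  have hsa' : HasSubst a' := hasSubst_of_constantCoeff_zero hca'
  have h1 : OrdGe (N + 1) ((E - lead N E).subst a) :=
    ordGe_subst hca (ordGe_sub_lead hE)
  have h2 : OrdGe (N + 1) ((lead N E).subst a - (lead N E).subst a') := by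
    apply ordGe_subst_sub_two hca hca' _ (ordGe_lead N E)
    intro i; fin_cases i
    · change OrdGe 2 ((mulSeries G k : PowerSeries L) - PowerSeries.C (k : L) * PowerSeries.X)
      rw [ordGe_ps_iff]
      intro n hn
      have : n = 0 ∨ n = 1 := by omega
      rcases this with rfl | rfl
      · simp [constantCoeff_mulSeries]
      · simp [coeff_one_mulSeries]
    · change OrdGe 2 ((PowerSeries.X : PowerSeries L) - PowerSeries.X)
      rw [sub_self]
      exact ordGe_zero 2
  have h3 : (lead N E).subst a' =
      (PowerSeries.C (∑ s ∈ Finset.range (N + 1), rr G Γ κ N s * (k : L) ^ s) *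
        (PowerSeries.X : PowerSeries L) ^ N : PowerSeries L) := by
    rw [subst_lead N E hsa', map_sum, Finset.sum_mul]
    refine Finset.sum_congr rfl fun s hs => ?_
    have hs' : s ≤ N := by have := Finset.mem_range.1 hs; omega
    change C (coeff (e2 s (N - s)) E) * ((PowerSeries.C (k : L) * PowerSeries.X : PowerSeries L) ^ s *
      (PowerSeries.X : PowerSeries L) ^ (N - s)) = _
    rw [map_mul, map_pow, mul_pow]
    have : (PowerSeries.X : PowerSeries L) ^ N =
        PowerSeries.X ^ s * PowerSeries.X ^ (N - s) := by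
      rw [← pow_add]; congr 1; omega
    rw [this]
    change PowerSeries.C _ * _ = _
    ring
  rw [← h3]
  have h4 : E.subst a - (lead N E).subst a' =
      (E - lead N E).subst a + ((lead N E).subst a - (lead N E).subst a') := by
    rw [subst_sub hsa]; ring
  rw [h4]
  exact h1.add h2

lemma devR_zero (h0 : PowerSeries.constantCoeff κ = 0) : devR G Γ κ 0 = 0 := by
  rw [devR, mulSeries_zero, mulSeries_zero, sub_eq_zero]
  have h1 : PowerSeries.subst (0 : PowerSeries L) κ = 0 := psubst_zero (τ := Unit) h0
  rw [h1]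
  have : PowerSeries.HasSubst κ := hasSubst_of_cc h0
  have h2 := PowerSeries.subst_C (S := L) (a := κ) 0
  simpa using h2.symm

/-- The `p`-series relation. -/
theorem devR_relation (h0 : PowerSeries.constantCoeff κ = 0) {N : ℕ} (hN : 1 ≤ N)
    (hE : OrdGe N (Err G Γ κ)) (k : ℕ) :
    OrdGe (N + 1) (devR G Γ κ k - PowerSeries.C
        (∑ m ∈ Finset.range k, ∑ s ∈ Finset.range (N + 1), rr G Γ κ N s * (m : L) ^ s) *
        (PowerSeries.X : PowerSeries L) ^ N : PowerSeries L) := by
  have hκ : PowerSeries.HasSubst κ := hasSubst_of_cc h0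
  have hX : PowerSeries.HasSubst (PowerSeries.X : PowerSeries L) :=
    PowerSeries.HasSubst.of_constantCoeff_zero' (by simp)
  induction k with
  | zero =>
    rw [devR_zero h0]
    simpa using ordGe_zero (N + 1)
  | succ k ih =>
    set c := ∑ m ∈ Finset.range k, ∑ s ∈ Finset.range (N + 1), rr G Γ κ N s * (m : L) ^ s
    set d := ∑ s ∈ Finset.range (N + 1), rr G Γ κ N s * (k : L) ^ s
    rw [Finset.sum_range_succ]
    have hU := hasSubst_mulSeries G k
    have hV := hasSubst_mulSeries Γ k
    -- the deviation at `k` has order `N`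
    have hRk : OrdGe N (devR G Γ κ k : PowerSeries L) := by
      have h1 : OrdGe N (PowerSeries.C c * (PowerSeries.X : PowerSeries L) ^ N : PowerSeries L) := by
        rw [ordGe_ps_iff]
        intro n hn
        rw [PowerSeries.coeff_C_mul, PowerSeries.coeff_X_pow, if_neg (by omega), mul_zero]
      have h2 := (ih.mono (by omega : N ≤ N + 1)).add h1
      simpa using h2
    have e1 : PowerSeries.subst (mulSeries G (k + 1)) κ =
        fgAdd Γ (PowerSeries.subst (mulSeries G k : PowerSeries L) κ) κ +
          (Err G Γ κ).subst ![(mulSeries G k : MvPowerSeries Unit L),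
            (PowerSeries.X : MvPowerSeries Unit L)] := by
      rw [mulSeries_succ, kappa_fgAdd h0 hU hX, PowerSeries.X_subst]
    have e2' : PowerSeries.subst κ (mulSeries Γ (k + 1)) =
        fgAdd Γ (PowerSeries.subst κ (mulSeries Γ k : PowerSeries L)) κ := by
      rw [mulSeries_succ, psubst_fgAdd Γ hV hX hκ]
      congr 1
      exact PowerSeries.subst_X hκ
    have hu : constantCoeff (PowerSeries.subst κ (mulSeries Γ k : PowerSeries L) :
        MvPowerSeries Unit L) = 0 :=
      PowerSeries.constantCoeff_subst_eq_zero h0 _ (constantCoeff_mulSeries Γ k)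
    have hp := fgAdd_perturb_left Γ (u := PowerSeries.subst κ (mulSeries Γ k : PowerSeries L))
      (c := κ) (e := devR G Γ κ k) hu h0 hN hRk
    have e3 : PowerSeries.subst κ (mulSeries Γ k : PowerSeries L) + devR G Γ κ k =
        PowerSeries.subst (mulSeries G k : PowerSeries L) κ := by
      rw [devR]; ring
    rw [e3] at hp
    have herr := err_at_mul h0 hE k
    have key : devR G Γ κ (k + 1) - PowerSeries.C (c + d) * (PowerSeries.X : PowerSeries L) ^ N =
        (fgAdd Γ (PowerSeries.subst (mulSeries G k : PowerSeries L) κ) κ -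
          fgAdd Γ (PowerSeries.subst κ (mulSeries Γ k : PowerSeries L)) κ - devR G Γ κ k) +
        (devR G Γ κ k - PowerSeries.C c * (PowerSeries.X : PowerSeries L) ^ N) +
        ((Err G Γ κ).subst ![(mulSeries G k : MvPowerSeries Unit L),
            (PowerSeries.X : MvPowerSeries Unit L)] -
          PowerSeries.C d * (PowerSeries.X : PowerSeries L) ^ N) := by
      rw [devR, e1, e2', devR, map_add]
      ring
    rw [key]
    exact (hp.add ih).add herr

/-- At a prime with `[p] = X^q` on both sides and Frobenius-fixed `κ`, the deviation vanishes. -/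
lemma devR_eq_zero (p : ℕ) [Fact p.Prime] [CharP L p] {m : ℕ} (hm : 1 ≤ m)
    (h0 : PowerSeries.constantCoeff κ = 0)
    (hG : mulSeries G p = PowerSeries.X ^ (p ^ m)) (hΓ : mulSeries Γ p = PowerSeries.X ^ (p ^ m))
    (hF : PowerSeries.map (iterateFrobenius L p m) κ = κ) : devR G Γ κ p = 0 := by
  have hκ : PowerSeries.HasSubst κ := hasSubst_of_cc h0
  rw [devR, hG, hΓ, psubst_X_pow_left _ hκ, pow_eq_cmp p m κ, hF, sub_self]

end pseries

/-! ### Frobenius invariance -/

section frob

variable {G Γ : FormalGroup L} {κ : PowerSeries L}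

lemma err_map {S : Type*} [CommRing S] (φ : L →+* S) (h0 : PowerSeries.constantCoeff κ = 0) :
    MvPowerSeries.map φ (Err G Γ κ) =
      Err (G.map φ) (Γ.map φ) (PowerSeries.map φ κ) := by
  rw [Err, Err, map_sub]
  have hc := hasSubst_homXX h0
  congr 1
  · rw [PowerSeries.map_subst (hasSubst_law G)]; rfl
  · rw [MvPowerSeries.map_subst hc]
    congr! 1
    ext1 i
    fin_cases i
    · simp only [Fin.zero_eta, Fin.isValue, Matrix.cons_val_zero]
      rw [PowerSeries.map_subst (hasSubst_X_i 0), MvPowerSeries.map_X]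
    · simp only [Fin.mk_one, Fin.isValue, Matrix.cons_val_one, Matrix.cons_val_fin_one]
      rw [PowerSeries.map_subst (hasSubst_X_i 1), MvPowerSeries.map_X]

/-- `[p] = X^q` forces the law to be defined over the fixed field of `x ↦ x^q`. -/
theorem fg_map_frob_eq (p : ℕ) [Fact p.Prime] [CharP L p] [G.IsComm] {m : ℕ}
    (hG : mulSeries G p = PowerSeries.X ^ (p ^ m)) : G.map (iterateFrobenius L p m) = G := by
  have hq := prime_pow_ne_zero p m
  have h1 := isFGHom_mulSeries G p
  rw [hG] at h1
  have h2 := frob_hom p G m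
  have hXX : ∀ (F : FormalGroup L),
      F.toPowerSeries.subst ![PowerSeries.subst (X 0 : MvPowerSeries (Fin 2) L)
        (PowerSeries.X ^ (p ^ m) : PowerSeries L),
        PowerSeries.subst (X 1 : MvPowerSeries (Fin 2) L)
        (PowerSeries.X ^ (p ^ m) : PowerSeries L)] =
      MvPowerSeries.expand (p ^ m) hq F.toPowerSeries := by
    intro F
    rw [MvPowerSeries.expand, coe_substAlgHom]
    congr! 1
    ext1 i
    fin_cases i
    · simp only [Fin.zero_eta, Fin.isValue, Matrix.cons_val_zero]
      rw [psubst_X_pow_left _ (hasSubst_X_i 0)]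
    · simp only [Fin.mk_one, Fin.isValue, Matrix.cons_val_one, Matrix.cons_val_fin_one]
      rw [psubst_X_pow_left _ (hasSubst_X_i 1)]
  have h3 := h1.2.symm.trans h2.2
  rw [hXX, hXX] at h3
  apply FormalGroup.ext
  exact (mv_expand_injective hq h3).symm

end frob

end Crest.Agent.LT
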