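/-
A3 (part 5): the inductive step and the limit; classification of laws by `[p] = X^q`
(BLUEPRINT §A3).
-/
import Crest.Agent.Lib.LT.LazardC

set_option autoImplicit false
set_option linter.unusedSectionVars false
set_option linter.unusedVariables false

namespace Crest.Agent.LT

open Crest.LubinTate MvPowerSeries

section perturb

variable {L : Type*} [CommRing L] {τ : Type*}
variable {G Γ : FormalGroup L} {κ : PowerSeries L}

lemma psubst_perturb {a : MvPowerSeries τ L} (ha : PowerSeries.HasSubst a) (b : L) (N : ℕ) :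
    PowerSeries.subst a (κ + PowerSeries.C b * PowerSeries.X ^ N : PowerSeries L) =
      PowerSeries.subst a κ + C b * a ^ N := by
  rw [PowerSeries.subst_add ha, PowerSeries.subst_mul ha, psubst_X_pow_left _ ha,
    PowerSeries.subst_C]

lemma ordGe_C_mul {σ : Type*} (b : L) {M : ℕ} {a : MvPowerSeries σ L} (h : OrdGe M a) :
    OrdGe M (C b * a) := by
  intro γ hγ
  rw [coeff_C_mul, h γ hγ, mul_zero]

lemma ordGe_X_pow (i : Fin 2) (N : ℕ) : OrdGe N ((X i : MvPowerSeries (Fin 2) L) ^ N) := by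
  have h : OrdGe 1 (X i : MvPowerSeries (Fin 2) L) := ordGe_one_of_const (by simp)
  simpa using h.pow N

/-- Perturbing `κ` by `b X^N` changes the defect by `b ((x+y)^N - x^N - y^N)`. -/
theorem err_perturb [Γ.IsComm] (h0 : PowerSeries.constantCoeff κ = 0) {N : ℕ} (hN : 1 ≤ N) (b : L) :
    OrdGe (N + 1) (Err G Γ (κ + PowerSeries.C b * PowerSeries.X ^ N) - Err G Γ κ -
      C b * ((X 0 + X 1) ^ N - X 0 ^ N - X 1 ^ N)) := by
  set κ0 := PowerSeries.subst (X 0 : MvPowerSeries (Fin 2) L) κ with hκ0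
  set κ1 := PowerSeries.subst (X 1 : MvPowerSeries (Fin 2) L) κ with hκ1
  set e0 : MvPowerSeries (Fin 2) L := C b * X 0 ^ N with he0
  set e1 : MvPowerSeries (Fin 2) L := C b * X 1 ^ N with he1
  have hc0 : constantCoeff κ0 = 0 := cc_subst_kappa h0 (by simp)
  have hc1 : constantCoeff κ1 = 0 := cc_subst_kappa h0 (by simp)
  have ho0 : OrdGe N e0 := ordGe_C_mul b (ordGe_X_pow 0 N)
  have ho1 : OrdGe N e1 := ordGe_C_mul b (ordGe_X_pow 1 N)
  have hc1' : constantCoeff (κ1 + e1) = 0 := by
    simp [hc1, (ho1.mono hN).const]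
  have p1 := fgAdd_perturb_left Γ (u := κ0) (c := κ1 + e1) (e := e0) hc0 hc1' hN ho0
  have p2 := fgAdd_perturb_right Γ (u := κ1) (c := κ0) (e := e1) hc1 hc0 hN ho1
  have hlaw : constantCoeff G.toPowerSeries = 0 := G.zero_constantCoeff
  have p3 : OrdGe (N + 1) (G.toPowerSeries ^ N - (X 0 + X 1) ^ N) := by
    have h2 : OrdGe 2 (G.toPowerSeries - (X 0 + X 1 : MvPowerSeries (Fin 2) L)) := by
      have := fgAdd_sub_add G (a := (X 0 : MvPowerSeries (Fin 2) L)) (b := X 1) (by simp) (by simp)
      rwa [fgAdd_X_X] at this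
    have h3 := ordGe_pow_sub (ordGe_one_of_const hlaw)
      (ordGe_one_of_const (by simp : constantCoeff (X 0 + X 1 : MvPowerSeries (Fin 2) L) = 0))
      h2 N hN
    exact h3.mono (by omega)
  have e_0 : PowerSeries.subst (X 0 : MvPowerSeries (Fin 2) L)
      (κ + PowerSeries.C b * PowerSeries.X ^ N : PowerSeries L) = κ0 + e0 :=
    psubst_perturb (hasSubst_X_i 0) b N
  have e_1 : PowerSeries.subst (X 1 : MvPowerSeries (Fin 2) L)
      (κ + PowerSeries.C b * PowerSeries.X ^ N : PowerSeries L) = κ1 + e1 :=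
    psubst_perturb (hasSubst_X_i 1) b N
  have e_G : PowerSeries.subst G.toPowerSeries
      (κ + PowerSeries.C b * PowerSeries.X ^ N : PowerSeries L) =
      PowerSeries.subst G.toPowerSeries κ + C b * G.toPowerSeries ^ N :=
    psubst_perturb (hasSubst_law G) b N
  have key : Err G Γ (κ + PowerSeries.C b * PowerSeries.X ^ N) - Err G Γ κ -
      C b * ((X 0 + X 1) ^ N - X 0 ^ N - X 1 ^ N) =
      C b * (G.toPowerSeries ^ N - (X 0 + X 1) ^ N) -
        (fgAdd Γ (κ0 + e0) (κ1 + e1) - fgAdd Γ κ0 (κ1 + e1) - e0) -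
        (fgAdd Γ κ0 (κ1 + e1) - fgAdd Γ κ0 κ1 - e1) := by
    rw [Err, Err, e_0, e_1, e_G, ← hκ0, ← hκ1, he0, he1]
    change _ - fgAdd Γ _ _ - (_ - fgAdd Γ _ _) - _ = _
    ring
  rw [key]
  exact ((ordGe_C_mul b p3).sub p1).sub p2

/-- coefficients of `(x+y)^N - x^N - y^N` -/
lemma coeff_binom {N s : ℕ} (h1 : 1 ≤ s) (h2 : s < N) :
    coeff (e2 s (N - s)) ((X 0 + X 1) ^ N - X 0 ^ N - X 1 ^ N : MvPowerSeries (Fin 2) L) =
      (N.choose s : L) := by
  classical
  have hx0 : (X 0 : MvPowerSeries (Fin 2) L) ^ N = monomial (e2 N 0) (1 : L) := by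
    rw [← xy_monomial]; simp
  have hx1 : (X 1 : MvPowerSeries (Fin 2) L) ^ N = monomial (e2 0 N) (1 : L) := by
    rw [← xy_monomial]; simp
  rw [map_sub, map_sub, hx0, hx1, coeff_monomial, coeff_monomial, if_neg, if_neg, sub_zero, sub_zero,
    add_pow, map_sum, Finset.sum_eq_single s]
  · rw [← map_natCast (C (σ := Fin 2) (R := L)), coeff_mul_C, xy_monomial, coeff_monomial, if_pos rfl,
      one_mul]
  · intro t ht hts
    rw [← map_natCast (C (σ := Fin 2) (R := L)), coeff_mul_C, xy_monomial, coeff_monomial, if_neg,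
      zero_mul]
    intro h
    exact hts (e2_inj.1 h).1.symm
  · intro h
    exact absurd (Finset.mem_range.2 (by omega)) h
  · intro h
    have := (e2_inj.1 h).1
    omega
  · intro h
    have := (e2_inj.1 h).1
    omega

lemma coeff_binom_zero {N : ℕ} (hN : 1 ≤ N) :
    coeff (e2 0 N) ((X 0 + X 1) ^ N - X 0 ^ N - X 1 ^ N : MvPowerSeries (Fin 2) L) = 0 := by
  classical
  have hx0 : (X 0 : MvPowerSeries (Fin 2) L) ^ N = monomial (e2 N 0) (1 : L) := by
    rw [← xy_monomial]; simp
  have hx1 : (X 1 : MvPowerSeries (Fin 2) L) ^ N = monomial (e2 0 N) (1 : L) := by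
    rw [← xy_monomial]; simp
  rw [map_sub, map_sub, hx0, hx1, coeff_monomial, coeff_monomial, if_neg, if_pos rfl, sub_zero,
    add_pow, map_sum, Finset.sum_eq_single 0]
  · rw [← map_natCast (C (σ := Fin 2) (R := L)), coeff_mul_C, xy_monomial, coeff_monomial, if_pos (by simp)]
    simp
  · intro t ht hts
    rw [← map_natCast (C (σ := Fin 2) (R := L)), coeff_mul_C, xy_monomial, coeff_monomial, if_neg,
      zero_mul]
    intro h
    exact hts (e2_inj.1 h).1.symm
  · intro h
    exact absurd (Finset.mem_range.2 (by omega)) h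
  · intro h
    have := (e2_inj.1 h).1
    omega

lemma coeff_binom_top {N : ℕ} (hN : 1 ≤ N) :
    coeff (e2 N 0) ((X 0 + X 1) ^ N - X 0 ^ N - X 1 ^ N : MvPowerSeries (Fin 2) L) = 0 := by
  classical
  have hx0 : (X 0 : MvPowerSeries (Fin 2) L) ^ N = monomial (e2 N 0) (1 : L) := by
    rw [← xy_monomial]; simp
  have hx1 : (X 1 : MvPowerSeries (Fin 2) L) ^ N = monomial (e2 0 N) (1 : L) := by
    rw [← xy_monomial]; simp
  rw [map_sub, map_sub, hx0, hx1, coeff_monomial, coeff_monomial, if_pos rfl, if_neg, sub_zero,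
    add_pow, map_sum, Finset.sum_eq_single N]
  · rw [← map_natCast (C (σ := Fin 2) (R := L)), coeff_mul_C, xy_monomial, coeff_monomial, if_pos (by simp)]
    simp
  · intro t ht hts
    rw [← map_natCast (C (σ := Fin 2) (R := L)), coeff_mul_C, xy_monomial, coeff_monomial, if_neg,
      zero_mul]
    intro h
    exact hts (e2_inj.1 h).1.symm
  · intro h
    exact absurd (Finset.mem_range.2 (by omega)) h
  · intro h
    have := (e2_inj.1 h).1
    omega

end perturb

section step

variable (p : ℕ) [hp : Fact p.Prime] {L : Type*} [Field L] [CharP L p]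
variable {G Γ : FormalGroup L}

/-- The approximation invariant. -/
structure Approx (m : ℕ) (G Γ : FormalGroup L) (N : ℕ) (κ : PowerSeries L) : Prop where
  cc : PowerSeries.constantCoeff κ = 0
  one : PowerSeries.coeff 1 κ = 1
  frob : PowerSeries.map (iterateFrobenius L p m) κ = κ
  ord : OrdGe N (Err G Γ κ)

variable {p}

lemma err_coeff_frob {m : ℕ} (hFG : G.map (iterateFrobenius L p m) = G)
    (hFΓ : Γ.map (iterateFrobenius L p m) = Γ) {κ : PowerSeries L}
    (h0 : PowerSeries.constantCoeff κ = 0)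
    (hκ : PowerSeries.map (iterateFrobenius L p m) κ = κ) (γ : Fin 2 →₀ ℕ) :
    iterateFrobenius L p m (coeff γ (Err G Γ κ)) = coeff γ (Err G Γ κ) := by
  have h := err_map (G := G) (Γ := Γ) (iterateFrobenius L p m) h0
  rw [hFG, hFΓ, hκ] at h
  rw [← MvPowerSeries.coeff_map, h]

lemma ordGe_binom (N : ℕ) :
    OrdGe N ((X 0 + X 1) ^ N - X 0 ^ N - X 1 ^ N : MvPowerSeries (Fin 2) L) := by
  have h : OrdGe 1 (X 0 + X 1 : MvPowerSeries (Fin 2) L) := ordGe_one_of_const (by simp)
  exact (by simpa using h.pow N : OrdGe N ((X 0 + X 1 : MvPowerSeries (Fin 2) L) ^ N)).sub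
    (ordGe_X_pow 0 N) |>.sub (ordGe_X_pow 1 N)

variable [G.IsComm] [Γ.IsComm]

/-- The inductive step. -/
theorem exists_step {m : ℕ} (hm : 1 ≤ m)
    (hG : mulSeries G p = PowerSeries.X ^ (p ^ m)) (hΓ : mulSeries Γ p = PowerSeries.X ^ (p ^ m))
    {N : ℕ} (hN : 2 ≤ N) {κ : PowerSeries L} (h : Approx p m G Γ N κ) :
    ∃ κ' : PowerSeries L, Approx p m G Γ (N + 1) κ' ∧
      ∀ i, i < N → PowerSeries.coeff i κ' = PowerSeries.coeff i κ := by
  have hFG := fg_map_frob_eq p hG
  have hFΓ := fg_map_frob_eq p hΓ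
  set E := Err G Γ κ with hE
  set r : ℕ → L := rr G Γ κ N with hr
  have hrs : ∀ s, r s = coeff (e2 s (N - s)) E := fun s => rfl
  have hsym : ∀ i, 1 ≤ i → i < N → r i = r (N - i) := by
    intro i _ hi
    rw [hrs, hrs, Nat.sub_sub_self hi.le]
    exact err_coeff_symm h.cc i (N - i)
  have hcoc : ∀ i s, 1 ≤ i → i < s → s < N →
      (s.choose i : L) * r s = ((N - i).choose (s - i) : L) * r i := by
    intro i s h1 h2 h3
    have := err_coeff_rel h.cc (by omega) h.ord (i := i) (j := s - i) (k := N - s) h1 (by omega)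
      (by omega)
    have e1 : i + (s - i) = s := by omega
    have e2' : s - i + (N - s) = N - i := by omega
    rw [e1, e2'] at this
    rw [hrs, hrs, mul_comm, this, mul_comm]
  obtain ⟨i₀, h1, h2, hc0, hprop⟩ := cocycle_lemma p hN r hsym hcoc
  set a : L := r i₀ / (cn p N i₀ : L) with ha
  have hra : ∀ s, 1 ≤ s → s < N → r s = a * (cn p N s : L) := by
    intro s hs1 hs2
    rw [ha]
    field_simp
    exact hprop s hs1 hs2
  have hrN : r N = 0 := by
    rw [hrs, Nat.sub_self]
    exact err_coeff_pure h.cc N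
  have hr0 : r 0 = 0 := by
    rw [hrs, Nat.sub_zero, err_coeff_symm h.cc 0 N]
    exact err_coeff_pure h.cc N
  have hFa : iterateFrobenius L p m a = a := by
    rw [ha, map_div₀, map_natCast, hrs, err_coeff_frob hFG hFΓ h.cc h.frob]
  have hdeg : ∀ (A : MvPowerSeries (Fin 2) L) (hA : OrdGe N A)
      (hA' : ∀ s, s ≤ N → coeff (e2 s (N - s)) A = 0), OrdGe (N + 1) A := by
    intro A hA hA' γ hγ
    by_cases hγN : Finsupp.degree γ < N
    · exact hA γ hγN
    · obtain ⟨s, hs, rfl⟩ := exists_e2_of_degree (N := N) γ (by omega)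
      exact hA' s hs
  by_cases hpp : IsPPow p N
  · -- the prime power case: the class vanishes
    have hc := devR_relation (G := G) (Γ := Γ) h.cc (by omega) h.ord p
    rw [devR_eq_zero p hm h.cc hG hΓ h.frob] at hc
    have hc' := (ordGe_ps_iff.1 hc) N (by omega)
    rw [map_sub, map_zero, PowerSeries.coeff_C_mul, PowerSeries.coeff_X_pow, if_pos rfl, mul_one,
      zero_sub, neg_eq_zero] at hc'
    have hsplit : ∀ k : ℕ, ∑ s ∈ Finset.range (N + 1), rr G Γ κ N s * (k : L) ^ s =
        a * ∑ s ∈ Finset.Ico 1 N, (cn p N s : L) * (k : L) ^ s := by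
      intro k
      rw [Finset.sum_range_succ, Finset.range_eq_Ico, Finset.sum_eq_sum_Ico_succ_bot (by omega),
        Finset.mul_sum]
      change r 0 * _ + ∑ s ∈ Finset.Ico (0 + 1) N, r s * _ + r N * _ = _
      rw [hr0, hrN, zero_mul, zero_mul, zero_add, add_zero]
      refine Finset.sum_congr rfl fun s hs => ?_
      have := Finset.mem_Ico.1 hs
      rw [hra s (by omega) (by omega)]
      ring
    rw [Finset.sum_congr rfl (fun k _ => hsplit k), ← Finset.mul_sum, sum_cn_ppow p hpp] at hc'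
    have ha0 : a = 0 := by simpa using hc'
    refine ⟨κ, ⟨h.cc, h.one, h.frob, ?_⟩, fun _ _ => rfl⟩
    apply hdeg _ h.ord
    intro s hs
    change r s = 0
    rcases Nat.eq_zero_or_pos s with rfl | hs0
    · exact hr0
    rcases Nat.lt_or_ge s N with hs1 | hs1
    · rw [hra s hs0 hs1, ha0, zero_mul]
    · have : s = N := by omega
      rw [this]; exact hrN
  · -- the other case: correct `κ`
    set b : L := -a with hb
    have hP := err_perturb (G := G) (Γ := Γ) h.cc (by omega : 1 ≤ N) b
    refine ⟨κ + PowerSeries.C b * PowerSeries.X ^ N, ⟨?_, ?_, ?_, ?_⟩, ?_⟩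
    · simp [h.cc]
      omega
    · rw [map_add, PowerSeries.coeff_C_mul, PowerSeries.coeff_X_pow, if_neg (by omega), mul_zero,
        add_zero]
      exact h.one
    · rw [map_add, map_mul, map_pow, PowerSeries.map_C, PowerSeries.map_X, h.frob, hb, map_neg, hFa]
    · have hord : OrdGe N (Err G Γ (κ + PowerSeries.C b * PowerSeries.X ^ N)) := by
        have := ((hP.mono (by omega : N ≤ N + 1)).add h.ord).add (ordGe_C_mul b (ordGe_binom N))
        convert this using 1
        ring
      apply hdeg _ hord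
      intro s hs
      have h3 := hP (e2 s (N - s)) (by rw [degree_e2]; omega)
      rw [map_sub, map_sub, coeff_C_mul, sub_eq_zero, sub_eq_iff_eq_add] at h3
      rw [h3]
      change b * _ + r s = 0
      rcases Nat.eq_zero_or_pos s with rfl | hs0
      · rw [hr0, Nat.sub_zero, coeff_binom_zero (by omega)]
        simp
      rcases Nat.lt_or_ge s N with hs1 | hs1
      · rw [hra s hs0 hs1, coeff_binom hs0 hs1, cn_of_not_ppow p hpp, hb]
        ring
      · have : s = N := by omega
        subst this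
        rw [hrN, Nat.sub_self, coeff_binom_top (by omega)]
        simp
    · intro i hi
      rw [map_add, PowerSeries.coeff_C_mul, PowerSeries.coeff_X_pow, if_neg (by omega), mul_zero,
        add_zero]

/-- The starting point. -/
lemma approx_base (m : ℕ) (G Γ : FormalGroup L) : Approx p m G Γ 2 PowerSeries.X := by
  refine ⟨by simp, by simp [PowerSeries.coeff_one_X], by simp, ?_⟩
  have h1 := fgAdd_sub_add G (a := (X 0 : MvPowerSeries (Fin 2) L)) (b := X 1) (by simp) (by simp)
  have h2 := fgAdd_sub_add Γ (a := (X 0 : MvPowerSeries (Fin 2) L)) (b := X 1) (by simp) (by simp)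
  have h3 := h1.sub h2
  rw [fgAdd_X_X, fgAdd_X_X] at h3
  have e : Err G Γ (PowerSeries.X : PowerSeries L) = G.toPowerSeries - Γ.toPowerSeries := by
    rw [Err, PowerSeries.subst_X (hasSubst_law G), PowerSeries.subst_X (hasSubst_X_i 0),
      PowerSeries.subst_X (hasSubst_X_i 1)]
    congr 1
    exact fgAdd_X_X Γ
  rw [e]
  simpa using h3

/-- Congruent `κ` have congruent defects. -/
lemma err_congr {κ κ' : PowerSeries L} (h0 : PowerSeries.constantCoeff κ = 0)
    (h0' : PowerSeries.constantCoeff κ' = 0) {M : ℕ} (hM : 1 ≤ M)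
    (h : OrdGe M (κ - κ' : PowerSeries L)) : OrdGe M (Err G Γ κ - Err G Γ κ') := by
  have e : Err G Γ κ - Err G Γ κ' =
      (PowerSeries.subst G.toPowerSeries κ - PowerSeries.subst G.toPowerSeries κ') -
      (Γ.toPowerSeries.subst ![PowerSeries.subst (X 0 : MvPowerSeries (Fin 2) L) κ,
        PowerSeries.subst (X 1 : MvPowerSeries (Fin 2) L) κ] -
       Γ.toPowerSeries.subst ![PowerSeries.subst (X 0 : MvPowerSeries (Fin 2) L) κ',
        PowerSeries.subst (X 1 : MvPowerSeries (Fin 2) L) κ']) := by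
    rw [Err, Err]; ring
  rw [e]
  have key : ∀ (c : MvPowerSeries (Fin 2) L) (hc : constantCoeff c = 0),
      OrdGe M (PowerSeries.subst c κ - PowerSeries.subst c κ') := by
    intro c hc
    have hs : PowerSeries.HasSubst c := PowerSeries.HasSubst.of_constantCoeff_zero hc
    rw [← PowerSeries.subst_sub hs]
    exact ordGe_subst (a := fun _ : Unit => c) (fun _ => hc) h
  refine (key _ G.zero_constantCoeff).sub ?_
  apply ordGe_subst_sub _ _ hM
  · intro i; fin_cases i
    · exact key _ (by simp)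
    · exact key _ (by simp)
  · intro i; fin_cases i
    · exact cc_subst_kappa h0 (by simp)
    · exact cc_subst_kappa h0 (by simp)
  · intro i; fin_cases i
    · exact cc_subst_kappa h0' (by simp)
    · exact cc_subst_kappa h0' (by simp)

/-- **Lazard classification**: two commutative laws over a field of characteristic `p` with
`[p] = X^q` are strictly isomorphic. -/
theorem exists_iso_of_pseries {m : ℕ} (hm : 1 ≤ m)
    (hG : mulSeries G p = PowerSeries.X ^ (p ^ m)) (hΓ : mulSeries Γ p = PowerSeries.X ^ (p ^ m)) :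
    ∃ κ : PowerSeries L, PowerSeries.coeff 1 κ = 1 ∧ IsFGHom G Γ κ := by
  have step : ∀ n (κ : {κ : PowerSeries L // Approx p m G Γ (n + 2) κ}),
      ∃ κ' : {κ : PowerSeries L // Approx p m G Γ (n + 1 + 2) κ},
        ∀ i, i < n + 2 → PowerSeries.coeff i κ'.1 = PowerSeries.coeff i κ.1 := by
    intro n κ
    obtain ⟨κ', h1, h2⟩ := exists_step hm hG hΓ (by omega) κ.2
    exact ⟨⟨κ', h1⟩, h2⟩
  choose f hf using step
  let s : (n : ℕ) → {κ : PowerSeries L // Approx p m G Γ (n + 2) κ} :=
    fun n => Nat.rec ⟨PowerSeries.X, approx_base m G Γ⟩ f n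
  have hs : ∀ n i, i < n + 2 → PowerSeries.coeff i (s (n + 1)).1 = PowerSeries.coeff i (s n).1 :=
    fun n i hi => hf n (s n) i hi
  have hstable : ∀ n i, i ≤ n → PowerSeries.coeff i (s n).1 = PowerSeries.coeff i (s i).1 := by
    intro n i hi
    induction n, hi using Nat.le_induction with
    | base => rfl
    | succ n hn ih => rw [hs n i (by omega), ih]
  set κ : PowerSeries L := PowerSeries.mk fun i => PowerSeries.coeff i (s i).1 with hκ
  have hcoe : ∀ n i, i ≤ n → PowerSeries.coeff i κ = PowerSeries.coeff i (s n).1 := by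
    intro n i hi
    rw [hκ, PowerSeries.coeff_mk, hstable n i hi]
  have h0 : PowerSeries.constantCoeff κ = 0 := by
    rw [← PowerSeries.coeff_zero_eq_constantCoeff_apply, hcoe 0 0 le_rfl,
      PowerSeries.coeff_zero_eq_constantCoeff_apply]
    exact (s 0).2.cc
  have h1 : PowerSeries.coeff 1 κ = 1 := by
    rw [hcoe 1 1 le_rfl]
    exact (s 1).2.one
  refine ⟨κ, h1, isFGHom_of_err h0 ?_⟩
  ext γ
  set M := Finsupp.degree γ
  have hcong : OrdGe (M + 1) (κ - (s M).1 : PowerSeries L) := by
    rw [ordGe_ps_iff]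
    intro n hn
    rw [map_sub, hcoe M n (by omega), sub_self]
  have h2 := err_congr (G := G) (Γ := Γ) h0 (s M).2.cc (by omega) hcong
  have h3 := h2.add ((s M).2.ord.mono (by omega : M + 1 ≤ M + 2))
  have h4 := h3 γ (by omega)
  simpa using h4

end step

end Crest.Agent.LT
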