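/-
A3: Lazard classification (BLUEPRINT §A3); proof in LazardA--D.
-/
import Crest.Agent.Lib.LT.Honda
import Crest.Agent.Lib.LT.LazardD

set_option autoImplicit false

namespace Crest.Agent.LT

open Crest.LubinTate

variable (p : ℕ) [Fact p.Prime]

/-- Classification: a law over a field of characteristic `p` with `[p] = X^(p^m)` is strictly
isomorphic to the Honda law. -/
theorem exists_iso_honda (m : ℕ) (hm : 1 ≤ m) (L : Type*) [Field L] [CharP L p]
    (G : FormalGroup L) [G.IsComm] (hG : mulSeries G p = PowerSeries.X ^ (p ^ m)) :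
    ∃ κ : PowerSeries L, PowerSeries.coeff 1 κ = 1 ∧ IsFGHom G (honda p m L) κ :=
  exists_iso_of_pseries hm hG (honda_mulSeries p m hm L)

end Crest.Agent.LT
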