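/-
B3: transport to the Honda law and the Hazewinkel law (BLUEPRINT §B3).
-/
import Crest.Agent.Lib.LT.Deep
import Crest.Agent.Lib.LT.Lazard

set_option autoImplicit false
set_option linter.unusedSectionVars false

namespace Crest.Agent.LT

open Crest.LubinTate

/-! ### Local algebra -/

section Alg

variable {A : Type*} [CommRing A]

lemma smodEq_pow_iff (I : Ideal A) (c : ℕ) (x y : A) :
    x ≡ y [SMOD (I ^ c • ⊤ : Submodule A A)] ↔ x - y ∈ I ^ c := by
  rw [SModEq.sub_mem, smul_eq_mul, Ideal.mul_top]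

/-- A complete-local criterion for surjectivity of an endomorphism. -/
theorem surjective_of_map_eq (m : Ideal A) [IsAdicComplete m A] (φ : A →+* A)
    (hφ : m.map φ = m) (hres : ∀ x, ∃ a, x - φ a ∈ m) : Function.Surjective φ := by
  have hpow : ∀ c : ℕ, (m ^ c).map φ = m ^ c := fun c => by rw [Ideal.map_pow, hφ]
  have hmemφ : ∀ c : ℕ, ∀ a ∈ m ^ c, φ a ∈ m ^ c := fun c a ha => by
    rw [← hpow]; exact Ideal.mem_map_of_mem _ ha
  -- approximation step
  have hstep : ∀ c : ℕ, ∀ x ∈ m ^ c, ∃ a ∈ m ^ c, x - φ a ∈ m ^ (c + 1) := by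
    intro c x hx
    rw [← hpow c] at hx
    refine Submodule.span_induction (p := fun x _ => ∃ a ∈ m ^ c, x - φ a ∈ m ^ (c + 1)) ?_ ?_ ?_ ?_ hx
    · rintro _ ⟨a, ha, rfl⟩
      exact ⟨a, ha, by simp⟩
    · exact ⟨0, zero_mem _, by simp⟩
    · rintro x y _ _ ⟨a, ha, hxa⟩ ⟨b, hb, hyb⟩
      refine ⟨a + b, add_mem ha hb, ?_⟩
      have : x + y - φ (a + b) = (x - φ a) + (y - φ b) := by rw [map_add]; ring
      rw [this]
      exact add_mem hxa hyb
    · rintro r x _ ⟨a, ha, hxa⟩
      obtain ⟨b, hb⟩ := hres r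
      refine ⟨b * a, Ideal.mul_mem_left _ _ ha, ?_⟩
      have : r • x - φ (b * a) = r * (x - φ a) + (r - φ b) * φ a := by
        rw [map_mul, smul_eq_mul]; ring
      rw [this]
      refine add_mem (Ideal.mul_mem_left _ _ hxa) ?_
      rw [pow_succ']
      exact Ideal.mul_mem_mul hb (hmemφ c a ha)
  intro x
  -- the sequence of approximations
  have hstep' : ∀ c : ℕ, ∀ s : A, x - φ s ∈ m ^ c → ∃ s' : A, s' - s ∈ m ^ c ∧ x - φ s' ∈ m ^ (c + 1) := by
    intro c s hs
    obtain ⟨a, ha, hxa⟩ := hstep c _ hs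
    refine ⟨s + a, by simpa using ha, ?_⟩
    have : x - φ (s + a) = x - φ s - φ a := by rw [map_add]; ring
    rwa [this]
  choose! f hf using hstep'
  let s : ℕ → A := fun c => Nat.rec 0 (fun c t => f c t) c
  have hs0 : s 0 = 0 := rfl
  have hss : ∀ c, s (c + 1) = f c (s c) := fun c => rfl
  have hsx : ∀ c, x - φ (s c) ∈ m ^ c := by
    intro c
    induction c with
    | zero => simp
    | succ c ih =>
      rw [hss]
      exact (hf c (s c) ih).2
  have hsd : ∀ c, s (c + 1) - s c ∈ m ^ c := fun c => by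
    rw [hss]
    exact (hf c (s c) (hsx c)).1
  have hcau : ∀ {c d : ℕ}, c ≤ d → s c ≡ s d [SMOD (m ^ c • ⊤ : Submodule A A)] := by
    intro c d hcd
    rw [smodEq_pow_iff]
    induction d, hcd using Nat.le_induction with
    | base => simp
    | succ d hd ih =>
      have : s c - s (d + 1) = (s c - s d) - (s (d + 1) - s d) := by ring
      rw [this]
      exact sub_mem ih (Ideal.pow_le_pow_right hd (hsd d))
  obtain ⟨L, hL⟩ := (IsPrecomplete.prec (inferInstance : IsPrecomplete m A)) hcau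
  refine ⟨L, ?_⟩
  have hH : IsHausdorff m A := inferInstance
  have : x - φ L = 0 := by
    apply hH.haus
    intro c
    rw [SModEq.zero, smul_eq_mul, Ideal.mul_top]
    have h1 := (smodEq_pow_iff m c _ _).1 (hL c)
    have : x - φ L = (x - φ (s c)) + φ (s c - L) := by rw [map_sub]; ring
    rw [this]
    exact add_mem (hsx c) (hmemφ c _ h1)
  exact (sub_eq_zero.1 this).symm

/-- A surjective endomorphism of a Noetherian ring is injective. -/
theorem injective_of_surjective_endo [IsNoetherianRing A] (φ : A →+* A)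
    (hs : Function.Surjective φ) : Function.Injective φ := by
  have hsk : ∀ k : ℕ, Function.Surjective (φ ^ k) := fun k => by
    rw [RingHom.coe_pow]
    exact hs.iterate k
  let I : ℕ →o Ideal A :=
    { toFun := fun k => RingHom.ker (φ ^ k)
      monotone' := by
        intro a b hab x hx
        simp only [RingHom.mem_ker] at hx ⊢
        obtain ⟨c, rfl⟩ := Nat.exists_eq_add_of_le hab
        rw [add_comm, pow_add, RingHom.mul_def, RingHom.comp_apply, hx, map_zero] }
  obtain ⟨N, hN⟩ := monotone_stabilizes_iff_noetherian.mpr (inferInstance : IsNoetherian A A) I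
  rw [injective_iff_map_eq_zero]
  intro x hx
  obtain ⟨y, rfl⟩ := hsk N x
  have h1 : y ∈ I (N + 1) := by
    show y ∈ RingHom.ker (φ ^ (N + 1))
    rw [RingHom.mem_ker, pow_succ', RingHom.mul_def, RingHom.comp_apply]
    exact hx
  rw [← hN (N + 1) (by omega)] at h1
  exact h1

end Alg

/-! ### Transport to the Hazewinkel law -/

section Transport

variable {p n : ℕ} [Fact p.Prime]

/-- For `f = X` modulo `X^M`, `f ∘ g = g` modulo `X^M`. -/
lemma dvd_cmp_sub_of_congX {R : Type*} [CommRing R] {M : ℕ} {f g : PowerSeries R} (hf : CongX M f)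
    (hg : PowerSeries.constantCoeff g = 0) : (PowerSeries.X : PowerSeries R) ^ M ∣ cmp f g - g := by
  have hd : (PowerSeries.X : PowerSeries R) ^ M ∣ f - PowerSeries.X := by
    rw [PowerSeries.X_pow_dvd_iff]
    intro i hi
    rw [map_sub, hf i hi, sub_self]
  obtain ⟨c, hc⟩ := hd
  have hgS : PowerSeries.HasSubst g := hasSubst_of_cc hg
  have hf' : f = PowerSeries.X + PowerSeries.X ^ M * c := by rw [← hc]; ring
  have hX : (PowerSeries.X : PowerSeries R) ∣ g := PowerSeries.X_dvd_iff.2 (by simpa using hg)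
  rw [hf', cmp, PowerSeries.subst_add hgS, PowerSeries.subst_X hgS, PowerSeries.subst_mul hgS,
    PowerSeries.subst_pow hgS, PowerSeries.subst_X hgS, add_sub_cancel_left]
  exact Dvd.dvd.mul_right (pow_dvd_pow_of_dvd hX M) _

lemma congX_of_dvd {R : Type*} [CommRing R] {M : ℕ} {f : PowerSeries R}
    (h : (PowerSeries.X : PowerSeries R) ^ M ∣ f - PowerSeries.X) : CongX M f := by
  intro i hi
  have := PowerSeries.X_pow_dvd_iff.1 h i hi
  rwa [map_sub, sub_eq_zero] at this

/-- Conjugating by an isomorphism preserves depth. -/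
lemma congX_conj {R : Type*} [CommRing R] {M : ℕ} {g₀ κ : PowerSeries R}
    (hg₀ : CongX M g₀) (hκ : PowerSeries.constantCoeff κ = 0) (hu : IsUnit (PowerSeries.coeff 1 κ))
    (hc : PowerSeries.constantCoeff (cmp g₀ κ) = 0) :
    CongX M (cmp (sInv κ hu) (cmp g₀ κ)) := by
  apply congX_of_dvd
  have h1 := dvd_cmp_sub_of_congX hg₀ hκ
  have h2 := psubst_congr_X_pow (hasSubst_of_cc hc) (hasSubst_of_cc hκ) M h1 (sInv κ hu)
  have h3 : PowerSeries.subst κ (sInv κ hu) = PowerSeries.X := cmp_sInv' κ hκ hu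
  rwa [h3] at h2

/-- The transport data from `(Γ, H)` to the Hazewinkel law `(Γ₀, H₀)`. -/
structure Transport (Γ : FormalGroup (GaloisField p n)) (H : FormalGroup (LTRing p n)) where
  f : LTRing p n →ₐ[WittVector p (GaloisField p n)] LTRing p n
  f' : LTRing p n →ₐ[WittVector p (GaloisField p n)] LTRing p n
  f_f' : f.comp f' = AlgHom.id _ _
  f'_f : f'.comp f = AlgHom.id _ _
  κ : PowerSeries (GaloisField p n)
  θ₀ : PowerSeries (LTRing p n)
  hκ : IsFGHom Γ (honda p n (GaloisField p n)) κ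
  hκu : IsUnit (PowerSeries.coeff 1 κ)
  hres : (LTRing.residue p n).comp f.toRingHom = LTRing.residue p n
  hθ₀ : IsFGHom (H.map f.toRingHom) (hazeE0 p n) θ₀
  hθ₀r : PowerSeries.map (LTRing.residue p n) θ₀ = κ

variable {Γ : FormalGroup (GaloisField p n)} {H : FormalGroup (LTRing p n)}

/-- Height ideals of a law reducing to a law with `[p] = X^(p^n)` lie in the maximal ideal. -/
lemma hIdeal_le_max (hU : H.map (LTRing.residue p n) = Γ)
    (hΓ : mulSeries Γ p = PowerSeries.X ^ (p ^ n)) (h : ℕ) (hh : h ≤ n) :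
    hIdeal p H h ≤ IsLocalRing.maximalIdeal (LTRing p n) := by
  induction h with
  | zero => simp
  | succ h ih =>
    rw [hIdeal_succ]
    refine sup_le (ih (by omega)) ?_
    rw [Ideal.span_singleton_le_iff_mem, ← ker_residue, RingHom.mem_ker, ← PowerSeries.coeff_map,
      ← mulSeries_map, hU, hΓ, PowerSeries.coeff_X_pow, if_neg]
    intro he
    have := Nat.pow_right_injective (Fact.out : p.Prime).two_le he
    omega

lemma haze_hIdeal_top (hn : 1 ≤ n) :
    hIdeal p (hazeE0 p n) n = IsLocalRing.maximalIdeal (LTRing p n) := by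
  rw [← heightIdeal_eq_hIdeal, hazeE0_heightIdeal p n hn n hn le_rfl, ← mE_eq, mE]
  congr 1
  ext x
  simp only [Set.mem_union, Set.mem_singleton_iff, Set.mem_ofPred_eq, Set.mem_range]
  constructor
  · rintro (h | ⟨i, -, rfl⟩)
    · exact Or.inl h
    · exact Or.inr ⟨i, rfl⟩
  · rintro (h | ⟨i, rfl⟩)
    · exact Or.inl h
    · exact Or.inr ⟨i, by omega, rfl⟩

theorem exists_transport [Γ.IsComm] [H.IsComm] (hU : IsUniversalDeformation p n Γ H) (hn : 1 ≤ n)
    (hΓ : mulSeries Γ p = PowerSeries.X ^ (p ^ n)) : Nonempty (Transport Γ H) := by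
  obtain ⟨κ, hκ1, hκ⟩ := exists_iso_honda p n hn (GaloisField p n) Γ hΓ
  have hκu : IsUnit (PowerSeries.coeff 1 κ) := by rw [hκ1]; exact isUnit_one
  have hG : IsFGHom Γ ((hazeE0 p n).map (testE0 p n).r) κ := by
    have : (hazeE0 p n).map (testE0 p n).r = honda p n (GaloisField p n) := hazeE0_red p n hn
    rw [this]
    exact hκ
  obtain ⟨φ, h1, θ, h2, h3⟩ := exists_hom_of_law hU (testE0 p n) (hazeE0 p n) hκu hG
  have hθu : IsUnit (PowerSeries.coeff 1 θ) := by
    apply (testE0 p n).isUnit_of_r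
    rw [← PowerSeries.coeff_map, h3]
    exact hκu
  have : (H.map φ.toRingHom).IsComm := LogLaw.isComm_map _ _
  have hI : (hIdeal p H n).map φ.toRingHom = IsLocalRing.maximalIdeal (LTRing p n) := by
    rw [← hIdeal_map, hIdeal_eq_of_iso p h2 hθu n, haze_hIdeal_top hn]
  have hres : ∀ x, LTRing.residue p n (φ x) = LTRing.residue p n x := fun x =>
    congrArg (fun f => f x) h1
  have hle : ∀ x ∈ IsLocalRing.maximalIdeal (LTRing p n), φ.toRingHom x ∈ IsLocalRing.maximalIdeal (LTRing p n) := by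
    intro x hx
    rw [← ker_residue, RingHom.mem_ker] at hx ⊢
    rw [← hx]
    exact hres x
  have hmap : (IsLocalRing.maximalIdeal (LTRing p n)).map φ.toRingHom =
      IsLocalRing.maximalIdeal (LTRing p n) := by
    apply le_antisymm
    · exact Ideal.map_le_iff_le_comap.2 hle
    · conv_lhs => rw [← hI]
      exact Ideal.map_mono (hIdeal_le_max hU.1 hΓ n le_rfl)
  have : IsAdicComplete (IsLocalRing.maximalIdeal (LTRing p n)) (LTRing p n) := isAdicComplete_E0 p n
  have hs : Function.Surjective φ.toRingHom := surjective_of_map_eq _ _ hmap fun x => by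
    refine ⟨x, ?_⟩
    rw [← ker_residue, RingHom.mem_ker, map_sub, sub_eq_zero]
    exact (hres x).symm
  have hi : Function.Injective φ.toRingHom := injective_of_surjective_endo _ hs
  let e := AlgEquiv.ofBijective φ ⟨hi, hs⟩
  exact ⟨{ f := φ
           f' := e.symm.toAlgHom
           f_f' := AlgHom.ext fun x => e.apply_symm_apply x
           f'_f := AlgHom.ext fun x => e.symm_apply_apply x
           κ := κ
           θ₀ := θ
           hκ := hκ
           hκu := hκu
           hres := h1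
           hθ₀ := h2
           hθ₀r := h3 }⟩

namespace Transport

variable (t : Transport Γ H)

lemma f_f'_apply (x : LTRing p n) : t.f (t.f' x) = x :=
  congrArg (fun f => f x) t.f_f'

lemma f'_f_apply (x : LTRing p n) : t.f' (t.f x) = x :=
  congrArg (fun f => f x) t.f'_f

lemma res_f (x : LTRing p n) : LTRing.residue p n (t.f x) = LTRing.residue p n x :=
  congrArg (fun f => f x) t.hres

lemma res_f' (x : LTRing p n) : LTRing.residue p n (t.f' x) = LTRing.residue p n x := by
  rw [← t.res_f, t.f_f'_apply]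

lemma bij : Function.Bijective t.f.toRingHom :=
  ⟨Function.LeftInverse.injective t.f'_f_apply, Function.RightInverse.surjective t.f_f'_apply⟩

lemma bij' : Function.Bijective t.f'.toRingHom :=
  ⟨Function.LeftInverse.injective t.f_f'_apply, Function.RightInverse.surjective t.f'_f_apply⟩

lemma θ₀_unit : IsUnit (PowerSeries.coeff 1 t.θ₀) := by
  apply (testE0 p n).isUnit_of_r
  show IsUnit (LTRing.residue p n _)
  rw [← PowerSeries.coeff_map, t.hθ₀r]
  exact t.hκu

lemma map_hIdeal [H.IsComm] (h : ℕ) :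
    (hIdeal p H h).map t.f.toRingHom = hIdeal p (hazeE0 p n) h := by
  have : (H.map t.f.toRingHom).IsComm := LogLaw.isComm_map _ _
  rw [← hIdeal_map, hIdeal_eq_of_iso p t.hθ₀ t.θ₀_unit h]

lemma hIdeal_eq_comap [H.IsComm] (h : ℕ) :
    hIdeal p H h = (hIdeal p (hazeE0 p n) h).comap t.f.toRingHom := by
  rw [← t.map_hIdeal, Ideal.comap_map_of_bijective _ t.bij]

include t in
/-- `H₀` is universal. -/
theorem univ (hU : IsUniversalDeformation p n Γ H) (hn : 1 ≤ n) :
    IsUniversalDeformation p n (honda p n (GaloisField p n)) (hazeE0 p n) := by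
  refine ⟨hazeE0_red p n hn, ?_⟩
  intro B _ _ _ _ hc r hs hk hcomp G hG
  let T : TestData p n B := ⟨hc, r, hs, hk, hcomp⟩
  have hr : T.r = r := rfl
  have hGκ : IsFGHom Γ (G.map T.r) t.κ := by
    rw [hr, hG]
    exact t.hκ
  obtain ⟨φ, h1, θ, h2, h3⟩ := exists_hom_of_law hU T G t.hκu hGκ
  have hφa : ∀ x, T.r (φ x) = LTRing.residue p n x := fun x => congrArg (fun f => f x) h1
  -- the candidate
  let φ₁ := φ.comp t.f'
  have hφ₁ : T.r.comp φ₁.toRingHom = LTRing.residue p n := by
    ext x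
    show T.r (φ (t.f' x)) = _
    rw [hφa, t.res_f']
  have hφ₁f : φ₁.comp t.f = φ := by
    ext x
    show φ (t.f' (t.f x)) = _
    rw [t.f'_f_apply]
  have hτ0 : ∀ (φ₂ : LTRing p n →ₐ[WittVector p (GaloisField p n)] B),
      T.r.comp φ₂.toRingHom = LTRing.residue p n →
      IsFGHom (H.map (φ₂.comp t.f).toRingHom) ((hazeE0 p n).map φ₂.toRingHom)
        (PowerSeries.map φ₂.toRingHom t.θ₀) ∧
      PowerSeries.map T.r (PowerSeries.map φ₂.toRingHom t.θ₀) = t.κ := by
    intro φ₂ h
    constructor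
    · have := t.hθ₀.map φ₂.toRingHom
      rwa [fg_map_map] at this
    · rw [← t.hθ₀r]
      ext i
      rw [PowerSeries.coeff_map, PowerSeries.coeff_map, PowerSeries.coeff_map]
      exact congrArg (fun f => f (PowerSeries.coeff i t.θ₀)) h
  obtain ⟨hτ, hτr⟩ := hτ0 φ₁ hφ₁
  rw [hφ₁f] at hτ
  have hτu : IsUnit (PowerSeries.coeff 1 (PowerSeries.map φ₁.toRingHom t.θ₀)) := by
    apply T.isUnit_of_r
    rw [← PowerSeries.coeff_map, hτr]
    exact t.hκu
  refine ⟨φ₁, ⟨hφ₁, cmp θ (sInv _ hτu), h2.comp (hτ.inv hτu), ?_⟩, ?_⟩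
  · show PowerSeries.map r _ = _
    rw [← hr, map_cmp T.r (cc_sInv _ hτu), h3, map_sInv T.r hτu hτ.1, sInv_congr hτr _ t.hκu]
    exact cmp_sInv t.κ t.hκ.1 t.hκu
  · rintro φ₂ ⟨hφ₂, θ₂, hθ₂, hθ₂r⟩
    obtain ⟨hτ₂, hτ₂r⟩ := hτ0 φ₂ hφ₂
    have hres₂ : T.r.comp (φ₂.comp t.f).toRingHom = LTRing.residue p n := by
      ext x
      have := congrArg (fun f => f (t.f x)) hφ₂
      simp only [RingHom.comp_apply] at this
      exact this.trans (t.res_f x)
    have hcomp₂ : IsFGHom (H.map (φ₂.comp t.f).toRingHom) G (cmp θ₂ (PowerSeries.map φ₂.toRingHom t.θ₀)) :=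
      hθ₂.comp hτ₂
    have hcomp₂r : PowerSeries.map T.r (cmp θ₂ (PowerSeries.map φ₂.toRingHom t.θ₀)) = t.κ := by
      rw [map_cmp T.r hτ₂.1, hτ₂r]
      have : PowerSeries.map T.r θ₂ = PowerSeries.X := hθ₂r
      rw [this, cmp_X_left t.hκ.1]
    have e := unique_of_hom hU T hres₂ h1 hcomp₂ h2 (hcomp₂r.trans h3.symm)
      (by rw [h3]; exact t.hκu)
    ext1 x
    have := congrArg (fun f => f (t.f' x)) e
    simp only [AlgHom.comp_apply, t.f_f'_apply] at this
    exact this

/-- The automorphism of `Γ` attached to an automorphism of `Γ₀`. -/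
noncomputable def pull (g₀ : PowerSeries (GaloisField p n)) : PowerSeries (GaloisField p n) :=
  cmp (sInv t.κ t.hκu) (cmp g₀ t.κ)

lemma pull_aut {g₀ : PowerSeries (GaloisField p n)} (hg₀ : IsFGAut (honda p n (GaloisField p n)) g₀) :
    IsFGAut Γ (t.pull g₀) :=
  ⟨(t.hκ.inv t.hκu).comp (hg₀.1.comp t.hκ), by
    rw [pull, coeff_one_cmp (cc_sInv _ _) (constantCoeff_cmp hg₀.1.1 t.hκ.1),
      coeff_one_cmp hg₀.1.1 t.hκ.1]
    exact ((isUnit_coeff_one_sInv _ _).mul (hg₀.2.mul t.hκu))⟩

lemma pull_congX {g₀ : PowerSeries (GaloisField p n)} (hg₀ : IsFGAut (honda p n (GaloisField p n)) g₀)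
    {M : ℕ} (hM : CongX M g₀) : CongX M (t.pull g₀) :=
  congX_conj hM t.hκ.1 t.hκu (constantCoeff_cmp hg₀.1.1 t.hκ.1)

/-- Transport of stabilizer maps. -/
theorem stab_transport {g₀ : PowerSeries (GaloisField p n)}
    (hg₀ : IsFGAut (honda p n (GaloisField p n)) g₀)
    {φ : LTRing p n →ₐ[WittVector p (GaloisField p n)] LTRing p n}
    (hφ : IsStabilizerMap p n H (t.pull g₀) φ) :
    IsStabilizerMap p n (hazeE0 p n) g₀ ((t.f.comp φ).comp t.f') := by
  obtain ⟨hres, θ, hθ, hθr⟩ := hφ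
  have hresa : ∀ x, LTRing.residue p n (φ x) = LTRing.residue p n x := fun x =>
    congrArg (fun f => f x) hres
  set φ' := (t.f.comp φ).comp t.f' with hφ'
  have hres' : ∀ x, LTRing.residue p n (φ' x) = LTRing.residue p n x := fun x => by
    show LTRing.residue p n (t.f (φ (t.f' x))) = _
    rw [t.res_f, hresa, t.res_f']
  have hφ'f : φ'.comp t.f = t.f.comp φ := by
    ext1 x
    show t.f (φ (t.f' (t.f x))) = _
    rw [t.f'_f_apply]
    rfl
  -- the three pieces
  have hA : IsFGHom (H.map (t.f.comp φ).toRingHom) ((hazeE0 p n).map φ'.toRingHom)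
      (PowerSeries.map φ'.toRingHom t.θ₀) := by
    have := t.hθ₀.map φ'.toRingHom
    rw [fg_map_map] at this
    have e : φ'.toRingHom.comp t.f.toRingHom = (t.f.comp φ).toRingHom := by
      rw [← hφ'f]; rfl
    rwa [e] at this
  have hAr : PowerSeries.map (LTRing.residue p n) (PowerSeries.map φ'.toRingHom t.θ₀) = t.κ := by
    rw [← t.hθ₀r]
    ext i
    rw [PowerSeries.coeff_map, PowerSeries.coeff_map, PowerSeries.coeff_map]
    exact hres' _
  have hB : IsFGHom (H.map (t.f.comp φ).toRingHom) (H.map t.f.toRingHom)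
      (PowerSeries.map t.f.toRingHom θ) := by
    have := hθ.map t.f.toRingHom
    rw [fg_map_map] at this
    exact this
  have hBr : PowerSeries.map (LTRing.residue p n) (PowerSeries.map t.f.toRingHom θ) = t.pull g₀ := by
    rw [← hθr]
    ext i
    rw [PowerSeries.coeff_map, PowerSeries.coeff_map, PowerSeries.coeff_map]
    exact t.res_f _
  have hAu : IsUnit (PowerSeries.coeff 1 (PowerSeries.map φ'.toRingHom t.θ₀)) := by
    apply (testE0 p n).isUnit_of_r
    show IsUnit (LTRing.residue p n _)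
    rw [← PowerSeries.coeff_map, hAr]
    exact t.hκu
  refine ⟨RingHom.ext hres', cmp t.θ₀ (cmp (PowerSeries.map t.f.toRingHom θ) (sInv _ hAu)), ?_, ?_⟩
  · exact t.hθ₀.comp (hB.comp (hA.inv hAu))
  · have hsi := cc_sInv _ hAu
    have hc := constantCoeff_cmp hB.1 hsi
    rw [map_cmp _ hc, t.hθ₀r, map_cmp _ hsi, hBr, map_sInv _ hAu hA.1, sInv_congr hAr _ t.hκu, pull]
    rw [cmp_assoc (constantCoeff_cmp hg₀.1.1 t.hκ.1) (cc_sInv _ t.hκu),
      cmp_assoc t.hκ.1 (cc_sInv _ t.hκu), cmp_sInv t.κ t.hκ.1 t.hκu]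
    have e1 : cmp g₀ PowerSeries.X = g₀ := coeff_zero_cmp_X
    rw [e1, ← cmp_assoc (cc_sInv _ t.hκu) hg₀.1.1, cmp_sInv t.κ t.hκ.1 t.hκu, cmp_X_left hg₀.1.1]

end Transport

end Transport

/-! ### Bijectivity of stabilizer maps; stability of the height ideals -/

section Stable

variable {p n : ℕ} [Fact p.Prime]
variable {Γ : FormalGroup (GaloisField p n)} {H : FormalGroup (LTRing p n)}

theorem stab_bijective (hU : IsUniversalDeformation p n Γ H) {g : PowerSeries (GaloisField p n)}
    (hg : IsFGAut Γ g) {φ : LTRing p n →ₐ[WittVector p (GaloisField p n)] LTRing p n}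
    (hφ : IsStabilizerMap p n H g φ) : Function.Bijective φ.toRingHom := by
  have hg' : IsFGAut Γ (sInv g hg.2) := hg.inv
  obtain ⟨φ', hφ'⟩ := exists_stab hU hg'
  have h1 := stab_comp hφ hφ'
  have h2 := stab_comp hφ' hφ
  have e1 : cmp (sInv g hg.2) g = PowerSeries.X := cmp_sInv' g hg.1.1 hg.2
  have e2 : cmp g (sInv g hg.2) = PowerSeries.X := cmp_sInv g hg.1.1 hg.2
  rw [e1] at h1
  rw [e2] at h2
  have u1 := stab_unique hU (isFGAut_X Γ) h1 stab_id
  have u2 := stab_unique hU (isFGAut_X Γ) h2 stab_id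
  constructor
  · have : Function.LeftInverse φ' φ := fun x => congrArg (fun f => f x) u1
    exact this.injective
  · have : Function.RightInverse φ' φ := fun x => congrArg (fun f => f x) u2
    exact this.surjective

theorem hIdeal_comap_stab [H.IsComm] (hU : IsUniversalDeformation p n Γ H)
    {g : PowerSeries (GaloisField p n)}
    (hg : IsFGAut Γ g) {φ : LTRing p n →ₐ[WittVector p (GaloisField p n)] LTRing p n}
    (hφ : IsStabilizerMap p n H g φ) (h : ℕ) :
    Ideal.comap φ.toRingHom (hIdeal p H h) = hIdeal p H h := by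
  obtain ⟨hres, θ, hθ, hθr⟩ := hφ
  have hu : IsUnit (PowerSeries.coeff 1 θ) := by
    apply (testE0 p n).isUnit_of_r
    show IsUnit (LTRing.residue p n _)
    rw [← PowerSeries.coeff_map, hθr]
    exact hg.2
  have : (H.map φ.toRingHom).IsComm := LogLaw.isComm_map _ _
  have h1 := hIdeal_eq_of_iso p hθ hu h
  rw [hIdeal_map] at h1
  conv_lhs => rw [← h1]
  exact Ideal.comap_map_of_bijective _ (stab_bijective hU hg ⟨hres, θ, hθ, hθr⟩)

end Stable

end Crest.Agent.LT
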