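/-
Top-level interfaces between Bridge (B) and Parts II, III (D, E). 
-/
import Crest.Agent.Lib.LT.Honda

set_option autoImplicit false

namespace Crest.Agent.LT

open Crest.LubinTate

variable (p : ℕ) [Fact p.Prime] (n : ℕ)

instance charP_galoisField' : CharP (GaloisField p n) p := inferInstance

/-- The Honda law `Γ₀` of height `n` over `k`. -/
noncomputable abbrev Γ₀ : FormalGroup (GaloisField p n) := honda p n (GaloisField p n)

/-- `R = k⟦y_0, …, y_{d-1}⟧` -/
abbrev RR (d : ℕ) : Type := MvPowerSeries (Fin d) (GaloisField p n)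

instance charP_RR (d : ℕ) : CharP (RR p n d) p :=
  charP_of_injective_ringHom (f := MvPowerSeries.C (σ := Fin d) (R := GaloisField p n))
    (fun _ _ h => by simpa using congrArg MvPowerSeries.constantCoeff h) p

instance expChar_RR (d : ℕ) : ExpChar (RR p n d) p := ExpChar.prime Fact.out

/-- residue map of `R` -/
noncomputable abbrev resR (d : ℕ) : RR p n d →+* GaloisField p n := MvPowerSeries.constantCoeff

/-- maximal ideal of `R` -/
noncomputable abbrev mR (d : ℕ) : Ideal (RR p n d) := RingHom.ker (resR p n d)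

/-- Input of Part III (BLUEPRINT §E). -/
structure CharPInput (h d : ℕ) where
  hd : h + d = n
  h1 : 1 ≤ h
  d1 : 1 ≤ d
  F : FormalGroup (RR p n d)
  comm : F.IsComm
  red : F.map (resR p n d) = Γ₀ p n
  V : PowerSeries (RR p n d)
  V_hom : IsFGHom (F.map (iterateFrobenius (RR p n d) p h)) F V
  V_p : mulSeries F p = cmp V (PowerSeries.X ^ (p ^ h))
  V_coeff : ∀ j : Fin d, PowerSeries.coeff (p ^ j.1) V = MvPowerSeries.X j
  V_red : PowerSeries.map (resR p n d) V = PowerSeries.X ^ (p ^ d)
  act : DeepAction (resR p n d) (mR p n d) (Γ₀ p n) F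
  act_lin : ∀ g (a : GaloisField p n), act.φ g (MvPowerSeries.C a) = MvPowerSeries.C a

end Crest.Agent.LT
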