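/-
B3: the quotient maps `π₀ : E₀ → k⟦y⟧` with kernel `(p, u_1, …, u_{h-1})`.
-/
import Crest.Agent.Lib.LT.Bridge
import Crest.Agent.Lib.LT.Spec

set_option autoImplicit false
set_option linter.unusedSectionVars false

namespace Crest.Agent.LT

open Crest.LubinTate

/-! ### Completeness of multivariate power series rings -/

section MvGen

variable {R : Type*} [CommRing R] {r : ℕ}

open MvPowerSeries

/-- the ideal of series without constant term -/
noncomputable abbrev JJ (R : Type*) [CommRing R] (r : ℕ) : Ideal (MvPowerSeries (Fin r) R) :=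
  RingHom.ker (MvPowerSeries.constantCoeff : MvPowerSeries (Fin r) R →+* R)

lemma X_mem_JJ (i : Fin r) : (X i : MvPowerSeries (Fin r) R) ∈ JJ R r := by
  simp [JJ, RingHom.mem_ker]

lemma JJ_pow_le (c : ℕ) {f : MvPowerSeries (Fin r) R} (hf : f ∈ JJ R r ^ c) :
    (c : ℕ∞) ≤ f.order := by
  classical
  induction c generalizing f with
  | zero => simp
  | succ c ih =>
    rw [pow_succ] at hf
    refine Submodule.mul_induction_on hf ?_ ?_
    · intro x hx y hy
      refine nat_le_order fun e he => ?_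
      rw [coeff_mul]
      refine Finset.sum_eq_zero fun ab hab => ?_
      rw [Finset.HasAntidiagonal.mem_antidiagonal] at hab
      by_cases hb : ab.2 = 0
      · have hy0 : coeff ab.2 y = 0 := by
          rw [hb, coeff_zero_eq_constantCoeff_apply]
          exact hy
        rw [hy0, mul_zero]
      · have hdeg : ab.1.degree + ab.2.degree = e.degree := by
          rw [← hab, map_add]
        have hb1 : 1 ≤ ab.2.degree := by
          rw [Nat.one_le_iff_ne_zero]
          intro h0
          exact hb ((Finsupp.degree_eq_zero_iff _).1 h0)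
        rw [coeff_of_lt_order (lt_of_lt_of_le (by exact_mod_cast (by omega : ab.1.degree < c)) (ih hx)),
          zero_mul]
    · intro x y hx hy
      exact le_trans (le_min hx hy) min_order_le_add

lemma mem_JJ_pow (c : ℕ) {f : MvPowerSeries (Fin r) R} (hf : (c : ℕ∞) ≤ f.order) :
    f ∈ JJ R r ^ c := by
  induction c generalizing f with
  | zero => simp
  | succ c ih =>
    obtain ⟨g, hg, rfl⟩ := exists_sum_X_mul f c hf
    refine Ideal.sum_mem _ fun i _ => ?_
    rw [pow_succ']
    exact Ideal.mul_mem_mul (X_mem_JJ i) (ih (hg i))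

lemma mem_JJ_pow_iff (c : ℕ) (f : MvPowerSeries (Fin r) R) :
    f ∈ JJ R r ^ c ↔ ∀ e : Fin r →₀ ℕ, e.degree < c → coeff e f = 0 := by
  constructor
  · intro h e he
    apply coeff_of_lt_order
    exact lt_of_lt_of_le (by exact_mod_cast he) (JJ_pow_le c h)
  · intro h
    exact mem_JJ_pow c (nat_le_order h)

theorem isAdicComplete_JJ : IsAdicComplete (JJ R r) (MvPowerSeries (Fin r) R) where
  haus' := by
    intro x hx
    ext e
    have := hx (e.degree + 1)
    rw [SModEq.zero, smul_eq_mul, Ideal.mul_top, mem_JJ_pow_iff] at this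
    simpa using this e (by omega)
  prec' := by
    intro f hf
    obtain ⟨g, hg⟩ : ∃ g : MvPowerSeries (Fin r) R, ∀ e, coeff e g = coeff e (f (e.degree + 1)) :=
      ⟨fun e => coeff e (f (e.degree + 1)), fun e => rfl⟩
    refine ⟨g, fun c => ?_⟩
    rw [SModEq.sub_mem, smul_eq_mul, Ideal.mul_top, mem_JJ_pow_iff]
    intro e he
    rw [map_sub, hg, sub_eq_zero]
    have h1 := hf (show e.degree + 1 ≤ c by omega)
    rw [SModEq.sub_mem, smul_eq_mul, Ideal.mul_top, mem_JJ_pow_iff] at h1
    have h2 := h1 e (by omega)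
    rw [map_sub, sub_eq_zero] at h2
    exact h2.symm

/-- Membership in the ideal generated by some variables. -/
lemma mem_span_X_of_coeff (s : Finset (Fin r)) (g : MvPowerSeries (Fin r) R)
    (hg : ∀ e : Fin r →₀ ℕ, (∀ i ∈ s, e i = 0) → coeff e g = 0) :
    g ∈ Ideal.span ((fun i => (X i : MvPowerSeries (Fin r) R)) '' (s : Set (Fin r))) := by
  classical
  induction s using Finset.induction_on generalizing g with
  | empty =>
    have : g = 0 := by
      ext e
      simpa using hg e (by simp)
    rw [this]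
    exact zero_mem _
  | insert i s his ih =>
    obtain ⟨g₁, hg₁⟩ : ∃ g₁ : MvPowerSeries (Fin r) R, ∀ e, coeff e g₁ = coeff (e + Finsupp.single i 1) g :=
      ⟨fun e => coeff (e + Finsupp.single i 1) g, fun e => rfl⟩
    have hterm : ∀ e, coeff e (X i * g₁) = if e i = 0 then 0 else coeff e g := by
      intro e
      rw [X_def, coeff_monomial_mul]
      by_cases hi : e i = 0
      · rw [if_pos hi, if_neg]
        intro h
        have := h i
        simp only [Finsupp.single_eq_same] at this
        omega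
      · have hle : Finsupp.single i 1 ≤ e := by
          rw [Finsupp.single_le_iff]
          omega
        rw [if_neg hi, if_pos hle, one_mul, hg₁, tsub_add_cancel_of_le hle]
    have h1 : g - X i * g₁ ∈ Ideal.span ((fun i => (X i : MvPowerSeries (Fin r) R)) '' (s : Set (Fin r))) := by
      apply ih
      intro e he
      rw [map_sub, hterm]
      by_cases hi : e i = 0
      · rw [if_pos hi, sub_zero]
        apply hg
        intro j hj
        rcases Finset.mem_insert.1 hj with rfl | hj
        · exact hi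
        · exact he j hj
      · rw [if_neg hi, sub_self]
    have h2 : g = (g - X i * g₁) + X i * g₁ := by ring
    rw [h2]
    refine add_mem (Ideal.span_mono ?_ h1) (Ideal.mul_mem_right _ _ (Ideal.subset_span ?_))
    · apply Set.image_mono
      simp
    · exact ⟨i, by simp, rfl⟩

/-- Substitutions that only rename and kill variables, on coefficients. -/
lemma coeff_subst_rename {σ τ : Type*} [DecidableEq σ] [DecidableEq τ] (ι : τ → σ) (hι : Function.Injective ι)
    (a : σ → MvPowerSeries τ R) (ha : HasSubst a)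
    (ha0 : ∀ s, s ∉ Set.range ι → a s = 0) (ha1 : ∀ j, a (ι j) = X j)
    (g : MvPowerSeries σ R) (e : τ →₀ ℕ) :
    coeff e (subst a g) = coeff (e.mapDomain ι) g := by
  classical
  have key : ∀ d : σ →₀ ℕ, coeff e (d.prod fun s m => a s ^ m) =
      if d = e.mapDomain ι then 1 else 0 := by
    intro d
    by_cases hd : ∃ s ∈ d.support, s ∉ Set.range ι
    · obtain ⟨s, hs, hsr⟩ := hd
      have hz : (d.prod fun s m => a s ^ m) = 0 := by
        apply Finset.prod_eq_zero hs
        show a s ^ d s = 0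
        rw [ha0 s hsr, zero_pow (Finsupp.mem_support_iff.1 hs)]
      rw [hz, map_zero, if_neg]
      intro hde
      have := Finsupp.mem_support_iff.1 hs
      rw [hde, Finsupp.mapDomain_of_notMem_range _ _ hsr] at this
      exact this rfl
    · push Not at hd
      have hdc : (d.comapDomain ι hι.injOn).mapDomain ι = d :=
        Finsupp.mapDomain_comapDomain ι hι d hd
      set d' := d.comapDomain ι hι.injOn with hd'
      have hprod : (d.prod fun s m => a s ^ m) = monomial d' (1 : R) := by
        rw [← hdc, Finsupp.prod_mapDomain_index (fun s => pow_zero _) (fun s _ _ => pow_add _ _ _)]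
        simp only [ha1]
        rw [MvPowerSeries.monomial_eq']
        simp
      rw [hprod, coeff_monomial]
      by_cases hed : e = d'
      · rw [if_pos hed, if_pos]
        rw [hed, hdc]
      · rw [if_neg hed, if_neg]
        intro h
        rw [← hdc] at h
        exact hed (Finsupp.mapDomain_injective hι h).symm
  rw [coeff_subst ha]
  rw [finsum_eq_single _ (e.mapDomain ι)]
  · rw [key, if_pos rfl, smul_eq_mul, mul_one]
  · intro d hd
    rw [key, if_neg hd, smul_zero]

end MvGen

/-! ### The map `π₀` -/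

section PiZero

variable (p n : ℕ) [Fact p.Prime] {h d : ℕ}

instance isDomain_RR (d : ℕ) : IsDomain (RR p n d) := NoZeroDivisors.to_isDomain _

/-- the index `u_{h+j}` of the variable `y_j` -/
def iotaJ (n : ℕ) (hd : h + d = n) (hh : 1 ≤ h) (j : Fin d) : Fin (n - 1) :=
  ⟨h - 1 + j.1, by have := j.2; omega⟩

lemma iotaJ_inj (hd : h + d = n) (hh : 1 ≤ h) : Function.Injective (iotaJ n hd hh) := by
  intro a b hab
  have := congrArg Fin.val hab
  simp only [iotaJ] at this
  ext
  omega

/-- the images of the variables `u_i` under `π₀` -/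
noncomputable def aaJ (hd : h + d = n) (hh : 1 ≤ h) (i : Fin (n - 1)) : RR p n d :=
  if hi : i.1 + 1 < h then 0 else MvPowerSeries.X ⟨i.1 + 1 - h, by have := i.2; omega⟩

lemma aaJ_low (hd : h + d = n) (hh : 1 ≤ h) {i : Fin (n - 1)} (hi : i.1 + 1 < h) :
    aaJ p n hd hh i = 0 := dif_pos hi

lemma aaJ_iota (hd : h + d = n) (hh : 1 ≤ h) (j : Fin d) :
    aaJ p n hd hh (iotaJ n hd hh j) = MvPowerSeries.X j := by
  unfold aaJ iotaJ
  rw [dif_neg (by simp only; omega)]
  congr 2
  simp only
  omega

lemma aaJ_cc (hd : h + d = n) (hh : 1 ≤ h) (i : Fin (n - 1)) :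
    MvPowerSeries.constantCoeff (aaJ p n hd hh i) = 0 := by
  unfold aaJ
  split_ifs <;> simp

lemma hasSubst_aaJ (hd : h + d = n) (hh : 1 ≤ h) : MvPowerSeries.HasSubst (aaJ p n hd hh) :=
  MvPowerSeries.hasSubst_of_constantCoeff_zero (aaJ_cc p n hd hh)

/-- The map `π₀`. -/
noncomputable def piZero (hd : h + d = n) (hh : 1 ≤ h) : LTRing p n →+* RR p n d :=
  (MvPowerSeries.substAlgHom (R := GaloisField p n) (hasSubst_aaJ p n hd hh)).toRingHom.comp
    (MvPowerSeries.map (WittVector.constantCoeff : WittVector p (GaloisField p n) →+* GaloisField p n))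

lemma piZero_apply (hd : h + d = n) (hh : 1 ≤ h) (f : LTRing p n) :
    piZero p n hd hh f = MvPowerSeries.subst (aaJ p n hd hh) (MvPowerSeries.map
      (WittVector.constantCoeff : WittVector p (GaloisField p n) →+* GaloisField p n) f) := by
  show MvPowerSeries.substAlgHom (R := GaloisField p n) (hasSubst_aaJ p n hd hh) _ = _
  rw [MvPowerSeries.coe_substAlgHom]

lemma piZero_coeff (hd : h + d = n) (hh : 1 ≤ h) (f : LTRing p n) (e : Fin d →₀ ℕ) :
    MvPowerSeries.coeff e (piZero p n hd hh f) =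
      WittVector.constantCoeff (MvPowerSeries.coeff (e.mapDomain (iotaJ n hd hh)) f) := by
  classical
  rw [piZero_apply, coeff_subst_rename (iotaJ n hd hh) (iotaJ_inj n hd hh) _ (hasSubst_aaJ p n hd hh)
    ?_ (aaJ_iota p n hd hh), MvPowerSeries.coeff_map]
  intro s hs
  apply aaJ_low
  by_contra hcon
  apply hs
  refine ⟨⟨s.1 + 1 - h, by have := s.2; omega⟩, ?_⟩
  ext
  simp only [iotaJ]
  omega

lemma piZero_X (hd : h + d = n) (hh : 1 ≤ h) (i : Fin (n - 1)) :
    piZero p n hd hh (MvPowerSeries.X i) = aaJ p n hd hh i := by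
  rw [piZero_apply, MvPowerSeries.map_X, MvPowerSeries.subst_X (hasSubst_aaJ p n hd hh)]

lemma piZero_C (hd : h + d = n) (hh : 1 ≤ h) (w : WittVector p (GaloisField p n)) :
    piZero p n hd hh (MvPowerSeries.C w) = MvPowerSeries.C (WittVector.constantCoeff w) := by
  show (MvPowerSeries.substAlgHom (R := GaloisField p n) (hasSubst_aaJ p n hd hh)).toRingHom
    (MvPowerSeries.map _ (MvPowerSeries.C w)) = _
  rw [MvPowerSeries.map_C]
  exact (MvPowerSeries.substAlgHom (R := GaloisField p n) (hasSubst_aaJ p n hd hh)).commutes _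

lemma piZero_surjective (hd : h + d = n) (hh : 1 ≤ h) :
    Function.Surjective (piZero p n hd hh) := by
  classical
  intro y
  obtain ⟨f, hf⟩ : ∃ f : LTRing p n, ∀ e, MvPowerSeries.coeff e f = WittVector.teichmuller p
      (MvPowerSeries.coeff (e.comapDomain (iotaJ n hd hh) (iotaJ_inj n hd hh).injOn) y) :=
    ⟨fun e => _, fun e => rfl⟩
  refine ⟨f, ?_⟩
  ext e
  rw [piZero_coeff, hf, Finsupp.comapDomain_mapDomain _ (iotaJ_inj n hd hh)]
  simp

lemma JE_le_ker (hd : h + d = n) (hh : 1 ≤ h) : JE p n h ≤ RingHom.ker (piZero p n hd hh) := by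
  rw [JE, Ideal.span_le]
  rintro x (hx | ⟨i, hi, rfl⟩)
  · rw [Set.mem_singleton_iff.1 hx, SetLike.mem_coe, RingHom.mem_ker, map_natCast]
    exact CharP.cast_eq_zero _ p
  · rw [SetLike.mem_coe, RingHom.mem_ker, piZero_X, aaJ_low p n hd hh hi]

lemma ker_le_JE (hd : h + d = n) (hh : 1 ≤ h) : RingHom.ker (piZero p n hd hh) ≤ JE p n h := by
  classical
  intro f hf
  have hf0 : ∀ e : Fin d →₀ ℕ, WittVector.constantCoeff
      (MvPowerSeries.coeff (e.mapDomain (iotaJ n hd hh)) f) = 0 := by
    intro e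
    rw [← piZero_coeff, RingHom.mem_ker.1 hf, map_zero]
  -- coefficients at high monomials are divisible by `p`
  let high : (Fin (n - 1) →₀ ℕ) → Prop := fun e => ∀ i : Fin (n - 1), i.1 + 1 < h → e i = 0
  have hdiv : ∀ e, high e → ∃ c : WittVector p (GaloisField p n),
      MvPowerSeries.coeff e f = (p : WittVector p (GaloisField p n)) * c := by
    intro e he
    have hsupp : (e.support : Set (Fin (n - 1))) ⊆ Set.range (iotaJ n hd hh) := by
      intro s hs
      have hs' : e s ≠ 0 := Finsupp.mem_support_iff.1 hs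
      have hlow : ¬ s.1 + 1 < h := fun hlow => hs' (he s hlow)
      refine ⟨⟨s.1 + 1 - h, by have := s.2; omega⟩, ?_⟩
      ext
      simp only [iotaJ]
      omega
    have hc : (e.comapDomain (iotaJ n hd hh) (iotaJ_inj n hd hh).injOn).mapDomain (iotaJ n hd hh) = e :=
      Finsupp.mapDomain_comapDomain _ (iotaJ_inj n hd hh) e hsupp
    have h0 := hf0 (e.comapDomain (iotaJ n hd hh) (iotaJ_inj n hd hh).injOn)
    rw [hc] at h0
    have h2 : MvPowerSeries.coeff e f ∈ RingHom.ker
        (WittVector.constantCoeff : WittVector p (GaloisField p n) →+* GaloisField p n) := h0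
    rw [WittVector.ker_constantCoeff] at h2
    exact Ideal.mem_span_singleton.mp h2
  let cc : (Fin (n - 1) →₀ ℕ) → WittVector p (GaloisField p n) := fun e =>
    if he : high e then (hdiv e he).choose else 0
  have hcc : ∀ e, high e → MvPowerSeries.coeff e f = (p : WittVector p (GaloisField p n)) * cc e := by
    intro e he
    simp only [cc, dif_pos he]
    exact (hdiv e he).choose_spec
  obtain ⟨f₁, hf₁⟩ : ∃ f₁ : LTRing p n, ∀ e, MvPowerSeries.coeff e f₁ = cc e :=
    ⟨fun e => cc e, fun e => rfl⟩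
  have hpf : (p : LTRing p n) = MvPowerSeries.C (p : WittVector p (GaloisField p n)) := by
    rw [map_natCast]
  set s : Finset (Fin (n - 1)) := Finset.univ.filter fun i => i.1 + 1 < h with hs
  have hg : f - (p : LTRing p n) * f₁ ∈ Ideal.span
      ((fun i => (MvPowerSeries.X i : LTRing p n)) '' (s : Set (Fin (n - 1)))) := by
    apply mem_span_X_of_coeff
    intro e he
    have hhigh : high e := fun i hi => he i (by simp [hs, hi])
    rw [map_sub, hpf, MvPowerSeries.coeff_C_mul, hf₁, hcc e hhigh, sub_self]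
  have hle : Ideal.span ((fun i => (MvPowerSeries.X i : LTRing p n)) '' (s : Set (Fin (n - 1)))) ≤
      JE p n h := by
    rw [Ideal.span_le]
    rintro _ ⟨i, hi, rfl⟩
    refine Ideal.subset_span (Or.inr ⟨i, ?_, rfl⟩)
    simpa [hs] using hi
  have h3 : f = (f - (p : LTRing p n) * f₁) + (p : LTRing p n) * f₁ := by ring
  rw [h3]
  refine add_mem (hle hg) (Ideal.mul_mem_right _ _ (Ideal.subset_span (Or.inl rfl)))

lemma ker_piZero (hd : h + d = n) (hh : 1 ≤ h) : RingHom.ker (piZero p n hd hh) = JE p n h :=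
  le_antisymm (ker_le_JE p n hd hh) (JE_le_ker p n hd hh)

/-- `(p, u_1, …, u_{h-1})` is prime. -/
theorem JE_isPrime (hd : h + d = n) (hh : 1 ≤ h) : (JE p n h).IsPrime := by
  rw [← ker_piZero p n hd hh]
  exact RingHom.ker_isPrime _

theorem haze_hIdeal_eq_JE (hn : 1 ≤ n) {h : ℕ} (hh : 1 ≤ h) (hhn : h ≤ n) :
    hIdeal p (hazeE0 p n) h = JE p n h := by
  rw [← heightIdeal_eq_hIdeal, hazeE0_heightIdeal p n hn h hh hhn]
  rfl

/-- The height ideals of `H₀` are prime. -/
theorem haze_hIdeal_prime (hn : 1 ≤ n) (h : ℕ) (hh : h ≤ n) : (hIdeal p (hazeE0 p n) h).IsPrime := by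
  rcases Nat.eq_zero_or_pos h with rfl | h1
  · rw [hIdeal_zero]
    exact Ideal.isPrime_bot
  · rcases Nat.lt_or_ge h n with hlt | hge
    · rw [haze_hIdeal_eq_JE p n hn h1 hh]
      exact JE_isPrime p n (d := n - h) (by omega) h1
    · have : h = n := by omega
      subst this
      rw [haze_hIdeal_top hn]
      exact (IsLocalRing.maximalIdeal.isMaximal _).isPrime

end PiZero

/-! ### The coordinates `y_j = a_{h+j}` -/

section PiData

variable (p n : ℕ) [Fact p.Prime] {h d : ℕ}

/-- `a_i`: the coefficient of `X^(p^i)` in `[p]_{H₀}`. -/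
noncomputable abbrev aH (i : ℕ) : LTRing p n := PowerSeries.coeff (p ^ i) (mulSeries (hazeE0 p n) p)

/-- `π₀(a_{h+j})` -/
noncomputable def bbJ (hd : h + d = n) (hh : 1 ≤ h) (j : Fin d) : RR p n d :=
  piZero p n hd hh (aH p n (h + j.1))

/-- `(y_i : i < j)` -/
noncomputable def YY (d j : ℕ) : Ideal (RR p n d) :=
  Ideal.span ((fun i : Fin d => (MvPowerSeries.X i : RR p n d)) '' {i | i.1 < j})

lemma map_JE_le (hd : h + d = n) (hh : 1 ≤ h) (j : ℕ) :
    (JE p n (h + j)).map (piZero p n hd hh) ≤ YY p n d j := by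
  rw [JE, Ideal.map_span, Ideal.span_le]
  rintro _ ⟨x, hx | ⟨i, hi, rfl⟩, rfl⟩
  · rw [Set.mem_singleton_iff.1 hx, map_natCast, CharP.cast_eq_zero (RR p n d) p]
    exact zero_mem _
  · rw [piZero_X]
    by_cases hlow : i.1 + 1 < h
    · rw [aaJ_low p n hd hh hlow]
      exact zero_mem _
    · unfold aaJ
      rw [dif_neg hlow]
      refine Ideal.subset_span ⟨⟨i.1 + 1 - h, by have := i.2; omega⟩, ?_, rfl⟩
      show i.1 + 1 - h < j
      omega

lemma bb_sub_mem (hd : h + d = n) (hh : 1 ≤ h) (j : Fin d) :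
    bbJ p n hd hh j - MvPowerSeries.X j ∈ YY p n d j.1 := by
  have hj := j.2
  have h1 := toE0_coeff_sub_mem p n (h + j.1) (by omega) (by omega)
  have h2 := map_JE_le p n hd hh j.1 (Ideal.mem_map_of_mem (piZero p n hd hh) h1)
  rw [map_sub, piZero_X] at h2
  have e : (⟨h + j.1 - 1, by omega⟩ : Fin (n - 1)) = iotaJ n hd hh j := by
    ext
    simp only [iotaJ]
    omega
  rw [e, aaJ_iota] at h2
  exact h2

lemma YY_le_JJ (j : ℕ) : YY p n d j ≤ JJ (GaloisField p n) d := by
  rw [YY, Ideal.span_le]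
  rintro _ ⟨i, -, rfl⟩
  exact X_mem_JJ i

lemma YY_top : YY p n d d = JJ (GaloisField p n) d := by
  apply le_antisymm (YY_le_JJ p n d)
  intro f hf
  have h1 : ((0 + 1 : ℕ) : ℕ∞) ≤ f.order := by
    refine MvPowerSeries.nat_le_order fun e he => ?_
    have : e = 0 := (Finsupp.degree_eq_zero_iff _).1 (by omega)
    rw [this, MvPowerSeries.coeff_zero_eq_constantCoeff_apply]
    exact hf
  obtain ⟨g, -, rfl⟩ := exists_sum_X_mul f 0 h1
  refine Ideal.sum_mem _ fun i _ => Ideal.mul_mem_right _ _ (Ideal.subset_span ⟨i, i.2, rfl⟩)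

lemma bb_cc (hd : h + d = n) (hh : 1 ≤ h) (j : Fin d) :
    MvPowerSeries.constantCoeff (bbJ p n hd hh j) = 0 := by
  have h1 := YY_le_JJ p n j.1 (bb_sub_mem p n hd hh j)
  have h2 : MvPowerSeries.constantCoeff (bbJ p n hd hh j - MvPowerSeries.X j) = 0 := h1
  simpa using h2

lemma hasSubst_bb (hd : h + d = n) (hh : 1 ≤ h) : MvPowerSeries.HasSubst (bbJ p n hd hh) :=
  MvPowerSeries.hasSubst_of_constantCoeff_zero (bb_cc p n hd hh)

/-- the coordinate change `y_j ↦ π₀(a_{h+j})` -/
noncomputable def CCJ (hd : h + d = n) (hh : 1 ≤ h) : RR p n d →ₐ[GaloisField p n] RR p n d :=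
  MvPowerSeries.substAlgHom (R := GaloisField p n) (hasSubst_bb p n hd hh)

lemma CCJ_X (hd : h + d = n) (hh : 1 ≤ h) (j : Fin d) :
    CCJ p n hd hh (MvPowerSeries.X j) = bbJ p n hd hh j := by
  rw [CCJ, MvPowerSeries.coe_substAlgHom, MvPowerSeries.subst_X (hasSubst_bb p n hd hh)]

lemma CCJ_C (hd : h + d = n) (hh : 1 ≤ h) (a : GaloisField p n) :
    CCJ p n hd hh (MvPowerSeries.C a) = MvPowerSeries.C a :=
  (CCJ p n hd hh).commutes a

lemma span_bb (hd : h + d = n) (hh : 1 ≤ h) (j : ℕ) (hj : j ≤ d) :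
    Ideal.span ((bbJ p n hd hh) '' {i | i.1 < j}) = YY p n d j := by
  classical
  induction j with
  | zero =>
    have h0 : {i : Fin d | i.1 < 0} = ∅ := by ext i; simp
    rw [YY, h0]
    simp
  | succ j ih =>
    have ih' := ih (by omega)
    have hset : {i : Fin d | i.1 < j + 1} = {i : Fin d | i.1 < j} ∪ {⟨j, by omega⟩} := by
      ext i
      simp only [Set.mem_ofPred_eq, Set.mem_union, Set.mem_singleton_iff, Fin.ext_iff]
      omega
    have hmem := bb_sub_mem p n hd hh ⟨j, by omega⟩
    simp only at hmem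
    rw [YY, hset, Set.image_union, Set.image_singleton, Set.image_union, Set.image_singleton,
      Ideal.span_union, Ideal.span_union, ih', ← YY]
    apply le_antisymm
    · refine sup_le le_sup_left ?_
      rw [Ideal.span_singleton_le_iff_mem]
      have : bbJ p n hd hh ⟨j, by omega⟩ = (bbJ p n hd hh ⟨j, by omega⟩ - MvPowerSeries.X ⟨j, by omega⟩) +
          MvPowerSeries.X ⟨j, by omega⟩ := by ring
      rw [this]
      exact add_mem (Ideal.mem_sup_left hmem) (Ideal.mem_sup_right (Ideal.mem_span_singleton_self _))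
    · refine sup_le le_sup_left ?_
      rw [Ideal.span_singleton_le_iff_mem]
      have : (MvPowerSeries.X ⟨j, by omega⟩ : RR p n d) = bbJ p n hd hh ⟨j, by omega⟩ -
          (bbJ p n hd hh ⟨j, by omega⟩ - MvPowerSeries.X ⟨j, by omega⟩) := by ring
      rw [this]
      exact sub_mem (Ideal.mem_sup_right (Ideal.mem_span_singleton_self _)) (Ideal.mem_sup_left hmem)

lemma map_CCJ (hd : h + d = n) (hh : 1 ≤ h) :
    (JJ (GaloisField p n) d).map (CCJ p n hd hh).toRingHom = JJ (GaloisField p n) d := by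
  conv_lhs => rw [← YY_top p n]
  rw [YY, Ideal.map_span, ← YY_top p n, ← span_bb p n hd hh d le_rfl, ← Set.image_comp]
  congr 2
  ext1 i
  exact CCJ_X p n hd hh i

lemma CCJ_surjective (hd : h + d = n) (hh : 1 ≤ h) :
    Function.Surjective (CCJ p n hd hh).toRingHom := by
  have : IsAdicComplete (JJ (GaloisField p n) d) (RR p n d) := isAdicComplete_JJ
  refine surjective_of_map_eq (JJ (GaloisField p n) d) _ (map_CCJ p n hd hh) fun x => ?_
  refine ⟨MvPowerSeries.C (MvPowerSeries.constantCoeff x), ?_⟩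
  show x - CCJ p n hd hh (MvPowerSeries.C (MvPowerSeries.constantCoeff x)) ∈ _
  rw [CCJ_C, RingHom.mem_ker, map_sub]
  simp

lemma CCJ_injective (hd : h + d = n) (hh : 1 ≤ h) :
    Function.Injective (CCJ p n hd hh).toRingHom :=
  injective_of_surjective_endo _ (CCJ_surjective p n hd hh)

/-- The map `π : E₀ → k⟦y⟧` with kernel `I_h`, `π(a_{h+j}) = y_j`. -/
structure PiData (h d : ℕ) where
  π : LTRing p n →+* RR p n d
  surj : Function.Surjective π
  ker : RingHom.ker π = JE p n h
  a_eq : ∀ j : Fin d, π (aH p n (h + j.1)) = MvPowerSeries.X j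
  alg : ∀ w : WittVector p (GaloisField p n), π (MvPowerSeries.C w) =
    MvPowerSeries.C (WittVector.constantCoeff w)

theorem exists_piData (hd : h + d = n) (hh : 1 ≤ h) : Nonempty (PiData p n h d) := by
  let e : RR p n d ≃+* RR p n d :=
    RingEquiv.ofBijective (CCJ p n hd hh).toRingHom ⟨CCJ_injective p n hd hh, CCJ_surjective p n hd hh⟩
  have he : ∀ x, e x = CCJ p n hd hh x := fun x => rfl
  refine ⟨⟨(e.symm : RR p n d →+* RR p n d).comp (piZero p n hd hh), ?_, ?_, ?_, ?_⟩⟩
  · exact e.symm.surjective.comp (piZero_surjective p n hd hh)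
  · rw [← ker_piZero p n hd hh]
    ext x
    simp [RingHom.mem_ker]
  · intro j
    show e.symm (piZero p n hd hh _) = _
    rw [e.symm_apply_eq, he, CCJ_X]
    rfl
  · intro w
    show e.symm (piZero p n hd hh _) = _
    rw [e.symm_apply_eq, he, CCJ_C, piZero_C]

end PiData

end Crest.Agent.LT
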