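/-
§0: the reduction of the main theorem to the classification for the Hazewinkel law.
-/
import Crest.Agent.Lib.LT.Bridge

set_option autoImplicit false
set_option linter.unusedSectionVars false

namespace Crest.Agent.LT

open Crest.LubinTate

/-- Classification of the stable primes for `H₀`. -/
def HazeClass (p n : ℕ) [Fact p.Prime] : Prop :=
  ∀ (A : DeepAction (LTRing.residue p n) (IsLocalRing.maximalIdeal (LTRing p n))
      (honda p n (GaloisField p n)) (hazeE0 p n)),
    (∀ g a, A.φ g (algebraMap (WittVector p (GaloisField p n)) (LTRing p n) a) =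
      algebraMap (WittVector p (GaloisField p n)) (LTRing p n) a) →
    ∀ (M : ℕ), 1 ≤ M → ∀ (P : Ideal (LTRing p n)) [P.IsPrime],
      (∀ g, IsFGAut (honda p n (GaloisField p n)) g → CongX M g → P.comap (A.φ g) = P) →
      ∃ h, h ≤ n ∧ P = hIdeal p (hazeE0 p n) h

variable {p n : ℕ} [Fact p.Prime]
variable {Γ : FormalGroup (GaloisField p n)} {H : FormalGroup (LTRing p n)}

theorem prime_class (hC : HazeClass p n) (hn : 1 ≤ n) [Γ.IsComm] [H.IsComm]
    (hΓ : mulSeries Γ p = PowerSeries.X ^ (p ^ n)) (hU : IsUniversalDeformation p n Γ H)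
    (M : ℕ) (hM : 1 ≤ M) (P : Ideal (LTRing p n)) [P.IsPrime] (hst : IsStableIdeal p n Γ H M P) :
    ∃ h, h ≤ n ∧ P = hIdeal p H h := by
  obtain ⟨t⟩ := exists_transport hU hn hΓ
  have hU₀ := t.univ hU hn
  let A₀ := deepActionOf hU₀ hn (honda_mulSeries p n hn (GaloisField p n))
  let P₀ := P.comap t.f'.toRingHom
  have : P₀.IsPrime := Ideal.comap_isPrime _ _
  have hst₀ : ∀ g₀, IsFGAut (honda p n (GaloisField p n)) g₀ → CongX M g₀ →
      P₀.comap (A₀.φ g₀) = P₀ := by
    intro g₀ hg₀ hc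
    have hg := t.pull_aut hg₀
    have hφ := stabφ_spec hU hg
    have hs := hst _ _ hg (t.pull_congX hg₀ hc) hφ
    have hs₀ := t.stab_transport hg₀ hφ
    have e : A₀.φ g₀ = ((t.f.comp (stabφ hU _)).comp t.f').toRingHom :=
      deepActionOf_φ hU₀ hn _ hg₀ hs₀
    rw [e]
    ext x
    have hx : x ∈ P₀.comap ((t.f.comp (stabφ hU (t.pull g₀))).comp t.f').toRingHom ↔
        t.f' (t.f (stabφ hU (t.pull g₀) (t.f' x))) ∈ P := Iff.rfl
    rw [hx, t.f'_f_apply]
    have h2 : t.f' x ∈ Ideal.comap (stabφ hU (t.pull g₀)).toRingHom P ↔ t.f' x ∈ P := by rw [hs]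
    exact h2
  obtain ⟨h, hh, e⟩ := hC A₀ (fun g a => (stabφ hU₀ g).commutes a) M hM P₀ hst₀
  refine ⟨h, hh, ?_⟩
  rw [t.hIdeal_eq_comap h, ← e]
  ext x
  show x ∈ P ↔ t.f' (t.f x) ∈ P
  rw [t.f'_f_apply]

/-- Every height ideal is stable. -/
theorem hIdeal_stable [H.IsComm] (hU : IsUniversalDeformation p n Γ H) (M h : ℕ) :
    IsStableIdeal p n Γ H M (hIdeal p H h) := fun _ _ hg _ hφ => hIdeal_comap_stab hU hg hφ h

theorem hIdeal_prime (hP : ∀ h, h ≤ n → (hIdeal p (hazeE0 p n) h).IsPrime) (hn : 1 ≤ n)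
    [Γ.IsComm] [H.IsComm]
    (hΓ : mulSeries Γ p = PowerSeries.X ^ (p ^ n)) (hU : IsUniversalDeformation p n Γ H)
    (h : ℕ) (hh : h ≤ n) : (hIdeal p H h).IsPrime := by
  obtain ⟨t⟩ := exists_transport hU hn hΓ
  rw [t.hIdeal_eq_comap h]
  have := hP h hh
  exact Ideal.comap_isPrime _ _

/-- Krull: if `P` is not below `Q`, it is not below `Q + 𝔪^c` for large `c`. -/
lemma exists_not_le_sup_pow {A : Type*} [CommRing A] [IsNoetherianRing A] [IsLocalRing A]
    {P Q : Ideal A} (hQ : Q ≠ ⊤) (h : ¬ P ≤ Q) :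
    ∃ c : ℕ, ¬ P ≤ Q ⊔ IsLocalRing.maximalIdeal A ^ c := by
  obtain ⟨x, hxP, hxQ⟩ := SetLike.not_le_iff_exists.1 h
  by_contra hcon
  push Not at hcon
  apply hxQ
  have hnt : Nontrivial (A ⧸ Q) := Ideal.Quotient.nontrivial_iff.2 hQ
  have hl : IsLocalRing (A ⧸ Q) := IsLocalRing.of_surjective' (Ideal.Quotient.mk Q) Ideal.Quotient.mk_surjective
  set I := (IsLocalRing.maximalIdeal A).map (Ideal.Quotient.mk Q) with hI
  have hIt : I ≠ ⊤ := by
    intro ht
    have h5 := Ideal.comap_map_of_surjective (Ideal.Quotient.mk Q) Ideal.Quotient.mk_surjective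
      (IsLocalRing.maximalIdeal A)
    rw [← hI, ht, Ideal.comap_top, ← RingHom.ker_eq_comap_bot, Ideal.mk_ker,
      sup_eq_left.2 (IsLocalRing.le_maximalIdeal hQ)] at h5
    exact (IsLocalRing.maximalIdeal.isMaximal A).ne_top h5.symm
  have hK := Ideal.iInf_pow_eq_bot_of_isLocalRing I hIt
  have hmem : Ideal.Quotient.mk Q x ∈ ⨅ i : ℕ, I ^ i := by
    rw [Ideal.mem_iInf]
    intro c
    have := hcon c hxP
    obtain ⟨q, hq, y, hy, hxy⟩ := Submodule.mem_sup.1 this
    rw [hI, ← Ideal.map_pow, ← hxy, map_add, Ideal.Quotient.eq_zero_iff_mem.2 hq, zero_add]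
    exact Ideal.mem_map_of_mem _ hy
  rw [hK, Ideal.mem_bot] at hmem
  exact Ideal.Quotient.eq_zero_iff_mem.1 hmem

/-- The main theorem, given the classification for `H₀`. -/
theorem main_of_class (hC : HazeClass p n) (hP : ∀ h, h ≤ n → (hIdeal p (hazeE0 p n) h).IsPrime)
    (hn : 1 ≤ n) [Γ.IsComm] [H.IsComm]
    (hΓ : mulSeries Γ p = PowerSeries.X ^ (p ^ n)) (hU : IsUniversalDeformation p n Γ H)
    (M : ℕ) (hM : 1 ≤ M) :
    (∀ P : Ideal (LTRing p n),
        (P.IsPrime ∧ IsStableIdeal p n Γ H M P) ↔ ∃ h : ℕ, h ≤ n ∧ P = heightIdeal p n H h) ∧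
    (∀ J : Ideal (LTRing p n),
        (J.IsRadical ∧ IsStableIdeal p n Γ H M J) ↔
          (∃ h : ℕ, h ≤ n ∧ J = heightIdeal p n H h) ∨ J = ⊤) := by
  have hprime : ∀ (M : ℕ), 1 ≤ M → ∀ P : Ideal (LTRing p n),
      (P.IsPrime ∧ IsStableIdeal p n Γ H M P) ↔ ∃ h : ℕ, h ≤ n ∧ P = heightIdeal p n H h := by
    intro M hM P
    constructor
    · rintro ⟨hp, hs⟩
      obtain ⟨h, hh, e⟩ := prime_class hC hn hΓ hU M hM P hs
      exact ⟨h, hh, by rw [e, heightIdeal_eq_hIdeal]⟩
    · rintro ⟨h, hh, rfl⟩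
      rw [heightIdeal_eq_hIdeal]
      exact ⟨hIdeal_prime hP hn hΓ hU h hh, hIdeal_stable hU M h⟩
  refine ⟨hprime M hM, fun J => ⟨?_, ?_⟩⟩
  · rintro ⟨hr, hs⟩
    by_cases hJ : J = ⊤
    · exact Or.inr hJ
    left
    classical
    have hfin : J.minimalPrimes.Finite := Ideal.finite_minimalPrimes_of_isNoetherianRing _ J
    -- the constants
    have hc : ∀ P Q : Ideal (LTRing p n), ∃ c : ℕ, P ∈ J.minimalPrimes → Q ∈ J.minimalPrimes → P ≠ Q →
        ¬ P ≤ Q ⊔ IsLocalRing.maximalIdeal (LTRing p n) ^ c := by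
      intro P Q
      by_cases hPQ : P ∈ J.minimalPrimes ∧ Q ∈ J.minimalPrimes ∧ P ≠ Q
      · obtain ⟨hPm, hQm, hne⟩ := hPQ
        have hQt : Q ≠ ⊤ := hQm.1.1.ne_top
        have hle : ¬ P ≤ Q := fun hle => hne (le_antisymm hle (hQm.2 hPm.1 hle))
        obtain ⟨c, hc⟩ := exists_not_le_sup_pow hQt hle
        exact ⟨c, fun _ _ _ => hc⟩
      · exact ⟨0, fun a b c => absurd ⟨a, b, c⟩ hPQ⟩
    choose c hc using hc
    set C := (hfin.toFinset ×ˢ hfin.toFinset).sup (fun x => c x.1 x.2) with hC'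
    have hcC : ∀ P Q : Ideal (LTRing p n), P ∈ J.minimalPrimes → Q ∈ J.minimalPrimes → P ≠ Q →
        ¬ P ≤ Q ⊔ IsLocalRing.maximalIdeal (LTRing p n) ^ C := by
      intro P Q hPm hQm hne hle
      apply hc P Q hPm hQm hne
      refine hle.trans (sup_le_sup_left (Ideal.pow_le_pow_right ?_) _)
      have : (P, Q) ∈ hfin.toFinset ×ˢ hfin.toFinset := by simp [hPm, hQm]
      exact Finset.le_sup (f := fun x : Ideal (LTRing p n) × Ideal (LTRing p n) => c x.1 x.2) this
    -- the deep level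
    obtain ⟨t⟩ := exists_transport hU hn hΓ
    obtain ⟨M₁, hM₁⟩ := (deepActionOf hU hn hΓ).deep C 0
    set M₂ := max M M₁ with hM₂
    have hM₂1 : 1 ≤ M₂ := le_trans hM (le_max_left _ _)
    -- each minimal prime is stable
    have hst : ∀ P ∈ J.minimalPrimes, IsStableIdeal p n Γ H M₂ P := by
      intro P hPm g φ hg hcg hφ
      have hcg₁ : CongX M₁ g := fun i hi => hcg i (lt_of_lt_of_le hi (le_max_right _ _))
      have hcgM : CongX M g := fun i hi => hcg i (lt_of_lt_of_le hi (le_max_left _ _))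
      have hJφ := hs g φ hg hcgM hφ
      have hdeep := (hM₁ g hg hcg₁).1
      rw [deepActionOf_φ hU hn hΓ hg hφ] at hdeep
      have hbij := stab_bijective hU hg hφ
      let e : LTRing p n ≃+* LTRing p n := RingEquiv.ofBijective φ.toRingHom hbij
      have he : ∀ x, e x = φ x := fun x => rfl
      have hQm : P.comap φ.toRingHom ∈ J.minimalPrimes := by
        have hPp := hPm.1.1
        refine ⟨⟨Ideal.comap_isPrime _ _, ?_⟩, ?_⟩
        · conv_lhs => rw [← hJφ]
          exact Ideal.comap_mono hPm.1.2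
        · rintro R ⟨hRp, hJR⟩ hRle
          -- `R' := comap e⁻¹ R`
          let R' := R.comap (e.symm : LTRing p n →+* LTRing p n)
          have hR'p : R'.IsPrime := Ideal.comap_isPrime _ _
          have hJR' : J ≤ R' := by
            intro x hx
            show e.symm x ∈ R
            apply hJR
            have : φ (e.symm x) ∈ J := by
              have h3 : φ (e.symm x) = x := e.apply_symm_apply x
              rwa [h3]
            have h4 : e.symm x ∈ Ideal.comap φ.toRingHom J := this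
            rwa [hJφ] at h4
          have hR'P : R' ≤ P := by
            intro x hx
            have h3 := hRle hx
            have h4 : φ (e.symm x) ∈ P := h3
            have h5 : φ (e.symm x) = x := e.apply_symm_apply x
            rwa [h5] at h4
          have h6 := hPm.2 ⟨hR'p, hJR'⟩ hR'P
          intro x hx
          have h7 : φ x ∈ P := hx
          have h8 := h6 h7
          have h9 : e.symm (φ x) = x := e.symm_apply_apply x
          show x ∈ R
          have h10 : e.symm (φ x) ∈ R := h8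
          rwa [h9] at h10
      by_contra hne
      apply hcC _ _ hQm hPm hne
      intro x hx
      have h1 : φ x ∈ P := hx
      have h2 := hdeep x
      have h3 : x = φ x - (φ x - x) := by ring
      rw [h3]
      refine sub_mem (Ideal.mem_sup_left h1) (Ideal.mem_sup_right h2)
    -- each minimal prime is a height ideal
    have hh : ∀ P ∈ J.minimalPrimes, ∃ h, h ≤ n ∧ P = hIdeal p H h := by
      intro P hPm
      have := hPm.1.1
      exact prime_class hC hn hΓ hU M₂ hM₂1 P (hst P hPm)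
    -- the minimal height
    obtain ⟨⟨P₀, hP₀⟩⟩ := Ideal.nonempty_minimalPrimes hJ
    have hex : ∃ h, h ≤ n ∧ hIdeal p H h ∈ J.minimalPrimes := by
      obtain ⟨h, hh1, e⟩ := hh P₀ hP₀
      exact ⟨h, hh1, e ▸ hP₀⟩
    let h₀ := Nat.find hex
    have hh₀ := Nat.find_spec hex
    refine ⟨h₀, hh₀.1, ?_⟩
    rw [heightIdeal_eq_hIdeal]
    have hJeq : J = sInf J.minimalPrimes := by
      rw [Ideal.sInf_minimalPrimes, hr.radical]
    apply le_antisymm
    · rw [hJeq]
      exact sInf_le hh₀.2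
    · rw [hJeq]
      refine le_sInf fun P hPm => ?_
      obtain ⟨h, hh1, e⟩ := hh P hPm
      rw [e]
      apply hIdeal_mono
      exact Nat.find_min' hex ⟨hh1, e ▸ hPm⟩
  · rintro (⟨h, hh, rfl⟩ | rfl)
    · obtain ⟨hp, hs⟩ := (hprime M hM _).2 ⟨h, hh, rfl⟩
      exact ⟨hp.isRadical, hs⟩
    · refine ⟨fun x _ => Submodule.mem_top, fun g φ _ _ _ => Ideal.comap_top⟩

end Crest.Agent.LT
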