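/-
B3: the input of Part III from a deep action on `H₀`, and the classification of stable primes of
`H₀` from Parts II and III.
-/
import Crest.Agent.Lib.LT.PiZero
import Crest.Agent.Lib.LT.Reduction

set_option autoImplicit false
set_option linter.unusedSectionVars false

namespace Crest.Agent.LT

open Crest.LubinTate

variable {p n : ℕ} [Fact p.Prime] {h d : ℕ}

/-- the maximal ideal is preserved -/
lemma PiData.res_comp (hd : h + d = n) (D : PiData p n h d) :
    (resR p n d).comp D.π = LTRing.residue p n := by
  have hs : Function.Surjective ((resR p n d).comp D.π) := by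
    intro a
    obtain ⟨x, hx⟩ := D.surj (MvPowerSeries.C a)
    refine ⟨x, ?_⟩
    rw [RingHom.comp_apply, hx]
    simp
  have hk : RingHom.ker ((resR p n d).comp D.π) = IsLocalRing.maximalIdeal (LTRing p n) :=
    IsLocalRing.eq_maximalIdeal (RingHom.ker_isMaximal_of_surjective _ hs)
  ext1 x
  set w := MvPowerSeries.constantCoeff x with hw
  have hm : x - MvPowerSeries.C w ∈ IsLocalRing.maximalIdeal (LTRing p n) := by
    rw [← ker_residue, RingHom.mem_ker, map_sub, residue_C, sub_eq_zero]
    rfl
  rw [← hk, RingHom.mem_ker, map_sub, sub_eq_zero] at hm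
  rw [hm]
  simp only [RingHom.comp_apply]
  rw [D.alg]
  simp [LTRing.residue, resR, hw]

lemma PiData.π_res (hd : h + d = n) (D : PiData p n h d) (x : LTRing p n) :
    resR p n d (D.π x) = LTRing.residue p n x :=
  congrArg (fun f => f x) (D.res_comp hd)

lemma PiData.π_max (hd : h + d = n) (D : PiData p n h d) (c : ℕ) {x : LTRing p n}
    (hx : x ∈ IsLocalRing.maximalIdeal (LTRing p n) ^ c) : D.π x ∈ mR p n d ^ c := by
  have h1 : (IsLocalRing.maximalIdeal (LTRing p n)).map D.π ≤ mR p n d := by
    rw [Ideal.map_le_iff_le_comap]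
    intro y hy
    rw [← ker_residue, RingHom.mem_ker] at hy
    rw [Ideal.mem_comap, RingHom.mem_ker, D.π_res hd, hy]
  have h2 := Ideal.mem_map_of_mem D.π hx
  rw [Ideal.map_pow] at h2
  exact Ideal.pow_right_mono h1 c h2

/-- Stabilizer maps preserve the height ideals of `H₀`. -/
lemma DeepAction.mem_JE {A : DeepAction (LTRing.residue p n) (IsLocalRing.maximalIdeal (LTRing p n))
      (honda p n (GaloisField p n)) (hazeE0 p n)} {g : PowerSeries (GaloisField p n)}
    (hg : IsFGAut (honda p n (GaloisField p n)) g) (i : ℕ) {x : LTRing p n}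
    (hx : x ∈ hIdeal p (hazeE0 p n) i) : A.φ g x ∈ hIdeal p (hazeE0 p n) i := by
  have hu : IsUnit (PowerSeries.coeff 1 (A.θ g)) := by
    apply (testE0 p n).isUnit_of_r
    show IsUnit (LTRing.residue p n _)
    rw [← PowerSeries.coeff_map, A.red g hg]
    exact hg.2
  have : ((hazeE0 p n).map (A.φ g)).IsComm := LogLaw.isComm_map _ _
  have h1 := hIdeal_eq_of_iso p (A.hom g hg) hu i
  rw [hIdeal_map] at h1
  rw [← h1]
  exact Ideal.mem_map_of_mem _ hx

theorem exists_charPInput (hn : 1 ≤ n) (hd : h + d = n) (hh : 1 ≤ h) (hd1 : 1 ≤ d)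
    (A : DeepAction (LTRing.residue p n) (IsLocalRing.maximalIdeal (LTRing p n))
      (honda p n (GaloisField p n)) (hazeE0 p n))
    (hlin : ∀ g a, A.φ g (algebraMap (WittVector p (GaloisField p n)) (LTRing p n) a) =
      algebraMap (WittVector p (GaloisField p n)) (LTRing p n) a)
    (D : PiData p n h d) :
    ∃ I : CharPInput p n h d, ∀ g, IsFGAut (honda p n (GaloisField p n)) g →
      (I.act.φ g).comp D.π = D.π.comp (A.φ g) := by
  classical
  have hker : ∀ x, x ∈ hIdeal p (hazeE0 p n) h ↔ D.π x = 0 := by
    intro x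
    rw [haze_hIdeal_eq_JE p n hn hh (by omega), ← D.ker, RingHom.mem_ker]
  -- descent of the endomorphisms
  have hψ : ∀ g, IsFGAut (honda p n (GaloisField p n)) g →
      ∃ ψ : RR p n d →+* RR p n d, ψ.comp D.π = D.π.comp (A.φ g) := by
    intro g hg
    have hle : RingHom.ker D.π ≤ RingHom.ker (D.π.comp (A.φ g)) := by
      intro x hx
      rw [RingHom.mem_ker] at hx ⊢
      have hx' := (hker x).2 hx
      exact (hker _).1 (DeepAction.mem_JE hg h hx')
    exact ⟨RingHom.liftOfSurjective D.π D.surj ⟨D.π.comp (A.φ g), hle⟩, by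
      ext1 x
      exact D.π.liftOfRightInverse_comp_apply (Function.surjInv D.surj)
        (Function.rightInverse_surjInv D.surj) ⟨D.π.comp (A.φ g), hle⟩ x⟩
  let φ' : PowerSeries (GaloisField p n) → (RR p n d →+* RR p n d) := fun g =>
    if hg : IsFGAut (honda p n (GaloisField p n)) g then (hψ g hg).choose else RingHom.id _
  have hφ' : ∀ g, IsFGAut (honda p n (GaloisField p n)) g →
      (φ' g).comp D.π = D.π.comp (A.φ g) := by
    intro g hg
    simp only [φ', dif_pos hg]
    exact (hψ g hg).choose_spec
  have hφ'a : ∀ g, IsFGAut (honda p n (GaloisField p n)) g → ∀ x, φ' g (D.π x) = D.π (A.φ g x) :=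
    fun g hg x => congrArg (fun f => f x) (hφ' g hg)
  set F : FormalGroup (RR p n d) := (hazeE0 p n).map D.π with hF
  have hFc : F.IsComm := LogLaw.isComm_map _ _
  have hFred : F.map (resR p n d) = honda p n (GaloisField p n) := by
    rw [hF, fg_map_map, D.res_comp hd]
    exact hazeE0_red p n hn
  -- the action
  let act : DeepAction (resR p n d) (mR p n d) (honda p n (GaloisField p n)) F :=
    { φ := φ'
      θ := fun g => PowerSeries.map D.π (A.θ g)
      hom := by
        intro g hg
        have h1 := (A.hom g hg).map D.π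
        rw [fg_map_map] at h1
        rw [hF, fg_map_map, hφ' g hg]
        exact h1
      red := by
        intro g hg
        refine Eq.trans ?_ (A.red g hg)
        ext i
        rw [PowerSeries.coeff_map, PowerSeries.coeff_map, PowerSeries.coeff_map]
        exact D.π_res hd _
      res_φ := by
        intro g hg
        ext1 y
        obtain ⟨x, rfl⟩ := D.surj y
        show resR p n d (φ' g (D.π x)) = _
        rw [hφ'a g hg, D.π_res hd, D.π_res hd]
        exact congrArg (fun f => f x) (A.res_φ g hg)
      comp := by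
        intro g g' hg hg'
        ext1 y
        obtain ⟨x, rfl⟩ := D.surj y
        show φ' (cmp g' g) (D.π x) = φ' g' (φ' g (D.π x))
        rw [hφ'a _ (hg'.comp hg), hφ'a g hg, hφ'a g' hg', A.comp g g' hg hg']
        rfl
      one := by
        ext1 y
        obtain ⟨x, rfl⟩ := D.surj y
        show φ' PowerSeries.X (D.π x) = D.π x
        rw [hφ'a _ (isFGAut_X _), A.one]
        rfl
      deep := by
        intro c N
        obtain ⟨M, hM⟩ := A.deep c N
        refine ⟨M, fun g hg hc => ⟨fun y => ?_, fun i hi => ?_⟩⟩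
        · obtain ⟨x, rfl⟩ := D.surj y
          rw [hφ'a g hg, ← map_sub]
          exact D.π_max hd c ((hM g hg hc).1 x)
        · have := D.π_max hd c ((hM g hg hc).2 i hi)
          rw [map_sub, ← PowerSeries.coeff_map, ← PowerSeries.coeff_map, PowerSeries.map_X] at this
          exact this }
  -- the Verschiebung
  have hi : ∀ i, i < h → PowerSeries.coeff (p ^ i) (mulSeries F p) = 0 := by
    intro i hih
    rw [hF, mulSeries_map, PowerSeries.coeff_map]
    exact (hker _).1 (coeff_mem_hIdeal p _ hih)
  obtain ⟨V, hV, hVh, hVc⟩ := exists_V p F h hi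
  have hV0 : PowerSeries.constantCoeff V = 0 := hVh.1
  have hq : p ^ h ≠ 0 := prime_pow_ne_zero p h
  refine ⟨{ hd := hd
            h1 := hh
            d1 := hd1
            F := F
            comm := hFc
            red := hFred
            V := V
            V_hom := hVh
            V_p := hV
            V_coeff := ?_
            V_red := ?_
            act := act
            act_lin := ?_ }, hφ'⟩
  · intro j
    rw [hVc, ← pow_add, hF, mulSeries_map, PowerSeries.coeff_map]
    exact D.a_eq j
  · apply cmp_X_pow_injective hq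
    have h1 := congrArg (PowerSeries.map (resR p n d)) hV
    rw [map_cmp _ (constantCoeff_X_pow hq), ← mulSeries_map, hFred, honda_mulSeries p n hn,
      map_pow, PowerSeries.map_X] at h1
    rw [← h1, cmp_X_pow_left _ (constantCoeff_X_pow hq), ← pow_mul, ← pow_add, hd]
  · intro g a
    by_cases hg : IsFGAut (honda p n (GaloisField p n)) g
    · have e : (MvPowerSeries.C a : RR p n d) =
          D.π (MvPowerSeries.C (WittVector.teichmuller p a)) := by
        rw [D.alg]
        simp
      show φ' g _ = _
      rw [e, hφ'a g hg]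
      congr 1
      exact hlin g (WittVector.teichmuller p a)
    · show φ' g _ = _
      simp only [φ', dif_neg hg]
      rfl

/-- The classification of the stable primes of `H₀` from Parts II, III. -/
theorem hazeClass_of (hn : 1 ≤ n)
    (hII : ∀ (A : DeepAction (LTRing.residue p n) (IsLocalRing.maximalIdeal (LTRing p n))
        (honda p n (GaloisField p n)) (hazeE0 p n)),
        (∀ g a, A.φ g (algebraMap (WittVector p (GaloisField p n)) (LTRing p n) a) =
          algebraMap (WittVector p (GaloisField p n)) (LTRing p n) a) →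
        ∀ (M : ℕ), 1 ≤ M → ∀ (P : Ideal (LTRing p n)) [P.IsPrime],
        (p : LTRing p n) ∉ P →
        (∀ g, IsFGAut (honda p n (GaloisField p n)) g → CongX M g → P.comap (A.φ g) = P) → P = ⊥)
    (hIII : ∀ {h d : ℕ} (I : CharPInput p n h d) (M : ℕ), 1 ≤ M → ∀ (P : Ideal (RR p n d)) [P.IsPrime],
        (MvPowerSeries.X ⟨0, I.d1⟩ : RR p n d) ∉ P →
        (∀ g, IsFGAut (honda p n (GaloisField p n)) g → CongX M g → P.comap (I.act.φ g) = P) → P = ⊥) :
    HazeClass p n := by
  classical
  intro A hlin M hM P _ hst
  by_cases hpP : (p : LTRing p n) ∈ P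
  · -- characteristic `p`
    have hI1 : hIdeal p (hazeE0 p n) 1 ≤ P := by
      rw [haze_hIdeal_eq_JE p n hn le_rfl hn, JE, Ideal.span_le]
      rintro x (hx | ⟨i, hi, rfl⟩)
      · rw [Set.mem_singleton_iff.1 hx]
        exact hpP
      · omega
    by_cases hstep : ∃ h, 1 ≤ h ∧ h < n ∧ hIdeal p (hazeE0 p n) h ≤ P ∧
        ¬ hIdeal p (hazeE0 p n) (h + 1) ≤ P
    · obtain ⟨h, hh, hhn, hle, hnle⟩ := hstep
      refine ⟨h, hhn.le, ?_⟩
      have haP : aH p n h ∉ P := by
        intro ha
        apply hnle
        rw [hIdeal_succ]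
        refine sup_le hle ?_
        rw [Ideal.span_singleton_le_iff_mem]
        exact ha
      have hd : h + (n - h) = n := by omega
      obtain ⟨D⟩ := exists_piData p n hd hh
      obtain ⟨I, hI⟩ := exists_charPInput hn hd hh (by omega) A hlin D
      have hkerP : RingHom.ker D.π ≤ P := by
        rw [D.ker, ← haze_hIdeal_eq_JE p n hn hh hhn.le]
        exact hle
      have hcomap : (P.map D.π).comap D.π = P := by
        rw [Ideal.comap_map_of_surjective _ D.surj, sup_eq_left, ← RingHom.ker_eq_comap_bot]
        exact hkerP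
      have hPr : (P.map D.π).IsPrime := Ideal.map_isPrime_of_surjective D.surj hkerP
      have hy : (MvPowerSeries.X ⟨0, I.d1⟩ : RR p n (n - h)) ∉ P.map D.π := by
        intro hmem
        have e := D.a_eq ⟨0, I.d1⟩
        simp only [add_zero] at e
        rw [← e, ← Ideal.mem_comap, hcomap] at hmem
        exact haP hmem
      have hst' : ∀ g, IsFGAut (honda p n (GaloisField p n)) g → CongX M g →
          (P.map D.π).comap (I.act.φ g) = P.map D.π := by
        intro g hg hc
        ext y
        obtain ⟨x, rfl⟩ := D.surj y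
        have h1 : I.act.φ g (D.π x) = D.π (A.φ g x) := congrArg (fun f => f x) (hI g hg)
        rw [Ideal.mem_comap, h1, ← Ideal.mem_comap, hcomap, ← Ideal.mem_comap, hst g hg hc,
          ← Ideal.mem_comap, hcomap]
      have hbot := hIII I M hM (P.map D.π) hy hst'
      rw [hbot, ← RingHom.ker_eq_comap_bot, D.ker, ← haze_hIdeal_eq_JE p n hn hh hhn.le] at hcomap
      exact hcomap.symm
    · push Not at hstep
      have hall : ∀ i, 1 ≤ i → i ≤ n → hIdeal p (hazeE0 p n) i ≤ P := by
        intro i hi
        induction i, hi using Nat.le_induction with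
        | base => exact fun _ => hI1
        | succ i hi ih => exact fun hin => hstep i hi (by omega) (ih (by omega))
      refine ⟨n, le_rfl, ?_⟩
      have h1 := hall n hn le_rfl
      rw [haze_hIdeal_top hn] at h1 ⊢
      exact le_antisymm (IsLocalRing.le_maximalIdeal (Ideal.IsPrime.ne_top inferInstance)) h1
  · exact ⟨0, by omega, hII A hlin M hM P hpP hst⟩

end Crest.Agent.LT
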