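/-
C1: bounded power series over a complete ultrametric field: evaluation, products, substitution.
BLUEPRINT §C1.
-/
import Crest.Agent.Lib.LT.Core

set_option autoImplicit false
set_option linter.unusedSectionVars false
set_option linter.unusedVariables false
set_option linter.unnecessarySimpa false

namespace Crest.Agent.LT

open MvPowerSeries Filter Topology

variable {K : Type*} [NontriviallyNormedField K] [IsUltrametricDist K]
variable {σ : Type*} [Fintype σ]

/-- Value of a monomial at a point. -/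
noncomputable def mval (z : σ → K) (γ : σ →₀ ℕ) : K := ∏ i, z i ^ γ i

omit [IsUltrametricDist K] in
@[simp] lemma mval_zero (z : σ → K) : mval z (0 : σ →₀ ℕ) = 1 := by simp [mval]

omit [IsUltrametricDist K] in
lemma mval_add (z : σ → K) (γ δ : σ →₀ ℕ) : mval z (γ + δ) = mval z γ * mval z δ := by
  simp [mval, pow_add, Finset.prod_mul_distrib]

omit [IsUltrametricDist K] in
lemma degree_eq_sum (γ : σ →₀ ℕ) : Finsupp.degree γ = ∑ i, γ i := by
  classical
  simp only [Finsupp.degree_apply]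
  exact Finset.sum_subset (Finset.subset_univ _) (fun i _ hi => by simpa using hi)

omit [IsUltrametricDist K] in
lemma norm_mval_le {z : σ → K} {ρ : ℝ} (hρ : 0 ≤ ρ) (hz : ∀ i, ‖z i‖ ≤ ρ) (γ : σ →₀ ℕ) :
    ‖mval z γ‖ ≤ ρ ^ (Finsupp.degree γ) := by
  rw [mval, norm_prod, degree_eq_sum, ← Finset.prod_pow_eq_pow_sum]
  refine Finset.prod_le_prod (fun _ _ => norm_nonneg _) fun i _ => ?_
  rw [norm_pow]
  exact pow_le_pow_left₀ (norm_nonneg _) (hz i) _

/-- `f` has Gauss norm at radius `ε` at most `C`. -/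
def IsB (ε C : ℝ) (f : MvPowerSeries σ K) : Prop :=
  ∀ γ : σ →₀ ℕ, ‖coeff γ f‖ * ε ^ (Finsupp.degree γ) ≤ C

omit [IsUltrametricDist K] in
lemma IsB.nonneg {ε C : ℝ} (hε : 0 ≤ ε) {f : MvPowerSeries σ K} (h : IsB ε C f) : 0 ≤ C :=
  (mul_nonneg (norm_nonneg _) (pow_nonneg hε _)).trans (h 0)

omit [IsUltrametricDist K] in
lemma IsB.mono {ε C D : ℝ} {f : MvPowerSeries σ K} (h : IsB ε C f) (hCD : C ≤ D) : IsB ε D f :=
  fun γ => (h γ).trans hCD

omit [IsUltrametricDist K] in
lemma IsB.shrink {ε ε' C : ℝ} (hε' : 0 ≤ ε') (hε : ε' ≤ ε) {f : MvPowerSeries σ K} (h : IsB ε C f) :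
    IsB ε' C f := fun γ =>
  (mul_le_mul_of_nonneg_left (pow_le_pow_left₀ hε' hε _) (norm_nonneg _)).trans (h γ)

lemma IsB.add {ε C : ℝ} {f g : MvPowerSeries σ K} (hf : IsB ε C f) (hg : IsB ε C g)
    (hε : 0 ≤ ε) : IsB ε C (f + g) := fun γ => by
  rw [map_add]
  have := IsUltrametricDist.norm_add_le_max (coeff γ f) (coeff γ g)
  have h2 := pow_nonneg hε (Finsupp.degree γ)
  calc _ ≤ max ‖coeff γ f‖ ‖coeff γ g‖ * ε ^ Finsupp.degree γ := by gcongr
    _ ≤ C := by
      rcases max_cases ‖coeff γ f‖ ‖coeff γ g‖ with ⟨h, _⟩ | ⟨h, _⟩ <;> rw [h]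
      · exact hf γ
      · exact hg γ

omit [IsUltrametricDist K] in
lemma IsB.neg {ε C : ℝ} {f : MvPowerSeries σ K} (hf : IsB ε C f) : IsB ε C (-f) := fun γ => by
  simpa using hf γ

lemma IsB.sub {ε C : ℝ} {f g : MvPowerSeries σ K} (hf : IsB ε C f) (hg : IsB ε C g)
    (hε : 0 ≤ ε) : IsB ε C (f - g) := by
  simpa [sub_eq_add_neg] using hf.add hg.neg hε

omit [IsUltrametricDist K] in
lemma isB_C (ε : ℝ) (hε : 0 ≤ ε) (a : K) : IsB ε ‖a‖ (C a : MvPowerSeries σ K) := by
  classical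
  intro γ
  rw [coeff_C]
  split_ifs with h
  · simp [h]
  · simpa using norm_nonneg a

omit [IsUltrametricDist K] in
lemma isB_zero (ε : ℝ) : IsB ε 0 (0 : MvPowerSeries σ K) := fun γ => by simp

omit [IsUltrametricDist K] in
lemma isB_one (ε : ℝ) (hε : 0 ≤ ε) : IsB ε 1 (1 : MvPowerSeries σ K) := by
  simpa using isB_C (σ := σ) ε hε (1 : K)

omit [IsUltrametricDist K] in
lemma isB_X (ε : ℝ) (hε : 0 ≤ ε) (i : σ) : IsB ε ε (X i : MvPowerSeries σ K) := by
  classical
  intro γ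
  rw [coeff_X]
  split_ifs with h
  · subst h; simp
  · simpa using hε

lemma IsB.mul {ε C D : ℝ} {f g : MvPowerSeries σ K} (hf : IsB ε C f) (hg : IsB ε D g)
    (hε : 0 ≤ ε) : IsB ε (C * D) (f * g) := by
  classical
  intro γ
  have hC := hf.nonneg hε
  have hD := hg.nonneg hε
  rw [coeff_mul]
  by_cases hε0 : ε = 0
  · subst hε0
    by_cases hγ : Finsupp.degree γ = 0
    · have hγ0 : γ = 0 := (Finsupp.degree_eq_zero_iff γ).mp hγ
      subst hγ0
      have h1 := hf 0
      have h2 := hg 0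
      simp only [map_zero, pow_zero, mul_one] at h1 h2 ⊢
      simp only [Finset.sum_singleton, norm_mul, Finset.HasAntidiagonal.antidiagonal_zero]
      exact mul_le_mul h1 h2 (norm_nonneg _) hC
    · simpa [zero_pow hγ] using mul_nonneg hC hD
  have hεpos : 0 < ε := lt_of_le_of_ne hε (Ne.symm hε0)
  have hpow : 0 < ε ^ Finsupp.degree γ := pow_pos hεpos _
  have key : ‖∑ p ∈ Finset.HasAntidiagonal.antidiagonal γ, coeff p.1 f * coeff p.2 g‖ ≤
      C * D / ε ^ Finsupp.degree γ := by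
    refine IsUltrametricDist.norm_sum_le_of_forall_le_of_nonneg (by positivity) fun p hp => ?_
    have hsum : Finsupp.degree p.1 + Finsupp.degree p.2 = Finsupp.degree γ := by
      rw [← map_add, (Finset.HasAntidiagonal.mem_antidiagonal.mp hp)]
    rw [norm_mul, le_div_iff₀ hpow, ← hsum, pow_add]
    calc ‖coeff p.1 f‖ * ‖coeff p.2 g‖ * (ε ^ Finsupp.degree p.1 * ε ^ Finsupp.degree p.2)
        = (‖coeff p.1 f‖ * ε ^ Finsupp.degree p.1) * (‖coeff p.2 g‖ * ε ^ Finsupp.degree p.2) := by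
          ring
      _ ≤ C * D := mul_le_mul (hf _) (hg _) (by positivity) hC
  rw [← le_div_iff₀ hpow]
  exact key

lemma IsB.pow {ε C : ℝ} {f : MvPowerSeries σ K} (hf : IsB ε C f) (hε : 0 ≤ ε) (n : ℕ) :
    IsB ε (C ^ n) (f ^ n) := by
  induction n with
  | zero => simpa using isB_one ε hε
  | succ n ih => simpa [pow_succ] using ih.mul hf hε

/-! ### Evaluation -/

/-- Evaluation of a power series at a point (meaningful when bounded at a larger radius). -/
noncomputable def evalS (f : MvPowerSeries σ K) (z : σ → K) : K :=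
  ∑' γ : σ →₀ ℕ, coeff γ f * mval z γ

omit [IsUltrametricDist K] [Fintype σ] in
/-- finitely many exponents of bounded degree -/
lemma finite_degree_le [Finite σ] (N : ℕ) : {γ : σ →₀ ℕ | Finsupp.degree γ ≤ N}.Finite :=
  Finsupp.finite_of_degree_le N

omit [IsUltrametricDist K] [Fintype σ] in
/-- geometric decay along the cofinite filter -/
lemma tendsto_pow_degree_cofinite [Finite σ] {r : ℝ} (h0 : 0 ≤ r) (h1 : r < 1) :
    Tendsto (fun γ : σ →₀ ℕ => r ^ Finsupp.degree γ) cofinite (𝓝 0) := by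
  have h2 : Tendsto (fun γ : σ →₀ ℕ => Finsupp.degree γ) cofinite atTop := by
    rw [tendsto_atTop]
    intro N
    have := (finite_degree_le (σ := σ) N)
    filter_upwards [this.compl_mem_cofinite] with γ hγ
    simp only [Set.mem_compl_iff, Set.mem_ofPred_eq, not_le] at hγ
    omega
  exact (tendsto_pow_atTop_nhds_zero_of_lt_one h0 h1).comp h2

/-- Term bound. -/
lemma term_bound {ε ρ C : ℝ} {f : MvPowerSeries σ K} (hε : 0 < ε) (hρ : 0 ≤ ρ)
    (hf : IsB ε C f) {z : σ → K} (hz : ∀ i, ‖z i‖ ≤ ρ) (γ : σ →₀ ℕ) :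
    ‖coeff γ f * mval z γ‖ ≤ C * (ρ / ε) ^ Finsupp.degree γ := by
  rw [norm_mul, div_pow]
  have h1 := norm_mval_le hρ hz γ
  have h2 : 0 < ε ^ Finsupp.degree γ := pow_pos hε _
  have h3 : ‖coeff γ f‖ ≤ C / ε ^ Finsupp.degree γ := by
    rw [le_div_iff₀ h2]; exact hf γ
  calc ‖coeff γ f‖ * ‖mval z γ‖ ≤ C / ε ^ Finsupp.degree γ * ρ ^ Finsupp.degree γ :=
        mul_le_mul h3 h1 (norm_nonneg _) ((norm_nonneg _).trans h3)
    _ = _ := by ring

instance nonarchimedeanRing_of_ultra : NonarchimedeanRing K where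
  is_nonarchimedean := NonarchimedeanAddGroup.is_nonarchimedean

variable [CompleteSpace K]

/-- Summability of the evaluation series. -/
lemma summable_eval {ε ρ C : ℝ} {f : MvPowerSeries σ K} (hε : 0 < ε) (hρ : 0 ≤ ρ) (hρε : ρ < ε)
    (hf : IsB ε C f) {z : σ → K} (hz : ∀ i, ‖z i‖ ≤ ρ) :
    Summable (fun γ : σ →₀ ℕ => coeff γ f * mval z γ) := by
  apply NonarchimedeanAddGroup.summable_of_tendsto_cofinite_zero
  rw [tendsto_zero_iff_norm_tendsto_zero]
  have h2 := tendsto_pow_degree_cofinite (σ := σ) (r := ρ / ε) (by positivity)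
    ((div_lt_one hε).mpr hρε)
  have h3 := h2.const_mul C
  rw [mul_zero] at h3
  exact squeeze_zero (fun _ => norm_nonneg _) (term_bound hε hρ hf hz) h3

/-- A point in the open polydisc of radius `ε` lies in a strictly smaller closed one. -/
lemma exists_radius {ε : ℝ} (hε : 0 < ε) {z : σ → K} (hz : ∀ i, ‖z i‖ < ε) :
    ∃ ρ, 0 ≤ ρ ∧ ρ < ε ∧ ∀ i, ‖z i‖ ≤ ρ := by
  classical
  by_cases hσ : Nonempty σ
  · obtain ⟨i₀, -, hi₀⟩ := Finset.exists_max_image (Finset.univ : Finset σ) (fun i => ‖z i‖)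
      ⟨hσ.some, Finset.mem_univ _⟩
    exact ⟨‖z i₀‖, norm_nonneg _, hz i₀, fun i => hi₀ i (Finset.mem_univ _)⟩
  · exact ⟨0, le_rfl, hε, fun i => (hσ ⟨i⟩).elim⟩

lemma summable_eval' {ε C : ℝ} {f : MvPowerSeries σ K} (hε : 0 < ε)
    (hf : IsB ε C f) {z : σ → K} (hz : ∀ i, ‖z i‖ < ε) :
    Summable (fun γ : σ →₀ ℕ => coeff γ f * mval z γ) := by
  obtain ⟨ρ, h0, h1, h2⟩ := exists_radius hε hz
  exact summable_eval hε h0 h1 hf h2


/-- Ultrametric bound for the evaluation. -/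
lemma norm_evalS_le {ε C : ℝ} {f : MvPowerSeries σ K} (hε : 0 < ε)
    (hf : IsB ε C f) {z : σ → K} (hz : ∀ i, ‖z i‖ ≤ ε) : ‖evalS f z‖ ≤ C := by
  have hC := hf.nonneg hε.le
  refine IsUltrametricDist.norm_tsum_le_of_forall_le_of_nonneg hC fun γ => ?_
  have h1 := norm_mval_le hε.le hz γ
  rw [norm_mul]
  calc ‖coeff γ f‖ * ‖mval z γ‖ ≤ ‖coeff γ f‖ * ε ^ Finsupp.degree γ := by gcongr
    _ ≤ C := hf γ

lemma evalS_add {ε C : ℝ} {f g : MvPowerSeries σ K} (hε : 0 < ε) (hf : IsB ε C f) (hg : IsB ε C g)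
    {z : σ → K} (hz : ∀ i, ‖z i‖ < ε) : evalS (f + g) z = evalS f z + evalS g z := by
  have h1 := summable_eval' hε hf hz
  have h2 := summable_eval' hε hg hz
  simp only [evalS, map_add, add_mul]
  exact h1.tsum_add h2

omit [CompleteSpace K] in
lemma evalS_neg (f : MvPowerSeries σ K) (z : σ → K) : evalS (-f) z = - evalS f z := by
  simp only [evalS, map_neg, neg_mul]
  exact tsum_neg

lemma evalS_sub {ε C : ℝ} {f g : MvPowerSeries σ K} (hε : 0 < ε) (hf : IsB ε C f) (hg : IsB ε C g)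
    {z : σ → K} (hz : ∀ i, ‖z i‖ < ε) : evalS (f - g) z = evalS f z - evalS g z := by
  rw [sub_eq_add_neg, evalS_add hε hf hg.neg hz, evalS_neg, sub_eq_add_neg]

omit [CompleteSpace K] in
lemma evalS_C (a : K) (z : σ → K) : evalS (C a : MvPowerSeries σ K) z = a := by
  classical
  rw [evalS, tsum_eq_single 0]
  · simp
  · intro γ hγ
    simp [coeff_C, hγ]

omit [CompleteSpace K] in
lemma evalS_zero (z : σ → K) : evalS (0 : MvPowerSeries σ K) z = 0 := by
  simp [evalS]

omit [CompleteSpace K] in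
lemma evalS_one (z : σ → K) : evalS (1 : MvPowerSeries σ K) z = 1 := by
  simpa using evalS_C (σ := σ) (1 : K) z

omit [CompleteSpace K] in
lemma evalS_X (i : σ) (z : σ → K) : evalS (X i : MvPowerSeries σ K) z = z i := by
  classical
  rw [evalS, tsum_eq_single (Finsupp.single i 1)]
  · simp only [coeff_X, if_true, one_mul, mval]
    rw [Finset.prod_eq_single i]
    · simp
    · intro b _ hb; simp [Finsupp.single_apply, hb.symm]
    · simp
  · intro γ hγ
    simp [coeff_X, hγ]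

/-- Evaluation is multiplicative. -/
lemma evalS_mul {ε C D : ℝ} {f g : MvPowerSeries σ K} (hε : 0 < ε) (hf : IsB ε C f)
    (hg : IsB ε D g) {z : σ → K} (hz : ∀ i, ‖z i‖ < ε) :
    evalS (f * g) z = evalS f z * evalS g z := by
  classical
  have h1 := summable_eval' hε hf hz
  have h2 := summable_eval' hε hg hz
  have hsum := h1.mul_of_nonarchimedean h2
  rw [evalS, evalS, evalS, h1.tsum_mul_tsum_eq_tsum_sum_antidiagonal h2 hsum]
  refine tsum_congr fun γ => ?_
  rw [coeff_mul, Finset.sum_mul]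
  refine Finset.sum_congr rfl fun p hp => ?_
  have := Finset.HasAntidiagonal.mem_antidiagonal.mp hp
  rw [← this, mval_add]; ring

lemma evalS_pow {ε C : ℝ} {f : MvPowerSeries σ K} (hε : 0 < ε) (hf : IsB ε C f)
    {z : σ → K} (hz : ∀ i, ‖z i‖ < ε) (n : ℕ) : evalS (f ^ n) z = evalS f z ^ n := by
  induction n with
  | zero => simp [evalS_one]
  | succ n ih => rw [pow_succ, evalS_mul hε (hf.pow hε.le n) hf hz, ih, pow_succ]


lemma evalS_mval {τ : Type*} [Fintype τ] {ε η : ℝ} {G : τ → MvPowerSeries σ K} (hε : 0 < ε)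
    (hG : ∀ i, IsB ε η (G i)) {z : σ → K} (hz : ∀ i, ‖z i‖ < ε) (d : τ →₀ ℕ) :
    evalS (∏ i, G i ^ d i) z = mval (fun i => evalS (G i) z) d := by
  classical
  rw [mval]
  have key : ∀ s : Finset τ, ∃ C, IsB ε C (∏ i ∈ s, G i ^ d i) ∧
      evalS (∏ i ∈ s, G i ^ d i) z = ∏ i ∈ s, evalS (G i) z ^ d i := by
    intro s
    induction s using Finset.induction_on with
    | empty => exact ⟨1, by simpa using isB_one ε hε.le, by simp [evalS_one]⟩
    | insert a s ha ih =>
      obtain ⟨C, hC, hE⟩ := ih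
      refine ⟨η ^ d a * C, ?_, ?_⟩
      · rw [Finset.prod_insert ha]
        exact ((hG a).pow hε.le _).mul hC hε.le
      · rw [Finset.prod_insert ha, Finset.prod_insert ha,
          evalS_mul hε ((hG a).pow hε.le _) hC hz, evalS_pow hε (hG a) hz, hE]
  exact (key Finset.univ).choose_spec.2

lemma isB_prod {τ : Type*} [Fintype τ] {ε η : ℝ} {G : τ → MvPowerSeries σ K} (hε : 0 ≤ ε)
    (hG : ∀ i, IsB ε η (G i)) (d : τ →₀ ℕ) :
    IsB ε (η ^ Finsupp.degree d) (∏ i, G i ^ d i) := by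
  classical
  rw [degree_eq_sum, ← Finset.prod_pow_eq_pow_sum]
  have key : ∀ s : Finset τ, IsB ε (∏ i ∈ s, η ^ d i) (∏ i ∈ s, G i ^ d i) := by
    intro s
    induction s using Finset.induction_on with
    | empty => simpa using isB_one ε hε
    | insert a s ha ih =>
      rw [Finset.prod_insert ha, Finset.prod_insert ha]
      exact ((hG a).pow hε _).mul ih hε
  exact key Finset.univ

omit [IsUltrametricDist K] [CompleteSpace K] in
/-- The coefficient of a monomial in series of zero constant term vanishes below its order. -/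
lemma coeff_prod_eq_zero_of_degree_lt {τ : Type*} [Fintype τ] {G : τ → MvPowerSeries σ K}
    (hG : ∀ i, constantCoeff (G i) = 0) (d : τ →₀ ℕ) (e : σ →₀ ℕ)
    (he : Finsupp.degree e < Finsupp.degree d) : coeff e (∏ i, G i ^ d i) = 0 := by
  classical
  have h1 : ∀ i, (1 : ℕ∞) ≤ (G i).order := fun i => by
    apply nat_le_order
    intro γ hγ
    have : γ = 0 := (Finsupp.degree_eq_zero_iff γ).mp (by omega)
    subst this
    simpa using hG i
  have h2 : ∀ s : Finset τ, ((∑ i ∈ s, d i : ℕ) : ℕ∞) ≤ (∏ i ∈ s, G i ^ d i).order := by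
    intro s
    induction s using Finset.induction_on with
    | empty => simp
    | insert a s ha ih =>
      rw [Finset.sum_insert ha, Finset.prod_insert ha]
      refine le_trans ?_ le_order_mul
      have ih' : ((∑ i ∈ s, d i : ℕ) : ℕ∞) ≤ (∏ i ∈ s, G i ^ d i).order := ih
      push_cast at ih' ⊢
      refine add_le_add ?_ ih'
      refine le_trans ?_ (le_order_pow (d a))
      simpa using mul_le_mul_right (h1 a) (d a : ℕ∞)
  have h3 := h2 Finset.univ
  rw [← degree_eq_sum] at h3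
  exact coeff_of_lt_order (lt_of_lt_of_le (by exact_mod_cast he) h3)

section subst

variable {τ : Type*} [Fintype τ]

omit [IsUltrametricDist K] [CompleteSpace K] in
lemma hasSubst_of_zero {G : τ → MvPowerSeries σ K} (hG : ∀ i, constantCoeff (G i) = 0) :
    HasSubst G := hasSubst_of_constantCoeff_zero hG

omit [CompleteSpace K] in
/-- Coefficients of a substitution as a finite sum. -/
lemma coeff_subst_eq_tsum {G : τ → MvPowerSeries σ K} (hG : ∀ i, constantCoeff (G i) = 0)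
    (f : MvPowerSeries τ K) (e : σ →₀ ℕ) :
    coeff e (f.subst G) = ∑' d : τ →₀ ℕ, coeff d f * coeff e (∏ i, G i ^ d i) := by
  have ha := hasSubst_of_zero hG
  rw [coeff_subst ha, tsum_eq_finsum]
  · simp only [smul_eq_mul, Finsupp.prod_fintype _ _ (fun i => pow_zero _)]
  · have := coeff_subst_finite ha f e
    simpa only [smul_eq_mul, Finsupp.prod_fintype _ _ (fun i => pow_zero _)] using this

/-- Gauss norm of a substitution. -/
lemma IsB.subst {ε η C : ℝ} {G : τ → MvPowerSeries σ K} {f : MvPowerSeries τ K}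
    (hε : 0 < ε) (hη : 0 ≤ η) (hf : IsB η C f) (hG0 : ∀ i, constantCoeff (G i) = 0)
    (hG : ∀ i, IsB ε η (G i)) : IsB ε C (f.subst G) := by
  classical
  have hC := hf.nonneg hη
  intro e
  have ha := hasSubst_of_zero hG0
  rw [coeff_subst ha, finsum_eq_sum _ (coeff_subst_finite ha f e)]
  have hpow : 0 < ε ^ Finsupp.degree e := pow_pos hε _
  rw [← le_div_iff₀ hpow]
  refine IsUltrametricDist.norm_sum_le_of_forall_le_of_nonneg (by positivity) fun d _ => ?_
  rw [Finsupp.prod_fintype _ _ (fun i => pow_zero _), smul_eq_mul, norm_mul, le_div_iff₀ hpow]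
  have h1 := isB_prod hε.le hG d e
  have h2 := hf d
  calc ‖coeff d f‖ * ‖coeff e (∏ i, G i ^ d i)‖ * ε ^ Finsupp.degree e
      = ‖coeff d f‖ * (‖coeff e (∏ i, G i ^ d i)‖ * ε ^ Finsupp.degree e) := by ring
    _ ≤ ‖coeff d f‖ * η ^ Finsupp.degree d := by gcongr
    _ ≤ C := h2

/-- Tendsto criterion on pairs. -/
lemma tendsto_pair_aux {A B : Type*} [Finite A] [Finite B] {t : (A →₀ ℕ) × (B →₀ ℕ) → K}
    {C r : ℝ} (hC : 0 ≤ C) (hr0 : 0 ≤ r) (hr1 : r < 1)
    (hb : ∀ p, ‖t p‖ ≤ C * r ^ Finsupp.degree p.2)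
    (hz : ∀ p, Finsupp.degree p.2 < Finsupp.degree p.1 → t p = 0) :
    Tendsto t cofinite (𝓝 0) := by
  rw [NormedAddGroup.tendsto_nhds_zero]
  intro δ hδ
  have hlim : Tendsto (fun N : ℕ => C * r ^ N) atTop (𝓝 0) := by
    simpa using (tendsto_pow_atTop_nhds_zero_of_lt_one hr0 hr1).const_mul C
  obtain ⟨N, hN⟩ := ((tendsto_order.1 hlim).2 δ hδ).exists
  have hfin : ({p : (A →₀ ℕ) × (B →₀ ℕ) | Finsupp.degree p.1 ≤ N ∧ Finsupp.degree p.2 ≤ N}).Finite := by
    have := (Finsupp.finite_of_degree_le (σ := A) N).prod (Finsupp.finite_of_degree_le (σ := B) N)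
    refine this.subset fun p hp => ?_
    exact ⟨hp.1, hp.2⟩
  filter_upwards [hfin.compl_mem_cofinite] with p hp
  simp only [Set.mem_compl_iff, Set.mem_ofPred_eq, not_and, not_le] at hp
  by_cases h1 : Finsupp.degree p.2 ≤ N
  · by_cases h2 : Finsupp.degree p.1 ≤ N
    · exact absurd (hp h2) (not_lt.mpr h1)
    · rw [hz p (by omega)]; simpa using hδ
  · calc ‖t p‖ ≤ C * r ^ Finsupp.degree p.2 := hb p
      _ ≤ C * r ^ N := by
          gcongr ?_ * ?_
          exact pow_le_pow_of_le_one hr0 hr1.le (by omega)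
      _ < δ := hN

lemma summable_subst_aux {ε η C ρ : ℝ} {G : τ → MvPowerSeries σ K} {f : MvPowerSeries τ K}
    (hε : 0 < ε) (hη : 0 ≤ η) (hf : IsB η C f) (hG0 : ∀ i, constantCoeff (G i) = 0)
    (hG : ∀ i, IsB ε η (G i)) {z : σ → K} (hρ0 : 0 ≤ ρ) (hρε : ρ < ε) (hρ : ∀ i, ‖z i‖ ≤ ρ) :
    Summable (fun p : (τ →₀ ℕ) × (σ →₀ ℕ) =>
      coeff p.1 f * coeff p.2 (∏ i, G i ^ p.1 i) * mval z p.2) := by
  apply NonarchimedeanAddGroup.summable_of_tendsto_cofinite_zero
  refine tendsto_pair_aux (C := C) (r := ρ / ε) (hf.nonneg hη) (div_nonneg hρ0 hε.le)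
    ((div_lt_one hε).mpr hρε) ?_ ?_
  · intro p
    have h1 := term_bound hε hρ0 (isB_prod hε.le hG p.1) hρ p.2
    have h2 := hf p.1
    rw [mul_assoc, norm_mul]
    calc ‖coeff p.1 f‖ * ‖coeff p.2 (∏ i, G i ^ p.1 i) * mval z p.2‖
        ≤ ‖coeff p.1 f‖ * (η ^ Finsupp.degree p.1 * (ρ / ε) ^ Finsupp.degree p.2) :=
          mul_le_mul_of_nonneg_left h1 (norm_nonneg _)
      _ = (‖coeff p.1 f‖ * η ^ Finsupp.degree p.1) * (ρ / ε) ^ Finsupp.degree p.2 := by ring
      _ ≤ C * (ρ / ε) ^ Finsupp.degree p.2 :=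
          mul_le_mul_of_nonneg_right h2 (pow_nonneg (div_nonneg hρ0 hε.le) _)
  · intro p hp
    rw [coeff_prod_eq_zero_of_degree_lt hG0 p.1 p.2 hp]; simp

/-- **Evaluation of a substitution.** -/
lemma evalS_subst {ε η C : ℝ} {G : τ → MvPowerSeries σ K} {f : MvPowerSeries τ K}
    (hε : 0 < ε) (hη : 0 ≤ η) (hf : IsB η C f) (hG0 : ∀ i, constantCoeff (G i) = 0)
    (hG : ∀ i, IsB ε η (G i)) {z : σ → K} (hz : ∀ i, ‖z i‖ < ε) :
    evalS (f.subst G) z = evalS f (fun i => evalS (G i) z) := by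
  classical
  obtain ⟨ρ, hρ0, hρε, hρ⟩ := exists_radius hε hz
  have hsumm := summable_subst_aux hε hη hf hG0 hG hρ0 hρε hρ
  -- swap the sums
  have h1 : evalS (f.subst G) z =
      ∑' e : σ →₀ ℕ, ∑' d : τ →₀ ℕ, coeff d f * coeff e (∏ i, G i ^ d i) * mval z e := by
    refine tsum_congr fun e => ?_
    rw [coeff_subst_eq_tsum hG0, tsum_mul_right]
  have h2 : evalS f (fun i => evalS (G i) z) =
      ∑' d : τ →₀ ℕ, ∑' e : σ →₀ ℕ, coeff d f * coeff e (∏ i, G i ^ d i) * mval z e := by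
    refine tsum_congr fun d => ?_
    rw [← evalS_mval hε hG hz d, evalS, ← tsum_mul_left]
    refine tsum_congr fun e => ?_
    ring
  rw [h1, h2]
  exact Summable.tsum_comm (f := fun d e => coeff d f * coeff e (∏ i, G i ^ d i) * mval z e)
    hsumm

end subst

/-! ### Hasse derivatives and recentering -/

/-- multi-index binomial coefficient -/
def mchoose (a b : σ →₀ ℕ) : ℕ := ∏ i, (a i).choose (b i)

omit [Fintype σ] in
/-- Hasse derivative: `coeff γ (hasse β f) = C(γ+β, β) * coeff (γ+β) f`. -/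
noncomputable def hasse [Fintype σ] (β : σ →₀ ℕ) (f : MvPowerSeries σ K) : MvPowerSeries σ K :=
  fun γ => (mchoose (γ + β) β : K) * coeff (γ + β) f

omit [IsUltrametricDist K] [CompleteSpace K] in
@[simp] lemma coeff_hasse (β γ : σ →₀ ℕ) (f : MvPowerSeries σ K) :
    coeff γ (hasse β f) = (mchoose (γ + β) β : K) * coeff (γ + β) f := rfl

omit [IsUltrametricDist K] [CompleteSpace K] in
@[simp] lemma mchoose_zero_right (a : σ →₀ ℕ) : mchoose a 0 = 1 := by simp [mchoose]

omit [IsUltrametricDist K] [CompleteSpace K] in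
lemma hasse_zero (f : MvPowerSeries σ K) : hasse 0 f = f := by
  ext γ; simp

omit [CompleteSpace K] in
lemma IsB.hasse {ε C : ℝ} {f : MvPowerSeries σ K} (hε : 0 < ε) (hf : IsB ε C f) (β : σ →₀ ℕ) :
    IsB ε (C / ε ^ Finsupp.degree β) (hasse β f) := by
  intro γ
  rw [coeff_hasse, norm_mul, le_div_iff₀ (pow_pos hε _)]
  have h1 : ‖((mchoose (γ + β) β : ℕ) : K)‖ ≤ 1 := IsUltrametricDist.norm_natCast_le_one K _
  have h2 := hf (γ + β)
  rw [map_add, pow_add] at h2
  have h3 : 0 ≤ ‖coeff (γ + β) f‖ * (ε ^ Finsupp.degree γ * ε ^ Finsupp.degree β) := by positivity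
  calc ‖((mchoose (γ + β) β : ℕ) : K)‖ * ‖coeff (γ + β) f‖ * ε ^ Finsupp.degree γ *
        ε ^ Finsupp.degree β
      = ‖((mchoose (γ + β) β : ℕ) : K)‖ *
        (‖coeff (γ + β) f‖ * (ε ^ Finsupp.degree γ * ε ^ Finsupp.degree β)) := by ring
    _ ≤ 1 * (‖coeff (γ + β) f‖ * (ε ^ Finsupp.degree γ * ε ^ Finsupp.degree β)) :=
        mul_le_mul_of_nonneg_right h1 h3
    _ ≤ C := by rw [one_mul]; exact h2

omit [IsUltrametricDist K] [CompleteSpace K] in
/-- Composition of Hasse derivatives. -/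
lemma hasse_hasse (β γ : σ →₀ ℕ) (f : MvPowerSeries σ K) :
    hasse γ (hasse β f) = (mchoose (γ + β) β : K) • hasse (γ + β) f := by
  ext a
  simp only [coeff_hasse, map_smul, smul_eq_mul]
  have hid : mchoose (a + γ) γ * mchoose (a + γ + β) β =
      mchoose (γ + β) β * mchoose (a + (γ + β)) (γ + β) := by
    simp only [mchoose, ← Finset.prod_mul_distrib]
    refine Finset.prod_congr rfl fun i _ => ?_
    simp only [Finsupp.add_apply]
    have h1 := Nat.choose_mul (n := a i + (γ i + β i)) (k := γ i + β i) (s := β i)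
      (by omega)
    have h2 : a i + (γ i + β i) - β i = a i + γ i := by omega
    have h3 : γ i + β i - β i = γ i := by omega
    rw [h2, h3] at h1
    rw [show a i + γ i + β i = a i + (γ i + β i) by ring]
    rw [mul_comm ((γ i + β i).choose (β i)), h1, mul_comm]
  have hid' := congrArg (Nat.cast : ℕ → K) hid
  push_cast at hid'
  rw [show a + γ + β = a + (γ + β) by abel] at hid' ⊢
  linear_combination (coeff (a + (γ + β)) f) * hid'

/-- Recentering: `coeff β (shift z f) = (hasse β f)(z)`; a bounded series re-expanded at `z`. -/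
noncomputable def shift (z : σ → K) (f : MvPowerSeries σ K) : MvPowerSeries σ K :=
  fun β => evalS (hasse β f) z

omit [IsUltrametricDist K] [CompleteSpace K] in
@[simp] lemma coeff_shift (z : σ → K) (f : MvPowerSeries σ K) (β : σ →₀ ℕ) :
    coeff β (shift z f) = evalS (hasse β f) z := rfl

omit [IsUltrametricDist K] [CompleteSpace K] in
lemma constantCoeff_shift (z : σ → K) (f : MvPowerSeries σ K) :
    constantCoeff (shift z f) = evalS f z := by
  rw [← coeff_zero_eq_constantCoeff_apply, coeff_shift, hasse_zero]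

lemma IsB.shift {ε C : ℝ} {f : MvPowerSeries σ K} (hε : 0 < ε) (hf : IsB ε C f) {z : σ → K}
    (hz : ∀ i, ‖z i‖ ≤ ε) : IsB ε C (shift z f) := by
  intro β
  rw [coeff_shift, ← le_div_iff₀ (pow_pos hε _)]
  exact norm_evalS_le hε (hf.hasse hε β) hz

omit [IsUltrametricDist K] [CompleteSpace K] in
/-- Multi-binomial theorem. -/
lemma mval_add_eq [DecidableEq σ] (z w : σ → K) (δ : σ →₀ ℕ) :
    mval (z + w) δ = ∑ p ∈ Finset.HasAntidiagonal.antidiagonal δ,
      (mchoose δ p.2 : K) * mval z p.1 * mval w p.2 := by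
  classical
  have h1 : ∀ i, (z i + w i) ^ δ i = ∑ m ∈ Finset.HasAntidiagonal.antidiagonal (δ i),
      ((δ i).choose m.2 : K) * (z i ^ m.1 * w i ^ m.2) := by
    intro i
    rw [add_pow, Finset.Nat.sum_antidiagonal_eq_sum_range_succ_mk]
    refine Finset.sum_congr rfl fun m hm => ?_
    have hm' : m ≤ δ i := by simpa [Nat.lt_succ_iff] using hm
    simp only []
    rw [Nat.choose_symm_of_eq_add (by omega : δ i = m + (δ i - m))]
    ring
  rw [mval]
  simp only [Pi.add_apply, h1]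
  rw [Finset.prod_univ_sum]
  refine Finset.sum_bij' (fun x _ => (Finsupp.equivFunOnFinite.symm (fun i => (x i).1),
      Finsupp.equivFunOnFinite.symm (fun i => (x i).2))) (fun p _ i => (p.1 i, p.2 i))
      ?_ ?_ ?_ ?_ ?_
  · intro x hx
    rw [Finset.HasAntidiagonal.mem_antidiagonal]
    ext i
    have := Fintype.mem_piFinset.mp hx i
    simpa using Finset.HasAntidiagonal.mem_antidiagonal.mp this
  · intro p hp
    rw [Fintype.mem_piFinset]
    intro i
    rw [Finset.HasAntidiagonal.mem_antidiagonal]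
    have := Finset.HasAntidiagonal.mem_antidiagonal.mp hp
    simpa using DFunLike.congr_fun this i
  · intro x hx; ext i <;> simp
  · intro p hp; ext i <;> simp
  · intro x hx
    simp only [mchoose, mval, Finsupp.equivFunOnFinite_symm_apply_apply, Nat.cast_prod]
    rw [← Finset.prod_mul_distrib, ← Finset.prod_mul_distrib]
    refine Finset.prod_congr rfl fun i _ => ?_
    ring

omit [IsUltrametricDist K] [CompleteSpace K] [Fintype σ] in
/-- Regrouping a sum over pairs along the antidiagonals. -/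
lemma tsum_prod_eq_tsum_antidiagonal {A : Type*} [AddMonoid A] [Finset.HasAntidiagonal A]
    {t : A × A → K} (hsum : Summable t) :
    ∑' p, t p = ∑' n, ∑ kl ∈ Finset.HasAntidiagonal.antidiagonal n, t kl := by
  conv_rhs => congr; ext; rw [← Finset.sum_finset_coe, ← tsum_fintype (L := .unconditional _)]
  rw [← Finset.HasAntidiagonal.sigmaAntidiagonalEquivProd.tsum_eq t]
  exact (Finset.HasAntidiagonal.sigmaAntidiagonalEquivProd.summable_iff.mpr hsum).tsum_sigma'
    (fun n ↦ (hasSum_fintype _).summable)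

/-- Tendsto criterion on pairs, total degree version. -/
lemma tendsto_pair_aux2 {A B : Type*} [Finite A] [Finite B] {t : (A →₀ ℕ) × (B →₀ ℕ) → K}
    {C r : ℝ} (hC : 0 ≤ C) (hr0 : 0 ≤ r) (hr1 : r < 1)
    (hb : ∀ p, ‖t p‖ ≤ C * r ^ (Finsupp.degree p.1 + Finsupp.degree p.2)) :
    Tendsto t cofinite (𝓝 0) := by
  rw [NormedAddGroup.tendsto_nhds_zero]
  intro δ hδ
  have hlim : Tendsto (fun N : ℕ => C * r ^ N) atTop (𝓝 0) := by
    simpa using (tendsto_pow_atTop_nhds_zero_of_lt_one hr0 hr1).const_mul C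
  obtain ⟨N, hN⟩ := ((tendsto_order.1 hlim).2 δ hδ).exists
  have hfin : ({p : (A →₀ ℕ) × (B →₀ ℕ) | Finsupp.degree p.1 ≤ N ∧ Finsupp.degree p.2 ≤ N}).Finite := by
    have := (Finsupp.finite_of_degree_le (σ := A) N).prod (Finsupp.finite_of_degree_le (σ := B) N)
    refine this.subset fun p hp => ?_
    exact ⟨hp.1, hp.2⟩
  filter_upwards [hfin.compl_mem_cofinite] with p hp
  simp only [Set.mem_compl_iff, Set.mem_ofPred_eq, not_and, not_le] at hp
  have hle : N ≤ Finsupp.degree p.1 + Finsupp.degree p.2 := by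
    by_cases h2 : Finsupp.degree p.1 ≤ N
    · have := hp h2; omega
    · omega
  calc ‖t p‖ ≤ C * r ^ (Finsupp.degree p.1 + Finsupp.degree p.2) := hb p
    _ ≤ C * r ^ N := mul_le_mul_of_nonneg_left (pow_le_pow_of_le_one hr0 hr1.le hle) hC
    _ < δ := hN

/-- Recentering formula: `(shift z f)(w) = f(z + w)`. -/
lemma evalS_shift {ε C : ℝ} {f : MvPowerSeries σ K} (hε : 0 < ε) (hf : IsB ε C f) {z w : σ → K}
    (hz : ∀ i, ‖z i‖ < ε) (hw : ∀ i, ‖w i‖ < ε) : evalS (shift z f) w = evalS f (z + w) := by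
  classical
  obtain ⟨ρ₁, h₁0, h₁ε, h₁⟩ := exists_radius hε hz
  obtain ⟨ρ₂, h₂0, h₂ε, h₂⟩ := exists_radius hε hw
  set ρ := max ρ₁ ρ₂ with hρdef
  have hρ0 : 0 ≤ ρ := le_max_of_le_left h₁0
  have hρε : ρ < ε := max_lt h₁ε h₂ε
  have hzρ : ∀ i, ‖z i‖ ≤ ρ := fun i => (h₁ i).trans (le_max_left _ _)
  have hwρ : ∀ i, ‖w i‖ ≤ ρ := fun i => (h₂ i).trans (le_max_right _ _)
  have hC := hf.nonneg hε.le
  -- the double family
  let t : (σ →₀ ℕ) × (σ →₀ ℕ) → K := fun p =>
    (mchoose (p.1 + p.2) p.2 : K) * coeff (p.1 + p.2) f * mval z p.1 * mval w p.2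
  have hsumm : Summable t := by
    apply NonarchimedeanAddGroup.summable_of_tendsto_cofinite_zero
    refine tendsto_pair_aux2 (C := C) (r := ρ / ε) hC (div_nonneg hρ0 hε.le)
      ((div_lt_one hε).mpr hρε) fun p => ?_
    have h0 : ‖((mchoose (p.1 + p.2) p.2 : ℕ) : K)‖ ≤ 1 := IsUltrametricDist.norm_natCast_le_one K _
    have h3 := norm_mval_le hρ0 hzρ p.1
    have h4 := norm_mval_le hρ0 hwρ p.2
    have h5 := hf (p.1 + p.2)
    rw [map_add] at h5
    have hε' : 0 < ε ^ (Finsupp.degree p.1 + Finsupp.degree p.2) := pow_pos hε _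
    have h6 : ‖coeff (p.1 + p.2) f‖ ≤ C / ε ^ (Finsupp.degree p.1 + Finsupp.degree p.2) := by
      rw [le_div_iff₀ hε']; exact h5
    simp only [t, norm_mul]
    calc ‖((mchoose (p.1 + p.2) p.2 : ℕ) : K)‖ * ‖coeff (p.1 + p.2) f‖ * ‖mval z p.1‖ * ‖mval w p.2‖
        ≤ 1 * (C / ε ^ (Finsupp.degree p.1 + Finsupp.degree p.2)) * ρ ^ Finsupp.degree p.1 *
            ρ ^ Finsupp.degree p.2 := by
          have : 0 ≤ C / ε ^ (Finsupp.degree p.1 + Finsupp.degree p.2) := by positivity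
          gcongr
      _ = C * (ρ / ε) ^ (Finsupp.degree p.1 + Finsupp.degree p.2) := by
          rw [div_pow, pow_add ρ]; ring
  have hsumm' : Summable (fun q : (σ →₀ ℕ) × (σ →₀ ℕ) => t (q.2, q.1)) :=
    (Equiv.prodComm _ _).summable_iff.mpr hsumm
  have h1 : evalS (shift z f) w = ∑' β : σ →₀ ℕ, ∑' γ : σ →₀ ℕ, t (γ, β) := by
    refine tsum_congr fun β => ?_
    rw [coeff_shift, evalS, ← tsum_mul_right]
    refine tsum_congr fun γ => ?_
    simp only [coeff_hasse, t]
  have h2 : evalS f (z + w) = ∑' δ : σ →₀ ℕ,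
      ∑ p ∈ Finset.HasAntidiagonal.antidiagonal δ, t p := by
    refine tsum_congr fun δ => ?_
    rw [mval_add_eq, Finset.mul_sum]
    refine Finset.sum_congr rfl fun p hp => ?_
    have := Finset.HasAntidiagonal.mem_antidiagonal.mp hp
    simp only [t, this]
    ring
  rw [h1, h2, ← tsum_prod_eq_tsum_antidiagonal hsumm]
  have h3 := hsumm'.tsum_prod' (fun β => hsumm'.prod_factor β)
  rw [← h3]
  exact (Equiv.prodComm _ _).tsum_eq t

end Crest.Agent.LT
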