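/-
Implicit function theorem for bounded power series over a complete ultrametric field.
BLUEPRINT §C1.
-/
import Crest.Agent.Lib.LT.Eval
import Crest.Agent.Lib.LT.Formal

set_option autoImplicit false
set_option linter.unusedSectionVars false
set_option linter.unusedVariables false
set_option linter.unnecessarySimpa false

namespace Crest.Agent.LT

open MvPowerSeries Filter Topology

variable {K : Type*} [NontriviallyNormedField K] [IsUltrametricDist K] [CompleteSpace K]

section lip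

variable {σ : Type*} [Fintype σ]

omit [CompleteSpace K] in
/-- Ultrametric bound for differences of powers. -/
lemma norm_pow_sub_pow_le {a b : K} {η δ : ℝ} (hη : 0 ≤ η) (ha : ‖a‖ ≤ η) (hb : ‖b‖ ≤ η)
    (hab : ‖a - b‖ ≤ δ) (k : ℕ) (hk : 1 ≤ k) : ‖a ^ k - b ^ k‖ ≤ η ^ (k - 1) * δ := by
  have hδ : 0 ≤ δ := (norm_nonneg _).trans hab
  induction k, hk using Nat.le_induction with
  | base => simpa using hab
  | succ k hk ih =>
    have h1 : a ^ (k + 1) - b ^ (k + 1) = a ^ k * (a - b) + (a ^ k - b ^ k) * b := by ring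
    rw [h1]
    refine (IsUltrametricDist.norm_add_le_max _ _).trans (max_le ?_ ?_)
    · rw [norm_mul, norm_pow]
      have : k + 1 - 1 = k := by omega
      rw [this]
      exact mul_le_mul (pow_le_pow_left₀ (norm_nonneg _) ha _) hab (norm_nonneg _) (by positivity)
    · rw [norm_mul]
      have h2 : k + 1 - 1 = (k - 1) + 1 := by omega
      rw [h2, pow_succ]
      calc ‖a ^ k - b ^ k‖ * ‖b‖ ≤ (η ^ (k - 1) * δ) * η :=
            mul_le_mul ih hb (norm_nonneg _) (by positivity)
        _ = _ := by ring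

omit [CompleteSpace K] in
/-- Difference of monomial values. -/
lemma norm_mval_sub_le {x x' : σ → K} {η δ : ℝ} (hη : 0 ≤ η) (hδ : 0 ≤ δ) (hx : ∀ i, ‖x i‖ ≤ η)
    (hx' : ∀ i, ‖x' i‖ ≤ η) (hd : ∀ i, ‖x i - x' i‖ ≤ δ) (d : σ →₀ ℕ)
    (h1 : 1 ≤ Finsupp.degree d) : ‖mval x d - mval x' d‖ ≤ η ^ (Finsupp.degree d - 1) * δ := by
  classical
  rw [degree_eq_sum] at h1 ⊢
  have key : ∀ s : Finset σ, 1 ≤ ∑ i ∈ s, d i →
      ‖∏ i ∈ s, x i ^ d i - ∏ i ∈ s, x' i ^ d i‖ ≤ η ^ (∑ i ∈ s, d i - 1) * δ := by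
    intro s
    induction s using Finset.induction_on with
    | empty => simp
    | insert a s ha ih =>
      intro hs
      rw [Finset.prod_insert ha, Finset.prod_insert ha, Finset.sum_insert ha] at *
      have h2 : x a ^ d a * ∏ i ∈ s, x i ^ d i - x' a ^ d a * ∏ i ∈ s, x' i ^ d i =
          x a ^ d a * (∏ i ∈ s, x i ^ d i - ∏ i ∈ s, x' i ^ d i) +
            (x a ^ d a - x' a ^ d a) * ∏ i ∈ s, x' i ^ d i := by ring
      rw [h2]
      have hprod' : ‖∏ i ∈ s, x' i ^ d i‖ ≤ η ^ ∑ i ∈ s, d i := by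
        rw [norm_prod, ← Finset.prod_pow_eq_pow_sum]
        refine Finset.prod_le_prod (fun _ _ => norm_nonneg _) fun i _ => ?_
        rw [norm_pow]; exact pow_le_pow_left₀ (norm_nonneg _) (hx' i) _
      refine (IsUltrametricDist.norm_add_le_max _ _).trans (max_le ?_ ?_)
      · by_cases hs0 : ∑ i ∈ s, d i = 0
        · have : ∏ i ∈ s, x i ^ d i - ∏ i ∈ s, x' i ^ d i = 0 := by
            have h3 : ∀ i ∈ s, d i = 0 := fun i hi => (Finset.sum_eq_zero_iff.mp hs0) i hi
            rw [Finset.prod_eq_one, Finset.prod_eq_one, sub_self]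
            · intro i hi; simp [h3 i hi]
            · intro i hi; simp [h3 i hi]
          rw [this]; simp; positivity
        · have := ih (by omega)
          rw [norm_mul, norm_pow]
          have h4 : d a + ∑ i ∈ s, d i - 1 = d a + (∑ i ∈ s, d i - 1) := by omega
          rw [h4, pow_add]
          calc ‖x a‖ ^ d a * ‖∏ i ∈ s, x i ^ d i - ∏ i ∈ s, x' i ^ d i‖
              ≤ η ^ d a * (η ^ (∑ i ∈ s, d i - 1) * δ) :=
                mul_le_mul (pow_le_pow_left₀ (norm_nonneg _) (hx a) _) this (norm_nonneg _)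
                  (by positivity)
            _ = _ := by ring
      · by_cases hda : d a = 0
        · simp [hda]; positivity
        · have h5 := norm_pow_sub_pow_le hη (hx a) (hx' a) (hd a) (d a) (by omega)
          rw [norm_mul]
          have h4 : d a + ∑ i ∈ s, d i - 1 = (d a - 1) + ∑ i ∈ s, d i := by omega
          rw [h4, pow_add]
          calc ‖x a ^ d a - x' a ^ d a‖ * ‖∏ i ∈ s, x' i ^ d i‖
              ≤ (η ^ (d a - 1) * δ) * η ^ ∑ i ∈ s, d i :=
                mul_le_mul h5 hprod' (norm_nonneg _) (by positivity)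
            _ = _ := by ring
  simpa [mval] using key Finset.univ h1

/-- Contraction estimate. -/
lemma norm_evalS_sub_le {A : MvPowerSeries σ K} {ε η C δ : ℝ} (hε : 0 < ε) (hη : 0 ≤ η) (hηε : η < ε)
    (hδ : 0 ≤ δ) (hA : IsB ε C A) {x x' : σ → K} (hx : ∀ i, ‖x i‖ ≤ η) (hx' : ∀ i, ‖x' i‖ ≤ η)
    (hd : ∀ i, ‖x i - x' i‖ ≤ δ) (hlin : ∀ i, x i ≠ x' i → coeff (Finsupp.single i 1) A = 0) :
    ‖evalS A x - evalS A x'‖ ≤ (C / ε) * (η / ε) * δ := by
  classical
  have hC := hA.nonneg hε.le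
  have hs1 := summable_eval hε hη hηε hA hx
  have hs2 := summable_eval hε hη hηε hA hx'
  rw [evalS, evalS, ← hs1.tsum_sub hs2]
  refine IsUltrametricDist.norm_tsum_le_of_forall_le_of_nonneg (by positivity) fun d => ?_
  rw [← mul_sub, norm_mul]
  by_cases hd0 : Finsupp.degree d = 0
  · have : d = 0 := (Finsupp.degree_eq_zero_iff d).mp hd0
    subst this
    simp; positivity
  by_cases hd1 : Finsupp.degree d = 1
  · obtain ⟨i, rfl⟩ := exists_single_of_degree_one hd1
    by_cases hi : x i = x' i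
    · have : mval x (Finsupp.single i 1) - mval x' (Finsupp.single i 1) = 0 := by
        have h1 : ∀ y : σ → K, mval y (Finsupp.single i 1) = y i := by
          intro y
          rw [mval, Finset.prod_eq_single i]
          · simp
          · intro b _ hb; simp [Finsupp.single_apply, hb.symm]
          · simp
        rw [h1, h1, hi, sub_self]
      rw [this]; simp; positivity
    · rw [hlin i hi]; simp; positivity
  have h2 : 2 ≤ Finsupp.degree d := by omega
  have h3 := norm_mval_sub_le hη hδ hx hx' hd d (by omega)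
  have h4 := hA d
  have hpow : 0 < ε ^ Finsupp.degree d := pow_pos hε _
  have h5 : ‖coeff d A‖ ≤ C / ε ^ Finsupp.degree d := by rw [le_div_iff₀ hpow]; exact h4
  obtain ⟨k, hk⟩ : ∃ k, Finsupp.degree d = k + 2 := ⟨Finsupp.degree d - 2, by omega⟩
  have hratio : (η / ε) ^ k ≤ 1 := pow_le_one₀ (by positivity) ((div_le_one hε).mpr hηε.le)
  rw [hk] at h3 h5
  have h6 : k + 2 - 1 = k + 1 := by omega
  rw [h6] at h3
  calc ‖coeff d A‖ * ‖mval x d - mval x' d‖
      ≤ C / ε ^ (k + 2) * (η ^ (k + 1) * δ) :=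
        mul_le_mul h5 h3 (norm_nonneg _) (by positivity)
    _ = (C / ε) * (η / ε) * δ * (η / ε) ^ k := by
        rw [div_pow]
        field_simp
        ring
    _ ≤ (C / ε) * (η / ε) * δ * 1 := by
        apply mul_le_mul_of_nonneg_left hratio
        positivity
    _ = _ := by ring

/-- Schwarz: a series with zero constant term is small near the origin. -/
lemma norm_evalS_le_of_const_zero {f : MvPowerSeries σ K} {ε C ρ : ℝ} (hε : 0 < ε) (hρ : 0 ≤ ρ)
    (hρε : ρ ≤ ε) (hf : IsB ε C f) (h0 : constantCoeff f = 0) {z : σ → K} (hz : ∀ i, ‖z i‖ ≤ ρ) :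
    ‖evalS f z‖ ≤ C * (ρ / ε) := by
  have hC := hf.nonneg hε.le
  refine IsUltrametricDist.norm_tsum_le_of_forall_le_of_nonneg (by positivity) fun γ => ?_
  by_cases hγ : γ = 0
  · subst hγ
    have : coeff (0 : σ →₀ ℕ) f = 0 := by simpa using h0
    rw [this]; simp; positivity
  have hdeg : 1 ≤ Finsupp.degree γ := by
    by_contra hlt
    exact hγ ((Finsupp.degree_eq_zero_iff γ).mp (by omega))
  have h1 := term_bound hε hρ hf hz γ
  refine h1.trans (mul_le_mul_of_nonneg_left ?_ hC)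
  have hr : ρ / ε ≤ 1 := (div_le_one hε).mpr hρε
  calc (ρ / ε) ^ Finsupp.degree γ ≤ (ρ / ε) ^ 1 :=
        pow_le_pow_of_le_one (by positivity) hr hdeg
    _ = _ := pow_one _

end lip

section fixedpoint

variable {α β : Type*} [Fintype α] [Fintype β]

/-- Gauss bound for one Picard step. -/
lemma isB_fpStep {A : MvPowerSeries (α ⊕ β) K} {T : β → MvPowerSeries α K}
    {ε C ε' η : ℝ} (hε : 0 < ε) (hε' : 0 < ε') (hη : 0 < η) (hε'η : ε' ≤ η) (hηε : η ≤ ε)
    (hA : IsB ε C A) (hA0 : constantCoeff A = 0)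
    (hA1 : ∀ j, coeff (Finsupp.single (Sum.inr j) 1) A = 0)
    (hT0 : ∀ i, constantCoeff (T i) = 0) (hT : ∀ i, IsB ε' η (T i))
    (h1 : C / ε * ε' ≤ η) (h2 : C * (η / ε) ^ 2 ≤ η) :
    IsB ε' η (A.subst (Sum.elim (fun a => (X a : MvPowerSeries α K)) T)) := by
  classical
  have hC := hA.nonneg hε.le
  set G : α ⊕ β → MvPowerSeries α K := Sum.elim (fun a => (X a : MvPowerSeries α K)) T with hGdef
  have hG0 : ∀ i, constantCoeff (G i) = 0 := const_elim hT0
  have hGB : ∀ i, IsB ε' η (G i) := by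
    rintro (a | b)
    · exact (isB_X ε' hε'.le a).mono hε'η
    · exact hT b
  intro e
  have ha := hasSubst_of_zero hG0
  rw [coeff_subst ha, finsum_eq_sum _ (coeff_subst_finite ha A e)]
  have hpow : 0 < ε' ^ Finsupp.degree e := pow_pos hε' _
  rw [← le_div_iff₀ hpow]
  refine IsUltrametricDist.norm_sum_le_of_forall_le_of_nonneg (by positivity) fun d _ => ?_
  rw [Finsupp.prod_fintype _ _ (fun i => pow_zero _), smul_eq_mul, norm_mul, le_div_iff₀ hpow,
    mul_assoc]
  have h3 := isB_prod hε'.le hGB d e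
  have h4 := hA d
  have hpow2 : 0 < ε ^ Finsupp.degree d := pow_pos hε _
  have h5 : ‖coeff d A‖ ≤ C / ε ^ Finsupp.degree d := by rw [le_div_iff₀ hpow2]; exact h4
  by_cases hd0 : Finsupp.degree d = 0
  · have : d = 0 := (Finsupp.degree_eq_zero_iff d).mp hd0
    subst this
    have : coeff (0 : (α ⊕ β) →₀ ℕ) A = 0 := by simpa using hA0
    rw [this]; simp; positivity
  by_cases hd1 : Finsupp.degree d = 1
  · obtain ⟨i, rfl⟩ := exists_single_of_degree_one hd1
    rcases i with a | j
    · have hprod : ∏ i, G i ^ (Finsupp.single (Sum.inl a : α ⊕ β) 1 : _ →₀ ℕ) i = X a := by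
        rw [Finset.prod_eq_single (Sum.inl a)]
        · simp [hGdef]
        · intro b _ hb; simp [Finsupp.single_apply, hb.symm]
        · simp
      rw [hprod]
      have h6 := isB_X (K := K) ε' hε'.le a e
      rw [hd1, pow_one] at h5
      calc ‖coeff _ A‖ * (‖coeff e (X a : MvPowerSeries α K)‖ * ε' ^ Finsupp.degree e)
          ≤ C / ε * ε' := mul_le_mul h5 h6 (by positivity) (by positivity)
        _ ≤ η := h1
    · rw [hA1 j]; simp; positivity
  have hd2 : 2 ≤ Finsupp.degree d := by omega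
  have hr : η / ε ≤ 1 := (div_le_one hε).mpr hηε
  calc ‖coeff d A‖ * (‖coeff e (∏ i, G i ^ d i)‖ * ε' ^ Finsupp.degree e)
      ≤ C / ε ^ Finsupp.degree d * η ^ Finsupp.degree d :=
        mul_le_mul h5 h3 (by positivity) (by positivity)
    _ = C * (η / ε) ^ Finsupp.degree d := by rw [div_pow]; ring
    _ ≤ C * (η / ε) ^ 2 :=
        mul_le_mul_of_nonneg_left (pow_le_pow_of_le_one (by positivity) hr hd2) hC
    _ ≤ η := h2

/-- Gauss bound for the formal solution. -/
lemma isB_fpSol {A : β → MvPowerSeries (α ⊕ β) K} {ε C ε' η : ℝ} (hε : 0 < ε) (hε' : 0 < ε')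
    (hη : 0 < η) (hε'η : ε' ≤ η) (hηε : η ≤ ε)
    (hA : ∀ i, IsB ε C (A i)) (hA0 : ∀ i, constantCoeff (A i) = 0)
    (hA1 : ∀ i j, coeff (Finsupp.single (Sum.inr j) 1) (A i) = 0)
    (h1 : C / ε * ε' ≤ η) (h2 : C * (η / ε) ^ 2 ≤ η) (i : β) : IsB ε' η (fpSol A i) := by
  have hiter : ∀ n i, IsB ε' η (fpIter A n i) := by
    intro n
    induction n with
    | zero =>
      intro i
      simpa [fpIter] using (isB_zero (σ := α) (K := K) ε').mono hη.le
    | succ n ih =>
      intro i
      exact isB_fpStep hε hε' hη hε'η hηε (hA i) (hA0 i) (hA1 i) (const_fpIter hA0 n) ih h1 h2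
  intro γ
  rw [coeff_fpSol]
  exact hiter _ i γ

/-- **Implicit function theorem, fixed point form.** For `A` bounded at radius `ε`, zero constant
term, no term linear in `T` alone, the equation `T = A(v,T)` has a solution `τ = fpSol A`,
bounded at a small radius, and it is the only small solution at each point. -/
theorem ift_fixed {A : β → MvPowerSeries (α ⊕ β) K} {ε C : ℝ} (hε : 0 < ε) (hC : 0 ≤ C)
    (hA : ∀ i, IsB ε C (A i)) (hA0 : ∀ i, constantCoeff (A i) = 0)
    (hA1 : ∀ i j, coeff (Finsupp.single (Sum.inr j) 1) (A i) = 0) :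
    ∃ ε' η : ℝ, 0 < ε' ∧ 0 < η ∧ ε' ≤ η ∧ η < ε ∧ C / ε * (η / ε) < 1 ∧
      (∀ i, IsB ε' η (fpSol A i)) ∧
      (∀ (z : α → K), (∀ a, ‖z a‖ < ε') → ∀ i,
        evalS (fpSol A i) z = evalS (A i) (Sum.elim z fun j => evalS (fpSol A j) z)) ∧
      (∀ (z : α → K) (t : β → K), (∀ a, ‖z a‖ < ε') → (∀ b, ‖t b‖ ≤ η) →
        (∀ b, t b = evalS (A b) (Sum.elim z t)) → ∀ b, t b = evalS (fpSol A b) z) := by
  classical
  set η := min (ε / 2) (ε ^ 2 / (2 * (C + 1))) with hηdef
  have hηpos : 0 < η := lt_min (by positivity) (by positivity)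
  have hηε : η < ε := lt_of_le_of_lt (min_le_left _ _) (by linarith)
  have hη2 : η * C ≤ ε ^ 2 / 2 := by
    have h1 : η ≤ ε ^ 2 / (2 * (C + 1)) := min_le_right _ _
    calc η * C ≤ ε ^ 2 / (2 * (C + 1)) * C := by gcongr
      _ = ε ^ 2 / 2 * (C / (C + 1)) := by field_simp
      _ ≤ ε ^ 2 / 2 * 1 := by
          gcongr
          rw [div_le_one (by positivity)]
          linarith
      _ = _ := by ring
  have hκ : C / ε * (η / ε) ≤ 1 / 2 := by
    have : C / ε * (η / ε) = (η * C) / ε ^ 2 := by field_simp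
    rw [this, div_le_iff₀ (by positivity)]
    linarith
  set ε' := min η (η / (C / ε + 1)) with hε'def
  have hLpos : 0 < C / ε + 1 := by positivity
  have hε'pos : 0 < ε' := lt_min hηpos (by positivity)
  have hε'η : ε' ≤ η := min_le_left _ _
  have h1 : C / ε * ε' ≤ η := by
    have h0 : ε' ≤ η / (C / ε + 1) := min_le_right _ _
    calc C / ε * ε' ≤ (C / ε + 1) * (η / (C / ε + 1)) := by
          apply mul_le_mul (by linarith) h0 hε'pos.le hLpos.le
      _ = η := by field_simp
  have h2 : C * (η / ε) ^ 2 ≤ η := by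
    have : C * (η / ε) ^ 2 = η * (C / ε * (η / ε)) := by field_simp
    rw [this]
    nlinarith
  have hB := isB_fpSol hε hε'pos hηpos hε'η hηε.le hA hA0 hA1 h1 h2
  have hAη : ∀ i, IsB η C (A i) := fun i => (hA i).shrink hηpos.le hηε.le
  have hG0 := const_elim (R := K) (α := α) (const_fpSol (A := A) hA0)
  have hGB : ∀ i, IsB ε' η (Sum.elim (fun a => (X a : MvPowerSeries α K)) (fpSol A) i) := by
    rintro (a | b)
    · exact (isB_X ε' hε'pos.le a).mono hε'η
    · exact hB b
  have hfix : ∀ (z : α → K), (∀ a, ‖z a‖ < ε') → ∀ i,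
      evalS (fpSol A i) z = evalS (A i) (Sum.elim z fun j => evalS (fpSol A j) z) := by
    intro z hz i
    conv_lhs => rw [fpSol_eq hA0 hA1 i]
    rw [fpStep, evalS_subst hε'pos hηpos.le (hAη i) hG0 hGB hz]
    congr 1
    funext k
    rcases k with a | b
    · simp [evalS_X]
    · simp
  refine ⟨ε', η, hε'pos, hηpos, hε'η, hηε, by linarith, hB, hfix, ?_⟩
  intro z t hz ht hfixt
  by_cases hβ : IsEmpty β
  · exact fun i => hβ.elim i
  haveI : Nonempty β := not_isEmpty_iff.mp hβ
  set t' : β → K := fun b => evalS (fpSol A b) z with ht'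
  have hz' : ∀ a, ‖z a‖ ≤ ε' := fun a => (hz a).le
  have ht'B : ∀ b, ‖t' b‖ ≤ η := fun b => norm_evalS_le hε'pos (hB b) hz'
  obtain ⟨b₀, -, hb₀⟩ := Finset.exists_max_image (Finset.univ : Finset β)
    (fun b => ‖t b - t' b‖) ⟨Classical.arbitrary β, Finset.mem_univ _⟩
  set δ := ‖t b₀ - t' b₀‖ with hδdef
  have hδ0 : 0 ≤ δ := norm_nonneg _
  have hx : ∀ i, ‖Sum.elim z t i‖ ≤ η := by
    rintro (a | b)
    · exact (hz' a).trans hε'η
    · exact ht b
  have hx' : ∀ i, ‖Sum.elim z t' i‖ ≤ η := by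
    rintro (a | b)
    · exact (hz' a).trans hε'η
    · exact ht'B b
  have hd : ∀ i, ‖Sum.elim z t i - Sum.elim z t' i‖ ≤ δ := by
    rintro (a | b)
    · simpa using hδ0
    · exact hb₀ b (Finset.mem_univ _)
  have hlin : ∀ (c : β) (i : α ⊕ β), Sum.elim z t i ≠ Sum.elim z t' i →
      coeff (Finsupp.single i 1) (A c) = 0 := by
    rintro c (a | b) hne
    · exact absurd rfl hne
    · exact hA1 c b
  have hcontr := norm_evalS_sub_le hε hηpos.le hηε hδ0 (hA b₀) hx hx' hd (hlin b₀)
  rw [← hfixt b₀, ← hfix z hz b₀] at hcontr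
  have hδzero : δ = 0 := by
    have : δ ≤ 1 / 2 * δ := hcontr.trans (mul_le_mul_of_nonneg_right hκ hδ0)
    linarith
  intro b
  have := hb₀ b (Finset.mem_univ _)
  rw [hδzero] at this
  exact sub_eq_zero.mp (norm_le_zero_iff.mp this)

end fixedpoint

section solve

variable {α β : Type*} [Fintype α] [Fintype β] [DecidableEq β]

/-- Fixed-point form of `G(v,T) = 0`: `A_i = T_i - ∑_j N_ij G_j`, `N` the inverse of the `T`-linear part. -/
noncomputable def solveA (G : β → MvPowerSeries (α ⊕ β) K) (N : Matrix β β K) (i : β) :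
    MvPowerSeries (α ⊕ β) K :=
  X (Sum.inr i) - ∑ j, C (N i j) * G j

omit [Fintype α] [DecidableEq β] [CompleteSpace K] [IsUltrametricDist K] in
lemma const_solveA {G : β → MvPowerSeries (α ⊕ β) K} (hG0 : ∀ i, constantCoeff (G i) = 0)
    (N : Matrix β β K) (i : β) : constantCoeff (solveA G N i) = 0 := by
  simp [solveA, hG0]

omit [Fintype α] [CompleteSpace K] [IsUltrametricDist K] in
lemma linear_solveA {G : β → MvPowerSeries (α ⊕ β) K} (M N : Matrix β β K) (hMN : N * M = 1)
    (hGlin : ∀ i j, coeff (Finsupp.single (Sum.inr j) 1) (G i) = M i j) (i j : β) :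
    coeff (Finsupp.single (Sum.inr j) 1) (solveA G N i) = 0 := by
  classical
  have h1 : ∀ k, coeff (Finsupp.single (Sum.inr j) 1) (C (N i k) * G k) = N i k * M k j := by
    intro k
    rw [coeff_C_mul, hGlin]
  rw [solveA, map_sub, map_sum]
  simp only [h1]
  have h2 : ∑ k, N i k * M k j = (N * M) i j := (Matrix.mul_apply).symm
  rw [h2, hMN, Matrix.one_apply, coeff_X]
  by_cases hij : i = j
  · subst hij; simp
  · have : (Finsupp.single (Sum.inr j : α ⊕ β) 1 : _ →₀ ℕ) ≠ Finsupp.single (Sum.inr i) 1 := by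
      intro h
      have := Finsupp.single_left_injective (one_ne_zero) h
      exact hij (Sum.inr_injective this).symm
    simp [this, hij]

omit [CompleteSpace K] in
lemma isB_solveA {G : β → MvPowerSeries (α ⊕ β) K} (N : Matrix β β K) {ε C D : ℝ} (hε : 0 < ε)
    (hC : 0 ≤ C) (hG : ∀ i, IsB ε C (G i)) (hD1 : ε ≤ D) (hD2 : ∀ i j, ‖N i j‖ * C ≤ D) (i : β) :
    IsB ε D (solveA G N i) := by
  classical
  have hD : 0 ≤ D := hε.le.trans hD1
  refine ((isB_X ε hε.le _).mono hD1).sub ?_ hε.le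
  have key : ∀ s : Finset β, IsB ε D (∑ j ∈ s, MvPowerSeries.C (N i j) * G j) := by
    intro s
    induction s using Finset.induction_on with
    | empty => simpa using (isB_zero ε).mono hD
    | insert a s ha ih =>
      rw [Finset.sum_insert ha]
      exact (((isB_C ε hε.le _).mul (hG a) hε.le).mono (hD2 i a)).add ih hε.le
  exact key Finset.univ

omit [DecidableEq β] in
/-- evaluation of finite sums -/
lemma evalS_sum' {σ ι : Type*} [Fintype σ] {ε C : ℝ} (hε : 0 < ε) (s : Finset ι)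
    {f : ι → MvPowerSeries σ K} (hf : ∀ i, IsB ε C (f i)) {z : σ → K} (hz : ∀ i, ‖z i‖ < ε) :
    evalS (∑ i ∈ s, f i) z = ∑ i ∈ s, evalS (f i) z := by
  classical
  have hC : 0 ≤ C ∨ s = ∅ := by
    by_cases hs : s = ∅
    · exact Or.inr hs
    · obtain ⟨i, -⟩ := Finset.nonempty_iff_ne_empty.mpr hs
      exact Or.inl ((hf i).nonneg hε.le)
  rcases hC with hC | rfl
  · induction s using Finset.induction_on with
    | empty => simp [evalS_zero]
    | insert a s ha ih =>
      have hB : IsB ε C (∑ i ∈ s, f i) := by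
        clear ih
        induction s using Finset.induction_on with
        | empty => simpa using (isB_zero ε).mono hC
        | insert b t hb ih2 =>
          rw [Finset.sum_insert hb]
          refine (hf b).add (ih2 ?_) hε.le
          intro h; exact ha (Finset.mem_insert_of_mem h)
      rw [Finset.sum_insert ha, Finset.sum_insert ha, evalS_add hε (hf a) hB hz, ih]
  · simp [evalS_zero]

/-- Evaluation of `solveA`. -/
lemma evalS_solveA {G : β → MvPowerSeries (α ⊕ β) K} (N : Matrix β β K) {ε C D : ℝ} (hε : 0 < ε)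
    (hC : 0 ≤ C) (hG : ∀ i, IsB ε C (G i)) (hD1 : ε ≤ D) (hD2 : ∀ i j, ‖N i j‖ * C ≤ D) (i : β)
    {x : α ⊕ β → K} (hx : ∀ k, ‖x k‖ < ε) :
    evalS (solveA G N i) x = x (Sum.inr i) - ∑ j, N i j * evalS (G j) x := by
  classical
  have hD : 0 ≤ D := hε.le.trans hD1
  have hB : ∀ j, IsB ε D (MvPowerSeries.C (N i j) * G j) := fun j =>
    ((isB_C ε hε.le _).mul (hG j) hε.le).mono (hD2 i j)
  have hS : IsB ε D (∑ j, MvPowerSeries.C (N i j) * G j) := by
    have key : ∀ s : Finset β, IsB ε D (∑ j ∈ s, MvPowerSeries.C (N i j) * G j) := by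
      intro s
      induction s using Finset.induction_on with
      | empty => simpa using (isB_zero ε).mono hD
      | insert a s ha ih =>
        rw [Finset.sum_insert ha]
        exact (hB a).add ih hε.le
    exact key Finset.univ
  rw [solveA, evalS_sub hε ((isB_X ε hε.le _).mono hD1) hS hx, evalS_X, evalS_sum' hε _ hB hx]
  congr 1
  refine Finset.sum_congr rfl fun j _ => ?_
  rw [evalS_mul hε (isB_C ε hε.le _) (hG j) hx, evalS_C]

omit [Fintype α] [CompleteSpace K] [IsUltrametricDist K] in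
/-- Cancelling an invertible matrix. -/
lemma vec_zero_of_mulVec {M N : Matrix β β K} (hNM : M * N = 1) {g : β → K}
    (h : ∀ i, ∑ j, N i j * g j = 0) (k : β) : g k = 0 := by
  have h1 : N.mulVec g = 0 := by
    funext i; simpa [Matrix.mulVec, dotProduct] using h i
  have h2 : g = (M * N).mulVec g := by rw [hNM, Matrix.one_mulVec]
  rw [h2, ← Matrix.mulVec_mulVec, h1, Matrix.mulVec_zero]
  rfl

/-- **Implicit function theorem.** `G(v,T)` bounded, zero constant term, `T`-linear part `M`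
invertible. Then `G(v,τ(v)) = 0` has a bounded solution with `τ(0) = 0`, and at each small point the
only small solution is `τ`. The formal solution is unique: `ift_solve_unique`. -/
theorem ift_solve {G : β → MvPowerSeries (α ⊕ β) K} (M N : Matrix β β K) (hMN : N * M = 1)
    (hNM : M * N = 1) {ε C : ℝ} (hε : 0 < ε) (hC : 0 ≤ C) (hG : ∀ i, IsB ε C (G i))
    (hG0 : ∀ i, constantCoeff (G i) = 0)
    (hGlin : ∀ i j, coeff (Finsupp.single (Sum.inr j) 1) (G i) = M i j) :
    ∃ (τ : β → MvPowerSeries α K) (ε' η : ℝ), 0 < ε' ∧ 0 < η ∧ ε' ≤ η ∧ η < ε ∧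
      (∀ i, constantCoeff (τ i) = 0) ∧ (∀ i, IsB ε' η (τ i)) ∧
      (∀ i, (G i).subst (Sum.elim (fun a => (X a : MvPowerSeries α K)) τ) = 0) ∧
      (∀ (z : α → K), (∀ a, ‖z a‖ < ε') → ∀ i,
        evalS (G i) (Sum.elim z fun j => evalS (τ j) z) = 0) ∧
      (∀ (z : α → K) (t : β → K), (∀ a, ‖z a‖ < ε') → (∀ b, ‖t b‖ ≤ η) →
        (∀ b, evalS (G b) (Sum.elim z t) = 0) → ∀ b, t b = evalS (τ b) z) := by
  classical
  obtain ⟨D, hD1, hD2⟩ : ∃ D, ε ≤ D ∧ ∀ i j, ‖N i j‖ * C ≤ D := by
    refine ⟨ε + ∑ i, ∑ j, ‖N i j‖ * C, by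
      have : 0 ≤ ∑ i, ∑ j, ‖N i j‖ * C :=
        Finset.sum_nonneg fun i _ => Finset.sum_nonneg fun j _ => by positivity
      linarith, fun i j => ?_⟩
    have h1 : ‖N i j‖ * C ≤ ∑ j, ‖N i j‖ * C :=
      Finset.single_le_sum (f := fun j => ‖N i j‖ * C) (fun j _ => by positivity) (Finset.mem_univ j)
    have h2 : ∑ j, ‖N i j‖ * C ≤ ∑ i, ∑ j, ‖N i j‖ * C :=
      Finset.single_le_sum (f := fun i => ∑ j, ‖N i j‖ * C)
        (fun i _ => Finset.sum_nonneg fun j _ => by positivity) (Finset.mem_univ i)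
    linarith
  have hD : 0 ≤ D := hε.le.trans hD1
  have hAB := isB_solveA (G := G) N hε hC hG hD1 hD2
  have hA0 := const_solveA (G := G) hG0 N
  have hA1 := linear_solveA (G := G) M N hMN hGlin
  obtain ⟨ε', η, hε', hη, hε'η, hηε, -, hB, hfix, huniq⟩ := ift_fixed hε hD hAB hA0 hA1
  have hEv : ∀ (z : α → K) (t : β → K), (∀ a, ‖z a‖ < ε') → (∀ b, ‖t b‖ ≤ η) →
      ∀ k, ‖Sum.elim z t k‖ < ε := by
    rintro z t hz ht (a | b)
    · exact lt_of_lt_of_le (hz a) (hε'η.trans hηε.le)
    · exact lt_of_le_of_lt (ht b) hηε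
  refine ⟨fpSol (solveA G N), ε', η, hε', hη, hε'η, hηε, const_fpSol hA0, hB, ?_, ?_, ?_⟩
  · -- series identity
    have hsol := fpSol_eq hA0 hA1
    have hS0 := const_elim (R := K) (α := α) (const_fpSol (A := solveA G N) hA0)
    have ha := hasSubst_of_constantCoeff_zero hS0
    set Ψ := Sum.elim (fun a => (X a : MvPowerSeries α K)) (fpSol (solveA G N)) with hΨ
    have h1 : ∀ i, ∑ j, MvPowerSeries.C (N i j) * (G j).subst Ψ = 0 := by
      intro i
      have h2 := hsol i
      rw [fpStep, solveA, ← coe_substAlgHom ha, map_sub, map_sum] at h2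
      have h3 : ∀ j, substAlgHom ha (MvPowerSeries.C (N i j) * G j) = MvPowerSeries.C (N i j) * (G j).subst Ψ := by
        intro j
        rw [map_mul, coe_substAlgHom]
        congr 1
        rw [subst_C]
      simp only [h3] at h2
      rw [coe_substAlgHom, subst_X ha] at h2
      simp only [hΨ, Sum.elim_inr] at h2
      exact (sub_eq_self.mp h2.symm)
    intro k
    ext γ
    refine vec_zero_of_mulVec hNM (g := fun j => coeff γ ((G j).subst Ψ)) (fun i => ?_) k
    have := congrArg (coeff γ) (h1 i)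
    simpa [map_sum, coeff_C_mul] using this
  · intro z hz k
    have ht : ∀ b, ‖evalS (fpSol (solveA G N) b) z‖ ≤ η := fun b =>
      norm_evalS_le hε' (hB b) (fun a => (hz a).le)
    refine vec_zero_of_mulVec hNM
      (g := fun j => evalS (G j) (Sum.elim z fun j => evalS (fpSol (solveA G N) j) z))
      (fun i => ?_) k
    have h1 := hfix z hz i
    rw [evalS_solveA N hε hC hG hD1 hD2 i (hEv z _ hz ht)] at h1
    simp only [Sum.elim_inr] at h1
    exact sub_eq_self.mp h1.symm
  · intro z t hz ht h0 b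
    refine huniq z t hz ht (fun c => ?_) b
    rw [evalS_solveA N hε hC hG hD1 hD2 c (hEv z t hz ht)]
    simp [h0]

end solve

end Crest.Agent.LT
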