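/-
One-variable evaluation and formal group laws on the open unit disc of a complete ultrametric
field.  BLUEPRINT §C1.
-/
import Crest.Agent.Lib.LT.IFT
import Crest.Agent.Lib.LT.FG

set_option autoImplicit false
set_option linter.unusedSectionVars false
set_option linter.unusedVariables false
set_option linter.unnecessarySimpa false

namespace Crest.Agent.LT

open Filter Topology

open Crest.LubinTate

variable {K : Type*} [NontriviallyNormedField K] [IsUltrametricDist K]

/-- All coefficients of norm at most one. -/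
def IsInt (f : PowerSeries K) : Prop := ∀ i, ‖PowerSeries.coeff i f‖ ≤ 1

omit [IsUltrametricDist K] in
lemma degree_unit (γ : Unit →₀ ℕ) : Finsupp.degree γ = γ () := by
  rw [degree_eq_sum]; simp

omit [IsUltrametricDist K] in
lemma coeff_unit (γ : Unit →₀ ℕ) (f : PowerSeries K) :
    MvPowerSeries.coeff γ f = PowerSeries.coeff (γ ()) f := by
  show MvPowerSeries.coeff γ f = MvPowerSeries.coeff (Finsupp.single () (γ ())) f
  congr 2
  ext u
  simp

omit [IsUltrametricDist K] in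
lemma isB_one_iff {f : PowerSeries K} : IsB (1 : ℝ) 1 (σ := Unit) f ↔ IsInt f := by
  constructor
  · intro h i
    have := h (Finsupp.single () i)
    simpa [PowerSeries.coeff] using this
  · intro h γ
    simpa [coeff_unit] using h (γ ())

omit [IsUltrametricDist K] in
lemma IsInt.isB {f : PowerSeries K} (h : IsInt f) : IsB (1 : ℝ) 1 (σ := Unit) f := isB_one_iff.2 h

lemma IsInt.add {f g : PowerSeries K} (hf : IsInt f) (hg : IsInt g) : IsInt (f + g) :=
  isB_one_iff.1 (hf.isB.add hg.isB zero_le_one)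

omit [IsUltrametricDist K] in
lemma IsInt.neg {f : PowerSeries K} (hf : IsInt f) : IsInt (-f) :=
  isB_one_iff.1 (hf.isB.neg)

lemma IsInt.sub {f g : PowerSeries K} (hf : IsInt f) (hg : IsInt g) : IsInt (f - g) :=
  isB_one_iff.1 (hf.isB.sub hg.isB zero_le_one)

lemma IsInt.mul {f g : PowerSeries K} (hf : IsInt f) (hg : IsInt g) : IsInt (f * g) := by
  have := hf.isB.mul hg.isB zero_le_one
  simp only [mul_one] at this
  exact isB_one_iff.1 this

lemma isInt_one : IsInt (1 : PowerSeries K) :=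
  isB_one_iff.1 (isB_one 1 zero_le_one)

lemma IsInt.pow {f : PowerSeries K} (hf : IsInt f) (n : ℕ) : IsInt (f ^ n) := by
  induction n with
  | zero => simpa using isInt_one
  | succ n ih => rw [pow_succ]; exact ih.mul hf

omit [IsUltrametricDist K] in
lemma isInt_X : IsInt (PowerSeries.X : PowerSeries K) := by
  intro i
  rw [PowerSeries.coeff_X]
  split_ifs <;> simp

omit [IsUltrametricDist K] in
lemma isInt_zero : IsInt (0 : PowerSeries K) := by
  intro i; simp

omit [IsUltrametricDist K] in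
lemma isInt_C {a : K} (ha : ‖a‖ ≤ 1) : IsInt (PowerSeries.C a : PowerSeries K) := by
  intro i
  rw [PowerSeries.coeff_C]
  split_ifs
  · exact ha
  · simp

lemma isInt_X_pow (n : ℕ) : IsInt ((PowerSeries.X : PowerSeries K) ^ n) := isInt_X.pow n

section
variable [CompleteSpace K]

/-- Evaluation of a one-variable series. -/
noncomputable def ev (f : PowerSeries K) (x : K) : K := evalS (σ := Unit) f (fun _ => x)

lemma ev_add {f g : PowerSeries K} (hf : IsInt f) (hg : IsInt g) {x : K} (hx : ‖x‖ < 1) :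
    ev (f + g) x = ev f x + ev g x :=
  evalS_add one_pos hf.isB hg.isB (fun _ => hx)

lemma ev_neg (f : PowerSeries K) (x : K) : ev (-f) x = - ev f x := evalS_neg _ _

lemma ev_sub {f g : PowerSeries K} (hf : IsInt f) (hg : IsInt g) {x : K} (hx : ‖x‖ < 1) :
    ev (f - g) x = ev f x - ev g x :=
  evalS_sub one_pos hf.isB hg.isB (fun _ => hx)

lemma ev_mul {f g : PowerSeries K} (hf : IsInt f) (hg : IsInt g) {x : K} (hx : ‖x‖ < 1) :
    ev (f * g) x = ev f x * ev g x :=
  evalS_mul one_pos hf.isB hg.isB (fun _ => hx)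

lemma ev_pow {f : PowerSeries K} (hf : IsInt f) {x : K} (hx : ‖x‖ < 1) (n : ℕ) :
    ev (f ^ n) x = ev f x ^ n :=
  evalS_pow one_pos hf.isB (fun _ => hx) n

lemma ev_C (a : K) (x : K) : ev (PowerSeries.C a) x = a := evalS_C a _

lemma ev_zero (x : K) : ev (0 : PowerSeries K) x = 0 := evalS_zero _

lemma ev_one (x : K) : ev (1 : PowerSeries K) x = 1 := evalS_one _

lemma ev_X (x : K) : ev (PowerSeries.X : PowerSeries K) x = x := evalS_X () _

lemma ev_X_pow {x : K} (hx : ‖x‖ < 1) (n : ℕ) : ev ((PowerSeries.X : PowerSeries K) ^ n) x = x ^ n := by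
  rw [ev_pow isInt_X hx, ev_X]

lemma norm_ev_le_one {f : PowerSeries K} (hf : IsInt f) {x : K} (hx : ‖x‖ ≤ 1) : ‖ev f x‖ ≤ 1 :=
  norm_evalS_le one_pos hf.isB (fun _ => hx)

end

/-- Mathlib's `PowerSeries.subst` in terms of `MvPowerSeries.subst`. -/
lemma psubst_eq {τ : Type*} (g : MvPowerSeries τ K) (f : PowerSeries K) :
    PowerSeries.subst g f = MvPowerSeries.subst (fun _ : Unit => g) f := rfl

section
variable [CompleteSpace K]

lemma isB_psubst {τ : Type*} [Fintype τ] {g : MvPowerSeries τ K} {f : PowerSeries K} (hf : IsInt f)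
    (hg : IsB (1 : ℝ) 1 g) (hg0 : MvPowerSeries.constantCoeff g = 0) :
    IsB (1 : ℝ) 1 (PowerSeries.subst g f) := by
  rw [psubst_eq]
  exact IsB.subst one_pos zero_le_one hf.isB (fun _ => hg0) (fun _ => hg)

lemma IsInt.cmp {f g : PowerSeries K} (hf : IsInt f) (hg : IsInt g)
    (hg0 : PowerSeries.constantCoeff g = 0) : IsInt (cmp f g) :=
  isB_one_iff.1 (isB_psubst hf hg.isB hg0)

lemma evalS_psubst {τ : Type*} [Fintype τ] {g : MvPowerSeries τ K} {f : PowerSeries K} (hf : IsInt f)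
    (hg : IsB (1 : ℝ) 1 g) (hg0 : MvPowerSeries.constantCoeff g = 0) {z : τ → K}
    (hz : ∀ i, ‖z i‖ < 1) : evalS (PowerSeries.subst g f) z = ev f (evalS g z) := by
  rw [psubst_eq, ev]
  exact evalS_subst one_pos zero_le_one hf.isB (fun _ => hg0) (fun _ => hg) hz

lemma ev_cmp {f g : PowerSeries K} (hf : IsInt f) (hg : IsInt g)
    (hg0 : PowerSeries.constantCoeff g = 0) {x : K} (hx : ‖x‖ < 1) :
    ev (cmp f g) x = ev f (ev g x) :=
  evalS_psubst hf hg.isB hg0 (fun _ => hx)

lemma ev_zero_of_cc {f : PowerSeries K} (h0 : PowerSeries.constantCoeff f = 0) : ev f 0 = 0 := by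
  classical
  rw [ev, evalS, tsum_eq_single 0]
  · have : MvPowerSeries.coeff (0 : Unit →₀ ℕ) f = 0 := by
      rw [MvPowerSeries.coeff_zero_eq_constantCoeff_apply]; exact h0
    simp [this]
  · intro γ hγ
    have h1 : γ () ≠ 0 := by
      intro h
      apply hγ
      ext u
      simpa using h
    have h2 : mval (fun _ : Unit => (0 : K)) γ = 0 := by
      simp [mval, h1]
    simp [h2]

/-- Schwarz: `|f(x)| ≤ |x|` for integral `f` with `f(0)=0`. -/
lemma norm_ev_le {f : PowerSeries K} (hf : IsInt f) (h0 : PowerSeries.constantCoeff f = 0) {x : K}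
    (hx : ‖x‖ ≤ 1) : ‖ev f x‖ ≤ ‖x‖ := by
  have := norm_evalS_le_of_const_zero (σ := Unit) one_pos (norm_nonneg x) hx hf.isB h0
    (z := fun _ => x) (fun _ => le_rfl)
  simpa [ev] using this

lemma norm_ev_lt_one {f : PowerSeries K} (hf : IsInt f) (h0 : PowerSeries.constantCoeff f = 0) {x : K}
    (hx : ‖x‖ < 1) : ‖ev f x‖ < 1 :=
  (norm_ev_le hf h0 hx.le).trans_lt hx

/-- If the coefficients of `f` (with `f(0)=0`) have norm at most `ρ`, then `|f(x)| ≤ ρ |x|`. -/
lemma norm_ev_le_mul {f : PowerSeries K} {ρ : ℝ} (hρ : 0 ≤ ρ) (hf : ∀ i, ‖PowerSeries.coeff i f‖ ≤ ρ)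
    (h0 : PowerSeries.constantCoeff f = 0) {x : K} (hx : ‖x‖ ≤ 1) : ‖ev f x‖ ≤ ρ * ‖x‖ := by
  have hB : IsB (1 : ℝ) ρ (σ := Unit) f := fun γ => by simpa [coeff_unit] using hf (γ ())
  have := norm_evalS_le_of_const_zero (σ := Unit) one_pos (norm_nonneg x) hx hB h0
    (z := fun _ => x) (fun _ => le_rfl)
  simpa [ev] using this

/-- Multivariate Lipschitz estimate on the open polydisc. -/
lemma lip_evalS {σ : Type*} [Fintype σ] {A : MvPowerSeries σ K} {C δ : ℝ} (hA : IsB (1 : ℝ) C A)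
    {x x' : σ → K} (hx : ∀ i, ‖x i‖ < 1) (hx' : ∀ i, ‖x' i‖ < 1) (hδ : 0 ≤ δ)
    (hd : ∀ i, ‖x i - x' i‖ ≤ δ) : ‖evalS A x - evalS A x'‖ ≤ C * δ := by
  classical
  have hC : 0 ≤ C := hA.nonneg zero_le_one
  have hs1 := summable_eval' one_pos hA hx
  have hs2 := summable_eval' one_pos hA hx'
  rw [evalS, evalS, ← hs1.tsum_sub hs2]
  refine IsUltrametricDist.norm_tsum_le_of_forall_le_of_nonneg (by positivity) fun d => ?_
  rw [← mul_sub, norm_mul]
  have hc : ‖MvPowerSeries.coeff d A‖ ≤ C := by simpa using hA d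
  by_cases hd0 : Finsupp.degree d = 0
  · have : d = 0 := (Finsupp.degree_eq_zero_iff d).mp hd0
    subst this
    simp; positivity
  have h3 := norm_mval_sub_le zero_le_one hδ (fun i => (hx i).le) (fun i => (hx' i).le) hd d (by omega)
  simp only [one_pow, one_mul] at h3
  exact mul_le_mul hc h3 (norm_nonneg _) hC

/-- Lipschitz estimate. -/
lemma lip_ev {f : PowerSeries K} (hf : IsInt f) {x x' : K} (hx : ‖x‖ < 1) (hx' : ‖x'‖ < 1) :
    ‖ev f x - ev f x'‖ ≤ ‖x - x'‖ := by
  have := lip_evalS (σ := Unit) hf.isB (x := fun _ => x) (x' := fun _ => x') (fun _ => hx) (fun _ => hx')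
    (norm_nonneg (x - x')) (fun _ => le_rfl)
  simpa [ev] using this

/-- A series whose coefficients are `≤ ρ` takes values `≤ ρ`. -/
lemma norm_evalS_le_of_coeff {σ : Type*} [Fintype σ] {A : MvPowerSeries σ K} {ρ : ℝ}
    (hA : ∀ γ, ‖MvPowerSeries.coeff γ A‖ ≤ ρ) {x : σ → K} (hx : ∀ i, ‖x i‖ ≤ 1) :
    ‖evalS A x‖ ≤ ρ :=
  norm_evalS_le one_pos (fun γ => by simpa using hA γ) hx

/-- A series starting in degree `m` is small. -/
lemma norm_evalS_le_of_order {σ : Type*} [Fintype σ] {A : MvPowerSeries σ K} {r ρ : ℝ} (m : ℕ)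
    (hA : ∀ γ, ‖MvPowerSeries.coeff γ A‖ ≤ r) (hA0 : ∀ γ, Finsupp.degree γ < m → MvPowerSeries.coeff γ A = 0)
    (hρ : 0 ≤ ρ) (hρ1 : ρ ≤ 1) {x : σ → K} (hx : ∀ i, ‖x i‖ ≤ ρ) :
    ‖evalS A x‖ ≤ r * ρ ^ m := by
  have hr : 0 ≤ r := (norm_nonneg _).trans (hA 0)
  refine IsUltrametricDist.norm_tsum_le_of_forall_le_of_nonneg (by positivity) fun γ => ?_
  rw [norm_mul]
  by_cases hγ : Finsupp.degree γ < m
  · rw [hA0 γ hγ]; simp; positivity
  · refine mul_le_mul (hA γ) ?_ (norm_nonneg _) hr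
    refine (norm_mval_le hρ hx γ).trans ?_
    exact pow_le_pow_of_le_one hρ hρ1 (by omega)

end

/-! ### Laws on the open disc -/

/-- The coefficients of the law have norm at most one. -/
def IsIntLaw (F : FormalGroup K) : Prop := IsB (1 : ℝ) 1 F.toPowerSeries

omit [IsUltrametricDist K] in
lemma norm_pair_lt {x y : K} (hx : ‖x‖ < 1) (hy : ‖y‖ < 1) : ∀ i, ‖(![x, y] : Fin 2 → K) i‖ < 1 := by
  intro i; fin_cases i
  · exact hx
  · exact hy

omit [IsUltrametricDist K] in
lemma norm_pair_le {x y : K} {ρ : ℝ} (hx : ‖x‖ ≤ ρ) (hy : ‖y‖ ≤ ρ) : ∀ i, ‖(![x, y] : Fin 2 → K) i‖ ≤ ρ := by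
  intro i; fin_cases i
  · exact hx
  · exact hy

section
variable [CompleteSpace K]

/-- The sum of two points of the open disc for the law `F`. -/
noncomputable def ptAdd (F : FormalGroup K) (x y : K) : K := evalS F.toPowerSeries ![x, y]

variable {F G : FormalGroup K}

lemma norm_ptAdd_le (hF : IsIntLaw F) {x y : K} (hx : ‖x‖ ≤ 1) (hy : ‖y‖ ≤ 1) :
    ‖ptAdd F x y‖ ≤ max ‖x‖ ‖y‖ := by
  have := norm_evalS_le_of_const_zero one_pos (le_max_of_le_left (norm_nonneg x) : 0 ≤ max ‖x‖ ‖y‖)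
    (max_le hx hy) hF F.zero_constantCoeff (z := ![x, y])
    (norm_pair_le (le_max_left _ _) (le_max_right _ _))
  simpa [ptAdd] using this

lemma norm_ptAdd_lt (hF : IsIntLaw F) {x y : K} (hx : ‖x‖ < 1) (hy : ‖y‖ < 1) :
    ‖ptAdd F x y‖ < 1 :=
  (norm_ptAdd_le hF hx.le hy.le).trans_lt (max_lt hx hy)

lemma isB_fgAdd {τ : Type*} [Fintype τ] (hF : IsIntLaw F) {a b : MvPowerSeries τ K}
    (ha : IsB (1 : ℝ) 1 a) (hb : IsB (1 : ℝ) 1 b) (ha0 : MvPowerSeries.constantCoeff a = 0)
    (hb0 : MvPowerSeries.constantCoeff b = 0) : IsB (1 : ℝ) 1 (fgAdd F a b) := by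
  refine IsB.subst one_pos zero_le_one hF ?_ ?_
  · intro i; fin_cases i
    · exact ha0
    · exact hb0
  · intro i; fin_cases i
    · exact ha
    · exact hb

lemma evalS_fgAdd {τ : Type*} [Fintype τ] (hF : IsIntLaw F) {a b : MvPowerSeries τ K}
    (ha : IsB (1 : ℝ) 1 a) (hb : IsB (1 : ℝ) 1 b) (ha0 : MvPowerSeries.constantCoeff a = 0)
    (hb0 : MvPowerSeries.constantCoeff b = 0) {z : τ → K} (hz : ∀ i, ‖z i‖ < 1) :
    evalS (fgAdd F a b) z = ptAdd F (evalS a z) (evalS b z) := by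
  rw [fgAdd, evalS_subst one_pos zero_le_one hF (G := ![a, b]) ?_ ?_ hz, ptAdd]
  · congr 1
    funext i; fin_cases i <;> rfl
  · intro i; fin_cases i
    · exact ha0
    · exact hb0
  · intro i; fin_cases i
    · exact ha
    · exact hb

private lemma hasSubst_X' : PowerSeries.HasSubst (PowerSeries.X (R := K)) :=
  PowerSeries.HasSubst.of_constantCoeff_zero' PowerSeries.constantCoeff_X

private lemma isB_X' {τ : Type*} [Fintype τ] (i : τ) : IsB (1 : ℝ) 1 (MvPowerSeries.X i : MvPowerSeries τ K) :=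
  isB_X 1 zero_le_one i

lemma ptAdd_zero (hF : IsIntLaw F) {x : K} (hx : ‖x‖ < 1) : ptAdd F x 0 = x := by
  have h := fgAdd_zero F (hasSubst_X' (K := K))
  have h3 := evalS_fgAdd (τ := Unit) (F := F) hF (a := PowerSeries.X) (b := 0) isInt_X.isB (isB_zero 1 |>.mono zero_le_one)
    (PowerSeries.constantCoeff_X) (by simp) (z := fun _ => x) (fun _ => hx)
  rw [evalS_zero, h, show evalS (σ := Unit) PowerSeries.X (fun _ => x) = x from ev_X x] at h3
  exact h3.symm

lemma zero_ptAdd (hF : IsIntLaw F) {x : K} (hx : ‖x‖ < 1) : ptAdd F 0 x = x := by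
  have h := zero_fgAdd F (hasSubst_X' (K := K))
  have h3 := evalS_fgAdd (τ := Unit) (F := F) hF (a := 0) (b := PowerSeries.X) (isB_zero 1 |>.mono zero_le_one) isInt_X.isB
    (by simp) (PowerSeries.constantCoeff_X) (z := fun _ => x) (fun _ => hx)
  rw [evalS_zero, h, show evalS (σ := Unit) PowerSeries.X (fun _ => x) = x from ev_X x] at h3
  exact h3.symm

lemma ptAdd_assoc (hF : IsIntLaw F) {x y z : K} (hx : ‖x‖ < 1) (hy : ‖y‖ < 1) (hz : ‖z‖ < 1) :
    ptAdd F (ptAdd F x y) z = ptAdd F x (ptAdd F y z) := by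
  have hw : ∀ i, ‖(![x, y, z] : Fin 3 → K) i‖ < 1 := by
    intro i; fin_cases i
    · exact hx
    · exact hy
    · exact hz
  have h := fgAdd_assoc F (hasSubst_X_i (R := K) (0 : Fin 3)) (hasSubst_X_i 1) (hasSubst_X_i 2)
  have h2 := congrArg (fun f => evalS f ![x, y, z]) h
  have b0 := isB_X' (K := K) (0 : Fin 3)
  have b1 := isB_X' (K := K) (1 : Fin 3)
  have b2 := isB_X' (K := K) (2 : Fin 3)
  have c0 : MvPowerSeries.constantCoeff (MvPowerSeries.X (0 : Fin 3) : MvPowerSeries (Fin 3) K) = 0 := by simp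
  have c1 : MvPowerSeries.constantCoeff (MvPowerSeries.X (1 : Fin 3) : MvPowerSeries (Fin 3) K) = 0 := by simp
  have c2 : MvPowerSeries.constantCoeff (MvPowerSeries.X (2 : Fin 3) : MvPowerSeries (Fin 3) K) = 0 := by simp
  rw [evalS_fgAdd hF (isB_fgAdd hF b0 b1 c0 c1) b2 (constantCoeff_fgAdd_of F c0 c1) c2 hw,
    evalS_fgAdd hF b0 b1 c0 c1 hw, evalS_fgAdd hF b0 (isB_fgAdd hF b1 b2 c1 c2) c0
      (constantCoeff_fgAdd_of F c1 c2) hw, evalS_fgAdd hF b1 b2 c1 c2 hw] at h2
  simpa [evalS_X] using h2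

lemma ptAdd_comm [F.IsComm] (hF : IsIntLaw F) {x y : K} (hx : ‖x‖ < 1) (hy : ‖y‖ < 1) :
    ptAdd F x y = ptAdd F y x := by
  have hw := norm_pair_lt hx hy
  have h := fgAdd_comm F (hasSubst_X_i (R := K) (0 : Fin 2)) (hasSubst_X_i 1)
  have h2 := congrArg (fun f => evalS f ![x, y]) h
  have b0 := isB_X' (K := K) (0 : Fin 2)
  have b1 := isB_X' (K := K) (1 : Fin 2)
  have c0 : MvPowerSeries.constantCoeff (MvPowerSeries.X (0 : Fin 2) : MvPowerSeries (Fin 2) K) = 0 := by simp
  have c1 : MvPowerSeries.constantCoeff (MvPowerSeries.X (1 : Fin 2) : MvPowerSeries (Fin 2) K) = 0 := by simp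
  rw [evalS_fgAdd hF b0 b1 c0 c1 hw, evalS_fgAdd hF b1 b0 c1 c0 hw] at h2
  simpa [evalS_X] using h2

/-- A homomorphism with integral coefficients is additive on the open disc. -/
theorem ev_ptAdd {f : PowerSeries K} (h : IsFGHom F G f) (hf : IsInt f) (hF : IsIntLaw F)
    (hG : IsIntLaw G) {x y : K} (hx : ‖x‖ < 1) (hy : ‖y‖ < 1) :
    ev f (ptAdd F x y) = ptAdd G (ev f x) (ev f y) := by
  have hw := norm_pair_lt hx hy
  have h2 := congrArg (fun a => evalS a ![x, y])
    (IsFGHom.apply h (hasSubst_X_i (R := K) (0 : Fin 2)) (hasSubst_X_i 1))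
  have b0 := isB_X' (K := K) (0 : Fin 2)
  have b1 := isB_X' (K := K) (1 : Fin 2)
  have c0 : MvPowerSeries.constantCoeff (MvPowerSeries.X (0 : Fin 2) : MvPowerSeries (Fin 2) K) = 0 := by simp
  have c1 : MvPowerSeries.constantCoeff (MvPowerSeries.X (1 : Fin 2) : MvPowerSeries (Fin 2) K) = 0 := by simp
  have cf : ∀ i : Fin 2, MvPowerSeries.constantCoeff
      (PowerSeries.subst (MvPowerSeries.X i : MvPowerSeries (Fin 2) K) f) = 0 := fun i =>
    PowerSeries.constantCoeff_subst_eq_zero (MvPowerSeries.constantCoeff_X _) _ h.1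
  rw [evalS_psubst hf (isB_fgAdd hF b0 b1 c0 c1) (constantCoeff_fgAdd_of F c0 c1) hw,
    evalS_fgAdd hF b0 b1 c0 c1 hw,
    evalS_fgAdd hG (isB_psubst hf b0 c0) (isB_psubst hf b1 c1) (cf 0) (cf 1) hw,
    evalS_psubst hf b0 c0 hw, evalS_psubst hf b1 c1 hw] at h2
  simpa [evalS_X] using h2

/-! ### The inverse on the open disc -/

omit [CompleteSpace K] in
/-- Integrality of the quotient `A` in `F = X₁ + X₀ A`. -/
lemma isB_div_X0 {A B : MvPowerSeries (Fin 2) K}
    (hB : IsB (1 : ℝ) 1 B) (h : B = MvPowerSeries.X 1 + MvPowerSeries.X 0 * A) : IsB (1 : ℝ) 1 A := by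
  classical
  intro γ
  have h1 := hB (γ + Finsupp.single 0 1)
  simp only [one_pow, mul_one] at h1 ⊢
  have h2 : MvPowerSeries.coeff (γ + Finsupp.single 0 1) B = MvPowerSeries.coeff γ A := by
    rw [h, map_add, MvPowerSeries.coeff_X, if_neg, zero_add, mul_comm,
      show (MvPowerSeries.X 0 : MvPowerSeries (Fin 2) K) = MvPowerSeries.monomial (Finsupp.single 0 1) 1 from rfl,
      MvPowerSeries.coeff_add_mul_monomial, mul_one]
    intro h3
    have := DFunLike.congr_fun h3 0
    simp at this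
  rwa [h2] at h1

lemma isInt_fgInv (hF : IsIntLaw F) : IsInt (fgInv F) := by
  classical
  obtain ⟨A, hA⟩ := exists_fgDiv F
  have hAB := isB_div_X0 hF hA
  have hX : PowerSeries.HasSubst (PowerSeries.X (R := K)) :=
    PowerSeries.HasSubst.of_constantCoeff_zero' PowerSeries.constantCoeff_X
  -- `ι = - X * A(X, ι)`
  have key : fgInv F = - (PowerSeries.X * (A.subst ![PowerSeries.X (R := K), fgInv F] : PowerSeries K)) := by
    have hp := hasSubst_pair hX (hasSubst_fgInv F)
    have h := fgAdd_X_inv F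
    rw [fgAdd, hA, MvPowerSeries.subst_add hp, MvPowerSeries.subst_mul hp, MvPowerSeries.subst_X hp,
      MvPowerSeries.subst_X hp] at h
    simp only [Matrix.cons_val_zero, Matrix.cons_val_one, Matrix.cons_val_fin_one] at h
    exact eq_neg_of_add_eq_zero_left h
  intro n
  induction n using Nat.strong_induction_on with
  | _ n ih =>
    cases n with
    | zero =>
      simp
    | succ m =>
      -- truncate
      set ι' : PowerSeries K := PowerSeries.mk fun i => if i ≤ m then PowerSeries.coeff i (fgInv F) else 0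
        with hι'
      have hι'int : IsInt ι' := by
        intro i
        rw [hι', PowerSeries.coeff_mk]
        split_ifs with hi
        · exact ih i (by omega)
        · simp
      have hι'0 : PowerSeries.constantCoeff ι' = 0 := by
        rw [← PowerSeries.coeff_zero_eq_constantCoeff_apply, hι', PowerSeries.coeff_mk]
        simp
      have hdvd : (PowerSeries.X : PowerSeries K) ^ (m + 1) ∣ fgInv F - ι' := by
        rw [PowerSeries.X_pow_dvd_iff]
        intro i hi
        rw [map_sub, hι', PowerSeries.coeff_mk, if_pos (by omega), sub_self]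
      have hp' := hasSubst_pair hX (PowerSeries.HasSubst.of_constantCoeff_zero' hι'0)
      have hp := hasSubst_pair hX (hasSubst_fgInv F)
      have hcong := subst_congr_X_pow hp hp' (m + 1) (by
        intro s; fin_cases s
        · simp
        · exact hdvd) A
      obtain ⟨c, hc⟩ := hcong
      have h1 : PowerSeries.coeff (m + 1) (fgInv F) =
          PowerSeries.coeff (m + 1) (- (PowerSeries.X * (A.subst ![PowerSeries.X (R := K), ι'] : PowerSeries K))) := by
        conv_lhs => rw [key]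
        rw [map_neg, map_neg, neg_inj, PowerSeries.coeff_succ_X_mul, PowerSeries.coeff_succ_X_mul]
        have h5 := congrArg (PowerSeries.coeff m) hc
        rw [map_sub, sub_eq_iff_eq_add] at h5
        rw [h5, PowerSeries.coeff_X_pow_mul', if_neg (by omega), zero_add]
      rw [h1]
      have hint : IsInt (- (PowerSeries.X * (A.subst ![PowerSeries.X (R := K), ι'] : PowerSeries K))) := by
        refine (isInt_X.mul (isB_one_iff.1 ?_)).neg
        refine IsB.subst one_pos zero_le_one hAB ?_ ?_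
        · intro i; fin_cases i
          · exact PowerSeries.constantCoeff_X
          · exact hι'0
        · intro i; fin_cases i
          · exact isInt_X.isB
          · exact hι'int.isB
      exact hint _

/-- The inverse of a point. -/
noncomputable def ptNeg (F : FormalGroup K) (x : K) : K := ev (fgInv F) x

lemma norm_ptNeg_le (hF : IsIntLaw F) {x : K} (hx : ‖x‖ ≤ 1) : ‖ptNeg F x‖ ≤ ‖x‖ :=
  norm_ev_le (isInt_fgInv hF) (constantCoeff_fgInv F) hx

lemma norm_ptNeg_lt (hF : IsIntLaw F) {x : K} (hx : ‖x‖ < 1) : ‖ptNeg F x‖ < 1 :=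
  (norm_ptNeg_le hF hx.le).trans_lt hx

lemma ptAdd_ptNeg (hF : IsIntLaw F) {x : K} (hx : ‖x‖ < 1) : ptAdd F x (ptNeg F x) = 0 := by
  have h := fgAdd_X_inv F
  have h3 := evalS_fgAdd (τ := Unit) (F := F) hF (a := PowerSeries.X) (b := fgInv F) isInt_X.isB
    (isInt_fgInv hF).isB (PowerSeries.constantCoeff_X) (constantCoeff_fgInv F) (z := fun _ => x) (fun _ => hx)
  rw [h, evalS_zero, show evalS (σ := Unit) PowerSeries.X (fun _ => x) = x from ev_X x] at h3
  exact h3.symm

lemma ptNeg_ptAdd [F.IsComm] (hF : IsIntLaw F) {x : K} (hx : ‖x‖ < 1) : ptAdd F (ptNeg F x) x = 0 := by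
  rw [ptAdd_comm hF (norm_ptNeg_lt hF hx) hx, ptAdd_ptNeg hF hx]

/-- Difference of points for the law `F`. -/
noncomputable def ptSub (F : FormalGroup K) (x y : K) : K := ptAdd F x (ptNeg F y)

lemma norm_ptSub_lt (hF : IsIntLaw F) {x y : K} (hx : ‖x‖ < 1) (hy : ‖y‖ < 1) :
    ‖ptSub F x y‖ < 1 := norm_ptAdd_lt hF hx (norm_ptNeg_lt hF hy)

lemma ptSub_add [F.IsComm] (hF : IsIntLaw F) {x y : K} (hx : ‖x‖ < 1) (hy : ‖y‖ < 1) :
    ptAdd F (ptSub F x y) y = x := by
  rw [ptSub, ptAdd_assoc hF hx (norm_ptNeg_lt hF hy) hy, ptNeg_ptAdd hF hy, ptAdd_zero hF hx]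

lemma add_ptSub [F.IsComm] (hF : IsIntLaw F) {x y : K} (hx : ‖x‖ < 1) (hy : ‖y‖ < 1) :
    ptSub F (ptAdd F x y) y = x := by
  rw [ptSub, ptAdd_assoc hF hx hy (norm_ptNeg_lt hF hy), ptAdd_ptNeg hF hy, ptAdd_zero hF hx]

/-! ### The group of points of the open disc -/

/-- The open unit disc. -/
def Disc (K : Type*) [NontriviallyNormedField K] : Type _ := {x : K // ‖x‖ < 1}

/-- The group structure of the open disc attached to a commutative law with integral coefficients. -/
@[reducible] noncomputable def discGroup (F : FormalGroup K) [F.IsComm] (hF : IsIntLaw F) :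
    AddCommGroup (Disc K) :=
  letI i1 : Add (Disc K) := ⟨fun x y => ⟨ptAdd F x.1 y.1, norm_ptAdd_lt hF x.2 y.2⟩⟩
  letI i2 : Zero (Disc K) := ⟨⟨0, by simp⟩⟩
  letI i3 : Neg (Disc K) := ⟨fun x => ⟨ptNeg F x.1, norm_ptNeg_lt hF x.2⟩⟩
  letI i4 : AddGroup (Disc K) := AddGroup.ofLeftAxioms
    (fun x y z => Subtype.ext (ptAdd_assoc hF x.2 y.2 z.2))
    (fun x => Subtype.ext (zero_ptAdd hF x.2))
    (fun x => Subtype.ext (ptNeg_ptAdd hF x.2))
  { i4 with add_comm := fun x y => Subtype.ext (ptAdd_comm hF x.2 y.2) }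

lemma isInt_mulSeries (hF : IsIntLaw F) (m : ℕ) : IsInt (mulSeries F m) := by
  induction m with
  | zero => simpa using isInt_zero
  | succ m ih =>
    rw [mulSeries_succ]
    exact isB_one_iff.1 (isB_fgAdd hF ih.isB isInt_X.isB (constantCoeff_mulSeries F m)
      PowerSeries.constantCoeff_X)

lemma ev_mulSeries_succ (hF : IsIntLaw F) (m : ℕ) {x : K} (hx : ‖x‖ < 1) :
    ev (mulSeries F (m + 1)) x = ptAdd F (ev (mulSeries F m) x) x := by
  rw [mulSeries_succ]
  have := evalS_fgAdd (τ := Unit) (F := F) hF (a := mulSeries F m) (b := PowerSeries.X)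
    (isInt_mulSeries hF m).isB isInt_X.isB (constantCoeff_mulSeries F m) PowerSeries.constantCoeff_X
    (z := fun _ => x) (fun _ => hx)
  rw [show evalS (σ := Unit) PowerSeries.X (fun _ => x) = x from ev_X x] at this
  exact this

/-- `[m]` computes multiples in the disc group. -/
lemma ev_mulSeries [F.IsComm] (hF : IsIntLaw F) (m : ℕ) (x : Disc K) :
    letI := discGroup F hF
    ev (mulSeries F m) x.1 = (m • x).1 := by
  letI := discGroup F hF
  induction m with
  | zero =>
    rw [zero_nsmul, mulSeries_zero, ev_zero]; rfl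
  | succ m ih =>
    rw [ev_mulSeries_succ hF m x.2, succ_nsmul, ih]; rfl

/-- A homomorphism as a group homomorphism of disc groups is used through `ev_ptAdd`. -/
lemma ev_ptNeg [G.IsComm] {f : PowerSeries K} (h : IsFGHom F G f) (hf : IsInt f) (hF : IsIntLaw F)
    (hG : IsIntLaw G) {x : K} (hx : ‖x‖ < 1) : ev f (ptNeg F x) = ptNeg G (ev f x) := by
  have h1 := ev_ptAdd h hf hF hG hx (norm_ptNeg_lt hF hx)
  rw [ptAdd_ptNeg hF hx, ev_zero_of_cc h.1] at h1
  have hfx := norm_ev_lt_one hf h.1 hx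
  have hfn := norm_ev_lt_one hf h.1 (norm_ptNeg_lt hF hx)
  have h2 : ptNeg G (ev f x) = ptAdd G (ptNeg G (ev f x)) (ptAdd G (ev f x) (ev f (ptNeg F x))) := by
    rw [← h1, ptAdd_zero hG (norm_ptNeg_lt hG hfx)]
  rw [h2, ← ptAdd_assoc hG (norm_ptNeg_lt hG hfx) hfx hfn, ptNeg_ptAdd hG hfx, zero_ptAdd hG hfn]

lemma ev_ptSub [G.IsComm] {f : PowerSeries K} (h : IsFGHom F G f) (hf : IsInt f) (hF : IsIntLaw F)
    (hG : IsIntLaw G) {x y : K} (hx : ‖x‖ < 1) (hy : ‖y‖ < 1) :
    ev f (ptSub F x y) = ptSub G (ev f x) (ev f y) := by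
  rw [ptSub, ev_ptAdd h hf hF hG hx (norm_ptNeg_lt hF hy), ev_ptNeg h hf hF hG hy]; rfl

end

/-! ### Ring endomorphisms of `K` and evaluation -/

section
variable [CompleteSpace K]

omit [IsUltrametricDist K] [CompleteSpace K] in
lemma mval_map {σ : Type*} [Fintype σ] (φ : K →+* K) (z : σ → K) (γ : σ →₀ ℕ) :
    mval (fun i => φ (z i)) γ = φ (mval z γ) := by
  simp [mval, map_prod, map_pow]

/-- Evaluation is compatible with a continuous ring endomorphism, when the series is summable at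
`z`. -/
lemma evalS_map {σ : Type*} [Fintype σ] (φ : K →+* K) (hφ : Continuous φ) {A : MvPowerSeries σ K}
    {ε C : ℝ} (hε : 0 < ε) (hA : IsB ε C A) {z : σ → K} (hz : ∀ i, ‖z i‖ < ε) :
    evalS (MvPowerSeries.map φ A) (fun i => φ (z i)) = φ (evalS A z) := by
  have hs := summable_eval' hε hA hz
  rw [evalS, evalS, hs.map_tsum φ hφ]
  refine tsum_congr fun γ => ?_
  rw [MvPowerSeries.coeff_map, mval_map, map_mul]

end

end Crest.Agent.LT
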