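/-
S0351 T13 foundations: identity principle, order lemma, block order lemma, partial evaluation,
analytic functions at a point (`AnAt`) with composition.
-/
import Crest.Agent.Lib.LT.EvalOne

set_option autoImplicit false
set_option linter.unusedSectionVars false
set_option linter.unusedVariables false
set_option linter.unnecessarySimpa false

namespace Crest.Agent.LT

open MvPowerSeries Filter Topology

variable {K : Type*} [NontriviallyNormedField K] [IsUltrametricDist K] [CompleteSpace K]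
variable {σ : Type*} [Fintype σ]

section block

/-- weight of a multi-index on the block `B` -/
def wtB (B : Finset σ) (γ : σ →₀ ℕ) : ℕ := ∑ i ∈ B, γ i

omit [Fintype σ] in
lemma wtB_add (B : Finset σ) (γ δ : σ →₀ ℕ) : wtB B (γ + δ) = wtB B γ + wtB B δ := by
  simp [wtB, Finset.sum_add_distrib]

open Classical in
/-- part of a series of `B`-weight `m` -/
noncomputable def partB (B : Finset σ) (m : ℕ) (f : MvPowerSeries σ K) : MvPowerSeries σ K :=
  fun γ => if wtB B γ = m then coeff γ f else 0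

open Classical in
omit [IsUltrametricDist K] [CompleteSpace K] [Fintype σ] in
lemma coeff_partB (B : Finset σ) (m : ℕ) (f : MvPowerSeries σ K) (γ : σ →₀ ℕ) :
    coeff γ (partB B m f) = if wtB B γ = m then coeff γ f else 0 := rfl

omit [IsUltrametricDist K] [CompleteSpace K] in
lemma IsB.partB {ε C : ℝ} (hC : 0 ≤ C) {f : MvPowerSeries σ K} (hf : IsB ε C f) (B : Finset σ) (m : ℕ) :
    IsB ε C (partB B m f) := by
  classical
  intro γ
  rw [coeff_partB]
  split_ifs
  · exact hf γ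
  · simpa using hC

open Classical in
/-- scale the `B`-variables by `t` -/
noncomputable def scaleB (B : Finset σ) (t : K) (z : σ → K) : σ → K :=
  fun i => if i ∈ B then t * z i else z i

omit [IsUltrametricDist K] [CompleteSpace K] in
lemma mval_scaleB (B : Finset σ) (t : K) (z : σ → K) (γ : σ →₀ ℕ) :
    mval (scaleB B t z) γ = t ^ wtB B γ * mval z γ := by
  classical
  simp only [mval, scaleB, wtB]
  have h1 : ∀ i, (if i ∈ B then t * z i else z i) ^ γ i =
      (if i ∈ B then t ^ γ i else 1) * z i ^ γ i := by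
    intro i
    split_ifs
    · rw [mul_pow]
    · rw [one_mul]
  simp only [h1, Finset.prod_mul_distrib]
  congr 1
  rw [Finset.prod_ite_mem, Finset.univ_inter, Finset.prod_pow_eq_pow_sum]

/-- Extraction of the lowest `B`-weight part by scaling. -/
theorem block_extract {f : MvPowerSeries σ K} {ε C₀ : ℝ} (hε : 0 < ε) (hf : IsB ε C₀ f)
    (B : Finset σ) (m : ℕ) (h0 : ∀ γ, wtB B γ < m → coeff γ f = 0) {t : K} (ht : ‖t‖ ≤ 1) {z : σ → K}
    (hz : ∀ i, ‖z i‖ < ε) :
    ‖evalS f (scaleB B t z) - t ^ m * evalS (partB B m f) z‖ ≤ C₀ * ‖t‖ ^ (m + 1) := by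
  classical
  have hC₀ := hf.nonneg hε.le
  have hzs : ∀ i, ‖scaleB B t z i‖ < ε := by
    intro i
    simp only [scaleB]
    split_ifs
    · rw [norm_mul]
      calc ‖t‖ * ‖z i‖ ≤ 1 * ‖z i‖ := by gcongr
        _ < ε := by rw [one_mul]; exact hz i
    · exact hz i
  have hs1 := summable_eval' hε hf hzs
  have hs2 := summable_eval' hε (hf.partB hC₀ B m) hz
  rw [evalS, evalS, ← tsum_mul_left, ← hs1.tsum_sub (hs2.mul_left _)]
  refine IsUltrametricDist.norm_tsum_le_of_forall_le_of_nonneg (by positivity) fun γ => ?_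
  rw [mval_scaleB, coeff_partB]
  rcases lt_trichotomy (wtB B γ) m with hlt | heq | hgt
  · rw [h0 γ hlt, if_neg (by omega)]
    simp; positivity
  · rw [if_pos heq, heq]
    have e : coeff γ f * (t ^ m * mval z γ) - t ^ m * (coeff γ f * mval z γ) = 0 := by ring
    rw [e, norm_zero]
    positivity
  · rw [if_neg (by omega)]
    simp only [zero_mul, mul_zero, sub_zero, norm_mul, norm_pow]
    have hz' : ∀ i, ‖z i‖ ≤ ε := fun i => (hz i).le
    have h1 : ‖coeff γ f‖ * ‖mval z γ‖ ≤ C₀ := by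
      calc _ ≤ ‖coeff γ f‖ * ε ^ Finsupp.degree γ := by
            gcongr; exact norm_mval_le hε.le hz' γ
        _ ≤ C₀ := hf γ
    have h2 : ‖t‖ ^ wtB B γ ≤ ‖t‖ ^ (m + 1) := pow_le_pow_of_le_one (norm_nonneg _) ht (by omega)
    calc ‖coeff γ f‖ * (‖t‖ ^ wtB B γ * ‖mval z γ‖)
        = ‖t‖ ^ wtB B γ * (‖coeff γ f‖ * ‖mval z γ‖) := by ring
      _ ≤ ‖t‖ ^ (m + 1) * C₀ := by gcongr
      _ = _ := by ring

/-- **Identity principle**: a bounded series vanishing near the origin is zero. -/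
theorem eq_zero_of_evalS_zero {f : MvPowerSeries σ K} {ε C₀ δ : ℝ} (hε : 0 < ε) (hδ : 0 < δ)
    (hf : IsB ε C₀ f) (h : ∀ z : σ → K, (∀ i, ‖z i‖ < δ) → evalS f z = 0) : f = 0 := by
  classical
  have hC₀ := hf.nonneg hε.le
  by_contra hne
  have hex : ∃ m, ∃ γ, Finsupp.degree γ = m ∧ coeff γ f ≠ 0 := by
    by_contra hcon
    apply hne
    ext γ
    by_contra hγ
    exact hcon ⟨_, γ, rfl, hγ⟩
  set m := Nat.find hex with hm
  obtain ⟨γ₀, hγ₀, hne₀⟩ := Nat.find_spec hex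
  have hmin : ∀ γ, Finsupp.degree γ < m → coeff γ f = 0 := by
    intro γ hγ
    by_contra hc
    exact Nat.find_min hex hγ ⟨γ, rfl, hc⟩
  have hwt : ∀ γ : σ →₀ ℕ, wtB Finset.univ γ = Finsupp.degree γ := fun γ => by
    rw [degree_eq_sum]; rfl
  -- the polynomial
  let S : Finset (σ →₀ ℕ) := ((finite_degree_le (σ := σ) m).toFinset).filter (fun γ => Finsupp.degree γ = m)
  have hSmem : ∀ γ, γ ∈ S ↔ Finsupp.degree γ = m := by
    intro γ
    simp only [S, Finset.mem_filter, Set.Finite.mem_toFinset, Set.mem_ofPred_eq]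
    constructor
    · exact fun h => h.2
    · exact fun h => ⟨h.le, h⟩
  let q : MvPolynomial σ K := ∑ γ ∈ S, MvPolynomial.monomial γ (coeff γ f)
  have hqcoeff : MvPolynomial.coeff γ₀ q = coeff γ₀ f := by
    simp only [q, MvPolynomial.coeff_sum, MvPolynomial.coeff_monomial]
    rw [Finset.sum_eq_single γ₀]
    · simp
    · intro b _ hb; simp [hb]
    · intro hc; exact (hc ((hSmem _).2 hγ₀)).elim
  have hq0 : q ≠ 0 := by
    intro h0
    rw [h0] at hqcoeff
    simp at hqcoeff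
    exact hne₀ hqcoeff.symm
  obtain ⟨a, ha⟩ : ∃ a : σ → K, MvPolynomial.eval a q ≠ 0 := by
    by_contra hcon
    apply hq0
    apply MvPolynomial.funext
    intro x
    by_contra hx
    exact hcon ⟨x, by simpa using hx⟩
  have hevq : MvPolynomial.eval a q = ∑ γ ∈ S, coeff γ f * mval a γ := by
    simp only [q, map_sum, MvPolynomial.eval_monomial]
    refine Finset.sum_congr rfl fun γ _ => ?_
    rw [Finsupp.prod_fintype _ _ (fun i => pow_zero _)]
    rfl
  -- the part as a finite sum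
  have hpart : ∀ z : σ → K, evalS (partB Finset.univ m f) z = ∑ γ ∈ S, coeff γ f * mval z γ := by
    intro z
    rw [evalS, tsum_eq_sum (s := S)]
    · refine Finset.sum_congr rfl fun γ hγ => ?_
      rw [coeff_partB, if_pos]
      rw [hwt]; exact (hSmem γ).1 hγ
    · intro γ hγ
      rw [coeff_partB, if_neg, zero_mul]
      rw [hwt]; exact fun h => hγ ((hSmem γ).2 h)
  -- scale `a` into the small polydisc
  obtain ⟨R, hR⟩ : ∃ R : ℝ, 0 < R ∧ ∀ i, ‖a i‖ ≤ R := by
    refine ⟨1 + ∑ i, ‖a i‖, by positivity, fun i => ?_⟩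
    have : ‖a i‖ ≤ ∑ i, ‖a i‖ := Finset.single_le_sum (f := fun i => ‖a i‖) (fun _ _ => norm_nonneg _) (Finset.mem_univ i)
    linarith
  obtain ⟨hR0, hR1⟩ := hR
  obtain ⟨s, hs0, hs1⟩ := NormedField.exists_norm_lt K (show 0 < min δ ε / R / 2 by positivity)
  have hs0' : s ≠ 0 := norm_pos_iff.1 hs0
  set z₀ : σ → K := fun i => s * a i with hz₀
  have hz₀lt : ∀ i, ‖z₀ i‖ < min δ ε := by
    intro i
    simp only [hz₀, norm_mul]
    have h1 : ‖s‖ * R < min δ ε := by
      have : ‖s‖ < min δ ε / R := by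
        have h2 : min δ ε / R / 2 < min δ ε / R := by
          have : 0 < min δ ε / R := by positivity
          linarith
        linarith
      rwa [lt_div_iff₀ hR0] at this
    calc ‖s‖ * ‖a i‖ ≤ ‖s‖ * R := by gcongr; exact hR1 i
      _ < _ := h1
  have hP : evalS (partB Finset.univ m f) z₀ ≠ 0 := by
    rw [hpart]
    have : ∑ γ ∈ S, coeff γ f * mval z₀ γ = s ^ m * MvPolynomial.eval a q := by
      rw [hevq, Finset.mul_sum]
      refine Finset.sum_congr rfl fun γ hγ => ?_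
      have h1 := mval_scaleB (Finset.univ : Finset σ) s a γ
      have h2 : scaleB (Finset.univ : Finset σ) s a = z₀ := by
        funext i; simp [scaleB, hz₀]
      rw [h2, hwt, (hSmem γ).1 hγ] at h1
      rw [h1]; ring
    rw [this]
    exact mul_ne_zero (pow_ne_zero _ hs0') ha
  -- contradiction by letting `t → 0`
  set P := evalS (partB Finset.univ m f) z₀ with hPdef
  have hPpos : 0 < ‖P‖ := norm_pos_iff.2 hP
  obtain ⟨t, ht0, ht1⟩ := NormedField.exists_norm_lt K (show 0 < min 1 (‖P‖ / (C₀ + 1)) by positivity)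
  have ht01 : ‖t‖ ≤ 1 := (lt_of_lt_of_le ht1 (min_le_left _ _)).le
  have ht2 : ‖t‖ < ‖P‖ / (C₀ + 1) := lt_of_lt_of_le ht1 (min_le_right _ _)
  have hz₀ε : ∀ i, ‖z₀ i‖ < ε := fun i => lt_of_lt_of_le (hz₀lt i) (min_le_right _ _)
  have hz₀δ : ∀ i, ‖z₀ i‖ < δ := fun i => lt_of_lt_of_le (hz₀lt i) (min_le_left _ _)
  have hext := block_extract hε hf Finset.univ m (fun γ hγ => hmin γ (by rwa [hwt] at hγ)) ht01 hz₀ε
  have hzt : evalS f (scaleB Finset.univ t z₀) = 0 := by
    apply h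
    intro i
    simp only [scaleB, Finset.mem_univ, if_true, norm_mul]
    calc ‖t‖ * ‖z₀ i‖ ≤ 1 * ‖z₀ i‖ := by gcongr
      _ < δ := by rw [one_mul]; exact hz₀δ i
  rw [hzt, zero_sub, norm_neg, norm_mul, norm_pow, pow_succ] at hext
  have htm : 0 < ‖t‖ ^ m := pow_pos ht0 _
  have h5 : ‖t‖ ^ m * ‖P‖ ≤ ‖t‖ ^ m * (C₀ * ‖t‖) := by
    calc _ ≤ C₀ * (‖t‖ ^ m * ‖t‖) := hext
      _ = _ := by ring
  have h6 := le_of_mul_le_mul_left h5 htm
  have h7 : ‖t‖ * (C₀ + 1) < ‖P‖ := by rwa [lt_div_iff₀ (by positivity)] at ht2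
  nlinarith

/-- **Block order lemma.** A bounded series with `|f(z)| ≤ C |z|_B^N` near the origin has no monomial of
`B`-weight `< N`. -/
theorem coeff_eq_zero_of_block_bound {f : MvPowerSeries σ K} {ε C₀ δ C : ℝ} (hε : 0 < ε) (hδ : 0 < δ)
    (hf : IsB ε C₀ f) (B : Finset σ) (N : ℕ) (hC : 0 ≤ C)
    (hb : ∀ (z : σ → K) (ρ : ℝ), (∀ i, ‖z i‖ < δ) → 0 ≤ ρ → (∀ i ∈ B, ‖z i‖ ≤ ρ) →
      ‖evalS f z‖ ≤ C * ρ ^ N) :
    ∀ γ, wtB B γ < N → coeff γ f = 0 := by
  classical
  have hC₀ := hf.nonneg hε.le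
  by_contra hcon
  have hcon' : ∃ γ, wtB B γ < N ∧ coeff γ f ≠ 0 := by
    by_contra hc
    apply hcon
    intro γ hγ
    by_contra hc2
    exact hc ⟨γ, hγ, hc2⟩
  have hex : ∃ m, ∃ γ, wtB B γ = m ∧ coeff γ f ≠ 0 := by
    obtain ⟨γ, _, h⟩ := hcon'
    exact ⟨_, γ, rfl, h⟩
  set m := Nat.find hex with hm
  obtain ⟨γ₀, hγ₀, hne₀⟩ := Nat.find_spec hex
  have hmN : m < N := by
    obtain ⟨γ, h1, h2⟩ := hcon'
    exact lt_of_le_of_lt (Nat.find_min' hex ⟨γ, rfl, h2⟩) h1
  have hmin : ∀ γ, wtB B γ < m → coeff γ f = 0 := by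
    intro γ hγ
    by_contra hc
    exact Nat.find_min hex hγ ⟨γ, rfl, hc⟩
  have hP0 : partB B m f ≠ 0 := by
    intro h0
    have : coeff γ₀ (partB B m f) = 0 := by rw [h0]; simp
    rw [coeff_partB, if_pos hγ₀] at this
    exact hne₀ this
  -- a point where `P ≠ 0`
  obtain ⟨z₀, hz₀, hz₀P⟩ : ∃ z₀ : σ → K, (∀ i, ‖z₀ i‖ < min δ ε) ∧ evalS (partB B m f) z₀ ≠ 0 := by
    by_contra hc
    apply hP0
    refine eq_zero_of_evalS_zero hε (show 0 < min δ ε by positivity) (hf.partB hC₀ B m) fun z hz => ?_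
    by_contra hz2
    exact hc ⟨z, hz, hz2⟩
  set P := evalS (partB B m f) z₀ with hPdef
  have hPpos : 0 < ‖P‖ := norm_pos_iff.2 hz₀P
  have hz₀ε : ∀ i, ‖z₀ i‖ < ε := fun i => lt_of_lt_of_le (hz₀ i) (min_le_right _ _)
  have hz₀δ : ∀ i, ‖z₀ i‖ < δ := fun i => lt_of_lt_of_le (hz₀ i) (min_le_left _ _)
  -- `δ` bound for the `B`-variables
  have hD : 0 ≤ δ := hδ.le
  -- small `t`
  set D := C * δ ^ N + C₀ + 1 with hDdef
  have hDpos : 0 < D := by positivity
  obtain ⟨t, ht0, ht1⟩ := NormedField.exists_norm_lt K (show 0 < min 1 (‖P‖ / D) by positivity)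
  have ht01 : ‖t‖ ≤ 1 := (lt_of_lt_of_le ht1 (min_le_left _ _)).le
  have ht2 : ‖t‖ < ‖P‖ / D := lt_of_lt_of_le ht1 (min_le_right _ _)
  have hext := block_extract hε hf B m hmin ht01 hz₀ε
  have hztlt : ∀ i, ‖scaleB B t z₀ i‖ < δ := by
    intro i
    simp only [scaleB]
    split_ifs
    · rw [norm_mul]
      calc ‖t‖ * ‖z₀ i‖ ≤ 1 * ‖z₀ i‖ := by gcongr
        _ < δ := by rw [one_mul]; exact hz₀δ i
    · exact hz₀δ i
  have hbd := hb (scaleB B t z₀) (‖t‖ * δ) hztlt (by positivity) (fun i hi => by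
    simp only [scaleB, if_pos hi, norm_mul]
    exact mul_le_mul_of_nonneg_left (hz₀δ i).le (norm_nonneg _))
  -- combine
  have h1 : ‖t ^ m * P‖ ≤ max ‖evalS f (scaleB B t z₀)‖
      ‖evalS f (scaleB B t z₀) - t ^ m * P‖ := by
    have e : t ^ m * P = evalS f (scaleB B t z₀) + -(evalS f (scaleB B t z₀) - t ^ m * P) := by ring
    have h := IsUltrametricDist.norm_add_le_max (evalS f (scaleB B t z₀))
      (-(evalS f (scaleB B t z₀) - t ^ m * P))
    rwa [← e, norm_neg] at h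
  rw [norm_mul, norm_pow] at h1
  have htm : 0 < ‖t‖ ^ m := pow_pos ht0 _
  have hfinal : ‖t‖ ^ m * ‖P‖ ≤ ‖t‖ ^ m * (D * ‖t‖) := by
    refine h1.trans (max_le ?_ ?_)
    · refine hbd.trans ?_
      have e1 : C * (‖t‖ * δ) ^ N = C * δ ^ N * ‖t‖ ^ N := by rw [mul_pow]; ring
      rw [e1]
      have e2 : ‖t‖ ^ N ≤ ‖t‖ ^ (m + 1) := pow_le_pow_of_le_one (norm_nonneg _) ht01 (by omega)
      have e3 : 0 ≤ C * δ ^ N := by positivity
      calc C * δ ^ N * ‖t‖ ^ N ≤ C * δ ^ N * ‖t‖ ^ (m + 1) := by gcongr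
        _ = ‖t‖ ^ m * ((C * δ ^ N) * ‖t‖) := by rw [pow_succ]; ring
        _ ≤ _ := by
          apply mul_le_mul_of_nonneg_left _ htm.le
          apply mul_le_mul_of_nonneg_right _ ht0.le
          rw [hDdef]; linarith
    · refine hext.trans ?_
      rw [pow_succ]
      calc C₀ * (‖t‖ ^ m * ‖t‖) = ‖t‖ ^ m * (C₀ * ‖t‖) := by ring
        _ ≤ _ := by
          apply mul_le_mul_of_nonneg_left _ htm.le
          apply mul_le_mul_of_nonneg_right _ ht0.le
          rw [hDdef]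
          have : 0 ≤ C * δ ^ N := by positivity
          linarith
  have h6 := le_of_mul_le_mul_left hfinal htm
  have h7 : ‖t‖ * D < ‖P‖ := by rwa [lt_div_iff₀ hDpos] at ht2
  nlinarith

/-- The order lemma: `|f z| ≤ C |z|^N` near `0` implies `f` has order `≥ N`. -/
theorem coeff_eq_zero_of_bound {f : MvPowerSeries σ K} {ε C₀ δ C : ℝ} (hε : 0 < ε) (hδ : 0 < δ)
    (hf : IsB ε C₀ f) (N : ℕ) (hC : 0 ≤ C)
    (hb : ∀ (z : σ → K) (ρ : ℝ), (∀ i, ‖z i‖ < δ) → 0 ≤ ρ → (∀ i, ‖z i‖ ≤ ρ) → ‖evalS f z‖ ≤ C * ρ ^ N) :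
    ∀ γ, Finsupp.degree γ < N → coeff γ f = 0 := by
  intro γ hγ
  refine coeff_eq_zero_of_block_bound hε hδ hf Finset.univ N hC
    (fun z ρ hz hρ hzρ => hb z ρ hz hρ fun i => hzρ i (Finset.mem_univ i)) γ ?_
  have : wtB Finset.univ γ = Finsupp.degree γ := by rw [degree_eq_sum]; rfl
  rwa [this]

end block

section shrink

/-- A bounded series with zero constant term has arbitrarily small Gauss norm on a small radius. -/
lemma IsB.exists_shrink {ε C : ℝ} {f : MvPowerSeries σ K} (hε : 0 < ε) (hf : IsB ε C f)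
    (h0 : constantCoeff f = 0) {η : ℝ} (hη : 0 < η) : ∃ ε', 0 < ε' ∧ ε' ≤ ε ∧ IsB ε' η f := by
  classical
  have hC := hf.nonneg hε.le
  set r := min 1 (η / (C + 1)) with hr
  have hr0 : 0 < r := by positivity
  have hr1 : r ≤ 1 := min_le_left _ _
  have hr2 : r * (C + 1) ≤ η := by
    have : r ≤ η / (C + 1) := min_le_right _ _
    rwa [le_div_iff₀ (by positivity)] at this
  refine ⟨ε * r, by positivity, by nlinarith, fun γ => ?_⟩
  by_cases hγ : γ = 0
  · subst hγ
    rw [coeff_zero_eq_constantCoeff_apply, h0]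
    simp; exact hη.le
  · have hd : 1 ≤ Finsupp.degree γ := by
      by_contra hc
      have : Finsupp.degree γ = 0 := by omega
      exact hγ ((Finsupp.degree_eq_zero_iff γ).1 this)
    have h1 := hf γ
    rw [mul_pow, ← mul_assoc]
    have h2 : r ^ Finsupp.degree γ ≤ r := by
      calc r ^ Finsupp.degree γ ≤ r ^ 1 := pow_le_pow_of_le_one hr0.le hr1 hd
        _ = r := pow_one r
    calc ‖coeff γ f‖ * ε ^ Finsupp.degree γ * r ^ Finsupp.degree γ ≤ C * r := by
          apply mul_le_mul h1 h2 (by positivity) hC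
      _ ≤ η := by nlinarith

/-- Common shrink for a finite family. -/
lemma exists_shrink_family {τ : Type*} [Fintype τ] {ε C : τ → ℝ} {G : τ → MvPowerSeries σ K}
    (hε : ∀ i, 0 < ε i) (hG : ∀ i, IsB (ε i) (C i) (G i)) (h0 : ∀ i, constantCoeff (G i) = 0) {η : ℝ}
    (hη : 0 < η) : ∃ ε', 0 < ε' ∧ ∀ i, ε' ≤ ε i ∧ IsB ε' η (G i) := by
  classical
  have hex : ∀ i, ∃ ε', 0 < ε' ∧ ε' ≤ ε i ∧ IsB ε' η (G i) := fun i =>
    (hG i).exists_shrink (hε i) (h0 i) hη
  choose e he0 he1 he2 using hex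
  by_cases hτ : Nonempty τ
  · obtain ⟨i₀, -, hi₀⟩ := Finset.exists_min_image (Finset.univ : Finset τ) e ⟨hτ.some, Finset.mem_univ _⟩
    exact ⟨e i₀, he0 _, fun i => ⟨(hi₀ i (Finset.mem_univ i)).trans (he1 i),
      (he2 i).shrink (he0 _).le (hi₀ i (Finset.mem_univ i))⟩⟩
  · exact ⟨1, one_pos, fun i => (hτ ⟨i⟩).elim⟩

end shrink

section analytic

variable {ζ : Type*} [Fintype ζ]

/-- `f` is given near `z` by a bounded series in `w = · - z`. -/
def AnAt (f : (ζ → K) → K) (z : ζ → K) : Prop :=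
  ∃ (g : MvPowerSeries ζ K) (ε C : ℝ), 0 < ε ∧ IsB ε C g ∧
    ∀ w : ζ → K, (∀ i, ‖w i‖ < ε) → f (fun i => z i + w i) = evalS g w

lemma anAt_evalS {g : MvPowerSeries ζ K} {ε C : ℝ} (hε : 0 < ε) (hg : IsB ε C g) {z : ζ → K}
    (hz : ∀ i, ‖z i‖ < ε) : AnAt (evalS g) z := by
  refine ⟨shift z g, ε, C, hε, hg.shift hε fun i => (hz i).le, fun w hw => ?_⟩
  rw [evalS_shift hε hg hz hw]
  rfl

lemma anAt_const (a : K) (z : ζ → K) : AnAt (fun _ => a) z :=
  ⟨C a, 1, ‖a‖, one_pos, isB_C 1 zero_le_one a, fun w _ => (evalS_C a w).symm⟩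

lemma AnAt.congr {f f' : (ζ → K) → K} {z : ζ → K} (hf : AnAt f z) {δ : ℝ} (hδ : 0 < δ)
    (h : ∀ w : ζ → K, (∀ i, ‖w i‖ < δ) → f' (fun i => z i + w i) = f (fun i => z i + w i)) :
    AnAt f' z := by
  obtain ⟨g, ε, C, hε, hg, he⟩ := hf
  have hC := hg.nonneg hε.le
  refine ⟨g, min ε δ, C, by positivity, hg.shrink (by positivity) (min_le_left _ _), fun w hw => ?_⟩
  rw [h w fun i => lt_of_lt_of_le (hw i) (min_le_right _ _)]
  exact he w fun i => lt_of_lt_of_le (hw i) (min_le_left _ _)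

lemma AnAt.value {f : (ζ → K) → K} {z : ζ → K} {g : MvPowerSeries ζ K} {ε : ℝ} (hε : 0 < ε)
    (he : ∀ w : ζ → K, (∀ i, ‖w i‖ < ε) → f (fun i => z i + w i) = evalS g w) :
    constantCoeff g = f z := by
  have h := he 0 (fun i => by simpa using hε)
  have h0 : (fun i => z i + (0 : ζ → K) i) = z := by funext i; simp
  rw [h0] at h
  rw [h]
  rw [evalS, tsum_eq_single 0]
  · simp
  · intro γ hγ
    have : mval (0 : ζ → K) γ = 0 := by
      obtain ⟨i, hi⟩ : ∃ i, γ i ≠ 0 := by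
        by_contra hc
        push Not at hc
        exact hγ (Finsupp.ext hc)
      simp only [mval]
      apply Finset.prod_eq_zero (Finset.mem_univ i)
      simp [hi]
    rw [this, mul_zero]

lemma AnAt.add {f f' : (ζ → K) → K} {z : ζ → K} (hf : AnAt f z) (hf' : AnAt f' z) :
    AnAt (fun x => f x + f' x) z := by
  obtain ⟨g, ε, C, hε, hg, he⟩ := hf
  obtain ⟨g', ε', C', hε', hg', he'⟩ := hf'
  have hC := hg.nonneg hε.le
  have hC' := hg'.nonneg hε'.le
  have hm : 0 < min ε ε' := by positivity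
  have h1 : IsB (min ε ε') (max C C') g :=
    (hg.shrink hm.le (min_le_left _ _)).mono (le_max_left _ _)
  have h2 : IsB (min ε ε') (max C C') g' :=
    (hg'.shrink hm.le (min_le_right _ _)).mono (le_max_right _ _)
  refine ⟨g + g', min ε ε', max C C', hm, h1.add h2 hm.le, fun w hw => ?_⟩
  show f (fun i => z i + w i) + f' (fun i => z i + w i) = _
  rw [he w fun i => lt_of_lt_of_le (hw i) (min_le_left _ _),
    he' w fun i => lt_of_lt_of_le (hw i) (min_le_right _ _), evalS_add hm h1 h2 hw]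

lemma AnAt.neg {f : (ζ → K) → K} {z : ζ → K} (hf : AnAt f z) : AnAt (fun x => - f x) z := by
  obtain ⟨g, ε, C, hε, hg, he⟩ := hf
  refine ⟨-g, ε, C, hε, hg.neg, fun w hw => ?_⟩
  show - f (fun i => z i + w i) = _
  rw [he w hw, evalS_neg]

lemma AnAt.sub {f f' : (ζ → K) → K} {z : ζ → K} (hf : AnAt f z) (hf' : AnAt f' z) :
    AnAt (fun x => f x - f' x) z := by
  simpa [sub_eq_add_neg] using hf.add hf'.neg

lemma AnAt.mul {f f' : (ζ → K) → K} {z : ζ → K} (hf : AnAt f z) (hf' : AnAt f' z) :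
    AnAt (fun x => f x * f' x) z := by
  obtain ⟨g, ε, C, hε, hg, he⟩ := hf
  obtain ⟨g', ε', C', hε', hg', he'⟩ := hf'
  have hC := hg.nonneg hε.le
  have hC' := hg'.nonneg hε'.le
  have hm : 0 < min ε ε' := by positivity
  have h1 : IsB (min ε ε') C g := hg.shrink hm.le (min_le_left _ _)
  have h2 : IsB (min ε ε') C' g' := hg'.shrink hm.le (min_le_right _ _)
  refine ⟨g * g', min ε ε', C * C', hm, h1.mul h2 hm.le, fun w hw => ?_⟩
  show f (fun i => z i + w i) * f' (fun i => z i + w i) = _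
  rw [he w fun i => lt_of_lt_of_le (hw i) (min_le_left _ _),
    he' w fun i => lt_of_lt_of_le (hw i) (min_le_right _ _), evalS_mul hm h1 h2 hw]

lemma AnAt.pow {f : (ζ → K) → K} {z : ζ → K} (hf : AnAt f z) (n : ℕ) : AnAt (fun x => f x ^ n) z := by
  induction n with
  | zero => simpa using anAt_const (1 : K) z
  | succ n ih => simpa [pow_succ] using ih.mul hf

lemma anAt_coord (i : ζ) (z : ζ → K) : AnAt (fun x => x i) z := by
  have h1 : IsB (1 : ℝ) (max ‖z i‖ 1) (C (z i) : MvPowerSeries ζ K) :=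
    (isB_C 1 zero_le_one (z i)).mono (le_max_left _ _)
  have h2 : IsB (1 : ℝ) (max ‖z i‖ 1) (X i : MvPowerSeries ζ K) :=
    (isB_X 1 zero_le_one i).mono (le_max_right _ _)
  refine ⟨C (z i) + X i, 1, max ‖z i‖ 1, one_pos, h1.add h2 zero_le_one, fun w hw => ?_⟩
  rw [evalS_add one_pos h1 h2 hw, evalS_C, evalS_X]

/-- Composition of analytic functions. -/
theorem AnAt.comp {τ : Type*} [Fintype τ] {f : (τ → K) → K} {G : τ → (ζ → K) → K} {a : ζ → K}
    (hG : ∀ i, AnAt (G i) a) (hf : AnAt f (fun i => G i a)) :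
    AnAt (fun z => f (fun i => G i z)) a := by
  classical
  obtain ⟨g, ε, Cg, hε, hg, he⟩ := hf
  have hC := hg.nonneg hε.le
  have hex : ∀ i, ∃ (g' : MvPowerSeries ζ K) (ε' C' : ℝ), 0 < ε' ∧ IsB ε' C' g' ∧
      ∀ w : ζ → K, (∀ j, ‖w j‖ < ε') → G i (fun j => a j + w j) = evalS g' w := hG
  choose Gs εs Cs hεs hGs heG using hex
  -- subtract the constant terms
  set Gt : τ → MvPowerSeries ζ K := fun i => Gs i - C (constantCoeff (Gs i)) with hGt
  have hGt0 : ∀ i, constantCoeff (Gt i) = 0 := by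
    intro i; simp [hGt]
  have hCs : ∀ i, 0 ≤ Cs i := fun i => (hGs i).nonneg (hεs i).le
  have hGtB : ∀ i, IsB (εs i) (Cs i) (Gt i) := by
    intro i
    apply (hGs i).sub ?_ (hεs i).le
    have h1 := isB_C (σ := ζ) (εs i) (hεs i).le (constantCoeff (Gs i))
    refine h1.mono ?_
    have h2 := hGs i 0
    simpa using h2
  obtain ⟨ε₁, hε₁, hε₁'⟩ := exists_shrink_family hεs hGtB hGt0 (show 0 < ε / 2 by positivity)
  have hg' : IsB (ε / 2) Cg g := hg.shrink (by positivity) (by linarith)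
  refine ⟨g.subst Gt, ε₁, Cg, hε₁, IsB.subst hε₁ (by positivity) hg' hGt0 (fun i => (hε₁' i).2), fun w hw => ?_⟩
  rw [evalS_subst hε₁ (by positivity) hg' hGt0 (fun i => (hε₁' i).2) hw]
  have hval : ∀ i, constantCoeff (Gs i) = G i a := fun i => AnAt.value (hεs i) (heG i)
  have hGw : ∀ i, G i (fun j => a j + w j) = G i a + evalS (Gt i) w := by
    intro i
    have hwi : ∀ j, ‖w j‖ < εs i := fun j => lt_of_lt_of_le (hw j) (hε₁' i).1
    rw [heG i w hwi]
    have hc : IsB (εs i) (max (Cs i) (Cs i)) (C (constantCoeff (Gs i)) : MvPowerSeries ζ K) := by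
      have h1 := isB_C (σ := ζ) (εs i) (hεs i).le (constantCoeff (Gs i))
      refine h1.mono ?_
      have h2 := hGs i 0
      simpa using h2
    have hmax : max (Cs i) (Cs i) = Cs i := max_self _
    rw [hmax] at hc
    rw [hGt, evalS_sub (hεs i) (hGs i) hc hwi, evalS_C, hval i]
    ring
  have hsmall : ∀ i, ‖evalS (Gt i) w‖ < ε := by
    intro i
    have h1 := norm_evalS_le hε₁ (hε₁' i).2 (z := w) (fun j => (hw j).le)
    linarith
  have := he (fun i => evalS (Gt i) w) hsmall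
  simp only [hGw]
  exact this

end analytic

end Crest.Agent.LT
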