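/-
E3: the abstract germ theorem. BLUEPRINT §E3.
Setting: decreasing sets `Ω r` of small points of `K^σ` with "germ maps" `F` acting on them.
`InI Ω a`: the germ `a` vanishes on `Ω r` for `r` large.
Conclusion (`germ_main`): if `I ≠ 0` then `Ω r` lies on a graph over a proper coordinate subspace `E`,
and no nonzero germ in the variables `E` vanishes on the projection.
-/
import Crest.Agent.Lib.LT.IFT

set_option autoImplicit false
set_option linter.unusedSectionVars false
set_option linter.unusedVariables false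
set_option linter.unnecessarySimpa false

namespace Crest.Agent.LT

open MvPowerSeries Filter Topology

variable {K : Type*} [NontriviallyNormedField K] [IsUltrametricDist K] [CompleteSpace K]

section substcoeff

variable {σ τ : Type*} [Fintype σ] [Fintype τ]

omit [CompleteSpace K] in
/-- Constant coefficient of a substitution. -/
lemma constantCoeff_subst_of_zero {G : τ → MvPowerSeries σ K} (hG : ∀ i, constantCoeff (G i) = 0)
    (f : MvPowerSeries τ K) : constantCoeff (f.subst G) = constantCoeff f := by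
  classical
  rw [← coeff_zero_eq_constantCoeff_apply, coeff_subst_eq_tsum hG,
    tsum_eq_single (0 : τ →₀ ℕ)]
  · simp
  · intro d hd
    have hdeg : 0 < Finsupp.degree d := by
      rw [Nat.pos_iff_ne_zero]
      exact fun h => hd ((Finsupp.degree_eq_zero_iff d).mp h)
    rw [coeff_prod_eq_zero_of_degree_lt hG d 0 (by simpa using hdeg)]
    simp

omit [CompleteSpace K] in
/-- Linear coefficients of a substitution. -/
lemma coeff_single_subst [DecidableEq τ] [DecidableEq σ] {G : τ → MvPowerSeries σ K}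
    (hG : ∀ i, constantCoeff (G i) = 0) (f : MvPowerSeries τ K) (j : σ) :
    coeff (Finsupp.single j 1) (f.subst G) =
      ∑ k, coeff (Finsupp.single k 1) f * coeff (Finsupp.single j 1) (G k) := by
  classical
  have hinj : Function.Injective (fun k : τ => (Finsupp.single k 1 : τ →₀ ℕ)) :=
    Finsupp.single_left_injective one_ne_zero
  rw [coeff_subst_eq_tsum hG, tsum_eq_sum (s := Finset.univ.image fun k : τ => Finsupp.single k 1)]
  · rw [Finset.sum_image (fun a _ b _ h => hinj h)]
    refine Finset.sum_congr rfl fun k _ => ?_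
    congr 2
    rw [Finset.prod_eq_single k]
    · simp
    · intro b _ hb
      simp [hb.symm]
    · simp
  · intro d hd
    have hd1 : Finsupp.degree d ≠ 1 := by
      intro h
      obtain ⟨k, rfl⟩ := exists_single_of_degree_one h
      exact hd (Finset.mem_image_of_mem _ (Finset.mem_univ k))
    by_cases hd0 : Finsupp.degree d = 0
    · have : d = 0 := (Finsupp.degree_eq_zero_iff d).mp hd0
      subst this
      simp only [Finsupp.coe_zero, Pi.zero_apply, pow_zero, Finset.prod_const_one]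
      rw [coeff_one]
      simp
    · rw [coeff_prod_eq_zero_of_degree_lt hG d _ (by simp; omega)]
      simp

end substcoeff

section order

variable {σ : Type*} [Fintype σ] [DecidableEq σ]

omit [CompleteSpace K] in
/-- Multiplicativity of "close to a monomial in lowest degree". -/
lemma close_mul {P Q : MvPowerSeries σ K} {m n : ℕ} {d d' : σ →₀ ℕ} {τ : ℝ} (hτ0 : 0 ≤ τ)
    (hτ1 : τ ≤ 1) (hd : Finsupp.degree d = m) (hd' : Finsupp.degree d' = n)
    (hP0 : ∀ u, Finsupp.degree u < m → coeff u P = 0)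
    (hQ0 : ∀ v, Finsupp.degree v < n → coeff v Q = 0)
    (hP : ∀ u, Finsupp.degree u = m → ‖coeff u P - if u = d then 1 else 0‖ ≤ τ)
    (hQ : ∀ v, Finsupp.degree v = n → ‖coeff v Q - if v = d' then 1 else 0‖ ≤ τ)
    (γ : σ →₀ ℕ) (hγ : Finsupp.degree γ = m + n) :
    ‖coeff γ (P * Q) - if γ = d + d' then 1 else 0‖ ≤ τ := by
  classical
  have hone : ∀ (c : Prop) [Decidable c], ‖(if c then (1 : K) else 0)‖ ≤ 1 := fun c _ => by
    split_ifs <;> simp
  have hsum : (if γ = d + d' then (1 : K) else 0) =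
      ∑ x ∈ Finset.HasAntidiagonal.antidiagonal γ, if x = (d, d') then (1 : K) else 0 := by
    rw [Finset.sum_ite_eq']
    simp [Finset.HasAntidiagonal.mem_antidiagonal, eq_comm]
  rw [coeff_mul, hsum, ← Finset.sum_sub_distrib]
  refine IsUltrametricDist.norm_sum_le_of_forall_le_of_nonneg hτ0 fun x hx => ?_
  obtain ⟨u, v⟩ := x
  have huv : u + v = γ := Finset.HasAntidiagonal.mem_antidiagonal.mp hx
  have hdeg : Finsupp.degree u + Finsupp.degree v = m + n := by
    rw [← hγ, ← huv, map_add]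
  simp only [Prod.mk.injEq]
  by_cases hu : Finsupp.degree u < m
  · have hne : ¬ (u = d ∧ v = d') := fun h => by
      rw [h.1] at hu; omega
    rw [hP0 u hu, if_neg hne]; simpa using hτ0
  by_cases hv : Finsupp.degree v < n
  · have hne : ¬ (u = d ∧ v = d') := fun h => by
      rw [h.2] at hv; omega
    rw [hQ0 v hv, if_neg hne]; simpa using hτ0
  have hum : Finsupp.degree u = m := by omega
  have hvn : Finsupp.degree v = n := by omega
  have h1 := hP u hum
  have h2 := hQ v hvn
  set a : K := if u = d then 1 else 0 with ha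
  set b : K := if v = d' then 1 else 0 with hb
  have hab : (if u = d ∧ v = d' then (1 : K) else 0) = a * b := by
    simp only [ha, hb]
    split_ifs <;> simp_all
  have h3 : coeff u P * coeff v Q - a * b =
      (coeff u P - a) * (coeff v Q - b) + (coeff u P - a) * b + a * (coeff v Q - b) := by ring
  rw [hab, h3]
  have hna : ‖a‖ ≤ 1 := hone _
  have hnb : ‖b‖ ≤ 1 := hone _
  refine (IsUltrametricDist.norm_add_le_max _ _).trans (max_le
    ((IsUltrametricDist.norm_add_le_max _ _).trans (max_le ?_ ?_)) ?_)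
  · rw [norm_mul]
    calc _ ≤ τ * τ := mul_le_mul h1 h2 (norm_nonneg _) hτ0
      _ ≤ τ * 1 := by gcongr
      _ = τ := mul_one τ
  · rw [norm_mul]
    calc _ ≤ τ * 1 := mul_le_mul h1 hnb (norm_nonneg _) hτ0
      _ = τ := mul_one τ
  · rw [norm_mul]
    calc _ ≤ 1 * τ := mul_le_mul hna h2 (norm_nonneg _) zero_le_one
      _ = τ := one_mul τ

omit [CompleteSpace K] in
/-- The products `∏ G_i^{d_i}` are close to the monomial `X^d` in degree `deg d`. -/
lemma coeff_prod_close {G : σ → MvPowerSeries σ K} (hG0 : ∀ i, constantCoeff (G i) = 0) {τ : ℝ}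
    (hτ0 : 0 ≤ τ) (hτ1 : τ ≤ 1)
    (hG1 : ∀ i j, ‖coeff (Finsupp.single j 1) (G i) - if i = j then 1 else 0‖ ≤ τ)
    (d γ : σ →₀ ℕ) (hγ : Finsupp.degree γ = Finsupp.degree d) :
    ‖coeff γ (∏ i, G i ^ d i) - if γ = d then 1 else 0‖ ≤ τ := by
  classical
  have step : ∀ f g : σ →₀ ℕ,
      (∀ γ, Finsupp.degree γ = Finsupp.degree f →
        ‖coeff γ (∏ i, G i ^ f i) - if γ = f then 1 else 0‖ ≤ τ) →
      (∀ γ, Finsupp.degree γ = Finsupp.degree g →
        ‖coeff γ (∏ i, G i ^ g i) - if γ = g then 1 else 0‖ ≤ τ) →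
      (∀ γ, Finsupp.degree γ = Finsupp.degree (f + g) →
        ‖coeff γ (∏ i, G i ^ (f + g) i) - if γ = f + g then 1 else 0‖ ≤ τ) := by
    intro f g hf hg γ hγ
    have hprod : (∏ i, G i ^ (f + g) i) = (∏ i, G i ^ f i) * ∏ i, G i ^ g i := by
      rw [← Finset.prod_mul_distrib]
      refine Finset.prod_congr rfl fun i _ => ?_
      rw [Finsupp.add_apply, pow_add]
    rw [hprod]
    exact close_mul hτ0 hτ1 rfl rfl
      (fun u hu => coeff_prod_eq_zero_of_degree_lt hG0 f u hu)
      (fun v hv => coeff_prod_eq_zero_of_degree_lt hG0 g v hv) hf hg γ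
      (by rw [hγ, map_add])
  have hzero : ∀ γ, Finsupp.degree γ = Finsupp.degree (0 : σ →₀ ℕ) →
      ‖coeff γ (∏ i, G i ^ (0 : σ →₀ ℕ) i) - if γ = 0 then 1 else 0‖ ≤ τ := by
    intro γ hγ
    have : γ = 0 := (Finsupp.degree_eq_zero_iff γ).mp (by simpa using hγ)
    subst this
    simpa using hτ0
  have hone : ∀ k γ, Finsupp.degree γ = Finsupp.degree (Finsupp.single k 1 : σ →₀ ℕ) →
      ‖coeff γ (∏ i, G i ^ (Finsupp.single k 1 : σ →₀ ℕ) i) -
        if γ = Finsupp.single k 1 then 1 else 0‖ ≤ τ := by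
    intro k γ hγ
    have hγ1 : Finsupp.degree γ = 1 := by simpa using hγ
    obtain ⟨j, rfl⟩ := exists_single_of_degree_one hγ1
    have hprod : (∏ i, G i ^ (Finsupp.single k 1 : σ →₀ ℕ) i) = G k := by
      rw [Finset.prod_eq_single k]
      · simp
      · intro b _ hb
        simp [hb.symm]
      · simp
    rw [hprod]
    have h := hG1 k j
    have hiff : (Finsupp.single j 1 : σ →₀ ℕ) = Finsupp.single k 1 ↔ k = j := by
      constructor
      · intro h'
        exact (Finsupp.single_left_injective one_ne_zero h').symm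
      · rintro rfl; rfl
    simp only [hiff]
    exact h
  induction d using Finsupp.induction_linear generalizing γ with
  | zero => exact hzero γ hγ
  | add f g hf hg => exact step f g hf hg γ hγ
  | single k n =>
    induction n generalizing γ with
    | zero => simpa using hzero γ (by simpa using hγ)
    | succ n ih =>
      have : (Finsupp.single k (n + 1) : σ →₀ ℕ) = Finsupp.single k n + Finsupp.single k 1 := by
        rw [Finsupp.single_add]
      rw [this] at hγ ⊢
      exact step _ _ ih (hone k) γ hγ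

omit [CompleteSpace K] in
/-- **Order transfer.** Substitution into a map whose linear part is close to the identity
does not raise the order. -/
lemma coeff_eq_zero_of_subst {G : σ → MvPowerSeries σ K} (hG0 : ∀ i, constantCoeff (G i) = 0)
    {τ : ℝ} (hτ0 : 0 ≤ τ) (hτ1 : τ < 1)
    (hG1 : ∀ i j, ‖coeff (Finsupp.single j 1) (G i) - if i = j then 1 else 0‖ ≤ τ)
    {ρ : ℕ} {f : MvPowerSeries σ K} (h : ∀ γ, Finsupp.degree γ < ρ → coeff γ (f.subst G) = 0) :
    ∀ γ, Finsupp.degree γ < ρ → coeff γ f = 0 := by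
  classical
  -- induct on the degree
  have key : ∀ m, m < ρ → ∀ γ, Finsupp.degree γ = m → coeff γ f = 0 := by
    intro m
    induction m using Nat.strong_induction_on with
    | _ m ih =>
      intro hm
      -- the finite set of degree-`m` monomials
      have hfin : ({γ : σ →₀ ℕ | Finsupp.degree γ = m}).Finite :=
        (Finsupp.finite_of_degree_le (σ := σ) m).subset fun γ hγ => le_of_eq hγ
      set D : Finset (σ →₀ ℕ) := hfin.toFinset with hD
      have hmemD : ∀ γ, γ ∈ D ↔ Finsupp.degree γ = m := fun γ => by simp [hD]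
      by_contra hcon
      push Not at hcon
      obtain ⟨γ₀, hγ₀, hne⟩ := hcon
      obtain ⟨δ, hδD, hδmax⟩ := Finset.exists_max_image D (fun γ => ‖coeff γ f‖)
        ⟨γ₀, (hmemD _).mpr hγ₀⟩
      have hδm : Finsupp.degree δ = m := (hmemD _).mp hδD
      have hsubst : coeff δ (f.subst G) = ∑ d ∈ D, coeff d f * coeff δ (∏ i, G i ^ d i) := by
        rw [coeff_subst_eq_tsum hG0, tsum_eq_sum (s := D)]
        intro d hd
        have hdm : Finsupp.degree d ≠ m := fun h => hd ((hmemD d).mpr h)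
        rcases Nat.lt_or_gt_of_ne hdm with hlt | hgt
        · rw [ih _ hlt (hlt.trans hm) d rfl]; simp
        · rw [coeff_prod_eq_zero_of_degree_lt hG0 d δ (by omega)]; simp
      have h0 := h δ (by omega)
      rw [hsubst] at h0
      have hid : coeff δ f = ∑ d ∈ D, coeff d f * ((if δ = d then 1 else 0) -
          coeff δ (∏ i, G i ^ d i)) := by
        simp only [mul_sub, Finset.sum_sub_distrib, h0, sub_zero, mul_ite, mul_one, mul_zero]
        rw [Finset.sum_ite_eq]
        simp [hδD]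
      have hle : ‖coeff δ f‖ ≤ ‖coeff δ f‖ * τ := by
        conv_lhs => rw [hid]
        refine IsUltrametricDist.norm_sum_le_of_forall_le_of_nonneg (by positivity) fun d hd => ?_
        rw [norm_mul]
        refine mul_le_mul (hδmax d hd) ?_ (norm_nonneg _) (norm_nonneg _)
        rw [norm_sub_rev]
        exact coeff_prod_close hG0 hτ0 hτ1.le hG1 d δ (by rw [hδm]; exact ((hmemD d).mp hd).symm)
      have hδ0 : coeff δ f = 0 := by
        by_contra hδ0
        have : 0 < ‖coeff δ f‖ := norm_pos_iff.mpr hδ0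
        nlinarith
      have hγ₀le := hδmax γ₀ ((hmemD _).mpr hγ₀)
      rw [hδ0, norm_zero] at hγ₀le
      exact hne (norm_le_zero_iff.mp hγ₀le)
  intro γ hγ
  exact key _ hγ γ rfl

end order

section setting

variable {σ : Type*} [Fintype σ] [DecidableEq σ]

omit [CompleteSpace K] [DecidableEq σ] in
/-- A series with zero constant term: scaling the radius scales the Gauss norm. -/
lemma IsB.scale {ε C l : ℝ} {f : MvPowerSeries σ K} (hf : IsB ε C f) (h0 : constantCoeff f = 0)
    (hε : 0 ≤ ε) (hl0 : 0 ≤ l) (hl1 : l ≤ 1) : IsB (l * ε) (l * C) f := by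
  intro γ
  by_cases hγ : γ = 0
  · subst hγ
    have : coeff (0 : σ →₀ ℕ) f = 0 := by simpa using h0
    rw [this]
    have hC := hf.nonneg hε
    simpa using mul_nonneg hl0 hC
  have hdeg : 1 ≤ Finsupp.degree γ := by
    by_contra hlt
    exact hγ ((Finsupp.degree_eq_zero_iff γ).mp (by omega))
  have h1 := hf γ
  rw [mul_pow]
  have h2 : l ^ Finsupp.degree γ ≤ l := by
    calc l ^ Finsupp.degree γ ≤ l ^ 1 := pow_le_pow_of_le_one hl0 hl1 hdeg
      _ = l := pow_one l
  calc ‖coeff γ f‖ * (l ^ Finsupp.degree γ * ε ^ Finsupp.degree γ)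
      = l ^ Finsupp.degree γ * (‖coeff γ f‖ * ε ^ Finsupp.degree γ) := by ring
    _ ≤ l * C := by
      apply mul_le_mul h2 h1 (by positivity) hl0

/-- The setting of E3: decreasing sets of small points with germ maps acting on them.
`F` may depend on `r` and on the point; `F(0) = ω`, `F` is bounded at a uniform radius, the linear part
of `F` tends to the identity as `r → ∞`, and `F` maps `Ω r` to itself. -/
structure IsGermSetting (Ω : ℕ → Set (σ → K)) : Prop where
  anti : Antitone Ω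
  zero_mem : ∀ r, (0 : σ → K) ∈ Ω r
  small : ∀ δ > (0 : ℝ), ∃ r, ∀ ω ∈ Ω r, ∀ i, ‖ω i‖ < δ
  act : ∃ ε₀ C₀ : ℝ, 0 < ε₀ ∧ ∀ δ > (0 : ℝ), ∃ r₁, ∀ r ≥ r₁, ∀ ω ∈ Ω r,
    ∃ F : σ → MvPowerSeries σ K,
      (∀ i, constantCoeff (F i) = ω i) ∧ (∀ i, IsB ε₀ C₀ (F i)) ∧
      (∀ i j, ‖coeff (Finsupp.single j 1) (F i) - if i = j then 1 else 0‖ ≤ δ) ∧
      (∀ ω' ∈ Ω r, (fun i => evalS (F i) ω') ∈ Ω r)

/-- The ideal of germs vanishing on `Ω r` for `r` large. -/
def InI (Ω : ℕ → Set (σ → K)) (a : MvPowerSeries σ K) : Prop :=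
  ∃ (ε C : ℝ) (r : ℕ), 0 < ε ∧ IsB ε C a ∧ (∀ ω ∈ Ω r, ∀ i, ‖ω i‖ < ε) ∧ ∀ ω ∈ Ω r, evalS a ω = 0

variable {Ω : ℕ → Set (σ → K)}

omit [CompleteSpace K] [DecidableEq σ] in
/-- Elements of `I` have zero constant term. -/
lemma InI.const (h0 : ∀ r, (0 : σ → K) ∈ Ω r) {a : MvPowerSeries σ K} (ha : InI Ω a) :
    constantCoeff a = 0 := by
  classical
  obtain ⟨ε, C, r, hε, hB, hball, hv⟩ := ha
  have h := hv 0 (h0 r)
  rw [← h, evalS, tsum_eq_single (0 : σ →₀ ℕ)]
  · simp
  · intro d hd
    obtain ⟨i, hi⟩ : ∃ i, d i ≠ 0 := by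
      by_contra hcon
      push Not at hcon
      exact hd (Finsupp.ext hcon)
    have : mval (0 : σ → K) d = 0 := by
      rw [mval]
      exact Finset.prod_eq_zero (Finset.mem_univ i) (by simp [hi])
    rw [this, mul_zero]

/-- Criterion: a bounded series vanishing on `Ω r` lies in `I`. -/
lemma IsGermSetting.inI_of (h : IsGermSetting Ω) {a : MvPowerSeries σ K} {ε C : ℝ} {r : ℕ}
    (hε : 0 < ε) (hB : IsB ε C a) (hv : ∀ ω ∈ Ω r, evalS a ω = 0) : InI Ω a := by
  obtain ⟨r', hr'⟩ := h.small ε hε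
  refine ⟨ε, C, max r r', hε, hB, fun ω hω => hr' ω (h.anti (le_max_right _ _) hω),
    fun ω hω => hv ω (h.anti (le_max_left _ _) hω)⟩

lemma InI.add (h : IsGermSetting Ω) {a b : MvPowerSeries σ K} (ha : InI Ω a) (hb : InI Ω b) :
    InI Ω (a + b) := by
  have hΩ := h.anti
  obtain ⟨ε, C, r, hε, hB, hball, hv⟩ := ha
  obtain ⟨ε', C', r', hε', hB', hball', hv'⟩ := hb
  have hm : 0 < min ε ε' := lt_min hε hε'
  have hCC : 0 ≤ C := hB.nonneg hε.le
  refine ⟨min ε ε', max C C', max r r', hm,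
    ((hB.shrink hm.le (min_le_left _ _)).mono (le_max_left _ _)).add
      ((hB'.shrink hm.le (min_le_right _ _)).mono (le_max_right _ _)) hm.le, ?_, ?_⟩
  · intro ω hω i
    exact lt_min (hball ω (hΩ (le_max_left _ _) hω) i) (hball' ω (hΩ (le_max_right _ _) hω) i)
  · intro ω hω
    have h1 := hball ω (hΩ (le_max_left _ _) hω)
    have h2 := hball' ω (hΩ (le_max_right _ _) hω)
    rw [evalS_add hm ((hB.shrink hm.le (min_le_left _ _)).mono (le_max_left _ _))
      ((hB'.shrink hm.le (min_le_right _ _)).mono (le_max_right _ _))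
      (fun i => lt_min (h1 i) (h2 i)),
      hv ω (hΩ (le_max_left _ _) hω), hv' ω (hΩ (le_max_right _ _) hω), add_zero]

/-- Multiplication by a bounded series. -/
lemma InI.mul_left (h : IsGermSetting Ω) {a : MvPowerSeries σ K} (ha : InI Ω a)
    {b : MvPowerSeries σ K} {η D : ℝ} (hη : 0 < η) (hb : IsB η D b) : InI Ω (b * a) := by
  obtain ⟨ε, C, r, hε, hB, hball, hv⟩ := ha
  have hm : 0 < min ε η := lt_min hε hη
  have hB1 := hB.shrink hm.le (min_le_left _ _)
  have hb1 := hb.shrink hm.le (min_le_right _ _)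
  obtain ⟨r', hr'⟩ := h.small _ hm
  refine h.inI_of (r := max r r') hm (hb1.mul hB1 hm.le) fun ω hω => ?_
  rw [evalS_mul hm hb1 hB1 (hr' ω (h.anti (le_max_right _ _) hω)),
    hv ω (h.anti (le_max_left _ _) hω), mul_zero]

omit [DecidableEq σ] in
/-- Sums over a finset. -/
lemma InI.sum_mem {ι : Type*} [DecidableEq σ] (h : IsGermSetting Ω) (s : Finset ι)
    {f : ι → MvPowerSeries σ K} (hf : ∀ i ∈ s, InI Ω (f i)) : InI Ω (∑ i ∈ s, f i) := by
  classical
  induction s using Finset.induction_on with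
  | empty =>
    simp only [Finset.sum_empty]
    exact h.inI_of (r := 0) one_pos (isB_zero 1) (fun ω _ => evalS_zero ω)
  | insert a s ha ih =>
    rw [Finset.sum_insert ha]
    exact InI.add h (hf a (Finset.mem_insert_self a s))
      (ih fun i hi => hf i (Finset.mem_insert_of_mem hi))

/-- Composition of an element of `I`, recentered at a point of `Ω r`, with the germ map. -/
lemma InI.comp (h : IsGermSetting Ω) {a : MvPowerSeries σ K} (ha : InI Ω a) :
    ∃ r, ∀ ω ∈ Ω r, ∃ Fc : σ → MvPowerSeries σ K, (∀ i, constantCoeff (Fc i) = 0) ∧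
      (∀ i j, ‖coeff (Finsupp.single j 1) (Fc i) - if i = j then 1 else 0‖ ≤ 1 / 2) ∧
      InI Ω ((shift ω a).subst Fc) := by
  classical
  obtain ⟨ε₀, C₀, hε₀, hact⟩ := h.act
  obtain ⟨r₁, hr₁⟩ := hact (1 / 2) (by norm_num)
  obtain ⟨ε, Ca, ra, hε, hB, hball, hv⟩ := ha
  refine ⟨max r₁ ra, fun ω hω => ?_⟩
  have hωa : ω ∈ Ω ra := h.anti (le_max_right _ _) hω
  obtain ⟨F, hF0, hFB, hFl, hFs⟩ := hr₁ (max r₁ ra) (le_max_left _ _) ω hω
  set D : ℝ := |C₀| + 1 with hDdef
  have hD : 0 < D := by positivity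
  set l : ℝ := min 1 (ε / D) with hldef
  have hl0 : 0 < l := lt_min one_pos (by positivity)
  have hl1 : l ≤ 1 := min_le_left _ _
  have hlD : l * D ≤ ε := by
    have : l ≤ ε / D := min_le_right _ _
    rwa [le_div_iff₀ hD] at this
  have hlC : l * C₀ ≤ ε := by
    have h1 : C₀ ≤ D := (le_abs_self C₀).trans (by simp [hDdef])
    exact (mul_le_mul_of_nonneg_left h1 hl0.le).trans hlD
  set ε₁ : ℝ := l * ε₀ with hε₁def
  have hε₁ : 0 < ε₁ := by positivity
  have hε₁₀ : ε₁ ≤ ε₀ := by
    calc ε₁ ≤ 1 * ε₀ := mul_le_mul_of_nonneg_right hl1 hε₀.le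
      _ = ε₀ := one_mul _
  set Fc : σ → MvPowerSeries σ K := fun i => F i - C (ω i) with hFcdef
  have hFc0 : ∀ i, constantCoeff (Fc i) = 0 := fun i => by simp [hFcdef, hF0]
  have hωC : ∀ i, ‖ω i‖ ≤ C₀ := fun i => by
    have := hFB i 0
    simpa [hF0] using this
  have hCB : ∀ i η, 0 < η → IsB η C₀ (C (ω i) : MvPowerSeries σ K) := fun i η hη =>
    (isB_C η hη.le (ω i)).mono (hωC i)
  have hFcB : ∀ i, IsB ε₀ C₀ (Fc i) := fun i => (hFB i).sub (hCB i _ hε₀) hε₀.le
  have hFc2 : ∀ i, IsB ε₁ ε (Fc i) := fun i =>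
    ((hFcB i).scale (hFc0 i) hε₀.le hl0.le hl1).mono hlC
  have hlin : ∀ i j, coeff (Finsupp.single j 1) (Fc i) = coeff (Finsupp.single j 1) (F i) := by
    intro i j
    have hne : (Finsupp.single j 1 : σ →₀ ℕ) ≠ 0 := by simp
    simp [hFcdef, coeff_C, hne]
  refine ⟨Fc, hFc0, fun i j => ?_, ?_⟩
  · rw [hlin]; exact hFl i j
  have hshift : IsB ε Ca (shift ω a) := hB.shift hε fun i => (hball ω hωa i).le
  obtain ⟨r₂, hr₂⟩ := h.small ε₁ hε₁
  refine h.inI_of (r := max (max r₁ ra) r₂) hε₁ (IsB.subst hε₁ hε.le hshift hFc0 hFc2) fun ω' hω' => ?_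
  have hω'1 : ∀ i, ‖ω' i‖ < ε₁ := hr₂ ω' (h.anti (le_max_right _ _) hω')
  have hω'2 : ω' ∈ Ω (max r₁ ra) := h.anti (le_max_left _ _) hω'
  obtain ⟨ρ, hρ0, hρ1, hρ2⟩ := exists_radius hε₁ hω'1
  have hw : ∀ i, ‖evalS (Fc i) ω'‖ < ε := fun i => by
    have h1 := norm_evalS_le_of_const_zero hε₁ hρ0 hρ1.le (hFc2 i) (hFc0 i) hρ2
    refine lt_of_le_of_lt h1 ?_
    have : ρ / ε₁ < 1 := (div_lt_one hε₁).mpr hρ1
    nlinarith
  rw [evalS_subst hε₁ hε.le hshift hFc0 hFc2 hω'1, evalS_shift hε hB (hball ω hωa) hw]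
  have hid : (ω + fun i => evalS (Fc i) ω') = fun i => evalS (F i) ω' := by
    funext i
    simp only [Pi.add_apply, hFcdef]
    rw [evalS_sub hε₁ ((hFB i).shrink hε₁.le hε₁₀) (hCB i _ hε₁) hω'1, evalS_C]
    ring
  rw [hid]
  exact hv _ (h.anti (le_max_right _ _) (hFs ω' hω'2))

/-- **Claim A.** If all of `I` has order `≥ ρ` then `I` is stable under Hasse derivatives of degree `< ρ`. -/
lemma InI.hasse (h : IsGermSetting Ω) {ρ : ℕ}
    (hρ : ∀ b, InI Ω b → ∀ γ, Finsupp.degree γ < ρ → coeff γ b = 0)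
    {a : MvPowerSeries σ K} (ha : InI Ω a) (β : σ →₀ ℕ) (hβ : Finsupp.degree β < ρ) :
    InI Ω (hasse β a) := by
  obtain ⟨r, hr⟩ := InI.comp h ha
  obtain ⟨ε, C, ra, hε, hB, hball, hv⟩ := ha
  refine h.inI_of (r := r) hε (hB.hasse hε β) fun ω hω => ?_
  obtain ⟨Fc, hFc0, hFc1, hFcI⟩ := hr ω hω
  have h1 := hρ _ hFcI
  have h2 := coeff_eq_zero_of_subst hFc0 (by norm_num) (by norm_num) hFc1 h1
  simpa using h2 β hβ

end setting

section arithmetic

omit [IsUltrametricDist K] [CompleteSpace K] in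
/-- Truncated alternating sum of binomials in characteristic `p`. -/
lemma alt_sum_choose (p : ℕ) [hp : Fact p.Prime] [CharP K p] (m : ℕ) :
    ∑ k ∈ Finset.range p, ((-1 : K) ^ k * (m.choose k : K)) = if p ∣ m then 1 else 0 := by
  have hp1 : p = (p - 1) + 1 := (Nat.sub_add_cancel hp.out.one_le).symm
  rcases m with _ | n
  · rw [hp1, Finset.sum_range_succ', ← hp1]
    simp [Nat.choose_eq_zero_of_lt]
  -- `m = n + 1`
  have h1 : ∑ k ∈ Finset.range p, ((-1 : K) ^ k * ((n + 1).choose k : K)) =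
      (-1) ^ (p - 1) * (n.choose (p - 1) : K) := by
    have h2 := @Int.alternating_sum_range_choose_eq_choose n (p - 1)
    rw [← hp1] at h2
    have h3 := congrArg (Int.cast : ℤ → K) h2
    push_cast at h3
    exact h3
  have hneg : (-1 : K) ^ (p - 1) = 1 := by
    have h2 : (-1 : K) ^ p = -1 := neg_one_pow_char K p
    rw [hp1, pow_succ] at h2
    have h3 : (-1 : K) ^ (p - 1) * (-1) = 1 * (-1) := by rw [h2]; simp
    exact mul_right_cancel₀ (by simp) h3
  rw [h1, hneg, one_mul]
  have hL := Choose.choose_modEq_choose_mod_mul_choose_div (p := p) (n := n) (k := p - 1)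
  have hm : (p - 1) % p = p - 1 := Nat.mod_eq_of_lt (by have := hp.out.pos; omega)
  have hd : (p - 1) / p = 0 := Nat.div_eq_of_lt (by have := hp.out.pos; omega)
  rw [hm, hd, Nat.choose_zero_right, Nat.cast_one, mul_one] at hL
  have hcast : ((n.choose (p - 1) : ℕ) : K) = (((n % p).choose (p - 1) : ℕ) : K) := by
    have h4 := (CharP.intCast_eq_intCast K p).mpr hL
    exact_mod_cast h4
  rw [hcast]
  have hlt : n % p < p := Nat.mod_lt _ hp.out.pos
  by_cases hdvd : p ∣ n + 1
  · rw [if_pos hdvd]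
    have h5 : n % p = p - 1 := by
      obtain ⟨c, hc⟩ := hdvd
      have hcpos : 0 < c := by
        rcases Nat.eq_zero_or_pos c with rfl | h
        · simp at hc
        · exact h
      have : n = p * (c - 1) + (p - 1) := by
        obtain ⟨c', rfl⟩ : ∃ c', c = c' + 1 := ⟨c - 1, by omega⟩
        have := hp.out.pos
        simp only [Nat.add_sub_cancel]
        rw [Nat.mul_succ] at hc
        omega
      rw [this, Nat.mul_add_mod, Nat.mod_eq_of_lt (by have := hp.out.pos; omega)]
    rw [h5]; simp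
  · rw [if_neg hdvd, Nat.choose_eq_zero_of_lt]
    · simp
    · have h6 : n % p ≠ p - 1 := by
        intro h7
        apply hdvd
        have h8 := Nat.div_add_mod n p
        have : n + 1 = p * (n / p) + p := by
          have := hp.out.pos
          omega
        rw [this]
        exact Dvd.dvd.add (dvd_mul_right _ _) dvd_rfl
      omega

end arithmetic

section root

variable {σ : Type*} [Fintype σ] [DecidableEq σ]
variable (p : ℕ) [hp : Fact p.Prime] [CharP K p] [PerfectRing K p]

/-- `p`-th root of a series in the `X^p`. -/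
noncomputable def rootS (a : MvPowerSeries σ K) : MvPowerSeries σ K :=
  fun δ => (frobeniusEquiv K p).symm (coeff (p • δ) a)

omit [IsUltrametricDist K] [CompleteSpace K] in
lemma coeff_rootS_pow (a : MvPowerSeries σ K) (δ : σ →₀ ℕ) :
    (coeff δ (rootS p a)) ^ p = coeff (p • δ) a := by
  have : coeff δ (rootS p a) = (frobeniusEquiv K p).symm (coeff (p • δ) a) := rfl
  rw [this]
  have h := frobenius_apply_frobeniusEquiv_symm K p (coeff (p • δ) a)
  rwa [frobenius_def] at h

omit [IsUltrametricDist K] [CompleteSpace K] in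
lemma isB_rootS {ε C : ℝ} (hε : 0 ≤ ε) {a : MvPowerSeries σ K} (ha : IsB ε C a) :
    IsB ε (max 1 C) (rootS p a) := by
  intro δ
  set x := ‖coeff δ (rootS p a)‖ * ε ^ Finsupp.degree δ with hx
  have hx0 : 0 ≤ x := by positivity
  have hpow : x ^ p ≤ C := by
    have h1 := ha (p • δ)
    have h2 : Finsupp.degree (p • δ) = p * Finsupp.degree δ := by
      rw [map_nsmul, smul_eq_mul]
    rw [h2, ← coeff_rootS_pow, norm_pow, mul_comm p, pow_mul] at h1
    rw [hx, mul_pow]
    exact h1
  by_cases hx1 : x ≤ 1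
  · exact hx1.trans (le_max_left _ _)
  · push Not at hx1
    have : x ≤ x ^ p := le_self_pow₀ hx1.le hp.out.ne_zero
    exact (this.trans hpow).trans (le_max_right _ _)

omit [IsUltrametricDist K] [CompleteSpace K] [DecidableEq σ] in
lemma mval_nsmul (z : σ → K) (δ : σ →₀ ℕ) : mval z (p • δ) = (mval z δ) ^ p := by
  simp only [mval, Finsupp.smul_apply, smul_eq_mul]
  rw [← Finset.prod_pow]
  refine Finset.prod_congr rfl fun i _ => ?_
  rw [mul_comm, pow_mul]

/-- The value of a root. -/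
lemma evalS_rootS {ε C : ℝ} (hε : 0 < ε) {a : MvPowerSeries σ K} (ha : IsB ε C a)
    (hsupp : ∀ γ : σ →₀ ℕ, (¬ ∀ l, p ∣ γ l) → coeff γ a = 0) {z : σ → K} (hz : ∀ i, ‖z i‖ < ε) :
    (evalS (rootS p a) z) ^ p = evalS a z := by
  classical
  have hB := isB_rootS p hε.le ha
  have hs := (summable_eval' hε hB hz).hasSum
  have hcont : Continuous (frobenius K p) := by
    have : (frobenius K p : K → K) = fun x => x ^ p := by
      funext x; exact frobenius_def p x
    rw [this]; exact continuous_pow p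
  have h1 := hs.map (frobenius K p) hcont
  have hg : Function.Injective (fun δ : σ →₀ ℕ => p • δ) := by
    intro x y hxy
    ext i
    have := DFunLike.congr_fun hxy i
    simp only [Finsupp.smul_apply, smul_eq_mul] at this
    exact Nat.eq_of_mul_eq_mul_left hp.out.pos this
  have h2 : (frobenius K p ∘ fun γ : σ →₀ ℕ => coeff γ (rootS p a) * mval z γ) =
      (fun γ : σ →₀ ℕ => coeff γ a * mval z γ) ∘ (fun δ : σ →₀ ℕ => p • δ) := by
    funext δ
    simp only [Function.comp, frobenius_def, mul_pow]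
    rw [coeff_rootS_pow, mval_nsmul]
  rw [h2] at h1
  have hrange : ∀ γ ∉ Set.range (fun δ : σ →₀ ℕ => p • δ), coeff γ a * mval z γ = 0 := by
    intro γ hγ
    rw [hsupp γ, zero_mul]
    intro hall
    apply hγ
    refine ⟨Finsupp.equivFunOnFinite.symm fun l => γ l / p, ?_⟩
    ext l
    simp [Nat.mul_div_cancel' (hall l)]
  have h3 := (hg.hasSum_iff hrange).mp h1
  rw [evalS, evalS]
  rw [h3.tsum_eq, frobenius_def]

end root

section stepone

variable {σ : Type*} [Fintype σ] [DecidableEq σ] {Ω : ℕ → Set (σ → K)}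

omit [IsUltrametricDist K] [CompleteSpace K] [DecidableEq σ] in
lemma mchoose_single [DecidableEq σ] (δ : σ →₀ ℕ) (l : σ) (k : ℕ) :
    mchoose δ (Finsupp.single l k) = (δ l).choose k := by
  rw [mchoose, Finset.prod_eq_single l]
  · simp
  · intro b _ hb
    simp [hb.symm]
  · simp

omit [IsUltrametricDist K] [CompleteSpace K] in
/-- Coefficient of `X_l^k D_l^{(k)} b`. -/
lemma coeff_X_pow_hasse (b : MvPowerSeries σ K) (l : σ) (k : ℕ) (δ : σ →₀ ℕ) :
    coeff δ ((X l : MvPowerSeries σ K) ^ k * hasse (Finsupp.single l k) b) =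
      ((δ l).choose k : K) * coeff δ b := by
  classical
  rw [X_pow_eq, coeff_monomial_mul]
  split_ifs with hle
  · have hsub : δ - Finsupp.single l k + Finsupp.single l k = δ := tsub_add_cancel_of_le hle
    rw [one_mul, coeff_hasse, hsub, mchoose_single]
  · have hlt : δ l < k := by
      by_contra hcon
      push Not at hcon
      apply hle
      intro i
      by_cases hi : i = l
      · subst hi; simpa using hcon
      · simp [Ne.symm hi]
    rw [Nat.choose_eq_zero_of_lt hlt]
    simp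

/-- The projector on series in `X_l^p`. -/
lemma InI.proj (p : ℕ) [hp : Fact p.Prime] [CharP K p] (h : IsGermSetting Ω) {ρ : ℕ} (hpρ : p ≤ ρ)
    (hρ : ∀ b, InI Ω b → ∀ γ, Finsupp.degree γ < ρ → coeff γ b = 0)
    {b : MvPowerSeries σ K} (hb : InI Ω b) (l : σ) :
    ∃ b', InI Ω b' ∧ ∀ δ, coeff δ b' = if p ∣ δ l then coeff δ b else 0 := by
  classical
  refine ⟨∑ k ∈ Finset.range p, (C ((-1 : K) ^ k) * ((X l : MvPowerSeries σ K) ^ k *
    _root_.Crest.Agent.LT.hasse (Finsupp.single l k) b)), ?_, fun δ => ?_⟩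
  · refine InI.sum_mem h _ fun k hk => ?_
    have hk' : k < p := Finset.mem_range.mp hk
    have h1 : InI Ω (_root_.Crest.Agent.LT.hasse (Finsupp.single l k) b) :=
      InI.hasse h hρ hb _ (by simpa using lt_of_lt_of_le hk' hpρ)
    have h2 : InI Ω ((X l : MvPowerSeries σ K) ^ k *
        _root_.Crest.Agent.LT.hasse (Finsupp.single l k) b) :=
      InI.mul_left h h1 one_pos (by simpa using (isB_X (1 : ℝ) zero_le_one l).pow zero_le_one k)
    exact InI.mul_left h h2 one_pos (isB_C 1 zero_le_one _)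
  · rw [map_sum]
    simp only [coeff_C_mul, coeff_X_pow_hasse]
    have h3 := alt_sum_choose (K := K) p (δ l)
    split_ifs at h3 ⊢ with hdvd
    · calc _ = (∑ k ∈ Finset.range p, ((-1 : K) ^ k * ((δ l).choose k : K))) * coeff δ b := by
            rw [Finset.sum_mul]
            refine Finset.sum_congr rfl fun k _ => by ring
        _ = _ := by rw [h3, one_mul]
    · calc _ = (∑ k ∈ Finset.range p, ((-1 : K) ^ k * ((δ l).choose k : K))) * coeff δ b := by
            rw [Finset.sum_mul]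
            refine Finset.sum_congr rfl fun k _ => by ring
        _ = _ := by rw [h3, zero_mul]

/-- **Step 1.** If `I ≠ 0` then `I` has an element of order one. -/
theorem exists_order_one (p : ℕ) [hp : Fact p.Prime] [CharP K p] [PerfectRing K p]
    (h : IsGermSetting Ω) {a : MvPowerSeries σ K} (ha : InI Ω a) (ha0 : a ≠ 0) :
    ∃ b, InI Ω b ∧ ∃ j, coeff (Finsupp.single j 1) b ≠ 0 := by
  classical
  have hex : ∃ ρ, ∃ b, InI Ω b ∧ ∃ γ, Finsupp.degree γ = ρ ∧ coeff γ b ≠ 0 := by
    have : ∃ γ, coeff γ a ≠ 0 := by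
      by_contra hcon
      push Not at hcon
      exact ha0 (MvPowerSeries.ext (by simpa using hcon))
    obtain ⟨γ, hγ⟩ := this
    exact ⟨_, a, ha, γ, rfl, hγ⟩
  set ρ := Nat.find hex with hρdef
  obtain ⟨a₀, ha₀, γ, hγdeg, hγ⟩ := Nat.find_spec hex
  rw [← hρdef] at hγdeg
  have hmin : ∀ b, InI Ω b → ∀ γ, Finsupp.degree γ < ρ → coeff γ b = 0 := by
    intro b hb γ hγ
    by_contra hne
    exact Nat.find_min hex hγ ⟨b, hb, γ, rfl, hne⟩
  have hρ0 : ρ ≠ 0 := by
    intro h0
    rw [h0] at hγdeg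
    have : γ = 0 := (Finsupp.degree_eq_zero_iff γ).mp hγdeg
    subst this
    apply hγ
    simpa using ha₀.const h.zero_mem
  by_cases hρ1 : ρ = 1
  · rw [hρ1] at hγdeg
    obtain ⟨j, rfl⟩ := exists_single_of_degree_one hγdeg
    exact ⟨a₀, ha₀, j, hγ⟩
  exfalso
  have hρ2 : 2 ≤ ρ := by omega
  -- all coordinates of `γ` are divisible by `p`
  have hdvd : ∀ l, p ∣ γ l := by
    intro l
    by_contra hnd
    have hl0 : γ l ≠ 0 := fun h0 => hnd (by simp [h0])
    have h1 : InI Ω (hasse (Finsupp.single l 1) a₀) :=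
      InI.hasse h hmin ha₀ _ (by simp; omega)
    have hle : Finsupp.single l 1 ≤ γ := by
      intro i
      by_cases hi : i = l
      · subst hi; simp; omega
      · simp [Ne.symm hi]
    have hsub : γ - Finsupp.single l 1 + Finsupp.single l 1 = γ := tsub_add_cancel_of_le hle
    have hdeg : Finsupp.degree (γ - Finsupp.single l 1) < ρ := by
      have := congrArg Finsupp.degree hsub
      rw [map_add, hγdeg] at this
      simp at this
      omega
    have h2 := hmin _ h1 _ hdeg
    rw [coeff_hasse, hsub, mchoose_single, Nat.choose_one_right] at h2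
    rcases mul_eq_zero.mp h2 with h3 | h3
    · exact hnd ((CharP.cast_eq_zero_iff K p _).mp h3)
    · exact hγ h3
  have hpρ : p ≤ ρ := by
    have hγ0 : γ ≠ 0 := by
      rintro rfl
      simp at hγdeg
      omega
    obtain ⟨l, hl⟩ : ∃ l, γ l ≠ 0 := by
      by_contra hcon
      push Not at hcon
      exact hγ0 (Finsupp.ext hcon)
    have h1 : p ≤ γ l := Nat.le_of_dvd (Nat.pos_of_ne_zero hl) (hdvd l)
    have h2 : γ l ≤ Finsupp.degree γ := by
      rw [degree_eq_sum]
      exact Finset.single_le_sum (f := fun i => γ i) (fun _ _ => Nat.zero_le _) (Finset.mem_univ l)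
    omega
  -- the projection
  have hS : ∀ S : Finset σ, ∃ b, InI Ω b ∧ ∀ δ, coeff δ b =
      if ∀ l ∈ S, p ∣ δ l then coeff δ a₀ else 0 := by
    intro S
    induction S using Finset.induction_on with
    | empty => exact ⟨a₀, ha₀, fun δ => by simp⟩
    | insert l S hl ih =>
      obtain ⟨b, hb, hbc⟩ := ih
      obtain ⟨b', hb', hbc'⟩ := InI.proj p h hpρ hmin hb l
      refine ⟨b', hb', fun δ => ?_⟩
      rw [hbc', hbc]
      by_cases h1 : p ∣ δ l
      · by_cases h2 : ∀ l ∈ S, p ∣ δ l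
        · rw [if_pos h1, if_pos h2, if_pos]
          intro l' hl'
          rcases Finset.mem_insert.mp hl' with rfl | h3
          · exact h1
          · exact h2 _ h3
        · rw [if_pos h1, if_neg h2, if_neg]
          intro h3
          exact h2 fun l' hl' => h3 l' (Finset.mem_insert_of_mem hl')
      · rw [if_neg h1, if_neg]
        intro h3
        exact h1 (h3 l (Finset.mem_insert_self _ _))
  obtain ⟨a₁, ha₁, ha₁c⟩ := hS Finset.univ
  have hsupp : ∀ δ : σ →₀ ℕ, (¬ ∀ l, p ∣ δ l) → coeff δ a₁ = 0 := by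
    intro δ hδ
    rw [ha₁c, if_neg]
    simpa using hδ
  -- the root
  have ha₂ : InI Ω (rootS p a₁) := by
    obtain ⟨ε, C, r, hε, hB, hball, hv⟩ := ha₁
    refine ⟨ε, max 1 C, r, hε, isB_rootS p hε.le hB, hball, fun ω hω => ?_⟩
    have h1 := evalS_rootS p hε hB hsupp (hball ω hω)
    rw [hv ω hω] at h1
    exact pow_eq_zero_iff hp.out.ne_zero |>.mp h1
  -- contradiction: lower order
  set γ' : σ →₀ ℕ := Finsupp.equivFunOnFinite.symm fun l => γ l / p with hγ'
  have hγγ' : p • γ' = γ := by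
    ext l
    simp [hγ', Nat.mul_div_cancel' (hdvd l)]
  have hdeg' : Finsupp.degree γ' < ρ := by
    have h1 : p * Finsupp.degree γ' = ρ := by
      rw [← hγdeg, ← hγγ', map_nsmul, smul_eq_mul]
    have h2 : 2 ≤ p := hp.out.two_le
    nlinarith
  have h1 := hmin _ ha₂ γ' hdeg'
  have h2 := coeff_rootS_pow p a₁ γ'
  rw [h1, hγγ', ha₁c, if_pos (fun l _ => hdvd l), zero_pow hp.out.ne_zero] at h2
  exact hγ h2.symm

end stepone

section pivot

variable {σ : Type*} [Fintype σ] [DecidableEq σ] {Ω : ℕ → Set (σ → K)}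

/-- Scalar multiples. -/
lemma InI.smul (h : IsGermSetting Ω) {a : MvPowerSeries σ K} (ha : InI Ω a) (c : K) :
    InI Ω (C c * a) := InI.mul_left h ha one_pos (isB_C 1 zero_le_one c)

/-- `f` is a system of elements of `I` with pivots on `S`. -/
def HasPivot (Ω : ℕ → Set (σ → K)) (S : Finset σ) : Prop :=
  ∃ f : σ → MvPowerSeries σ K, (∀ l ∈ S, InI Ω (f l)) ∧
    ∀ l ∈ S, ∀ l' ∈ S, coeff (Finsupp.single l' 1) (f l) = if l = l' then 1 else 0

/-- Step 2: a maximal pivot set. -/
lemma exists_max_pivot (h : IsGermSetting Ω) :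
    ∃ S : Finset σ, HasPivot Ω S ∧ ∀ a, InI Ω a → (∀ l ∈ S, coeff (Finsupp.single l 1) a = 0) →
      ∀ j, coeff (Finsupp.single j 1) a = 0 := by
  classical
  have hempty : HasPivot Ω (∅ : Finset σ) := ⟨fun _ => 0, by simp, by simp⟩
  obtain ⟨S, hS, hmax⟩ := Finset.exists_max_image
    (Finset.univ.filter fun S : Finset σ => HasPivot Ω S) Finset.card
    ⟨∅, by simpa using hempty⟩
  have hS' : HasPivot Ω S := by simpa using hS
  refine ⟨S, hS', fun a ha ha0 j => ?_⟩
  by_contra hj
  have hjS : j ∉ S := fun hjS => hj (ha0 j hjS)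
  obtain ⟨f, hfI, hfp⟩ := hS'
  set c := coeff (Finsupp.single j 1) a with hc
  set a' : MvPowerSeries σ K := C c⁻¹ * a with ha'
  have ha'I : InI Ω a' := InI.smul h ha _
  have ha'1 : coeff (Finsupp.single j 1) a' = 1 := by
    rw [ha', coeff_C_mul, ← hc, inv_mul_cancel₀ hj]
  have ha'2 : ∀ l ∈ S, coeff (Finsupp.single l 1) a' = 0 := fun l hl => by
    rw [ha', coeff_C_mul, ha0 l hl, mul_zero]
  have hnew : HasPivot Ω (insert j S) := by
    refine ⟨fun l => if l = j then a' else f l - C (coeff (Finsupp.single j 1) (f l)) * a', ?_, ?_⟩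
    · intro l hl
      by_cases hlj : l = j
      · simp only [hlj, if_true]; exact ha'I
      · simp only [hlj, if_false]
        have hlS : l ∈ S := (Finset.mem_insert.mp hl).resolve_left hlj
        have h1 := InI.smul h ha'I (-coeff (Finsupp.single j 1) (f l))
        have h2 := InI.add h (hfI l hlS) h1
        convert h2 using 1
        rw [map_neg, neg_mul, sub_eq_add_neg]
    · intro l hl l' hl'
      by_cases hlj : l = j
      · subst hlj
        simp only [if_true]
        by_cases hl'j : l' = l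
        · subst hl'j; simp [ha'1]
        · have hl'S : l' ∈ S := (Finset.mem_insert.mp hl').resolve_left hl'j
          rw [ha'2 l' hl'S, if_neg (Ne.symm hl'j)]
      · have hlS : l ∈ S := (Finset.mem_insert.mp hl).resolve_left hlj
        simp only [hlj, if_false, map_sub, coeff_C_mul]
        by_cases hl'j : l' = j
        · subst hl'j
          rw [ha'1, mul_one, sub_self, if_neg hlj]
        · have hl'S : l' ∈ S := (Finset.mem_insert.mp hl').resolve_left hl'j
          rw [ha'2 l' hl'S, mul_zero, sub_zero]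
          exact hfp l hlS l' hl'S
  have hcard := hmax (insert j S) (by simpa using hnew)
  rw [Finset.card_insert_of_notMem hjS] at hcard
  omega

end pivot

section graph

variable {σ : Type*} [Fintype σ] [DecidableEq σ] {Ω : ℕ → Set (σ → K)}

/-- Projection to a coordinate subspace. -/
def prE (E : Finset σ) (ω : σ → K) : E → K := fun j => ω j

/-- The projected family. -/
def prFam (Ω : ℕ → Set (σ → K)) (E : Finset σ) : ℕ → Set (E → K) := fun r => prE E '' Ω r

/-- The projected family is a germ setting, when `Ω` lies on the graph of `G`. -/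
lemma isGermSetting_prFam (h : IsGermSetting Ω) (E : Finset σ) (G : σ → MvPowerSeries E K)
    (hG0 : ∀ i, constantCoeff (G i) = 0) {εG CG : ℝ} (hεG : 0 < εG) (hGB : ∀ i, IsB εG CG (G i))
    (hGE : ∀ i (hi : i ∈ E), G i = X ⟨i, hi⟩) {rG : ℕ}
    (hgraph : ∀ ω ∈ Ω rG, ∀ i, ω i = evalS (G i) (prE E ω)) :
    IsGermSetting (prFam Ω E) := by
  classical
  refine ⟨fun r r' hrr' => Set.image_mono (h.anti hrr'), fun r => ⟨0, h.zero_mem r, rfl⟩, ?_, ?_⟩
  · intro δ hδ
    obtain ⟨r, hr⟩ := h.small δ hδ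
    refine ⟨r, ?_⟩
    rintro _ ⟨ω, hω, rfl⟩ i
    exact hr ω hω i
  · obtain ⟨ε₀, C₀, hε₀, hact⟩ := h.act
    -- the radius
    have hCG : 0 ≤ |CG| := abs_nonneg _
    set l : ℝ := min 1 (ε₀ / (|CG| + 1)) with hldef
    have hl0 : 0 < l := lt_min one_pos (by positivity)
    have hl1 : l ≤ 1 := min_le_left _ _
    have hlC : l * CG ≤ ε₀ := by
      have h1 : l ≤ ε₀ / (|CG| + 1) := min_le_right _ _
      rw [le_div_iff₀ (by positivity)] at h1
      have h2 : CG ≤ |CG| + 1 := (le_abs_self CG).trans (by linarith)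
      exact (mul_le_mul_of_nonneg_left h2 hl0.le).trans h1
    set ε₁ : ℝ := l * εG with hε₁def
    have hε₁ : 0 < ε₁ := by positivity
    have hε₁G : ε₁ ≤ εG := by
      calc ε₁ ≤ 1 * εG := mul_le_mul_of_nonneg_right hl1 hεG.le
        _ = εG := one_mul _
    have hGB1 : ∀ i, IsB ε₁ ε₀ (G i) := fun i =>
      ((hGB i).scale (hG0 i) hεG.le hl0.le hl1).mono hlC
    refine ⟨ε₁, C₀, hε₁, fun δ hδ => ?_⟩
    -- the bound on the linear coefficients
    set M : ℝ := |CG| / εG + 1 with hMdef
    have hM : 0 < M := by positivity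
    have hlinG : ∀ i j, ‖coeff (Finsupp.single j 1) (G i)‖ ≤ M := by
      intro i j
      have h1 := hGB i (Finsupp.single j 1)
      simp only [Finsupp.degree_single, pow_one] at h1
      rw [← le_div_iff₀ hεG] at h1
      have h2 : CG / εG ≤ |CG| / εG := by gcongr; exact le_abs_self _
      rw [hMdef]
      linarith
    obtain ⟨r₁, hr₁⟩ := hact (δ / M) (by positivity)
    obtain ⟨r₂, hr₂⟩ := h.small ε₁ hε₁
    refine ⟨max (max r₁ rG) r₂, ?_⟩
    rintro r hr _ ⟨ω, hω, rfl⟩
    have hrr₁ : r₁ ≤ r := (le_max_left _ _).trans ((le_max_left _ _).trans hr)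
    have hrrG : rG ≤ r := (le_max_right _ _).trans ((le_max_left _ _).trans hr)
    have hrr₂ : r₂ ≤ r := (le_max_right _ _).trans hr
    obtain ⟨F, hF0, hFB, hFl, hFs⟩ := hr₁ r hrr₁ ω hω
    refine ⟨fun i => (F i).subst G, fun i => ?_, fun i => ?_, fun i j => ?_, ?_⟩
    · rw [constantCoeff_subst_of_zero hG0, hF0]; rfl
    · exact IsB.subst hε₁ hε₀.le (hFB i) hG0 hGB1
    · rw [coeff_single_subst hG0]
      have hdelta : (if i = j then (1 : K) else 0) = coeff (Finsupp.single j 1) (G i) := by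
        rw [hGE i.1 i.2, coeff_X]
        have hiff : (Finsupp.single j 1 : E →₀ ℕ) = Finsupp.single (⟨i.1, i.2⟩ : E) 1 ↔ i = j := by
          constructor
          · intro h'
            have := Finsupp.single_left_injective (one_ne_zero) h'
            exact this.symm
          · rintro rfl; rfl
        simp only [hiff]
      have hdelta2 : coeff (Finsupp.single j 1) (G i) =
          ∑ k, (if (i : σ) = k then (1 : K) else 0) * coeff (Finsupp.single j 1) (G k) := by
        simp
      rw [hdelta, hdelta2, ← Finset.sum_sub_distrib]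
      refine IsUltrametricDist.norm_sum_le_of_forall_le_of_nonneg hδ.le fun k _ => ?_
      rw [← sub_mul, norm_mul]
      calc _ ≤ δ / M * M := mul_le_mul (hFl i k) (hlinG k j) (norm_nonneg _) (by positivity)
        _ = δ := by field_simp
    · rintro _ ⟨ω', hω', rfl⟩
      refine ⟨fun i => evalS (F i) ω', hFs ω' hω', ?_⟩
      funext i
      have hball : ∀ a : E, ‖prE E ω' a‖ < ε₁ := fun a =>
        hr₂ ω' (h.anti hrr₂ hω') a
      simp only [prE]
      rw [evalS_subst hε₁ hε₀.le (hFB i) hG0 hGB1 hball]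
      congr 1
      funext k
      exact hgraph ω' (h.anti hrrG hω') k

/-- Uniform parameters for finitely many elements of `I`. -/
lemma InI.uniform {ι : Type*} (h : IsGermSetting Ω) (s : Finset ι) {f : ι → MvPowerSeries σ K}
    (hf : ∀ i ∈ s, InI Ω (f i)) :
    ∃ (ε C : ℝ) (r : ℕ), 0 < ε ∧ 0 ≤ C ∧ (∀ ω ∈ Ω r, ∀ i, ‖ω i‖ < ε) ∧
      ∀ i ∈ s, IsB ε C (f i) ∧ ∀ ω ∈ Ω r, evalS (f i) ω = 0 := by
  classical
  induction s using Finset.induction_on with
  | empty =>
    obtain ⟨r, hr⟩ := h.small 1 one_pos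
    exact ⟨1, 0, r, one_pos, le_rfl, hr, by simp⟩
  | insert a s ha ih =>
    obtain ⟨ε, C, r, hε, hC, hball, hs⟩ := ih fun i hi => hf i (Finset.mem_insert_of_mem hi)
    obtain ⟨ε', C', r', hε', hB', hball', hv'⟩ := hf a (Finset.mem_insert_self a s)
    have hm : 0 < min ε ε' := lt_min hε hε'
    refine ⟨min ε ε', max C C', max r r', hm, le_max_of_le_left hC, ?_, ?_⟩
    · intro ω hω i
      exact lt_min (hball ω (h.anti (le_max_left _ _) hω) i)
        (hball' ω (h.anti (le_max_right _ _) hω) i)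
    · intro i hi
      rcases Finset.mem_insert.mp hi with rfl | hi'
      · exact ⟨(hB'.shrink hm.le (min_le_right _ _)).mono (le_max_right _ _),
          fun ω hω => hv' ω (h.anti (le_max_right _ _) hω)⟩
      · exact ⟨((hs i hi').1.shrink hm.le (min_le_left _ _)).mono (le_max_left _ _),
          fun ω hω => (hs i hi').2 ω (h.anti (le_max_left _ _) hω)⟩

end graph

section main

variable {σ : Type*} [Fintype σ] [DecidableEq σ] {Ω : ℕ → Set (σ → K)}

/-- **The abstract germ theorem (E3).** If `I ≠ 0` then the `Ω r` lie, for `r` large, on the graph of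
a bounded map over a proper coordinate subspace `E` (`G` is the full graph map: `G i = X_i` on `E`),
and no nonzero germ in the variables `E` vanishes on the projections (`I' = 0`). -/
theorem germ_main (p : ℕ) [hp : Fact p.Prime] [CharP K p] [PerfectRing K p]
    (h : IsGermSetting Ω) {f₀ : MvPowerSeries σ K} (hf₀ : InI Ω f₀) (hf₀0 : f₀ ≠ 0) :
    ∃ (E : Finset σ) (G : σ → MvPowerSeries E K), E ≠ Finset.univ ∧
      (∀ i, constantCoeff (G i) = 0) ∧ (∃ ε C : ℝ, 0 < ε ∧ ∀ i, IsB ε C (G i)) ∧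
      (∀ i (hi : i ∈ E), G i = X ⟨i, hi⟩) ∧
      (∃ r, ∀ ω ∈ Ω r, ∀ i, ω i = evalS (G i) (prE E ω)) ∧
      (∀ a : MvPowerSeries E K, InI (prFam Ω E) a → a = 0) := by
  classical
  obtain ⟨S, ⟨f, hfI, hfp⟩, hmax⟩ := exists_max_pivot h
  obtain ⟨b₀, hb₀, j₀, hj₀⟩ := exists_order_one p h hf₀ hf₀0
  have hSne : S.Nonempty := by
    by_contra hne
    rw [Finset.not_nonempty_iff_eq_empty] at hne
    exact hj₀ (hmax b₀ hb₀ (by simp [hne]) j₀)
  set E : Finset σ := Sᶜ with hE
  have hmemE : ∀ i, i ∈ E ↔ i ∉ S := fun i => by simp [hE]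
  let e : σ → E ⊕ S := fun i =>
    if hi : i ∈ S then Sum.inr ⟨i, hi⟩ else Sum.inl ⟨i, (hmemE i).mpr hi⟩
  have he_inr : ∀ (i : σ) (hi : i ∈ S), e i = Sum.inr ⟨i, hi⟩ := fun i hi => by simp [e, hi]
  have he_inl : ∀ (i : σ) (hi : i ∈ E), e i = Sum.inl ⟨i, hi⟩ := fun i hi => by
    have : i ∉ S := (hmemE i).mp hi
    simp [e, this]
  -- uniform parameters
  obtain ⟨ε, C₁, r₁, hε, hC₁, hball, hunif⟩ := InI.uniform h S (f := f) hfI
  have hX0 : ∀ i : σ, constantCoeff (X (e i) : MvPowerSeries (E ⊕ S) K) = 0 := fun i => by simp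
  have hXB : ∀ i : σ, IsB ε ε (X (e i) : MvPowerSeries (E ⊕ S) K) := fun i => isB_X ε hε.le _
  let Gb : S → MvPowerSeries (E ⊕ S) K := fun b => (f b).subst fun i => X (e i)
  have hGbB : ∀ b, IsB ε C₁ (Gb b) := fun b =>
    IsB.subst hε hε.le (hunif b b.2).1 hX0 hXB
  have hGb0 : ∀ b, constantCoeff (Gb b) = 0 := fun b => by
    simp only [Gb]
    rw [constantCoeff_subst_of_zero hX0]
    exact (hfI b b.2).const h.zero_mem
  have hGblin : ∀ i j : S, coeff (Finsupp.single (Sum.inr j) 1) (Gb i) = (1 : Matrix S S K) i j := by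
    intro i j
    simp only [Gb]
    rw [coeff_single_subst hX0, Finset.sum_eq_single (j : σ)]
    · rw [he_inr j j.2, coeff_index_single_X, if_pos rfl, mul_one, hfp i i.2 j j.2, Matrix.one_apply]
      by_cases hij : i = j
      · subst hij; simp
      · rw [if_neg hij, if_neg fun h' => hij (Subtype.ext h')]
    · intro k _ hk
      rw [coeff_index_single_X, if_neg, mul_zero]
      intro hek
      by_cases hkS : k ∈ S
      · rw [he_inr k hkS] at hek
        exact hk (congrArg Subtype.val (Sum.inr_injective hek)).symm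
      · rw [he_inl k ((hmemE k).mpr hkS)] at hek
        simp at hek
    · simp
  obtain ⟨τ, ε', η, hε', hη, hε'η, hηε, hτ0, hτB, -, -, huniq⟩ :=
    ift_solve (G := Gb) (1 : Matrix S S K) 1 (by simp) (by simp) hε hC₁ hGbB hGb0 hGblin
  let Gr : σ → MvPowerSeries E K := fun i => Sum.elim (fun a => X a) τ (e i)
  have hGr0 : ∀ i, constantCoeff (Gr i) = 0 := fun i => by
    simp only [Gr]
    rcases e i with a | b
    · simp
    · simpa using hτ0 b
  have hGrB : ∀ i, IsB ε' η (Gr i) := fun i => by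
    simp only [Gr]
    rcases e i with a | b
    · exact (isB_X ε' hε'.le a).mono hε'η
    · exact hτB b
  have hGrE : ∀ i (hi : i ∈ E), Gr i = X ⟨i, hi⟩ := fun i hi => by
    simp only [Gr]
    rw [he_inl i hi]
    rfl
  have hGrS : ∀ i (hi : i ∈ S), Gr i = τ ⟨i, hi⟩ := fun i hi => by
    simp only [Gr]
    rw [he_inr i hi]
    rfl
  -- the graph property
  obtain ⟨r₂, hr₂⟩ := h.small _ (lt_min hε' hη)
  have hgraph : ∀ ω ∈ Ω (max r₁ r₂), ∀ i, ω i = evalS (Gr i) (prE E ω) := by
    intro ω hω i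
    have hω₁ : ω ∈ Ω r₁ := h.anti (le_max_left _ _) hω
    have hω₂ := hr₂ ω (h.anti (le_max_right _ _) hω)
    by_cases hi : i ∈ S
    · rw [hGrS i hi]
      have hz : ∀ a : E, ‖prE E ω a‖ < ε' := fun a => lt_of_lt_of_le (hω₂ a) (min_le_left _ _)
      have ht : ∀ b : S, ‖ω b‖ ≤ η := fun b => (lt_of_lt_of_le (hω₂ b) (min_le_right _ _)).le
      refine huniq (prE E ω) (fun b => ω b) hz ht (fun b => ?_) ⟨i, hi⟩
      have hball2 : ∀ k : E ⊕ S, ‖Sum.elim (prE E ω) (fun b : S => ω b) k‖ < ε := by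
        rintro (a | b)
        · exact lt_of_lt_of_le (hz a) (hε'η.trans hηε.le)
        · exact lt_of_le_of_lt (ht b) hηε
      simp only [Gb]
      rw [evalS_subst hε hε.le (hunif b b.2).1 hX0 hXB hball2]
      have hfun : (fun i => evalS (X (e i) : MvPowerSeries (E ⊕ S) K)
          (Sum.elim (prE E ω) (fun b : S => ω b))) = ω := by
        funext k
        rw [evalS_X]
        by_cases hk : k ∈ S
        · rw [he_inr k hk]; rfl
        · rw [he_inl k ((hmemE k).mpr hk)]; rfl
      rw [hfun]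
      exact (hunif b b.2).2 ω hω₁
    · rw [hGrE i ((hmemE i).mpr hi), evalS_X]
      rfl
  refine ⟨E, Gr, ?_, hGr0, ⟨ε', η, hε', hGrB⟩, hGrE, ⟨_, hgraph⟩, fun a ha => ?_⟩
  · intro hu
    obtain ⟨l, hl⟩ := hSne
    have : l ∈ E := by rw [hu]; exact Finset.mem_univ l
    exact (hmemE l).mp this hl
  · -- `I' = 0`
    by_contra ha0
    have hset := isGermSetting_prFam h E Gr hGr0 hε' hGrB hGrE hgraph
    obtain ⟨b', hb', j, hj⟩ := exists_order_one p hset ha ha0
    obtain ⟨ε₂, C₂, r₃, hε₂, hB₂, hball₂, hv₂⟩ := hb'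
    have hX0' : ∀ i : E, constantCoeff (X (i : σ) : MvPowerSeries σ K) = 0 := fun i => by simp
    have hbI : InI Ω (b'.subst fun i : E => (X (i : σ) : MvPowerSeries σ K)) := by
      obtain ⟨r₄, hr₄⟩ := h.small ε₂ hε₂
      refine h.inI_of (r := max r₃ r₄) hε₂
        (IsB.subst hε₂ hε₂.le hB₂ hX0' fun i => isB_X ε₂ hε₂.le _) fun ω hω => ?_
      have hω₃ : ω ∈ Ω r₃ := h.anti (le_max_left _ _) hω
      rw [evalS_subst hε₂ hε₂.le hB₂ hX0' (fun i => isB_X ε₂ hε₂.le _)
        (hr₄ ω (h.anti (le_max_right _ _) hω))]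
      simp only [evalS_X]
      exact hv₂ (prE E ω) ⟨ω, hω₃, rfl⟩
    have hlin : ∀ l : σ, coeff (Finsupp.single l 1)
        (b'.subst fun i : E => (X (i : σ) : MvPowerSeries σ K)) =
        ∑ k : E, coeff (Finsupp.single k 1) b' * if l = (k : σ) then 1 else 0 := by
      intro l
      rw [coeff_single_subst hX0']
      simp only [coeff_index_single_X]
    have h1 := hmax _ hbI (fun l hl => by
      rw [hlin]
      refine Finset.sum_eq_zero fun k _ => ?_
      rw [if_neg, mul_zero]
      rintro rfl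
      exact (hmemE _).mp k.2 hl)
    have h2 := h1 j
    rw [hlin, Finset.sum_eq_single j] at h2
    · simp at h2
      exact hj h2
    · intro k _ hk
      rw [if_neg, mul_zero]
      intro h3
      exact hk (Subtype.ext h3.symm)
    · simp

end main

end Crest.Agent.LT
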