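/-
S0351 T13: first order calculus for functions given locally by bounded series, and the implicit
function theorem in pointwise form.

`LinAt f z L`: near `z`, `f` is given by a bounded series in `w = · - z`, whose linear coefficients
are `L`. All identities of BLUEPRINT §E5 are proved pointwise and differentiated with these rules.
-/
import Crest.Agent.Lib.LT.CoordAn
import Crest.Agent.Lib.LT.P3Germ

set_option autoImplicit false
set_option linter.unusedSectionVars false
set_option linter.unusedVariables false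
set_option linter.unnecessarySimpa false

namespace Crest.Agent.LT

open MvPowerSeries Filter Topology

variable {K : Type*} [NontriviallyNormedField K] [IsUltrametricDist K] [CompleteSpace K]
  {ζ : Type*} [Fintype ζ]

omit [IsUltrametricDist K] [CompleteSpace K] [Fintype ζ] in
lemma add_sub_cancel_fun (z x : ζ → K) : (fun i => z i + (x i - z i)) = x := by
  funext i; ring

/-- value at the centre -/
lemma evalS_zero_point (f : MvPowerSeries ζ K) : evalS f (0 : ζ → K) = constantCoeff f := by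
  rw [evalS, tsum_eq_single 0]
  · simp
  · intro γ hγ
    have : mval (0 : ζ → K) γ = 0 := by
      obtain ⟨i, hi⟩ : ∃ i, γ i ≠ 0 := by
        by_contra hc
        push Not at hc
        exact hγ (Finsupp.ext hc)
      simp only [mval]
      apply Finset.prod_eq_zero (Finset.mem_univ i)
      simp [hi]
    rw [this, mul_zero]

/-- `f` is near `z` a bounded series with linear part `L`. -/
def LinAt (f : (ζ → K) → K) (z : ζ → K) (L : ζ → K) : Prop :=
  ∃ (g : MvPowerSeries ζ K) (ε C : ℝ), 0 < ε ∧ IsB ε C g ∧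
    (∀ i, coeff (Finsupp.single i 1) g = L i) ∧
    ∀ w : ζ → K, (∀ i, ‖w i‖ < ε) → f (fun i => z i + w i) = evalS g w

lemma LinAt.anAt {f : (ζ → K) → K} {z : ζ → K} {L : ζ → K} (h : LinAt f z L) : AnAt f z := by
  obtain ⟨g, ε, C, hε, hg, -, he⟩ := h
  exact ⟨g, ε, C, hε, hg, he⟩

lemma AnAt.exists_linAt {f : (ζ → K) → K} {z : ζ → K} (h : AnAt f z) : ∃ L, LinAt f z L := by
  obtain ⟨g, ε, C, hε, hg, he⟩ := h
  exact ⟨fun i => coeff (Finsupp.single i 1) g, g, ε, C, hε, hg, fun _ => rfl, he⟩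

lemma LinAt.congr {f f' : (ζ → K) → K} {z : ζ → K} {L : ζ → K} (hf : LinAt f z L) {δ : ℝ} (hδ : 0 < δ)
    (h : ∀ x : ζ → K, (∀ i, ‖x i - z i‖ < δ) → f' x = f x) : LinAt f' z L := by
  obtain ⟨g, ε, C, hε, hg, hL, he⟩ := hf
  have hC := hg.nonneg hε.le
  refine ⟨g, min ε δ, C, by positivity, hg.shrink (by positivity) (min_le_left _ _), hL, fun w hw => ?_⟩
  rw [h _ (fun i => by simpa using lt_of_lt_of_le (hw i) (min_le_right _ _))]
  exact he w fun i => lt_of_lt_of_le (hw i) (min_le_left _ _)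

/-- the identity principle for germs -/
lemma eq_of_evalS_eq_ball {g g' : MvPowerSeries ζ K} {ε ε' C C' δ : ℝ} (hε : 0 < ε) (hε' : 0 < ε')
    (hg : IsB ε C g) (hg' : IsB ε' C' g') (hδ : 0 < δ) (h : ∀ w : ζ → K, (∀ i, ‖w i‖ < δ) → evalS g w = evalS g' w) :
    g = g' := by
  have hC := hg.nonneg hε.le
  have hC' := hg'.nonneg hε'.le
  have hm : 0 < min ε ε' := by positivity
  have h1 : IsB (min ε ε') (max C C') g :=
    (hg.shrink hm.le (min_le_left _ _)).mono (le_max_left _ _)
  have h2 : IsB (min ε ε') (max C C') g' :=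
    (hg'.shrink hm.le (min_le_right _ _)).mono (le_max_right _ _)
  have h3 : g - g' = 0 := by
    refine eq_zero_of_evalS_zero hm (lt_min hm hδ) (h1.sub h2 hm.le) fun w hw => ?_
    have hw1 : ∀ i, ‖w i‖ < min ε ε' := fun i => lt_of_lt_of_le (hw i) (min_le_left _ _)
    rw [evalS_sub hm h1 h2 hw1, h w fun i => lt_of_lt_of_le (hw i) (min_le_right _ _), sub_self]
  exact sub_eq_zero.1 h3

/-- The linear part is unique. -/
lemma LinAt.unique {f : (ζ → K) → K} {z : ζ → K} {L L' : ζ → K} (h : LinAt f z L) (h' : LinAt f z L') :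
    L = L' := by
  obtain ⟨g, ε, C, hε, hg, hL, he⟩ := h
  obtain ⟨g', ε', C', hε', hg', hL', he'⟩ := h'
  have : g = g' := eq_of_evalS_eq_ball hε hε' hg hg' (lt_min hε hε') fun w hw => by
    rw [← he w fun i => lt_of_lt_of_le (hw i) (min_le_left _ _),
      ← he' w fun i => lt_of_lt_of_le (hw i) (min_le_right _ _)]
  funext i
  rw [← hL, ← hL', this]

lemma linAt_const (a : K) (z : ζ → K) : LinAt (fun _ => a) z 0 := by
  classical
  refine ⟨C a, 1, ‖a‖, one_pos, isB_C 1 zero_le_one a, fun i => ?_, fun w _ => (evalS_C a w).symm⟩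
  rw [coeff_C, if_neg]
  · rfl
  · intro h
    have := DFunLike.congr_fun h i
    simp at this

lemma linAt_coord [DecidableEq ζ] (i : ζ) (z : ζ → K) :
    LinAt (fun x => x i) z (fun j => if j = i then 1 else 0) := by
  have h1 : IsB (1 : ℝ) (max ‖z i‖ 1) (C (z i) : MvPowerSeries ζ K) :=
    (isB_C 1 zero_le_one (z i)).mono (le_max_left _ _)
  have h2 : IsB (1 : ℝ) (max ‖z i‖ 1) (X i : MvPowerSeries ζ K) :=
    (isB_X 1 zero_le_one i).mono (le_max_right _ _)
  refine ⟨C (z i) + X i, 1, max ‖z i‖ 1, one_pos, h1.add h2 zero_le_one, fun j => ?_, fun w hw => ?_⟩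
  · rw [map_add, coeff_C, if_neg, zero_add, coeff_X]
    · by_cases hj : j = i
      · simp [hj]
      · rw [if_neg]
        · simp [hj]
        · intro h
          have := DFunLike.congr_fun h j
          simp [Finsupp.single_apply, Ne.symm hj] at this
    · intro h
      have := DFunLike.congr_fun h j
      simp at this
  · rw [evalS_add one_pos h1 h2 hw, evalS_C, evalS_X]

lemma LinAt.add {f f' : (ζ → K) → K} {z : ζ → K} {L L' : ζ → K} (hf : LinAt f z L) (hf' : LinAt f' z L') :
    LinAt (fun x => f x + f' x) z (fun i => L i + L' i) := by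
  obtain ⟨g, ε, C, hε, hg, hL, he⟩ := hf
  obtain ⟨g', ε', C', hε', hg', hL', he'⟩ := hf'
  have hC := hg.nonneg hε.le
  have hC' := hg'.nonneg hε'.le
  have hm : 0 < min ε ε' := by positivity
  have h1 : IsB (min ε ε') (max C C') g :=
    (hg.shrink hm.le (min_le_left _ _)).mono (le_max_left _ _)
  have h2 : IsB (min ε ε') (max C C') g' :=
    (hg'.shrink hm.le (min_le_right _ _)).mono (le_max_right _ _)
  refine ⟨g + g', min ε ε', max C C', hm, h1.add h2 hm.le, fun i => ?_, fun w hw => ?_⟩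
  · rw [map_add, hL, hL']
  · show f (fun i => z i + w i) + f' (fun i => z i + w i) = _
    rw [he w fun i => lt_of_lt_of_le (hw i) (min_le_left _ _),
      he' w fun i => lt_of_lt_of_le (hw i) (min_le_right _ _), evalS_add hm h1 h2 hw]

lemma LinAt.neg {f : (ζ → K) → K} {z : ζ → K} {L : ζ → K} (hf : LinAt f z L) :
    LinAt (fun x => - f x) z (fun i => - L i) := by
  obtain ⟨g, ε, C, hε, hg, hL, he⟩ := hf
  refine ⟨-g, ε, C, hε, hg.neg, fun i => ?_, fun w hw => ?_⟩
  · rw [map_neg, hL]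
  · show - f (fun i => z i + w i) = _
    rw [he w hw, evalS_neg]

lemma LinAt.sub {f f' : (ζ → K) → K} {z : ζ → K} {L L' : ζ → K} (hf : LinAt f z L) (hf' : LinAt f' z L') :
    LinAt (fun x => f x - f' x) z (fun i => L i - L' i) := by
  simpa [sub_eq_add_neg] using hf.add hf'.neg

lemma coeff_single_mul [DecidableEq ζ] (g g' : MvPowerSeries ζ K) (i : ζ) :
    coeff (Finsupp.single i 1) (g * g') =
      coeff (Finsupp.single i 1) g * constantCoeff g' + constantCoeff g * coeff (Finsupp.single i 1) g' := by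
  rw [coeff_mul, Finsupp.antidiagonal_single, Finset.sum_map]
  simp only [Finset.Nat.antidiagonal_succ, Nat.reduceAdd]
  simp [coeff_zero_eq_constantCoeff_apply]
  ring

lemma LinAt.mul {f f' : (ζ → K) → K} {z : ζ → K} {L L' : ζ → K} (hf : LinAt f z L) (hf' : LinAt f' z L') :
    LinAt (fun x => f x * f' x) z (fun i => L i * f' z + f z * L' i) := by
  classical
  obtain ⟨g, ε, C, hε, hg, hL, he⟩ := hf
  obtain ⟨g', ε', C', hε', hg', hL', he'⟩ := hf'
  have hC := hg.nonneg hε.le
  have hC' := hg'.nonneg hε'.le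
  have hm : 0 < min ε ε' := by positivity
  have h1 : IsB (min ε ε') C g := hg.shrink hm.le (min_le_left _ _)
  have h2 : IsB (min ε ε') C' g' := hg'.shrink hm.le (min_le_right _ _)
  refine ⟨g * g', min ε ε', C * C', hm, h1.mul h2 hm.le, fun i => ?_, fun w hw => ?_⟩
  · rw [coeff_single_mul, hL, hL', AnAt.value hε he, AnAt.value hε' he']
  · show f (fun i => z i + w i) * f' (fun i => z i + w i) = _
    rw [he w fun i => lt_of_lt_of_le (hw i) (min_le_left _ _),
      he' w fun i => lt_of_lt_of_le (hw i) (min_le_right _ _), evalS_mul hm h1 h2 hw]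

lemma LinAt.pow {f : (ζ → K) → K} {z : ζ → K} {L : ζ → K} (hf : LinAt f z L) (n : ℕ) :
    LinAt (fun x => f x ^ n) z (fun i => (n : K) * f z ^ (n - 1) * L i) := by
  induction n with
  | zero =>
    have := linAt_const (1 : K) z
    simpa [Pi.zero_def] using this
  | succ n ih =>
    have h := ih.mul hf
    simp only [pow_succ]
    convert h using 2 with i
    rcases n with _ | n
    · simp
    · simp only [Nat.add_sub_cancel, pow_succ]
      push_cast
      ring

/-- `p`-th powers have derivative zero. -/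
lemma LinAt.pow_char (p : ℕ) [CharP K p] {f : (ζ → K) → K} {z : ζ → K} {L : ζ → K} (hf : LinAt f z L)
    {n : ℕ} (hn : p ∣ n) : LinAt (fun x => f x ^ n) z 0 := by
  have h := hf.pow n
  have h0 : (n : K) = 0 := (CharP.cast_eq_zero_iff K p n).2 hn
  simpa [h0, Pi.zero_def] using h

/-- **Chain rule**. -/
theorem LinAt.comp {τ : Type*} [Fintype τ] {f : (τ → K) → K} {G : τ → (ζ → K) → K} {a : ζ → K}
    {L : τ → ζ → K} {M : τ → K} (hG : ∀ i, LinAt (G i) a (L i)) (hf : LinAt f (fun i => G i a) M) :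
    LinAt (fun z => f (fun i => G i z)) a (fun j => ∑ i, M i * L i j) := by
  classical
  obtain ⟨g, ε, Cg, hε, hg, hM, he⟩ := hf
  have hC := hg.nonneg hε.le
  have hex : ∀ i, ∃ (g' : MvPowerSeries ζ K) (ε' C' : ℝ), 0 < ε' ∧ IsB ε' C' g' ∧
      (∀ j, coeff (Finsupp.single j 1) g' = L i j) ∧
      ∀ w : ζ → K, (∀ j, ‖w j‖ < ε') → G i (fun j => a j + w j) = evalS g' w := hG
  choose Gs εs Cs hεs hGs hLs heG using hex
  set Gt : τ → MvPowerSeries ζ K := fun i => Gs i - C (constantCoeff (Gs i)) with hGt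
  have hGt0 : ∀ i, constantCoeff (Gt i) = 0 := by
    intro i; simp [hGt]
  have hCs : ∀ i, 0 ≤ Cs i := fun i => (hGs i).nonneg (hεs i).le
  have hGtB : ∀ i, IsB (εs i) (Cs i) (Gt i) := by
    intro i
    apply (hGs i).sub ?_ (hεs i).le
    have h1 := isB_C (σ := ζ) (εs i) (hεs i).le (constantCoeff (Gs i))
    refine h1.mono ?_
    have h2 := hGs i 0
    simpa using h2
  obtain ⟨ε₁, hε₁, hε₁'⟩ := exists_shrink_family hεs hGtB hGt0 (show 0 < ε / 2 by positivity)
  have hg' : IsB (ε / 2) Cg g := hg.shrink (by positivity) (by linarith)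
  refine ⟨g.subst Gt, ε₁, Cg, hε₁, IsB.subst hε₁ (by positivity) hg' hGt0 (fun i => (hε₁' i).2),
    fun j => ?_, fun w hw => ?_⟩
  · rw [coeff_single_subst hGt0]
    refine Finset.sum_congr rfl fun i _ => ?_
    rw [hM, hGt, map_sub, hLs, coeff_C, if_neg, sub_zero]
    intro h
    have := DFunLike.congr_fun h j
    simp at this
  rw [evalS_subst hε₁ (by positivity) hg' hGt0 (fun i => (hε₁' i).2) hw]
  have hval : ∀ i, constantCoeff (Gs i) = G i a := fun i => AnAt.value (hεs i) (heG i)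
  have hGw : ∀ i, G i (fun j => a j + w j) = G i a + evalS (Gt i) w := by
    intro i
    have hwi : ∀ j, ‖w j‖ < εs i := fun j => lt_of_lt_of_le (hw j) (hε₁' i).1
    rw [heG i w hwi]
    have hc : IsB (εs i) (max (Cs i) (Cs i)) (C (constantCoeff (Gs i)) : MvPowerSeries ζ K) := by
      have h1 := isB_C (σ := ζ) (εs i) (hεs i).le (constantCoeff (Gs i))
      refine h1.mono ?_
      have h2 := hGs i 0
      simpa using h2
    have hmax : max (Cs i) (Cs i) = Cs i := max_self _
    rw [hmax] at hc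
    rw [hGt, evalS_sub (hεs i) (hGs i) hc hwi, evalS_C, hval i]
    ring
  have hsmall : ∀ i, ‖evalS (Gt i) w‖ < ε := by
    intro i
    have h1 := norm_evalS_le hε₁ (hε₁' i).2 (z := w) (fun j => (hw j).le)
    linarith
  have := he (fun i => evalS (Gt i) w) hsmall
  simp only [hGw]
  exact this

/-- Lipschitz estimate for a bounded series inside its ball. -/
lemma norm_evalS_sub_evalS_le {g : MvPowerSeries ζ K} {ε C η r : ℝ} (hε : 0 < ε) (hg : IsB ε C g)
    (hη : 0 ≤ η) (hηε : η < ε) (hr : 0 ≤ r) {x x' : ζ → K} (hx : ∀ i, ‖x i‖ ≤ η)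
    (hx' : ∀ i, ‖x' i‖ ≤ η) (hd : ∀ i, ‖x i - x' i‖ ≤ r) :
    ‖evalS g x - evalS g x'‖ ≤ (C / ε) * r := by
  classical
  have hC := hg.nonneg hε.le
  have hs1 := summable_eval hε hη hηε hg hx
  have hs2 := summable_eval hε hη hηε hg hx'
  rw [evalS, evalS, ← hs1.tsum_sub hs2]
  refine IsUltrametricDist.norm_tsum_le_of_forall_le_of_nonneg (by positivity) fun d => ?_
  rw [← mul_sub, norm_mul]
  by_cases hd0 : Finsupp.degree d = 0
  · have : d = 0 := (Finsupp.degree_eq_zero_iff d).mp hd0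
    subst this
    simp; positivity
  have h3 := norm_mval_sub_le hη hr hx hx' hd d (by omega)
  have h4 := hg d
  have hpow : 0 < ε ^ Finsupp.degree d := pow_pos hε _
  have h5 : ‖coeff d g‖ ≤ C / ε ^ Finsupp.degree d := by rw [le_div_iff₀ hpow]; exact h4
  obtain ⟨k, hk⟩ : ∃ k, Finsupp.degree d = k + 1 := ⟨Finsupp.degree d - 1, by omega⟩
  rw [hk] at h3 h5
  have hratio : (η / ε) ^ k ≤ 1 := pow_le_one₀ (by positivity) ((div_le_one hε).mpr hηε.le)
  rw [Nat.add_sub_cancel] at h3
  calc ‖coeff d g‖ * ‖mval x d - mval x' d‖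
      ≤ C / ε ^ (k + 1) * (η ^ k * r) := mul_le_mul h5 h3 (norm_nonneg _) (by positivity)
    _ = (C / ε) * r * (η / ε) ^ k := by
        rw [div_pow, pow_succ]
        field_simp
    _ ≤ (C / ε) * r * 1 := by
        apply mul_le_mul_of_nonneg_left hratio
        positivity
    _ = _ := by ring

/-- Functions with `AnAt` are Lipschitz near the centre. -/
lemma AnAt.exists_lip {f : (ζ → K) → K} {z : ζ → K} (h : AnAt f z) :
    ∃ (c δ : ℝ), 0 ≤ c ∧ 0 < δ ∧ ∀ (x x' : ζ → K) (r : ℝ), (∀ i, ‖x i - z i‖ < δ) →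
      (∀ i, ‖x' i - z i‖ < δ) → 0 ≤ r → (∀ i, ‖x i - x' i‖ ≤ r) → ‖f x - f x'‖ ≤ c * r := by
  obtain ⟨g, ε, C, hε, hg, he⟩ := h
  have hC := hg.nonneg hε.le
  refine ⟨C / (ε / 2), ε / 2, by positivity, by positivity, fun x x' r hx hx' hr hd => ?_⟩
  have hg' : IsB (ε / 2 + ε / 2) C g := by
    rw [show ε / 2 + ε / 2 = ε by ring]; exact hg
  have e1 : f x = evalS g (fun i => x i - z i) := by
    rw [← he _ (fun i => by linarith [hx i]), add_sub_cancel_fun]
  have e2 : f x' = evalS g (fun i => x' i - z i) := by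
    rw [← he _ (fun i => by linarith [hx' i]), add_sub_cancel_fun]
  rw [e1, e2]
  have hη := norm_evalS_sub_evalS_le hε hg (η := ε / 2) (by positivity) (by linarith) hr
    (x := fun i => x i - z i) (x' := fun i => x' i - z i) (fun i => (hx i).le) (fun i => (hx' i).le)
    (fun i => by simpa using hd i)
  refine hη.trans ?_
  apply mul_le_mul_of_nonneg_right _ hr
  rw [div_le_div_iff₀ hε (by positivity)]
  nlinarith

/-- Second order expansion. -/
lemma LinAt.exists_taylor {f : (ζ → K) → K} {z : ζ → K} {L : ζ → K} (h : LinAt f z L) :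
    ∃ (c δ : ℝ), 0 ≤ c ∧ 0 < δ ∧ ∀ (x : ζ → K) (r : ℝ), (∀ i, ‖x i - z i‖ < δ) → 0 ≤ r →
      (∀ i, ‖x i - z i‖ ≤ r) → ‖f x - f z - ∑ i, L i * (x i - z i)‖ ≤ c * r ^ 2 := by
  classical
  obtain ⟨g, ε, C, hε, hg, hL, he⟩ := h
  have hC := hg.nonneg hε.le
  have hz : f z = constantCoeff g := (AnAt.value hε he).symm
  refine ⟨C / (ε / 2) ^ 2, ε / 2, by positivity, by positivity, fun x r hx hr hxr => ?_⟩
  have hg' : IsB (ε / 2) C g := hg.shrink (by positivity) (by linarith)
  have e1 : f x = evalS g (fun i => x i - z i) := by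
    rw [← he _ (fun i => by linarith [hx i]), add_sub_cancel_fun]
  rw [e1, hz]
  set w : ζ → K := fun i => x i - z i with hw
  have hw0 : ∀ i, ‖w i‖ < ε / 2 := hx
  -- split off the terms of degree ≤ 1
  obtain ⟨ρ, hρ0, hρε, hρ⟩ := exists_radius (by positivity : 0 < ε / 2) hw0
  have hsum := summable_eval (by positivity : 0 < ε / 2) hρ0 hρε hg' hρ
  set Λ : Finset (ζ →₀ ℕ) := insert 0 (Finset.univ.image fun b => Finsupp.single b 1) with hΛ
  have h0 : (0 : ζ →₀ ℕ) ∉ Finset.univ.image (fun b : ζ => (Finsupp.single b 1 : ζ →₀ ℕ)) := by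
    simp only [Finset.mem_image, Finset.mem_univ, true_and, not_exists]
    intro b h
    have := DFunLike.congr_fun h b
    simp at this
  have hinj : Function.Injective (fun b : ζ => (Finsupp.single b 1 : ζ →₀ ℕ)) :=
    Finsupp.single_left_injective one_ne_zero
  have hsumΛ : ∑ γ ∈ Λ, coeff γ g * mval w γ = constantCoeff g + ∑ i, L i * w i := by
    rw [hΛ, Finset.sum_insert h0, Finset.sum_image (fun a _ b _ h => hinj h)]
    congr 1
    · simp [mval]
    · refine Finset.sum_congr rfl fun i _ => ?_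
      rw [hL]
      congr 1
      rw [mval, Finset.prod_eq_single i]
      · simp
      · intro b _ hb
        simp [Finsupp.single_apply, hb.symm]
      · simp
  have hrest : evalS g w - constantCoeff g - ∑ i, L i * w i =
      ∑' γ : ((Λ : Set (ζ →₀ ℕ))ᶜ : Set (ζ →₀ ℕ)), coeff γ.1 g * mval w γ.1 := by
    have h1 := hsum.sum_add_tsum_compl (s := Λ)
    rw [evalS, ← h1, hsumΛ]
    have e : ∀ (a b c : K), a + b + c - a - b = c := fun a b c => by ring
    rw [e]
  rw [hrest]
  refine IsUltrametricDist.norm_tsum_le_of_forall_le_of_nonneg (by positivity) fun γ => ?_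
  have hγΛ : γ.1 ∉ Λ := fun h => γ.2 (Finset.mem_coe.2 h)
  have hdeg : 2 ≤ Finsupp.degree γ.1 := by
    by_contra hc
    have hc' : Finsupp.degree γ.1 = 0 ∨ Finsupp.degree γ.1 = 1 := by omega
    rcases hc' with hc' | hc'
    · exact hγΛ (by rw [(Finsupp.degree_eq_zero_iff γ.1).1 hc']; simp [hΛ])
    · obtain ⟨b, hb⟩ := exists_single_of_degree_one hc'
      exact hγΛ (by rw [hb]; simp [hΛ])
  rw [norm_mul]
  -- the case distinction `r` large or small
  have hwr : ∀ i, ‖w i‖ ≤ min r (ε / 2) := fun i => le_min (hxr i) (hw0 i).le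
  have hm0 : 0 ≤ min r (ε / 2) := le_min hr (by positivity)
  have h3 := norm_mval_le hm0 hwr γ.1
  have h4 := hg' γ.1
  have h5 : ‖coeff γ.1 g‖ ≤ C / (ε / 2) ^ Finsupp.degree γ.1 := by
    rw [le_div_iff₀ (pow_pos (by positivity) _)]; exact h4
  obtain ⟨k, hk⟩ : ∃ k, Finsupp.degree γ.1 = k + 2 := ⟨Finsupp.degree γ.1 - 2, by omega⟩
  rw [hk] at h3 h5
  have hratio : (min r (ε / 2) / (ε / 2)) ^ k ≤ 1 :=
    pow_le_one₀ (by positivity) ((div_le_one (by positivity)).2 (min_le_right _ _))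
  have hmr : (min r (ε / 2)) ^ 2 ≤ r ^ 2 := pow_le_pow_left₀ hm0 (min_le_left _ _) 2
  calc ‖coeff γ.1 g‖ * ‖mval w γ.1‖
      ≤ C / (ε / 2) ^ (k + 2) * (min r (ε / 2)) ^ (k + 2) :=
        mul_le_mul h5 h3 (norm_nonneg _) (by positivity)
    _ = C / (ε / 2) ^ 2 * (min r (ε / 2)) ^ 2 * (min r (ε / 2) / (ε / 2)) ^ k := by
        have key : ∀ e m C : ℝ, e ≠ 0 → C / e ^ (k + 2) * m ^ (k + 2) = C / e ^ 2 * m ^ 2 * (m / e) ^ k := by
          intro e m C he
          rw [div_pow, pow_add, pow_add]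
          field_simp
        exact key _ _ _ (by positivity)
    _ ≤ C / (ε / 2) ^ 2 * (min r (ε / 2)) ^ 2 * 1 := by
        apply mul_le_mul_of_nonneg_left hratio
        positivity
    _ ≤ _ := by
        rw [mul_one]
        apply mul_le_mul_of_nonneg_left hmr
        positivity

section ift

variable {α β : Type*} [Fintype α] [Fintype β] [DecidableEq α] [DecidableEq β]

omit [IsUltrametricDist K] [CompleteSpace K] [Fintype α] [Fintype β] [DecidableEq α] [DecidableEq β] in
lemma elim_add_sub (z v : α → K) (t0 t : β → K) :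
    (fun i => Sum.elim z t0 i + Sum.elim (fun a => v a - z a) (fun b => t b - t0 b) i) = Sum.elim v t := by
  funext i
  rcases i with a | b <;> simp

/-- **Implicit function theorem, pointwise form.** -/
theorem exists_implicit {G : β → (α ⊕ β → K) → K} {z : α → K} {t0 : β → K} {L : β → α ⊕ β → K}
    (hG : ∀ b, LinAt (G b) (Sum.elim z t0) (L b)) (h0 : ∀ b, G b (Sum.elim z t0) = 0)
    (M N : Matrix β β K) (hM : ∀ b b', M b b' = L b (Sum.inr b')) (hMN : N * M = 1) (hNM : M * N = 1) :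
    ∃ (τ : β → (α → K) → K) (J : β → α → K) (δ η : ℝ), 0 < δ ∧ 0 < η ∧
      (∀ b, τ b z = t0 b) ∧ (∀ b, LinAt (τ b) z (J b)) ∧
      (∀ b a, L b (Sum.inl a) + ∑ b', L b (Sum.inr b') * J b' a = 0) ∧
      (∀ v : α → K, (∀ a, ‖v a - z a‖ < δ) → ∀ b,
        ‖τ b v - t0 b‖ ≤ η ∧ G b (Sum.elim v fun b' => τ b' v) = 0) ∧
      (∀ (v : α → K) (t : β → K), (∀ a, ‖v a - z a‖ < δ) → (∀ b, ‖t b - t0 b‖ ≤ η) →
        (∀ b, G b (Sum.elim v t) = 0) → ∀ b, t b = τ b v) := by
  have hex : ∀ b, ∃ (g : MvPowerSeries (α ⊕ β) K) (ε C : ℝ), 0 < ε ∧ IsB ε C g ∧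
      (∀ i, coeff (Finsupp.single i 1) g = L b i) ∧
      ∀ w : α ⊕ β → K, (∀ i, ‖w i‖ < ε) → G b (fun i => Sum.elim z t0 i + w i) = evalS g w := hG
  choose g εs Cs hεs hgB hgL hge using hex
  -- common radius and bound
  obtain ⟨ε₀, hε₀, hε₀le⟩ : ∃ ε₀ : ℝ, 0 < ε₀ ∧ ∀ b, ε₀ ≤ εs b := by
    by_cases hβ : Nonempty β
    · obtain ⟨b₀, -, hb₀⟩ := Finset.exists_min_image (Finset.univ : Finset β) εs
        ⟨hβ.some, Finset.mem_univ _⟩
      exact ⟨εs b₀, hεs _, fun b => hb₀ b (Finset.mem_univ b)⟩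
    · exact ⟨1, one_pos, fun b => (hβ ⟨b⟩).elim⟩
  have hCs : ∀ b, 0 ≤ Cs b := fun b => (hgB b).nonneg (hεs b).le
  set C₀ : ℝ := ∑ b, Cs b with hC₀
  have hC₀0 : 0 ≤ C₀ := Finset.sum_nonneg fun b _ => hCs b
  have hCle : ∀ b, Cs b ≤ C₀ := fun b =>
    Finset.single_le_sum (f := Cs) (fun b _ => hCs b) (Finset.mem_univ b)
  have hgB' : ∀ b, IsB ε₀ C₀ (g b) := fun b =>
    ((hgB b).shrink hε₀.le (hε₀le b)).mono (hCle b)
  have hg0 : ∀ b, constantCoeff (g b) = 0 := fun b => by
    rw [AnAt.value (hεs b) (hge b), h0]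
  obtain ⟨τ, ε', η, hε', hη, hε'η, hηε, hτ0, hτB, hser, -, huniq⟩ := ift_solve (α := α) M N hMN hNM hε₀ hC₀0 hgB' hg0
    (fun i j => by rw [hgL, hM])
  refine ⟨fun b v => t0 b + evalS (τ b) (fun a => v a - z a), fun b a => coeff (Finsupp.single a 1) (τ b),
    ε', η, hε', hη, ?_, ?_, ?_, ?_, ?_⟩
  · intro b
    have : (fun a => z a - z a) = (0 : α → K) := by funext a; simp
    simp only [this, evalS_zero_point, hτ0, add_zero]
  · intro b
    have hc : IsB ε' (max ‖t0 b‖ η) (C (t0 b) : MvPowerSeries α K) :=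
      (isB_C ε' hε'.le (t0 b)).mono (le_max_left _ _)
    have hτ' : IsB ε' (max ‖t0 b‖ η) (τ b) := (hτB b).mono (le_max_right _ _)
    refine ⟨C (t0 b) + τ b, ε', max ‖t0 b‖ η, hε', hc.add hτ' hε'.le, fun a => ?_, fun w hw => ?_⟩
    · rw [map_add, coeff_C, if_neg, zero_add]
      intro h
      have := DFunLike.congr_fun h a
      simp at this
    · rw [evalS_add hε' hc hτ' hw, evalS_C]
      simp
  · intro b a
    have hS0 : ∀ i, constantCoeff (Sum.elim (fun a => (X a : MvPowerSeries α K)) τ i) = 0 := by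
      rintro (a | b)
      · simp
      · simpa using hτ0 b
    have h1 := congrArg (coeff (Finsupp.single a 1)) (hser b)
    rw [coeff_single_subst hS0, Fintype.sum_sum_type, map_zero] at h1
    simp only [Sum.elim_inl, Sum.elim_inr, hgL] at h1
    have h2 : ∀ x : α, L b (Sum.inl x) * coeff (Finsupp.single a 1) (X x : MvPowerSeries α K) =
        if x = a then L b (Sum.inl a) else 0 := by
      intro x
      rw [coeff_X]
      by_cases hx : x = a
      · subst hx; simp
      · rw [if_neg, if_neg hx, mul_zero]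
        intro h
        have := DFunLike.congr_fun h a
        simp [Finsupp.single_apply, hx] at this
    simp only [h2, Finset.sum_ite_eq', Finset.mem_univ, if_true] at h1
    exact h1
  · intro v hv b
    set w : α → K := fun a => v a - z a with hw
    have hle : ∀ b, ‖evalS (τ b) w‖ ≤ η := fun b => norm_evalS_le hε' (hτB b) (fun a => (hv a).le)
    refine ⟨?_, ?_⟩
    · simpa using hle b
    · have hw' : ∀ i, ‖Sum.elim w (fun b => evalS (τ b) w) i‖ < εs b := by
        rintro (a | c)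
        · exact lt_of_lt_of_le (hv a) (hε'η.trans (hηε.le.trans (hε₀le b)))
        · exact lt_of_le_of_lt (hle c) (lt_of_lt_of_le hηε (hε₀le b))
      have h1 := hge b _ hw'
      have e : (fun i => Sum.elim z t0 i + Sum.elim w (fun b => evalS (τ b) w) i) =
          Sum.elim v fun b' => t0 b' + evalS (τ b') w := by
        funext i
        rcases i with a | c
        · simp [hw]
        · simp
      rw [e] at h1
      rw [h1]
      -- the series identity evaluated
      have hS0 : ∀ i, constantCoeff (Sum.elim (fun a => (X a : MvPowerSeries α K)) τ i) = 0 := by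
        rintro (a | b)
        · simp
        · simpa using hτ0 b
      have hSB : ∀ i, IsB ε' η (Sum.elim (fun a => (X a : MvPowerSeries α K)) τ i) := by
        rintro (a | b)
        · exact (isB_X ε' hε'.le a).mono hε'η
        · exact hτB b
      have hgη : IsB η C₀ (g b) := (hgB' b).shrink hη.le hηε.le
      have h2 := evalS_subst hε' hη.le hgη hS0 hSB (z := w) hv
      rw [hser b, evalS_zero] at h2
      have e2 : (fun i => evalS (Sum.elim (fun a => (X a : MvPowerSeries α K)) τ i) w) =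
          Sum.elim w fun b => evalS (τ b) w := by
        funext i
        rcases i with a | c
        · simp [evalS_X]
        · simp
      rw [e2] at h2
      exact h2.symm
  · intro v t hv ht hGz b
    have h1 := huniq (fun a => v a - z a) (fun b => t b - t0 b) hv ht (fun c => ?_) b
    · show t b = t0 b + evalS (τ b) (fun a => v a - z a)
      rw [← h1]; ring
    · have hw' : ∀ i, ‖Sum.elim (fun a => v a - z a) (fun b => t b - t0 b) i‖ < εs c := by
        rintro (a | c')
        · exact lt_of_lt_of_le (hv a) (hε'η.trans (hηε.le.trans (hε₀le c)))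
        · exact lt_of_le_of_lt (ht c') (lt_of_lt_of_le hηε (hε₀le c))
      have h2 := hge c _ hw'
      rw [elim_add_sub, hGz] at h2
      exact h2.symm

/-- **Inverse function theorem**. -/
theorem exists_inverse {f : β → (β → K) → K} {y : β → K} {J : β → β → K}
    (hf : ∀ b, LinAt (f b) y (J b)) (N : Matrix β β K) (hMN : N * Matrix.of J = 1) (hNM : Matrix.of J * N = 1) :
    ∃ (W : β → (β → K) → K) (δ η η₁ : ℝ), 0 < δ ∧ 0 < η ∧ 0 < η₁ ∧
      (∀ b, W b (fun c => f c y) = y b) ∧ (∀ b, LinAt (W b) (fun c => f c y) (N b)) ∧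
      (∀ s : β → K, (∀ a, ‖s a - f a y‖ < δ) → ∀ b, ‖W b s - y b‖ ≤ η ∧ f b (fun c => W c s) = s b) ∧
      (∀ v : β → K, (∀ a, ‖v a - y a‖ < η₁) → ∀ b, W b (fun c => f c v) = v b) := by
  -- `G b (s, t) = f b t - s b`
  let G : β → (β ⊕ β → K) → K := fun b x => f b (fun c => x (Sum.inr c)) - x (Sum.inl b)
  let s0 : β → K := fun c => f c y
  let Lf : β → β ⊕ β → K := fun b => Sum.elim (fun a => if a = b then -1 else 0) (J b)
  have hG : ∀ b, LinAt (G b) (Sum.elim s0 y) (Lf b) := by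
    intro b
    have h1 := (hf b)
    have h2 : LinAt (fun x : β ⊕ β → K => f b (fun c => x (Sum.inr c))) (Sum.elim s0 y)
        (fun j => ∑ i, J b i * (if j = Sum.inr i then 1 else 0)) := by
      refine LinAt.comp (f := f b) (G := fun c (x : β ⊕ β → K) => x (Sum.inr c)) (M := J b)
        (a := Sum.elim s0 y) (fun c => linAt_coord (Sum.inr c) _) ?_
      simpa using h1
    have h3 := h2.sub (linAt_coord (Sum.inl b) (Sum.elim s0 y))
    convert h3 using 2 with j
    rcases j with a | c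
    · simp [Lf]
      by_cases hab : a = b <;> simp [hab]
    · simp [Lf]
  have hG0 : ∀ b, G b (Sum.elim s0 y) = 0 := fun b => by simp [G, s0]
  obtain ⟨τ, Jt, δ, η, hδ, hη, hτ0, hτL, hτrel, hτsol, hτuniq⟩ :=
    exists_implicit (α := β) hG hG0 (Matrix.of J) N (fun b b' => by simp [Lf]) hMN hNM
  -- the Jacobian of `τ`
  have hJt : ∀ b, Jt b = N b := by
    intro b
    funext a
    have h1 : ∀ c a, ∑ b', J c b' * Jt b' a = if a = c then 1 else 0 := by
      intro c a
      have := hτrel c a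
      simp only [Lf, Sum.elim_inl, Sum.elim_inr] at this
      by_cases hac : a = c
      · rw [if_pos hac] at this ⊢
        linear_combination this
      · rw [if_neg hac] at this ⊢
        simpa using this
    have h2 : Matrix.of J * (Matrix.of fun b' a => Jt b' a) = 1 := by
      ext c a'
      rw [Matrix.mul_apply]
      simp only [Matrix.of_apply]
      rw [h1 c a', Matrix.one_apply]
      simp [eq_comm]
    have h3 : (Matrix.of fun b' a => Jt b' a) = N := by
      calc (Matrix.of fun b' a => Jt b' a) = (N * Matrix.of J) * (Matrix.of fun b' a => Jt b' a) := by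
            rw [hMN, Matrix.one_mul]
        _ = N := by rw [Matrix.mul_assoc, h2, Matrix.mul_one]
    have := congrFun (congrFun h3 b) a
    simpa using this
  -- Lipschitz control of `f` near `y`
  have hlip : ∀ b, ∃ (c δ' : ℝ), 0 ≤ c ∧ 0 < δ' ∧ ∀ (x x' : β → K) (r : ℝ), (∀ i, ‖x i - y i‖ < δ') →
      (∀ i, ‖x' i - y i‖ < δ') → 0 ≤ r → (∀ i, ‖x i - x' i‖ ≤ r) → ‖f b x - f b x'‖ ≤ c * r :=
    fun b => (hf b).anAt.exists_lip
  choose c δ' hc hδ' hcl using hlip
  -- common control
  obtain ⟨δ₁, hδ₁, hδ₁η, hδ₁b⟩ : ∃ δ₁ : ℝ, 0 < δ₁ ∧ δ₁ ≤ η ∧ ∀ b, δ₁ ≤ δ' b ∧ c b * δ₁ < δ := by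
    by_cases hβ : Nonempty β
    · have hpos : ∀ b, 0 < min (δ' b) (δ / (c b + 1)) := fun b =>
        lt_min (hδ' b) (div_pos hδ (by linarith [hc b]))
      obtain ⟨b₀, -, hb₀⟩ := Finset.exists_min_image (Finset.univ : Finset β)
        (fun b => min (δ' b) (δ / (c b + 1))) ⟨hβ.some, Finset.mem_univ _⟩
      refine ⟨min (min (δ' b₀) (δ / (c b₀ + 1))) η, lt_min (hpos b₀) hη, min_le_right _ _, fun b => ?_⟩
      have h1 := hb₀ b (Finset.mem_univ b)
      have h2 : min (min (δ' b₀) (δ / (c b₀ + 1))) η ≤ min (δ' b) (δ / (c b + 1)) :=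
        (min_le_left _ _).trans h1
      have hc1 : 0 < c b + 1 := by linarith [hc b]
      refine ⟨h2.trans (min_le_left _ _), ?_⟩
      have h3 : min (min (δ' b₀) (δ / (c b₀ + 1))) η ≤ δ / (c b + 1) := h2.trans (min_le_right _ _)
      rw [le_div_iff₀ hc1] at h3
      have h4 := lt_min (hpos b₀) hη
      nlinarith [hc b]
    · exact ⟨η, hη, le_rfl, fun b => (hβ ⟨b⟩).elim⟩
  -- uniqueness radius
  have hfs : ∀ v : β → K, (∀ a, ‖v a - y a‖ < δ₁) → ∀ a, ‖f a v - s0 a‖ < δ := by
    intro v hv a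
    by_cases hβ : Nonempty β
    · have hvy : ∀ i, ‖v i - y i‖ ≤ δ₁ := fun i => (hv i).le
      have h1 := hcl a v y δ₁ (fun i => lt_of_lt_of_le (hv i) (hδ₁b a).1)
        (fun i => by simpa using lt_of_lt_of_le hδ₁ (hδ₁b a).1) hδ₁.le hvy
      exact lt_of_le_of_lt h1 (hδ₁b a).2
    · exact (hβ ⟨a⟩).elim
  refine ⟨τ, δ, η, δ₁, hδ, hη, hδ₁, hτ0, fun b => ?_, ?_, ?_⟩
  · rw [← hJt b]; exact hτL b
  · intro s hs b
    obtain ⟨h1, h2⟩ := hτsol s hs b
    refine ⟨h1, ?_⟩
    simpa [G, sub_eq_zero] using h2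
  · intro v hv b
    refine (hτuniq (fun c => f c v) v (hfs v hv) (fun c => (hv c).le.trans hδ₁η) (fun c => ?_) b).symm
    simp [G]

end ift

end Crest.Agent.LT
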