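/-
E4: the truncated homomorphism attached to the graph of the germ theorem. BLUEPRINT §E4.
Partial evaluation of series in two groups of variables, the identity principle
(a consequence of the germ theorem), and `hom_of_germ`.
-/
import Crest.Agent.Lib.LT.P3Germ
import Crest.Agent.Lib.LT.FG

set_option autoImplicit false
set_option linter.unusedSectionVars false
set_option linter.unusedVariables false
set_option linter.unnecessarySimpa false

namespace Crest.Agent.LT

open MvPowerSeries Filter Topology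

variable {K : Type*} [NontriviallyNormedField K] [IsUltrametricDist K] [CompleteSpace K]

section peval

variable {α β : Type*} [Fintype α] [Fintype β]

/-- The coefficient of the monomial `γ` in the second group of variables, a series in the first. -/
noncomputable def coeffB (γ : β →₀ ℕ) (f : MvPowerSeries (α ⊕ β) K) : MvPowerSeries α K :=
  fun δ => coeff (Finsupp.sumElim δ γ) f

omit [IsUltrametricDist K] [CompleteSpace K] [Fintype α] [Fintype β] in
@[simp] lemma coeff_coeffB (γ : β →₀ ℕ) (δ : α →₀ ℕ) (f : MvPowerSeries (α ⊕ β) K) :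
    coeff δ (coeffB γ f) = coeff (Finsupp.sumElim δ γ) f := rfl

omit [IsUltrametricDist K] [CompleteSpace K] [Fintype α] [Fintype β] in
lemma degree_sumElim (δ : α →₀ ℕ) (γ : β →₀ ℕ) :
    Finsupp.degree (Finsupp.sumElim δ γ) = Finsupp.degree δ + Finsupp.degree γ := by
  classical
  have h : Finsupp.sumElim δ γ = Finsupp.sumElim δ 0 + Finsupp.sumElim 0 γ := by
    ext (a | b) <;> simp
  have h1 : ∀ δ : α →₀ ℕ, Finsupp.degree (Finsupp.sumElim δ (0 : β →₀ ℕ)) = Finsupp.degree δ := by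
    intro δ
    induction δ using Finsupp.induction_linear with
    | zero => simp
    | add f g hf hg =>
      have : Finsupp.sumElim (f + g) (0 : β →₀ ℕ) = Finsupp.sumElim f 0 + Finsupp.sumElim g 0 := by
        ext (a | b) <;> simp
      rw [this, map_add, map_add, hf, hg]
    | single a n => simp
  have h2 : ∀ γ : β →₀ ℕ, Finsupp.degree (Finsupp.sumElim (0 : α →₀ ℕ) γ) = Finsupp.degree γ := by
    intro γ
    induction γ using Finsupp.induction_linear with
    | zero => simp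
    | add f g hf hg =>
      have : Finsupp.sumElim (0 : α →₀ ℕ) (f + g) = Finsupp.sumElim 0 f + Finsupp.sumElim 0 g := by
        ext (a | b) <;> simp
      rw [this, map_add, map_add, hf, hg]
    | single a n => simp
  rw [h, map_add, h1, h2]

omit [CompleteSpace K] [IsUltrametricDist K] in
lemma IsB.coeffB {ε C : ℝ} (hε : 0 < ε) {f : MvPowerSeries (α ⊕ β) K} (hf : IsB ε C f)
    (γ : β →₀ ℕ) : IsB ε (C / ε ^ Finsupp.degree γ) (coeffB γ f) := by
  intro δ
  rw [coeff_coeffB, le_div_iff₀ (pow_pos hε _)]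
  have h := hf (Finsupp.sumElim δ γ)
  rw [degree_sumElim, pow_add] at h
  calc _ = ‖coeff (Finsupp.sumElim δ γ) f‖ * (ε ^ Finsupp.degree δ * ε ^ Finsupp.degree γ) := by ring
    _ ≤ C := h

/-- Partial evaluation of a series in `α ⊕ β` at a point of `K^α`. -/
noncomputable def peval (z : α → K) (f : MvPowerSeries (α ⊕ β) K) : MvPowerSeries β K :=
  fun γ => evalS (coeffB γ f) z

omit [IsUltrametricDist K] [CompleteSpace K] in
@[simp] lemma coeff_peval (z : α → K) (f : MvPowerSeries (α ⊕ β) K) (γ : β →₀ ℕ) :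
    coeff γ (peval z f) = evalS (coeffB γ f) z := rfl

lemma IsB.peval {ε C : ℝ} (hε : 0 < ε) {f : MvPowerSeries (α ⊕ β) K} (hf : IsB ε C f) {z : α → K}
    (hz : ∀ i, ‖z i‖ ≤ ε) : IsB ε C (peval z f) := by
  intro γ
  rw [coeff_peval, ← le_div_iff₀ (pow_pos hε _)]
  exact norm_evalS_le hε (hf.coeffB hε γ) hz

omit [IsUltrametricDist K] [CompleteSpace K] in
lemma mval_sum_elim (z : α → K) (w : β → K) (δ : α →₀ ℕ) (γ : β →₀ ℕ) :
    mval (Sum.elim z w) (Finsupp.sumElim δ γ) = mval z δ * mval w γ := by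
  simp [mval, Fintype.prod_sum_type]

/-- Fubini for partial evaluation. -/
lemma evalS_peval {ε C : ℝ} (hε : 0 < ε) {f : MvPowerSeries (α ⊕ β) K} (hf : IsB ε C f) {z : α → K}
    {w : β → K} (hz : ∀ i, ‖z i‖ < ε) (hw : ∀ i, ‖w i‖ < ε) :
    evalS (peval z f) w = evalS f (Sum.elim z w) := by
  classical
  obtain ⟨ρ₁, h₁0, h₁ε, h₁⟩ := exists_radius hε hz
  obtain ⟨ρ₂, h₂0, h₂ε, h₂⟩ := exists_radius hε hw
  set ρ := max ρ₁ ρ₂ with hρdef
  have hρ0 : 0 ≤ ρ := le_max_of_le_left h₁0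
  have hρε : ρ < ε := max_lt h₁ε h₂ε
  have hzρ : ∀ i, ‖z i‖ ≤ ρ := fun i => (h₁ i).trans (le_max_left _ _)
  have hwρ : ∀ i, ‖w i‖ ≤ ρ := fun i => (h₂ i).trans (le_max_right _ _)
  have hC := hf.nonneg hε.le
  let t : (β →₀ ℕ) × (α →₀ ℕ) → K := fun q =>
    coeff (Finsupp.sumElim q.2 q.1) f * mval z q.2 * mval w q.1
  have hsumm : Summable t := by
    apply NonarchimedeanAddGroup.summable_of_tendsto_cofinite_zero
    refine tendsto_pair_aux2 (C := C) (r := ρ / ε) hC (div_nonneg hρ0 hε.le)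
      ((div_lt_one hε).mpr hρε) fun q => ?_
    have h3 := norm_mval_le hρ0 hzρ q.2
    have h4 := norm_mval_le hρ0 hwρ q.1
    have h5 := hf (Finsupp.sumElim q.2 q.1)
    rw [degree_sumElim] at h5
    have hε' : 0 < ε ^ (Finsupp.degree q.2 + Finsupp.degree q.1) := pow_pos hε _
    have h6 : ‖coeff (Finsupp.sumElim q.2 q.1) f‖ ≤ C / ε ^ (Finsupp.degree q.2 + Finsupp.degree q.1) := by
      rw [le_div_iff₀ hε']; exact h5
    simp only [t, norm_mul]
    calc _ ≤ C / ε ^ (Finsupp.degree q.2 + Finsupp.degree q.1) * ρ ^ Finsupp.degree q.2 *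
            ρ ^ Finsupp.degree q.1 := by
          have : 0 ≤ C / ε ^ (Finsupp.degree q.2 + Finsupp.degree q.1) := by positivity
          gcongr
      _ = C * (ρ / ε) ^ (Finsupp.degree q.1 + Finsupp.degree q.2) := by
          rw [div_pow, add_comm (Finsupp.degree q.1), pow_add ρ]; ring
  have h1 : evalS (peval z f) w = ∑' γ : β →₀ ℕ, ∑' δ : α →₀ ℕ, t (γ, δ) := by
    refine tsum_congr fun γ => ?_
    rw [coeff_peval, evalS, ← tsum_mul_right]
    refine tsum_congr fun δ => ?_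
    rfl
  have h2 : evalS f (Sum.elim z w) = ∑' q, t q := by
    let e := (Finsupp.sumFinsuppEquivProdFinsupp (α := α) (β := β) (γ := ℕ)).trans
      (Equiv.prodComm _ _)
    rw [evalS, ← e.symm.tsum_eq]
    refine tsum_congr fun q => ?_
    have he : e.symm q = Finsupp.sumElim q.2 q.1 := by
      ext (a | b) <;> simp [e, Finsupp.sumFinsuppEquivProdFinsupp]
    rw [he, mval_sum_elim]
    simp only [t]
    ring
  rw [h1, h2, hsumm.tsum_prod' (fun γ => hsumm.prod_factor γ)]

end peval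

section identity

variable {σ : Type*} [Fintype σ] [DecidableEq σ]

omit [CompleteSpace K] [DecidableEq σ] in
/-- Value at the origin. -/
lemma evalS_zero_pt (f : MvPowerSeries σ K) : evalS f (0 : σ → K) = constantCoeff f := by
  classical
  rw [evalS, tsum_eq_single (0 : σ →₀ ℕ)]
  · simp
  · intro d hd
    obtain ⟨i, hi⟩ : ∃ i, d i ≠ 0 := by
      by_contra hcon
      push Not at hcon
      exact hd (Finsupp.ext hcon)
    have : mval (0 : σ → K) d = 0 := by
      rw [mval]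
      exact Finset.prod_eq_zero (Finset.mem_univ i) (by simp [hi])
    rw [this, mul_zero]

/-- The balls form a germ setting. -/
lemma isGermSetting_ball {ρ τ : ℝ} (hρ : 0 < ρ) (hτ0 : 0 < τ) (hτ1 : τ < 1) :
    IsGermSetting (fun r : ℕ => {ω : σ → K | ∀ i, ‖ω i‖ < ρ * τ ^ r}) := by
  classical
  have hlim : Tendsto (fun r : ℕ => ρ * τ ^ r) atTop (𝓝 0) := by
    simpa using (tendsto_pow_atTop_nhds_zero_of_lt_one hτ0.le hτ1).const_mul ρ
  have hanti : ∀ r r' : ℕ, r ≤ r' → ρ * τ ^ r' ≤ ρ * τ ^ r := fun r r' h => by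
    have := pow_le_pow_of_le_one hτ0.le hτ1.le h
    gcongr
  refine ⟨fun r r' hrr' ω hω i => lt_of_lt_of_le (hω i) (hanti r r' hrr'),
    fun r i => by simpa using mul_pos hρ (pow_pos hτ0 r), ?_, ?_⟩
  · intro δ hδ
    obtain ⟨r, hr⟩ := ((tendsto_order.1 hlim).2 δ hδ).exists
    exact ⟨r, fun ω hω i => (hω i).trans hr⟩
  · refine ⟨1, 1, one_pos, fun δ hδ => ?_⟩
    obtain ⟨r₁, hr₁⟩ := ((tendsto_order.1 hlim).2 1 one_pos).exists
    refine ⟨r₁, fun r hr ω hω => ⟨fun i => C (ω i) + X i, fun i => by simp, fun i => ?_,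
      fun i j => ?_, fun ω' hω' => ?_⟩⟩
    · have h1 : ‖ω i‖ ≤ 1 := ((hω i).trans_le (hanti _ _ hr)).le.trans hr₁.le
      exact ((isB_C 1 zero_le_one (ω i)).mono h1).add (isB_X 1 zero_le_one i) zero_le_one
    · have hne : (Finsupp.single j 1 : σ →₀ ℕ) ≠ 0 := by simp
      rw [map_add, coeff_C, if_neg hne, zero_add, coeff_index_single_X]
      by_cases hij : i = j
      · subst hij; simpa using hδ.le
      · simpa [hij, Ne.symm hij] using hδ.le
    · intro i
      have hsm : ρ * τ ^ r ≤ 1 := (hanti _ _ hr).trans hr₁.le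
      have hb1 : ∀ k, ‖ω k‖ ≤ 1 := fun k => (hω k).le.trans hsm
      have hball : ∀ k, ‖ω' k‖ < 1 := fun k => (hω' k).trans_le hsm
      have hsum : evalS (C (ω i) + X i : MvPowerSeries σ K) ω' = ω i + ω' i := by
        rw [evalS_add one_pos ((isB_C 1 zero_le_one (ω i)).mono (hb1 i)) (isB_X 1 zero_le_one i)
          hball, evalS_C, evalS_X]
      simp only [hsum]
      refine lt_of_le_of_lt (IsUltrametricDist.norm_add_le_max _ _) (max_lt (hω i) (hω' i))

/-- **Identity principle.** A bounded series vanishing on a ball is zero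
(a consequence of the germ theorem). -/
theorem eq_zero_of_evalS_ball (p : ℕ) [hp : Fact p.Prime] [CharP K p] [PerfectRing K p]
    {f : MvPowerSeries σ K} {ε C ρ : ℝ} (hε : 0 < ε) (hf : IsB ε C f) (hρ : 0 < ρ)
    (hv : ∀ z : σ → K, (∀ i, ‖z i‖ < ρ) → evalS f z = 0) : f = 0 := by
  classical
  by_contra hf0
  obtain ⟨x, hx0, hx1⟩ := NormedField.exists_norm_lt_one K
  set τ := ‖x‖ with hτ
  have hset := isGermSetting_ball (σ := σ) (K := K) hρ hx0 hx1
  have hlim : Tendsto (fun r : ℕ => ρ * τ ^ r) atTop (𝓝 0) := by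
    simpa using (tendsto_pow_atTop_nhds_zero_of_lt_one hx0.le hx1).const_mul ρ
  have hI : InI (fun r : ℕ => {ω : σ → K | ∀ i, ‖ω i‖ < ρ * τ ^ r}) f := by
    refine hset.inI_of (r := 0) hε hf fun ω hω => hv ω fun i => ?_
    simpa using hω i
  obtain ⟨E, G, hE, hG0, -, -, ⟨r, hr⟩, -⟩ := germ_main p hset hI hf0
  obtain ⟨l, hl⟩ : ∃ l, l ∉ E := by
    by_contra hcon
    push Not at hcon
    exact hE (Finset.eq_univ_iff_forall.mpr hcon)
  -- a small nonzero point on the `l`-axis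
  have hpos : 0 < ρ * τ ^ r := mul_pos hρ (pow_pos hx0 r)
  obtain ⟨t, ht0, ht1⟩ : ∃ t : K, t ≠ 0 ∧ ‖t‖ < ρ * τ ^ r := by
    obtain ⟨t, ht⟩ := NormedField.exists_norm_lt K hpos
    exact ⟨t, norm_pos_iff.mp ht.1, ht.2⟩
  have hω : Function.update (0 : σ → K) l t ∈ {ω : σ → K | ∀ i, ‖ω i‖ < ρ * τ ^ r} := by
    intro i
    by_cases hi : i = l
    · subst hi; simpa using ht1
    · simpa [Function.update_of_ne hi] using hpos
  have h := hr _ hω l
  have hpr : prE E (Function.update (0 : σ → K) l t) = 0 := by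
    funext j
    have : (j : σ) ≠ l := fun h' => hl (h' ▸ j.2)
    simp [prE, Function.update_of_ne this]
  rw [hpr, evalS_zero_pt, hG0] at h
  exact ht0 (by simpa using h)

/-- Two bounded series with the same values on a ball are equal. -/
theorem eq_of_evalS_ball (p : ℕ) [hp : Fact p.Prime] [CharP K p] [PerfectRing K p]
    {f g : MvPowerSeries σ K} {ε C ρ : ℝ} (hε : 0 < ε) (hf : IsB ε C f) (hg : IsB ε C g)
    (hρ : 0 < ρ) (hv : ∀ z : σ → K, (∀ i, ‖z i‖ < ρ) → evalS f z = evalS g z) : f = g := by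
  have h := eq_zero_of_evalS_ball p hε (hf.sub hg hε.le) (lt_min hρ hε) fun z hz => by
    rw [evalS_sub hε hf hg fun i => (hz i).trans_le (min_le_right _ _),
      hv z fun i => (hz i).trans_le (min_le_left _ _), sub_self]
  exact sub_eq_zero.mp h

end identity

section cong

variable {σ τ : Type*} [Fintype σ] [Fintype τ]

omit [IsUltrametricDist K] [CompleteSpace K] in
lemma subst_sub_of_zero {G : τ → MvPowerSeries σ K} (hG : ∀ i, constantCoeff (G i) = 0)
    (f f' : MvPowerSeries τ K) : (f - f').subst G = f.subst G - f'.subst G := by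
  have ha := hasSubst_of_zero hG
  rw [← coe_substAlgHom ha, map_sub]

omit [CompleteSpace K] in
/-- Substitution does not lower the order. -/
lemma OrdGe.subst {G : τ → MvPowerSeries σ K} (hG : ∀ i, constantCoeff (G i) = 0) {N : ℕ}
    {f : MvPowerSeries τ K} (hf : OrdGe N f) : OrdGe N (f.subst G) := by
  intro γ hγ
  rw [coeff_subst_eq_tsum hG]
  refine (tsum_congr fun d => ?_).trans tsum_zero
  by_cases hd : Finsupp.degree d < N
  · rw [hf d hd, zero_mul]
  · rw [coeff_prod_eq_zero_of_degree_lt hG d γ (by omega), mul_zero]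

omit [CompleteSpace K] in
lemma CongO.subst_left {G : τ → MvPowerSeries σ K} (hG : ∀ i, constantCoeff (G i) = 0) {N : ℕ}
    {f f' : MvPowerSeries τ K} (h : CongO N f f') : CongO N (f.subst G) (f'.subst G) := by
  rw [congO_iff, ← subst_sub_of_zero hG]
  exact (congO_iff.mp h).subst hG

omit [CompleteSpace K] in
lemma CongO.subst_right {G G' : τ → MvPowerSeries σ K} (hG : ∀ i, constantCoeff (G i) = 0)
    (hG' : ∀ i, constantCoeff (G' i) = 0) {N : ℕ} (h : ∀ i, CongO N (G i) (G' i))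
    (A : MvPowerSeries τ K) : CongO N (A.subst G) (A.subst G') := by
  classical
  intro e he
  rw [coeff_subst_eq_tsum hG, coeff_subst_eq_tsum hG']
  refine tsum_congr fun d => ?_
  by_cases hd0 : Finsupp.degree d = 0
  · have : d = 0 := (Finsupp.degree_eq_zero_iff d).mp hd0
    subst this
    simp
  have hN : 1 ≤ N := by omega
  have key := ordGe_prod_sub (fun i => ordGe_one_of_const (hG i))
    (fun i => ordGe_one_of_const (hG' i)) hN (fun i => congO_iff.mp (h i)) (fun i => d i) Finset.univ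
  rw [← degree_eq_sum] at key
  have h2 := key e (by omega)
  rw [map_sub, sub_eq_zero] at h2
  rw [h2]

end cong

section radii

variable {σ : Type*} [Fintype σ]

/-- A radius at which a bounded series with zero constant term has Gauss norm at most `η`. -/
noncomputable def smallR (ε C η : ℝ) : ℝ := min 1 (η / (|C| + 1)) * ε

lemma smallR_pos {ε C η : ℝ} (hε : 0 < ε) (hη : 0 < η) : 0 < smallR ε C η :=
  mul_pos (lt_min one_pos (by positivity)) hε

lemma smallR_le {ε C η : ℝ} (hε : 0 < ε) : smallR ε C η ≤ ε := by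
  calc smallR ε C η ≤ 1 * ε := mul_le_mul_of_nonneg_right (min_le_left _ _) hε.le
    _ = ε := one_mul _

omit [CompleteSpace K] in
lemma isB_smallR {ε C η : ℝ} (hε : 0 < ε) (hη : 0 < η) {f : MvPowerSeries σ K}
    (h0 : constantCoeff f = 0) (hf : IsB ε C f) : IsB (smallR ε C η) η f := by
  have hl0 : 0 < min 1 (η / (|C| + 1)) := lt_min one_pos (by positivity)
  refine (hf.scale h0 hε.le hl0.le (min_le_left _ _)).mono ?_
  have h1 : min 1 (η / (|C| + 1)) ≤ η / (|C| + 1) := min_le_right _ _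
  rw [le_div_iff₀ (by positivity)] at h1
  have h2 : C ≤ |C| + 1 := (le_abs_self C).trans (by linarith)
  exact (mul_le_mul_of_nonneg_left h2 hl0.le).trans h1

/-- Strict Schwarz bound. -/
lemma norm_evalS_lt_of_const_zero {f : MvPowerSeries σ K} {ε C : ℝ} (hε : 0 < ε) (hC : 0 < C)
    (hf : IsB ε C f) (h0 : constantCoeff f = 0) {z : σ → K} (hz : ∀ i, ‖z i‖ < ε) :
    ‖evalS f z‖ < C := by
  obtain ⟨ρ, hρ0, hρ1, hρ2⟩ := exists_radius hε hz
  have h1 := norm_evalS_le_of_const_zero hε hρ0 hρ1.le hf h0 hρ2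
  refine lt_of_le_of_lt h1 ?_
  have : ρ / ε < 1 := (div_lt_one hε).mpr hρ1
  nlinarith

end radii

section graph

variable {σ : Type*} [Fintype σ] [DecidableEq σ] {Ω : ℕ → Set (σ → K)}
variable {E : Finset σ} {G : σ → MvPowerSeries E K}

/-- The germ map `F` preserves the graph of `G`, as an identity of series in the variables `E`. -/
lemma graph_preserved (h : IsGermSetting Ω) (hG0 : ∀ i, constantCoeff (G i) = 0) {εG CG : ℝ}
    (hεG : 0 < εG) (hGB : ∀ i, IsB εG CG (G i)) {rG : ℕ}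
    (hgraph : ∀ ω ∈ Ω rG, ∀ i, ω i = evalS (G i) (prE E ω))
    (hI : ∀ a : MvPowerSeries E K, InI (prFam Ω E) a → a = 0)
    {r : ℕ} (hr : rG ≤ r) {ω : σ → K} (hω : ω ∈ Ω r) (hz : ∀ i, ‖ω i‖ < εG)
    {F : σ → MvPowerSeries σ K} {ε₀ C₀ : ℝ} (hε₀ : 0 < ε₀) (hF0 : ∀ i, constantCoeff (F i) = ω i)
    (hFB : ∀ i, IsB ε₀ C₀ (F i)) (hFs : ∀ ω' ∈ Ω r, (fun i => evalS (F i) ω') ∈ Ω r) (l : σ) :
    (F l).subst G = (shift (prE E ω) (G l)).subst fun j : E => (F j).subst G - C (ω j) := by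
  classical
  set εa := smallR εG CG ε₀ with hεa
  have hεa0 : 0 < εa := smallR_pos hεG hε₀
  have hGa : ∀ i, IsB εa ε₀ (G i) := fun i => isB_smallR hεG hε₀ (hG0 i) (hGB i)
  have hFsub : ∀ i, IsB εa C₀ ((F i).subst G) := fun i => IsB.subst hεa0 hε₀.le (hFB i) hG0 hGa
  have hωC : ∀ i, ‖ω i‖ ≤ C₀ := fun i => by
    have := hFB i 0
    simpa [hF0] using this
  have hCB : ∀ i, IsB εa C₀ (C (ω i) : MvPowerSeries E K) := fun i =>
    (isB_C εa hεa0.le (ω i)).mono (hωC i)
  set Bf : E → MvPowerSeries E K := fun j => (F j).subst G - C (ω j) with hBf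
  have hBf0 : ∀ j, constantCoeff (Bf j) = 0 := fun j => by
    simp only [hBf, map_sub, constantCoeff_C]
    rw [constantCoeff_subst_of_zero hG0, hF0, sub_self]
  have hBfB : ∀ j, IsB εa C₀ (Bf j) := fun j => (hFsub j).sub (hCB j) hεa0.le
  set εb := smallR εa C₀ εG with hεb
  have hεb0 : 0 < εb := smallR_pos hεa0 hεG
  have hεba : εb ≤ εa := smallR_le hεa0
  have hBfG : ∀ j, IsB εb εG (Bf j) := fun j => isB_smallR hεa0 hεG (hBf0 j) (hBfB j)
  have hzE : ∀ i, ‖prE E ω i‖ < εG := fun i => hz i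
  have hshift : IsB εG CG (shift (prE E ω) (G l)) := (hGB l).shift hεG fun i => (hzE i).le
  have hC₀ : 0 ≤ C₀ := (hFB l).nonneg hε₀.le
  have hCG : 0 ≤ CG := (hGB l).nonneg hεG.le
  have hZB : IsB εb (max C₀ CG) ((F l).subst G - (shift (prE E ω) (G l)).subst Bf) :=
    (((hFsub l).shrink hεb0.le hεba).mono (le_max_left _ _)).sub
      ((IsB.subst hεb0 hεG.le hshift hBf0 hBfG).mono (le_max_right _ _)) hεb0.le
  obtain ⟨rb, hrb⟩ := h.small εb hεb0
  have hzero : (F l).subst G - (shift (prE E ω) (G l)).subst Bf = 0 := by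
    refine hI _ ⟨εb, max C₀ CG, max r rb, hεb0, hZB, ?_, ?_⟩
    · rintro _ ⟨ω', hω', rfl⟩ i
      exact hrb ω' (h.anti (le_max_right _ _) hω') i
    · rintro _ ⟨ω', hω', rfl⟩
      have hω'r : ω' ∈ Ω r := h.anti (le_max_left _ _) hω'
      have hω'G : ω' ∈ Ω rG := h.anti hr hω'r
      have hball : ∀ a : E, ‖prE E ω' a‖ < εb := fun a =>
        hrb ω' (h.anti (le_max_right _ _) hω') a
      have hball' : ∀ a : E, ‖prE E ω' a‖ < εa := fun a => (hball a).trans_le hεba
      have hgr : (fun k => evalS (G k) (prE E ω')) = ω' := by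
        funext k; exact (hgraph ω' hω'G k).symm
      have hF1 : ∀ i, evalS ((F i).subst G) (prE E ω') = evalS (F i) ω' := fun i => by
        rw [evalS_subst hεa0 hε₀.le (hFB i) hG0 hGa hball', hgr]
      have hval : ∀ j, evalS (Bf j) (prE E ω') = evalS (F j) ω' - ω j := fun j => by
        simp only [hBf]
        rw [evalS_sub hεa0 (hFsub j) (hCB j) hball', evalS_C, hF1]
      have hw : ∀ j, ‖evalS (Bf j) (prE E ω')‖ < εG := fun j =>
        norm_evalS_lt_of_const_zero hεb0 hεG (hBfG j) (hBf0 j) hball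
      rw [evalS_sub hεb0 ((hFsub l).shrink hεb0.le hεba |>.mono (le_max_left _ _))
        ((IsB.subst hεb0 hεG.le hshift hBf0 hBfG).mono (le_max_right _ _)) hball,
        evalS_subst hεb0 hεG.le hshift hBf0 hBfG hball, evalS_shift hεG (hGB l) hzE hw, hF1, sub_eq_zero]
      have hid : (prE E ω + fun j => evalS (Bf j) (prE E ω')) =
          prE E (fun i => evalS (F i) ω') := by
        funext j
        simp only [Pi.add_apply, hval, prE]
        ring
      rw [hid]
      exact hgraph _ (h.anti hr (hFs ω' hω'r)) l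
  exact sub_eq_zero.mp hzero

/-- **E4, the truncated homomorphism.** If the germ maps agree modulo `A`-order `N` with a series `S(s,A)`
(`hact`) and `S(s,A) ≡ s +_Γ A` modulo total degree `N` (`hb`), then
`G(s +_Γ A) ≡ G(s) +_Γ G(A)` modulo total degree `N`, coordinatewise. -/
theorem hom_of_germ (p : ℕ) [hp : Fact p.Prime] [CharP K p] [PerfectRing K p]
    (h : IsGermSetting Ω) (hG0 : ∀ i, constantCoeff (G i) = 0) {εG CG : ℝ}
    (hεG : 0 < εG) (hGB : ∀ i, IsB εG CG (G i)) (hGE : ∀ i (hi : i ∈ E), G i = X ⟨i, hi⟩)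
    {rG : ℕ} (hgraph : ∀ ω ∈ Ω rG, ∀ i, ω i = evalS (G i) (prE E ω))
    (hI : ∀ a : MvPowerSeries E K, InI (prFam Ω E) a → a = 0)
    (Γ : FormalGroup K) {N : ℕ} (hN : 1 ≤ N) {S : σ → MvPowerSeries (σ ⊕ σ) K} {εS CS : ℝ}
    (hεS : 0 < εS) (hSB : ∀ i, IsB εS CS (S i)) {ε₀ C₀ : ℝ} (hε₀ : 0 < ε₀) {r₂ : ℕ}
    (hact : ∀ r ≥ r₂, ∀ ω ∈ Ω r, ∃ F : σ → MvPowerSeries σ K, (∀ i, constantCoeff (F i) = ω i) ∧
      (∀ i, IsB ε₀ C₀ (F i)) ∧ (∀ ω' ∈ Ω r, (fun i => evalS (F i) ω') ∈ Ω r) ∧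
      ∀ i, CongO N (F i) (peval ω (S i)))
    (hb : ∀ i, CongO N (S i) (fgAdd Γ (X (Sum.inl i)) (X (Sum.inr i)))) (l : σ) :
    CongO N ((G l).subst fun j : E =>
        fgAdd Γ (X (Sum.inl j) : MvPowerSeries (E ⊕ E) K) (X (Sum.inr j)))
      (fgAdd Γ ((G l).subst fun j : E => (X (Sum.inl j) : MvPowerSeries (E ⊕ E) K))
        ((G l).subst fun j : E => (X (Sum.inr j) : MvPowerSeries (E ⊕ E) K))) := by
  classical
  have hS0 : ∀ i, constantCoeff (S i) = 0 := fun i => by
    have h1 := hb i 0 (by simp; omega)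
    rw [coeff_zero_eq_constantCoeff_apply, coeff_zero_eq_constantCoeff_apply] at h1
    rw [h1]
    exact constantCoeff_fgAdd_of Γ (by simp) (by simp)
  have hXl : ∀ j : E, constantCoeff (X (Sum.inl j) : MvPowerSeries (E ⊕ E) K) = 0 := fun j => by simp
  have hXr : ∀ j : E, constantCoeff (X (Sum.inr j) : MvPowerSeries (E ⊕ E) K) = 0 := fun j => by simp
  set ε₁ := smallR εG CG εS with hε₁def
  have hε₁ : 0 < ε₁ := smallR_pos hεG hεS
  have hGS : ∀ i, IsB ε₁ εS (G i) := fun i => isB_smallR hεG hεS (hG0 i) (hGB i)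
  set Gs : σ → MvPowerSeries (E ⊕ E) K := fun i => (G i).subst fun j : E => X (Sum.inl j) with hGs
  set Ga : σ → MvPowerSeries (E ⊕ E) K := fun i => (G i).subst fun j : E => X (Sum.inr j) with hGa
  have hGsB : ∀ i, IsB ε₁ εS (Gs i) := fun i =>
    IsB.subst hε₁ hε₁.le (hGS i) hXl fun j => isB_X ε₁ hε₁.le _
  have hGaB : ∀ i, IsB ε₁ εS (Ga i) := fun i =>
    IsB.subst hε₁ hε₁.le (hGS i) hXr fun j => isB_X ε₁ hε₁.le _
  have hGs0 : ∀ i, constantCoeff (Gs i) = 0 := fun i => by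
    simp only [hGs]; rw [constantCoeff_subst_of_zero hXl, hG0]
  have hGa0 : ∀ i, constantCoeff (Ga i) = 0 := fun i => by
    simp only [hGa]; rw [constantCoeff_subst_of_zero hXr, hG0]
  set Θ : σ ⊕ σ → MvPowerSeries (E ⊕ E) K := Sum.elim Gs Ga with hΘ
  have hΘ0 : ∀ x, constantCoeff (Θ x) = 0 := by
    rintro (a | b)
    · exact hGs0 a
    · exact hGa0 b
  have hΘB : ∀ x, IsB ε₁ εS (Θ x) := by
    rintro (a | b)
    · exact hGsB a
    · exact hGaB b
  set T : σ → MvPowerSeries (E ⊕ E) K := fun i => (S i).subst Θ with hT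
  have hT0 : ∀ i, constantCoeff (T i) = 0 := fun i => by
    simp only [hT]; rw [constantCoeff_subst_of_zero hΘ0, hS0]
  have hTB : ∀ i, IsB ε₁ CS (T i) := fun i => IsB.subst hε₁ hεS.le (hSB i) hΘ0 hΘB
  set ε₂ := smallR ε₁ CS εG with hε₂def
  have hε₂ : 0 < ε₂ := smallR_pos hε₁ hεG
  have hε₂₁ : ε₂ ≤ ε₁ := smallR_le hε₁
  have hTG : ∀ i, IsB ε₂ εG (T i) := fun i => isB_smallR hε₁ hεG (hT0 i) (hTB i)
  set Tr : E → MvPowerSeries (E ⊕ E) K := fun j => T j with hTr
  have hTr0 : ∀ j, constantCoeff (Tr j) = 0 := fun j => hT0 j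
  have hTrG : ∀ j, IsB ε₂ εG (Tr j) := fun j => hTG j
  set D : ℝ := max CS CG with hD
  have hW1 : ∀ l, IsB ε₂ D (T l) := fun l => ((hTB l).shrink hε₂.le hε₂₁).mono (le_max_left _ _)
  have hW2 : ∀ l, IsB ε₂ D ((G l).subst Tr) := fun l =>
    (IsB.subst hε₂ hεG.le (hGB l) hTr0 hTrG).mono (le_max_right _ _)
  have hWB : ∀ l, IsB ε₂ D (T l - (G l).subst Tr) := fun l => (hW1 l).sub (hW2 l) hε₂.le
  -- the `A`-coefficients of `W` vanish
  have hclaim : ∀ (l : σ) (β : E →₀ ℕ), Finsupp.degree β < N →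
      coeffB β (T l - (G l).subst Tr) = 0 := by
    intro l β hβ
    set δ₀ : ℝ := min ε₂ (min εS εG) with hδ₀
    have hδ₀0 : 0 < δ₀ := lt_min hε₂ (lt_min hεS hεG)
    obtain ⟨r₀, hr₀⟩ := h.small δ₀ hδ₀0
    set r : ℕ := max (max r₂ rG) r₀ with hr
    refine hI _ ⟨ε₂, D / ε₂ ^ Finsupp.degree β, r, hε₂, (hWB l).coeffB hε₂ β, ?_, ?_⟩
    · rintro _ ⟨ω, hω, rfl⟩ i
      exact (hr₀ ω (h.anti (le_max_right _ _) hω) i).trans_le (min_le_left _ _)
    rintro _ ⟨ω, hω, rfl⟩
    have hωsm : ∀ i, ‖ω i‖ < δ₀ := hr₀ ω (h.anti (le_max_right _ _) hω)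
    have hω2 : ∀ i, ‖ω i‖ < ε₂ := fun i => (hωsm i).trans_le (min_le_left _ _)
    have hωS : ∀ i, ‖ω i‖ < εS := fun i =>
      (hωsm i).trans_le ((min_le_right _ _).trans (min_le_left _ _))
    have hωG : ∀ i, ‖ω i‖ < εG := fun i =>
      (hωsm i).trans_le ((min_le_right _ _).trans (min_le_right _ _))
    have hrr₂ : r₂ ≤ r := (le_max_left _ _).trans (le_max_left _ _)
    have hrrG : rG ≤ r := (le_max_right _ _).trans (le_max_left _ _)
    obtain ⟨F, hF0, hFB, hFs, hFc⟩ := hact r hrr₂ ω hω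
    have hZ := graph_preserved h hG0 hεG hGB hgraph hI hrrG hω hωG hε₀ hF0 hFB hFs l
    set z : E → K := prE E ω with hz
    have hzG : ∀ i, ‖z i‖ < εG := fun i => hωG i
    have hz2 : ∀ i, ‖z i‖ < ε₂ := fun i => hω2 i
    set U : σ → MvPowerSeries σ K := fun i => peval ω (S i) with hU
    have hUB : ∀ i, IsB εS CS (U i) := fun i => (hSB i).peval hεS fun k => (hωS k).le
    have hU0 : ∀ i, constantCoeff (U i) = ω i := fun i => by
      have h1 := hFc i 0 (by simp; omega)
      rw [coeff_zero_eq_constantCoeff_apply, coeff_zero_eq_constantCoeff_apply, hF0] at h1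
      exact h1.symm
    have hωC : ∀ i, ‖ω i‖ ≤ CS := fun i => by
      have := hUB i 0
      simpa [hU0] using this
    set Usub : σ → MvPowerSeries E K := fun i => (U i).subst G with hUsub
    have hUsubB : ∀ i, IsB ε₁ CS (Usub i) := fun i => IsB.subst hε₁ hεS.le (hUB i) hG0 hGS
    have hCB : ∀ (i : σ), IsB ε₁ CS (C (ω i) : MvPowerSeries E K) := fun i =>
      (isB_C ε₁ hε₁.le (ω i)).mono (hωC i)
    set Bu : E → MvPowerSeries E K := fun j => Usub j - C (ω j) with hBu
    have hBu0 : ∀ j, constantCoeff (Bu j) = 0 := fun j => by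
      simp only [hBu, hUsub, map_sub, constantCoeff_C]
      rw [constantCoeff_subst_of_zero hG0, hU0, sub_self]
    have hBuB : ∀ j, IsB ε₁ CS (Bu j) := fun j => (hUsubB j).sub (hCB j) hε₁.le
    have hBuG : ∀ j, IsB ε₂ εG (Bu j) := fun j => isB_smallR hε₁ hεG (hBu0 j) (hBuB j)
    have hshift : IsB εG CG (shift z (G l)) := (hGB l).shift hεG fun i => (hzG i).le
    have hY1 : IsB ε₂ D (Usub l) := ((hUsubB l).shrink hε₂.le hε₂₁).mono (le_max_left _ _)
    have hY2 : IsB ε₂ D ((shift z (G l)).subst Bu) :=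
      (IsB.subst hε₂ hεG.le hshift hBu0 hBuG).mono (le_max_right _ _)
    have hidY : peval z (T l - (G l).subst Tr) = Usub l - (shift z (G l)).subst Bu := by
      refine eq_of_evalS_ball p hε₂ ((hWB l).peval hε₂ fun i => (hz2 i).le) (hY1.sub hY2 hε₂.le)
        hε₂ fun w hw => ?_
      set zw : E ⊕ E → K := Sum.elim z w with hzw
      have hzwb : ∀ k, ‖zw k‖ < ε₂ := by
        rintro (a | b)
        · exact hz2 a
        · exact hw b
      have hzwb₁ : ∀ k, ‖zw k‖ < ε₁ := fun k => (hzwb k).trans_le hε₂₁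
      have hw₁ : ∀ k, ‖w k‖ < ε₁ := fun k => (hw k).trans_le hε₂₁
      set gw : σ → K := fun k => evalS (G k) w with hgw
      have hgwS : ∀ k, ‖gw k‖ < εS := fun k =>
        norm_evalS_lt_of_const_zero hε₁ hεS (hGS k) (hG0 k) hw₁
      have hGsv : ∀ k, evalS (Gs k) zw = ω k := fun k => by
        simp only [hGs]
        rw [evalS_subst hε₁ hε₁.le (hGS k) hXl (fun j => isB_X ε₁ hε₁.le _) hzwb₁]
        simp only [evalS_X, hzw, Sum.elim_inl]
        exact (hgraph ω (h.anti hrrG hω) k).symm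
      have hGav : ∀ k, evalS (Ga k) zw = gw k := fun k => by
        simp only [hGa]
        rw [evalS_subst hε₁ hε₁.le (hGS k) hXr (fun j => isB_X ε₁ hε₁.le _) hzwb₁]
        simp only [evalS_X, hzw, Sum.elim_inr, hgw]
      have hΘv : (fun x => evalS (Θ x) zw) = Sum.elim ω gw := by
        funext x
        rcases x with a | b
        · exact hGsv a
        · exact hGav b
      have hTv : ∀ i, evalS (T i) zw = evalS (S i) (Sum.elim ω gw) := fun i => by
        simp only [hT]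
        rw [evalS_subst hε₁ hεS.le (hSB i) hΘ0 hΘB hzwb₁, hΘv]
      have hUv : ∀ i, evalS (Usub i) w = evalS (T i) zw := fun i => by
        simp only [hUsub]
        rw [evalS_subst hε₁ hεS.le (hUB i) hG0 hGS hw₁, hTv]
        exact evalS_peval hεS (hSB i) hωS hgwS
      have hBuv : ∀ j, evalS (Bu j) w = evalS (T j) zw - ω j := fun j => by
        simp only [hBu]
        rw [evalS_sub hε₁ (hUsubB j) (hCB j) hw₁, evalS_C, hUv]
      have hBult : ∀ j, ‖evalS (Bu j) w‖ < εG := fun j =>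
        norm_evalS_lt_of_const_zero hε₂ hεG (hBuG j) (hBu0 j) hw
      rw [evalS_peval hε₂ (hWB l) hz2 hw, evalS_sub hε₂ (hW1 l) (hW2 l) hzwb,
        evalS_sub hε₂ hY1 hY2 hw, hUv, evalS_subst hε₂ hεG.le (hGB l) hTr0 hTrG hzwb,
        evalS_subst hε₂ hεG.le hshift hBu0 hBuG hw, evalS_shift hεG (hGB l) hzG hBult]
      congr 2
      funext j
      simp only [Pi.add_apply, hBuv, hTr, hz, prE]
      ring
    have hβcoef : coeff β (peval z (T l - (G l).subst Tr)) = 0 := by
      rw [hidY, map_sub]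
      have h1 : coeff β (Usub l) = coeff β ((F l).subst G) :=
        (CongO.subst_left hG0 (hFc l) β hβ).symm
      have hBf0 : ∀ j : E, constantCoeff ((F j).subst G - C (ω j)) = 0 := fun j => by
        simp only [map_sub, constantCoeff_C]
        rw [constantCoeff_subst_of_zero hG0, hF0, sub_self]
      have h2 : coeff β ((shift z (G l)).subst Bu) =
          coeff β ((shift z (G l)).subst fun j : E => (F j).subst G - C (ω j)) := by
        refine CongO.subst_right hBu0 hBf0 (fun j γ hγ => ?_) _ β hβ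
        simp only [hBu, map_sub]
        rw [show coeff γ (Usub j) = coeff γ ((F j).subst G) from
          (CongO.subst_left hG0 (hFc j) γ hγ).symm]
      rw [h1, h2, ← hZ, sub_self]
    exact hβcoef
  -- conclusion
  have hW : ∀ l, OrdGe N (T l - (G l).subst Tr) := by
    intro l d hd
    set q := Finsupp.sumFinsuppEquivProdFinsupp d with hq
    have hdq : d = Finsupp.sumElim q.1 q.2 := by
      ext (a | b) <;> simp [hq, Finsupp.sumFinsuppEquivProdFinsupp]
    rw [hdq] at hd ⊢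
    rw [degree_sumElim] at hd
    have h1 := hclaim l q.2 (by omega)
    have h2 := congrArg (coeff q.1) h1
    simpa using h2
  have hΘs : MvPowerSeries.HasSubst Θ := hasSubst_of_zero hΘ0
  have hfg : ∀ i, (fgAdd Γ (X (Sum.inl i)) (X (Sum.inr i)) : MvPowerSeries (σ ⊕ σ) K).subst Θ =
      fgAdd Γ (Gs i) (Ga i) := fun i => by
    rw [subst_fgAdd Γ (hasSubst_X_i _) (hasSubst_X_i _) hΘs, subst_X hΘs, subst_X hΘs]
    rfl
  have hTc : ∀ i, CongO N (T i) (fgAdd Γ (Gs i) (Ga i)) := fun i => by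
    have := CongO.subst_left hΘ0 (hb i)
    rwa [hfg i] at this
  have hGsX : ∀ j : E, Gs j = X (Sum.inl j) := fun j => by
    simp only [hGs]
    rw [hGE j j.2, subst_X (hasSubst_of_zero hXl)]
  have hGaX : ∀ j : E, Ga j = X (Sum.inr j) := fun j => by
    simp only [hGa]
    rw [hGE j j.2, subst_X (hasSubst_of_zero hXr)]
  have hfg0 : ∀ j : E, constantCoeff (fgAdd Γ (X (Sum.inl j) : MvPowerSeries (E ⊕ E) K)
      (X (Sum.inr j))) = 0 := fun j => constantCoeff_fgAdd_of Γ (hXl j) (hXr j)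
  have hsub : CongO N ((G l).subst Tr) ((G l).subst fun j : E =>
      fgAdd Γ (X (Sum.inl j) : MvPowerSeries (E ⊕ E) K) (X (Sum.inr j))) := by
    refine CongO.subst_right hTr0 hfg0 (fun j γ hγ => ?_) _
    have := hTc j γ hγ
    rw [hGsX, hGaX] at this
    exact this
  intro γ hγ
  have h1 := hsub γ hγ
  have h2 := hW l γ hγ
  rw [map_sub, sub_eq_zero] at h2
  have h3 := hTc l γ hγ
  rw [← h1, ← h2, h3]

end graph

end Crest.Agent.LT
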