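/-
S0351, E6 (BLUEPRINT §E6): the real-number optimisation at the heart of the Final Lemma.
-/
import Mathlib

set_option autoImplicit false

namespace Crest.Agent.LT.FinalOpt

open Set

/-- A function with finite sublevel sets on a nonempty set has a minimiser. -/
lemma exists_min_of_finite_sublevel {α : Type*} (S : Set α) (hS : S.Nonempty) (f : α → ℝ)
    (hf : ∀ C : ℝ, (S ∩ {x | f x ≤ C}).Finite) : ∃ x ∈ S, ∀ y ∈ S, f x ≤ f y := by
  obtain ⟨x0, hx0⟩ := hS
  have hfin := hf (f x0)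
  have hne : (S ∩ {x | f x ≤ f x0}).Nonempty := ⟨x0, hx0, le_refl (f x0)⟩
  obtain ⟨x, hx, hmin⟩ := Set.exists_min_image _ f hfin hne
  refine ⟨x, hx.1, fun y hy => ?_⟩
  by_cases h : f y ≤ f x0
  · exact hmin y ⟨hy, h⟩
  · exact le_trans hx.2 (le_of_not_ge h)

/-- Exponential beats linear: for `1 < p`, `c > 0`, `τ` real, `p^w * c - τ * w → ∞`. -/
lemma exists_bound_exp_linear (p : ℝ) (hp : 1 < p) (c τ C : ℝ) (hc : 0 < c) :
    ∃ W : ℕ, ∀ w : ℕ, W ≤ w → C < p ^ w * c - τ * w := by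
  -- `w / p^w → 0`, hence `w * |τ| + |C| + 1 ≤ p^w c` eventually.
  have h1 : Filter.Tendsto (fun w : ℕ => (w : ℝ) * (1 / p) ^ w) Filter.atTop (nhds 0) := by
    have := tendsto_self_mul_const_pow_of_lt_one (r := 1 / p) (by positivity)
      (by rw [div_lt_one (by linarith)]; exact hp)
    exact this
  have h2 : Filter.Tendsto (fun w : ℕ => (1 / p) ^ w) Filter.atTop (nhds 0) :=
    tendsto_pow_atTop_nhds_zero_of_lt_one (by positivity)
      (by rw [div_lt_one (by linarith)]; exact hp)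
  have h3 : Filter.Tendsto (fun w : ℕ => ((w : ℝ) * (1 / p) ^ w) * |τ| + (1 / p) ^ w * (|C| + 1))
      Filter.atTop (nhds (0 * |τ| + 0 * (|C| + 1))) :=
    (h1.mul_const _).add (h2.mul_const _)
  simp only [zero_mul, add_zero] at h3
  have h4 := (h3.eventually (gt_mem_nhds hc))
  obtain ⟨W, hW⟩ := Filter.eventually_atTop.1 h4
  refine ⟨W, fun w hw => ?_⟩
  have h5 := hW w hw
  have hpw : 0 < p ^ w := by positivity
  have h6 : (1 / p) ^ w * p ^ w = 1 := by
    rw [div_pow, one_pow, div_mul_cancel₀]; positivity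
  have h7 : (↑w * (1 / p) ^ w * |τ| + (1 / p) ^ w * (|C| + 1)) * p ^ w < c * p ^ w :=
    mul_lt_mul_of_pos_right h5 hpw
  have h8 : (↑w * (1 / p) ^ w * |τ| + (1 / p) ^ w * (|C| + 1)) * p ^ w
      = (w : ℝ) * |τ| + (|C| + 1) := by
    calc _ = (w : ℝ) * |τ| * ((1 / p) ^ w * p ^ w) + (|C| + 1) * ((1 / p) ^ w * p ^ w) := by ring
      _ = _ := by rw [h6]; ring
  rw [h8] at h7
  have h9 : τ * w ≤ |τ| * w := mul_le_mul_of_nonneg_right (le_abs_self _) (by positivity)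
  have h10 : C ≤ |C| := le_abs_self _
  nlinarith

section Main

variable (p : ℝ) (hp : 1 < p) (h d : ℕ) (hh : 1 ≤ h) (hd : 1 ≤ d)
  (A : Set ℤ) (hA : A.Nonempty) (hAd : ∀ a, a ∈ A ↔ a + d ∈ A)
  (v : ℤ → ℝ) (hv0 : ∀ a ∈ A, 0 < v a) (hvd : ∀ a ∈ A, v a = p ^ h * v (a + d))

include hAd hvd in
lemma shift_iter (a : ℤ) (w : ℕ) (ha : a ∈ A) :
    a + (d : ℤ) * w ∈ A ∧ v a = p ^ (h * w) * v (a + (d : ℤ) * w) := by
  induction w with
  | zero => simp [ha]
  | succ w ih =>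
    obtain ⟨h1, h2⟩ := ih
    have e1 : a + (d : ℤ) * (w + 1 : ℕ) = a + (d : ℤ) * w + d := by push_cast; ring
    rw [e1]
    refine ⟨(hAd _).1 h1, ?_⟩
    rw [h2, hvd _ h1, Nat.mul_succ, pow_add]; ring

include hAd in
lemma shift_iter_mem (a : ℤ) (w : ℕ) (ha : a ∈ A) : a - (d : ℤ) * w ∈ A := by
  induction w with
  | zero => simpa using ha
  | succ w ih =>
    rw [hAd]
    have e1 : a - (d : ℤ) * (w + 1 : ℕ) + d = a - (d : ℤ) * w := by push_cast; ring
    rw [e1]; exact ih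

include hp hh hd hAd hv0 hvd in
/-- Finite sublevels of `a ↦ s * v a + τ * (a + i)` on `A`. -/
lemma finite_sublevel_f (s τ : ℝ) (hs : 0 < s) (hτ : 0 < τ) (i : ℤ) (C : ℝ) :
    (A ∩ {a | s * v a + τ * (a + i) ≤ C}).Finite := by
  classical
  have hd' : (0 : ℤ) < d := by exact_mod_cast hd
  have hwin : ∃ m > 0, ∀ a ∈ A, 0 ≤ a → a < d → m ≤ v a := by
    by_cases hne : ∃ a ∈ A, 0 ≤ a ∧ a < d
    · have hfin : ((Finset.Ico (0 : ℤ) d).filter (· ∈ A)).Nonempty := by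
        obtain ⟨a, ha, h0, h1⟩ := hne
        exact ⟨a, by simp [ha, h0, h1]⟩
      obtain ⟨a0, ha0, hmin⟩ := Finset.exists_min_image _ v hfin
      simp only [Finset.mem_filter, Finset.mem_Ico] at ha0
      refine ⟨v a0, hv0 _ ha0.2, fun a ha h0 h1 => hmin a (by simp [ha, h0, h1])⟩
    · refine ⟨1, one_pos, fun a ha h0 h1 => (hne ⟨a, ha, h0, h1⟩).elim⟩
  obtain ⟨m, hm, hmv⟩ := hwin
  have hph : 1 < p ^ h := one_lt_pow₀ hp (by omega)
  obtain ⟨W, hW⟩ := exists_bound_exp_linear (p ^ h) hph (s * m) (τ * d)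
    (C + τ * |(i : ℝ)|) (by positivity)
  have hU : ∃ U : ℤ, C / τ - i ≤ U := by
    obtain ⟨U, hU⟩ := exists_int_ge (C / τ - i)
    exact ⟨U, hU⟩
  obtain ⟨U, hU⟩ := hU
  refine (Set.finite_Icc (-(d : ℤ) * W) U).subset ?_
  rintro a ⟨ha, hle⟩
  simp only [Set.mem_ofPred_eq] at hle
  have hv := hv0 a ha
  refine ⟨?_, ?_⟩
  · -- lower bound
    by_contra hlt
    push Not at hlt
    have ha0 : a < 0 := by
      have : (0 : ℤ) ≤ (d : ℤ) * W := by positivity
      linarith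
    have hdiv : a = a % d + d * (a / d) := (Int.emod_add_mul_ediv a d).symm
    have hq : a / d < 0 := Int.ediv_neg_of_neg_of_pos ha0 hd'
    set w : ℕ := (-(a / d)).toNat with hw
    have hwz : (w : ℤ) = -(a / d) := Int.toNat_of_nonneg (by omega)
    have ha1 : a + (d : ℤ) * w = a % d := by rw [hwz]; linarith
    obtain ⟨h1, h2⟩ := shift_iter p h d A hAd v hvd a w ha
    rw [ha1] at h1 h2
    have hm1 : m ≤ v (a % d) := hmv _ h1 (Int.emod_nonneg _ hd'.ne') (Int.emod_lt_of_pos _ hd')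
    have hwW : W ≤ w := by
      by_contra hc
      push Not at hc
      have h3 : (w : ℤ) ≤ W := by exact_mod_cast hc.le
      have h4 : a % d ≥ 0 := Int.emod_nonneg _ hd'.ne'
      have h5 : -(d : ℤ) * W ≤ a := by
        have : (d : ℤ) * w ≤ d * W := mul_le_mul_of_nonneg_left h3 hd'.le
        nlinarith
      linarith
    have h6 := hW w hwW
    have h7 : a ≥ -(d : ℤ) * w := by
      have h4 : a % d ≥ 0 := Int.emod_nonneg _ hd'.ne'
      nlinarith
    have h8 : (a : ℝ) ≥ -(d : ℝ) * w := by exact_mod_cast h7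
    have h9 : s * v a ≥ s * ((p ^ h) ^ w * m) := by
      apply mul_le_mul_of_nonneg_left _ hs.le
      rw [h2, ← pow_mul]
      exact mul_le_mul_of_nonneg_left hm1 (by positivity)
    have h10 : τ * (a + i) ≥ τ * (-(d : ℝ) * w - |(i : ℝ)|) := by
      apply mul_le_mul_of_nonneg_left _ hτ.le
      have := neg_abs_le (i : ℝ)
      linarith
    nlinarith
  · -- upper bound
    have h1 : τ * (a + i) ≤ C := by
      have : 0 < s * v a := by positivity
      linarith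
    have h2 : (a : ℝ) + i ≤ C / τ := by
      rw [le_div_iff₀ hτ]; linarith
    have h3 : (a : ℝ) ≤ U := by linarith
    exact_mod_cast h3

include hp in
/-- Finite sublevels of `e ↦ G e - τ e`. -/
lemma finite_sublevel_g (E : Set ℤ) (G : ℤ → ℝ) (ν τ : ℝ) (hν : 0 < ν) (hτ : 0 < τ)
    (hG0 : ∀ e ∈ E, 0 < G e) (hGge : ∀ e ∈ E, p ^ e * ν ≤ G e) (C : ℝ) :
    (E ∩ {e | G e - τ * e ≤ C}).Finite := by
  classical
  obtain ⟨W, hW⟩ := exists_bound_exp_linear p hp ν τ C hν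
  obtain ⟨U, hU⟩ := exists_int_ge (C / τ)
  refine (Set.finite_Icc (-U) (W : ℤ)).subset ?_
  rintro e ⟨he, hle⟩
  have hle' : G e - τ * e ≤ C := hle
  refine ⟨?_, ?_⟩
  · have h1 := hG0 e he
    have h2 : τ * (-(e : ℝ)) ≤ C := by nlinarith
    have h3 : -(e : ℝ) ≤ C / τ := by
      rw [le_div_iff₀ hτ]; linarith
    have h4 : -(e : ℝ) ≤ U := le_trans h3 hU
    have h5 : -U ≤ e := by
      have : (-(U : ℝ)) ≤ e := by linarith
      exact_mod_cast this
    exact h5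
  · by_contra hlt
    have hlt' := not_le.1 hlt
    have h0 : (0 : ℤ) ≤ e := by
      have : (0 : ℤ) ≤ (W : ℤ) := by positivity
      linarith
    set w : ℕ := e.toNat with hw
    have hwz : (w : ℤ) = e := Int.toNat_of_nonneg h0
    have hwW : W ≤ w := by
      have : (W : ℤ) ≤ w := by rw [hwz]; exact hlt'.le
      exact_mod_cast this
    have h1 := hW w hwW
    have h2 := hGge e he
    have h3 : p ^ e = p ^ w := by rw [← hwz, zpow_natCast]
    rw [h3] at h2
    have h4 : (e : ℝ) = w := by rw [← hwz]; simp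
    rw [h4] at hle'
    linarith

/-- Monotonicity of argmins: a minimiser for the smaller slope is at least a minimiser for the
larger slope. -/
lemma argmin_mono (S : Set ℤ) (u : ℤ → ℝ) (τ₁ τ₂ : ℝ) (h12 : τ₁ < τ₂) (a₁ a₂ : ℤ)
    (h1 : a₁ ∈ S) (h2 : a₂ ∈ S)
    (hmin1 : ∀ y ∈ S, u a₁ + τ₁ * a₁ ≤ u y + τ₁ * y)
    (hmin2 : ∀ y ∈ S, u a₂ + τ₂ * a₂ ≤ u y + τ₂ * y) : a₂ ≤ a₁ := by
  have h3 := hmin1 a₂ h2
  have h4 := hmin2 a₁ h1
  by_contra hc
  have hc' : (a₁ : ℝ) < a₂ := by exact_mod_cast not_le.1 hc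
  nlinarith

end Main

/-- Exact statement of the optimisation: see BLUEPRINT §E6 "Selection" and "Informative". -/
theorem opt (p : ℝ) (hp : 1 < p) (h d : ℕ) (hh : 1 ≤ h) (hd : 1 ≤ d)
    (A : Set ℤ) (hA : A.Nonempty) (hAd : ∀ a, a ∈ A ↔ a + d ∈ A)
    (v : ℤ → ℝ) (hv0 : ∀ a ∈ A, 0 < v a) (hvd : ∀ a ∈ A, v a = p ^ h * v (a + d))
    (I : Finset ℕ) (hI : I.Nonempty) (hIh : ∀ i ∈ I, i < h)
    (E : ℕ → Set ℤ) (G : ℕ → ℤ → ℝ) (ν : ℕ → ℝ) (hν : ∀ i ∈ I, 0 < ν i)
    (hG0 : ∀ i ∈ I, ∀ e ∈ E i, 0 < G i e)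
    (hGge : ∀ i ∈ I, ∀ e ∈ E i, p ^ e * ν i ≤ G i e)
    (hgood : ∀ i ∈ I, ∀ e : ℤ, ∃ u : ℕ, u < h ∧ e + u ∈ E i ∧ G i (e + u) = p ^ (e + u) * ν i)
    (R : ℤ) :
    ∃ r₀ : ℤ, R ≤ r₀ ∧ ∃ i₀ ∈ I, ∃ a₀ ∈ A, ∃ e₀ ∈ E i₀, e₀ = a₀ + i₀ + r₀ ∧
      (∀ i ∈ I, ∀ a ∈ A, ∀ e ∈ E i, e = a + i + r₀ → (((h + d : ℕ) : ℤ) ∣ (a + i - (a₀ + i₀))) →
          (i, a) ≠ (i₀, a₀) → p ^ i₀ * v a₀ + G i₀ e₀ < p ^ i * v a + G i e) ∧
      (∀ i ∈ I, ∀ a ∈ A, p ^ i₀ * v a₀ + G i₀ e₀ ≤ p ^ (h - 1) * (p ^ i * v a + p ^ (a + i + r₀) * ν i)) := by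
  classical
  have hp0 : 0 < p := by linarith
  -- the bad slopes
  let bad1 : ℕ × ℤ × ℤ → ℝ := fun x => p ^ x.1 * (v x.2.1 - v x.2.2) / ((x.2.2 : ℝ) - x.2.1)
  let bad2 : ℕ × ℤ × ℤ → ℝ := fun x => (G x.1 x.2.1 - G x.1 x.2.2) / ((x.2.1 : ℝ) - x.2.2)
  let Bad : Set ℝ := Set.range bad1 ∪ Set.range bad2
  have hBad : Bad.Countable := (Set.countable_range _).union (Set.countable_range _)
  have hdense : Dense Badᶜ := hBad.dense_compl ℝ
  -- large parameters
  obtain ⟨a1, ha1⟩ := hA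
  obtain ⟨a', ha', ha'le⟩ : ∃ a' ∈ A, a' ≤ -|R| - h := by
    refine ⟨a1 - (d : ℤ) * (a1 + |R| + h).toNat, shift_iter_mem d A hAd a1 _ ha1, ?_⟩
    have h1 : ((a1 + |R| + h).toNat : ℤ) ≥ a1 + |R| + h := Int.self_le_toNat _
    have h2 : (d : ℤ) ≥ 1 := by exact_mod_cast hd
    have h3 : ((a1 + |R| + h).toNat : ℤ) ≥ 0 := by positivity
    nlinarith
  have hgood0 : ∀ i ∈ I, ∃ e' : ℤ, 0 ≤ e' ∧ e' ∈ E i := by
    intro i hi
    obtain ⟨u, -, hu1, -⟩ := hgood i hi 0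
    exact ⟨0 + u, by positivity, hu1⟩
  choose! e' he'0 he' using hgood0
  set T0 : ℝ := ∑ i ∈ I, (p ^ i * v a' + G i (e' i)) with hT0
  have hT0i : ∀ i ∈ I, p ^ i * v a' < T0 + 1 ∧ G i (e' i) < T0 + 1 := by
    intro i hi
    have hpos : ∀ j ∈ I, 0 ≤ p ^ j * v a' + G j (e' j) := by
      intro j hj
      have := hv0 a' ha'
      have := hG0 j hj _ (he' j hj)
      positivity
    have h1 : p ^ i * v a' + G i (e' i) ≤ T0 := Finset.single_le_sum hpos hi
    have h2 := hv0 a' ha'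
    have h3 := hG0 i hi _ (he' i hi)
    have h4 : 0 < p ^ i * v a' := by positivity
    constructor <;> linarith
  have hT0pos : 0 ≤ T0 := by
    refine Finset.sum_nonneg fun j hj => ?_
    have := hv0 a' ha'
    have := hG0 j hj _ (he' j hj)
    positivity
  obtain ⟨τ, hτbad, hτ1, -⟩ := hdense.exists_between (show T0 + 1 < T0 + 2 by linarith)
  have hτpos : 0 < τ := by linarith
  -- minimisers
  have hminf : ∀ i ∈ I, ∃ a ∈ A, ∀ y ∈ A, p ^ i * v a + τ * ((a : ℝ) + i) ≤ p ^ i * v y + τ * ((y : ℝ) + i) := by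
    intro i _
    have := exists_min_of_finite_sublevel A ⟨a1, ha1⟩ (fun a : ℤ => p ^ i * v a + τ * ((a : ℝ) + i))
      (fun C => by
        have := finite_sublevel_f p hp h d hh hd A hAd v hv0 hvd (p ^ i) τ (by positivity) hτpos i C
        simpa using this)
    exact this
  have hming : ∀ i ∈ I, ∃ e ∈ E i, ∀ y ∈ E i, G i e - τ * e ≤ G i y - τ * y := by
    intro i hi
    exact exists_min_of_finite_sublevel (E i) ⟨_, he' i hi⟩ (fun e : ℤ => G i e - τ * e)
      (fun C => finite_sublevel_g p hp (E i) (G i) (ν i) τ (hν i hi) hτpos (hG0 i hi) (hGge i hi) C)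
  choose! α hαA hαmin using hminf
  choose! ε hεE hεmin using hming
  obtain ⟨i₀, hi₀, hi₀min⟩ := Finset.exists_min_image I
    (fun i => (p ^ i * v (α i) + τ * ((α i : ℝ) + i)) + (G i (ε i) - τ * ε i)) hI
  -- uniqueness from genericity
  have huniqf : ∀ i ∈ I, ∀ a ∈ A, p ^ i * v a + τ * ((a : ℝ) + i) = p ^ i * v (α i) + τ * ((α i : ℝ) + i) → a = α i := by
    intro i hi a ha heq
    by_contra hne
    apply hτbad
    left
    refine ⟨(i, a, α i), ?_⟩
    have hne' : ((α i : ℤ) : ℝ) - a ≠ 0 := by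
      intro h0
      apply hne
      have : (a : ℝ) = α i := by linarith
      exact_mod_cast this
    simp only [bad1]
    rw [div_eq_iff hne']
    linarith
  have huniqg : ∀ i ∈ I, ∀ e ∈ E i, G i e - τ * e = G i (ε i) - τ * ε i → e = ε i := by
    intro i hi e he heq
    by_contra hne
    apply hτbad
    right
    refine ⟨(i, e, ε i), ?_⟩
    have hne' : (e : ℝ) - (ε i : ℤ) ≠ 0 := by
      intro h0
      apply hne
      have : (e : ℝ) = ε i := by linarith
      exact_mod_cast this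
    simp only [bad2]
    rw [div_eq_iff hne']
    linarith
  -- bounds on the minimisers
  have hαle : ∀ i ∈ I, α i ≤ a' := by
    intro i hi
    have h1 := hαmin i hi a' ha'
    have h2 := hv0 _ (hαA i hi)
    have h3 : 0 < p ^ i * v (α i) := by positivity
    have h4 := (hT0i i hi).1
    by_contra hc
    have hc' : a' + 1 ≤ α i := by omega
    have hc'' : (a' : ℝ) + 1 ≤ α i := by exact_mod_cast hc'
    nlinarith
  have hεge : ∀ i ∈ I, 0 ≤ ε i := by
    intro i hi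
    have h1 := hεmin i hi _ (he' i hi)
    have h2 := hG0 i hi _ (hεE i hi)
    have h4 := (hT0i i hi).2
    have h5 := he'0 i hi
    by_contra hc
    have hc1 : ε i + 1 ≤ e' i := by
      have := not_le.1 hc
      omega
    have hc2 : ((ε i : ℝ)) + 1 ≤ e' i := by exact_mod_cast hc1
    nlinarith
  -- the monotonicity in the row
  have hshift : ∀ i ∈ I, ∀ y ∈ A, v (α i + d) + (τ / p ^ (i + h)) * ((α i + d : ℤ) : ℝ) ≤ v y + (τ / p ^ (i + h)) * y := by
    intro i hi y hy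
    have hy' : y - d ∈ A := by
      rw [hAd]; simpa using hy
    have h1 := hαmin i hi _ hy'
    have h2 := hvd _ hy'
    have h3 := hvd _ (hαA i hi)
    have e1 : y - (d : ℤ) + d = y := by ring
    rw [e1] at h2
    rw [h2, h3] at h1
    have hpi : 0 < p ^ i := by positivity
    have hph : 0 < p ^ h := by positivity
    have e2 : τ / p ^ (i + h) = τ / (p ^ i * p ^ h) := by rw [pow_add]
    rw [e2]
    have e3 : ((α i + d : ℤ) : ℝ) = (α i : ℝ) + d := by push_cast; ring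
    have e4 : ((y - d : ℤ) : ℝ) = (y : ℝ) - d := by push_cast; ring
    rw [e4] at h1
    rw [e3]
    have hq : 0 < p ^ i * p ^ h := by positivity
    have key : p ^ i * p ^ h * (v (α i + d)) + τ * ((α i : ℝ) + i) ≤ p ^ i * p ^ h * v y + τ * ((y : ℝ) - d + i) := by
      nlinarith
    have key2 : (p ^ i * p ^ h) * (v (α i + d) + τ / (p ^ i * p ^ h) * ((α i : ℝ) + d)) ≤
        (p ^ i * p ^ h) * (v y + τ / (p ^ i * p ^ h) * y) := by
      have e5 : (p ^ i * p ^ h) * (v (α i + d) + τ / (p ^ i * p ^ h) * ((α i : ℝ) + d)) =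
          p ^ i * p ^ h * (v (α i + d)) + τ * ((α i : ℝ) + d) := by
        field_simp
      have e6 : (p ^ i * p ^ h) * (v y + τ / (p ^ i * p ^ h) * y) =
          p ^ i * p ^ h * v y + τ * y := by
        field_simp
      rw [e5, e6]
      linarith
    exact le_of_mul_le_mul_left key2 hq
  have hrow : ∀ i ∈ I, ∀ y ∈ A, v (α i) + (τ / p ^ i) * ((α i : ℤ) : ℝ) ≤ v y + (τ / p ^ i) * y := by
    intro i hi y hy
    have h1 := hαmin i hi y hy
    have hpi : 0 < p ^ i := by positivity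
    have key2 : p ^ i * (v (α i) + (τ / p ^ i) * ((α i : ℤ) : ℝ)) ≤ p ^ i * (v y + (τ / p ^ i) * y) := by
      have e5 : p ^ i * (v (α i) + (τ / p ^ i) * ((α i : ℤ) : ℝ)) = p ^ i * v (α i) + τ * (α i : ℝ) := by
        field_simp
      have e6 : p ^ i * (v y + (τ / p ^ i) * y) = p ^ i * v y + τ * y := by
        field_simp
      rw [e5, e6]
      nlinarith
    exact le_of_mul_le_mul_left key2 hpi
  have hmono : ∀ i ∈ I, ∀ i' ∈ I, i < i' → α i ≤ α i' ∧ α i' ≤ α i + d := by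
    intro i hi i' hi' hlt
    constructor
    · refine argmin_mono A v (τ / p ^ i') (τ / p ^ i) ?_ _ _ (hαA i' hi') (hαA i hi) (hrow i' hi') (hrow i hi)
      apply div_lt_div_of_pos_left hτpos (by positivity)
      exact pow_lt_pow_right₀ hp hlt
    · have hlt2 : i' < i + h := by
        have := hIh i' hi'
        omega
      refine argmin_mono A v (τ / p ^ (i + h)) (τ / p ^ i') ?_ _ _
        ((hAd _).1 (hαA i hi)) (hαA i' hi') (hshift i hi) (hrow i' hi')
      apply div_lt_div_of_pos_left hτpos (by positivity)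
      exact pow_lt_pow_right₀ hp hlt2
  have hdistinct : ∀ i ∈ I, ∀ i' ∈ I, (((h + d : ℕ) : ℤ) ∣ (α i + i - (α i' + i'))) → i = i' := by
    have key : ∀ i ∈ I, ∀ i' ∈ I, i < i' → ¬ (((h + d : ℕ) : ℤ) ∣ (α i + i - (α i' + i'))) := by
      intro i hi i' hi' hlt hdvd
      obtain ⟨h1, h2⟩ := hmono i hi i' hi' hlt
      have h3 := hIh i' hi'
      have hneg : (α i + i - (α i' + i') : ℤ) < 0 := by
        have : (i : ℤ) < i' := by exact_mod_cast hlt
        linarith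
      have hgt : -((h + d : ℕ) : ℤ) < (α i + i - (α i' + i') : ℤ) := by
        have h4 : (i' : ℤ) < h := by exact_mod_cast h3
        have h5 : (0 : ℤ) ≤ i := by positivity
        push_cast
        linarith
      obtain ⟨k, hk⟩ := hdvd
      have hpos : (0 : ℤ) < ((h + d : ℕ) : ℤ) := by
        have : 0 < h + d := by omega
        exact_mod_cast this
      rw [hk] at hneg hgt
      have k1 : k < 0 := by
        by_contra hc
        have : 0 ≤ ((h + d : ℕ) : ℤ) * k := mul_nonneg hpos.le (not_lt.1 hc)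
        linarith
      have k2 : -1 < k := by
        by_contra hc
        have : k ≤ -1 := by omega
        have : ((h + d : ℕ) : ℤ) * k ≤ ((h + d : ℕ) : ℤ) * (-1) := mul_le_mul_of_nonneg_left this hpos.le
        linarith
      omega
    intro i hi i' hi' hdvd
    rcases lt_trichotomy i i' with hlt | heq | hgt
    · exact (key i hi i' hi' hlt hdvd).elim
    · exact heq
    · refine (key i' hi' i hi hgt ?_).elim
      have h9 := (dvd_neg (a := ((h + d : ℕ) : ℤ))).2 hdvd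
      have e9 : -(α i + (i : ℤ) - (α i' + (i' : ℤ))) = α i' + (i' : ℤ) - (α i + (i : ℤ)) := by ring
      rw [e9] at h9
      exact h9
  -- assemble
  refine ⟨ε i₀ - α i₀ - i₀, ?_, i₀, hi₀, α i₀, hαA i₀ hi₀, ε i₀, hεE i₀ hi₀, by ring, ?_, ?_⟩
  · have h1 := hαle i₀ hi₀
    have h2 := hεge i₀ hi₀
    have h3 := hIh i₀ hi₀
    have h4 : (i₀ : ℤ) < h := by exact_mod_cast h3
    have h5 := le_abs_self R
    linarith
  · intro i hi a ha e he hee hdvd hne
    by_contra hc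
    have hc' := not_lt.1 hc
    have h1 := hαmin i hi a ha
    have h2 := hεmin i hi e he
    have h3 := hi₀min i hi
    have e1 : (e : ℝ) = a + i + (ε i₀ - α i₀ - i₀) := by rw [hee]; push_cast; ring
    -- all inequalities are equalities
    have h4 : p ^ i * v a + G i e - τ * ((ε i₀ : ℝ) - α i₀ - i₀) =
        (p ^ i * v a + τ * ((a : ℝ) + i)) + (G i e - τ * e) := by rw [e1]; ring
    have h5 : p ^ i₀ * v (α i₀) + G i₀ (ε i₀) - τ * ((ε i₀ : ℝ) - α i₀ - i₀) =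
        (p ^ i₀ * v (α i₀) + τ * ((α i₀ : ℝ) + i₀)) + (G i₀ (ε i₀) - τ * ε i₀) := by ring
    have heqf : p ^ i * v a + τ * ((a : ℝ) + i) = p ^ i * v (α i) + τ * ((α i : ℝ) + i) := by
      linarith
    have heqg : G i e - τ * e = G i (ε i) - τ * ε i := by linarith
    have ha' := huniqf i hi a ha heqf
    have he' := huniqg i hi e he heqg
    subst ha'
    have hii := hdistinct i hi i₀ hi₀ hdvd
    subst hii
    exact hne rfl
  · intro i hi a ha
    obtain ⟨u, huh, hu1, hu2⟩ := hgood i hi (a + i + (ε i₀ - α i₀ - i₀))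
    have h1 := hαmin i hi a ha
    have h2 := hεmin i hi _ hu1
    have h3 := hi₀min i hi
    set e2 : ℤ := a + i + (ε i₀ - α i₀ - i₀) + u with he2
    have e1 : (e2 : ℝ) = a + i + (ε i₀ - α i₀ - i₀) + u := by rw [he2]; push_cast; ring
    have hm0 : p ^ i₀ * v (α i₀) + G i₀ (ε i₀) ≤ p ^ i * v a + G i e2 - τ * u := by
      rw [e1] at h2
      have h5 : p ^ i₀ * v (α i₀) + G i₀ (ε i₀) - τ * ((ε i₀ : ℝ) - α i₀ - i₀) =
        (p ^ i₀ * v (α i₀) + τ * ((α i₀ : ℝ) + i₀)) + (G i₀ (ε i₀) - τ * ε i₀) := by ring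
      nlinarith
    have hτu : 0 ≤ τ * u := by positivity
    have hv' := hv0 a ha
    have hνi := hν i hi
    have e3 : p ^ e2 = p ^ u * p ^ (a + i + (ε i₀ - α i₀ - i₀)) := by
      rw [he2, zpow_add₀ hp0.ne', zpow_natCast, mul_comm]
    have hpu1 : 1 ≤ p ^ u := one_le_pow₀ hp.le
    have hpu2 : p ^ u ≤ p ^ (h - 1) := pow_le_pow_right₀ hp.le (by omega)
    have hpos1 : 0 < p ^ i * v a := by positivity
    have hpos2 : 0 < p ^ (a + i + (ε i₀ - α i₀ - i₀)) * ν i := by positivity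
    have hpow1 : 1 ≤ p ^ (h - 1) := le_trans hpu1 hpu2
    calc p ^ i₀ * v (α i₀) + G i₀ (ε i₀) ≤ p ^ i * v a + G i e2 - τ * u := hm0
      _ ≤ p ^ i * v a + p ^ u * (p ^ (a + i + (ε i₀ - α i₀ - i₀)) * ν i) := by
          rw [hu2, e3]; nlinarith
      _ ≤ p ^ (h - 1) * (p ^ i * v a) + p ^ (h - 1) * (p ^ (a + i + (ε i₀ - α i₀ - i₀)) * ν i) := by
          have h6 : p ^ i * v a ≤ p ^ (h - 1) * (p ^ i * v a) := by nlinarith
          have h7 : p ^ u * (p ^ (a + i + (ε i₀ - α i₀ - i₀)) * ν i) ≤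
              p ^ (h - 1) * (p ^ (a + i + (ε i₀ - α i₀ - i₀)) * ν i) :=
            mul_le_mul_of_nonneg_right hpu2 hpos2.le
          linarith
      _ = _ := by ring

end Crest.Agent.LT.FinalOpt
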