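/-
S0351, E6 (BLUEPRINT §E6): the Final Lemma.
-/
import Mathlib
import Crest.Agent.Lib.LT.P3FinalOpt

set_option autoImplicit false

namespace Crest.Agent.LT

open Finset Filter

section pw

variable (p : ℕ) [Fact p.Prime] {K : Type*} [Field K] [CharP K p] [PerfectRing K p]

/-- `x ↦ x ^ (p ^ e)` for `e : ℤ`, as a ring automorphism of a perfect ring. -/
noncomputable def pw (e : ℤ) : RingAut K := ((frobeniusEquiv K p : K ≃+* K) : RingAut K) ^ e

lemma pw_zero (x : K) : pw p 0 x = x := by simp [pw]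

lemma pw_add (e f : ℤ) (x : K) : pw p (e + f) x = pw p e (pw p f x) := by
  simp only [pw, zpow_add]; rfl

lemma pw_one (x : K) : pw p 1 x = x ^ p := by
  simp only [pw, zpow_one]
  exact frobeniusEquiv_apply K p x

lemma pw_nat (k : ℕ) (x : K) : pw p (k : ℤ) x = x ^ (p ^ k) := by
  induction k with
  | zero => simpa using pw_zero p x
  | succ k ih =>
    have : ((k + 1 : ℕ) : ℤ) = 1 + (k : ℤ) := by push_cast; ring
    rw [this, pw_add, ih, pw_one, ← pow_mul, pow_succ]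

lemma pw_map_pow (e : ℤ) (x : K) (m : ℕ) : pw p e (x ^ m) = (pw p e x) ^ m := map_pow _ _ _

lemma pw_pow_p (e : ℤ) (x : K) : (pw p e x) ^ p = pw p (e + 1) x := by
  rw [add_comm, pw_add, pw_one]

lemma pw_neg_apply (e : ℤ) (x : K) : pw p (-e) (pw p e x) = x := by
  rw [← pw_add]; simp [pw_zero]

lemma pw_apply_neg (e : ℤ) (x : K) : pw p e (pw p (-e) x) = x := by
  rw [← pw_add]; simp [pw_zero]

lemma pw_eq_zero_iff (e : ℤ) (x : K) : pw p e x = 0 ↔ x = 0 := map_eq_zero_iff _ (RingEquiv.injective _)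

/-- Periodicity of `pw`: if `t ^ (p ^ n) = t` then `pw (e + n * w) t = pw e t`. -/
lemma pw_periodic (n : ℕ) (t : K) (ht : t ^ (p ^ n) = t) (w : ℤ) : pw p ((n : ℤ) * w) t = t := by
  have h1 : pw p (n : ℤ) t = t := by rw [pw_nat, ht]
  have hnat : ∀ w : ℕ, pw p ((n : ℤ) * (w : ℤ)) t = t := by
    intro w
    induction w with
    | zero => simpa using pw_zero p t
    | succ w ih =>
      have e : (n : ℤ) * ((w + 1 : ℕ) : ℤ) = (n : ℤ) * (w : ℤ) + n := by push_cast; ring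
      rw [e, pw_add, h1, ih]
  obtain ⟨m, rfl | rfl⟩ := w.eq_nat_or_neg
  · exact hnat m
  · have e : (n : ℤ) * (-(m : ℤ)) = -((n : ℤ) * (m : ℤ)) := by ring
    rw [e]
    conv_lhs => rw [← hnat m]
    exact pw_neg_apply p _ _

end pw

section norm

variable (p : ℕ) [Fact p.Prime] {K : Type*} [NormedField K] [CharP K p] [PerfectRing K p]

/-- the valuation `-log ‖x‖` (with the junk value `0` at `x = 0`) -/
noncomputable def vl (x : K) : ℝ := -Real.log ‖x‖

lemma norm_eq_exp_vl {x : K} (hx : x ≠ 0) : ‖x‖ = Real.exp (-vl x) := by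
  simp [vl, Real.exp_log (norm_pos_iff.2 hx)]

lemma vl_pos {x : K} (hx : x ≠ 0) (h1 : ‖x‖ < 1) : 0 < vl x := by
  have := Real.log_neg (norm_pos_iff.2 hx) h1
  simp only [vl]; linarith

lemma vl_pow (x : K) (m : ℕ) : vl (x ^ m) = m * vl x := by
  simp [vl, norm_pow, Real.log_pow]

lemma vl_mul {x y : K} (hx : x ≠ 0) (hy : y ≠ 0) : vl (x * y) = vl x + vl y := by
  simp only [vl, norm_mul]
  rw [Real.log_mul (norm_ne_zero_iff.2 hx) (norm_ne_zero_iff.2 hy)]; ring

lemma vl_pw (e : ℤ) (x : K) : vl (pw p e x) = (p : ℝ) ^ e * vl x := by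
  have hp : (p : ℝ) ≠ 0 := by exact_mod_cast (Fact.out : p.Prime).ne_zero
  induction e using Int.induction_on with
  | zero => simp [pw_zero]
  | succ i ih =>
    have : ((i : ℤ) + 1) = (i : ℤ) + 1 := rfl
    rw [← pw_pow_p, vl_pow, ih, zpow_add₀ hp, zpow_one]; ring
  | pred i ih =>
    have h1 : vl (pw p (-(i : ℤ)) x) = p * vl (pw p (-(i : ℤ) - 1) x) := by
      have : (-(i : ℤ)) = (-(i : ℤ) - 1) + 1 := by ring
      conv_lhs => rw [this]
      rw [← pw_pow_p, vl_pow]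
    rw [ih] at h1
    have h2 : (p : ℝ) ^ (-(i : ℤ) - 1) = (p : ℝ) ^ (-(i : ℤ)) / p := by
      rw [zpow_sub₀ hp, zpow_one]
    rw [h2]
    field_simp
    linarith

lemma norm_pw_eq (e : ℤ) {x : K} (hx : x ≠ 0) :
    ‖pw p e x‖ = Real.exp (-((p : ℝ) ^ e * vl x)) := by
  have h0 : pw p e x ≠ 0 := (pw_eq_zero_iff p e x).not.2 hx
  rw [norm_eq_exp_vl h0, vl_pw]

end norm

section ultra

variable {K : Type*} [NormedField K] [IsUltrametricDist K]

lemma norm_sum_lt {α : Type*} {s : Finset α} {f : α → K} {C : ℝ} (hC : 0 < C)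
    (h : ∀ i ∈ s, ‖f i‖ < C) : ‖∑ i ∈ s, f i‖ < C := by
  classical
  induction s using Finset.induction_on with
  | empty => simpa using hC
  | insert a s ha ih =>
    rw [Finset.sum_insert ha]
    exact lt_of_le_of_lt (IsUltrametricDist.norm_add_le_max _ _)
      (max_lt (h a (mem_insert_self _ _)) (ih fun i hi => h i (mem_insert_of_mem hi)))

lemma norm_sum_le' {α : Type*} {s : Finset α} {f : α → K} {C : ℝ} (hC : 0 ≤ C)
    (h : ∀ i ∈ s, ‖f i‖ ≤ C) : ‖∑ i ∈ s, f i‖ ≤ C :=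
  IsUltrametricDist.norm_sum_le_of_forall_le_of_nonneg hC h

/-- Unique maximal term of a convergent series. -/
lemma norm_tsum_eq_of_unique_max [CompleteSpace K] {f : ℤ → K} (hs : Summable f) (a₀ : ℤ)
    (hlt : ∀ a, a ≠ a₀ → ‖f a‖ < ‖f a₀‖) : ‖∑' a, f a‖ = ‖f a₀‖ := by
  classical
  have hpos : 0 < ‖f a₀‖ := lt_of_le_of_lt (norm_nonneg _) (hlt (a₀ + 1) (by omega))
  set C₀ := ‖f a₀‖ with hC₀
  -- finitely many terms above `C₀ / 2`
  have hfin : {a | C₀ / 2 ≤ ‖f a‖}.Finite := by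
    have h1 := hs.tendsto_cofinite_zero
    have h2 : ∀ᶠ a in Filter.cofinite, ‖f a‖ < C₀ / 2 := by
      have h3 := h1.norm
      simp only [norm_zero] at h3
      exact h3.eventually (gt_mem_nhds (by positivity))
    have h4 := Filter.eventually_cofinite.1 h2
    refine h4.subset fun a ha => ?_
    exact not_lt.2 ha
  -- the uniform bound
  obtain ⟨C, hC0, hCC₀, hC⟩ : ∃ C : ℝ, 0 ≤ C ∧ C < C₀ ∧ ∀ a, a ≠ a₀ → ‖f a‖ ≤ C := by
    let F := (hfin.toFinset).erase a₀
    by_cases hF : F.Nonempty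
    · obtain ⟨a₁, ha₁, hmax⟩ := Finset.exists_max_image F (fun a => ‖f a‖) hF
      have ha₁ne : a₁ ≠ a₀ := (Finset.mem_erase.1 ha₁).1
      refine ⟨max (C₀ / 2) ‖f a₁‖, by positivity, max_lt (by linarith) (hlt _ ha₁ne), fun a ha => ?_⟩
      by_cases hcase : C₀ / 2 ≤ ‖f a‖
      · have : a ∈ F := Finset.mem_erase.2 ⟨ha, by simpa using hcase⟩
        exact le_trans (hmax a this) (le_max_right _ _)
      · exact le_trans (not_le.1 hcase).le (le_max_left _ _)
    · refine ⟨C₀ / 2, by positivity, by linarith, fun a ha => ?_⟩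
      by_contra hcase
      have hcase' : C₀ / 2 ≤ ‖f a‖ := (not_le.1 hcase).le
      exact hF ⟨a, Finset.mem_erase.2 ⟨ha, by simpa using hcase'⟩⟩
  rw [hs.tsum_eq_add_tsum_ite a₀]
  have h2 : ‖∑' a, if a = a₀ then 0 else f a‖ ≤ C := by
    apply IsUltrametricDist.norm_tsum_le_of_forall_le_of_nonneg hC0
    intro a
    by_cases ha : a = a₀
    · simpa [ha] using hC0
    · simpa [ha] using hC a ha
  have h3 : ‖f a₀‖ ≠ ‖∑' a, if a = a₀ then 0 else f a‖ := by
    intro heq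
    rw [← heq] at h2
    linarith
  rw [IsUltrametricDist.norm_add_eq_max_of_norm_ne_norm h3]
  exact max_eq_left (by linarith)

/-- `x ^ m = x`, `2 ≤ m` implies `‖x‖ ≤ 1`. -/
lemma norm_le_one_of_pow_eq (x : K) (m : ℕ) (hm : 2 ≤ m) (hx : x ^ m = x) : ‖x‖ ≤ 1 := by
  by_contra hc
  have hc' : 1 < ‖x‖ := not_le.1 hc
  have h1 : ‖x‖ ^ m = ‖x‖ := by rw [← norm_pow, hx]
  have h2 : ‖x‖ ^ 1 < ‖x‖ ^ m := pow_lt_pow_right₀ hc' (by omega)
  rw [h1, pow_one] at h2
  exact lt_irrefl _ h2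

/-- `x ^ m = x`, `2 ≤ m`, `x ≠ 0` implies `‖x‖ = 1`. -/
lemma norm_eq_one_of_pow_eq (x : K) (m : ℕ) (hm : 2 ≤ m) (hx : x ^ m = x) (h0 : x ≠ 0) : ‖x‖ = 1 := by
  apply le_antisymm (norm_le_one_of_pow_eq x m hm hx)
  by_contra hc
  have hc' : ‖x‖ < 1 := not_le.1 hc
  have hpos : 0 < ‖x‖ := norm_pos_iff.2 h0
  have h1 : ‖x‖ ^ m = ‖x‖ := by rw [← norm_pow, hx]
  have h2 : ‖x‖ ^ m < ‖x‖ ^ 1 := pow_lt_pow_right_of_lt_one₀ hpos hc' (by omega)
  rw [h1, pow_one] at h2
  exact lt_irrefl _ h2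

end ultra

section fields

variable (p : ℕ) [Fact p.Prime] {K : Type*} [Field K] [CharP K p]

open Polynomial in
/-- elements with `x^p = x` are natural number casts. -/
lemma exists_nat_of_pow_p_eq (x : K) (hx : x ^ p = x) : ∃ m : ℕ, x = (m : K) := by
  classical
  have hp1 : 1 < p := (Fact.out : p.Prime).one_lt
  have hroot : ∀ m : ℕ, (m : K) ^ p = (m : K) := fun m => by
    have := map_natCast (frobenius K p) m
    rwa [frobenius_def] at this
  have hdeg : (X ^ p - X : K[X]).natDegree = p := FiniteField.X_pow_card_sub_X_natDegree_eq K hp1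
  have hne : (X ^ p - X : K[X]) ≠ 0 := FiniteField.X_pow_card_sub_X_ne_zero K hp1
  let S : Finset K := (Finset.range p).image (fun m : ℕ => (m : K))
  have hScard : S.card = p := by
    rw [Finset.card_image_of_injOn, Finset.card_range]
    intro a ha b hb hab
    have hab' : (a : K) = (b : K) := hab
    rw [CharP.natCast_eq_natCast K p] at hab'
    have ha' : a < p := by simpa using ha
    have hb' : b < p := by simpa using hb
    exact Nat.ModEq.eq_of_lt_of_lt hab' ha' hb'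
  have hsub : S ⊆ (X ^ p - X : K[X]).roots.toFinset := by
    intro y hy
    obtain ⟨m, -, rfl⟩ := Finset.mem_image.1 hy
    simp only [Multiset.mem_toFinset]
    rw [mem_roots hne]
    simp [IsRoot, hroot]
  have hle : (X ^ p - X : K[X]).roots.toFinset.card ≤ S.card := by
    rw [hScard]
    calc _ ≤ (X ^ p - X : K[X]).roots.card := Multiset.toFinset_card_le _
      _ ≤ (X ^ p - X : K[X]).natDegree := card_roots' _
      _ = p := hdeg
  have heq := Finset.eq_of_subset_of_card_le hsub hle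
  have hxmem : x ∈ (X ^ p - X : K[X]).roots.toFinset := by
    simp only [Multiset.mem_toFinset]
    rw [mem_roots hne]
    simp [IsRoot, hx]
  rw [← heq] at hxmem
  obtain ⟨m, -, rfl⟩ := Finset.mem_image.1 hxmem
  exact ⟨m, rfl⟩

open Polynomial in
/-- Nondegeneracy of the trace: over an algebraically closed field of char `p` there is an element of
`F_{p^h}` with nonzero absolute trace. -/
lemma exists_trace_ne [IsAlgClosed K] (h : ℕ) (hh : 1 ≤ h) :
    ∃ y : K, y ^ (p ^ h) = y ∧ ∑ j ∈ Finset.range h, y ^ (p ^ j) ≠ 0 := by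
  classical
  by_contra hcon
  have hcon' : ∀ y : K, y ^ (p ^ h) = y → ∑ j ∈ Finset.range h, y ^ (p ^ j) = 0 := by
    intro y hy
    by_contra hne
    exact hcon ⟨y, hy, hne⟩
  have hp1 : 1 < p := (Fact.out : p.Prime).one_lt
  have hq1 : 1 < p ^ h := one_lt_pow₀ hp1 (by omega)
  set P : K[X] := X ^ (p ^ h) - X with hP
  set T : K[X] := ∑ j ∈ Finset.range h, X ^ (p ^ j) with hT
  have hPdeg : P.natDegree = p ^ h := FiniteField.X_pow_card_sub_X_natDegree_eq K hq1
  have hPne : P ≠ 0 := FiniteField.X_pow_card_sub_X_ne_zero K hq1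
  have hsep : P.Separable := galois_poly_separable p (p ^ h) (dvd_pow_self p (by omega))
  have hroots : P.roots.toFinset.card = p ^ h := by
    rw [Multiset.toFinset_card_of_nodup (nodup_roots hsep)]
    have := (splits_iff_card_roots (f := P)).1 (IsAlgClosed.splits P)
    rw [this, hPdeg]
  have hTdeg : T.natDegree ≤ p ^ (h - 1) := by
    apply natDegree_sum_le_of_forall_le
    intro j hj
    have hj' : j < h := by simpa using hj
    rw [natDegree_X_pow]
    exact Nat.pow_le_pow_right (by omega) (by omega)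
  have hTne : T ≠ 0 := by
    intro h0
    have h1 : coeff T 1 = 0 := by rw [h0]; simp
    rw [hT, finsetSum_coeff] at h1
    have h2 : ∑ j ∈ Finset.range h, coeff (X ^ (p ^ j) : K[X]) 1 = 1 := by
      rw [Finset.sum_eq_single 0]
      · simp
      · intro j _ hj
        rw [coeff_X_pow, if_neg]
        intro he
        have : p ^ j = 1 := he.symm
        have := (Nat.pow_eq_one.1 this)
        omega
      · intro hc
        exact (hc (by simp; omega)).elim
    rw [h2] at h1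
    exact one_ne_zero h1
  have hsub : P.roots.toFinset ⊆ T.roots.toFinset := by
    intro y hy
    simp only [Multiset.mem_toFinset] at hy ⊢
    rw [mem_roots hPne] at hy
    rw [mem_roots hTne]
    have hy' : y ^ (p ^ h) = y := by
      have : eval y P = 0 := hy
      simp only [hP, eval_sub, eval_pow, eval_X] at this
      exact sub_eq_zero.1 this
    have := hcon' y hy'
    simp only [IsRoot, hT, eval_finsetSum, eval_pow, eval_X]
    exact this
  have h1 := Finset.card_le_card hsub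
  rw [hroots] at h1
  have h2 : T.roots.toFinset.card ≤ p ^ (h - 1) :=
    le_trans (Multiset.toFinset_card_le _) (le_trans (card_roots' _) hTdeg)
  have h3 : p ^ h ≤ p ^ (h - 1) := le_trans h1 h2
  have h4 : p ^ (h - 1) < p ^ h := Nat.pow_lt_pow_right hp1 (by omega)
  omega

end fields

section rows

variable (p : ℕ) [Fact p.Prime] {K : Type*} [NormedField K] [IsUltrametricDist K] [CharP K p]
  [PerfectRing K p] {ι : Type*} [Fintype ι]

/-- indices `(l,s)` of the `i`-th row: `s ≡ i mod h`, `b l s ≠ 0`. -/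
noncomputable def rowIdx (h S : ℕ) (b : ι → ℕ → K) (i : ℕ) : Finset (ι × ℕ) := by
  classical
  exact (Finset.univ ×ˢ Finset.range S).filter (fun x => x.2 % h = i ∧ b x.1 x.2 ≠ 0)

omit [IsUltrametricDist K] [CharP K p] [PerfectRing K p] [Fact p.Prime] in
lemma mem_rowIdx {h S : ℕ} {b : ι → ℕ → K} {i : ℕ} {x : ι × ℕ} :
    x ∈ rowIdx h S b i ↔ x.2 < S ∧ x.2 % h = i ∧ b x.1 x.2 ≠ 0 := by
  classical
  simp [rowIdx]

/-- The row sum `a_i(e) = ∑_{l,w} b_{l,i+hw} z_l^{p^{e+nw}}`. -/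
noncomputable def rowSum (n h S : ℕ) (b : ι → ℕ → K) (z : ι → K) (i : ℕ) (e : ℤ) : K :=
  ∑ x ∈ rowIdx h S b i, b x.1 x.2 * pw p (e + (n : ℤ) * ((x.2 / h : ℕ) : ℤ)) (z x.1)

theorem row_good [IsAlgClosed K] (h d : ℕ) (hh : 1 ≤ h) (hd : 1 ≤ d)
    (z : ι → K) (hz0 : ∀ l, z l ≠ 0) (hz1 : ∀ l, ‖z l‖ < 1)
    (Orth : ∀ (S : Finset ι) (w : ι → ℕ) (C : ℝ) (γ : ι → ℕ),
      (∀ l ∈ S, ‖z l ^ (p ^ ((h + d) * w l))‖ = C) → (∃ l ∈ S, (γ l : K) ≠ 0) →
      ‖∑ l ∈ S, (γ l : K) * z l ^ (p ^ ((h + d) * w l))‖ = C)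
    (S : ℕ) (b : ι → ℕ → K) (hb : ∀ l s, b l s ^ (p ^ h) = b l s)
    (i : ℕ) (hi : (rowIdx h S b i).Nonempty) :
    ∃ ν : ℝ, 0 < ν ∧
      (∀ x ∈ rowIdx h S b i, ν ≤ (p : ℝ) ^ ((h + d) * (x.2 / h)) * vl (z x.1)) ∧
      (∀ e : ℤ, ‖rowSum p (h + d) h S b z i e‖ ≤ Real.exp (-((p : ℝ) ^ e * ν))) ∧
      (∀ e₁ : ℤ, ∃ u : ℕ, u < h ∧
        ‖rowSum p (h + d) h S b z i (e₁ + u)‖ = Real.exp (-((p : ℝ) ^ (e₁ + u) * ν))) := by
  classical
  have hp1 : 1 < p := (Fact.out : p.Prime).one_lt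
  have hpR : (1 : ℝ) < p := by exact_mod_cast hp1
  have hpR0 : (0 : ℝ) < p := by linarith
  have hqh : 2 ≤ p ^ h := by
    calc 2 ≤ p := hp1
      _ = p ^ 1 := (pow_one p).symm
      _ ≤ p ^ h := Nat.pow_le_pow_right (by omega) hh
  set n := h + d with hn
  set φ : ι × ℕ → ℝ := fun x => (p : ℝ) ^ (n * (x.2 / h)) * vl (z x.1) with hφ
  obtain ⟨x₀, hx₀, hmin⟩ := Finset.exists_min_image _ φ hi
  have hvz : ∀ l, 0 < vl (z l) := fun l => vl_pos (hz0 l) (hz1 l)
  have hφpos : ∀ x, 0 < φ x := fun x => mul_pos (by positivity) (hvz _)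
  refine ⟨φ x₀, hφpos _, hmin, ?_⟩
  set ν := φ x₀ with hν
  have hνpos : 0 < ν := hφpos _
  have hbnorm : ∀ x : ι × ℕ, ‖b x.1 x.2‖ ≤ 1 := fun x =>
    norm_le_one_of_pow_eq _ _ hqh (hb _ _)
  -- the norm of a single term
  have hterm : ∀ (e : ℤ) (x : ι × ℕ), ‖pw p (e + (n : ℤ) * ((x.2 / h : ℕ) : ℤ)) (z x.1)‖ =
      Real.exp (-((p : ℝ) ^ e * φ x)) := by
    intro e x
    rw [norm_pw_eq p _ (hz0 _)]
    congr 2
    simp only [hφ]
    rw [zpow_add₀ hpR0.ne']
    have e1 : (p : ℝ) ^ ((n : ℤ) * ((x.2 / h : ℕ) : ℤ)) = (p : ℝ) ^ (n * (x.2 / h)) := by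
      have : (n : ℤ) * ((x.2 / h : ℕ) : ℤ) = ((n * (x.2 / h) : ℕ) : ℤ) := by push_cast; ring
      rw [this, zpow_natCast]
    rw [e1]; ring
  have hlb : ∀ e : ℤ, ‖rowSum p n h S b z i e‖ ≤ Real.exp (-((p : ℝ) ^ e * ν)) := by
    intro e
    apply norm_sum_le' (Real.exp_pos _).le
    intro x hx
    rw [norm_mul, hterm]
    have h1 : Real.exp (-((p : ℝ) ^ e * φ x)) ≤ Real.exp (-((p : ℝ) ^ e * ν)) := by
      apply Real.exp_le_exp.2
      have : (p : ℝ) ^ e * ν ≤ (p : ℝ) ^ e * φ x :=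
        mul_le_mul_of_nonneg_left (hmin x hx) (by positivity)
      linarith
    calc _ ≤ 1 * Real.exp (-((p : ℝ) ^ e * φ x)) :=
          mul_le_mul_of_nonneg_right (hbnorm x) (Real.exp_pos _).le
      _ ≤ _ := by rw [one_mul]; exact h1
  refine ⟨hlb, ?_⟩
  intro e₁
  by_contra hcon
  have hlt : ∀ u : ℕ, u < h → ‖rowSum p n h S b z i (e₁ + u)‖ < Real.exp (-((p : ℝ) ^ (e₁ + u) * ν)) := by
    intro u hu
    refine lt_of_le_of_ne (hlb _) fun heq => hcon ⟨u, hu, heq⟩
  set C := Real.exp (-ν) with hC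
  have hCpos : 0 < C := Real.exp_pos _
  set T := (rowIdx h S b i).filter (fun x => φ x = ν) with hT
  -- after applying `pw (-e)`
  set σ : ℕ → RingAut K := fun u => pw p (-(e₁ + u)) with hσ
  set Z : ι × ℕ → K := fun x => pw p ((n : ℤ) * ((x.2 / h : ℕ) : ℤ)) (z x.1) with hZ
  have hZnorm : ∀ x, ‖Z x‖ = Real.exp (-φ x) := by
    intro x
    have := hterm 0 x
    simpa [hZ] using this
  have hσpw : ∀ (u : ℕ) (x : ι × ℕ), σ u (pw p (((e₁ + u : ℤ)) + (n : ℤ) * ((x.2 / h : ℕ) : ℤ)) (z x.1)) = Z x := by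
    intro u x
    simp only [hσ, hZ]
    rw [← pw_add]
    congr 2
    ring
  have hσnorm : ∀ (u : ℕ) (y : K), ‖σ u y‖ ≤ 1 → ‖σ u y‖ ≤ 1 := fun _ _ h => h
  have hy : ∀ u : ℕ, u < h → ‖∑ x ∈ rowIdx h S b i, σ u (b x.1 x.2) * Z x‖ < C := by
    intro u hu
    have e1 : ∑ x ∈ rowIdx h S b i, σ u (b x.1 x.2) * Z x = σ u (rowSum p n h S b z i (e₁ + u)) := by
      simp only [rowSum, map_sum, map_mul, hσpw]
    rw [e1]
    by_cases h0 : rowSum p n h S b z i (e₁ + u) = 0
    · rw [h0, map_zero, norm_zero]; exact hCpos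
    · simp only [hσ]
      have h1 := hlt u hu
      rw [norm_pw_eq p _ h0]
      rw [norm_eq_exp_vl h0] at h1
      have h2 : (p : ℝ) ^ (e₁ + u) * ν < vl (rowSum p n h S b z i (e₁ + u)) := by
        have := Real.exp_lt_exp.1 h1
        linarith
      apply Real.exp_lt_exp.2
      have h3 : 0 < (p : ℝ) ^ (-(e₁ + u : ℤ)) := by positivity
      have h4 := mul_lt_mul_of_pos_left h2 h3
      rw [← mul_assoc, ← zpow_add₀ hpR0.ne'] at h4
      simp only [neg_add_cancel, zpow_zero, one_mul] at h4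
      linarith
  -- the leading part
  have hσb : ∀ (u : ℕ) (x : ι × ℕ), ‖σ u (b x.1 x.2)‖ ≤ 1 := by
    intro u x
    apply norm_le_one_of_pow_eq _ _ hqh
    rw [← map_pow, hb]
  have hlead : ∀ u : ℕ, u < h → ‖∑ x ∈ T, σ u (b x.1 x.2) * Z x‖ < C := by
    intro u hu
    have hsplit := Finset.sum_filter_add_sum_filter_not (rowIdx h S b i) (fun x => φ x = ν)
      (fun x => σ u (b x.1 x.2) * Z x)
    have h2 : ‖∑ x ∈ (rowIdx h S b i).filter (fun x => ¬ φ x = ν), σ u (b x.1 x.2) * Z x‖ < C := by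
      apply norm_sum_lt hCpos
      intro x hx
      obtain ⟨hx1, hx2⟩ := Finset.mem_filter.1 hx
      have hlt' : ν < φ x := lt_of_le_of_ne (hmin x hx1) (Ne.symm hx2)
      rw [norm_mul, hZnorm]
      calc _ ≤ 1 * Real.exp (-φ x) := mul_le_mul_of_nonneg_right (hσb _ _) (Real.exp_pos _).le
        _ = Real.exp (-φ x) := one_mul _
        _ < C := Real.exp_lt_exp.2 (by linarith)
    have h3 : ∑ x ∈ T, σ u (b x.1 x.2) * Z x = ∑ x ∈ rowIdx h S b i, σ u (b x.1 x.2) * Z x -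
        ∑ x ∈ (rowIdx h S b i).filter (fun x => ¬ φ x = ν), σ u (b x.1 x.2) * Z x := by
      rw [← hsplit]; ring
    rw [h3]
    rw [sub_eq_add_neg]
    have h4 := IsUltrametricDist.norm_add_le_max (∑ x ∈ rowIdx h S b i, σ u (b x.1 x.2) * Z x)
      (-∑ x ∈ (rowIdx h S b i).filter (fun x => ¬ φ x = ν), σ u (b x.1 x.2) * Z x)
    rw [norm_neg] at h4
    exact lt_of_le_of_lt h4 (max_lt (hy u hu) h2)
  -- the trace
  set Tr : K → K := fun y => ∑ u ∈ Finset.range h, σ u y with hTr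
  have hTrlead : ∀ β : K, β ^ (p ^ h) = β → ‖∑ x ∈ T, Tr (β * b x.1 x.2) * Z x‖ < C := by
    intro β hβ
    have e1 : ∑ x ∈ T, Tr (β * b x.1 x.2) * Z x =
        ∑ u ∈ Finset.range h, σ u β * ∑ x ∈ T, σ u (b x.1 x.2) * Z x := by
      simp only [hTr, Finset.sum_mul, Finset.mul_sum]
      rw [Finset.sum_comm]
      refine Finset.sum_congr rfl fun x _ => Finset.sum_congr rfl fun u _ => ?_
      rw [map_mul]; ring
    rw [e1]
    apply norm_sum_lt hCpos
    intro u hu
    have hu' : u < h := by simpa using hu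
    rw [norm_mul]
    have hσβ : ‖σ u β‖ ≤ 1 := by
      apply norm_le_one_of_pow_eq _ _ hqh
      rw [← map_pow, hβ]
    calc _ ≤ 1 * ‖∑ x ∈ T, σ u (b x.1 x.2) * Z x‖ := mul_le_mul_of_nonneg_right hσβ (norm_nonneg _)
      _ < C := by rw [one_mul]; exact hlead u hu'
  -- the trace takes values in `F_p`
  have hTrp : ∀ y : K, y ^ (p ^ h) = y → (Tr y) ^ p = Tr y := by
    intro y hy
    have hper : pw p (h : ℤ) y = y := by rw [pw_nat, hy]
    haveI : Fact p.Prime := inferInstance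
    simp only [hTr]
    rw [sum_pow_char p]
    set f : ℕ → K := fun u => pw p (1 - e₁ - u) y with hf
    have e0 : ∀ u : ℕ, (σ u y) ^ p = f u := by
      intro u
      simp only [hσ, hf]
      rw [pw_pow_p]
      congr 2
      ring
    have e1 : ∀ u : ℕ, σ u y = f (u + 1) := by
      intro u
      simp only [hσ, hf]
      congr 2
      push_cast; ring
    have e2 : f h = f 0 := by
      simp only [hf]
      have : (1 - e₁ - (h : ℤ)) = (1 - e₁ - ((0 : ℕ) : ℤ)) + (-(h : ℤ)) := by push_cast; ring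
      have hneg : pw p (-(h : ℤ)) y = y := by
        conv_lhs => rw [← hper]
        exact pw_neg_apply p _ _
      rw [this, pw_add, hneg]
    have h1 := Finset.sum_range_succ f h
    have h2 := Finset.sum_range_succ' f h
    rw [Finset.sum_congr rfl (fun u _ => e0 u), Finset.sum_congr rfl (fun u _ => e1 u)]
    rw [h1, e2] at h2
    exact add_right_cancel h2
  have hTrnat : ∀ y : K, y ^ (p ^ h) = y → ∃ m : ℕ, Tr y = (m : K) := fun y hy =>
    exists_nat_of_pow_p_eq p _ (hTrp y hy)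
  -- injectivity of the first projection on `T`
  have hinj : Set.InjOn Prod.fst (T : Set (ι × ℕ)) := by
    rintro ⟨l, s⟩ hx ⟨l', s'⟩ hx' heq
    simp only at heq
    subst heq
    have hx1 := Finset.mem_coe.1 hx
    have hx2 := Finset.mem_coe.1 hx'
    obtain ⟨hx3, hx4⟩ := Finset.mem_filter.1 hx1
    obtain ⟨hx5, hx6⟩ := Finset.mem_filter.1 hx2
    have hm1 := mem_rowIdx.1 hx3
    have hm2 := mem_rowIdx.1 hx5
    have e1 : φ (l, s) = φ (l, s') := by rw [hx4, hx6]
    simp only [hφ] at e1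
    have hne : vl (z l) ≠ 0 := (hvz l).ne'
    have e2 := mul_right_cancel₀ hne e1
    have e3 : n * (s / h) = n * (s' / h) := pow_right_injective₀ hpR0 hpR.ne' e2
    have hnpos : 0 < n := by omega
    have e4 : s / h = s' / h := Nat.eq_of_mul_eq_mul_left hnpos e3
    have e5 : s % h = s' % h := by
      have h1 : s % h = i := hm1.2.1
      have h2 : s' % h = i := hm2.2.1
      rw [h1, h2]
    have e6 : s = s' := by
      rw [← Nat.div_add_mod s h, ← Nat.div_add_mod s' h, e4, e5]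
    rw [e6]
  have hT_ne : T.Nonempty := ⟨x₀, Finset.mem_filter.2 ⟨hx₀, rfl⟩⟩
  -- consequence of Orth: all traces vanish
  have hTr0 : ∀ β : K, β ^ (p ^ h) = β → ∀ x ∈ T, Tr (β * b x.1 x.2) = 0 := by
    intro β hβ
    have hnat : ∀ x : ι × ℕ, ∃ m : ℕ, Tr (β * b x.1 x.2) = (m : K) := fun x =>
      hTrnat _ (by rw [mul_pow, hβ, hb])
    choose m hm using hnat
    -- functions on `ι`
    have hw : ∀ l : ι, ∃ s : ℕ, l ∈ T.image Prod.fst → (l, s) ∈ T := by
      intro l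
      by_cases hl : l ∈ T.image Prod.fst
      · obtain ⟨x, hx, rfl⟩ := Finset.mem_image.1 hl
        exact ⟨x.2, fun _ => hx⟩
      · exact ⟨0, fun h => (hl h).elim⟩
    choose sl hsl using hw
    have hsum : ∑ x ∈ T, Tr (β * b x.1 x.2) * Z x =
        ∑ l ∈ T.image Prod.fst, ((m (l, sl l) : ℕ) : K) * z l ^ (p ^ (n * (sl l / h))) := by
      rw [Finset.sum_image hinj]
      refine Finset.sum_congr rfl fun x hx => ?_
      have hx' : x.1 ∈ T.image Prod.fst := Finset.mem_image_of_mem _ hx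
      have h1 : (x.1, sl x.1) = x := hinj (Finset.mem_coe.2 (hsl _ hx')) (Finset.mem_coe.2 hx) rfl
      rw [h1, hm]
      simp only [hZ]
      congr 1
      have e5 := congrArg Prod.snd h1
      simp only at e5
      rw [e5]
      have : (n : ℤ) * ((x.2 / h : ℕ) : ℤ) = ((n * (x.2 / h) : ℕ) : ℤ) := by push_cast; ring
      rw [this, pw_nat]
    intro x hx
    by_contra hne
    have hne' : ((m x : ℕ) : K) ≠ 0 := by rw [← hm]; exact hne
    have hx' : x.1 ∈ T.image Prod.fst := Finset.mem_image_of_mem _ hx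
    have h1 : (x.1, sl x.1) = x := hinj (Finset.mem_coe.2 (hsl _ hx')) (Finset.mem_coe.2 hx) rfl
    have hO := Orth (T.image Prod.fst) (fun l => sl l / h) C (fun l => m (l, sl l)) ?_
      ⟨x.1, hx', by simpa [h1] using hne'⟩
    · rw [← hsum] at hO
      have := hTrlead β hβ
      rw [hO] at this
      exact lt_irrefl _ this
    · intro l hl
      have h2 := hsl l hl
      have h3 := Finset.mem_filter.1 h2
      have h4 : ‖Z (l, sl l)‖ = C := by rw [hZnorm, h3.2]
      simp only [hZ] at h4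
      have : (n : ℤ) * ((sl l / h : ℕ) : ℤ) = ((n * (sl l / h) : ℕ) : ℤ) := by push_cast; ring
      rw [this, pw_nat] at h4
      exact h4
  -- contradiction with nondegeneracy of the trace
  obtain ⟨y, hy, hytr⟩ := exists_trace_ne p (K := K) h hh
  obtain ⟨x, hx⟩ := hT_ne
  have hb0 : b x.1 x.2 ≠ 0 := by
    have := Finset.mem_filter.1 hx
    exact (mem_rowIdx.1 this.1).2.2
  have hβ : (y / b x.1 x.2) ^ (p ^ h) = y / b x.1 x.2 := by
    rw [div_pow, hy, hb]
  have hTry := hTr0 _ hβ x hx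
  rw [div_mul_cancel₀ _ hb0] at hTry
  -- apply `pw (e₁ + h - 1)`
  apply hytr
  have h1 : pw p (e₁ + (h : ℤ) - 1) (Tr y) = ∑ j ∈ Finset.range h, y ^ (p ^ j) := by
    simp only [hTr, map_sum, hσ]
    rw [← Finset.sum_range_reflect]
    refine Finset.sum_congr rfl fun j hj => ?_
    have hj' : j < h := by simpa using hj
    rw [← pw_add, ← pw_nat]
    congr 2
    have : ((h - 1 - j : ℕ) : ℤ) = (h : ℤ) - 1 - j := by
      omega
    rw [this]
    ring
  rw [← h1, hTry, map_zero]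

end rows

section series

variable (p : ℕ) [Fact p.Prime] {K : Type*} [NormedField K] [IsUltrametricDist K] [CharP K p]
  [PerfectRing K p]

omit [Fact p.Prime] [IsUltrametricDist K] [PerfectRing K p] [CharP K p] in
lemma c_iter (h d : ℕ) (c : ℤ → K) (hc : ∀ a, c a = c (a + d) ^ (p ^ h)) (a : ℤ) (w : ℕ) :
    c a = c (a + (d : ℤ) * w) ^ (p ^ (h * w)) := by
  induction w with
  | zero => simp
  | succ w ih =>
    have e1 : a + (d : ℤ) * (w + 1 : ℕ) = a + (d : ℤ) * w + d := by push_cast; ring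
    rw [e1, ih, hc (a + (d : ℤ) * w), ← pow_mul, Nat.mul_succ, pow_add, Nat.mul_comm (p ^ h)]

omit [IsUltrametricDist K] [PerfectRing K p] [CharP K p] in
/-- `‖c a‖ → 0` as `a → -∞`. -/
lemma tendsto_c_atBot (h d : ℕ) (hh : 1 ≤ h) (hd : 1 ≤ d) (c : ℤ → K)
    (hc : ∀ a, c a = c (a + d) ^ (p ^ h))
    (hc1 : ∀ a, ‖c a‖ < 1) : Tendsto (fun a => ‖c a‖) atBot (nhds 0) := by
  classical
  have hd' : (0 : ℤ) < d := by exact_mod_cast hd
  have hp1 : 1 < p := (Fact.out : p.Prime).one_lt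
  obtain ⟨a₁, _, hmax⟩ := Finset.exists_max_image (Finset.Ico (0 : ℤ) d) (fun a => ‖c a‖)
    ⟨0, Finset.mem_Ico.2 ⟨le_refl _, hd'⟩⟩
  set ρ := ‖c a₁‖ with hρ
  have hρ1 : ρ < 1 := hc1 _
  have hρ0 : 0 ≤ ρ := norm_nonneg _
  rw [Metric.tendsto_nhds]
  intro ε hε
  obtain ⟨W, hW⟩ := exists_pow_lt_of_lt_one hε hρ1
  refine Filter.eventually_atBot.2 ⟨-(d : ℤ) * W - 1, fun a ha => ?_⟩
  have ha0 : a < 0 := by
    have : (0 : ℤ) ≤ (d : ℤ) * W := by positivity
    nlinarith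
  have hq : a / d ≤ -(W : ℤ) := by
    have h1 : a / d < -(W : ℤ) + 1 := by
      apply Int.ediv_lt_of_lt_mul hd'
      nlinarith
    omega
  have hq0 : 0 ≤ -(a / d) := by
    have : (0 : ℤ) ≤ W := by positivity
    omega
  set w : ℕ := (-(a / d)).toNat with hw
  have hwz : (w : ℤ) = -(a / d) := Int.toNat_of_nonneg hq0
  have hWw : W ≤ w := by
    have : (W : ℤ) ≤ w := by rw [hwz]; omega
    exact_mod_cast this
  have ha1 : a + (d : ℤ) * w = a % d := by
    rw [hwz]
    have := Int.emod_add_mul_ediv a d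
    linarith
  have h1 := c_iter p h d c hc a w
  rw [ha1] at h1
  have hm : a % d ∈ Finset.Ico (0 : ℤ) d :=
    Finset.mem_Ico.2 ⟨Int.emod_nonneg _ hd'.ne', Int.emod_lt_of_pos _ hd'⟩
  have h2 : ‖c (a % d)‖ ≤ ρ := hmax _ hm
  simp only [Real.dist_eq, sub_zero, abs_norm]
  rw [h1, norm_pow]
  have h3 : W ≤ p ^ (h * w) := by
    have : w < p ^ w := Nat.lt_pow_self hp1
    have h4 : p ^ w ≤ p ^ (h * w) := Nat.pow_le_pow_right (by omega) (Nat.le_mul_of_pos_left _ (by omega))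
    omega
  calc ‖c (a % d)‖ ^ p ^ (h * w) ≤ ρ ^ p ^ (h * w) := pow_le_pow_left₀ (norm_nonneg _) h2 _
    _ ≤ ρ ^ W := pow_le_pow_of_le_one hρ0 hρ1.le h3
    _ < ε := hW

omit [IsUltrametricDist K] in
/-- `‖pw (a + K₀) z‖ → 0` as `a → +∞`. -/
lemma tendsto_pw_atTop (z : K) (hz1 : ‖z‖ < 1) (K₀ : ℤ) :
    Tendsto (fun a : ℤ => ‖pw p (a + K₀) z‖) atTop (nhds 0) := by
  have hp1 : 1 < p := (Fact.out : p.Prime).one_lt
  rw [Metric.tendsto_nhds]
  intro ε hε
  obtain ⟨W, hW⟩ := exists_pow_lt_of_lt_one hε hz1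
  refine Filter.eventually_atTop.2 ⟨(W : ℤ) - K₀, fun a ha => ?_⟩
  have h0 : 0 ≤ a + K₀ := by
    have : (0 : ℤ) ≤ W := by positivity
    linarith
  set w : ℕ := (a + K₀).toNat with hw
  have hwz : (w : ℤ) = a + K₀ := Int.toNat_of_nonneg h0
  have hWw : W ≤ w := by
    have : (W : ℤ) ≤ w := by rw [hwz]; linarith
    exact_mod_cast this
  simp only [Real.dist_eq, sub_zero, abs_norm]
  rw [← hwz, pw_nat, norm_pow]
  have h3 : W ≤ p ^ w := le_trans hWw (Nat.lt_pow_self hp1).le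
  exact lt_of_le_of_lt (pow_le_pow_of_le_one (norm_nonneg _) hz1.le h3) hW

omit [IsUltrametricDist K] in
lemma norm_pw_le_one (z : K) (hz1 : ‖z‖ ≤ 1) (e : ℤ) : ‖pw p e z‖ ≤ 1 := by
  by_cases h0 : z = 0
  · simp [h0]
  · rw [norm_pw_eq p e h0]
    have h1 : 0 ≤ vl z := by
      have := Real.log_nonpos (norm_nonneg z) hz1
      simp only [vl]; linarith
    rw [Real.exp_le_one_iff]
    have : 0 ≤ (p : ℝ) ^ e * vl z := by positivity
    linarith

/-- The series converge. -/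
lemma summable_term [CompleteSpace K] (h d : ℕ) (hh : 1 ≤ h) (hd : 1 ≤ d) (c : ℤ → K)
    (hc : ∀ a, c a = c (a + d) ^ (p ^ h)) (hc1 : ∀ a, ‖c a‖ < 1)
    (z : K) (hz1 : ‖z‖ < 1) (K₀ : ℤ) (β : K) (hβ : ‖β‖ ≤ 1) (m : ℕ) (hm : m ≠ 0)
    (T : ℤ → K) (hT : ∀ a, ‖T a‖ ≤ 1) :
    Summable (fun a : ℤ => β * c a ^ m * T a * pw p (a + K₀) z) := by
  apply NonarchimedeanAddGroup.summable_of_tendsto_cofinite_zero
  have hbd : ∀ a, ‖β * c a ^ m * T a * pw p (a + K₀) z‖ ≤ ‖c a‖ * ‖pw p (a + K₀) z‖ := by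
    intro a
    simp only [norm_mul, norm_pow]
    have h1 : ‖c a‖ ^ m ≤ ‖c a‖ := pow_le_of_le_one (norm_nonneg _) (hc1 a).le hm
    have h2 := hT a
    have h3 : ‖β‖ * ‖c a‖ ^ m * ‖T a‖ ≤ 1 * ‖c a‖ * 1 := by gcongr
    have h4 : 0 ≤ ‖pw p (a + K₀) z‖ := norm_nonneg _
    nlinarith
  have hlim : Tendsto (fun a : ℤ => ‖c a‖ * ‖pw p (a + K₀) z‖) cofinite (nhds 0) := by
    rw [Int.cofinite_eq, tendsto_sup]
    constructor
    · have h1 := tendsto_c_atBot p h d hh hd c hc hc1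
      refine squeeze_zero (fun a => by positivity) (fun a => ?_) h1
      have := norm_pw_le_one p z hz1.le (a + K₀)
      have h0 := norm_nonneg (c a)
      nlinarith
    · have h1 := tendsto_pw_atTop p z hz1 K₀
      refine squeeze_zero (fun a => by positivity) (fun a => ?_) h1
      have := (hc1 a).le
      have h0 := norm_nonneg (pw p (a + K₀) z)
      nlinarith
  exact squeeze_zero_norm hbd hlim

end series

section fourier

variable (p : ℕ) [Fact p.Prime] {K : Type*} [Field K] [CharP K p] [PerfectRing K p]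

/-- Fourier orthogonality on `F_q`. -/
lemma fourier (n : ℕ) (hn : 2 ≤ n) (k : Type) [Field k] [Fintype k] [DecidableEq k]
    (hk : Fintype.card k = p ^ n) (f : k →+* K) (κ x : ℤ) :
    ∑ u : kˣ, (f u) ^ (p ^ n - 1 - p ^ (κ % n).toNat) * pw p x (f u) =
      if ((n : ℤ) ∣ (x - κ)) then -1 else 0 := by
  have hp1 : 1 < p := (Fact.out : p.Prime).one_lt
  have hn0 : (0 : ℤ) < n := by omega
  set κ' := (κ % n).toNat with hκ'
  set x' := (x % n).toNat with hx'
  have hκz : (κ' : ℤ) = κ % n := Int.toNat_of_nonneg (Int.emod_nonneg _ hn0.ne')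
  have hxz : (x' : ℤ) = x % n := Int.toNat_of_nonneg (Int.emod_nonneg _ hn0.ne')
  have hκlt : κ' < n := by
    have := Int.emod_lt_of_pos κ hn0
    omega
  have hxlt : x' < n := by
    have := Int.emod_lt_of_pos x hn0
    omega
  have hpow : ∀ u : kˣ, (f u) ^ (p ^ n) = f u := by
    intro u
    rw [← map_pow, ← hk, FiniteField.pow_card]
  have hpwx : ∀ u : kˣ, pw p x (f u) = (f u) ^ (p ^ x') := by
    intro u
    have e1 : x = (x' : ℤ) + (n : ℤ) * (x / n) := by
      rw [hxz]; exact (Int.emod_add_mul_ediv x n).symm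
    conv_lhs => rw [e1]
    rw [pw_add, pw_periodic p n _ (hpow u), pw_nat]
  have hq : p ^ (n - 1) * 2 ≤ p ^ n := by
    have : p ^ n = p ^ (n - 1) * p := by
      rw [← pow_succ]; congr 1; omega
    rw [this]
    exact Nat.mul_le_mul_left _ hp1
  have hle1 : ∀ y, y < n → p ^ y ≤ p ^ (n - 1) := fun y hy => Nat.pow_le_pow_right (by omega) (by omega)
  have hpos1 : ∀ y, 1 ≤ p ^ y := fun y => Nat.one_le_pow _ _ (by omega)
  have hsum : ∑ u : kˣ, (f u) ^ (p ^ n - 1 - p ^ κ') * pw p x (f u) =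
      f (∑ u : kˣ, (u : k) ^ (p ^ n - 1 - p ^ κ' + p ^ x')) := by
    rw [map_sum]
    refine Finset.sum_congr rfl fun u _ => ?_
    rw [hpwx, map_pow, pow_add]
  rw [hsum, FiniteField.sum_pow_units, hk]
  have hdvd_iff : ((n : ℤ) ∣ (x - κ)) ↔ x' = κ' := by
    constructor
    · intro hd
      have : κ % n = x % n := Int.modEq_iff_dvd.2 hd
      omega
    · intro he
      have : x % n = κ % n := by omega
      exact Int.ModEq.dvd (show κ ≡ x [ZMOD n] from this.symm)
  have hκ1 := hle1 κ' hκlt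
  have hx1 := hle1 x' hxlt
  have hκ2 := hpos1 κ'
  have hx2 := hpos1 x'
  by_cases he : x' = κ'
  · rw [if_pos (hdvd_iff.2 he), if_pos]
    · simp
    · rw [he]
      have : p ^ n - 1 - p ^ κ' + p ^ κ' = p ^ n - 1 := by omega
      rw [this]
  · rw [if_neg (fun hd => he (hdvd_iff.1 hd)), if_neg]
    · simp
    · intro hd
      have hne : p ^ x' ≠ p ^ κ' := fun heq => he (Nat.pow_right_injective hp1 heq)
      obtain ⟨w, hw⟩ := hd
      have hw1 : w = 1 := by
        have hq0 : 0 < p ^ n - 1 := by omega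
        have h1 : 0 < w := by
          rcases Nat.eq_zero_or_pos w with h0 | h0
          · subst h0
            omega
          · exact h0
        have h2 : w < 2 := by
          by_contra hc
          have : 2 ≤ w := by omega
          have h3 : (p ^ n - 1) * 2 ≤ (p ^ n - 1) * w := Nat.mul_le_mul_left _ this
          omega
        omega
      subst hw1
      omega

end fourier

section main

variable (p : ℕ) [Fact p.Prime] {K : Type*} [NormedField K] [IsUltrametricDist K] [CharP K p]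
  [PerfectRing K p] [IsAlgClosed K] [CompleteSpace K]

/-- **Final Lemma** (BLUEPRINT §E6).  `vl x = -log ‖x‖`; `pw p e x = x^(p^e)`, `e : ℤ`.
The hypothesis says `val P(t,r) ≥ q_h M(r)`, where `M(r)` is the infimum of the values of the terms:
it is phrased with an arbitrary lower bound `m` of the terms. -/
theorem final_lemma (h d : ℕ) (hh : 1 ≤ h) (hd : 1 ≤ d)
    (c : ℤ → K) (hc : ∀ a, c a = c (a + d) ^ (p ^ h)) (hc1 : ∀ a, ‖c a‖ < 1) (hc0 : ∃ a, c a ≠ 0)
    {ι : Type*} [Fintype ι] (z : ι → K) (hz0 : ∀ l, z l ≠ 0) (hz1 : ∀ l, ‖z l‖ < 1)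
    (Orth : ∀ (S : Finset ι) (w : ι → ℕ) (C : ℝ) (γ : ι → ℕ),
      (∀ l ∈ S, ‖z l ^ (p ^ ((h + d) * w l))‖ = C) → (∃ l ∈ S, (γ l : K) ≠ 0) →
      ‖∑ l ∈ S, (γ l : K) * z l ^ (p ^ ((h + d) * w l))‖ = C)
    (S : ℕ) (b : ι → ℕ → K) (hb : ∀ l s, b l s ^ (p ^ h) = b l s)
    (hbS : ∀ l s, S ≤ s → b l s = 0) (hbne : ∃ l s, b l s ≠ 0)
    (H : ∀ t : K, t ^ (p ^ (h + d)) = t → ∀ᶠ r : ℕ in atTop, ∀ m : ℝ,
      (∀ l s (a : ℤ), b l s ≠ 0 → c a ≠ 0 →
        m ≤ (p : ℝ) ^ s * vl (c a) + (p : ℝ) ^ (a + s + r) * vl (z l)) →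
      ‖∑ l, ∑ s ∈ Finset.range S, ∑' a : ℤ,
          b l s * c a ^ (p ^ s) * pw p (a + s) t * pw p (a + s + r) (z l)‖
        ≤ Real.exp (-((p : ℝ) ^ h * m))) : False := by
  classical
  have hp1 : 1 < p := (Fact.out : p.Prime).one_lt
  have hpR : (1 : ℝ) < p := by exact_mod_cast hp1
  have hpR0 : (0 : ℝ) < p := by linarith
  set n := h + d with hn
  have hn2 : 2 ≤ n := by omega
  have hhpos : 0 < h := by omega
  have hqh : 2 ≤ p ^ h := by
    calc 2 ≤ p := hp1
      _ = p ^ 1 := (pow_one p).symm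
      _ ≤ p ^ h := Nat.pow_le_pow_right (by omega) hh
  have hqn : 2 ≤ p ^ n := by
    calc 2 ≤ p := hp1
      _ = p ^ 1 := (pow_one p).symm
      _ ≤ p ^ n := Nat.pow_le_pow_right (by omega) (by omega)
  -- the finite field
  letI : Fintype (GaloisField p n) := Fintype.ofFinite _
  have hcard : Fintype.card (GaloisField p n) = p ^ n := by
    rw [← Nat.card_eq_fintype_card]; exact GaloisField.card p n (by omega)
  letI : Algebra (ZMod p) K := ZMod.algebra K p
  let f : GaloisField p n →+* K := (IsAlgClosed.lift : GaloisField p n →ₐ[ZMod p] K).toRingHom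
  have hfpow : ∀ u : (GaloisField p n)ˣ, (f u) ^ (p ^ n) = f u := by
    intro u
    rw [← map_pow, ← hcard, FiniteField.pow_card]
  have hfnorm : ∀ u : (GaloisField p n)ˣ, ‖f u‖ ≤ 1 := fun u =>
    norm_le_one_of_pow_eq _ _ hqn (hfpow u)
  -- eventually
  have hev : ∀ᶠ r : ℕ in atTop, ∀ u : (GaloisField p n)ˣ, ∀ m : ℝ,
      (∀ l s (a : ℤ), b l s ≠ 0 → c a ≠ 0 →
        m ≤ (p : ℝ) ^ s * vl (c a) + (p : ℝ) ^ (a + s + r) * vl (z l)) →
      ‖∑ l, ∑ s ∈ Finset.range S, ∑' a : ℤ,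
          b l s * c a ^ (p ^ s) * pw p (a + s) (f u) * pw p (a + s + r) (z l)‖
        ≤ Real.exp (-((p : ℝ) ^ h * m)) :=
    Filter.eventually_all.2 fun u => H (f u) (hfpow u)
  obtain ⟨R₁, hR₁⟩ := Filter.eventually_atTop.1 hev
  -- data for the optimisation
  set A : Set ℤ := {a | c a ≠ 0} with hAdef
  have hA : A.Nonempty := hc0
  have hqpos : 0 < p ^ h := by omega
  have hAd : ∀ a, a ∈ A ↔ a + d ∈ A := by
    intro a
    simp only [hAdef, Set.mem_ofPred_eq]
    rw [hc a]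
    exact pow_ne_zero_iff (by omega)
  set v : ℤ → ℝ := fun a => vl (c a) with hv
  have hv0 : ∀ a ∈ A, 0 < v a := fun a ha => vl_pos ha (hc1 a)
  have hvd : ∀ a ∈ A, v a = (p : ℝ) ^ h * v (a + d) := by
    intro a _
    simp only [hv]
    conv_lhs => rw [hc a]
    rw [vl_pow]
    push_cast
    ring
  set I : Finset ℕ := (Finset.range h).filter (fun i => (rowIdx h S b i).Nonempty) with hI
  have hIh : ∀ i ∈ I, i < h := fun i hi => by
    have := (Finset.mem_filter.1 hi).1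
    simpa using this
  have hSlt : ∀ l s, b l s ≠ 0 → s < S := by
    intro l s hne
    by_contra hc'
    exact hne (hbS l s (not_lt.1 hc'))
  have hIne : I.Nonempty := by
    obtain ⟨l, s, hne⟩ := hbne
    refine ⟨s % h, Finset.mem_filter.2 ⟨by simpa using Nat.mod_lt _ hhpos, ⟨(l, s), ?_⟩⟩⟩
    exact mem_rowIdx.2 ⟨hSlt l s hne, rfl, hne⟩
  have hrow : ∀ i ∈ I, ∃ ν : ℝ, 0 < ν ∧
      (∀ x ∈ rowIdx h S b i, ν ≤ (p : ℝ) ^ (n * (x.2 / h)) * vl (z x.1)) ∧
      (∀ e : ℤ, ‖rowSum p n h S b z i e‖ ≤ Real.exp (-((p : ℝ) ^ e * ν))) ∧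
      (∀ e₁ : ℤ, ∃ u : ℕ, u < h ∧
        ‖rowSum p n h S b z i (e₁ + u)‖ = Real.exp (-((p : ℝ) ^ (e₁ + u) * ν))) :=
    fun i hi => row_good p h d hh hd z hz0 hz1 Orth S b hb i (Finset.mem_filter.1 hi).2
  choose! ν hν0 hνmin hνlb hνgood using hrow
  set E : ℕ → Set ℤ := fun i => {e | rowSum p n h S b z i e ≠ 0} with hE
  set G : ℕ → ℤ → ℝ := fun i e => vl (rowSum p n h S b z i e) with hG
  have hGge : ∀ i ∈ I, ∀ e ∈ E i, (p : ℝ) ^ e * ν i ≤ G i e := by
    intro i hi e he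
    have h1 := hνlb i hi e
    have he' : rowSum p n h S b z i e ≠ 0 := he
    rw [norm_eq_exp_vl he'] at h1
    have := Real.exp_le_exp.1 h1
    simp only [hG]
    linarith
  have hG0 : ∀ i ∈ I, ∀ e ∈ E i, 0 < G i e := by
    intro i hi e he
    have h1 := hGge i hi e he
    have h2 := hν0 i hi
    have : 0 < (p : ℝ) ^ e * ν i := by positivity
    linarith
  have hgood : ∀ i ∈ I, ∀ e : ℤ, ∃ u : ℕ, u < h ∧ e + u ∈ E i ∧
      G i (e + u) = (p : ℝ) ^ (e + u) * ν i := by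
    intro i hi e
    obtain ⟨u, hu, he⟩ := hνgood i hi e
    have hne : rowSum p n h S b z i (e + u) ≠ 0 := by
      intro h0
      rw [h0, norm_zero] at he
      exact (Real.exp_pos _).ne he
    refine ⟨u, hu, hne, ?_⟩
    rw [norm_eq_exp_vl hne] at he
    have := Real.exp_injective he
    simp only [hG]
    linarith
  obtain ⟨r₀, hr₀, i₀, hi₀, a₀, ha₀, e₀, he₀, he₀eq, hA1, hA2⟩ :=
    FinalOpt.opt (p : ℝ) hpR h d hh hd A hA hAd v hv0 hvd I hIne hIh E G ν hν0 hG0 hGge hgood (R₁ : ℤ)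
  have hr₀0 : 0 ≤ r₀ := le_trans (by positivity) hr₀
  set r₁ : ℕ := r₀.toNat with hr₁def
  have hr₁ : (r₁ : ℤ) = r₀ := Int.toNat_of_nonneg hr₀0
  have hr₁R : R₁ ≤ r₁ := by
    have : (R₁ : ℤ) ≤ r₁ := by rw [hr₁]; exact hr₀
    exact_mod_cast this
  set m₀ : ℝ := (p : ℝ) ^ i₀ * v a₀ + G i₀ e₀ with hm₀
  have hm₀pos : 0 < m₀ := by
    have h1 := hv0 a₀ ha₀
    have h2 := hG0 i₀ hi₀ e₀ he₀
    positivity
  have hpm : 0 < (p : ℝ) ^ (h - 1) := by positivity
  set m : ℝ := m₀ / (p : ℝ) ^ (h - 1) with hm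
  -- the lower bound
  have hlower : ∀ l s (a : ℤ), b l s ≠ 0 → c a ≠ 0 →
      m ≤ (p : ℝ) ^ s * vl (c a) + (p : ℝ) ^ (a + s + r₁) * vl (z l) := by
    intro l s a hbne' hcne
    rw [hm, div_le_iff₀ hpm]
    set i := s % h with hi
    set w := s / h with hw
    have hsdecomp : s = i + h * w := (Nat.mod_add_div s h).symm
    have hx : (l, s) ∈ rowIdx h S b i := mem_rowIdx.2 ⟨hSlt l s hbne', rfl, hbne'⟩
    have hiI : i ∈ I := Finset.mem_filter.2 ⟨by simpa using Nat.mod_lt s hhpos, ⟨_, hx⟩⟩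
    have hcit := c_iter p h d c hc (a - (d : ℤ) * w) w
    have e1 : a - (d : ℤ) * w + (d : ℤ) * w = a := by ring
    rw [e1] at hcit
    have ha'A : a - (d : ℤ) * w ∈ A := by
      show c (a - (d : ℤ) * w) ≠ 0
      rw [hcit]
      exact pow_ne_zero _ hcne
    have h1 := hA2 i hiI _ ha'A
    have h2 := hνmin i hiI _ hx
    simp only at h2
    have hva : v (a - (d : ℤ) * w) = (p : ℝ) ^ (h * w) * vl (c a) := by
      simp only [hv]
      rw [hcit, vl_pow]
      push_cast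
      ring
    have hvzpos := vl_pos (hz0 l) (hz1 l)
    have e2 : (p : ℝ) ^ i * v (a - (d : ℤ) * w) = (p : ℝ) ^ s * vl (c a) := by
      rw [hva, ← mul_assoc, ← pow_add, ← hsdecomp]
    have e3 : (p : ℝ) ^ (a - (d : ℤ) * w + (i : ℤ) + r₀) * ν i ≤
        (p : ℝ) ^ (a + s + r₁) * vl (z l) := by
      have h3 : (p : ℝ) ^ (a + s + r₁) * vl (z l) =
          (p : ℝ) ^ (a - (d : ℤ) * w + (i : ℤ) + r₀) * ((p : ℝ) ^ (n * w) * vl (z l)) := by
        rw [← mul_assoc, ← zpow_natCast (p : ℝ) (n * w), ← zpow_add₀ hpR0.ne']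
        congr 2
        rw [hr₁]
        conv_lhs => rw [hsdecomp]
        simp only [hn]
        push_cast
        ring
      rw [h3]
      exact mul_le_mul_of_nonneg_left h2 (by positivity)
    calc m₀ ≤ (p : ℝ) ^ (h - 1) * ((p : ℝ) ^ i * v (a - (d : ℤ) * w) +
          (p : ℝ) ^ (a - (d : ℤ) * w + (i : ℤ) + r₀) * ν i) := h1
      _ ≤ (p : ℝ) ^ (h - 1) * ((p : ℝ) ^ s * vl (c a) + (p : ℝ) ^ (a + s + r₁) * vl (z l)) := by
          rw [e2]
          apply mul_le_mul_of_nonneg_left _ hpm.le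
          linarith
      _ = _ := by ring
  -- the bound at `r₁`
  have hbound : ∀ u : (GaloisField p n)ˣ,
      ‖∑ l, ∑ s ∈ Finset.range S, ∑' a : ℤ,
          b l s * c a ^ (p ^ s) * pw p (a + s) (f u) * pw p (a + s + r₁) (z l)‖
        ≤ Real.exp (-((p : ℝ) * m₀)) := by
    intro u
    have h1 := hR₁ r₁ hr₁R u m hlower
    have h2 : (p : ℝ) ^ h * m = p * m₀ := by
      rw [hm]
      have e : (p : ℝ) ^ h = (p : ℝ) ^ (h - 1) * p := by
        rw [← pow_succ]; congr 1; omega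
      rw [e]
      field_simp
    rwa [h2] at h1
  -- rewriting the series
  have hbnorm : ∀ l s, ‖b l s‖ ≤ 1 := fun l s => norm_le_one_of_pow_eq _ _ hqh (hb l s)
  set W : (GaloisField p n)ˣ → ℤ → K := fun u a =>
    ∑ i ∈ Finset.range h, c a ^ (p ^ i) * pw p (a + i) (f u) * rowSum p n h S b z i (a + i + r₁) with hW
  have hterm : ∀ (u : (GaloisField p n)ˣ) l s,
      Summable (fun a : ℤ => b l s * c a ^ (p ^ (s % h)) * pw p (a + (s % h : ℕ)) (f u) *
        pw p (a + (((s % h : ℕ) : ℤ) + r₁ + (n : ℤ) * ((s / h : ℕ) : ℤ))) (z l)) := by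
    intro u l s
    apply summable_term p h d hh hd c hc hc1 (z l) (hz1 l) _ (b l s) (hbnorm l s) _
      (by have : 0 < p := by omega
          positivity)
    intro a
    apply norm_pw_le_one p _ (hfnorm u)
  have hreindex : ∀ (u : (GaloisField p n)ˣ) l s,
      ∑' a : ℤ, b l s * c a ^ (p ^ s) * pw p (a + s) (f u) * pw p (a + s + r₁) (z l) =
      ∑' a : ℤ, b l s * c a ^ (p ^ (s % h)) * pw p (a + (s % h : ℕ)) (f u) *
        pw p (a + (((s % h : ℕ) : ℤ) + r₁ + (n : ℤ) * ((s / h : ℕ) : ℤ))) (z l) := by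
    intro u l s
    set D : ℤ := (d : ℤ) * ((s / h : ℕ) : ℤ) with hD
    rw [← (Equiv.addRight D).tsum_eq]
    refine tsum_congr fun a => ?_
    simp only [Equiv.coe_addRight]
    have hpow : p ^ (h * (s / h)) * p ^ (s % h) = p ^ s := by
      rw [← pow_add, Nat.add_comm, Nat.mod_add_div]
    have hs' : (s : ℤ) = ((s % h : ℕ) : ℤ) + (h : ℤ) * ((s / h : ℕ) : ℤ) := by
      have := Nat.mod_add_div s h
      exact_mod_cast this.symm
    have e1 : c (a + D) ^ (p ^ s) = c a ^ (p ^ (s % h)) := by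
      have h9 := c_iter p h d c hc a (s / h)
      conv_rhs => rw [h9]
      rw [← pow_mul, hpow]
    have e2 : pw p (a + D + s) (f u) = pw p (a + (s % h : ℕ)) (f u) := by
      have e0 : a + D + s = (a + (s % h : ℕ)) + (n : ℤ) * ((s / h : ℕ) : ℤ) := by
        rw [hD, hs', hn]; push_cast; ring
      rw [e0, pw_add, pw_periodic p n _ (hfpow u)]
    have e3 : a + D + s + r₁ = a + (((s % h : ℕ) : ℤ) + r₁ + (n : ℤ) * ((s / h : ℕ) : ℤ)) := by
      rw [hD, hs', hn]; push_cast; ring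
    rw [e1, e2, e3]
  -- splitting into rows
  have hsplit : ∀ (u : (GaloisField p n)ˣ) (a : ℤ),
      ∑ l, ∑ s ∈ Finset.range S, b l s * c a ^ (p ^ (s % h)) * pw p (a + (s % h : ℕ)) (f u) *
        pw p (a + (((s % h : ℕ) : ℤ) + r₁ + (n : ℤ) * ((s / h : ℕ) : ℤ))) (z l) = W u a := by
    intro u a
    rw [← Finset.sum_product' (Finset.univ : Finset ι) (Finset.range S)
      (fun l s => b l s * c a ^ (p ^ (s % h)) * pw p (a + (s % h : ℕ)) (f u) *
        pw p (a + (((s % h : ℕ) : ℤ) + r₁ + (n : ℤ) * ((s / h : ℕ) : ℤ))) (z l))]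
    rw [← Finset.sum_fiberwise_of_maps_to (t := Finset.range h) (g := fun x : ι × ℕ => x.2 % h)
      (fun x _ => by simpa using Nat.mod_lt _ hhpos)]
    refine Finset.sum_congr rfl fun i _ => ?_
    simp only [rowSum, Finset.mul_sum]
    symm
    apply Finset.sum_subset_zero_on_sdiff
    · intro x hx
      have hx' := mem_rowIdx.1 hx
      refine Finset.mem_filter.2 ⟨Finset.mem_product.2 ⟨Finset.mem_univ _, by simpa using hx'.1⟩, hx'.2.1⟩
    · intro x hx
      obtain ⟨hx1, hx2⟩ := Finset.mem_sdiff.1 hx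
      obtain ⟨hx3, hx4⟩ := Finset.mem_filter.1 hx1
      have hx5 : b x.1 x.2 = 0 := by
        by_contra hne
        exact hx2 (mem_rowIdx.2 ⟨by simpa using (Finset.mem_product.1 hx3).2, hx4, hne⟩)
      simp [hx5]
    · intro x hx
      have hx' := mem_rowIdx.1 hx
      have hxi : x.2 % h = i := hx'.2.1
      rw [hxi]
      have e0 : a + ((i : ℤ) + r₁ + (n : ℤ) * ((x.2 / h : ℕ) : ℤ)) =
          a + i + r₁ + (n : ℤ) * ((x.2 / h : ℕ) : ℤ) := by ring
      rw [e0]
      ring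
  have hsumW : ∀ u, Summable (W u) := by
    intro u
    have h1 : Summable (fun a : ℤ => ∑ l, ∑ s ∈ Finset.range S,
        b l s * c a ^ (p ^ (s % h)) * pw p (a + (s % h : ℕ)) (f u) *
        pw p (a + (((s % h : ℕ) : ℤ) + r₁ + (n : ℤ) * ((s / h : ℕ) : ℤ))) (z l)) :=
      summable_sum fun l _ => summable_sum fun s _ => hterm u l s
    have h2 : (fun a : ℤ => ∑ l, ∑ s ∈ Finset.range S,
        b l s * c a ^ (p ^ (s % h)) * pw p (a + (s % h : ℕ)) (f u) *
        pw p (a + (((s % h : ℕ) : ℤ) + r₁ + (n : ℤ) * ((s / h : ℕ) : ℤ))) (z l)) = W u :=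
      funext (hsplit u)
    rwa [h2] at h1
  have hPP : ∀ u : (GaloisField p n)ˣ,
      ∑ l, ∑ s ∈ Finset.range S, ∑' a : ℤ,
          b l s * c a ^ (p ^ s) * pw p (a + s) (f u) * pw p (a + s + r₁) (z l) = ∑' a, W u a := by
    intro u
    have h1 : ∀ l, ∑ s ∈ Finset.range S, ∑' a : ℤ,
          b l s * c a ^ (p ^ s) * pw p (a + s) (f u) * pw p (a + s + r₁) (z l) =
        ∑' a : ℤ, ∑ s ∈ Finset.range S, b l s * c a ^ (p ^ (s % h)) * pw p (a + (s % h : ℕ)) (f u) *
          pw p (a + (((s % h : ℕ) : ℤ) + r₁ + (n : ℤ) * ((s / h : ℕ) : ℤ))) (z l) := by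
      intro l
      rw [Summable.tsum_finsetSum (fun s _ => hterm u l s)]
      exact Finset.sum_congr rfl fun s _ => hreindex u l s
    simp only [h1]
    rw [← Summable.tsum_finsetSum (fun l _ => summable_sum fun s _ => hterm u l s)]
    exact tsum_congr (hsplit u)
  -- Fourier
  set κ₀ : ℤ := a₀ + i₀ with hκ₀
  set ω : (GaloisField p n)ˣ → K := fun u => (f u) ^ (p ^ n - 1 - p ^ (κ₀ % n).toNat) with hω
  have hωnorm : ∀ u, ‖ω u‖ ≤ 1 := by
    intro u
    simp only [hω, norm_pow]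
    exact pow_le_one₀ (norm_nonneg _) (hfnorm u)
  set Y : ℤ → K := fun a => ∑ i ∈ Finset.range h, c a ^ (p ^ i) * rowSum p n h S b z i (a + i + r₁) *
    (if ((n : ℤ) ∣ (a + i - κ₀)) then -1 else 0) with hYdef
  have hY : ∀ a, ∑ u, ω u * W u a = Y a := by
    intro a
    simp only [hW, hYdef, Finset.mul_sum]
    rw [Finset.sum_comm]
    refine Finset.sum_congr rfl fun i _ => ?_
    rw [← fourier p n hn2 (GaloisField p n) hcard f κ₀ (a + i), Finset.mul_sum]
    refine Finset.sum_congr rfl fun u _ => ?_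
    simp only [hω]
    ring
  have hsumY : Summable Y := by
    have h1 : Summable (fun a => ∑ u, ω u * W u a) :=
      summable_sum fun u _ => (hsumW u).mul_left _
    rwa [funext hY] at h1
  have hSY : ∑ u, ω u * (∑' a, W u a) = ∑' a, Y a := by
    simp only [← tsum_mul_left]
    rw [← Summable.tsum_finsetSum (fun u _ => (hsumW u).mul_left _)]
    exact tsum_congr hY
  have hle : ‖∑' a, Y a‖ ≤ Real.exp (-((p : ℝ) * m₀)) := by
    rw [← hSY]
    apply norm_sum_le' (Real.exp_pos _).le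
    intro u _
    rw [norm_mul, ← hPP u]
    calc _ ≤ 1 * Real.exp (-((p : ℝ) * m₀)) :=
          mul_le_mul (hωnorm u) (hbound u) (norm_nonneg _) zero_le_one
      _ = _ := one_mul _
  have hnormterm : ∀ (i : ℕ) (a : ℤ) (e : ℤ), c a ≠ 0 → rowSum p n h S b z i e ≠ 0 →
      ‖c a ^ (p ^ i) * rowSum p n h S b z i e‖ = Real.exp (-((p : ℝ) ^ i * v a + G i e)) := by
    intro i a e ha he
    have h1 : c a ^ (p ^ i) ≠ 0 := pow_ne_zero _ ha
    rw [norm_mul, norm_eq_exp_vl h1, norm_eq_exp_vl he, ← Real.exp_add, vl_pow]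
    congr 1
    simp only [hv, hG]
    push_cast
    ring
  have hne₀ : rowSum p n h S b z i₀ (a₀ + i₀ + r₁) ≠ 0 := by
    have : a₀ + (i₀ : ℤ) + r₁ = e₀ := by rw [hr₁, he₀eq]
    rw [this]
    exact he₀
  have hYa₀ : ‖Y a₀‖ = Real.exp (-m₀) := by
    have h1 : Y a₀ = c a₀ ^ (p ^ i₀) * rowSum p n h S b z i₀ (a₀ + i₀ + r₁) * (-1) := by
      simp only [hYdef]
      rw [Finset.sum_eq_single i₀]
      · rw [if_pos (by simp [hκ₀])]
      · intro i hi hne
        rw [if_neg]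
        · simp
        · intro hdvd
          have hi' : i < h := by simpa using hi
          have hi₀' := hIh i₀ hi₀
          obtain ⟨k, hk⟩ := hdvd
          have hk0 : (i : ℤ) - i₀ = (n : ℤ) * k := by
            rw [← hk, hκ₀]; ring
          have hnpos : (0 : ℤ) < n := by omega
          have k0 : k = 0 := by
            by_contra hk1
            have h3 : (n : ℤ) ≤ |(n : ℤ) * k| := by
              rw [abs_mul, abs_of_pos hnpos]
              have : 1 ≤ |k| := Int.one_le_abs hk1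
              nlinarith
            rw [← hk0] at h3
            have h4 : |(i : ℤ) - i₀| < n := by
              rw [abs_lt]
              constructor <;> omega
            omega
          rw [k0] at hk0
          apply hne
          omega
      · intro hc'
        exact (hc' (by simpa using hIh i₀ hi₀)).elim
    rw [h1, norm_mul, norm_neg, norm_one, mul_one, hnormterm i₀ a₀ _ ha₀ hne₀]
    have e1 : a₀ + (i₀ : ℤ) + r₁ = e₀ := by rw [hr₁, he₀eq]
    rw [e1]
  have hYlt : ∀ a, a ≠ a₀ → ‖Y a‖ < Real.exp (-m₀) := by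
    intro a ha
    apply norm_sum_lt (Real.exp_pos _)
    intro i hi
    by_cases hdvd : (n : ℤ) ∣ (a + i - κ₀)
    · rw [if_pos hdvd]
      by_cases hca : c a = 0
      · have : (0 : K) ^ (p ^ i) = 0 := zero_pow (by have : 0 < p := by omega
                                                     positivity)
        rw [hca, this]
        simpa using Real.exp_pos _
      by_cases hrow0 : rowSum p n h S b z i (a + i + r₁) = 0
      · rw [hrow0]
        simpa using Real.exp_pos _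
      · have hiI : i ∈ I := by
          refine Finset.mem_filter.2 ⟨hi, ?_⟩
          by_contra hemp
          apply hrow0
          rw [Finset.not_nonempty_iff_eq_empty] at hemp
          simp [rowSum, hemp]
        have h1 := hA1 i hiI a hca (a + i + r₁) hrow0 (by rw [hr₁]) hdvd
          (fun heq => ha (congrArg Prod.snd heq))
        rw [norm_mul, norm_neg, norm_one, mul_one, hnormterm i a _ hca hrow0]
        exact Real.exp_lt_exp.2 (by linarith)
    · rw [if_neg hdvd]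
      simpa using Real.exp_pos _
  have heq : ‖∑' a, Y a‖ = Real.exp (-m₀) := by
    rw [norm_tsum_eq_of_unique_max hsumY a₀ (fun a ha => by rw [hYa₀]; exact hYlt a ha), hYa₀]
  rw [heq] at hle
  have h1 := Real.exp_le_exp.1 hle
  nlinarith

end main

end Crest.Agent.LT
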