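/-
E1: towers over a point (BLUEPRINT §E1).

Everything here is stated over abstract data `TowerData`: a law `F` and a series `V` over a
complete ultrametric perfect field of characteristic `p`, close to a law `Γ` with coefficients in
`F_q` and to `X^(p^d)`.
-/
import Crest.Agent.Lib.LT.EvalOne
import Crest.Agent.Lib.LT.P3Final
import Crest.Agent.Lib.LT.Frob

set_option autoImplicit false
set_option linter.unusedSectionVars false
set_option linter.unusedVariables false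
set_option linter.unnecessarySimpa false

namespace Crest.Agent.LT

open Filter Topology

open Crest.LubinTate

variable (p : ℕ) [Fact p.Prime] {K : Type*} [NontriviallyNormedField K] [IsUltrametricDist K]
  [CompleteSpace K] [CharP K p]

omit [CompleteSpace K] [CharP K p] in
lemma norm_sub_le_max_ultra (x y : K) : ‖x - y‖ ≤ max ‖x‖ ‖y‖ := by
  rw [sub_eq_add_neg]
  simpa using IsUltrametricDist.norm_add_le_max x (-y)

/-! ### Frobenius twists and evaluation -/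

/-- Frobenius power as a ring homomorphism. -/
noncomputable abbrev fr (e : ℕ) : K →+* K := iterateFrobenius K p e

lemma fr_apply (e : ℕ) (x : K) : fr (K := K) p e x = x ^ p ^ e := iterateFrobenius_def p e x

lemma continuous_fr (e : ℕ) : Continuous (fr (K := K) p e) := by
  have : (fr (K := K) p e : K → K) = fun x => x ^ p ^ e := funext (fr_apply p e)
  rw [this]
  exact continuous_pow _

lemma norm_fr (e : ℕ) (x : K) : ‖fr p e x‖ = ‖x‖ ^ p ^ e := by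
  rw [fr_apply, norm_pow]

lemma fr_add (e f : ℕ) : (fr (K := K) p e).comp (fr p f) = fr p (e + f) := by
  ext x
  simp only [RingHom.comp_apply, fr_apply]
  rw [← pow_mul, pow_add, mul_comm]

/-- The twist of a series. -/
noncomputable abbrev tw (e : ℕ) (f : PowerSeries K) : PowerSeries K := PowerSeries.map (fr p e) f

lemma coeff_tw (e i : ℕ) (f : PowerSeries K) :
    PowerSeries.coeff i (tw p e f) = (PowerSeries.coeff i f) ^ p ^ e := by
  rw [PowerSeries.coeff_map, fr_apply]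

lemma pow_le_one_of_le {x : ℝ} (h0 : 0 ≤ x) (h : x ≤ 1) (n : ℕ) : x ^ n ≤ 1 := pow_le_one₀ h0 h

lemma IsInt.tw {f : PowerSeries K} (hf : IsInt f) (e : ℕ) : IsInt (tw p e f) := by
  intro i
  rw [coeff_tw, norm_pow]
  exact pow_le_one₀ (norm_nonneg _) (hf i)

lemma tw_tw (e e' : ℕ) (f : PowerSeries K) : tw p e (tw p e' f) = tw p (e' + e) f := by
  ext i
  rw [coeff_tw, coeff_tw, coeff_tw, ← pow_mul, ← pow_add]

lemma tw_zero (f : PowerSeries K) : tw p 0 f = f := by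
  ext i
  simp [coeff_tw]

lemma constantCoeff_tw {f : PowerSeries K} (h0 : PowerSeries.constantCoeff f = 0) (e : ℕ) :
    PowerSeries.constantCoeff (tw p e f) = 0 := by
  rw [← PowerSeries.coeff_zero_eq_constantCoeff_apply, coeff_tw,
    PowerSeries.coeff_zero_eq_constantCoeff_apply, h0, zero_pow]
  exact pow_ne_zero _ (Fact.out : p.Prime).ne_zero

/-- The twist of a law. -/
noncomputable abbrev twL (e : ℕ) (F : FormalGroup K) : FormalGroup K := F.map (fr p e)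

lemma coeff_twL (e : ℕ) (F : FormalGroup K) (γ : Fin 2 →₀ ℕ) :
    MvPowerSeries.coeff γ (twL p e F).toPowerSeries = (MvPowerSeries.coeff γ F.toPowerSeries) ^ p ^ e := by
  show MvPowerSeries.coeff γ (MvPowerSeries.map (fr p e) F.toPowerSeries) = _
  rw [MvPowerSeries.coeff_map, fr_apply]

lemma IsIntLaw.tw {F : FormalGroup K} (hF : IsIntLaw F) (e : ℕ) : IsIntLaw (twL p e F) := by
  intro γ
  rw [coeff_twL, norm_pow]
  have := hF γ
  simp only [one_pow, mul_one] at this ⊢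
  exact pow_le_one₀ (norm_nonneg _) this

lemma twL_twL (e f : ℕ) (F : FormalGroup K) : twL p e (twL p f F) = twL p (e + f) F := by
  rw [twL, twL, fg_map_map, fr_add]

/-- Evaluating a twist at a `p^e`-th power. -/
lemma ev_tw {f : PowerSeries K} (hf : IsInt f) (e : ℕ) {x : K} (hx : ‖x‖ < 1) :
    ev (tw p e f) (x ^ p ^ e) = (ev f x) ^ p ^ e := by
  have := evalS_map (fr p e) (continuous_fr p e) (σ := Unit) one_pos hf.isB (z := fun _ => x)
    (fun _ => hx)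
  simp only [fr_apply] at this
  exact this

lemma ptAdd_tw {F : FormalGroup K} (hF : IsIntLaw F) (e : ℕ) {x y : K} (hx : ‖x‖ < 1) (hy : ‖y‖ < 1) :
    ptAdd (twL p e F) (x ^ p ^ e) (y ^ p ^ e) = (ptAdd F x y) ^ p ^ e := by
  have := evalS_map (fr p e) (continuous_fr p e) one_pos hF (z := ![x, y]) (norm_pair_lt hx hy)
  rw [fr_apply] at this
  rw [ptAdd, ptAdd, ← this]
  congr 1
  funext i
  fin_cases i <;> simp [fr_apply]

omit [CharP K p] in
/-- Evaluating a difference by coefficient bounds. -/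
lemma norm_ev_sub_le_of_coeff {f g : PowerSeries K} (hf : IsInt f) (hg : IsInt g) {δ : ℝ}
    (h : ∀ i, ‖PowerSeries.coeff i f - PowerSeries.coeff i g‖ ≤ δ) {x : K} (hx : ‖x‖ < 1) :
    ‖ev f x - ev g x‖ ≤ δ := by
  rw [← ev_sub hf hg hx]
  refine norm_evalS_le_of_coeff (fun γ => ?_) (fun _ => hx.le)
  rw [coeff_unit, map_sub]
  exact h _

omit [CharP K p] in
lemma norm_ptAdd_sub_le_of_coeff {F G : FormalGroup K} (hF : IsIntLaw F) (hG : IsIntLaw G) {δ : ℝ}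
    (h : ∀ γ, ‖MvPowerSeries.coeff γ F.toPowerSeries - MvPowerSeries.coeff γ G.toPowerSeries‖ ≤ δ)
    {x y : K} (hx : ‖x‖ < 1) (hy : ‖y‖ < 1) : ‖ptAdd F x y - ptAdd G x y‖ ≤ δ := by
  rw [ptAdd, ptAdd, ← evalS_sub one_pos hF hG (norm_pair_lt hx hy)]
  refine norm_evalS_le_of_coeff (fun γ => ?_) (norm_pair_le hx.le hy.le)
  rw [map_sub]
  exact h _

omit [CharP K p] in
/-- The law is non-expansive. -/
lemma lip_ptAdd {F : FormalGroup K} (hF : IsIntLaw F) {x y x' y' : K} (hx : ‖x‖ < 1) (hy : ‖y‖ < 1)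
    (hx' : ‖x'‖ < 1) (hy' : ‖y'‖ < 1) :
    ‖ptAdd F x y - ptAdd F x' y'‖ ≤ max ‖x - x'‖ ‖y - y'‖ := by
  have := lip_evalS hF (x := ![x, y]) (x' := ![x', y']) (norm_pair_lt hx hy) (norm_pair_lt hx' hy')
    (le_max_of_le_left (norm_nonneg _) : 0 ≤ max ‖x - x'‖ ‖y - y'‖) (by
      intro i; fin_cases i
      · exact le_max_left _ _
      · exact le_max_right _ _)
  simpa [ptAdd] using this

lemma norm_sub_pow_char_pow (e : ℕ) (x y : K) : ‖x ^ p ^ e - y ^ p ^ e‖ = ‖x - y‖ ^ p ^ e := by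
  rw [← sub_pow_char_pow, norm_pow]

/-- Comparing by Frobenius powers. -/
lemma norm_sub_le_of_pow {x y : K} {δ : ℝ} (hδ : 0 ≤ δ) (e : ℕ)
    (h : ‖x ^ p ^ e - y ^ p ^ e‖ ≤ δ ^ p ^ e) : ‖x - y‖ ≤ δ := by
  rw [norm_sub_pow_char_pow] at h
  exact (pow_le_pow_iff_left₀ (norm_nonneg _) hδ (pow_ne_zero _ (Fact.out : p.Prime).ne_zero)).1 h

variable (K) in
/-- The data at a point needed to build the towers. -/
structure TowerData (h d : ℕ) where
  hh : 1 ≤ h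
  hd : 1 ≤ d
  F : FormalGroup K
  comm : F.IsComm
  Γ : FormalGroup K
  Γcomm : Γ.IsComm
  V : PowerSeries K
  ρ : ℝ
  ρ0 : 0 ≤ ρ
  ρ1 : ρ < 1
  F_int : IsIntLaw F
  Γ_int : IsIntLaw Γ
  V_int : IsInt V
  V_hom : IsFGHom (twL p h F) F V
  V_p : mulSeries F p = cmp V (PowerSeries.X ^ p ^ h)
  Γ_fix : twL p (h + d) Γ = Γ
  Γ_p : mulSeries Γ p = PowerSeries.X ^ p ^ (h + d)
  Γ_low : ∀ γ : Fin 2 →₀ ℕ, 2 ≤ Finsupp.degree γ → Finsupp.degree γ < p ^ (h + d) →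
    MvPowerSeries.coeff γ Γ.toPowerSeries = 0
  F_close : ∀ γ, ‖MvPowerSeries.coeff γ F.toPowerSeries - MvPowerSeries.coeff γ Γ.toPowerSeries‖ ≤ ρ
  V_close : ∀ i, ‖PowerSeries.coeff i V - PowerSeries.coeff i (PowerSeries.X ^ p ^ d : PowerSeries K)‖ ≤ ρ

namespace TowerData

variable {p} [PerfectRing K p] {h d : ℕ} (D : TowerData p K h d)

/-- The law at level `j`. -/
noncomputable def Fj (j : ℕ) : FormalGroup K := twL p (j * h) D.F

/-- `V` at level `j`. -/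
noncomputable def Vj (j : ℕ) : PowerSeries K := tw p (j * h) D.V

lemma Fj_int (j : ℕ) : IsIntLaw (D.Fj j) := D.F_int.tw p _

lemma Vj_int (j : ℕ) : IsInt (D.Vj j) := D.V_int.tw p _

lemma Vj_cc (j : ℕ) : PowerSeries.constantCoeff (D.Vj j) = 0 := constantCoeff_tw p D.V_hom.1 _

instance Fj_comm (j : ℕ) : (D.Fj j).IsComm := by
  haveI := D.comm
  exact fg_map_comm _ _

/-- `V^[j] : F^[j+1] → F^[j]`. -/
lemma Vj_hom (j : ℕ) : IsFGHom (D.Fj (j + 1)) (D.Fj j) (D.Vj j) := by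
  have := D.V_hom.map (fr p (j * h))
  unfold Fj Vj
  rw [show (j + 1) * h = j * h + h by ring, ← twL_twL]
  exact this

/-- The error radius at level `m`. -/
noncomputable def r (m : ℕ) : ℝ := D.ρ ^ p ^ (m * h)

lemma r_nonneg (m : ℕ) : 0 ≤ D.r m := pow_nonneg D.ρ0 _

lemma r_lt_one (m : ℕ) : D.r m < 1 :=
  pow_lt_one₀ D.ρ0 D.ρ1 (pow_ne_zero _ (Fact.out : p.Prime).ne_zero)

lemma r_anti {m m' : ℕ} (hm : m ≤ m') : D.r m' ≤ D.r m := by
  refine pow_le_pow_of_le_one D.ρ0 D.ρ1.le ?_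
  exact Nat.pow_le_pow_right (Fact.out : p.Prime).pos (Nat.mul_le_mul_right _ hm)

lemma r_le_pow (m : ℕ) : D.r m ≤ D.ρ ^ m := by
  refine pow_le_pow_of_le_one D.ρ0 D.ρ1.le ?_
  have h1 : m ≤ m * h := Nat.le_mul_of_pos_right _ D.hh
  exact h1.trans (Nat.lt_pow_self (Fact.out : p.Prime).one_lt).le

lemma tendsto_r : Tendsto D.r atTop (𝓝 0) := by
  refine squeeze_zero D.r_nonneg D.r_le_pow ?_
  exact tendsto_pow_atTop_nhds_zero_of_lt_one D.ρ0 D.ρ1

/-- coefficient estimate for `V^[m]`. -/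
lemma Vj_close (m i : ℕ) : ‖PowerSeries.coeff i (D.Vj m) -
    PowerSeries.coeff i (PowerSeries.X ^ p ^ d : PowerSeries K)‖ ≤ D.r m := by
  have h1 : PowerSeries.coeff i (PowerSeries.X ^ p ^ d : PowerSeries K) =
      (PowerSeries.coeff i (PowerSeries.X ^ p ^ d : PowerSeries K)) ^ p ^ (m * h) := by
    rw [PowerSeries.coeff_X_pow]
    split_ifs
    · simp
    · rw [zero_pow (pow_ne_zero _ (Fact.out : p.Prime).ne_zero)]
  rw [Vj, coeff_tw, h1, norm_sub_pow_char_pow, r]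
  exact pow_le_pow_left₀ (norm_nonneg _) (D.V_close i) _

/-- `|V^[m](x) - x^(p^d)| ≤ r m`. -/
lemma norm_Vj_sub_pow_le (m : ℕ) {x : K} (hx : ‖x‖ < 1) :
    ‖ev (D.Vj m) x - x ^ p ^ d‖ ≤ D.r m := by
  have := norm_ev_sub_le_of_coeff (D.Vj_int m) (isInt_X_pow (K := K) (p ^ d)) (D.Vj_close m) hx
  rwa [ev_X_pow hx] at this

/-! ### The chain of `V`s -/

/-- `chain j i = V^[j] ∘ V^[j+1] ∘ ⋯ ∘ V^[j+i-1]` -/
noncomputable def chain : ℕ → ℕ → K → K
  | _, 0, x => x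
  | j, i + 1, x => ev (D.Vj j) (chain (j + 1) i x)

lemma chain_zero (j : ℕ) (x : K) : D.chain j 0 x = x := rfl

lemma chain_succ (j i : ℕ) (x : K) : D.chain j (i + 1) x = ev (D.Vj j) (D.chain (j + 1) i x) := rfl

lemma norm_chain_lt (j i : ℕ) {x : K} (hx : ‖x‖ < 1) : ‖D.chain j i x‖ < 1 := by
  induction i generalizing j with
  | zero => exact hx
  | succ i ih => exact norm_ev_lt_one (D.Vj_int j) (D.Vj_cc j) (ih (j + 1))

lemma chain_succ' (j i : ℕ) (x : K) :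
    D.chain j (i + 1) x = D.chain j i (ev (D.Vj (j + i)) x) := by
  induction i generalizing j with
  | zero => rfl
  | succ i ih =>
    rw [chain_succ, ih (j + 1), chain_succ, show j + 1 + i = j + (i + 1) by omega]

lemma lip_chain (j i : ℕ) {x x' : K} (hx : ‖x‖ < 1) (hx' : ‖x'‖ < 1) :
    ‖D.chain j i x - D.chain j i x'‖ ≤ ‖x - x'‖ := by
  induction i generalizing j with
  | zero => exact le_rfl
  | succ i ih =>
    exact (lip_ev (D.Vj_int j) (D.norm_chain_lt _ _ hx) (D.norm_chain_lt _ _ hx')).trans (ih (j + 1))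

lemma chain_ptAdd (j i : ℕ) {x y : K} (hx : ‖x‖ < 1) (hy : ‖y‖ < 1) :
    D.chain j i (ptAdd (D.Fj (j + i)) x y) = ptAdd (D.Fj j) (D.chain j i x) (D.chain j i y) := by
  induction i generalizing j with
  | zero => rfl
  | succ i ih =>
    have e : j + (i + 1) = j + 1 + i := by ring
    rw [chain_succ, e, ih (j + 1),
      ev_ptAdd (D.Vj_hom j) (D.Vj_int j) (D.Fj_int _) (D.Fj_int _) (D.norm_chain_lt _ _ hx)
        (D.norm_chain_lt _ _ hy)]
    rfl

/-! ### The approximating sequence -/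

/-- `τ_m T = T^(1/p^(d m))` -/
noncomputable def τ (D : TowerData p K h d) (m : ℕ) (T : K) : K := pw p (-((d * m : ℕ) : ℤ)) T

lemma τ_pow (m : ℕ) (T : K) : (D.τ m T) ^ p ^ (d * m) = T := by
  rw [τ, ← pw_nat p, pw_apply_neg]

lemma norm_τ_lt (m : ℕ) {T : K} (hT : ‖T‖ < 1) : ‖D.τ m T‖ < 1 := by
  have h1 := D.τ_pow m T
  have hne : p ^ (d * m) ≠ 0 := pow_ne_zero _ (Fact.out : p.Prime).ne_zero
  by_contra hcon
  push_neg at hcon
  have h2 : 1 ≤ ‖D.τ m T‖ ^ p ^ (d * m) := one_le_pow₀ hcon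
  rw [← norm_pow, h1] at h2
  linarith

lemma τ_succ_pow (m : ℕ) (T : K) : (D.τ (m + 1) T) ^ p ^ d = D.τ m T := by
  rw [τ, τ, ← pw_nat p]
  rw [← pw_add]
  congr 2
  push_cast
  ring_nf

/-- The approximation of `ϖ_j T`. -/
noncomputable def seq (j i : ℕ) (T : K) : K := D.chain j i (D.τ (j + i) T)

lemma seq_zero (j : ℕ) (T : K) : D.seq j 0 T = D.τ j T := rfl

lemma seq_succ (j i : ℕ) (T : K) : D.seq j (i + 1) T = ev (D.Vj j) (D.seq (j + 1) i T) := by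
  rw [seq, chain_succ, seq]
  congr 2
  ring_nf

lemma norm_seq_step (j i : ℕ) {T : K} (hT : ‖T‖ < 1) :
    ‖D.seq j (i + 1) T - D.seq j i T‖ ≤ D.r (j + i) := by
  rw [seq, seq, chain_succ', show j + (i + 1) = j + i + 1 by ring]
  have hτ := D.norm_τ_lt (j + i + 1) hT
  refine (D.lip_chain j i (norm_ev_lt_one (D.Vj_int _) (D.Vj_cc _) hτ) (D.norm_τ_lt _ hT)).trans ?_
  have := D.norm_Vj_sub_pow_le (j + i) hτ
  rwa [D.τ_succ_pow] at this

lemma norm_seq_sub_τ (j i : ℕ) {T : K} (hT : ‖T‖ < 1) :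
    ‖D.seq j i T - D.τ j T‖ ≤ D.r j := by
  induction i with
  | zero => simpa [seq_zero] using D.r_nonneg j
  | succ i ih =>
    have : D.seq j (i + 1) T - D.τ j T = (D.seq j (i + 1) T - D.seq j i T) + (D.seq j i T - D.τ j T) := by
      ring
    rw [this]
    refine (IsUltrametricDist.norm_add_le_max _ _).trans (max_le ?_ ih)
    exact (D.norm_seq_step j i hT).trans (D.r_anti (Nat.le_add_right _ _))

lemma cauchy_seq (j : ℕ) {T : K} (hT : ‖T‖ < 1) : CauchySeq (fun i => D.seq j i T) := by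
  refine cauchySeq_of_le_geometric D.ρ 1 D.ρ1 fun i => ?_
  rw [dist_comm, dist_eq_norm, one_mul]
  refine (D.norm_seq_step j i hT).trans ((D.r_anti (Nat.le_add_left _ _)).trans (D.r_le_pow i))

/-- The tower map `ϖ_j`. -/
noncomputable def ϖ (j : ℕ) (T : K) : K := limUnder atTop (fun i => D.seq j i T)

lemma tendsto_seq (j : ℕ) {T : K} (hT : ‖T‖ < 1) :
    Tendsto (fun i => D.seq j i T) atTop (𝓝 (D.ϖ j T)) :=
  CauchySeq.tendsto_limUnder (D.cauchy_seq j hT)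

/-- (T2) -/
lemma norm_ϖ_sub_τ (j : ℕ) {T : K} (hT : ‖T‖ < 1) : ‖D.ϖ j T - D.τ j T‖ ≤ D.r j := by
  have h1 : Tendsto (fun i => ‖D.seq j i T - D.τ j T‖) atTop (𝓝 ‖D.ϖ j T - D.τ j T‖) :=
    ((D.tendsto_seq j hT).sub_const _).norm
  exact le_of_tendsto h1 (Eventually.of_forall fun i => D.norm_seq_sub_τ j i hT)

lemma norm_ϖ_lt (j : ℕ) {T : K} (hT : ‖T‖ < 1) : ‖D.ϖ j T‖ < 1 := by
  have : D.ϖ j T = (D.ϖ j T - D.τ j T) + D.τ j T := by ring
  rw [this]
  exact (IsUltrametricDist.norm_add_le_max _ _).trans_lt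
    (max_lt ((D.norm_ϖ_sub_τ j hT).trans_lt (D.r_lt_one j)) (D.norm_τ_lt j hT))

lemma norm_seq_lt (j i : ℕ) {T : K} (hT : ‖T‖ < 1) : ‖D.seq j i T‖ < 1 :=
  D.norm_chain_lt _ _ (D.norm_τ_lt _ hT)

/-- Continuity of evaluation. -/
lemma tendsto_ev {f : PowerSeries K} (hf : IsInt f) {ι : Type*} {l : Filter ι} {a : ι → K} {x : K}
    (ha : Tendsto a l (𝓝 x)) (ha1 : ∀ i, ‖a i‖ < 1) (hx : ‖x‖ < 1) :
    Tendsto (fun i => ev f (a i)) l (𝓝 (ev f x)) := by
  rw [tendsto_iff_norm_sub_tendsto_zero] at ha ⊢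
  exact squeeze_zero (fun _ => norm_nonneg _) (fun i => lip_ev hf (ha1 i) hx) ha

/-- (T1) -/
theorem ev_Vj_ϖ (j : ℕ) {T : K} (hT : ‖T‖ < 1) : ev (D.Vj j) (D.ϖ (j + 1) T) = D.ϖ j T := by
  have h1 := tendsto_ev (D.Vj_int j) (D.tendsto_seq (j + 1) hT) (fun i => D.norm_seq_lt _ _ hT)
    (D.norm_ϖ_lt _ hT)
  have h2 : Tendsto (fun i => D.seq j (i + 1) T) atTop (𝓝 (D.ϖ j T)) :=
    (D.tendsto_seq j hT).comp (tendsto_add_atTop_nat 1)
  simp only [← seq_succ] at h1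
  exact tendsto_nhds_unique h1 h2

lemma chain_ϖ (j i : ℕ) {T : K} (hT : ‖T‖ < 1) : D.chain j i (D.ϖ (j + i) T) = D.ϖ j T := by
  induction i generalizing j with
  | zero => rfl
  | succ i ih =>
    rw [chain_succ, show j + (i + 1) = j + 1 + i by ring, ih (j + 1), ev_Vj_ϖ D j hT]

/-- Continuity of the law. -/
lemma tendsto_ptAdd {F : FormalGroup K} (hF : IsIntLaw F) {ι : Type*} {l : Filter ι} {a b : ι → K}
    {x y : K} (ha : Tendsto a l (𝓝 x)) (hb : Tendsto b l (𝓝 y)) (ha1 : ∀ i, ‖a i‖ < 1)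
    (hb1 : ∀ i, ‖b i‖ < 1) (hx : ‖x‖ < 1) (hy : ‖y‖ < 1) :
    Tendsto (fun i => ptAdd F (a i) (b i)) l (𝓝 (ptAdd F x y)) := by
  rw [tendsto_iff_norm_sub_tendsto_zero] at ha hb ⊢
  have h2 : Tendsto (fun i => max ‖a i - x‖ ‖b i - y‖) l (𝓝 (max 0 0)) := ha.max hb
  rw [max_self] at h2
  exact squeeze_zero (fun _ => norm_nonneg _) (fun i => lip_ptAdd hF (ha1 i) (hb1 i) hx hy) h2

/-- The key congruence behind (T3): at level `m`, `τ_m T +_{F^[m]} τ_m T'` is `τ_m (T +_Γ T')`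
up to `r m`. -/
lemma norm_τ_add_le (m : ℕ) {T T' : K} (hT : ‖T‖ < 1) (hT' : ‖T'‖ < 1) :
    ‖ptAdd (D.Fj m) (D.τ m T) (D.τ m T') - D.τ m (ptAdd D.Γ T T')‖ ≤ D.r m := by
  have hτ := D.norm_τ_lt m hT
  have hτ' := D.norm_τ_lt m hT'
  refine norm_sub_le_of_pow p (D.r_nonneg m) (d * m) ?_
  rw [D.τ_pow, ← ptAdd_tw p (D.Fj_int m) _ hτ hτ', D.τ_pow, D.τ_pow, Fj, twL_twL]
  -- `F^(q^m)` versus `Γ`
  have hΓ : ∀ k : ℕ, twL p ((h + d) * k) D.Γ = D.Γ := by
    intro k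
    induction k with
    | zero => simp [twL]; exact fg_map_id _
    | succ k ih =>
      rw [show (h + d) * (k + 1) = (h + d) + (h + d) * k by ring, ← twL_twL, ih, D.Γ_fix]
  have e1 : d * m + m * h = (h + d) * m := by ring
  rw [e1]
  have hclose := norm_ptAdd_sub_le_of_coeff (F := twL p ((h + d) * m) D.F)
    (G := twL p ((h + d) * m) D.Γ) (D.F_int.tw p _) (D.Γ_int.tw p _)
    (δ := D.ρ ^ p ^ ((h + d) * m)) (fun γ => by
      rw [coeff_twL, coeff_twL, norm_sub_pow_char_pow]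
      exact pow_le_pow_left₀ (norm_nonneg _) (D.F_close γ) _) hT hT'
  rw [hΓ] at hclose
  refine hclose.trans (le_of_eq ?_)
  rw [r, ← pow_mul, ← pow_add]
  congr 2
  ring

/-- (T3) -/
theorem ϖ_ptAdd (j : ℕ) {T T' : K} (hT : ‖T‖ < 1) (hT' : ‖T'‖ < 1) :
    D.ϖ j (ptAdd D.Γ T T') = ptAdd (D.Fj j) (D.ϖ j T) (D.ϖ j T') := by
  have hsum := norm_ptAdd_lt D.Γ_int hT hT'
  have h1 := tendsto_ptAdd (D.Fj_int j) (D.tendsto_seq j hT) (D.tendsto_seq j hT')
    (fun i => D.norm_seq_lt _ _ hT) (fun i => D.norm_seq_lt _ _ hT') (D.norm_ϖ_lt _ hT) (D.norm_ϖ_lt _ hT')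
  have h2 := D.tendsto_seq j hsum
  have h3 : Tendsto (fun i => D.seq j i (ptAdd D.Γ T T') - ptAdd (D.Fj j) (D.seq j i T) (D.seq j i T'))
      atTop (𝓝 0) := by
    refine squeeze_zero_norm (a := fun i => D.r (j + i)) (fun i => ?_) ?_
    · rw [seq, seq, seq, ← D.chain_ptAdd j i (D.norm_τ_lt _ hT) (D.norm_τ_lt _ hT'), norm_sub_rev]
      refine (D.lip_chain j i (norm_ptAdd_lt (D.Fj_int _) (D.norm_τ_lt _ hT) (D.norm_τ_lt _ hT'))
        (D.norm_τ_lt _ hsum)).trans ?_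
      exact D.norm_τ_add_le _ hT hT'
    · have : Tendsto (fun i => D.r (i + j)) atTop (𝓝 0) := (tendsto_add_atTop_iff_nat j).2 D.tendsto_r
      simpa [add_comm] using this
  have h4 := h3.add h1
  simp only [sub_add_cancel, zero_add] at h4
  exact tendsto_nhds_unique h2 h4

/-! ### Towers -/

/-- The error radius `ρ^(q^m)`. -/
noncomputable def rq (m : ℕ) : ℝ := D.ρ ^ p ^ ((h + d) * m)

lemma rq_nonneg (m : ℕ) : 0 ≤ D.rq m := pow_nonneg D.ρ0 _

lemma rq_anti {m m' : ℕ} (hm : m ≤ m') : D.rq m' ≤ D.rq m := by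
  refine pow_le_pow_of_le_one D.ρ0 D.ρ1.le ?_
  exact Nat.pow_le_pow_right (Fact.out : p.Prime).pos (Nat.mul_le_mul_left _ hm)

lemma rq_le_pow (m : ℕ) : D.rq m ≤ D.ρ ^ m := by
  refine pow_le_pow_of_le_one D.ρ0 D.ρ1.le ?_
  have hh := D.hh
  have h1 : m ≤ (h + d) * m := Nat.le_mul_of_pos_left _ (by omega)
  exact h1.trans (Nat.lt_pow_self (Fact.out : p.Prime).one_lt).le

lemma r_pow (m : ℕ) : D.r m ^ p ^ (d * m) = D.rq m := by
  rw [r, rq, ← pow_mul, ← pow_add]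
  congr 2
  ring

/-- A tower over `D`. -/
structure IsTower (w : ℕ → K) : Prop where
  norm_lt : ∀ j, ‖w j‖ < 1
  step : ∀ j, ev (D.Vj j) (w (j + 1)) = w j

lemma isTower_ϖ {T : K} (hT : ‖T‖ < 1) : D.IsTower (fun j => D.ϖ j T) :=
  ⟨fun j => D.norm_ϖ_lt j hT, fun j => D.ev_Vj_ϖ j hT⟩

variable {D}

lemma IsTower.chain {w : ℕ → K} (hw : D.IsTower w) (j i : ℕ) : D.chain j i (w (j + i)) = w j := by
  induction i generalizing j with
  | zero => rfl
  | succ i ih =>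
    rw [chain_succ, show j + (i + 1) = j + 1 + i by ring, ih (j + 1), hw.step]

lemma IsTower.norm_pow_step {w : ℕ → K} (hw : D.IsTower w) (j : ℕ) :
    ‖w (j + 1) ^ p ^ (d * (j + 1)) - w j ^ p ^ (d * j)‖ ≤ D.rq j := by
  have h1 := D.norm_Vj_sub_pow_le j (hw.norm_lt (j + 1))
  rw [hw.step, norm_sub_rev] at h1
  have h2 : w (j + 1) ^ p ^ (d * (j + 1)) = (w (j + 1) ^ p ^ d) ^ p ^ (d * j) := by
    rw [← pow_mul, ← pow_add]
    congr 2
    ring
  rw [h2, norm_sub_pow_char_pow, ← r_pow]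
  exact pow_le_pow_left₀ (norm_nonneg _) h1 _

lemma IsTower.cauchy {w : ℕ → K} (hw : D.IsTower w) :
    CauchySeq (fun j => w j ^ p ^ (d * j)) := by
  refine cauchySeq_of_le_geometric D.ρ 1 D.ρ1 fun j => ?_
  rw [dist_comm, dist_eq_norm, one_mul]
  exact (hw.norm_pow_step j).trans (D.rq_le_pow j)

/-- The bottom point of a tower. -/
lemma IsTower.exists_limit {w : ℕ → K} (hw : D.IsTower w) :
    ∃ T : K, Tendsto (fun j => w j ^ p ^ (d * j)) atTop (𝓝 T) ∧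
      (∀ j, ‖w j ^ p ^ (d * j) - T‖ ≤ D.rq j) ∧ ‖T‖ < 1 := by
  obtain ⟨T, hT⟩ := cauchySeq_tendsto_of_complete hw.cauchy
  have key : ∀ j, ‖w j ^ p ^ (d * j) - T‖ ≤ D.rq j := by
    intro j
    have h1 : ∀ i, ‖w j ^ p ^ (d * j) - w (j + i) ^ p ^ (d * (j + i))‖ ≤ D.rq j := by
      intro i
      induction i with
      | zero => simpa using D.rq_nonneg j
      | succ i ih =>
        have e : w j ^ p ^ (d * j) - w (j + (i + 1)) ^ p ^ (d * (j + (i + 1))) =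
            (w j ^ p ^ (d * j) - w (j + i) ^ p ^ (d * (j + i))) +
              (w (j + i) ^ p ^ (d * (j + i)) - w (j + i + 1) ^ p ^ (d * (j + i + 1))) := by
          rw [show j + (i + 1) = j + i + 1 by ring]; ring
        rw [e]
        refine (IsUltrametricDist.norm_add_le_max _ _).trans (max_le ih ?_)
        rw [norm_sub_rev]
        exact (hw.norm_pow_step (j + i)).trans (D.rq_anti (Nat.le_add_right _ _))
    have h2 : Tendsto (fun i => ‖w j ^ p ^ (d * j) - w (j + i) ^ p ^ (d * (j + i))‖) atTop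
        (𝓝 ‖w j ^ p ^ (d * j) - T‖) := by
      have : Tendsto (fun i => w (i + j) ^ p ^ (d * (i + j))) atTop (𝓝 T) :=
        (tendsto_add_atTop_iff_nat j).2 hT
      have h3 : Tendsto (fun i => w (j + i) ^ p ^ (d * (j + i))) atTop (𝓝 T) := by
        simpa [add_comm] using this
      exact (tendsto_const_nhds.sub h3).norm
    exact le_of_tendsto h2 (Eventually.of_forall h1)
  refine ⟨T, hT, key, ?_⟩
  have h0 := key 0
  have e : T = w 0 ^ p ^ (d * 0) - (w 0 ^ p ^ (d * 0) - T) := by ring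
  rw [e]
  refine (norm_sub_le_max_ultra _ _).trans_lt (max_lt ?_ ?_)
  · simpa using hw.norm_lt 0
  · refine h0.trans_lt ?_
    exact pow_lt_one₀ D.ρ0 D.ρ1 (pow_ne_zero _ (Fact.out : p.Prime).ne_zero)

/-- (T4) A tower is determined by the limit of its Frobenius powers. -/
theorem IsTower.eq_ϖ {w : ℕ → K} (hw : D.IsTower w) {T : K}
    (hT : Tendsto (fun j => w j ^ p ^ (d * j)) atTop (𝓝 T)) (j : ℕ) : w j = D.ϖ j T := by
  obtain ⟨T', hT', hkey, hT1⟩ := hw.exists_limit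
  obtain rfl := tendsto_nhds_unique hT hT'
  have hm : ∀ m, ‖w m - D.ϖ m T‖ ≤ D.r m := by
    intro m
    have h1 : ‖w m - D.τ m T‖ ≤ D.r m := by
      refine norm_sub_le_of_pow p (D.r_nonneg m) (d * m) ?_
      rw [D.τ_pow, r_pow]
      exact hkey m
    have e : w m - D.ϖ m T = (w m - D.τ m T) - (D.ϖ m T - D.τ m T) := by ring
    rw [e]
    exact (norm_sub_le_max_ultra _ _).trans (max_le h1 (D.norm_ϖ_sub_τ m hT1))
  have h2 : ∀ i, ‖w j - D.ϖ j T‖ ≤ D.r (j + i) := by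
    intro i
    have := D.lip_chain j i (hw.norm_lt (j + i)) (D.norm_ϖ_lt (j + i) hT1)
    rw [hw.chain, D.chain_ϖ j i hT1] at this
    exact this.trans (hm _)
  have h3 : Tendsto (fun i => D.r (j + i)) atTop (𝓝 0) := by
    have : Tendsto (fun i => D.r (i + j)) atTop (𝓝 0) := (tendsto_add_atTop_iff_nat j).2 D.tendsto_r
    simpa [add_comm] using this
  have h4 : ‖w j - D.ϖ j T‖ ≤ 0 := ge_of_tendsto h3 (Eventually.of_forall h2)
  exact sub_eq_zero.1 (norm_le_zero_iff.1 h4)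

variable (D)

/-- The Frobenius powers of `ϖ_j T` tend to `T`; precise form. -/
lemma norm_ϖ_pow_sub (j : ℕ) {T : K} (hT : ‖T‖ < 1) :
    ‖(D.ϖ j T) ^ p ^ (d * j) - T‖ ≤ D.rq j := by
  have e : (D.ϖ j T) ^ p ^ (d * j) - T = (D.ϖ j T) ^ p ^ (d * j) - (D.τ j T) ^ p ^ (d * j) := by
    rw [D.τ_pow]
  rw [e, norm_sub_pow_char_pow, ← r_pow]
  exact pow_le_pow_left₀ (norm_nonneg _) (D.norm_ϖ_sub_τ j hT) _

lemma tendsto_rq : Tendsto D.rq atTop (𝓝 0) :=
  squeeze_zero D.rq_nonneg D.rq_le_pow (tendsto_pow_atTop_nhds_zero_of_lt_one D.ρ0 D.ρ1)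

lemma tendsto_ϖ_pow {T : K} (hT : ‖T‖ < 1) :
    Tendsto (fun j => (D.ϖ j T) ^ p ^ (d * j)) atTop (𝓝 T) := by
  rw [tendsto_iff_norm_sub_tendsto_zero]
  exact squeeze_zero (fun _ => norm_nonneg _) (fun j => D.norm_ϖ_pow_sub j hT) D.tendsto_rq

/-- (T6) Comparison of two towers. -/
theorem norm_ϖ_sub_ϖ (D' : TowerData p K h d) {δ : ℝ} (hδ0 : 0 ≤ δ) (hδ1 : δ ≤ 1)
    (hV : ∀ i, ‖PowerSeries.coeff i D'.V - PowerSeries.coeff i D.V‖ ≤ δ) (j : ℕ) {T : K} (hT : ‖T‖ < 1) :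
    ‖D'.ϖ j T - D.ϖ j T‖ ≤ δ ^ p ^ (j * h) := by
  have hVj : ∀ m i, ‖PowerSeries.coeff i (D'.Vj m) - PowerSeries.coeff i (D.Vj m)‖ ≤ δ ^ p ^ (m * h) := by
    intro m i
    rw [Vj, Vj, coeff_tw, coeff_tw, norm_sub_pow_char_pow]
    exact pow_le_pow_left₀ (norm_nonneg _) (hV i) _
  have hanti : ∀ {m m' : ℕ}, m ≤ m' → δ ^ p ^ (m' * h) ≤ δ ^ p ^ (m * h) := by
    intro m m' hm
    refine pow_le_pow_of_le_one hδ0 hδ1 ?_
    exact Nat.pow_le_pow_right (Fact.out : p.Prime).pos (Nat.mul_le_mul_right _ hm)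
  have hchain : ∀ i j {x : K}, ‖x‖ < 1 → ‖D'.chain j i x - D.chain j i x‖ ≤ δ ^ p ^ (j * h) := by
    intro i
    induction i with
    | zero => intro j x hx; simpa [chain_zero] using (pow_nonneg hδ0 _)
    | succ i ih =>
      intro j x hx
      rw [chain_succ, chain_succ]
      have e : ev (D'.Vj j) (D'.chain (j + 1) i x) - ev (D.Vj j) (D.chain (j + 1) i x) =
          (ev (D'.Vj j) (D'.chain (j + 1) i x) - ev (D'.Vj j) (D.chain (j + 1) i x)) +
            (ev (D'.Vj j) (D.chain (j + 1) i x) - ev (D.Vj j) (D.chain (j + 1) i x)) := by ring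
      rw [e]
      refine (IsUltrametricDist.norm_add_le_max _ _).trans (max_le ?_ ?_)
      · refine (lip_ev (D'.Vj_int j) (D'.norm_chain_lt _ _ hx) (D.norm_chain_lt _ _ hx)).trans ?_
        exact (ih (j + 1) hx).trans (hanti (Nat.le_succ j))
      · exact norm_ev_sub_le_of_coeff (D'.Vj_int j) (D.Vj_int j) (hVj j) (D.norm_chain_lt _ _ hx)
  have h1 : Tendsto (fun i => ‖D'.seq j i T - D.seq j i T‖) atTop (𝓝 ‖D'.ϖ j T - D.ϖ j T‖) :=
    ((D'.tendsto_seq j hT).sub (D.tendsto_seq j hT)).norm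
  refine le_of_tendsto h1 (Eventually.of_forall fun i => ?_)
  have hτ : D'.τ (j + i) T = D.τ (j + i) T := rfl
  rw [seq, seq, hτ]
  exact hchain i j (D.norm_τ_lt _ hT)

/-- (T5) Action: a homomorphism `θ : F' → F` close to `g` carries the tower of `T` over `F'` to the
tower of `g T` over `F`. -/
theorem ev_θ_ϖ (D' : TowerData p K h d) {θ g : PowerSeries K} (hθ : IsInt θ)
    (hθ0 : PowerSeries.constantCoeff θ = 0)
    (hcomm : cmp θ D'.V = cmp D.V (tw p h θ))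
    (hg : IsInt g) (hgfix : tw p (h + d) g = g) {ρθ : ℝ} (hρ0 : 0 ≤ ρθ) (hρ1 : ρθ < 1)
    (hclose : ∀ i, ‖PowerSeries.coeff i θ - PowerSeries.coeff i g‖ ≤ ρθ) (j : ℕ) {T : K}
    (hT : ‖T‖ < 1) : ev (tw p (j * h) θ) (D'.ϖ j T) = D.ϖ j (ev g T) := by
  -- twisted commutation
  have hcj : ∀ j, cmp (tw p (j * h) θ) (D'.Vj j) = cmp (D.Vj j) (tw p ((j + 1) * h) θ) := by
    intro j
    have := congrArg (PowerSeries.map (fr p (j * h))) hcomm
    rw [map_cmp _ D'.V_hom.1, map_cmp _ (constantCoeff_tw p hθ0 h)] at this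
    have e : tw p ((j + 1) * h) θ = PowerSeries.map (fr p (j * h)) (tw p h θ) := by
      have := tw_tw p (j * h) h θ
      rw [tw] at this
      rw [this]
      congr 2
      ring
    rw [e]
    exact this
  have hθj : ∀ e, IsInt (tw p e θ) := fun e => hθ.tw p e
  have hθj0 : ∀ e, PowerSeries.constantCoeff (tw p e θ) = 0 := fun e => constantCoeff_tw p hθ0 e
  have hw : D.IsTower (fun j => ev (tw p (j * h) θ) (D'.ϖ j T)) := by
    refine ⟨fun j => norm_ev_lt_one (hθj _) (hθj0 _) (D'.norm_ϖ_lt j hT), fun j => ?_⟩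
    show ev (D.Vj j) (ev (tw p ((j + 1) * h) θ) (D'.ϖ (j + 1) T)) = ev (tw p (j * h) θ) (D'.ϖ j T)
    rw [← ev_cmp (D.Vj_int j) (hθj _) (hθj0 _) (D'.norm_ϖ_lt _ hT), ← hcj j,
      ev_cmp (hθj _) (D'.Vj_int j) (D'.Vj_cc j) (D'.norm_ϖ_lt _ hT), D'.ev_Vj_ϖ j hT]
  refine hw.eq_ϖ ?_ j
  -- the limit
  have hgq : ∀ k, tw p ((h + d) * k) g = g := by
    intro k
    induction k with
    | zero => simpa using tw_zero p g
    | succ k ih =>
      rw [show (h + d) * (k + 1) = (h + d) * k + (h + d) by ring, ← tw_tw, ih, hgfix]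
  have h1 : ∀ k, (ev (tw p (k * h) θ) (D'.ϖ k T)) ^ p ^ (d * k) =
      ev (tw p ((h + d) * k) θ) ((D'.ϖ k T) ^ p ^ (d * k)) := by
    intro k
    rw [← ev_tw p (hθj _) (d * k) (D'.norm_ϖ_lt k hT), tw_tw]
    congr 2
    ring
  simp only [h1]
  have hx : ∀ k, ‖(D'.ϖ k T) ^ p ^ (d * k)‖ < 1 := fun k => by
    rw [norm_pow]
    exact pow_lt_one₀ (norm_nonneg _) (D'.norm_ϖ_lt k hT) (pow_ne_zero _ (Fact.out : p.Prime).ne_zero)
  have h2 : Tendsto (fun k => ev g ((D'.ϖ k T) ^ p ^ (d * k))) atTop (𝓝 (ev g T)) :=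
    tendsto_ev hg (D'.tendsto_ϖ_pow hT) hx hT
  have h3 : Tendsto (fun k => ev (tw p ((h + d) * k) θ) ((D'.ϖ k T) ^ p ^ (d * k)) -
      ev g ((D'.ϖ k T) ^ p ^ (d * k))) atTop (𝓝 0) := by
    have h4 : Tendsto (fun k : ℕ => ρθ ^ k) atTop (𝓝 0) := tendsto_pow_atTop_nhds_zero_of_lt_one hρ0 hρ1
    refine squeeze_zero_norm (fun k => ?_) h4
    have h5 : ∀ i, ‖PowerSeries.coeff i (tw p ((h + d) * k) θ) - PowerSeries.coeff i g‖ ≤ ρθ ^ k := by
      intro i
      conv_lhs => rw [← hgq k]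
      rw [coeff_tw, coeff_tw, norm_sub_pow_char_pow]
      refine (pow_le_pow_left₀ (norm_nonneg _) (hclose i) _).trans ?_
      refine pow_le_pow_of_le_one hρ0 hρ1.le ?_
      have hh := D.hh
      have h6 : k ≤ (h + d) * k := Nat.le_mul_of_pos_left _ (by omega)
      exact h6.trans (Nat.lt_pow_self (Fact.out : p.Prime).one_lt).le
    exact norm_ev_sub_le_of_coeff (hθj _) hg h5 (hx k)
  have h7 := h3.add h2
  simpa using h7

end TowerData

end Crest.Agent.LT
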