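/-
Points of `R = k⟦y⟧` in a complete ultrametric field, and the tower data of a `CharPInput` at a
point (BLUEPRINT §E).
-/
import Crest.Agent.Lib.LT.P3Tower
import Crest.Agent.Lib.LT.Spec

set_option autoImplicit false
set_option linter.unusedSectionVars false
set_option linter.unusedVariables false
set_option linter.unnecessarySimpa false

namespace Crest.Agent.LT

open Filter Topology

open Crest.LubinTate

section evR

variable {k : Type*} [Field k] [Finite k] {K : Type*} [NontriviallyNormedField K]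
  [IsUltrametricDist K] [CompleteSpace K] [Algebra k K] {σ : Type*} [Fintype σ]

omit [IsUltrametricDist K] [CompleteSpace K] [Fintype σ] in
/-- Elements of a finite field have norm at most one in a normed field. -/
lemma norm_algebraMap_le_one (a : k) : ‖algebraMap k K a‖ ≤ 1 := by
  classical
  haveI := Fintype.ofFinite k
  have h1 : a ^ Fintype.card k = a := FiniteField.pow_card a
  have h2 : (algebraMap k K a) ^ Fintype.card k = algebraMap k K a := by rw [← map_pow, h1]
  have hc : 1 < Fintype.card k := Fintype.one_lt_card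
  by_contra hcon
  push Not at hcon
  have h3 := congrArg norm h2
  rw [norm_pow] at h3
  have h4 : ‖algebraMap k K a‖ ^ 1 < ‖algebraMap k K a‖ ^ Fintype.card k :=
    pow_lt_pow_right₀ hcon hc
  rw [pow_one, h3] at h4
  exact lt_irrefl _ h4

omit [IsUltrametricDist K] [CompleteSpace K] in
lemma isB_map_algebraMap (f : MvPowerSeries σ k) :
    IsB (1 : ℝ) 1 (MvPowerSeries.map (algebraMap k K) f) := fun γ => by
  simpa using norm_algebraMap_le_one (K := K) (MvPowerSeries.coeff γ f)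

/-- Evaluation of `k⟦y⟧` at a point of the open polydisc. -/
noncomputable def evR (u : σ → K) (hu : ∀ i, ‖u i‖ < 1) : MvPowerSeries σ k →+* K where
  toFun f := evalS (MvPowerSeries.map (algebraMap k K) f) u
  map_one' := by rw [map_one, evalS_one]
  map_mul' f g := by
    rw [map_mul]
    exact evalS_mul one_pos (isB_map_algebraMap f) (isB_map_algebraMap g) hu
  map_zero' := by rw [map_zero, evalS_zero]
  map_add' f g := by
    rw [map_add]
    exact evalS_add one_pos (isB_map_algebraMap f) (isB_map_algebraMap g) hu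

variable {u : σ → K} {hu : ∀ i, ‖u i‖ < 1}

lemma evR_apply (f : MvPowerSeries σ k) :
    evR u hu f = evalS (MvPowerSeries.map (algebraMap k K) f) u := rfl

lemma evR_X (i : σ) : evR (k := k) u hu (MvPowerSeries.X i) = u i := by
  rw [evR_apply]
  rw [MvPowerSeries.map_X, evalS_X]

lemma evR_C (a : k) : evR (k := k) u hu (MvPowerSeries.C a) = algebraMap k K a := by
  rw [evR_apply]
  rw [MvPowerSeries.map_C, evalS_C]

lemma norm_evR_le_one (f : MvPowerSeries σ k) : ‖evR u hu f‖ ≤ 1 :=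
  norm_evalS_le one_pos (isB_map_algebraMap f) (fun i => (hu i).le)

/-- If the constant term vanishes, the value is bounded by the radius. -/
lemma norm_evR_le_of_cc {ρ : ℝ} (hρ0 : 0 ≤ ρ) (hρ1 : ρ ≤ 1) (huρ : ∀ i, ‖u i‖ ≤ ρ)
    {f : MvPowerSeries σ k} (h0 : MvPowerSeries.constantCoeff f = 0) : ‖evR u hu f‖ ≤ ρ := by
  have h1 : MvPowerSeries.constantCoeff (MvPowerSeries.map (algebraMap k K) f) = 0 := by
    rw [← MvPowerSeries.coeff_zero_eq_constantCoeff_apply, MvPowerSeries.coeff_map,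
      MvPowerSeries.coeff_zero_eq_constantCoeff_apply, h0, map_zero]
  have := norm_evalS_le_of_const_zero one_pos hρ0 hρ1 (isB_map_algebraMap (K := K) f) h1 huρ
  simpa [evR_apply] using this

/-- `|f(u) - res(f)| ≤ ρ` -/
lemma norm_evR_sub_res_le {ρ : ℝ} (hρ0 : 0 ≤ ρ) (hρ1 : ρ ≤ 1) (huρ : ∀ i, ‖u i‖ ≤ ρ)
    (f : MvPowerSeries σ k) :
    ‖evR u hu f - algebraMap k K (MvPowerSeries.constantCoeff f)‖ ≤ ρ := by
  classical
  rw [← evR_C (u := u) (hu := hu), ← map_sub]
  refine norm_evR_le_of_cc hρ0 hρ1 huρ ?_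
  rw [map_sub]
  simp

/-- Lipschitz in the point. -/
lemma norm_evR_sub_evR_le {u' : σ → K} {hu' : ∀ i, ‖u' i‖ < 1} {δ : ℝ} (hδ : 0 ≤ δ)
    (hd : ∀ i, ‖u i - u' i‖ ≤ δ) (f : MvPowerSeries σ k) : ‖evR u hu f - evR u' hu' f‖ ≤ δ := by
  have := lip_evalS (isB_map_algebraMap (K := K) f) hu hu' hδ hd
  simpa [evR_apply] using this

end evR

section decomposition

variable {A : Type*} [CommRing A] {d : ℕ}

open Classical in
/-- Quotient of `f` by `X_i`, used to write `f = ∑ X_i g_i`. -/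
noncomputable def divX (f : MvPowerSeries (Fin d) A) (i : Fin d) : MvPowerSeries (Fin d) A :=
  fun γ => if ∀ j, j < i → γ j = 0 then MvPowerSeries.coeff (γ + Finsupp.single i 1) f else 0

open Classical in
lemma coeff_divX (f : MvPowerSeries (Fin d) A) (i : Fin d) (γ : Fin d →₀ ℕ) :
    MvPowerSeries.coeff γ (divX f i) =
      if ∀ j, j < i → γ j = 0 then MvPowerSeries.coeff (γ + Finsupp.single i 1) f else 0 := rfl

/-- `f = ∑ X_i g_i` if `f` has no constant term. -/
lemma eq_sum_X_mul_divX (f : MvPowerSeries (Fin d) A) (h0 : MvPowerSeries.constantCoeff f = 0) :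
    f = ∑ i, MvPowerSeries.X i * divX f i := by
  classical
  ext δ
  rw [map_sum]
  have hterm : ∀ i, MvPowerSeries.coeff δ (MvPowerSeries.X i * divX f i) =
      if Finsupp.single i 1 ≤ δ ∧ ∀ j, j < i → δ j = 0 then MvPowerSeries.coeff δ f else 0 := by
    intro i
    rw [show (MvPowerSeries.X i : MvPowerSeries (Fin d) A) = MvPowerSeries.monomial (Finsupp.single i 1) 1 from rfl,
      MvPowerSeries.coeff_monomial_mul, one_mul]
    by_cases h1 : Finsupp.single i 1 ≤ δ
    · rw [if_pos h1, coeff_divX, tsub_add_cancel_of_le h1]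
      have hcond : (∀ j, j < i → (δ - Finsupp.single i 1 : Fin d →₀ ℕ) j = 0) ↔ (∀ j, j < i → δ j = 0) := by
        refine forall_congr' fun j => forall_congr' fun hj => ?_
        have : j ≠ i := ne_of_lt hj
        simp [Finsupp.single_apply, this.symm]
      by_cases h2 : ∀ j, j < i → δ j = 0
      · rw [if_pos (hcond.2 h2), if_pos ⟨h1, h2⟩]
      · rw [if_neg (fun h => h2 (hcond.1 h)), if_neg (fun h => h2 h.2)]
    · rw [if_neg h1, if_neg (fun h => h1 h.1)]
  simp only [hterm]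
  by_cases hδ : δ = 0
  · subst hδ
    have : MvPowerSeries.coeff (0 : Fin d →₀ ℕ) f = 0 := by
      rw [MvPowerSeries.coeff_zero_eq_constantCoeff_apply, h0]
    simp [this]
  · -- first nonzero index
    have hex : ∃ i, δ i ≠ 0 := by
      by_contra hcon
      push Not at hcon
      exact hδ (Finsupp.ext hcon)
    obtain ⟨i₀, hi₀, hmin⟩ : ∃ i₀, δ i₀ ≠ 0 ∧ ∀ j, j < i₀ → δ j = 0 := by
      classical
      let S := Finset.univ.filter (fun i => δ i ≠ 0)
      have hS : S.Nonempty := by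
        obtain ⟨i, hi⟩ := hex
        exact ⟨i, by simp [S, hi]⟩
      refine ⟨S.min' hS, ?_, ?_⟩
      · have := S.min'_mem hS
        simpa [S] using this
      · intro j hj
        by_contra hjne
        have : j ∈ S := by simp [S, hjne]
        exact absurd (S.min'_le j this) (not_le.mpr hj)
    have hle : Finsupp.single i₀ 1 ≤ δ := by
      rw [Finsupp.single_le_iff]
      exact Nat.one_le_iff_ne_zero.2 hi₀
    rw [Finset.sum_eq_single i₀]
    · rw [if_pos ⟨hle, hmin⟩]
    · intro i _ hne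
      rw [if_neg]
      rintro ⟨h1, h2⟩
      have h3 : i₀ < i := by
        rcases lt_or_gt_of_ne hne with h | h
        · exfalso
          have h4 := hmin i h
          rw [Finsupp.single_le_iff] at h1
          omega
        · exact h
      exact hi₀ (h2 i₀ h3)
    · intro h; exact absurd (Finset.mem_univ _) h

open Classical in
lemma coeff_divX_eq_zero {f : MvPowerSeries (Fin d) A} {c : ℕ}
    (hf : ∀ γ, Finsupp.degree γ < c + 1 → MvPowerSeries.coeff γ f = 0) (i : Fin d) (γ : Fin d →₀ ℕ)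
    (hγ : Finsupp.degree γ < c) : MvPowerSeries.coeff γ (divX f i) = 0 := by
  rw [coeff_divX]
  split_ifs
  · apply hf
    rw [map_add]
    simp only [Finsupp.degree_single]
    omega
  · rfl

end decomposition

section uniq

variable {k : Type*} [Field k] [Finite k] {K : Type*} [NontriviallyNormedField K]
  [IsUltrametricDist K] [CompleteSpace K] [Algebra k K] {d : ℕ}

/-- A ring map `ψ` with values of norm `≤ 1` and `|ψ y_i| ≤ ρ` is small on series of high order. -/
lemma norm_map_le_of_order (ψ : MvPowerSeries (Fin d) k →+* K) (hψ : ∀ f, ‖ψ f‖ ≤ 1) {ρ : ℝ}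
    (hρ0 : 0 ≤ ρ) (hX : ∀ i, ‖ψ (MvPowerSeries.X i)‖ ≤ ρ) (c : ℕ) :
    ∀ f : MvPowerSeries (Fin d) k, (∀ γ, Finsupp.degree γ < c → MvPowerSeries.coeff γ f = 0) →
      ‖ψ f‖ ≤ ρ ^ c := by
  classical
  induction c with
  | zero => intro f _; simpa using hψ f
  | succ c ih =>
    intro f hf
    have h0 : MvPowerSeries.constantCoeff f = 0 := by
      rw [← MvPowerSeries.coeff_zero_eq_constantCoeff_apply]
      exact hf 0 (by simp)
    rw [eq_sum_X_mul_divX f h0, map_sum]
    refine IsUltrametricDist.norm_sum_le_of_forall_le_of_nonneg (by positivity) fun i _ => ?_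
    rw [map_mul, norm_mul, pow_succ']
    exact mul_le_mul (hX i) (ih _ (coeff_divX_eq_zero hf i)) (norm_nonneg _) hρ0

/-- A ring map `ψ` extending `k → K` with values of norm `≤ 1` and `|ψ y_i| < 1` is an evaluation. -/
theorem eq_evR (ψ : MvPowerSeries (Fin d) k →+* K) (hψ : ∀ f, ‖ψ f‖ ≤ 1)
    (hC : ∀ a, ψ (MvPowerSeries.C a) = algebraMap k K a)
    (hX : ∀ i, ‖ψ (MvPowerSeries.X i)‖ < 1) (f : MvPowerSeries (Fin d) k) :
    ψ f = evR (fun i => ψ (MvPowerSeries.X i)) hX f := by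
  classical
  set u : Fin d → K := fun i => ψ (MvPowerSeries.X i) with hu
  obtain ⟨ρ, hρ0, hρ1, hρ⟩ := exists_radius one_pos hX
  -- monomials
  have hmono : ∀ (ψ' : MvPowerSeries (Fin d) k →+* K), (∀ a, ψ' (MvPowerSeries.C a) = algebraMap k K a) →
      (∀ i, ψ' (MvPowerSeries.X i) = u i) → ∀ (γ : Fin d →₀ ℕ) (a : k),
      ψ' (MvPowerSeries.monomial γ a) = algebraMap k K a * mval u γ := by
    intro ψ' h1 h2 γ a
    have : (MvPowerSeries.monomial γ a : MvPowerSeries (Fin d) k) =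
        MvPowerSeries.C a * ∏ i, MvPowerSeries.X i ^ γ i := by
      rw [MvPowerSeries.monomial_eq', Finsupp.prod_fintype]
      intro i; simp
    rw [this, map_mul, h1, map_prod]
    simp only [map_pow, h2]
    rfl
  have hevC : ∀ a, evR (k := k) u hX (MvPowerSeries.C a) = algebraMap k K a := fun a => evR_C a
  have hevX : ∀ i, evR (k := k) u hX (MvPowerSeries.X i) = u i := fun i => evR_X i
  -- truncation
  have hbound : ∀ c : ℕ, ‖ψ f - evR u hX f‖ ≤ ρ ^ c := by
    intro c
    have hfin : {γ : Fin d →₀ ℕ | Finsupp.degree γ < c}.Finite := by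
      refine Set.Finite.subset (Finsupp.finite_of_degree_le (σ := Fin d) (c)) ?_
      intro γ hγ
      simp only [Set.mem_ofPred_eq] at hγ ⊢
      omega
    set S := hfin.toFinset
    set P : MvPowerSeries (Fin d) k := ∑ γ ∈ S, MvPowerSeries.monomial γ (MvPowerSeries.coeff γ f) with hP
    have hQ : ∀ γ, Finsupp.degree γ < c → MvPowerSeries.coeff γ (f - P) = 0 := by
      intro γ hγ
      rw [map_sub, hP, map_sum, Finset.sum_eq_single γ]
      · simp
      · intro b _ hb
        rw [MvPowerSeries.coeff_monomial, if_neg hb.symm]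
      · intro h
        exact absurd (by simp [S, hγ]) h
    have hPeq : ψ P = evR u hX P := by
      rw [hP, map_sum, map_sum]
      refine Finset.sum_congr rfl fun γ _ => ?_
      rw [hmono ψ hC (fun _ => rfl), hmono _ hevC hevX]
    have h1 := norm_map_le_of_order ψ hψ hρ0 hρ c (f - P) hQ
    have h2 := norm_map_le_of_order (evR (k := k) u hX) (norm_evR_le_one) hρ0
      (fun i => by rw [hevX]; exact hρ i) c (f - P) hQ
    have e : ψ f - evR u hX f = ψ (f - P) - evR u hX (f - P) := by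
      rw [map_sub, map_sub, hPeq]; ring
    rw [e]
    exact (norm_sub_le_max_ultra _ _).trans (max_le h1 h2)
  have h3 : Tendsto (fun c : ℕ => ρ ^ c) atTop (𝓝 0) := tendsto_pow_atTop_nhds_zero_of_lt_one hρ0 hρ1
  have h4 : ‖ψ f - evR u hX f‖ ≤ 0 := ge_of_tendsto h3 (Eventually.of_forall hbound)
  exact sub_eq_zero.1 (norm_le_zero_iff.1 h4)

/-- Composition of an evaluation with a `k`-linear local endomorphism. -/
theorem evR_comp (φ : MvPowerSeries (Fin d) k →+* MvPowerSeries (Fin d) k)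
    (hφC : ∀ a, φ (MvPowerSeries.C a) = MvPowerSeries.C a)
    (hφ0 : ∀ i, MvPowerSeries.constantCoeff (φ (MvPowerSeries.X i)) = 0)
    {u : Fin d → K} (hu : ∀ i, ‖u i‖ < 1) :
    ∃ hu' : ∀ i, ‖evR (k := k) u hu (φ (MvPowerSeries.X i))‖ < 1,
      ∀ f, evR u hu (φ f) = evR (fun i => evR u hu (φ (MvPowerSeries.X i))) hu' f := by
  obtain ⟨ρ, hρ0, hρ1, hρ⟩ := exists_radius one_pos hu
  have hu' : ∀ i, ‖evR (k := k) u hu (φ (MvPowerSeries.X i))‖ < 1 := fun i =>
    (norm_evR_le_of_cc hρ0 hρ1.le hρ (hφ0 i)).trans_lt hρ1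
  refine ⟨hu', fun f => ?_⟩
  have := eq_evR ((evR (k := k) u hu).comp φ) (fun f => norm_evR_le_one (hu := hu) _)
    (fun a => by simp [hφC, evR_C]) hu' f
  exact this

end uniq

section data

variable {p : ℕ} [Fact p.Prime] {n : ℕ} {K : Type*} [NontriviallyNormedField K]
  [IsUltrametricDist K] [CompleteSpace K] [CharP K p] [Algebra (GaloisField p n) K] {h d : ℕ}
  (I : CharPInput p n h d)

omit [IsUltrametricDist K] [CompleteSpace K] [Algebra (GaloisField p n) K] in
/-- The Honda law of height `m` has coefficients vanishing in degrees `2 ≤ · < p^m`. -/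
lemma honda_low (m : ℕ) (hm : 1 ≤ m) (γ : Fin 2 →₀ ℕ) (h2 : 2 ≤ Finsupp.degree γ)
    (hq : Finsupp.degree γ < p ^ m) :
    MvPowerSeries.coeff γ (honda p m K).toPowerSeries = 0 := by
  classical
  have hγ : γ = Finsupp.single 0 (γ 0) + Finsupp.single 1 (γ 1) := by
    ext i; fin_cases i <;> simp
  have hdeg : Finsupp.degree γ = γ 0 + γ 1 := by
    rw [degree_eq_sum]; simp
  by_cases h0 : γ 0 = 0
  · have e : γ = Finsupp.single 1 (γ 1) := by rw [hγ]; simp [h0]
    rw [e, coeff_single_one, if_neg]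
    rw [h0] at hdeg
    omega
  by_cases h1 : γ 1 = 0
  · have e : γ = Finsupp.single 0 (γ 0) := by rw [hγ]; simp [h1]
    rw [e, coeff_single_zero, if_neg]
    rw [h1] at hdeg
    omega
  rw [hγ]
  exact honda_coeff_low p m hm K _ _ (by omega) (by omega) (by omega)

omit [CompleteSpace K] [Algebra (GaloisField p n) K] in
lemma norm_honda_coeff_le (m : ℕ) (γ : Fin 2 →₀ ℕ) :
    ‖MvPowerSeries.coeff γ (honda p m K).toPowerSeries‖ ≤ 1 := by
  have : MvPowerSeries.coeff γ (honda p m K).toPowerSeries =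
      ((MvPowerSeries.coeff γ (hondaZ p m).toPowerSeries : ℤ) : K) := by
    show MvPowerSeries.coeff γ (MvPowerSeries.map (Int.castRingHom K) (hondaZ p m).toPowerSeries) = _
    rw [MvPowerSeries.coeff_map]
    rfl
  rw [this]
  exact IsUltrametricDist.norm_intCast_le_one K _

omit [CompleteSpace K] [Algebra (GaloisField p n) K] in
lemma isIntLaw_honda (m : ℕ) : IsIntLaw (honda p m K) := fun γ => by
  simpa using norm_honda_coeff_le m γ

/-- The ring `R` evaluated at `u`. -/
noncomputable abbrev evP (p n : ℕ) [Fact p.Prime] {d : ℕ} {K : Type*} [NontriviallyNormedField K]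
    [IsUltrametricDist K] [CompleteSpace K] [Algebra (GaloisField p n) K] (u : Fin d → K)
    (hu : ∀ i, ‖u i‖ < 1) : RR p n d →+* K := evR (k := GaloisField p n) u hu

omit [IsUltrametricDist K] [CompleteSpace K] [NontriviallyNormedField K] [CharP K p] in
lemma fr_comm_map {A B : Type*} [CommRing A] [CommRing B] [CharP A p] [CharP B p] (e : A →+* B) (m : ℕ) :
    e.comp (iterateFrobenius A p m) = (iterateFrobenius B p m).comp e := by
  ext x
  simp [iterateFrobenius_def]

variable {u : Fin d → K} {hu : ∀ i, ‖u i‖ < 1}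

/-- The tower data at a point `u` of the open polydisc. -/
noncomputable def pointData (u : Fin d → K) (hu : ∀ i, ‖u i‖ < 1) {ρ : ℝ} (hρ0 : 0 ≤ ρ) (hρ1 : ρ < 1)
    (huρ : ∀ i, ‖u i‖ ≤ ρ) : TowerData p K h d where
  hh := I.h1
  hd := I.d1
  F := I.F.map (evP p n u hu)
  comm := by
    haveI := I.comm
    exact fg_map_comm _ _
  Γ := honda p n K
  Γcomm := honda_comm p n K
  V := PowerSeries.map (evP p n u hu) I.V
  ρ := ρ
  ρ0 := hρ0
  ρ1 := hρ1
  F_int := fun γ => by
    simp only [one_pow, mul_one]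
    exact norm_evR_le_one (hu := hu) _
  Γ_int := isIntLaw_honda n
  V_int := fun i => by
    rw [PowerSeries.coeff_map]
    exact norm_evR_le_one (hu := hu) _
  V_hom := by
    have h1 := I.V_hom.map (evP p n u hu)
    rw [fg_map_map, fr_comm_map, ← fg_map_map] at h1
    exact h1
  V_p := by
    rw [mulSeries_map, I.V_p, map_cmp _ (constantCoeff_X_pow (prime_pow_ne_zero p h))]
    simp
  Γ_fix := honda_map p n _
  Γ_p := by
    rw [I.hd]
    exact honda_mulSeries p n (by have := I.h1; have := I.hd; omega) K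
  Γ_low := fun γ h2 h3 => honda_low n (by have := I.h1; have := I.hd; omega) γ h2 (by rwa [I.hd] at h3)
  F_close := fun γ => by
    have h1 : MvPowerSeries.coeff γ (honda p n K).toPowerSeries =
        algebraMap (GaloisField p n) K (MvPowerSeries.constantCoeff
          (MvPowerSeries.coeff γ I.F.toPowerSeries)) := by
      have hr : honda p n (GaloisField p n) = I.F.map (resR p n d) := I.red.symm
      rw [← honda_map p n (algebraMap (GaloisField p n) K), hr]
      show MvPowerSeries.coeff γ (MvPowerSeries.map _ (MvPowerSeries.map _ I.F.toPowerSeries)) = _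
      rw [MvPowerSeries.coeff_map, MvPowerSeries.coeff_map]
    rw [h1]
    show ‖MvPowerSeries.coeff γ (MvPowerSeries.map _ I.F.toPowerSeries) - _‖ ≤ ρ
    rw [MvPowerSeries.coeff_map]
    exact norm_evR_sub_res_le hρ0 hρ1.le huρ _
  V_close := fun i => by
    have h1 : PowerSeries.coeff i (PowerSeries.X ^ p ^ d : PowerSeries K) =
        algebraMap (GaloisField p n) K (MvPowerSeries.constantCoeff (PowerSeries.coeff i I.V)) := by
      have h2 := congrArg (PowerSeries.coeff i) I.V_red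
      rw [PowerSeries.coeff_map] at h2
      rw [show (MvPowerSeries.constantCoeff (PowerSeries.coeff i I.V) : GaloisField p n) = _ from h2,
        PowerSeries.coeff_X_pow, PowerSeries.coeff_X_pow]
      split_ifs <;> simp
    rw [h1, PowerSeries.coeff_map]
    exact norm_evR_sub_res_le hρ0 hρ1.le huρ _

lemma pointData_F (u : Fin d → K) (hu : ∀ i, ‖u i‖ < 1) {ρ : ℝ} (hρ0 : 0 ≤ ρ) (hρ1 : ρ < 1)
    (huρ : ∀ i, ‖u i‖ ≤ ρ) : (pointData I u hu hρ0 hρ1 huρ).F = I.F.map (evP p n u hu) := rfl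

lemma pointData_V (u : Fin d → K) (hu : ∀ i, ‖u i‖ < 1) {ρ : ℝ} (hρ0 : 0 ≤ ρ) (hρ1 : ρ < 1)
    (huρ : ∀ i, ‖u i‖ ≤ ρ) : (pointData I u hu hρ0 hρ1 huρ).V = PowerSeries.map (evP p n u hu) I.V := rfl

lemma pointData_Γ (u : Fin d → K) (hu : ∀ i, ‖u i‖ < 1) {ρ : ℝ} (hρ0 : 0 ≤ ρ) (hρ1 : ρ < 1)
    (huρ : ∀ i, ‖u i‖ ≤ ρ) : (pointData I u hu hρ0 hρ1 huρ).Γ = honda p n K := rfl

/-- Coefficient comparison of `V` at two points. -/
lemma norm_coeff_V_sub (u u' : Fin d → K) (hu : ∀ i, ‖u i‖ < 1) (hu' : ∀ i, ‖u' i‖ < 1) {δ : ℝ} (hδ : 0 ≤ δ)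
    (hd : ∀ i, ‖u i - u' i‖ ≤ δ) (i : ℕ) :
    ‖PowerSeries.coeff i (PowerSeries.map (evP p n u hu) I.V) -
      PowerSeries.coeff i (PowerSeries.map (evP p n u' hu') I.V)‖ ≤ δ := by
  rw [PowerSeries.coeff_map, PowerSeries.coeff_map]
  exact norm_evR_sub_evR_le hδ hd _

/-! ### The action on points -/

/-- The point `u ∘ φ_g`. -/
noncomputable def actPt (g : PowerSeries (GaloisField p n)) (u : Fin d → K) (hu : ∀ i, ‖u i‖ < 1) :
    Fin d → K := fun i => evP p n u hu (I.act.φ g (MvPowerSeries.X i))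

lemma cc_act {g : PowerSeries (GaloisField p n)} (hg : IsFGAut (Γ₀ p n) g) (f : RR p n d) :
    MvPowerSeries.constantCoeff (I.act.φ g f) = MvPowerSeries.constantCoeff f := by
  have := I.act.res_φ g hg
  exact congrArg (fun φ : RR p n d →+* GaloisField p n => φ f) this

lemma cc_act_X {g : PowerSeries (GaloisField p n)} (hg : IsFGAut (Γ₀ p n) g) (i : Fin d) :
    MvPowerSeries.constantCoeff (I.act.φ g (MvPowerSeries.X i)) = 0 := by
  rw [cc_act I hg]; simp

lemma norm_actPt_le {g : PowerSeries (GaloisField p n)} (hg : IsFGAut (Γ₀ p n) g) {ρ : ℝ} (hρ0 : 0 ≤ ρ)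
    (hρ1 : ρ ≤ 1) (huρ : ∀ i, ‖u i‖ ≤ ρ) (i : Fin d) : ‖actPt I g u hu i‖ ≤ ρ :=
  norm_evR_le_of_cc hρ0 hρ1 huρ (cc_act_X I hg i)

lemma norm_actPt_lt {g : PowerSeries (GaloisField p n)} (hg : IsFGAut (Γ₀ p n) g) (i : Fin d) :
    ‖actPt I g u hu i‖ < 1 := by
  obtain ⟨ρ, hρ0, hρ1, hρ⟩ := exists_radius one_pos hu
  exact (norm_actPt_le I hg hρ0 hρ1.le hρ i).trans_lt hρ1

/-- `u ∘ φ_g` is the evaluation at `actPt`. -/
lemma evP_act {g : PowerSeries (GaloisField p n)} (hg : IsFGAut (Γ₀ p n) g) (f : RR p n d) :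
    evP p n u hu (I.act.φ g f) = evP p n (actPt I g u hu) (norm_actPt_lt I hg) f := by
  obtain ⟨hu', h⟩ := evR_comp (k := GaloisField p n) (K := K) (I.act.φ g) (I.act_lin g) (cc_act_X I hg) hu
  exact h f

lemma evP_comp_act {g : PowerSeries (GaloisField p n)} (hg : IsFGAut (Γ₀ p n) g) :
    (evP p n u hu).comp (I.act.φ g) = evP p n (actPt I g u hu) (norm_actPt_lt I hg) :=
  RingHom.ext (evP_act I hg)

/-- `θ_{g,u}`. -/
noncomputable def θAt (g : PowerSeries (GaloisField p n)) (u : Fin d → K) (hu : ∀ i, ‖u i‖ < 1) :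
    PowerSeries K := PowerSeries.map (evP p n u hu) (I.act.θ g)

lemma θAt_int (g : PowerSeries (GaloisField p n)) : IsInt (θAt I g u hu) := fun i => by
  rw [θAt, PowerSeries.coeff_map]
  exact norm_evR_le_one (hu := hu) _

lemma θAt_cc {g : PowerSeries (GaloisField p n)} (hg : IsFGAut (Γ₀ p n) g) :
    PowerSeries.constantCoeff (θAt I g u hu) = 0 := by
  have := (I.act.hom g hg).1
  rw [θAt]
  exact constantCoeff_map' _ this

/-- `θ_{g,u} : F_{u φ_g} → F_u`. -/
lemma θAt_hom {g : PowerSeries (GaloisField p n)} (hg : IsFGAut (Γ₀ p n) g) :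
    IsFGHom (I.F.map (evP p n (actPt I g u hu) (norm_actPt_lt I hg))) (I.F.map (evP p n u hu))
      (θAt I g u hu) := by
  have h1 := (I.act.hom g hg).map (evP p n u hu)
  rw [fg_map_map, evP_comp_act I hg] at h1
  exact h1

/-- The series `g` over `K`. -/
noncomputable abbrev gK (g : PowerSeries (GaloisField p n)) : PowerSeries K :=
  PowerSeries.map (algebraMap (GaloisField p n) K) g

omit [IsUltrametricDist K] [CompleteSpace K] in
lemma gK_int (g : PowerSeries (GaloisField p n)) : IsInt (gK (K := K) g) := fun i => by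
  rw [PowerSeries.coeff_map]
  exact norm_algebraMap_le_one _

lemma galois_pow (hn : n ≠ 0) (a : GaloisField p n) : a ^ p ^ n = a := by
  haveI := Fintype.ofFinite (GaloisField p n)
  have h1 := FiniteField.pow_card a
  rwa [← Nat.card_eq_fintype_card, GaloisField.card p n hn] at h1

lemma gK_fix (g : PowerSeries (GaloisField p n)) (hn : h + d = n) (hn0 : n ≠ 0) :
    tw p (h + d) (gK (K := K) g) = gK g := by
  ext i
  rw [coeff_tw, PowerSeries.coeff_map, ← map_pow, hn, galois_pow hn0]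

/-- The coefficients of `θ_{g,u}` are close to those of `g`. -/
lemma θAt_close {g : PowerSeries (GaloisField p n)} (hg : IsFGAut (Γ₀ p n) g) {ρ : ℝ} (hρ0 : 0 ≤ ρ)
    (hρ1 : ρ ≤ 1) (huρ : ∀ i, ‖u i‖ ≤ ρ) (i : ℕ) :
    ‖PowerSeries.coeff i (θAt I g u hu) - PowerSeries.coeff i (gK (K := K) g)‖ ≤ ρ := by
  have h1 : PowerSeries.coeff i (gK (K := K) g) =
      algebraMap (GaloisField p n) K (MvPowerSeries.constantCoeff (PowerSeries.coeff i (I.act.θ g))) := by
    have h2 := congrArg (PowerSeries.coeff i) (I.act.red g hg)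
    rw [PowerSeries.coeff_map] at h2
    rw [PowerSeries.coeff_map, ← h2]
  rw [h1, θAt, PowerSeries.coeff_map]
  exact norm_evR_sub_res_le hρ0 hρ1 huρ _

/-- (T5) at points: `θ^[j] (ϖ^{u φ_g}_j T) = ϖ^u_j (g T)`. -/
theorem ev_θAt_ϖ [PerfectRing K p] {g : PowerSeries (GaloisField p n)} (hg : IsFGAut (Γ₀ p n) g)
    {ρ ρ' : ℝ} (hρ0 : 0 ≤ ρ) (hρ1 : ρ < 1) (huρ : ∀ i, ‖u i‖ ≤ ρ) (hρ0' : 0 ≤ ρ') (hρ1' : ρ' < 1)
    (huρ' : ∀ i, ‖actPt I g u hu i‖ ≤ ρ') (j : ℕ) {T : K} (hT : ‖T‖ < 1) :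
    ev (tw p (j * h) (θAt I g u hu)) ((pointData I (actPt I g u hu) (norm_actPt_lt I hg) hρ0' hρ1' huρ').ϖ j T) =
      (pointData I u hu hρ0 hρ1 huρ).ϖ j (ev (gK g) T) := by
  have hn0 : n ≠ 0 := by have := I.h1; have := I.hd; omega
  refine TowerData.ev_θ_ϖ _ _ (θAt_int I g) (θAt_cc I hg) ?_ (gK_int g) (gK_fix g I.hd hn0) hρ0 hρ1
    (θAt_close I hg hρ0 hρ1.le huρ) j hT
  have hp1 := (pointData I (actPt I g u hu) (norm_actPt_lt I hg) hρ0' hρ1' huρ').V_p
  have hp2 := (pointData I u hu hρ0 hρ1 huρ).V_p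
  exact cmp_V_eq p (θAt_hom I hg)
    ((pointData I (actPt I g u hu) (norm_actPt_lt I hg) hρ0' hρ1' huρ').V_hom.1) hp1 hp2

end data

end Crest.Agent.LT
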