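/-
S0351 T13: total evaluation of series over `R = k⟦y⟧` in the point and the argument, with first order
calculus.

`totS f`: the series in `(y, T)` of a series `f` in `T` over `R`.
`evalS (totS f) (Sum.elim v x) = evalS (map (evR v) f) x`.
-/
import Crest.Agent.Lib.LT.CoordLin
import Crest.Agent.Lib.LT.P3Hom
import Crest.Agent.Lib.LT.P3Point

set_option autoImplicit false
set_option linter.unusedSectionVars false
set_option linter.unusedVariables false
set_option linter.unnecessarySimpa false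

namespace Crest.Agent.LT

open MvPowerSeries Filter Topology Crest.LubinTate

section tot

variable {k : Type*} [Field k] [Finite k] {K : Type*} [NontriviallyNormedField K]
  [IsUltrametricDist K] [CompleteSpace K] [Algebra k K] {σ τ : Type*} [Fintype σ] [Fintype τ]

/-- The total series of a series over `k⟦y⟧`. -/
noncomputable def totS (f : MvPowerSeries τ (MvPowerSeries σ k)) : MvPowerSeries (σ ⊕ τ) K :=
  fun γ => algebraMap k K (coeff (Finsupp.sumFinsuppEquivProdFinsupp γ).1
    (coeff (Finsupp.sumFinsuppEquivProdFinsupp γ).2 f))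

omit [Fintype σ] [Fintype τ] [Finite k] [IsUltrametricDist K] [CompleteSpace K] in
lemma coeff_totS (f : MvPowerSeries τ (MvPowerSeries σ k)) (δ : σ →₀ ℕ) (γ : τ →₀ ℕ) :
    coeff (Finsupp.sumElim δ γ) (totS (K := K) f) = algebraMap k K (coeff δ (coeff γ f)) := by
  have h1 : Finsupp.sumFinsuppEquivProdFinsupp (Finsupp.sumElim δ γ) = (δ, γ) := by
    ext a
    · simp [Finsupp.sumFinsuppEquivProdFinsupp]
    · simp [Finsupp.sumFinsuppEquivProdFinsupp]
  show algebraMap k K _ = _
  rw [h1]

omit [IsUltrametricDist K] [CompleteSpace K] in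
lemma isB_totS (f : MvPowerSeries τ (MvPowerSeries σ k)) : IsB (1 : ℝ) 1 (totS (K := K) f) := fun γ => by
  simp only [one_pow, mul_one]
  exact norm_algebraMap_le_one _

omit [Fintype σ] [Fintype τ] [Finite k] [IsUltrametricDist K] [CompleteSpace K] in
lemma coeffB_totS (f : MvPowerSeries τ (MvPowerSeries σ k)) (γ : τ →₀ ℕ) :
    coeffB γ (totS (K := K) f) = MvPowerSeries.map (algebraMap k K) (coeff γ f) := by
  ext δ
  rw [coeff_coeffB, coeff_totS, coeff_map]

lemma peval_totS (f : MvPowerSeries τ (MvPowerSeries σ k)) (v : σ → K) (hv : ∀ i, ‖v i‖ < 1) :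
    peval v (totS (K := K) f) = MvPowerSeries.map (evR v hv) f := by
  ext γ
  rw [coeff_peval, coeff_map, coeffB_totS]
  rfl

/-- Fubini for total series. -/
lemma evalS_totS (f : MvPowerSeries τ (MvPowerSeries σ k)) {v : σ → K} (hv : ∀ i, ‖v i‖ < 1)
    {x : τ → K} (hx : ∀ i, ‖x i‖ < 1) :
    evalS (totS (K := K) f) (Sum.elim v x) = evalS (MvPowerSeries.map (evR v hv) f) x := by
  rw [← peval_totS f v hv, evalS_peval one_pos (isB_totS f) hv hx]

omit [Finite k] [IsUltrametricDist K] [CompleteSpace K] [Algebra k K] in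
lemma norm_elim_lt {v : σ → K} (hv : ∀ i, ‖v i‖ < 1) {x : τ → K} (hx : ∀ i, ‖x i‖ < 1) :
    ∀ i, ‖Sum.elim v x i‖ < 1 := by
  rintro (i | i)
  · exact hv i
  · exact hx i

/-- Taylor coefficients of a bounded series at an interior point. -/
noncomputable def dS (g : MvPowerSeries σ K) (z : σ → K) : σ → K :=
  fun i => evalS (hasse (Finsupp.single i 1) g) z

omit [Finite k] [Algebra k K] in
lemma linAt_evalS {g : MvPowerSeries σ K} {ε C : ℝ} (hε : 0 < ε) (hg : IsB ε C g) {z : σ → K}
    (hz : ∀ i, ‖z i‖ < ε) : LinAt (evalS g) z (dS g z) := by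
  refine ⟨shift z g, ε, C, hε, hg.shift hε fun i => (hz i).le, fun i => rfl, fun w hw => ?_⟩
  rw [evalS_shift hε hg hz hw]
  rfl

/-- The derivative of a series over `R` in the direction of `y_k`, at the point `y`. -/
noncomputable def δR (y : σ → K) (i : σ) (r : MvPowerSeries σ k) : K :=
  evalS (hasse (Finsupp.single i 1) (MvPowerSeries.map (algebraMap k K) r)) y

/-- Coefficientwise derivative of `f` in the direction `y_i` at the point `y`. -/
noncomputable def dvS (y : σ → K) (i : σ) (f : MvPowerSeries τ (MvPowerSeries σ k)) : MvPowerSeries τ K :=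
  fun γ => δR y i (coeff γ f)

omit [IsUltrametricDist K] [CompleteSpace K] in
lemma coeff_dvS (y : σ → K) (i : σ) (f : MvPowerSeries τ (MvPowerSeries σ k)) (γ : τ →₀ ℕ) :
    coeff γ (dvS y i f) = δR y i (coeff γ f) := rfl

lemma norm_δR_le {y : σ → K} (hy : ∀ i, ‖y i‖ < 1) (i : σ) (r : MvPowerSeries σ k) :
    ‖δR y i r‖ ≤ 1 := by
  have h := ((isB_map_algebraMap (K := K) r).shift one_pos (z := y) fun i => (hy i).le)
    (Finsupp.single i 1)
  simpa [coeff_shift, δR] using h

lemma isB_dvS {y : σ → K} (hy : ∀ i, ‖y i‖ < 1) (i : σ) (f : MvPowerSeries τ (MvPowerSeries σ k)) :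
    IsB (1 : ℝ) 1 (dvS y i f) := fun γ => by
  simpa [coeff_dvS] using norm_δR_le hy i (coeff γ f)

omit [Finite k] [IsUltrametricDist K] [CompleteSpace K] in
lemma mchoose_sumElim (a δ : σ →₀ ℕ) (b : τ →₀ ℕ) :
    mchoose (Finsupp.sumElim a b) (Finsupp.sumElim δ 0) = mchoose a δ := by
  simp [mchoose, Fintype.prod_sum_type]

/-- The derivative in the direction of `y_i` of the total series is the total form of `dvS`. -/
lemma dS_totS_inl (f : MvPowerSeries τ (MvPowerSeries σ k)) {y : σ → K} (hy : ∀ i, ‖y i‖ < 1)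
    {x : τ → K} (hx : ∀ i, ‖x i‖ < 1) (i : σ) :
    dS (totS (K := K) f) (Sum.elim y x) (Sum.inl i) = evalS (dvS y i f) x := by
  classical
  have hH : IsB (1 : ℝ) 1 (hasse (Finsupp.single (Sum.inl i) 1) (totS (K := K) f)) := by
    simpa using (isB_totS (K := K) f).hasse one_pos (Finsupp.single (Sum.inl i : σ ⊕ τ) 1)
  show evalS _ _ = _
  rw [← evalS_peval one_pos hH hy hx]
  congr 1
  ext γ
  rw [coeff_peval, coeff_dvS, δR]
  congr 1
  ext δ
  rw [coeff_coeffB, coeff_hasse, coeff_hasse, coeff_map]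
  have e : Finsupp.sumElim δ γ + Finsupp.single (Sum.inl i : σ ⊕ τ) 1 =
      Finsupp.sumElim (δ + Finsupp.single i 1) γ := by
    ext (a | b) <;> simp [Finsupp.single_apply]
  have e2 : (Finsupp.single (Sum.inl i : σ ⊕ τ) 1 : σ ⊕ τ →₀ ℕ) =
      Finsupp.sumElim (Finsupp.single i 1) 0 := by
    ext (a | b) <;> simp [Finsupp.single_apply]
  rw [e, coeff_totS, e2, mchoose_sumElim]

omit [Finite k] [Algebra k K] in
lemma norm_pi_zero_lt {ζ : Type*} : ∀ i : ζ, ‖(0 : ζ → K) i‖ < 1 := fun i => by simp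

lemma dS_totS_inr (f : MvPowerSeries τ (MvPowerSeries σ k)) {y : σ → K} (hy : ∀ i, ‖y i‖ < 1)
    {x : τ → K} (hx : ∀ i, ‖x i‖ < 1) (c : τ) :
    dS (totS (K := K) f) (Sum.elim y x) (Sum.inr c) = dS (MvPowerSeries.map (evR y hy) f) x c := by
  classical
  have h1 : LinAt (fun z : τ → K => evalS (totS (K := K) f) (fun i => Sum.elim (fun a _ => y a) (fun b z => z b) i z)) x
      (fun j => ∑ i, dS (totS (K := K) f) (Sum.elim y x) i *
        Sum.elim (fun _ _ => (0 : K)) (fun b j => if j = b then 1 else 0) i j) := by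
    refine LinAt.comp (τ := σ ⊕ τ) (G := fun i => Sum.elim (fun a (_ : τ → K) => y a) (fun b z => z b) i) ?_ ?_
    · rintro (a | b)
      · simpa [Pi.zero_def] using linAt_const (y a) x
      · exact linAt_coord b x
    · have e : (fun i => Sum.elim (fun a (_ : τ → K) => y a) (fun b z => z b) i x) = Sum.elim y x := by
        funext i; rcases i with a | b <;> rfl
      rw [e]
      exact linAt_evalS one_pos (isB_totS f) (norm_elim_lt hy hx)
  have hmap : IsB (1 : ℝ) 1 (MvPowerSeries.map (evR y hy) f) := fun γ => by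
    simpa [coeff_map] using norm_evR_le_one (hu := hy) (coeff γ f)
  have h2 : LinAt (evalS (MvPowerSeries.map (evR y hy) f)) x (dS (MvPowerSeries.map (evR y hy) f) x) :=
    linAt_evalS one_pos hmap hx
  obtain ⟨ρ, hρ0, hρ1, hρ⟩ := exists_radius one_pos hx
  have h3 : LinAt (evalS (MvPowerSeries.map (evR y hy) f)) x
      (fun j => ∑ i, dS (totS (K := K) f) (Sum.elim y x) i *
        Sum.elim (fun _ _ => (0 : K)) (fun b j => if j = b then 1 else 0) i j) := by
    refine h1.congr (sub_pos.2 hρ1) fun z hz => ?_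
    have hz1 : ∀ i, ‖z i‖ < 1 := fun i => by
      have e : z i = (z i - x i) + x i := by ring
      rw [e]
      refine (IsUltrametricDist.norm_add_le_max _ _).trans_lt (max_lt ?_ (hx i))
      have := hz i
      linarith [hρ i, norm_nonneg (x i)]
    have e : (fun i => Sum.elim (fun a (_ : τ → K) => y a) (fun b z => z b) i z) = Sum.elim y z := by
      funext i; rcases i with a | b <;> rfl
    show _ = evalS (totS (K := K) f) (fun i => Sum.elim (fun a (_ : τ → K) => y a) (fun b z => z b) i z)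
    rw [e, evalS_totS f hy hz1]
  have h4 := congrFun (h2.unique h3) c
  rw [h4, Fintype.sum_sum_type]
  simp

/-- **Chain rule for total series.** -/
theorem linAt_totS {ζ : Type*} [Fintype ζ] (f : MvPowerSeries τ (MvPowerSeries σ k)) {v : (ζ → K) → σ → K}
    {x : (ζ → K) → τ → K} {a : ζ → K} {Lv : σ → ζ → K} {Lx : τ → ζ → K}
    (hv : ∀ i, LinAt (fun z => v z i) a (Lv i)) (hx : ∀ c, LinAt (fun z => x z c) a (Lx c))
    (hv1 : ∀ i, ‖v a i‖ < 1) (hx1 : ∀ c, ‖x a c‖ < 1) :
    LinAt (fun z => evalS (totS (K := K) f) (Sum.elim (v z) (x z))) a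
      (fun j => (∑ i, evalS (dvS (v a) i f) (x a) * Lv i j) +
        ∑ c, dS (MvPowerSeries.map (evR (v a) hv1) f) (x a) c * Lx c j) := by
  classical
  have h1 := LinAt.comp (τ := σ ⊕ τ) (f := evalS (totS (K := K) f))
    (G := fun i => Sum.elim (fun i z => v z i) (fun c z => x z c) i) (a := a)
    (L := Sum.elim Lv Lx) (M := dS (totS (K := K) f) (Sum.elim (v a) (x a))) (by
      rintro (i | c)
      · exact hv i
      · exact hx c) (by
      have e : (fun i => Sum.elim (fun i z => v z i) (fun c z => x z c) i a) = Sum.elim (v a) (x a) := by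
        funext i; rcases i with i | c <;> rfl
      rw [e]
      exact linAt_evalS one_pos (isB_totS f) (norm_elim_lt hv1 hx1))
  have e : ∀ z, (fun i => Sum.elim (fun i z => v z i) (fun c z => x z c) i z) = Sum.elim (v z) (x z) := by
    intro z
    funext i; rcases i with i | c <;> rfl
  simp only [e] at h1
  convert h1 using 2 with j
  rw [Fintype.sum_sum_type]
  congr 1
  · refine Finset.sum_congr rfl fun i _ => ?_
    simp only [Sum.elim_inl]
    rw [dS_totS_inl f hv1 hx1]
  · refine Finset.sum_congr rfl fun c _ => ?_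
    simp only [Sum.elim_inr]
    rw [dS_totS_inr f hv1 hx1]

end tot

section derivation

variable (p : ℕ) [Fact p.Prime] {k : Type*} [Field k] [Finite k] {K : Type*} [NontriviallyNormedField K]
  [IsUltrametricDist K] [CompleteSpace K] [Algebra k K] [CharP K p] {σ τ : Type*} [Fintype σ] [Fintype τ]

/-- `δR` of a `p`-th power vanishes. -/
lemma δR_pow {y : σ → K} (hy : ∀ i, ‖y i‖ < 1) (i : σ) (r : MvPowerSeries σ k) {n : ℕ} (hn : p ∣ n) :
    δR y i (r ^ n) = 0 := by
  classical
  have h1 : LinAt (evalS (MvPowerSeries.map (algebraMap k K) r)) y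
      (dS (MvPowerSeries.map (algebraMap k K) r) y) :=
    linAt_evalS one_pos (isB_map_algebraMap r) hy
  have h2 := h1.pow_char p hn
  have h3 : LinAt (evalS (MvPowerSeries.map (algebraMap k K) (r ^ n))) y
      (dS (MvPowerSeries.map (algebraMap k K) (r ^ n)) y) :=
    linAt_evalS one_pos (isB_map_algebraMap _) hy
  obtain ⟨ρ, hρ0, hρ1, hρ⟩ := exists_radius one_pos hy
  have h4 : LinAt (evalS (MvPowerSeries.map (algebraMap k K) (r ^ n))) y 0 := by
    refine h2.congr (sub_pos.2 hρ1) fun z hz => ?_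
    have hz1 : ∀ i, ‖z i‖ < 1 := fun i => by
      have e : z i = (z i - y i) + y i := by ring
      rw [e]
      refine (IsUltrametricDist.norm_add_le_max _ _).trans_lt (max_lt ?_ (hy i))
      have := hz i
      linarith [hρ i, norm_nonneg (y i)]
    rw [map_pow]
    exact evalS_pow one_pos (isB_map_algebraMap r) hz1 n
  exact congrFun (h3.unique h4) i

end derivation

section one

variable {k : Type*} [Field k] [Finite k] {K : Type*} [NontriviallyNormedField K]
  [IsUltrametricDist K] [CompleteSpace K] [Algebra k K] {σ : Type*} [Fintype σ]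

/-- Total evaluation of a one-variable series over `k⟦y⟧`. -/
noncomputable def evT (f : PowerSeries (MvPowerSeries σ k)) (v : σ → K) (x : K) : K :=
  evalS (totS (K := K) (τ := Unit) f) (Sum.elim v fun _ => x)

lemma evT_eq (f : PowerSeries (MvPowerSeries σ k)) {v : σ → K} (hv : ∀ i, ‖v i‖ < 1) {x : K} (hx : ‖x‖ < 1) :
    evT f v x = ev (PowerSeries.map (evR v hv) f) x :=
  evalS_totS (τ := Unit) f hv (x := fun _ => x) (fun _ => hx)

/-- Total evaluation of a law over `k⟦y⟧`. -/
noncomputable def evTL (F : FormalGroup (MvPowerSeries σ k)) (v : σ → K) (x y : K) : K :=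
  evalS (totS (K := K) (τ := Fin 2) F.toPowerSeries) (Sum.elim v ![x, y])

lemma evTL_eq (F : FormalGroup (MvPowerSeries σ k)) {v : σ → K} (hv : ∀ i, ‖v i‖ < 1) {x y : K} (hx : ‖x‖ < 1)
    (hy : ‖y‖ < 1) : evTL F v x y = ptAdd (F.map (evR v hv)) x y :=
  evalS_totS (τ := Fin 2) F.toPowerSeries hv (x := ![x, y]) (norm_pair_lt hx hy)

/-- Coefficientwise `y_i`-derivative of a one-variable series over `k⟦y⟧` at the point `y`. -/
noncomputable def dvT (y : σ → K) (i : σ) (f : PowerSeries (MvPowerSeries σ k)) : PowerSeries K :=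
  dvS (τ := Unit) y i f

omit [IsUltrametricDist K] [CompleteSpace K] in
lemma coeff_dvT (y : σ → K) (i : σ) (f : PowerSeries (MvPowerSeries σ k)) (m : ℕ) :
    PowerSeries.coeff m (dvT y i f) = δR y i (PowerSeries.coeff m f) := rfl

lemma isInt_dvT {y : σ → K} (hy : ∀ i, ‖y i‖ < 1) (i : σ) (f : PowerSeries (MvPowerSeries σ k)) :
    IsInt (dvT y i f) := fun m => by
  rw [coeff_dvT]
  exact norm_δR_le hy i _

/-- The `T`-derivative of a one-variable series at a point: the value of its Hasse derivative. -/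
noncomputable def der (f : PowerSeries K) (x : K) : K :=
  dS (σ := Unit) f (fun _ => x) ()

lemma IsInt.linAt {f : PowerSeries K} (hf : IsInt f) {x : K} (hx : ‖x‖ < 1) :
    LinAt (fun z : Unit → K => ev f (z ())) (fun _ => x) (fun _ => der f x) := by
  have h := linAt_evalS (σ := Unit) one_pos hf.isB (z := fun _ => x) (fun _ => hx)
  refine ⟨shift (fun _ => x) f, 1, 1, one_pos, hf.isB.shift one_pos fun _ => hx.le, fun i => rfl, fun w hw => ?_⟩
  rw [evalS_shift one_pos hf.isB (fun _ => hx) hw]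
  rfl

/-- Chain rule for evaluation at an integral one-variable series. -/
lemma linAt_ev {ζ : Type*} [Fintype ζ] {f : PowerSeries K} (hf : IsInt f) {x : (ζ → K) → K} {a : ζ → K}
    {L : ζ → K} (hx : LinAt x a L) (hx1 : ‖x a‖ < 1) :
    LinAt (fun z => ev f (x z)) a (fun j => der f (x a) * L j) := by
  have h := LinAt.comp (τ := Unit) (f := fun z : Unit → K => ev f (z ()))
    (G := fun _ => x) (L := fun _ => L) (M := fun _ => der f (x a)) (fun _ => hx) (hf.linAt hx1)
  simpa using h

/-- Chain rule for `evT`. -/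
theorem linAt_evT {ζ : Type*} [Fintype ζ] (f : PowerSeries (MvPowerSeries σ k)) {v : (ζ → K) → σ → K}
    {x : (ζ → K) → K} {a : ζ → K} {Lv : σ → ζ → K} {Lx : ζ → K}
    (hv : ∀ i, LinAt (fun z => v z i) a (Lv i)) (hx : LinAt x a Lx)
    (hv1 : ∀ i, ‖v a i‖ < 1) (hx1 : ‖x a‖ < 1) :
    LinAt (fun z => evT f (v z) (x z)) a
      (fun j => (∑ i, ev (dvT (v a) i f) (x a) * Lv i j) +
        der (PowerSeries.map (evR (v a) hv1) f) (x a) * Lx j) := by
  have h := linAt_totS (τ := Unit) f (v := v) (x := fun z _ => x z) (Lv := Lv) (Lx := fun _ => Lx)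
    hv (fun _ => hx) hv1 (fun _ => hx1)
  show LinAt (fun z => evalS (totS (K := K) (τ := Unit) f) (Sum.elim (v z) fun _ => x z)) a _
  convert h using 2 with j
  rw [Fintype.sum_unique (ι := Unit)]
  rfl

/-- Chain rule for `evTL`. -/
theorem linAt_evTL {ζ : Type*} [Fintype ζ] (F : FormalGroup (MvPowerSeries σ k)) {v : (ζ → K) → σ → K}
    {x x' : (ζ → K) → K} {a : ζ → K} {Lv : σ → ζ → K} {Lx Lx' : ζ → K}
    (hv : ∀ i, LinAt (fun z => v z i) a (Lv i)) (hx : LinAt x a Lx) (hx' : LinAt x' a Lx')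
    (hv1 : ∀ i, ‖v a i‖ < 1) (hx1 : ‖x a‖ < 1) (hx1' : ‖x' a‖ < 1) :
    LinAt (fun z => evTL F (v z) (x z) (x' z)) a
      (fun j => (∑ i, evalS (dvS (v a) i F.toPowerSeries) ![x a, x' a] * Lv i j) +
        (dS (MvPowerSeries.map (evR (v a) hv1) F.toPowerSeries) ![x a, x' a] 0 * Lx j +
         dS (MvPowerSeries.map (evR (v a) hv1) F.toPowerSeries) ![x a, x' a] 1 * Lx' j)) := by
  have h := linAt_totS (τ := Fin 2) F.toPowerSeries (v := v) (x := fun z => ![x z, x' z]) (Lv := Lv)
    (Lx := ![Lx, Lx']) hv (fun c => by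
      fin_cases c
      · exact hx
      · exact hx') hv1 (by
      intro c
      fin_cases c
      · exact hx1
      · exact hx1')
  have e : ∀ z, evTL F (v z) (x z) (x' z) = evalS (totS (K := K) F.toPowerSeries) (Sum.elim (v z) ![x z, x' z]) :=
    fun z => rfl
  simp only [e]
  simpa [Fin.sum_univ_two] using h

end one

end Crest.Agent.LT
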