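/-
S0351 T13: definitions shared by the pieces of §E5. Levels of `V`, `F` over `R`, the chain of `V`s in
total evaluation, branch data.
-/
import Crest.Agent.Lib.LT.CoordPt

set_option autoImplicit false
set_option linter.unusedSectionVars false
set_option linter.unusedVariables false
set_option linter.unnecessarySimpa false

namespace Crest.Agent.LT

open MvPowerSeries Filter Topology Crest.LubinTate

section levels

variable {p : ℕ} [Fact p.Prime] {n h d : ℕ} (I : CharPInput p n h d)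

/-- `V^[m]` over `R`. -/
noncomputable def VR (m : ℕ) : PowerSeries (RR p n d) :=
  PowerSeries.map (iterateFrobenius (RR p n d) p (m * h)) I.V

/-- `F^[m]` over `R`. -/
noncomputable def FR (m : ℕ) : FormalGroup (RR p n d) :=
  I.F.map (iterateFrobenius (RR p n d) p (m * h))

variable {K : Type*} [NontriviallyNormedField K] [IsUltrametricDist K] [CompleteSpace K] [CharP K p]
  [PerfectRing K p] [Algebra (GaloisField p n) K]

/-- The chain `V_v^[m] ∘ ⋯ ∘ V_v^[m+i-1]` in total evaluation. -/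
noncomputable def chT (v : Fin d → K) : ℕ → ℕ → K → K
  | _, 0, x => x
  | m, i + 1, x => evT (VR I m) v (chT v (m + 1) i x)

lemma chT_zero (v : Fin d → K) (m : ℕ) (x : K) : chT I v m 0 x = x := rfl

lemma chT_succ (v : Fin d → K) (m i : ℕ) (x : K) :
    chT I v m (i + 1) x = evT (VR I m) v (chT I v (m + 1) i x) := rfl

variable {v : Fin d → K} {hv : ∀ i, ‖v i‖ < 1} {ρ : ℝ} {hρ0 : 0 ≤ ρ} {hρ1 : ρ < 1} {hvρ : ∀ i, ‖v i‖ ≤ ρ}

lemma map_evP_VR (m : ℕ) : PowerSeries.map (evP p n v hv) (VR I m) = (pointData I v hv hρ0 hρ1 hvρ).Vj m := by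
  ext i
  rw [PowerSeries.coeff_map, VR, PowerSeries.coeff_map, iterateFrobenius_def, map_pow,
    TowerData.Vj, coeff_tw, pointData_V, PowerSeries.coeff_map]

lemma map_evP_FR (m : ℕ) : (FR I m).map (evP p n v hv) = (pointData I v hv hρ0 hρ1 hvρ).Fj m := by
  rw [FR, fg_map_map, TowerData.Fj, pointData_F, twL, fg_map_map, fr_comm_map]

lemma chT_eq (m i : ℕ) {x : K} (hx : ‖x‖ < 1) :
    chT I v m i x = (pointData I v hv hρ0 hρ1 hvρ).chain m i x := by
  induction i generalizing m with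
  | zero => rfl
  | succ i ih =>
    rw [chT_succ, TowerData.chain_succ, ih (m + 1), evT_eq _ hv
      ((pointData I v hv hρ0 hρ1 hvρ).norm_chain_lt _ _ hx), map_evP_VR]

end levels

/-- The branches `w_l` of the equation `chain_v(T) = 0` at `(y, x_l)`. -/
structure BranchData {p : ℕ} [Fact p.Prime] {n h d : ℕ} (I : CharPInput p n h d)
    {K : Type*} [NontriviallyNormedField K] [IsUltrametricDist K] [CompleteSpace K] [CharP K p]
    [PerfectRing K p] [Algebra (GaloisField p n) K] (y : Fin d → K) (j : ℕ) (x : Fin d → K) where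
  /-- the branch -/
  w : Fin d → (Fin d → K) → K
  /-- radius in `v` -/
  r₀ : ℝ
  /-- radius in `T` -/
  η₀ : ℝ
  r₀_pos : 0 < r₀
  η₀_pos : 0 < η₀
  η₀_lt : ∀ l, η₀ < 1 ∧ ‖x l‖ < 1
  w_y : ∀ l, w l y = x l
  w_an : ∀ l, AnAt (w l) y
  w_close : ∀ l v, (∀ i, ‖v i - y i‖ < r₀) → ‖w l v - x l‖ ≤ η₀
  w_root : ∀ l v, (∀ i, ‖v i - y i‖ < r₀) → chT I v 0 j (w l v) = 0
  w_uniq : ∀ l v t, (∀ i, ‖v i - y i‖ < r₀) → ‖t - x l‖ ≤ η₀ → chT I v 0 j t = 0 → t = w l v

end Crest.Agent.LT
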