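/-
Second order Taylor expansion of bounded series (helper for D4; T9).
-/
import Crest.Agent.Lib.LT.Eval

set_option autoImplicit false
set_option linter.unusedSectionVars false
set_option linter.unusedVariables false
set_option linter.unnecessarySimpa false
set_option linter.unusedSimpArgs false

namespace Crest.Agent.LT

open Filter Topology

/-! ### Second order Taylor expansion of bounded series -/

section taylor

variable {K : Type*} [NontriviallyNormedField K] [IsUltrametricDist K] [CompleteSpace K]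
  {σ : Type*} [Fintype σ]

lemma exists_single_of_degree_eq_one (γ : σ →₀ ℕ) (h : Finsupp.degree γ = 1) :
    ∃ b, γ = Finsupp.single b 1 := by
  classical
  rw [degree_eq_sum] at h
  obtain ⟨b, hb⟩ : ∃ b, γ b ≠ 0 := by
    by_contra hcon
    push Not at hcon
    simp [hcon] at h
  refine ⟨b, ?_⟩
  have h1 : γ b = 1 ∧ ∀ i, i ≠ b → γ i = 0 := by
    have hsplit := Finset.add_sum_erase Finset.univ (fun i => γ i) (Finset.mem_univ b)
    rw [h] at hsplit
    have hb1 : γ b = 1 := by omega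
    refine ⟨hb1, fun i hi => ?_⟩
    have h2 : ∑ x ∈ Finset.univ.erase b, γ x = 0 := by omega
    exact (Finset.sum_eq_zero_iff.mp h2) i (Finset.mem_erase.mpr ⟨hi, Finset.mem_univ _⟩)
  ext i
  by_cases hi : i = b
  · subst hi; simp [h1.1]
  · simp [Finsupp.single_apply, Ne.symm hi, h1.2 i hi]

/-- Quadratic Taylor remainder. -/
theorem taylor2 {f : MvPowerSeries σ K} {ε C δ : ℝ} (hε : 0 < ε) (hf : IsB ε C f) {y D : σ → K}
    (hy : ∀ i, ‖y i‖ < ε) (hδ0 : 0 ≤ δ) (hδ : δ < ε) (hD : ∀ i, ‖D i‖ ≤ δ) :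
    ‖evalS f (y + D) - evalS f y -
        ∑ b, evalS (hasse (Finsupp.single b 1) f) y * D b‖ ≤ C * (δ / ε) ^ 2 := by
  classical
  have hC := hf.nonneg hε.le
  have hg := hf.shift hε (fun i => (hy i).le)
  have hD' : ∀ i, ‖D i‖ < ε := fun i => (hD i).trans_lt hδ
  rw [← evalS_shift hε hf hy hD']
  set g := shift y f with hgdef
  have hsum := summable_eval hε hδ0 hδ hg hD
  set Λ : Finset (σ →₀ ℕ) := insert 0 (Finset.univ.image fun b => Finsupp.single b 1) with hΛ
  have h0 : (0 : σ →₀ ℕ) ∉ Finset.univ.image (fun b : σ => (Finsupp.single b 1 : σ →₀ ℕ)) := by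
    simp only [Finset.mem_image, Finset.mem_univ, true_and, not_exists]
    intro b h
    have := DFunLike.congr_fun h b
    simp at this
  have hinj : Function.Injective (fun b : σ => (Finsupp.single b 1 : σ →₀ ℕ)) := by
    intro b b' h
    have := DFunLike.congr_fun h b'
    by_contra hne
    simp [Finsupp.single_apply, hne] at this
  have hΛsum : ∑ γ ∈ Λ, MvPowerSeries.coeff γ g * mval D γ =
      evalS f y + ∑ b, evalS (hasse (Finsupp.single b 1) f) y * D b := by
    rw [hΛ, Finset.sum_insert h0, Finset.sum_image (fun _ _ _ _ h => hinj h)]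
    congr 1
    · rw [mval_zero, mul_one, hgdef, coeff_shift, hasse_zero]
    · refine Finset.sum_congr rfl fun b _ => ?_
      rw [hgdef, coeff_shift]
      congr 1
      rw [mval, Finset.prod_eq_single b]
      · simp
      · intro i _ hi
        simp [Finsupp.single_apply, hi.symm]
      · simp
  have hsplit := hsum.sum_add_tsum_compl (s := Λ)
  have hE : evalS g D = ∑ γ ∈ Λ, MvPowerSeries.coeff γ g * mval D γ +
      ∑' γ : ((Λ : Set (σ →₀ ℕ))ᶜ : Set (σ →₀ ℕ)), MvPowerSeries.coeff γ.1 g * mval D γ.1 :=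
    hsplit.symm
  have hrat0 : 0 ≤ δ / ε := by positivity
  have hrat1 : δ / ε ≤ 1 := (div_le_one hε).mpr hδ.le
  rw [hE, hΛsum]
  have : evalS f y + ∑ b, evalS (hasse (Finsupp.single b 1) f) y * D b +
      ∑' γ : ((Λ : Set (σ →₀ ℕ))ᶜ : Set (σ →₀ ℕ)), MvPowerSeries.coeff γ.1 g * mval D γ.1 -
      evalS f y - ∑ b, evalS (hasse (Finsupp.single b 1) f) y * D b =
      ∑' γ : ((Λ : Set (σ →₀ ℕ))ᶜ : Set (σ →₀ ℕ)), MvPowerSeries.coeff γ.1 g * mval D γ.1 := by
    ring
  rw [this]
  refine IsUltrametricDist.norm_tsum_le_of_forall_le_of_nonneg (by positivity) fun γ => ?_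
  have hγ : γ.1 ∉ Λ := fun h => γ.2 (Finset.mem_coe.mpr h)
  have hdeg : 2 ≤ Finsupp.degree γ.1 := by
    by_contra hlt
    have h1 : Finsupp.degree γ.1 = 0 ∨ Finsupp.degree γ.1 = 1 := by omega
    rcases h1 with h1 | h1
    · have : γ.1 = 0 := (Finsupp.degree_eq_zero_iff _).mp h1
      exact hγ (by rw [this, hΛ]; exact Finset.mem_insert_self _ _)
    · obtain ⟨b, hb⟩ := exists_single_of_degree_eq_one γ.1 h1
      exact hγ (by
        rw [hb, hΛ]
        exact Finset.mem_insert_of_mem (Finset.mem_image.mpr ⟨b, Finset.mem_univ _, rfl⟩))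
  rw [norm_mul]
  have h1 := hg γ.1
  have h2 := norm_mval_le hδ0 hD γ.1
  have hεd : 0 < ε ^ Finsupp.degree γ.1 := pow_pos hε _
  calc ‖MvPowerSeries.coeff γ.1 g‖ * ‖mval D γ.1‖
      ≤ ‖MvPowerSeries.coeff γ.1 g‖ * δ ^ Finsupp.degree γ.1 := by gcongr
    _ = (‖MvPowerSeries.coeff γ.1 g‖ * ε ^ Finsupp.degree γ.1) * (δ / ε) ^ Finsupp.degree γ.1 := by
        rw [div_pow]
        field_simp
    _ ≤ C * (δ / ε) ^ 2 := by
        refine mul_le_mul h1 (pow_le_pow_of_le_one hrat0 hrat1 hdeg) (by positivity) hC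

end taylor

end Crest.Agent.LT
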