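/-
E4, second half: digits of a truncated homomorphism of a Honda law. BLUEPRINT §E4.
`THom Γ N`: series `x` (points of `Γ`) with `x(s +_Γ A) ≡ x(s) +_Γ x(A)` modulo total degree `N`.
-/
import Crest.Agent.Lib.LT.P3Hom
import Crest.Agent.Lib.LT.Honda
import Crest.Agent.Lib.LT.Frob
import Crest.Agent.Lib.LT.EvalOne

set_option autoImplicit false
set_option linter.unusedSectionVars false
set_option linter.unusedVariables false
set_option linter.unnecessarySimpa false

namespace Crest.Agent.LT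

open MvPowerSeries Crest.LubinTate

variable {K : Type*} [NontriviallyNormedField K] [IsUltrametricDist K] [CompleteSpace K]

section Fil

variable {τ υ : Type*} [Fintype τ] [Fintype υ] (Γ : FormalGroup K)

omit [IsUltrametricDist K] [CompleteSpace K] [Fintype τ] in
lemma cc_point (x : Γ.Point τ) : constantCoeff x.val = 0 := IsNilpotent.eq_zero x.prop

omit [IsUltrametricDist K] [CompleteSpace K] [Fintype τ] in
lemma hasSubst_of_cc' {a : MvPowerSeries τ K} (ha : constantCoeff a = 0) : PowerSeries.HasSubst a :=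
  PowerSeries.HasSubst.of_constantCoeff_zero ha

omit [CompleteSpace K] in
/-- `fgAdd` respects congruences. -/
lemma fgAdd_congO {a a' b b' : MvPowerSeries τ K} {N : ℕ} (ha : constantCoeff a = 0)
    (ha' : constantCoeff a' = 0) (hb : constantCoeff b = 0) (hb' : constantCoeff b' = 0)
    (h1 : CongO N a a') (h2 : CongO N b b') : CongO N (fgAdd Γ a b) (fgAdd Γ a' b') := by
  refine CongO.subst_right ?_ ?_ ?_ _
  · intro i; fin_cases i
    · exact ha
    · exact hb
  · intro i; fin_cases i
    · exact ha'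
    · exact hb'
  · intro i; fin_cases i
    · exact h1
    · exact h2

variable [Γ.IsComm]

/-- The filtration of the group of points by order. -/
def Fil (N : ℕ) : AddSubgroup (Γ.Point τ) where
  carrier := {y | OrdGe N y.val}
  add_mem' := by
    intro a b ha hb
    show OrdGe N (fgAdd Γ a.val b.val)
    have h := fgAdd_congO Γ (cc_point Γ a) (by simp) (cc_point Γ b) (by simp)
      (a' := 0) (b' := 0) (N := N) (congO_iff.mpr (by simpa using ha))
      (congO_iff.mpr (by simpa using hb))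
    have h0 : fgAdd Γ (0 : MvPowerSeries τ K) 0 = 0 :=
      fgAdd_zero Γ (hasSubst_of_cc' (by simp))
    rw [h0] at h
    simpa [congO_iff] using h
  zero_mem' := ordGe_zero N
  neg_mem' := by
    intro a ha
    show OrdGe N (fgNeg Γ a.val)
    have h : CongO N (fgNeg Γ a.val) (fgNeg Γ (0 : MvPowerSeries τ K)) := by
      refine CongO.subst_right (fun _ => cc_point Γ a) (fun _ => by simp) (fun _ => ?_) _
      exact congO_iff.mpr (by simpa using ha)
    have h0 : fgNeg Γ (0 : MvPowerSeries τ K) = 0 :=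
      PowerSeries.subst_zero_of_constantCoeff_zero (constantCoeff_fgInv Γ)
    rw [h0] at h
    simpa [congO_iff] using h

omit [CompleteSpace K] in
lemma mem_Fil {N : ℕ} {y : Γ.Point τ} : y ∈ Fil Γ N ↔ OrdGe N y.val := Iff.rfl

omit [CompleteSpace K] in
lemma point_add_val (a b : Γ.Point τ) : (a + b).val = fgAdd Γ a.val b.val := rfl

omit [CompleteSpace K] in
/-- Congruence of points is membership of the difference in the filtration. -/
lemma sub_mem_Fil_iff {N : ℕ} {a b : Γ.Point τ} : a - b ∈ Fil Γ N ↔ CongO N a.val b.val := by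
  constructor
  · intro h
    have h' : OrdGe N (a - b).val := h
    have h1 : CongO N (fgAdd Γ (a - b).val b.val) (fgAdd Γ (0 : MvPowerSeries τ K) b.val) :=
      fgAdd_congO Γ (cc_point Γ _) (by simp) (cc_point Γ _) (cc_point Γ _)
        (congO_iff.mpr (by simpa using h')) (fun _ _ => rfl)
    have h2 : fgAdd Γ (a - b).val b.val = a.val := by
      rw [← point_add_val, sub_add_cancel]
    have h3 : fgAdd Γ (0 : MvPowerSeries τ K) b.val = b.val := zero_fgAdd Γ b.prop
    rwa [h2, h3] at h1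
  · intro h
    have h1 : CongO N (fgAdd Γ a.val (-b).val) (fgAdd Γ b.val (-b).val) :=
      fgAdd_congO Γ (cc_point Γ _) (cc_point Γ _) (cc_point Γ _) (cc_point Γ _) h (fun _ _ => rfl)
    have h2 : fgAdd Γ a.val (-b).val = (a - b).val := by
      rw [← point_add_val, sub_eq_add_neg]
    have h3 : fgAdd Γ b.val (-b).val = 0 := by
      rw [← point_add_val, add_neg_cancel]; rfl
    rw [h2, h3] at h1
    show OrdGe N (a - b).val
    simpa [congO_iff] using h1

/-- Substitution as a group homomorphism of points. -/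
noncomputable def substPt (c : τ → MvPowerSeries υ K) (hc : ∀ i, constantCoeff (c i) = 0) :
    Γ.Point τ →+ Γ.Point υ where
  toFun x := ⟨x.val.subst c, hasSubst_of_cc' (by rw [constantCoeff_subst_of_zero hc, cc_point])⟩
  map_zero' := Subtype.ext (by
    show (0 : MvPowerSeries τ K).subst c = 0
    rw [← coe_substAlgHom (hasSubst_of_zero hc), map_zero])
  map_add' x y := Subtype.ext (subst_fgAdd Γ x.prop y.prop (hasSubst_of_zero hc))

omit [CompleteSpace K] in
@[simp] lemma substPt_val (c : τ → MvPowerSeries υ K) (hc : ∀ i, constantCoeff (c i) = 0)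
    (x : Γ.Point τ) : (substPt Γ c hc x).val = x.val.subst c := rfl

section thom

variable [DecidableEq τ]

/-- `s +_Γ A`, coordinatewise. -/
noncomputable abbrev XsS : τ → MvPowerSeries (τ ⊕ τ) K := fun j => fgAdd Γ (X (Sum.inl j)) (X (Sum.inr j))

omit [CompleteSpace K] in
lemma XsS_cc (j : τ) : constantCoeff (XsS Γ j) = 0 :=
  constantCoeff_fgAdd_of Γ (by simp) (by simp)

omit [IsUltrametricDist K] [CompleteSpace K] in
lemma Xl_cc (j : τ) : constantCoeff (X (Sum.inl j) : MvPowerSeries (τ ⊕ τ) K) = 0 := by simp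
omit [IsUltrametricDist K] [CompleteSpace K] in
lemma Xr_cc (j : τ) : constantCoeff (X (Sum.inr j) : MvPowerSeries (τ ⊕ τ) K) = 0 := by simp

/-- The defect of additivity as a group homomorphism. -/
noncomputable def deltaHom : Γ.Point τ →+ Γ.Point (τ ⊕ τ) :=
  substPt Γ (XsS Γ) (XsS_cc Γ) -
    (substPt Γ (fun j => X (Sum.inl j)) (Xl_cc (K := K)) +
      substPt Γ (fun j => X (Sum.inr j)) (Xr_cc (K := K)))

/-- Truncated homomorphisms: `x(s +_Γ A) ≡ x(s) +_Γ x(A)` modulo total degree `N`. -/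
noncomputable def THom (N : ℕ) : AddSubgroup (Γ.Point τ) := (Fil Γ N).comap (deltaHom Γ)

omit [CompleteSpace K] in
lemma mem_THom {N : ℕ} {x : Γ.Point τ} : x ∈ THom Γ N ↔
    CongO N (x.val.subst (XsS Γ)) (fgAdd Γ (x.val.subst fun j => X (Sum.inl j))
      (x.val.subst fun j => X (Sum.inr j))) := by
  show deltaHom Γ x ∈ Fil Γ N ↔ _
  have : deltaHom Γ x = substPt Γ (XsS Γ) (XsS_cc Γ) x -
    (substPt Γ (fun j => X (Sum.inl j)) (Xl_cc (K := K)) x +
      substPt Γ (fun j => X (Sum.inr j)) (Xr_cc (K := K)) x) := rfl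
  rw [this, sub_mem_Fil_iff]
  rfl

omit [CompleteSpace K] in
/-- The hom identity with arbitrary substitution. -/
lemma THom.apply {N : ℕ} {x : Γ.Point τ} (hx : x ∈ THom Γ N) {a b : τ → MvPowerSeries υ K}
    (ha : ∀ i, constantCoeff (a i) = 0) (hb : ∀ i, constantCoeff (b i) = 0) :
    CongO N (x.val.subst fun j => fgAdd Γ (a j) (b j))
      (fgAdd Γ (x.val.subst a) (x.val.subst b)) := by
  classical
  set Ψ : τ ⊕ τ → MvPowerSeries υ K := Sum.elim a b with hΨ
  have hΨ0 : ∀ i, constantCoeff (Ψ i) = 0 := by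
    rintro (i | i)
    · exact ha i
    · exact hb i
  have hΨs := hasSubst_of_zero hΨ0
  have h := CongO.subst_left hΨ0 ((mem_THom Γ).mp hx)
  have hXs : MvPowerSeries.HasSubst (XsS Γ (τ := τ) (K := K)) := hasSubst_of_zero (XsS_cc Γ)
  have hXl : MvPowerSeries.HasSubst (fun j : τ => (X (Sum.inl j) : MvPowerSeries (τ ⊕ τ) K)) :=
    hasSubst_of_zero Xl_cc
  have hXr : MvPowerSeries.HasSubst (fun j : τ => (X (Sum.inr j) : MvPowerSeries (τ ⊕ τ) K)) :=
    hasSubst_of_zero Xr_cc
  rw [subst_comp_subst_apply hXs hΨs, subst_fgAdd Γ (hasSubst_of_cc' (by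
      rw [constantCoeff_subst_of_zero Xl_cc, cc_point])) (hasSubst_of_cc' (by
      rw [constantCoeff_subst_of_zero Xr_cc, cc_point])) hΨs,
    subst_comp_subst_apply hXl hΨs, subst_comp_subst_apply hXr hΨs] at h
  have e1 : (fun s => (XsS Γ s).subst Ψ) = fun j => fgAdd Γ (a j) (b j) := by
    funext j
    rw [XsS, subst_fgAdd Γ (hasSubst_X_i _) (hasSubst_X_i _) hΨs, subst_X hΨs, subst_X hΨs]
    rfl
  have e2 : (fun s : τ => (X (Sum.inl s) : MvPowerSeries (τ ⊕ τ) K).subst Ψ) = a := by
    funext j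
    rw [subst_X hΨs]
    rfl
  have e3 : (fun s : τ => (X (Sum.inr s) : MvPowerSeries (τ ⊕ τ) K).subst Ψ) = b := by
    funext j
    rw [subst_X hΨs]
    rfl
  rwa [e1, e2, e3] at h

/-- The tautological point `X j`. -/
noncomputable def ptXj (j : τ) : Γ.Point τ := ⟨X j, hasSubst_X_i j⟩

omit [CompleteSpace K] in
/-- A truncated homomorphism commutes with multiplication by `k`. -/
lemma THom.nsmul {N : ℕ} {x : Γ.Point τ} (hx : x ∈ THom Γ N) (k : ℕ) (hk : 1 ≤ k) :
    CongO N (x.val.subst fun j => (k • ptXj Γ j).val) (k • x).val := by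
  classical
  induction k, hk using Nat.le_induction with
  | base =>
    have h1 : (fun j : τ => (1 • ptXj Γ j).val) = (X : τ → MvPowerSeries τ K) := by
      funext j
      rw [one_nsmul]
      rfl
    have : x.val.subst (X : τ → MvPowerSeries τ K) = x.val := by
      rw [subst_self]; rfl
    rw [h1, this, one_nsmul]
    exact fun _ _ => rfl
  | succ k hk ih =>
    have h1 : (fun j : τ => ((k + 1) • ptXj Γ j).val) =
        fun j : τ => fgAdd Γ (k • ptXj Γ j).val (X j) := by
      funext j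
      rw [succ_nsmul]
      rfl
    have hcc : ∀ j : τ, constantCoeff (k • ptXj Γ j).val = 0 := fun j => cc_point Γ _
    rw [h1]
    have h2 := THom.apply Γ hx hcc (b := X) (fun j => by simp)
    have h3 : x.val.subst (X : τ → MvPowerSeries τ K) = x.val := by
      rw [subst_self]; rfl
    rw [h3] at h2
    have h4 : ((k + 1) • x).val = fgAdd Γ (k • x).val x.val := by
      rw [succ_nsmul]; rfl
    rw [h4]
    intro γ hγ
    rw [h2 γ hγ]
    exact fgAdd_congO Γ (by rw [constantCoeff_subst_of_zero hcc, cc_point]) (cc_point Γ _)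
      (cc_point Γ _) (cc_point Γ _) ih (fun _ _ => rfl) γ hγ

omit [CompleteSpace K] in
/-- **The coefficients of a truncated homomorphism lie in `F_q`** (below `N/q`),
when `[p]_Γ = X^(p^h)`. -/
lemma THom.coeff_pow (p : ℕ) [hp : Fact p.Prime] [CharP K p] {h : ℕ}
    (hmul : mulSeries Γ p = PowerSeries.X ^ (p ^ h)) {N : ℕ} {x : Γ.Point τ} (hx : x ∈ THom Γ N)
    (γ : τ →₀ ℕ) (hγ : p ^ h * Finsupp.degree γ < N) :
    (coeff γ x.val) ^ (p ^ h) = coeff γ x.val := by
  classical
  have hq : p ^ h ≠ 0 := pow_ne_zero h hp.out.ne_zero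
  have hp0 : p ≠ 0 := hp.out.ne_zero
  have h1 := THom.nsmul Γ hx p hp.out.one_le
  have h2 : (fun j : τ => (p • ptXj Γ j).val) = fun j : τ => (X j : MvPowerSeries τ K) ^ (p ^ h) := by
    funext j
    rw [← subst_mulSeries, hmul, PowerSeries.subst_pow (ptXj Γ j).prop,
      PowerSeries.subst_X (ptXj Γ j).prop]
    rfl
  have h3 : (p • x).val = x.val ^ (p ^ h) := by
    rw [← subst_mulSeries, hmul, PowerSeries.subst_pow x.prop, PowerSeries.subst_X x.prop]
  rw [h2, h3] at h1
  have h4 : x.val.subst (fun j : τ => (X j : MvPowerSeries τ K) ^ (p ^ h)) =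
      MvPowerSeries.expand (p ^ h) hq x.val := by
    rw [MvPowerSeries.expand, substAlgHom_apply]
  rw [h4] at h1
  have hdeg : Finsupp.degree (p ^ h • γ) < N := by
    rw [map_nsmul, smul_eq_mul]
    exact hγ
  have h5 := h1 _ hdeg
  rw [MvPowerSeries.coeff_expand_smul] at h5
  have h6 : coeff (p ^ h • γ) (x.val ^ p ^ h) = (coeff γ x.val) ^ p ^ h := by
    rw [← MvPowerSeries.map_iterateFrobenius_expand p hp0 x.val h, MvPowerSeries.coeff_map,
      MvPowerSeries.coeff_expand_smul, iterateFrobenius_def]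
  rw [← h6]
  exact h5.symm

end thom

section binom

variable {R : Type*} [CommRing R] {σ : Type*} [Fintype σ] [DecidableEq σ]

/-- Multi-binomial theorem in a commutative ring. -/
lemma prod_add_pow_eq (a b : σ → R) (δ : σ →₀ ℕ) :
    ∏ i, (a i + b i) ^ δ i = ∑ q ∈ Finset.HasAntidiagonal.antidiagonal δ,
      (mchoose δ q.2 : R) * (∏ i, a i ^ q.1 i) * ∏ i, b i ^ q.2 i := by
  classical
  have h1 : ∀ i, (a i + b i) ^ δ i = ∑ m ∈ Finset.HasAntidiagonal.antidiagonal (δ i),
      ((δ i).choose m.2 : R) * (a i ^ m.1 * b i ^ m.2) := by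
    intro i
    rw [add_pow, Finset.Nat.sum_antidiagonal_eq_sum_range_succ_mk]
    refine Finset.sum_congr rfl fun m hm => ?_
    have hm' : m ≤ δ i := by simpa [Nat.lt_succ_iff] using hm
    simp only []
    rw [Nat.choose_symm_of_eq_add (by omega : δ i = m + (δ i - m))]
    ring
  simp only [h1]
  rw [Finset.prod_univ_sum]
  refine Finset.sum_bij' (fun x _ => (Finsupp.equivFunOnFinite.symm (fun i => (x i).1),
      Finsupp.equivFunOnFinite.symm (fun i => (x i).2))) (fun q _ i => (q.1 i, q.2 i))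
      ?_ ?_ ?_ ?_ ?_
  · intro x hx
    rw [Finset.HasAntidiagonal.mem_antidiagonal]
    ext i
    have := Fintype.mem_piFinset.mp hx i
    simpa using Finset.HasAntidiagonal.mem_antidiagonal.mp this
  · intro q hq
    rw [Fintype.mem_piFinset]
    intro i
    rw [Finset.HasAntidiagonal.mem_antidiagonal]
    have := Finset.HasAntidiagonal.mem_antidiagonal.mp hq
    simpa using DFunLike.congr_fun this i
  · intro x hx; ext i <;> simp
  · intro q hq; ext i <;> simp
  · intro x hx
    simp only [mchoose, Finsupp.equivFunOnFinite_symm_apply_apply, Nat.cast_prod]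
    rw [← Finset.prod_mul_distrib, ← Finset.prod_mul_distrib]
    refine Finset.prod_congr rfl fun i _ => ?_
    ring

/-- Products of variables are monomials. -/
lemma prod_X_pow_inl_inr (a b : σ →₀ ℕ) :
    (∏ i, (X (Sum.inl i) : MvPowerSeries (σ ⊕ σ) R) ^ a i) * (∏ i, (X (Sum.inr i)) ^ b i) =
      monomial (Finsupp.sumElim a b) 1 := by
  classical
  have hgen : ∀ (f : σ → σ ⊕ σ) (c : σ →₀ ℕ) (s : Finset σ),
      (∏ i ∈ s, (X (f i) : MvPowerSeries (σ ⊕ σ) R) ^ c i) =
        monomial (∑ i ∈ s, Finsupp.single (f i) (c i)) 1 := by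
    intro f c s
    induction s using Finset.induction_on with
    | empty => simp [MvPowerSeries.monomial_zero_eq_C, map_one]
    | insert x s hx ih =>
      rw [Finset.prod_insert hx, Finset.sum_insert hx, ih, X_pow_eq, monomial_mul_monomial, one_mul]
  rw [hgen, hgen, monomial_mul_monomial, one_mul]
  have : ((∑ i, Finsupp.single (Sum.inl i : σ ⊕ σ) (a i)) + ∑ i, Finsupp.single (Sum.inr i) (b i)) =
      Finsupp.sumElim a b := by
    ext x
    rcases x with x | x
    · simp [Finsupp.single_apply]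
    · simp [Finsupp.single_apply]
  rw [this]

/-- Coefficient of `∏ (X_j + Y_j)^{d_j}`. -/
lemma coeff_prod_add (d α β : σ →₀ ℕ) :
    coeff (Finsupp.sumElim α β)
      (∏ i, ((X (Sum.inl i) : MvPowerSeries (σ ⊕ σ) R) + X (Sum.inr i)) ^ d i) =
      if α + β = d then (mchoose d β : R) else 0 := by
  classical
  rw [prod_add_pow_eq, map_sum]
  have hinj : ∀ a b : σ →₀ ℕ, Finsupp.sumElim a b = Finsupp.sumElim α β ↔ a = α ∧ b = β := by
    intro a b
    constructor
    · intro h
      constructor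
      · ext i; exact DFunLike.congr_fun h (Sum.inl i)
      · ext i; exact DFunLike.congr_fun h (Sum.inr i)
    · rintro ⟨rfl, rfl⟩; rfl
  have hterm : ∀ q : (σ →₀ ℕ) × (σ →₀ ℕ), coeff (Finsupp.sumElim α β)
      ((mchoose d q.2 : MvPowerSeries (σ ⊕ σ) R) *
        (∏ i, (X (Sum.inl i) : MvPowerSeries (σ ⊕ σ) R) ^ q.1 i) * ∏ i, (X (Sum.inr i)) ^ q.2 i) =
      if q = (α, β) then (mchoose d β : R) else 0 := by
    intro q
    rw [mul_assoc, prod_X_pow_inl_inr]
    have hc : (mchoose d q.2 : MvPowerSeries (σ ⊕ σ) R) = C (mchoose d q.2 : R) := by simp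
    rw [hc, coeff_C_mul, coeff_monomial]
    by_cases hq : q = (α, β)
    · subst hq; simp
    · have : Finsupp.sumElim α β ≠ Finsupp.sumElim q.1 q.2 := by
        intro h
        have := (hinj _ _).mp h.symm
        exact hq (Prod.ext this.1 this.2)
      simp [this, hq]
  simp only [hterm]
  rw [Finset.sum_ite_eq']
  simp [Finset.HasAntidiagonal.mem_antidiagonal]

end binom

section lowest

variable [DecidableEq τ]

omit [CompleteSpace K] in
/-- A substitution by the variables of the first group has no monomial involving the second. -/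
lemma coeff_subst_inl (f : MvPowerSeries τ K) (α β : τ →₀ ℕ) (hβ : β ≠ 0) :
    coeff (Finsupp.sumElim α β) (f.subst fun j : τ => (X (Sum.inl j) : MvPowerSeries (τ ⊕ τ) K)) = 0 := by
  classical
  rw [coeff_subst_eq_tsum Xl_cc]
  refine (tsum_congr fun d => ?_).trans tsum_zero
  have h : (∏ i, (X (Sum.inl i) : MvPowerSeries (τ ⊕ τ) K) ^ d i) =
      (∏ i, (X (Sum.inl i) : MvPowerSeries (τ ⊕ τ) K) ^ d i) * ∏ i, (X (Sum.inr i)) ^ (0 : τ →₀ ℕ) i := by
    simp
  rw [h, prod_X_pow_inl_inr, coeff_monomial, if_neg, mul_zero]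
  intro heq
  apply hβ
  ext i
  simpa using DFunLike.congr_fun heq (Sum.inr i)

omit [CompleteSpace K] in
lemma coeff_subst_inr (f : MvPowerSeries τ K) (α β : τ →₀ ℕ) (hα : α ≠ 0) :
    coeff (Finsupp.sumElim α β) (f.subst fun j : τ => (X (Sum.inr j) : MvPowerSeries (τ ⊕ τ) K)) = 0 := by
  classical
  rw [coeff_subst_eq_tsum Xr_cc]
  refine (tsum_congr fun d => ?_).trans tsum_zero
  have h : (∏ i, (X (Sum.inr i) : MvPowerSeries (τ ⊕ τ) K) ^ d i) =
      (∏ i, (X (Sum.inl i) : MvPowerSeries (τ ⊕ τ) K) ^ (0 : τ →₀ ℕ) i) * ∏ i, (X (Sum.inr i)) ^ d i := by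
    simp
  rw [h, prod_X_pow_inl_inr, coeff_monomial, if_neg, mul_zero]
  intro heq
  apply hα
  ext i
  simpa using DFunLike.congr_fun heq (Sum.inl i)

omit [CompleteSpace K] in
/-- The binomial relation in the lowest degree of a truncated homomorphism. -/
lemma THom.coeff_binom {N m : ℕ} {x : Γ.Point τ} (hx : x ∈ THom Γ N) (hm1 : 1 ≤ m) (hmN : m < N)
    (hord : OrdGe m x.val) (α β : τ →₀ ℕ) (hα : α ≠ 0) (hβ : β ≠ 0)
    (hdeg : Finsupp.degree α + Finsupp.degree β = m) :
    (mchoose (α + β) β : K) * coeff (α + β) x.val = 0 := by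
  classical
  have hedeg : Finsupp.degree (Finsupp.sumElim α β) = m := by rw [degree_sumElim, hdeg]
  have hcong := (mem_THom Γ).mp hx (Finsupp.sumElim α β) (by omega)
  -- right-hand side vanishes
  set a := x.val.subst fun j : τ => (X (Sum.inl j) : MvPowerSeries (τ ⊕ τ) K) with ha
  set b := x.val.subst fun j : τ => (X (Sum.inr j) : MvPowerSeries (τ ⊕ τ) K) with hb
  have ha0 : constantCoeff a = 0 := by rw [ha, constantCoeff_subst_of_zero Xl_cc, cc_point]
  have hb0 : constantCoeff b = 0 := by rw [hb, constantCoeff_subst_of_zero Xr_cc, cc_point]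
  have hao : OrdGe m a := hord.subst Xl_cc
  have hbo : OrdGe m b := hord.subst Xr_cc
  have hR : coeff (Finsupp.sumElim α β) (fgAdd Γ a b) = 0 := by
    rw [fgAdd_eq Γ (hasSubst_of_cc' ha0) (hasSubst_of_cc' hb0), map_add, map_add,
      coeff_subst_inl _ α β hβ, coeff_subst_inr _ α β hα, zero_add, zero_add]
    have h1 : OrdGe (m + m) (a * b) := hao.mul hbo
    have h2 : OrdGe (m + m) (a * b * (fgRem Γ).subst ![a, b]) := by
      have := h1.mul (b := (fgRem Γ).subst ![a, b]) (n := 0)
        (fun γ hγ => absurd hγ (Nat.not_lt_zero _))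
      simpa using this
    exact h2 _ (by omega)
  rw [hR] at hcong
  -- left-hand side: replace `s +_Γ A` by `s + A`
  set Xp : τ → MvPowerSeries (τ ⊕ τ) K := fun j => X (Sum.inl j) + X (Sum.inr j) with hXp
  have hXp0 : ∀ j, constantCoeff (Xp j) = 0 := fun j => by simp [hXp]
  have hdiff : ∀ j, OrdGe 2 (XsS Γ j - Xp j) := by
    intro j
    have h1 : XsS Γ j - Xp j = X (Sum.inl j) * X (Sum.inr j) *
        (fgRem Γ).subst ![X (Sum.inl j), X (Sum.inr j)] := by
      rw [XsS, fgAdd_eq Γ (hasSubst_X_i _) (hasSubst_X_i _), hXp]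
      ring
    rw [h1]
    have h2 : OrdGe 2 ((X (Sum.inl j) : MvPowerSeries (τ ⊕ τ) K) * X (Sum.inr j)) :=
      (ordGe_one_of_const (Xl_cc j)).mul (ordGe_one_of_const (Xr_cc j))
    have := h2.mul (b := (fgRem Γ).subst ![X (Sum.inl j), X (Sum.inr j)]) (n := 0)
      (fun γ hγ => absurd hγ (Nat.not_lt_zero _))
    simpa using this
  have hL : coeff (Finsupp.sumElim α β) (x.val.subst (XsS Γ)) =
      coeff (α + β) x.val * (mchoose (α + β) β : K) := by
    rw [coeff_subst_eq_tsum (XsS_cc Γ), tsum_eq_single (α + β)]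
    · congr 1
      have h3 := ordGe_prod_sub (fun j => ordGe_one_of_const (XsS_cc Γ j))
        (fun j => ordGe_one_of_const (hXp0 j)) (by omega : 1 ≤ 2) hdiff (fun i => (α + β) i)
        Finset.univ
      rw [← degree_eq_sum] at h3
      have h4 := h3 (Finsupp.sumElim α β) (by rw [hedeg, map_add]; omega)
      rw [map_sub, sub_eq_zero] at h4
      rw [h4, coeff_prod_add, if_pos rfl]
    · intro d hd
      by_cases hdm : Finsupp.degree d < m
      · rw [hord d hdm, zero_mul]
      · have h3 := ordGe_prod_sub (fun j => ordGe_one_of_const (XsS_cc Γ j))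
          (fun j => ordGe_one_of_const (hXp0 j)) (by omega : 1 ≤ 2) hdiff (fun i => d i)
          Finset.univ
        rw [← degree_eq_sum] at h3
        have h4 := h3 (Finsupp.sumElim α β) (by rw [hedeg]; omega)
        rw [map_sub, sub_eq_zero] at h4
        rw [h4, coeff_prod_add, if_neg (fun h' => hd h'.symm), mul_zero]
  rw [hL] at hcong
  rw [mul_comm]
  exact hcong

omit [CompleteSpace K] in
/-- If `p` divides all proper binomial coefficients of `m`, then `m` is a power of `p`. -/
lemma eq_pow_of_dvd_choose (p : ℕ) [hp : Fact p.Prime] {m : ℕ} (hm : 1 ≤ m)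
    (h : ∀ k, 0 < k → k < m → p ∣ m.choose k) : ∃ s, m = p ^ s := by
  obtain ⟨v, t, ht, rfl⟩ := Nat.exists_eq_pow_mul_and_not_dvd (n := m) (by omega) p hp.out.ne_one
  have ht0 : 0 < t := Nat.pos_of_ne_zero fun h0 => ht (by simp [h0])
  by_cases ht1 : t = 1
  · exact ⟨v, by simp [ht1]⟩
  exfalso
  have hlt : p ^ v < p ^ v * t := by
    have h1 : 2 ≤ t := by omega
    have h2 : 0 < p ^ v := pow_pos hp.out.pos v
    nlinarith
  have h1 := h (p ^ v) (pow_pos hp.out.pos v) hlt
  -- Lucas: `C(p^v t, p^v) ≡ t`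
  have hL : ∀ w, (p ^ w * t).choose (p ^ w) ≡ t [MOD p] := by
    intro w
    induction w with
    | zero => simp [Nat.ModEq]
    | succ w ih =>
      have h2 := Choose.choose_modEq_choose_mod_mul_choose_div_nat (p := p)
        (n := p ^ (w + 1) * t) (k := p ^ (w + 1))
      have e1 : (p ^ (w + 1) * t) % p = 0 := by
        rw [pow_succ, mul_assoc, mul_comm p, ← mul_assoc]
        simp [mul_comm]
      have e2 : p ^ (w + 1) % p = 0 := by rw [pow_succ]; simp
      have e3 : (p ^ (w + 1) * t) / p = p ^ w * t := by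
        rw [pow_succ, mul_assoc, mul_comm p, ← mul_assoc, Nat.mul_div_cancel _ hp.out.pos]
      have e4 : p ^ (w + 1) / p = p ^ w := by
        rw [pow_succ, Nat.mul_div_cancel _ hp.out.pos]
      rw [e1, e2, e3, e4, Nat.choose_self, one_mul] at h2
      exact h2.trans ih
  have h2 := (hL v).symm
  exact ht ((Nat.modEq_zero_iff_dvd.mp (h2.trans ((Nat.modEq_zero_iff_dvd).mpr h1))))

omit [CompleteSpace K] in
/-- **Lowest term lemma.** The lowest term of a truncated homomorphism is at a `p`-power of a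
single variable. -/
lemma THom.shape (p : ℕ) [hp : Fact p.Prime] [CharP K p] {N m : ℕ} {x : Γ.Point τ}
    (hx : x ∈ THom Γ N) (hm1 : 1 ≤ m) (hmN : m < N) (hord : OrdGe m x.val) (γ : τ →₀ ℕ)
    (hγ : Finsupp.degree γ = m) (hne : coeff γ x.val ≠ 0) : ∃ i s, γ = Finsupp.single i (p ^ s) := by
  classical
  have hγ0 : γ ≠ 0 := by
    rintro rfl
    simp at hγ
    omega
  obtain ⟨i, hi⟩ : ∃ i, γ i ≠ 0 := by
    by_contra hcon
    push Not at hcon
    exact hγ0 (Finsupp.ext hcon)
  have hdecomp : γ = (γ - Finsupp.single i (γ i)) + Finsupp.single i (γ i) := by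
    refine (tsub_add_cancel_of_le ?_).symm
    intro j
    by_cases hj : j = i
    · subst hj; simp
    · simp [Ne.symm hj]
  have hsingle : γ = Finsupp.single i (γ i) := by
    by_contra hcon
    have hα : γ - Finsupp.single i (γ i) ≠ 0 := by
      intro h0
      rw [h0, zero_add] at hdecomp
      exact hcon hdecomp
    have hβ : (Finsupp.single i (γ i) : τ →₀ ℕ) ≠ 0 := by simpa using hi
    have hdeg : Finsupp.degree (γ - Finsupp.single i (γ i)) +
        Finsupp.degree (Finsupp.single i (γ i) : τ →₀ ℕ) = m := by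
      rw [← map_add, ← hdecomp, hγ]
    have h1 := THom.coeff_binom Γ hx hm1 hmN hord _ _ hα hβ hdeg
    rw [← hdecomp, mchoose_single, Nat.choose_self, Nat.cast_one, one_mul] at h1
    exact hne h1
  have hγm : γ i = m := by
    rw [hsingle] at hγ
    simpa using hγ
  rw [hγm] at hsingle
  obtain ⟨s, hs⟩ := eq_pow_of_dvd_choose p hm1 (fun k hk0 hkm => by
    have hα : (Finsupp.single i (m - k) : τ →₀ ℕ) ≠ 0 := by
      rw [Ne, Finsupp.single_eq_zero]; omega
    have hβ : (Finsupp.single i k : τ →₀ ℕ) ≠ 0 := by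
      rw [Ne, Finsupp.single_eq_zero]; omega
    have hdeg : Finsupp.degree (Finsupp.single i (m - k) : τ →₀ ℕ) +
        Finsupp.degree (Finsupp.single i k : τ →₀ ℕ) = m := by
      rw [Finsupp.degree_single, Finsupp.degree_single]; omega
    have h1 := THom.coeff_binom Γ hx hm1 hmN hord _ _ hα hβ hdeg
    have h2 : (Finsupp.single i (m - k) : τ →₀ ℕ) + Finsupp.single i k = γ := by
      rw [hsingle, ← Finsupp.single_add]
      congr 1
      omega
    rw [h2, mchoose_single, hsingle] at h1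
    simp only [Finsupp.single_eq_same] at h1
    rw [← hsingle] at h1
    rcases mul_eq_zero.mp h1 with h3 | h3
    · exact (CharP.cast_eq_zero_iff K p _).mp h3
    · exact absurd h3 hne)
  exact ⟨i, s, by rw [hsingle, hs]⟩

end lowest

section digits

variable [DecidableEq τ] (p : ℕ) [hp : Fact p.Prime]

omit [IsUltrametricDist K] [CompleteSpace K] [Fintype τ] [DecidableEq τ] in
lemma cc_mono (c : K) (i : τ) (s : ℕ) :
    constantCoeff (C c * X i ^ (p ^ s) : MvPowerSeries τ K) = 0 := by
  have : p ^ s ≠ 0 := pow_ne_zero s hp.out.ne_zero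
  rw [map_mul, map_pow, constantCoeff_X, zero_pow this, mul_zero]

/-- The point `c X_i^(p^s)`. -/
noncomputable def monoPt (c : K) (i : τ) (s : ℕ) : Γ.Point τ :=
  ⟨C c * X i ^ (p ^ s), hasSubst_of_cc' (cc_mono p c i s)⟩

omit [CompleteSpace K] in
lemma monoPt_val (c : K) (i : τ) (s : ℕ) :
    (monoPt Γ p c i s).val = C c * X i ^ (p ^ s) := rfl

omit [CompleteSpace K] in
lemma monoPt_zero (i : τ) (s : ℕ) : monoPt Γ p (0 : K) i s = 0 := by
  apply Subtype.ext
  show C (0 : K) * X i ^ (p ^ s) = 0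
  simp

omit [IsUltrametricDist K] [CompleteSpace K] [Fintype τ] in
lemma coeff_mono (c : K) (i : τ) (n : ℕ) (γ : τ →₀ ℕ) :
    coeff γ (C c * X i ^ n : MvPowerSeries τ K) = if γ = Finsupp.single i n then c else 0 := by
  classical
  rw [coeff_C_mul, coeff_X_pow]
  split_ifs <;> simp

omit [CompleteSpace K] in
lemma psubst_mono {υ : Type*} (c : K) (n : ℕ) {a : MvPowerSeries υ K} (ha : PowerSeries.HasSubst a) :
    PowerSeries.subst a (PowerSeries.C c * PowerSeries.X ^ n : PowerSeries K) = C c * a ^ n := by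
  rw [PowerSeries.subst_mul ha, PowerSeries.subst_pow ha, PowerSeries.subst_X ha, PowerSeries.subst_C]

omit [CompleteSpace K] in
/-- Exact monomial homomorphisms are truncated homomorphisms at all levels. -/
lemma monoPt_mem_THom {c : K} {s : ℕ} (hf : IsFGHom Γ Γ (PowerSeries.C c * PowerSeries.X ^ (p ^ s)))
    (i : τ) (N : ℕ) : monoPt Γ p c i s ∈ THom Γ N := by
  rw [mem_THom]
  have hsub : ∀ {υ : Type _} [Fintype υ] (a : τ → MvPowerSeries υ K)
      (_ : ∀ j, constantCoeff (a j) = 0),
      (monoPt Γ p c i s).val.subst a = C c * a i ^ (p ^ s) := by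
    intro υ _ a ha
    have has := hasSubst_of_zero ha
    rw [monoPt_val, subst_mul has, subst_pow has, subst_X has, subst_C]
  rw [hsub _ (XsS_cc Γ), hsub _ Xl_cc, hsub _ Xr_cc]
  have h1 := hf.apply (hasSubst_X_i (Sum.inl i) : PowerSeries.HasSubst
    (X (Sum.inl i) : MvPowerSeries (τ ⊕ τ) K)) (hasSubst_X_i (Sum.inr i))
  rw [psubst_mono c _ (hasSubst_fgAdd Γ (hasSubst_X_i _) (hasSubst_X_i _)),
    psubst_mono c _ (hasSubst_X_i _), psubst_mono c _ (hasSubst_X_i _)] at h1
  rw [h1]
  exact fun _ _ => rfl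

/-- The `Γ`-sum of the monomial points with digits `b`, over `s < L`. -/
noncomputable def Dig (b : τ → ℕ → K) (L : ℕ) : Γ.Point τ :=
  ∑ s ∈ Finset.range L, ∑ i, monoPt Γ p (b i s) i s

omit [CompleteSpace K] in
lemma Dig_mem_THom {b : τ → ℕ → K} {L : ℕ}
    (hb : ∀ i s, IsFGHom Γ Γ (PowerSeries.C (b i s) * PowerSeries.X ^ (p ^ s))) (N : ℕ) :
    Dig Γ p b L ∈ THom Γ N :=
  AddSubgroup.sum_mem _ fun s _ => AddSubgroup.sum_mem _ fun i _ => monoPt_mem_THom Γ p (hb i s) i N

omit [CompleteSpace K] in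
lemma ordGe_mono (c : K) (i : τ) (n : ℕ) : OrdGe n (C c * X i ^ n : MvPowerSeries τ K) := by
  intro γ hγ
  rw [coeff_mono, if_neg]
  rintro rfl
  simp at hγ

omit [CompleteSpace K] in
/-- A `Γ`-sum of points of order `≥ m` agrees with the plain sum modulo degree `m + 1`. -/
lemma sum_val_cong {ι : Type*} (S : Finset ι) (z : ι → Γ.Point τ) {m : ℕ} (hm : 1 ≤ m)
    (hz : ∀ i ∈ S, OrdGe m (z i).val) :
    CongO (m + 1) (∑ i ∈ S, z i).val (∑ i ∈ S, (z i).val) := by
  classical
  induction S using Finset.induction_on with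
  | empty =>
    intro γ hγ
    rw [Finset.sum_empty, Finset.sum_empty]
    rfl
  | insert a S ha ih =>
    have ih' := ih fun i hi => hz i (Finset.mem_insert_of_mem hi)
    have hW : (∑ i ∈ S, z i) ∈ Fil Γ m :=
      AddSubgroup.sum_mem _ fun i hi => hz i (Finset.mem_insert_of_mem hi)
    have hWo : OrdGe m (∑ i ∈ S, z i).val := hW
    have hao : OrdGe m (z a).val := hz a (Finset.mem_insert_self a S)
    rw [Finset.sum_insert ha, Finset.sum_insert ha, point_add_val,
      fgAdd_eq Γ (z a).prop (∑ i ∈ S, z i).prop]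
    intro γ hγ
    rw [map_add, map_add, map_add]
    have h1 : OrdGe (m + m) ((z a).val * (∑ i ∈ S, z i).val) := hao.mul hWo
    have h2 : OrdGe (m + m) ((z a).val * (∑ i ∈ S, z i).val *
        (fgRem Γ).subst ![(z a).val, (∑ i ∈ S, z i).val]) := by
      have := h1.mul (b := (fgRem Γ).subst ![(z a).val, (∑ i ∈ S, z i).val]) (n := 0)
        (fun γ hγ => absurd hγ (Nat.not_lt_zero _))
      simpa using this
    rw [h2 γ (by omega), add_zero, ih' γ hγ]

/-- **Digits of a truncated homomorphism.** -/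
theorem exists_digits [CharP K p] {h : ℕ} (hmul : mulSeries Γ p = PowerSeries.X ^ (p ^ h))
    (hmono : ∀ c : K, c ^ (p ^ h) = c → ∀ s, IsFGHom Γ Γ (PowerSeries.C c * PowerSeries.X ^ (p ^ s)))
    {N N₁ : ℕ} (hN : p ^ h * N₁ ≤ N) {x : Γ.Point τ} (hx : x ∈ THom Γ N) :
    ∃ b : τ → ℕ → K, (∀ i s, b i s ^ (p ^ h) = b i s) ∧ (∀ i s, N₁ ≤ p ^ s → b i s = 0) ∧
      CongO N₁ x.val (Dig Γ p b N₁).val := by
  classical
  have hq : p ^ h ≠ 0 := pow_ne_zero h hp.out.ne_zero
  have hq1 : 1 ≤ p ^ h := Nat.one_le_iff_ne_zero.mpr hq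
  rcases Nat.eq_zero_or_pos N₁ with rfl | hN₁
  · exact ⟨fun _ _ => 0, fun _ _ => zero_pow hq, fun _ _ _ => rfl, fun _ hγ => absurd hγ (Nat.not_lt_zero _)⟩
  have hN₁N : N₁ ≤ N := le_trans (Nat.le_mul_of_pos_left _ (by omega)) hN
  have key : ∀ m, 1 ≤ m → m ≤ N₁ → ∃ b : τ → ℕ → K, (∀ i s, b i s ^ (p ^ h) = b i s) ∧
      (∀ i s, m ≤ p ^ s → b i s = 0) ∧ x - Dig Γ p b N₁ ∈ Fil Γ m := by
    intro m hm
    induction m, hm using Nat.le_induction with
    | base =>
      intro _
      refine ⟨fun _ _ => 0, fun _ _ => zero_pow hq, fun _ _ _ => rfl, ?_⟩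
      have h0 : Dig Γ p (fun (_ : τ) (_ : ℕ) => (0 : K)) N₁ = 0 := by
        simp only [Dig, monoPt_zero, Finset.sum_const_zero]
      rw [h0, sub_zero]
      exact ordGe_one_of_const (cc_point Γ x)
    | succ m hm1 ih =>
      intro hmN₁
      obtain ⟨b, hb1, hb2, hb3⟩ := ih (by omega)
      set D := Dig Γ p b N₁ with hD
      set y := x - D with hy
      have hDmem : D ∈ THom Γ N := Dig_mem_THom Γ p (fun i s => hmono _ (hb1 i s) s) N
      have hyT : y ∈ THom Γ N := AddSubgroup.sub_mem _ hx hDmem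
      have hmN : m < N := by omega
      have hord : OrdGe m y.val := hb3
      by_cases hpow : ∃ s, m = p ^ s
      · obtain ⟨s, hs⟩ := hpow
        set c : τ → K := fun i => coeff (Finsupp.single i (p ^ s)) y.val with hc
        set W : Γ.Point τ := ∑ i, monoPt Γ p (c i) i s with hW
        set b' : τ → ℕ → K := fun i s' => if s' = s then c i else b i s' with hb'
        have hsN : s < N₁ := by
          have : s < p ^ s := Nat.lt_pow_self hp.out.one_lt
          omega
        have hDig : Dig Γ p b' N₁ = D + W := by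
          rw [hD, Dig, Dig]
          have hterm : ∀ s' ∈ Finset.range N₁, (∑ i, monoPt Γ p (b' i s') i s') =
              (∑ i, monoPt Γ p (b i s') i s') + if s' = s then W else 0 := by
            intro s' _
            by_cases hs' : s' = s
            · subst hs'
              have h0 : ∀ i, b i s' = 0 := fun i => hb2 i s' (by omega)
              simp only [hb', if_true, h0, monoPt_zero, Finset.sum_const_zero, zero_add, hW]
            · simp only [hb', hs', if_false, add_zero]
          rw [Finset.sum_congr rfl hterm, Finset.sum_add_distrib, Finset.sum_ite_eq',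
            if_pos (Finset.mem_range.mpr hsN)]
        have hc1 : ∀ i, c i ^ (p ^ h) = c i := fun i => by
          refine THom.coeff_pow Γ p hmul hyT _ ?_
          rw [Finsupp.degree_single, ← hs]
          calc p ^ h * m < p ^ h * N₁ := Nat.mul_lt_mul_of_pos_left (by omega) (by omega)
            _ ≤ N := hN
        refine ⟨b', fun i s' => ?_, fun i s' hs' => ?_, ?_⟩
        · by_cases hs'' : s' = s
          · simp only [hb', hs'', if_true]; exact hc1 i
          · simp only [hb', hs'', if_false]; exact hb1 i s'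
        · by_cases hs'' : s' = s
          · subst hs''; omega
          · simp only [hb', hs'', if_false]; exact hb2 i s' (by omega)
        · have hsub : x - Dig Γ p b' N₁ = y - W := by rw [hDig, hy]; abel
          rw [hsub, sub_mem_Fil_iff]
          -- compare coefficients
          have hWc := sum_val_cong Γ Finset.univ (fun i => monoPt Γ p (c i) i s) hm1
            (fun i _ => by rw [monoPt_val, ← hs]; exact ordGe_mono _ _ _)
          intro γ hγ
          rw [hWc γ hγ, map_sum]
          simp only [monoPt_val, coeff_mono]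
          rcases Nat.lt_or_ge (Finsupp.degree γ) m with hlt | hge
          · rw [hord γ hlt]
            symm
            refine Finset.sum_eq_zero fun i _ => ?_
            rw [if_neg]
            rintro rfl
            rw [Finsupp.degree_single] at hlt
            omega
          · have hγm : Finsupp.degree γ = m := by omega
            by_cases hex : ∃ i, γ = Finsupp.single i (p ^ s)
            · obtain ⟨i, rfl⟩ := hex
              rw [Finset.sum_eq_single i]
              · simp [hc]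
              · intro j _ hji
                rw [if_neg]
                intro h'
                exact hji (Finsupp.single_left_injective (by
                  exact pow_ne_zero s hp.out.ne_zero) h').symm
              · simp
            · have h0 : coeff γ y.val = 0 := by
                by_contra hne
                obtain ⟨i, s', hs'⟩ := THom.shape Γ p hyT hm1 hmN hord γ hγm hne
                apply hex
                refine ⟨i, ?_⟩
                rw [hs'] at hγm ⊢
                rw [Finsupp.degree_single] at hγm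
                rw [hγm, hs]
              rw [h0]
              symm
              refine Finset.sum_eq_zero fun i _ => ?_
              rw [if_neg]
              intro h'
              exact hex ⟨i, h'⟩
      · refine ⟨b, hb1, fun i s hs => hb2 i s (by omega), ?_⟩
        show OrdGe (m + 1) y.val
        intro γ hγ
        rcases Nat.lt_or_ge (Finsupp.degree γ) m with hlt | hge
        · exact hord γ hlt
        · have hγm : Finsupp.degree γ = m := by omega
          by_contra hne
          obtain ⟨i, s', hs'⟩ := THom.shape Γ p hyT hm1 hmN hord γ hγm hne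
          apply hpow
          refine ⟨s', ?_⟩
          rw [hs', Finsupp.degree_single] at hγm
          exact hγm.symm
  obtain ⟨b, hb1, hb2, hb3⟩ := key N₁ hN₁ le_rfl
  exact ⟨b, hb1, hb2, (sub_mem_Fil_iff Γ).mp hb3⟩

end digits

end Fil

section honda

variable {τ : Type*} [Fintype τ] [DecidableEq τ] (p : ℕ) [hp : Fact p.Prime] [CharP K p]

omit [IsUltrametricDist K] [CompleteSpace K] [Fintype τ] [DecidableEq τ] in
/-- `c X^(p^s)` is an endomorphism of the Honda law when `c^q = c`. -/
theorem honda_mono_hom {h : ℕ} (hh : 1 ≤ h) (c : K) (hc : c ^ (p ^ h) = c) (s : ℕ) :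
    IsFGHom (honda p h K) (honda p h K) (PowerSeries.C c * PowerSeries.X ^ (p ^ s)) := by
  have h1 := honda_smul_hom p h hh K c hc
  have h2 : IsFGHom (honda p h K) (honda p h K) (PowerSeries.X ^ (p ^ s)) := by
    have := frob_hom p (honda p h K) s
    rwa [honda_map] at this
  have h3 := h1.comp h2
  have hs : PowerSeries.HasSubst ((PowerSeries.X : PowerSeries K) ^ (p ^ s)) := hasSubst_of_cc h2.1
  have h4 : cmp (PowerSeries.C c * PowerSeries.X) ((PowerSeries.X : PowerSeries K) ^ (p ^ s)) =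
      PowerSeries.C c * PowerSeries.X ^ (p ^ s) := by
    rw [cmp, PowerSeries.subst_mul hs, PowerSeries.subst_X hs, PowerSeries.subst_C]
    rfl
  rwa [h4] at h3

/-- Digits for the Honda law. -/
theorem exists_digits_honda {h : ℕ} (hh : 1 ≤ h) {N N₁ : ℕ} (hN : p ^ h * N₁ ≤ N)
    {x : (honda p h K).Point τ} (hx : x ∈ THom (honda p h K) N) :
    ∃ b : τ → ℕ → K, (∀ i s, b i s ^ (p ^ h) = b i s) ∧ (∀ i s, N₁ ≤ p ^ s → b i s = 0) ∧
      CongO N₁ x.val (Dig (honda p h K) p b N₁).val :=
  exists_digits (honda p h K) p (honda_mulSeries p h hh K)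
    (fun c hc s => honda_mono_hom p hh c hc s) hN hx

omit [CompleteSpace K] [Fintype τ] [DecidableEq τ] in
lemma isB_honda_law (h : ℕ) : IsIntLaw (honda p h K) := by
  intro γ
  rw [coeff_honda]
  simpa using IsUltrametricDist.norm_intCast_le_one K _

omit [IsUltrametricDist K] [CompleteSpace K] [Fintype τ] [DecidableEq τ] in
/-- The Honda law has no terms of degree in `[2, q)`. -/
lemma honda_low_dig {h : ℕ} (hh : 1 ≤ h) (γ : Fin 2 →₀ ℕ) (h2 : 2 ≤ Finsupp.degree γ)
    (hq : Finsupp.degree γ < p ^ h) : coeff γ (honda p h K).toPowerSeries = 0 := by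
  classical
  have hdeg : Finsupp.degree γ = γ 0 + γ 1 := by
    rw [degree_eq_sum]; simp
  have hdec : γ = Finsupp.single (0 : Fin 2) (γ 0) + Finsupp.single (1 : Fin 2) (γ 1) := by
    ext i; fin_cases i <;> simp
  by_cases h0 : γ 0 = 0
  · have : γ = Finsupp.single (1 : Fin 2) (γ 1) := by
      ext i; fin_cases i <;> simp [h0]
    rw [this, coeff_single_one, if_neg (by omega)]
  by_cases h1 : γ 1 = 0
  · have : γ = Finsupp.single (0 : Fin 2) (γ 0) := by
      ext i; fin_cases i <;> simp [h1]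
    rw [this, coeff_single_zero, if_neg (by omega)]
  rw [hdec]
  exact honda_coeff_low p h hh K _ _ (by omega) (by omega) (by omega)

omit [Fintype τ] [DecidableEq τ] in
/-- The law is addition up to `C^q`. -/
lemma norm_ptAdd_honda_sub_le {h : ℕ} (hh : 1 ≤ h) {x y : K} {C : ℝ} (hC0 : 0 ≤ C) (hC1 : C < 1)
    (hx : ‖x‖ ≤ C) (hy : ‖y‖ ≤ C) : ‖ptAdd (honda p h K) x y - (x + y)‖ ≤ C ^ p ^ h := by
  classical
  have hX0 : IsB (1 : ℝ) 1 (X 0 : MvPowerSeries (Fin 2) K) := isB_X 1 zero_le_one 0
  have hX1 : IsB (1 : ℝ) 1 (X 1 : MvPowerSeries (Fin 2) K) := isB_X 1 zero_le_one 1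
  have hxy : ∀ i, ‖(![x, y] : Fin 2 → K) i‖ < 1 := norm_pair_lt (hx.trans_lt hC1) (hy.trans_lt hC1)
  have hint := isB_honda_law (K := K) p h
  set A : MvPowerSeries (Fin 2) K := (honda p h K).toPowerSeries - (X 0 + X 1) with hA
  have hAB : IsB (1 : ℝ) 1 A := hint.sub (hX0.add hX1 zero_le_one) zero_le_one
  have hcoeff : ∀ γ : Fin 2 →₀ ℕ, Finsupp.degree γ < p ^ h → coeff γ A = 0 := by
    intro γ hγ
    rw [hA, map_sub, map_add]
    by_cases h2 : 2 ≤ Finsupp.degree γ
    · rw [honda_low_dig p hh γ h2 hγ, coeff_X, coeff_X, if_neg, if_neg]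
      · simp
      · rintro rfl; simp at h2
      · rintro rfl; simp at h2
    · have h3 : Finsupp.degree γ = 0 ∨ Finsupp.degree γ = 1 := by omega
      rcases h3 with h3 | h3
      · have : γ = 0 := (Finsupp.degree_eq_zero_iff γ).1 h3
        subst this
        rw [coeff_zero_eq_constantCoeff_apply, coeff_zero_eq_constantCoeff_apply,
          coeff_zero_eq_constantCoeff_apply, (honda p h K).zero_constantCoeff]
        simp
      · obtain ⟨i, rfl⟩ := exists_single_of_degree_one h3
        fin_cases i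
        · have e1 : (⟨0, by omega⟩ : Fin 2) = 0 := rfl
          simp only [e1]
          rw [(honda p h K).lin_coeff_X, coeff_X, coeff_X, if_pos rfl, if_neg]
          · simp
          · intro h5
            have := DFunLike.congr_fun h5 0
            simp at this
        · have e1 : (⟨1, by omega⟩ : Fin 2) = 1 := rfl
          simp only [e1]
          rw [(honda p h K).lin_coeff_Y, coeff_X, coeff_X, if_pos rfl, if_neg]
          · simp
          · intro h5
            have := DFunLike.congr_fun h5 0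
            simp at this
  have h1 := norm_evalS_le_of_order (p ^ h) (r := 1) (A := A) (fun γ => by simpa using hAB γ) hcoeff
    hC0 hC1.le (x := ![x, y]) (norm_pair_le hx hy)
  rw [one_mul] at h1
  have h2 : evalS A ![x, y] = ptAdd (honda p h K) x y - (x + y) := by
    rw [hA, evalS_sub one_pos hint (hX0.add hX1 zero_le_one) hxy, evalS_add one_pos hX0 hX1 hxy, evalS_X,
      evalS_X]
    rfl
  rwa [h2] at h1

omit [DecidableEq τ] in
/-- Evaluation of a `Γ`-sum is the plain sum up to `M^q`. -/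
lemma sum_eval_honda {ι : Type*} {h : ℕ} (hh : 1 ≤ h) (S : Finset ι)
    (w : ι → (honda p h K).Point τ) (hw : ∀ k ∈ S, IsB (1 : ℝ) 1 (w k).val) {z : τ → K}
    (hz : ∀ i, ‖z i‖ < 1) {M : ℝ} (hM0 : 0 ≤ M) (hM1 : M < 1)
    (hwM : ∀ k ∈ S, ‖evalS (w k).val z‖ ≤ M) :
    IsB (1 : ℝ) 1 (∑ k ∈ S, w k).val ∧ ‖evalS (∑ k ∈ S, w k).val z‖ ≤ M ∧
      ‖evalS (∑ k ∈ S, w k).val z - ∑ k ∈ S, evalS (w k).val z‖ ≤ M ^ p ^ h := by
  classical
  have hint := isB_honda_law (K := K) p h
  induction S using Finset.induction_on with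
  | empty =>
    refine ⟨fun γ => ?_, ?_, ?_⟩
    · simp
    · simpa [evalS_zero] using hM0
    · simpa [evalS_zero] using pow_nonneg hM0 _
  | insert a S ha ih =>
    obtain ⟨h1, h2, h3⟩ := ih (fun k hk => hw k (Finset.mem_insert_of_mem hk))
      (fun k hk => hwM k (Finset.mem_insert_of_mem hk))
    have hwa := hw a (Finset.mem_insert_self a S)
    have hwaM := hwM a (Finset.mem_insert_self a S)
    have hval : (∑ k ∈ insert a S, w k).val = fgAdd (honda p h K) (w a).val (∑ k ∈ S, w k).val := by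
      rw [Finset.sum_insert ha]
      rfl
    have hev : evalS (∑ k ∈ insert a S, w k).val z =
        ptAdd (honda p h K) (evalS (w a).val z) (evalS (∑ k ∈ S, w k).val z) := by
      rw [hval]
      exact evalS_fgAdd hint hwa h1 (cc_point _ _) (cc_point _ _) hz
    refine ⟨?_, ?_, ?_⟩
    · rw [hval]
      exact isB_fgAdd hint hwa h1 (cc_point _ _) (cc_point _ _)
    · rw [hev]
      exact (norm_ptAdd_le hint (hwaM.trans hM1.le) (h2.trans hM1.le)).trans (max_le hwaM h2)
    · rw [hev, Finset.sum_insert ha]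
      have e : ptAdd (honda p h K) (evalS (w a).val z) (evalS (∑ k ∈ S, w k).val z) -
          (evalS (w a).val z + ∑ k ∈ S, evalS (w k).val z) =
          (ptAdd (honda p h K) (evalS (w a).val z) (evalS (∑ k ∈ S, w k).val z) -
            (evalS (w a).val z + evalS (∑ k ∈ S, w k).val z)) +
          (evalS (∑ k ∈ S, w k).val z - ∑ k ∈ S, evalS (w k).val z) := by ring
      rw [e]
      exact (IsUltrametricDist.norm_add_le_max _ _).trans
        (max_le (norm_ptAdd_honda_sub_le p hh hM0 hM1 hwaM h2) h3)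

omit [DecidableEq τ] in
/-- A series of order `≥ m` is small near the origin. -/
lemma norm_evalS_le_of_ordGe {A : MvPowerSeries τ K} {ε C R : ℝ} {m : ℕ} (hε : 0 < ε)
    (hA : IsB ε C A) (hord : OrdGe m A) (hR0 : 0 ≤ R) (hRε : R ≤ ε) {z : τ → K}
    (hz : ∀ i, ‖z i‖ ≤ R) : ‖evalS A z‖ ≤ C * (R / ε) ^ m := by
  have hC := hA.nonneg hε.le
  refine IsUltrametricDist.norm_tsum_le_of_forall_le_of_nonneg (by positivity) fun γ => ?_
  by_cases hγ : Finsupp.degree γ < m
  · rw [hord γ hγ, zero_mul, norm_zero]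
    positivity
  · have h1 := term_bound hε hR0 hA hz γ
    refine h1.trans (mul_le_mul_of_nonneg_left ?_ hC)
    exact pow_le_pow_of_le_one (by positivity) ((div_le_one hε).mpr hRε) (by omega)

omit [IsUltrametricDist K] [CompleteSpace K] [Fintype τ] [DecidableEq τ] in
/-- Digits have norm `0` or `1`. -/
lemma norm_digit {h : ℕ} (hh : 1 ≤ h) {c : K} (hc : c ^ (p ^ h) = c) (hc0 : c ≠ 0) : ‖c‖ = 1 := by
  have hq : 2 ≤ p ^ h := by
    calc 2 ≤ p := hp.out.two_le
      _ = p ^ 1 := (pow_one p).symm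
      _ ≤ p ^ h := Nat.pow_le_pow_right hp.out.pos hh
  have h1 : ‖c‖ ^ (p ^ h) = ‖c‖ := by rw [← norm_pow, hc]
  have h2 : 0 < ‖c‖ := norm_pos_iff.mpr hc0
  obtain ⟨n, hn⟩ : ∃ n, p ^ h = n + 1 := ⟨p ^ h - 1, by omega⟩
  rw [hn, pow_succ] at h1
  have h3 : ‖c‖ ^ n = 1 := by
    have := mul_right_cancel₀ h2.ne' (h1.trans (one_mul _).symm)
    exact this
  have hn0 : n ≠ 0 := by omega
  exact (pow_eq_one_iff_of_nonneg h2.le hn0).mp h3

/-- **Plain-sum relation (output of E4).** A truncated homomorphism `B` of the Honda law is,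
near the origin, the plain sum of its digit terms `b i s * z_i^(p^s)`, up to `C R^{N₁}` and `M^q`. -/
theorem digits_eval {h : ℕ} (hh : 1 ≤ h) {N N₁ : ℕ} (hN : p ^ h * N₁ ≤ N)
    {B : MvPowerSeries τ K} (hB0 : constantCoeff B = 0)
    (hT : CongO N (B.subst (XsS (honda p h K)))
      (fgAdd (honda p h K) (B.subst fun j => X (Sum.inl j)) (B.subst fun j => X (Sum.inr j))))
    {εB CB : ℝ} (hεB : 0 < εB) (hBB : IsB εB CB B) :
    ∃ b : τ → ℕ → K, (∀ i s, b i s ^ (p ^ h) = b i s) ∧ (∀ i s, N₁ ≤ p ^ s → b i s = 0) ∧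
      ∃ ρ C : ℝ, 0 < ρ ∧ 0 ≤ C ∧ ∀ z : τ → K, (∀ i, ‖z i‖ ≤ ρ) → ∀ R M : ℝ, 0 ≤ R →
        (∀ i, ‖z i‖ ≤ R) → 0 ≤ M → M < 1 → (∀ i s, b i s ≠ 0 → ‖z i‖ ^ (p ^ s) ≤ M) →
        ‖evalS B z - ∑ s ∈ Finset.range N₁, ∑ i, b i s * z i ^ (p ^ s)‖ ≤
          max (C * R ^ N₁) (M ^ (p ^ h)) := by
  classical
  set Γ := honda p h K with hΓ
  have hint : IsIntLaw Γ := isB_honda_law p h
  set x : Γ.Point τ := ⟨B, hasSubst_of_cc' hB0⟩ with hx
  have hxT : x ∈ THom Γ N := (mem_THom Γ).mpr hT
  obtain ⟨b, hb1, hb2, hb3⟩ := exists_digits_honda p hh hN hxT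
  refine ⟨b, hb1, hb2, ?_⟩
  -- the digit sum as a single sum
  set S : Finset (ℕ × τ) := Finset.range N₁ ×ˢ Finset.univ with hS
  set w : ℕ × τ → Γ.Point τ := fun q => monoPt Γ p (b q.2 q.1) q.2 q.1 with hw
  have hDig : Dig Γ p b N₁ = ∑ q ∈ S, w q := by
    rw [Dig, hS, Finset.sum_product]
  have hnorm : ∀ i s, ‖b i s‖ ≤ 1 := fun i s => by
    by_cases h0 : b i s = 0
    · simp [h0]
    · exact (norm_digit p hh (hb1 i s) h0).le
  have hwB : ∀ q, IsB (1 : ℝ) 1 (w q).val := fun q => by
    have h1 := ((isB_C 1 zero_le_one (b q.2 q.1)).mono (hnorm _ _)).mul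
      (((isB_X (1 : ℝ) zero_le_one q.2).pow zero_le_one (p ^ q.1))) zero_le_one
    have e1 : (w q).val = C (b q.2 q.1) * X q.2 ^ (p ^ q.1) := rfl
    rw [e1]
    simpa using h1
  set ε : ℝ := min εB 1 with hε
  have hε0 : 0 < ε := lt_min hεB one_pos
  have hε1 : ε ≤ 1 := min_le_right _ _
  have hDB : IsB (1 : ℝ) 1 (∑ q ∈ S, w q).val := by
    -- boundedness does not depend on the point `z`
    have := sum_eval_honda p hh S w (fun k _ => hwB k) (z := 0) (M := 0) (fun i => by simp) le_rfl
      zero_lt_one (fun k _ => by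
        rw [evalS_zero_pt, cc_point]; simp)
    exact this.1
  have hCB : 0 ≤ CB := hBB.nonneg hεB.le
  have hAB : IsB ε (max CB 1) (B - (∑ q ∈ S, w q).val) :=
    ((hBB.shrink hε0.le (min_le_left _ _)).mono (le_max_left _ _)).sub
      ((hDB.shrink hε0.le hε1).mono (le_max_right _ _)) hε0.le
  have hAord : OrdGe N₁ (B - (∑ q ∈ S, w q).val) := by
    rw [← hDig]
    exact congO_iff.mp hb3
  refine ⟨ε / 2, max CB 1 / ε ^ N₁, by positivity, by positivity, ?_⟩
  intro z hz R M hR0 hzR hM0 hM1 hzM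
  have hzlt : ∀ i, ‖z i‖ < ε := fun i => (hz i).trans_lt (by linarith)
  have hzlt1 : ∀ i, ‖z i‖ < 1 := fun i => (hzlt i).trans_le hε1
  have hwv : ∀ q, evalS (w q).val z = b q.2 q.1 * z q.2 ^ (p ^ q.1) := fun q => by
    have e1 : (w q).val = C (b q.2 q.1) * X q.2 ^ (p ^ q.1) := rfl
    rw [e1, evalS_mul one_pos ((isB_C 1 zero_le_one _).mono (hnorm _ _))
      (by simpa using (isB_X (1 : ℝ) zero_le_one q.2).pow zero_le_one (p ^ q.1)) hzlt1, evalS_C,
      evalS_pow one_pos (isB_X (1 : ℝ) zero_le_one q.2) hzlt1, evalS_X]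
  have hwM : ∀ q ∈ S, ‖evalS (w q).val z‖ ≤ M := fun q _ => by
    rw [hwv]
    by_cases h0 : b q.2 q.1 = 0
    · simpa [h0] using hM0
    · rw [norm_mul, norm_digit p hh (hb1 _ _) h0, one_mul, norm_pow]
      exact hzM _ _ h0
  obtain ⟨-, -, h3⟩ := sum_eval_honda p hh S w (fun k _ => hwB k) hzlt1 hM0 hM1 hwM
  -- the order estimate with `R' = min R (ε/2)`
  set R' : ℝ := min R (ε / 2) with hR'
  have hR'0 : 0 ≤ R' := le_min hR0 (by positivity)
  have hR'ε : R' ≤ ε := (min_le_right _ _).trans (by linarith)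
  have hzR' : ∀ i, ‖z i‖ ≤ R' := fun i => le_min (hzR i) (hz i)
  have h4 := norm_evalS_le_of_ordGe hε0 hAB hAord hR'0 hR'ε hzR'
  have h5 : max CB 1 * (R' / ε) ^ N₁ ≤ max CB 1 / ε ^ N₁ * R ^ N₁ := by
    rw [div_pow]
    have h6 : R' ^ N₁ ≤ R ^ N₁ := pow_le_pow_left₀ hR'0 (min_le_left _ _) _
    have h7 : 0 ≤ max CB 1 / ε ^ N₁ := by positivity
    calc max CB 1 * (R' ^ N₁ / ε ^ N₁) = max CB 1 / ε ^ N₁ * R' ^ N₁ := by ring
      _ ≤ _ := mul_le_mul_of_nonneg_left h6 h7
  have h8 : evalS B z - ∑ s ∈ Finset.range N₁, ∑ i, b i s * z i ^ (p ^ s) =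
      evalS (B - (∑ q ∈ S, w q).val) z +
        (evalS (∑ q ∈ S, w q).val z - ∑ q ∈ S, evalS (w q).val z) := by
    rw [evalS_sub hε0 ((hBB.shrink hε0.le (min_le_left _ _)).mono (le_max_left _ _))
      ((hDB.shrink hε0.le hε1).mono (le_max_right _ _)) hzlt]
    simp only [hwv]
    have h9 : ∑ q ∈ S, b q.2 q.1 * z q.2 ^ p ^ q.1 =
        ∑ s ∈ Finset.range N₁, ∑ i, b i s * z i ^ (p ^ s) := by
      rw [hS, Finset.sum_product]
    rw [h9]
    ring
  rw [h8]
  refine (IsUltrametricDist.norm_add_le_max _ _).trans (max_le_max (h4.trans h5) h3)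

end honda

end Crest.Agent.LT
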