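/-
C2: Root lemma (Weierstrass factorisation) for bounded one-variable series over a complete
ultrametric algebraically closed field.  BLUEPRINT §C2.
-/
import Crest.Agent.Lib.LT.EvalOne

set_option autoImplicit false
set_option linter.unusedSectionVars false
set_option linter.unusedVariables false
set_option linter.style.haveILetI false
set_option linter.unusedSimpArgs false
set_option linter.unnecessarySimpa false

namespace Crest.Agent.LT

open PowerSeries

variable {K : Type*} [NontriviallyNormedField K] [IsUltrametricDist K]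

/-! ### The unit ball -/

/-- The closed unit ball as a subring. -/
def unitBall (K : Type*) [NontriviallyNormedField K] [IsUltrametricDist K] : Subring K where
  carrier := {x | ‖x‖ ≤ 1}
  mul_mem' := fun {a b} ha hb => by
    simp only [Set.mem_ofPred_eq, norm_mul] at *
    exact mul_le_one₀ ha (norm_nonneg _) hb
  one_mem' := by simp
  add_mem' := fun {a b} ha hb =>
    (IsUltrametricDist.norm_add_le_max a b).trans (max_le ha hb)
  zero_mem' := by simp
  neg_mem' := fun {a} ha => by simpa using ha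

lemma mem_unitBall {x : K} : x ∈ unitBall K ↔ ‖x‖ ≤ 1 := Iff.rfl

lemma norm_coe_unitBall_le (x : unitBall K) : ‖(x : K)‖ ≤ 1 := x.2

lemma isUnit_unitBall_of_norm {x : unitBall K} (h : ‖(x : K)‖ = 1) : IsUnit x := by
  have hx0 : (x : K) ≠ 0 := by
    intro h0; rw [h0, norm_zero] at h; exact zero_ne_one h
  have hinv : ‖(x : K)⁻¹‖ ≤ 1 := by rw [norm_inv, h, inv_one]
  refine IsUnit.of_mul_eq_one ⟨(x : K)⁻¹, hinv⟩ ?_
  ext
  simp [hx0]

lemma norm_of_isUnit_unitBall {x : unitBall K} (h : IsUnit x) : ‖(x : K)‖ = 1 := by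
  obtain ⟨y, hy⟩ := h.exists_right_inv
  have h1 : (x : K) * (y : K) = 1 := by
    have := congrArg (Subtype.val) hy
    simpa using this
  have h2 : ‖(x : K)‖ * ‖(y : K)‖ = 1 := by rw [← norm_mul, h1, norm_one]
  have hx := norm_coe_unitBall_le x
  have hy' := norm_coe_unitBall_le y
  nlinarith [norm_nonneg (x : K), norm_nonneg (y : K)]

lemma mem_span_pow_iff {π : unitBall K} (hπ : (π : K) ≠ 0) (x : unitBall K) (n : ℕ) :
    x ∈ (Ideal.span {π} : Ideal (unitBall K)) ^ n ↔ ‖(x : K)‖ ≤ ‖(π : K)‖ ^ n := by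
  rw [Ideal.span_singleton_pow, Ideal.mem_span_singleton]
  constructor
  · rintro ⟨y, rfl⟩
    simp only [Subring.coe_mul, Subring.coe_pow, norm_mul, norm_pow]
    calc ‖(π : K)‖ ^ n * ‖(y : K)‖ ≤ ‖(π : K)‖ ^ n * 1 := by
          gcongr; exact norm_coe_unitBall_le y
      _ = _ := mul_one _
  · intro h
    have hpos : 0 < ‖(π : K)‖ ^ n := pow_pos (norm_pos_iff.mpr hπ) n
    have : ‖(x : K) / (π : K) ^ n‖ ≤ 1 := by
      rw [norm_div, norm_pow, div_le_one hpos]; exact h
    refine ⟨⟨(x : K) / (π : K) ^ n, this⟩, ?_⟩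
    ext
    simp only [Subring.coe_mul, Subring.coe_pow]
    field_simp

instance isAdicComplete_span [CompleteSpace K] (π : unitBall K) [hπ' : Fact ((π : K) ≠ 0)]
    [hπ1 : Fact (‖(π : K)‖ < 1)] :
    IsAdicComplete (Ideal.span {π} : Ideal (unitBall K)) (unitBall K) := by
  have hπ := hπ'.out
  have hlt := hπ1.out
  have hpos : 0 < ‖(π : K)‖ := norm_pos_iff.mpr hπ
  have hmem : ∀ (x : unitBall K) (n : ℕ),
      x ∈ ((Ideal.span {π} : Ideal (unitBall K)) ^ n • ⊤ : Submodule (unitBall K) (unitBall K)) ↔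
      ‖(x : K)‖ ≤ ‖(π : K)‖ ^ n := by
    intro x n
    rw [smul_eq_mul, Ideal.mul_top]
    exact mem_span_pow_iff hπ x n
  have hlim0 : Filter.Tendsto (fun n : ℕ => ‖(π : K)‖ ^ n) Filter.atTop (nhds 0) :=
    tendsto_pow_atTop_nhds_zero_of_lt_one hpos.le hlt
  refine { haus' := ?_, prec' := ?_ }
  · intro x hx
    have h : ∀ n : ℕ, ‖(x : K)‖ ≤ ‖(π : K)‖ ^ n := fun n =>
      (hmem x n).mp (by simpa [SModEq.zero] using hx n)
    have : ‖(x : K)‖ ≤ 0 := ge_of_tendsto' hlim0 h
    have h0 : (x : K) = 0 := norm_le_zero_iff.mp this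
    exact Subtype.ext h0
  · intro f hf
    have hf' : ∀ {m n : ℕ}, m ≤ n → ‖((f m : K) - (f n : K))‖ ≤ ‖(π : K)‖ ^ m := by
      intro m n hmn
      have := (hf hmn)
      rw [SModEq.sub_mem] at this
      have := (hmem _ m).mp this
      simpa using this
    have hc : CauchySeq (fun n => (f n : K)) := by
      refine cauchySeq_of_le_geometric ‖(π : K)‖ 1 hlt fun n => ?_
      rw [one_mul, dist_eq_norm]
      exact hf' (Nat.le_succ n)
    obtain ⟨L, hL⟩ := cauchySeq_tendsto_of_complete hc
    have hL1 : ‖L‖ ≤ 1 := by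
      have : Filter.Tendsto (fun n => ‖(f n : K)‖) Filter.atTop (nhds ‖L‖) := hL.norm
      exact le_of_tendsto' this fun n => norm_coe_unitBall_le (f n)
    refine ⟨⟨L, hL1⟩, fun n => ?_⟩
    rw [SModEq.sub_mem, hmem]
    have hlim : Filter.Tendsto (fun k => ‖(f n : K) - (f k : K)‖) Filter.atTop
        (nhds ‖(f n : K) - L‖) := (tendsto_const_nhds.sub hL).norm
    refine le_of_tendsto hlim ?_
    filter_upwards [Filter.eventually_ge_atTop n] with k hk
    exact hf' hk

/-! ### Evaluation of one-variable series: extras on top of `EvalOne` -/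

lemma IsInt.multiset_prod (s : Multiset (PowerSeries K)) (h : ∀ f ∈ s, IsInt f) : IsInt s.prod := by
  induction s using Multiset.induction_on with
  | empty => simpa using isInt_one
  | cons a s ih =>
    rw [Multiset.prod_cons]
    exact (h a (Multiset.mem_cons_self a s)).mul
      (ih fun f hf => h f (Multiset.mem_cons_of_mem hf))

lemma isInt_X_sub_C {a : K} (ha : ‖a‖ ≤ 1) : IsInt ((X : PowerSeries K) - C a) :=
  isInt_X.sub (isInt_C ha)

lemma isInt_derivative {f : PowerSeries K} (hf : IsInt f) : IsInt (d⁄dX K f) := fun i => by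
  rw [PowerSeries.coeff_derivative, norm_mul]
  refine mul_le_one₀ (hf _) (norm_nonneg _) ?_
  have := IsUltrametricDist.norm_natCast_le_one K (i + 1)
  simpa using this

lemma isInt_prod_X_sub_C (s : Multiset K) (hs : ∀ a ∈ s, ‖a‖ ≤ 1) :
    IsInt (s.map (fun a => (X : PowerSeries K) - C a)).prod := by
  refine IsInt.multiset_prod _ fun f hf => ?_
  obtain ⟨b, hb, rfl⟩ := Multiset.mem_map.mp hf
  exact isInt_X_sub_C (hs b hb)

section Eval

variable [CompleteSpace K]

lemma ev_X_sub_C {a x : K} (ha : ‖a‖ ≤ 1) (hx : ‖x‖ < 1) :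
    ev ((X : PowerSeries K) - C a) x = x - a := by
  rw [ev_sub isInt_X (isInt_C ha) hx, ev_X, ev_C]

/-- `ev` is the usual sum. -/
lemma ev_eq_tsum (f : PowerSeries K) (x : K) :
    ev f x = ∑' i : ℕ, PowerSeries.coeff i f * x ^ i := by
  let e' : (Unit →₀ ℕ) ≃ ℕ := Finsupp.equivFunOnFinite.trans (Equiv.funUnique Unit ℕ)
  have he' : ∀ γ, e' γ = γ () := fun γ => rfl
  rw [ev, evalS, ← e'.tsum_eq (fun i : ℕ => PowerSeries.coeff i f * x ^ i)]
  refine tsum_congr fun γ => ?_
  rw [coeff_unit, he']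
  simp [mval]

lemma ev_multiset_prod (s : Multiset K) (hs : ∀ a ∈ s, ‖a‖ ≤ 1) {x : K} (hx : ‖x‖ < 1) :
    ev (s.map (fun a => (X : PowerSeries K) - C a)).prod x = (s.map (fun a => x - a)).prod := by
  induction s using Multiset.induction_on with
  | empty => simpa using ev_one x
  | cons a s ih =>
    have hs' : ∀ b ∈ s, ‖b‖ ≤ 1 := fun b hb => hs b (Multiset.mem_cons_of_mem hb)
    simp only [Multiset.map_cons, Multiset.prod_cons]
    rw [ev_mul (isInt_X_sub_C (hs a (Multiset.mem_cons_self a s))) (isInt_prod_X_sub_C s hs') hx,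
      ev_X_sub_C (hs a (Multiset.mem_cons_self a s)) hx, ih hs']

end Eval

/-! ### Weierstrass factorisation -/

section Factor

variable [CompleteSpace K] [IsAlgClosed K]

/-- **Weierstrass factorisation**: a bounded series of Weierstrass degree `m` is
`∏_{a ∈ s} (X - a) * u`, `s` of cardinality `m` in the open disc, `u` a bounded unit with bounded
inverse. -/
theorem weierstrass_factor (f : PowerSeries K) (m : ℕ) (h1 : IsInt f)
    (hlow : ∀ i < m, ‖PowerSeries.coeff i f‖ < 1) (hm : ‖PowerSeries.coeff m f‖ = 1) :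
    ∃ (s : Multiset K) (u v : PowerSeries K), Multiset.card s = m ∧ (∀ a ∈ s, ‖a‖ < 1) ∧
      f = (s.map (fun a => (X : PowerSeries K) - C a)).prod * u ∧ IsInt u ∧ IsInt v ∧ u * v = 1 := by
  classical
  -- the uniformizer `π`
  obtain ⟨π₀, hπ0, hπ1, hπc⟩ : ∃ π₀ : K, π₀ ≠ 0 ∧ ‖π₀‖ < 1 ∧
      ∀ i < m, ‖PowerSeries.coeff i f‖ ≤ ‖π₀‖ := by
    obtain ⟨t, ht0, ht1⟩ := NormedField.exists_norm_lt_one K
    by_cases hall : ∀ i < m, PowerSeries.coeff i f = 0
    · refine ⟨t, norm_pos_iff.mp ht0, ht1, fun i hi => ?_⟩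
      rw [hall i hi, norm_zero]; exact ht0.le
    · push Not at hall
      obtain ⟨i₀, hi₀, hne⟩ := hall
      have hne' : (Finset.range m).Nonempty := ⟨i₀, Finset.mem_range.mpr hi₀⟩
      obtain ⟨i, hi, hmax⟩ := (Finset.range m).exists_max_image
        (fun i => ‖PowerSeries.coeff i f‖) hne'
      have hi' := Finset.mem_range.mp hi
      refine ⟨PowerSeries.coeff i f, ?_, hlow i hi', fun j hj => hmax j (Finset.mem_range.mpr hj)⟩
      intro h0
      have := hmax i₀ (Finset.mem_range.mpr hi₀)
      rw [h0, norm_zero] at this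
      exact hne (norm_le_zero_iff.mp this)
  let π : unitBall K := ⟨π₀, hπ1.le⟩
  haveI : Fact ((π : K) ≠ 0) := ⟨hπ0⟩
  haveI : Fact (‖(π : K)‖ < 1) := ⟨hπ1⟩
  set I : Ideal (unitBall K) := Ideal.span {π} with hI
  have hmemI : ∀ x : unitBall K, x ∈ I ↔ ‖(x : K)‖ ≤ ‖π₀‖ := by
    intro x
    have := mem_span_pow_iff (π := π) hπ0 x 1
    simpa using this
  -- the series over the unit ball
  let g : PowerSeries (unitBall K) := PowerSeries.mk fun i => ⟨PowerSeries.coeff i f, h1 i⟩
  have hgc : ∀ i, ((PowerSeries.coeff i g : unitBall K) : K) = PowerSeries.coeff i f := by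
    intro i; simp [g]
  have hord : (g.map (Ideal.Quotient.mk I)).order = m := by
    rw [PowerSeries.order_eq_nat]
    constructor
    · rw [PowerSeries.coeff_map, Ne, Ideal.Quotient.eq_zero_iff_mem, hmemI, hgc, hm]
      exact not_le.mpr hπ1
    · intro i hi
      rw [PowerSeries.coeff_map, Ideal.Quotient.eq_zero_iff_mem, hmemI, hgc]
      exact hπc i hi
  have hordN : (g.map (Ideal.Quotient.mk I)).order.toNat = m := by rw [hord]; simp
  have H : g.IsWeierstrassDivisorAt I := by
    rw [PowerSeries.IsWeierstrassDivisorAt, hordN]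
    apply isUnit_unitBall_of_norm
    rw [hgc, hm]
  have HD := H.isWeierstrassDivisionAt_div_mod (f := (X : PowerSeries (unitBall K)) ^ m)
  set q := H.div ((X : PowerSeries (unitBall K)) ^ m) with hq
  set r := H.mod ((X : PowerSeries (unitBall K)) ^ m) with hr
  have hdeg : r.degree < (m : WithBot ℕ) := by
    have := HD.degree_lt
    rwa [hordN] at this
  have heq : (X : PowerSeries (unitBall K)) ^ m = g * q + (r : PowerSeries (unitBall K)) :=
    HD.eq_mul_add
  have hrcoef : ∀ i, i < m → ‖((r.coeff i : unitBall K) : K)‖ ≤ ‖π₀‖ := by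
    intro i hi
    have := HD.coeff_f_sub_r_mem (i := i) (by rwa [hordN])
    rw [map_sub, PowerSeries.coeff_X_pow, if_neg hi.ne, zero_sub, neg_mem_iff,
      Polynomial.coeff_coe] at this
    exact (hmemI _).mp this
  have hrm : r.coeff m = 0 := Polynomial.coeff_eq_zero_of_degree_lt hdeg
  -- q is a unit
  have hq0 : ‖((PowerSeries.constantCoeff q : unitBall K) : K)‖ = 1 := by
    refine le_antisymm (norm_coe_unitBall_le _) ?_
    by_contra hlt
    push Not at hlt
    have hc := congrArg (PowerSeries.coeff m) heq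
    rw [PowerSeries.coeff_X_pow, if_pos rfl, map_add, Polynomial.coeff_coe, hrm, add_zero,
      PowerSeries.coeff_mul] at hc
    have hc' : (1 : K) = ∑ p ∈ Finset.HasAntidiagonal.antidiagonal m,
        ((PowerSeries.coeff p.1 g : unitBall K) : K) * ((PowerSeries.coeff p.2 q : unitBall K) : K) := by
      have := congrArg (Subtype.val) hc
      simpa using this
    have hbd : ‖∑ p ∈ Finset.HasAntidiagonal.antidiagonal m,
        ((PowerSeries.coeff p.1 g : unitBall K) : K) * ((PowerSeries.coeff p.2 q : unitBall K) : K)‖ ≤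
        max ‖π₀‖ ‖((PowerSeries.constantCoeff q : unitBall K) : K)‖ := by
      refine IsUltrametricDist.norm_sum_le_of_forall_le_of_nonneg (le_max_of_le_left (norm_nonneg _)) ?_
      rintro ⟨i, j⟩ hp
      have hp' : i + j = m := Finset.HasAntidiagonal.mem_antidiagonal.mp hp
      rw [norm_mul, hgc]
      by_cases hj : j = 0
      · subst hj
        have hjc : ((PowerSeries.coeff 0 q : unitBall K) : K) = (PowerSeries.constantCoeff q : unitBall K) := by
          simp
        simp only [hjc]
        exact (mul_le_of_le_one_left (norm_nonneg _) (h1 i)).trans (le_max_right _ _)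
      · have hi : i < m := by omega
        refine le_max_of_le_left ?_
        calc _ ≤ ‖π₀‖ * 1 := mul_le_mul (hπc i hi) (norm_coe_unitBall_le _) (norm_nonneg _) (norm_nonneg _)
          _ = ‖π₀‖ := mul_one _
    rw [← hc', norm_one] at hbd
    exact absurd hbd (not_le.mpr (max_lt hπ1 hlt))
  have hqu : IsUnit q := by
    rw [PowerSeries.isUnit_iff_constantCoeff]
    exact isUnit_unitBall_of_norm hq0
  obtain ⟨v', hv'⟩ := hqu.exists_right_inv
  -- the polynomial
  let ι : unitBall K →+* K := (unitBall K).subtype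
  have hgmap : g.map ι = f := by
    ext i
    simp [ι, PowerSeries.coeff_map, g]
  let P' : Polynomial (unitBall K) := Polynomial.X ^ m - r
  have hP'eq : (P' : PowerSeries (unitBall K)) = g * q := by
    simp only [P', Polynomial.coe_sub, Polynomial.coe_pow, Polynomial.coe_X]
    rw [heq]; ring
  have hP'mon : P'.Monic := Polynomial.monic_X_pow_sub (by simpa using hdeg) 
  have hP'deg : P'.natDegree = m := by
    apply Polynomial.natDegree_eq_of_degree_eq_some
    simp only [P']
    rw [Polynomial.degree_sub_eq_left_of_degree_lt (by rwa [Polynomial.degree_X_pow]),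
      Polynomial.degree_X_pow]
  let P : Polynomial K := P'.map ι
  have hPmon : P.Monic := hP'mon.map ι
  have hPdeg : P.natDegree = m := by
    rw [Polynomial.natDegree_map_eq_of_injective (unitBall K).subtype_injective, hP'deg]
  have hPcoef : ∀ i < m, ‖P.coeff i‖ ≤ ‖π₀‖ := by
    intro i hi
    simp only [P, P', Polynomial.coeff_map, Polynomial.coeff_sub, Polynomial.coeff_X_pow,
      if_neg hi.ne, zero_sub, map_neg, norm_neg]
    exact hrcoef i hi
  have hsplits : P.Splits := IsAlgClosed.splits P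
  have hPprod : P = (P.roots.map (fun a => Polynomial.X - Polynomial.C a)).prod := by
    have := hsplits.eq_prod_roots_of_monic hPmon
    simpa using this
  have hcard : Multiset.card P.roots = m := by
    rw [← hsplits.natDegree_eq_card_roots, hPdeg]
  have hroots : ∀ a ∈ P.roots, ‖a‖ < 1 := by
    intro a ha
    have ha0 : P.eval a = 0 := (Polynomial.mem_roots'.mp ha).2
    by_contra hge
    push Not at hge
    have hm0 : 1 ≤ m := by
      by_contra h0
      have : m = 0 := by omega
      rw [this] at hcard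
      have := Multiset.card_eq_zero.mp hcard
      rw [this] at ha
      simp at ha
    have hexp := Polynomial.eval_eq_sum_range (p := P) a
    rw [ha0, hPdeg, Finset.sum_range_succ] at hexp
    have hlead : P.coeff m = 1 := by
      have := hPmon.coeff_natDegree
      rwa [hPdeg] at this
    rw [hlead, one_mul] at hexp
    have hxn : a ^ m = - ∑ i ∈ Finset.range m, P.coeff i * a ^ i := by
      rw [eq_neg_iff_add_eq_zero, add_comm]; exact hexp.symm
    have hb : ‖∑ i ∈ Finset.range m, P.coeff i * a ^ i‖ ≤ ‖π₀‖ * ‖a‖ ^ m := by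
      refine IsUltrametricDist.norm_sum_le_of_forall_le_of_nonneg (by positivity) fun i hi => ?_
      rw [norm_mul, norm_pow]
      have hi' := Finset.mem_range.mp hi
      exact mul_le_mul (hPcoef i hi') (pow_le_pow_right₀ hge hi'.le) (by positivity) (norm_nonneg _)
    have h2 : ‖a‖ ^ m ≤ ‖π₀‖ * ‖a‖ ^ m := by
      calc ‖a‖ ^ m = ‖a ^ m‖ := (norm_pow _ _).symm
        _ = ‖∑ i ∈ Finset.range m, P.coeff i * a ^ i‖ := by rw [hxn, norm_neg]
        _ ≤ _ := hb
    have hapos : 0 < ‖a‖ ^ m := pow_pos (lt_of_lt_of_le one_pos hge) m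
    nlinarith
  have hPcoe : (P : PowerSeries K) = (P.roots.map (fun a => (X : PowerSeries K) - C a)).prod := by
    conv_lhs => rw [hPprod]
    have := map_multiset_prod (Polynomial.coeToPowerSeries.ringHom (R := K))
      (P.roots.map (fun a => Polynomial.X - Polynomial.C a))
    rw [Multiset.map_map] at this
    have hfun : (⇑(Polynomial.coeToPowerSeries.ringHom (R := K)) ∘
        fun a => Polynomial.X - Polynomial.C a) = fun a => (X : PowerSeries K) - C a := by
      funext a
      simp [Polynomial.coeToPowerSeries.ringHom_apply]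
    rw [hfun] at this
    exact this
  have hgfac : g = (P' : PowerSeries (unitBall K)) * v' := by
    rw [hP'eq, mul_assoc, hv', mul_one]
  have hmapP : PowerSeries.map ι (P' : PowerSeries (unitBall K)) = (P : PowerSeries K) := by
    simp only [P]
    rw [Polynomial.polynomial_map_coe]
  refine ⟨P.roots, PowerSeries.map ι v', PowerSeries.map ι q, hcard, hroots, ?_, ?_, ?_, ?_⟩
  · rw [← hPcoe, ← hmapP, ← map_mul, ← hgfac, hgmap]
  · intro i
    rw [PowerSeries.coeff_map]
    exact norm_coe_unitBall_le _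
  · intro i
    rw [PowerSeries.coeff_map]
    exact norm_coe_unitBall_le _
  · rw [← map_mul, mul_comm, hv', map_one]

/-- Values of a bounded unit are nonzero on the open disc. -/
lemma ev_ne_zero_of_unit {u v : PowerSeries K} (hu : IsInt u) (hv : IsInt v) (huv : u * v = 1)
    {x : K} (hx : ‖x‖ < 1) : ev u x ≠ 0 := by
  intro h
  have := ev_mul hu hv hx
  rw [huv, ev_one, h, zero_mul] at this
  exact one_ne_zero this

/-- Root lemma (RL): a bounded series of Weierstrass degree `m ≥ 1` has a root in the open disc. -/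
theorem exists_root (f : PowerSeries K) (m : ℕ) (hm1 : 1 ≤ m) (h1 : IsInt f)
    (hlow : ∀ i < m, ‖PowerSeries.coeff i f‖ < 1) (hm : ‖PowerSeries.coeff m f‖ = 1) :
    ∃ x : K, ‖x‖ < 1 ∧ ev f x = 0 := by
  obtain ⟨s, u, v, hs, hs1, hf, hu, hv, huv⟩ := weierstrass_factor f m h1 hlow hm
  have hne : s ≠ 0 := by
    rintro rfl
    simp at hs
    omega
  obtain ⟨a, ha⟩ := Multiset.exists_mem_of_ne_zero hne
  refine ⟨a, hs1 a ha, ?_⟩
  have hs1' : ∀ b ∈ s, ‖b‖ ≤ 1 := fun b hb => (hs1 b hb).le
  rw [hf, ev_mul (isInt_prod_X_sub_C s hs1') hu (hs1 a ha), ev_multiset_prod s hs1' (hs1 a ha)]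
  have : (s.map (fun b => a - b)).prod = 0 :=
    Multiset.prod_eq_zero (Multiset.mem_map.mpr ⟨a, ha, sub_self a⟩)
  rw [this, zero_mul]

/-- Characterisation of roots through the factorisation. -/
lemma ev_eq_zero_iff_mem {f u v : PowerSeries K} {s : Multiset K} (hs1 : ∀ a ∈ s, ‖a‖ < 1)
    (hf : f = (s.map (fun a => (X : PowerSeries K) - C a)).prod * u) (hu : IsInt u) (hv : IsInt v)
    (huv : u * v = 1) {x : K} (hx : ‖x‖ < 1) : ev f x = 0 ↔ x ∈ s := by
  have hs1' : ∀ b ∈ s, ‖b‖ ≤ 1 := fun b hb => (hs1 b hb).le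
  rw [hf, ev_mul (isInt_prod_X_sub_C s hs1') hu hx, ev_multiset_prod s hs1' hx,
    mul_eq_zero, or_iff_left (ev_ne_zero_of_unit hu hv huv hx), Multiset.prod_eq_zero_iff]
  simp only [Multiset.mem_map, sub_eq_zero]
  constructor
  · rintro ⟨a, ha, rfl⟩
    exact ha
  · intro h
    exact ⟨x, h, rfl⟩

/-- A finite set of roots in the open disc has at most `m` elements. -/
theorem card_roots_le (f : PowerSeries K) (m : ℕ) (h1 : IsInt f)
    (hlow : ∀ i < m, ‖PowerSeries.coeff i f‖ < 1) (hm : ‖PowerSeries.coeff m f‖ = 1)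
    (S : Finset K) (hS : ∀ x ∈ S, ‖x‖ < 1 ∧ ev f x = 0) : S.card ≤ m := by
  classical
  obtain ⟨s, u, v, hs, hs1, hf, hu, hv, huv⟩ := weierstrass_factor f m h1 hlow hm
  have hsub : S ⊆ s.toFinset := fun x hx =>
    Multiset.mem_toFinset.mpr ((ev_eq_zero_iff_mem hs1 hf hu hv huv (hS x hx).1).mp (hS x hx).2)
  calc S.card ≤ s.toFinset.card := Finset.card_le_card hsub
    _ ≤ Multiset.card s := Multiset.toFinset_card_le s
    _ = m := hs

/-- If all roots in the open disc are simple, there are exactly `m` of them. -/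
theorem exists_finset_roots_of_simple (f : PowerSeries K) (m : ℕ) (h1 : IsInt f)
    (hlow : ∀ i < m, ‖PowerSeries.coeff i f‖ < 1) (hm : ‖PowerSeries.coeff m f‖ = 1)
    (hsimple : ∀ x : K, ‖x‖ < 1 → ev f x = 0 → ev (d⁄dX K f) x ≠ 0) :
    ∃ S : Finset K, S.card = m ∧ ∀ x, x ∈ S ↔ ‖x‖ < 1 ∧ ev f x = 0 := by
  classical
  obtain ⟨s, u, v, hs, hs1, hf, hu, hv, huv⟩ := weierstrass_factor f m h1 hlow hm
  have hs1' : ∀ b ∈ s, ‖b‖ ≤ 1 := fun b hb => (hs1 b hb).le
  have hnd : s.Nodup := by
    rw [Multiset.nodup_iff_count_le_one]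
    intro a
    by_contra hcount
    push Not at hcount
    have ha : a ∈ s := Multiset.count_pos.mp (by omega)
    have ha1 := hs1 a ha
    -- `(X - a)^2` divides `f`
    have hle : Multiset.replicate 2 a ≤ s := Multiset.le_count_iff_replicate_le.mp hcount
    obtain ⟨t, ht⟩ := Multiset.le_iff_exists_add.mp hle
    have ht1 : ∀ b ∈ t, ‖b‖ ≤ 1 := fun b hb => hs1' b (by rw [ht]; exact Multiset.mem_add.mpr (Or.inr hb))
    set A : PowerSeries K := X - C a with hA
    set h : PowerSeries K := (t.map (fun b => (X : PowerSeries K) - C b)).prod * u with hh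
    have hAb : IsInt A := isInt_X_sub_C ha1.le
    have hhb : IsInt h := (isInt_prod_X_sub_C t ht1).mul hu
    have hfac : f = A * (A * h) := by
      rw [hf, ht]
      simp only [Multiset.map_add, Multiset.prod_add, Multiset.map_replicate, Multiset.prod_replicate, hh]
      ring
    have hder : d⁄dX K f = A * (A * d⁄dX K h + 2 * (d⁄dX K A * h)) := by
      rw [hfac]
      simp only [Derivation.leibniz, smul_eq_mul]
      ring
    have hAa : ev A a = 0 := by
      rw [hA, ev_X_sub_C ha1.le ha1, sub_self]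
    have hroot : ev f a = 0 := by
      rw [hfac, ev_mul hAb (hAb.mul hhb) ha1, hAa, zero_mul]
    apply hsimple a ha1 hroot
    have hAD : IsInt (A * d⁄dX K h + 2 * (d⁄dX K A * h)) := by
      refine (hAb.mul (isInt_derivative hhb)).add ?_
      have h2 : (2 : PowerSeries K) = 1 + 1 := by norm_num
      rw [h2]
      exact (isInt_one.add isInt_one).mul ((isInt_derivative hAb).mul hhb)
    rw [hder, ev_mul hAb hAD ha1, hAa, zero_mul]
  refine ⟨s.toFinset, ?_, fun x => ?_⟩
  · rw [Multiset.toFinset_card_of_nodup hnd, hs]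
  · rw [Multiset.mem_toFinset]
    constructor
    · intro hx
      exact ⟨hs1 x hx, (ev_eq_zero_iff_mem hs1 hf hu hv huv (hs1 x hx)).mpr hx⟩
    · rintro ⟨hx, h0⟩
      exact (ev_eq_zero_iff_mem hs1 hf hu hv huv hx).mp h0

end Factor

end Crest.Agent.LT
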