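/-
E1 continued: the lattice `Λ`, `Λ₁`, surjectivity of `ϖ₁`, the extremal basis and (Orth)
(BLUEPRINT §E1, T7).
-/
import Crest.Agent.Lib.LT.P3Tower
import Crest.Agent.Lib.LT.Roots

set_option autoImplicit false
set_option linter.unusedSectionVars false
set_option linter.unusedVariables false
set_option linter.unnecessarySimpa false
set_option linter.style.haveILetI false

namespace Crest.Agent.LT

open Filter Topology

open Crest.LubinTate

/-! ### Independent families in an abelian group -/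

section indep

variable {p : ℕ} {G : Type*} [AddCommGroup G] {ι : Type*} [Fintype ι]

/-- `x` is independent modulo `p`. -/
def IndF (p : ℕ) (x : ι → G) : Prop := ∀ C : ι → ℕ, ∑ l, C l • x l = 0 → ∀ l, p ∣ C l

lemma IndF.ne_zero [Fact p.Prime] [DecidableEq ι] {x : ι → G} (hx : IndF p x) (l : ι) : x l ≠ 0 := by
  intro h
  have := hx (fun l' => if l' = l then 1 else 0) (by
    refine Finset.sum_eq_zero fun l' _ => ?_
    by_cases hl : l' = l
    · simp [hl, h]
    · simp [hl]) l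
  simp only [if_true] at this
  exact (Fact.out : p.Prime).one_lt.ne' (Nat.dvd_one.1 this)

lemma IndF.update [Fact p.Prime] [DecidableEq ι] {x : ι → G} (hx : IndF p x) (l₀ : ι) (c : ι → ℕ)
    (hc : ¬ p ∣ c l₀) : IndF p (Function.update x l₀ (∑ l, c l • x l)) := by
  intro E hE
  have hp : p.Prime := Fact.out
  set A := ∑ l, c l • x l with hA
  have hsum : ∑ l, ((if l = l₀ then 0 else E l) + E l₀ * c l) • x l = 0 := by
    rw [← hE]
    have h1 : ∑ l, ((if l = l₀ then 0 else E l) + E l₀ * c l) • x l =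
        ∑ l, (if l = l₀ then 0 else E l) • x l + E l₀ • A := by
      rw [hA, Finset.smul_sum, ← Finset.sum_add_distrib]
      refine Finset.sum_congr rfl fun l _ => ?_
      rw [add_smul, mul_smul]
    rw [h1, ← Finset.add_sum_erase _ _ (Finset.mem_univ l₀),
      ← Finset.add_sum_erase _ (fun l => E l • Function.update x l₀ A l) (Finset.mem_univ l₀)]
    simp only [if_true, zero_smul, zero_add, Function.update_self]
    have h2 : ∑ l ∈ Finset.univ.erase l₀, (if l = l₀ then 0 else E l) • x l =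
        ∑ l ∈ Finset.univ.erase l₀, E l • Function.update x l₀ A l := by
      refine Finset.sum_congr rfl fun l hl => ?_
      have hne : l ≠ l₀ := Finset.ne_of_mem_erase hl
      rw [if_neg hne, Function.update_of_ne hne]
    rw [h2, add_comm]
  have key := hx _ hsum
  have h0 : p ∣ E l₀ := by
    have := key l₀
    simp only [if_true, zero_add] at this
    exact (hp.dvd_mul.1 this).resolve_right hc
  intro l
  by_cases hl : l = l₀
  · rw [hl]; exact h0
  · have := key l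
    rw [if_neg hl] at this
    exact (Nat.dvd_add_left (dvd_mul_of_dvd_left h0 _)).1 this

/-- Basis of a finite `p`-torsion subgroup of order `p^d`. -/
lemma exists_ind_span {d : ℕ} [Fact p.Prime] (L : AddSubgroup G) (hp : ∀ x ∈ L, p • x = 0)
    (hc : Nat.card L = p ^ d) :
    ∃ b : Fin d → G, (∀ l, b l ∈ L) ∧ IndF p b ∧ ∀ x ∈ L, ∃ C : Fin d → ℕ, x = ∑ l, C l • b l := by
  classical
  have hpp : p.Prime := Fact.out
  have hfin : Finite L := Nat.finite_of_card_ne_zero (by rw [hc]; exact pow_ne_zero _ hpp.ne_zero)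
  letI : Fintype L := Fintype.ofFinite L
  letI : Module (ZMod p) L := AddCommGroup.zmodModule (n := p) (fun x => Subtype.ext (hp x.1 x.2))
  have hcard := Module.card_eq_pow_finrank (K := ZMod p) (V := L)
  rw [ZMod.card, ← Nat.card_eq_fintype_card, hc] at hcard
  have hfr : Module.finrank (ZMod p) L = d :=
    (Nat.pow_right_injective hpp.two_le hcard).symm
  let B := Module.finBasisOfFinrankEq (ZMod p) L hfr
  have hcast : ∀ (n : ℕ) (y : L), (n : ZMod p) • y = n • y := fun n y => Nat.cast_smul_eq_nsmul _ _ _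
  refine ⟨fun l => (B l : G), fun l => (B l).2, ?_, ?_⟩
  · intro C hC l
    have h1 : ∑ i, (C i : ZMod p) • B i = 0 := by
      apply Subtype.ext
      simp only [hcast]
      simpa using hC
    have h2 := (Fintype.linearIndependent_iff.1 B.linearIndependent) _ h1 l
    exact (ZMod.natCast_eq_zero_iff _ _).1 h2
  · intro x hx
    refine ⟨fun l => (B.repr ⟨x, hx⟩ l).val, ?_⟩
    have h1 := B.sum_repr ⟨x, hx⟩
    have h2 : ∀ l, (B.repr ⟨x, hx⟩ l) • B l = ((B.repr ⟨x, hx⟩ l).val) • B l := by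
      intro l
      rw [← hcast, ZMod.natCast_zmod_val]
    simp only [h2] at h1
    have h3 := congrArg Subtype.val h1
    simpa using h3.symm

/-- An independent family of size `d` in a `p`-torsion group of order `p^d` spans. -/
lemma IndF.span {d : ℕ} [Fact p.Prime] (L : AddSubgroup G) (hp : ∀ x ∈ L, p • x = 0)
    (hc : Nat.card L = p ^ d) {b : Fin d → G} (hb : ∀ l, b l ∈ L) (hind : IndF p b) :
    ∀ x ∈ L, ∃ C : Fin d → ℕ, x = ∑ l, C l • b l := by
  classical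
  have hpp : p.Prime := Fact.out
  haveI : NeZero p := ⟨hpp.ne_zero⟩
  have hfin : Finite L := Nat.finite_of_card_ne_zero (by rw [hc]; exact pow_ne_zero _ hpp.ne_zero)
  letI : Fintype L := Fintype.ofFinite L
  let Φ : (Fin d → Fin p) → L := fun c => ⟨∑ l, (c l : ℕ) • b l,
    L.sum_mem fun l _ => L.nsmul_mem (hb l) _⟩
  have hinj : Function.Injective Φ := by
    intro c c' hcc
    have h1 : ∑ l, (c l : ℕ) • b l = ∑ l, (c' l : ℕ) • b l := congrArg Subtype.val hcc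
    have h2 : ∑ l, ((c l : ℕ) + (p - (c' l : ℕ))) • b l = 0 := by
      have h3 : ∀ l, ((c l : ℕ) + (p - (c' l : ℕ))) • b l = (c l : ℕ) • b l - (c' l : ℕ) • b l := by
        intro l
        have hle : (c' l : ℕ) ≤ p := (c' l).2.le
        have h4 : (p - (c' l : ℕ)) • b l + (c' l : ℕ) • b l = 0 := by
          rw [← add_smul, Nat.sub_add_cancel hle]
          exact hp _ (hb l)
        rw [add_smul, eq_sub_of_add_eq h4]
        abel
      simp only [h3]
      rw [Finset.sum_sub_distrib, h1, sub_self]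
    funext l
    have h5 := hind _ h2 l
    have h6 : (c l : ℕ) = (c' l : ℕ) := by
      have hc1 := (c l).2
      have hc2 := (c' l).2
      obtain ⟨k, hk⟩ := h5
      have hk1 : k = 1 := by
        have h7 : p * k < p * 2 := by rw [← hk]; omega
        have h8 : 0 < p * k := by rw [← hk]; omega
        have h9 : k < 2 := lt_of_mul_lt_mul_left h7 (Nat.zero_le _)
        have h10 : 0 < k := Nat.pos_of_mul_pos_left h8 |> fun h => by
          rcases Nat.eq_zero_or_pos k with h0 | h0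
          · subst h0; simp at h8
          · exact h0
        omega
      rw [hk1, mul_one] at hk
      omega
    exact Fin.ext h6
  have hbij : Function.Bijective Φ := by
    rw [Fintype.bijective_iff_injective_and_card]
    refine ⟨hinj, ?_⟩
    rw [← Nat.card_eq_fintype_card (α := L), hc]
    simp
  intro x hx
  obtain ⟨c, hc'⟩ := hbij.2 ⟨x, hx⟩
  exact ⟨fun l => (c l : ℕ), (congrArg Subtype.val hc').symm⟩

end indep

variable {K : Type*} [NontriviallyNormedField K] [IsUltrametricDist K] [CompleteSpace K]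

/-! ### The group of points of a law -/

/-- The points of the open disc, with the group law `F`. -/
def Pts (F : FormalGroup K) : Type _ := Disc K

namespace Pts

variable {F : FormalGroup K}

noncomputable instance [F.IsComm] [hF : Fact (IsIntLaw F)] : AddCommGroup (Pts F) :=
  discGroup F hF.out

/-- The underlying element. -/
def val (x : Pts F) : K := Subtype.val x

lemma norm_lt (x : Pts F) : ‖x.val‖ < 1 := Subtype.property x

/-- Constructor. -/
def mk (F : FormalGroup K) (x : K) (hx : ‖x‖ < 1) : Pts F := ⟨x, hx⟩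

@[simp] lemma val_mk (x : K) (hx : ‖x‖ < 1) : (mk F x hx).val = x := rfl

@[ext] lemma ext {x y : Pts F} (h : x.val = y.val) : x = y := Subtype.ext h

variable [F.IsComm] [hF : Fact (IsIntLaw F)]

@[simp] lemma val_add (x y : Pts F) : (x + y).val = ptAdd F x.val y.val := rfl

@[simp] lemma val_zero : (0 : Pts F).val = 0 := rfl

@[simp] lemma val_neg (x : Pts F) : (-x).val = ptNeg F x.val := rfl

lemma val_nsmul (m : ℕ) (x : Pts F) : (m • x).val = ev (mulSeries F m) x.val :=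
  (ev_mulSeries hF.out m x).symm

end Pts

namespace TowerData

variable {p : ℕ} [Fact p.Prime] [CharP K p] [PerfectRing K p] {h d : ℕ} (D : TowerData p K h d)

instance factFj (j : ℕ) : Fact (IsIntLaw (D.Fj j)) := ⟨D.Fj_int j⟩

instance factΓ : Fact (IsIntLaw D.Γ) := ⟨D.Γ_int⟩

instance commΓ : D.Γ.IsComm := D.Γcomm

/-- `ϖ_j` as a group homomorphism. -/
noncomputable def ϖHom (j : ℕ) : Pts D.Γ →+ Pts (D.Fj j) :=
  AddMonoidHom.mk' (fun T => Pts.mk _ (D.ϖ j T.val) (D.norm_ϖ_lt j T.norm_lt))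
    (fun T T' => Pts.ext (D.ϖ_ptAdd j T.norm_lt T'.norm_lt))

@[simp] lemma ϖHom_val (j : ℕ) (T : Pts D.Γ) : (D.ϖHom j T).val = D.ϖ j T.val := rfl

/-- `V^[j]` as a group homomorphism. -/
noncomputable def VHom (j : ℕ) : Pts (D.Fj (j + 1)) →+ Pts (D.Fj j) :=
  AddMonoidHom.mk' (fun x => Pts.mk _ (ev (D.Vj j) x.val) (norm_ev_lt_one (D.Vj_int j) (D.Vj_cc j) x.norm_lt))
    (fun x y => Pts.ext (ev_ptAdd (D.Vj_hom j) (D.Vj_int j) (D.Fj_int _) (D.Fj_int _) x.norm_lt y.norm_lt))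

@[simp] lemma VHom_val (j : ℕ) (x : Pts (D.Fj (j + 1))) : (D.VHom j x).val = ev (D.Vj j) x.val := rfl

lemma VHom_ϖHom (j : ℕ) (T : Pts D.Γ) : D.VHom j (D.ϖHom (j + 1) T) = D.ϖHom j T :=
  Pts.ext (D.ev_Vj_ϖ j T.norm_lt)

/-- `[p]` of the twist is `X^(p^h) ∘ V`. -/
lemma Fj_mulSeries (j : ℕ) : mulSeries (D.Fj (j + 1)) p = cmp (PowerSeries.X ^ p ^ h) (D.Vj j) := by
  have h1 := X_pow_cmp_V p D.F D.V_hom.1 D.V_p
  have h2 := congrArg (PowerSeries.map (fr p (j * h))) h1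
  rw [map_cmp _ D.V_hom.1, ← mulSeries_map] at h2
  unfold Fj Vj
  rw [show (j + 1) * h = j * h + h by ring, ← twL_twL]
  refine Eq.trans h2.symm ?_
  congr 1
  simp

/-- In `Pts F^[j+1]`, `p • x = (V x)^(p^h)`. -/
lemma val_p_smul_Fj (j : ℕ) (x : Pts (D.Fj (j + 1))) :
    (p • x).val = (D.VHom j x).val ^ p ^ h := by
  rw [Pts.val_nsmul, D.Fj_mulSeries, ev_cmp (isInt_X_pow _) (D.Vj_int j) (D.Vj_cc j) x.norm_lt,
    ev_X_pow (norm_ev_lt_one (D.Vj_int j) (D.Vj_cc j) x.norm_lt)]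
  rfl

/-- In `Pts Γ`, `p • T = T^q`. -/
lemma val_p_smul_Γ (T : Pts D.Γ) : (p • T).val = T.val ^ p ^ (h + d) := by
  rw [Pts.val_nsmul, D.Γ_p, ev_X_pow T.norm_lt]

lemma val_pow_smul_Γ (k : ℕ) (T : Pts D.Γ) : ((p ^ k) • T).val = T.val ^ p ^ ((h + d) * k) := by
  induction k with
  | zero => simp
  | succ k ih =>
    rw [pow_succ', mul_smul, val_p_smul_Γ, ih, ← pow_mul, ← pow_add]
    congr 2

/-- `Λ = ker ϖ₀`. -/
noncomputable def Λ : AddSubgroup (Pts D.Γ) := (D.ϖHom 0).ker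

/-- `Λ₁ = ker V^[0]`, a subgroup of the disc for `F^[1]`. -/
noncomputable def Λ₁ : AddSubgroup (Pts (D.Fj 1)) := (D.VHom 0).ker

lemma mem_Λ {T : Pts D.Γ} : T ∈ D.Λ ↔ D.ϖ 0 T.val = 0 := by
  rw [Λ, AddMonoidHom.mem_ker]
  exact ⟨fun h => congrArg Pts.val h, fun h => Pts.ext h⟩

lemma mem_Λ₁ {x : Pts (D.Fj 1)} : x ∈ D.Λ₁ ↔ ev (D.Vj 0) x.val = 0 := by
  rw [Λ₁, AddMonoidHom.mem_ker]
  exact ⟨fun h => congrArg Pts.val h, fun h => Pts.ext h⟩

lemma p_smul_Λ₁ {x : Pts (D.Fj 1)} (hx : x ∈ D.Λ₁) : p • x = 0 := by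
  apply Pts.ext
  rw [D.val_p_smul_Fj 0, VHom_val, D.mem_Λ₁.1 hx, zero_pow (pow_ne_zero _ (Fact.out : p.Prime).ne_zero)]
  rfl

lemma ϖHom_one_mem {T : Pts D.Γ} (hT : T ∈ D.Λ) : D.ϖHom 1 T ∈ D.Λ₁ := by
  rw [Λ₁, AddMonoidHom.mem_ker, D.VHom_ϖHom 0 T]
  exact hT

/-! ### Roots -/

lemma norm_coeff_low (j i : ℕ) (hi : i ≠ p ^ d) : ‖PowerSeries.coeff i (D.Vj j)‖ ≤ D.r j := by
  have := D.Vj_close j i
  rwa [PowerSeries.coeff_X_pow, if_neg hi, sub_zero] at this

lemma norm_coeff_top (j : ℕ) : ‖PowerSeries.coeff (p ^ d) (D.Vj j)‖ = 1 := by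
  have h1 := D.Vj_close j (p ^ d)
  rw [PowerSeries.coeff_X_pow, if_pos rfl] at h1
  have h2 : ‖PowerSeries.coeff (p ^ d) (D.Vj j) - 1‖ < 1 := h1.trans_lt (D.r_lt_one j)
  have e : PowerSeries.coeff (p ^ d) (D.Vj j) = (PowerSeries.coeff (p ^ d) (D.Vj j) - 1) + 1 := by ring
  rw [e, IsUltrametricDist.norm_add_eq_max_of_norm_ne_norm (by rw [norm_one]; exact h2.ne), norm_one]
  exact max_eq_right h2.le

section roots

variable [IsAlgClosed K]

/-- `V^[j]` is surjective on the open disc. -/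
lemma exists_Vj_eq (j : ℕ) {a : K} (ha : ‖a‖ < 1) : ∃ x : K, ‖x‖ < 1 ∧ ev (D.Vj j) x = a := by
  classical
  have hq : 1 ≤ p ^ d := Nat.one_le_pow _ _ (Fact.out : p.Prime).pos
  have hint : IsInt (D.Vj j - PowerSeries.C a) := (D.Vj_int j).sub (isInt_C ha.le)
  have hlow : ∀ i < p ^ d, ‖PowerSeries.coeff i (D.Vj j - PowerSeries.C a)‖ < 1 := by
    intro i hi
    rw [map_sub, PowerSeries.coeff_C]
    by_cases h0 : i = 0
    · subst h0
      simp only [if_true]
      rw [PowerSeries.coeff_zero_eq_constantCoeff_apply, D.Vj_cc, zero_sub, norm_neg]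
      exact ha
    · rw [if_neg h0, sub_zero]
      exact (D.norm_coeff_low j i hi.ne).trans_lt (D.r_lt_one j)
  have htop : ‖PowerSeries.coeff (p ^ d) (D.Vj j - PowerSeries.C a)‖ = 1 := by
    rw [map_sub, PowerSeries.coeff_C, if_neg (by omega), sub_zero]
    exact D.norm_coeff_top j
  obtain ⟨x, hx, hx0⟩ := exists_root _ (p ^ d) hq hint hlow htop
  refine ⟨x, hx, ?_⟩
  rw [ev_sub (D.Vj_int j) (isInt_C ha.le) hx, ev_C, sub_eq_zero] at hx0
  exact hx0

/-- Fibres of `V^[j]` are finite. -/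
lemma finite_fibre (j : ℕ) {a : K} (ha : ‖a‖ < 1) : {x : K | ‖x‖ < 1 ∧ ev (D.Vj j) x = a}.Finite := by
  classical
  have hint : IsInt (D.Vj j - PowerSeries.C a) := (D.Vj_int j).sub (isInt_C ha.le)
  have hlow : ∀ i < p ^ d, ‖PowerSeries.coeff i (D.Vj j - PowerSeries.C a)‖ < 1 := by
    intro i hi
    rw [map_sub, PowerSeries.coeff_C]
    by_cases h0 : i = 0
    · subst h0
      simp only [if_true]
      rw [PowerSeries.coeff_zero_eq_constantCoeff_apply, D.Vj_cc, zero_sub, norm_neg]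
      exact ha
    · rw [if_neg h0, sub_zero]
      exact (D.norm_coeff_low j i hi.ne).trans_lt (D.r_lt_one j)
  have htop : ‖PowerSeries.coeff (p ^ d) (D.Vj j - PowerSeries.C a)‖ = 1 := by
    have hq : 1 ≤ p ^ d := Nat.one_le_pow _ _ (Fact.out : p.Prime).pos
    rw [map_sub, PowerSeries.coeff_C, if_neg (by omega), sub_zero]
    exact D.norm_coeff_top j
  by_contra hinf
  obtain ⟨t, ht, hc⟩ := Set.Infinite.exists_subset_card_eq hinf (p ^ d + 1)
  have := card_roots_le _ (p ^ d) hint hlow htop t (fun x hx => by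
    obtain ⟨h1, h2⟩ := ht hx
    refine ⟨h1, ?_⟩
    rw [ev_sub (D.Vj_int j) (isInt_C ha.le) h1, ev_C, h2, sub_self])
  omega

end roots

/-- Integrality of `fgD`. -/
lemma isInt_fgD {F : FormalGroup K} (hF : IsIntLaw F) : IsInt (fgD F) := by
  intro a
  rw [fgD, show (PowerSeries.coeff a) ((MvPowerSeries.pderiv K 1 F.toPowerSeries).subst
      ![PowerSeries.X (R := K), 0] : PowerSeries K) = _ from coeff_subst_X_zero _ a,
    MvPowerSeries.coeff_pderiv, norm_mul]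
  refine mul_le_one₀ ?_ (norm_nonneg _) ?_
  · simpa using hF (Finsupp.single 0 a + Finsupp.single 1 1)
  · have := IsUltrametricDist.norm_natCast_le_one K (Finsupp.single (0 : Fin 2) a 1 + 1)
    simpa using this

/-- `fgD` does not vanish on the open disc. -/
lemma ev_fgD_ne_zero {F : FormalGroup K} (hF : IsIntLaw F) {x : K} (hx : ‖x‖ < 1) : ev (fgD F) x ≠ 0 := by
  have hint := isInt_fgD hF
  have h0 : PowerSeries.constantCoeff (fgD F - 1) = 0 := by
    rw [map_sub, constantCoeff_fgD, map_one, sub_self]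
  have h1 := norm_ev_le (hint.sub isInt_one) h0 hx.le
  rw [ev_sub hint isInt_one hx, ev_one] at h1
  intro h2
  rw [h2, zero_sub, norm_neg, norm_one] at h1
  linarith

/-- A hom with nonzero linear coefficient has nowhere vanishing derivative on the open disc. -/
lemma ev_derivative_ne_zero {F G : FormalGroup K} {f : PowerSeries K} (hf : IsFGHom F G f) (hfi : IsInt f)
    (hF : IsIntLaw F) (hG : IsIntLaw G) (h1 : PowerSeries.coeff 1 f ≠ 0) {x : K} (hx : ‖x‖ < 1) :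
    ev (PowerSeries.derivative K f) x ≠ 0 := by
  intro h2
  have hode := congrArg (fun a => ev a x) (hom_ode hf)
  have hD : IsInt (PowerSeries.derivative K f) := isInt_derivative hfi
  rw [ev_mul hD (isInt_fgD hF) hx, h2, zero_mul,
    ev_mul ((isInt_fgD hG).cmp hfi hf.1) (isInt_C ?_) hx, ev_cmp (isInt_fgD hG) hfi hf.1 hx, ev_C] at hode
  · exact (mul_ne_zero (ev_fgD_ne_zero hG (norm_ev_lt_one hfi hf.1 hx)) h1) hode.symm
  · exact hfi 1

/-! ### The extremal basis -/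

lemma norm_chain_le (j i : ℕ) {x : K} (hx : ‖x‖ < 1) : ‖D.chain j i x‖ ≤ ‖x‖ := by
  induction i generalizing j with
  | zero => exact le_rfl
  | succ i ih =>
    exact (norm_ev_le (D.Vj_int j) (D.Vj_cc j) (D.norm_chain_lt _ _ hx).le).trans (ih (j + 1))

section extremal

variable [IsAlgClosed K]

lemma finite_chain_zero (J : ℕ) : {w : K | ‖w‖ < 1 ∧ D.chain 0 J w = 0}.Finite := by
  induction J with
  | zero =>
    refine (Set.finite_singleton (0 : K)).subset ?_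
    rintro w ⟨-, h⟩
    exact h
  | succ J ih =>
    have hsub : {w : K | ‖w‖ < 1 ∧ D.chain 0 (J + 1) w = 0} ⊆
        ⋃ s ∈ {w : K | ‖w‖ < 1 ∧ D.chain 0 J w = 0}, {x : K | ‖x‖ < 1 ∧ ev (D.Vj J) x = s} := by
      rintro w ⟨h1, h2⟩
      rw [chain_succ', zero_add] at h2
      simp only [Set.mem_iUnion]
      exact ⟨ev (D.Vj J) w, ⟨norm_ev_lt_one (D.Vj_int J) (D.Vj_cc J) h1, h2⟩, h1, rfl⟩
    refine (ih.biUnion ?_).subset hsub
    rintro s ⟨hs, -⟩
    exact D.finite_fibre J hs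

omit [IsAlgClosed K] in
lemma exists_pos_lower_bound (S : Set K) (hS : S.Finite) : ∃ μ : ℝ, 0 < μ ∧ ∀ x ∈ S, x ≠ 0 → μ ≤ ‖x‖ := by
  classical
  induction S, hS using Set.Finite.induction_on with
  | empty => exact ⟨1, one_pos, by simp⟩
  | @insert a s _ _ ih =>
    obtain ⟨μ, hμ, h⟩ := ih
    by_cases ha : a = 0
    · refine ⟨μ, hμ, fun x hx hx0 => ?_⟩
      rcases hx with rfl | hx
      · exact absurd ha hx0
      · exact h x hx hx0
    · refine ⟨min μ ‖a‖, lt_min hμ (norm_pos_iff.2 ha), fun x hx hx0 => ?_⟩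
      rcases hx with rfl | hx
      · exact min_le_right _ _
      · exact (min_le_left _ _).trans (h x hx hx0)

/-- `|T|` takes finitely many values on `Λ ∖ ker ϖ₁`. -/
theorem exists_finite_values : ∃ A : Finset ℝ, ∀ T : Pts D.Γ, T ∈ D.Λ → D.ϖHom 1 T ≠ 0 → ‖T.val‖ ∈ A := by
  classical
  obtain ⟨μ, hμ, hμS⟩ := exists_pos_lower_bound _ (D.finite_fibre 0 (a := 0) (by simp))
  obtain ⟨J, hJ, hJ1⟩ := ((D.tendsto_r.eventually (gt_mem_nhds hμ)).and (eventually_ge_atTop 1)).exists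
  refine ⟨(D.finite_chain_zero J).toFinset.image (fun w => ‖w‖ ^ p ^ (d * J)), fun T hT hne => ?_⟩
  rw [Finset.mem_image]
  refine ⟨D.ϖ J T.val, ?_, ?_⟩
  · rw [Set.Finite.mem_toFinset]
    refine ⟨D.norm_ϖ_lt J T.norm_lt, ?_⟩
    have := D.chain_ϖ 0 J T.norm_lt
    rw [zero_add] at this
    rw [this]
    exact D.mem_Λ.1 hT
  · have hx1 : D.ϖ 1 T.val ≠ 0 := fun h => hne (Pts.ext h)
    have h1 : μ ≤ ‖D.ϖ 1 T.val‖ :=
      hμS _ ⟨D.norm_ϖ_lt 1 T.norm_lt, by
        have := D.ev_Vj_ϖ 0 T.norm_lt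
        rw [this]
        exact D.mem_Λ.1 hT⟩ hx1
    have h2 : ‖D.ϖ 1 T.val‖ ≤ ‖D.ϖ J T.val‖ := by
      have h3 := D.chain_ϖ 1 (J - 1) T.norm_lt
      rw [show 1 + (J - 1) = J by omega] at h3
      rw [← h3]
      exact D.norm_chain_le _ _ (D.norm_ϖ_lt J T.norm_lt)
    have h4 : ‖D.ϖ J T.val - D.τ J T.val‖ < ‖D.ϖ J T.val‖ :=
      ((D.norm_ϖ_sub_τ J T.norm_lt).trans_lt hJ).trans_le (h1.trans h2)
    have h5 : ‖D.τ J T.val‖ = ‖D.ϖ J T.val‖ := by
      have e : D.τ J T.val = D.ϖ J T.val - (D.ϖ J T.val - D.τ J T.val) := by ring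
      rw [e, sub_eq_add_neg, IsUltrametricDist.norm_add_eq_max_of_norm_ne_norm (by
        rw [norm_neg]; exact h4.ne'), norm_neg]
      exact max_eq_left h4.le
    show ‖D.ϖ J T.val‖ ^ p ^ (d * J) = ‖T.val‖
    rw [← h5, ← norm_pow, D.τ_pow]

/-- `|Λ₁| = p^d` when `V'(0) ≠ 0`. -/
theorem card_Λ₁ (hy : PowerSeries.coeff 1 D.V ≠ 0) : Nat.card D.Λ₁ = p ^ d := by
  classical
  have hlow : ∀ i < p ^ d, ‖PowerSeries.coeff i (D.Vj 0)‖ < 1 := fun i hi =>
    (D.norm_coeff_low 0 i hi.ne).trans_lt (D.r_lt_one 0)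
  have hy0 : PowerSeries.coeff 1 (D.Vj 0) ≠ 0 := by
    rw [Vj, coeff_tw]
    exact pow_ne_zero _ hy
  obtain ⟨S, hS, hS2⟩ := exists_finset_roots_of_simple (D.Vj 0) (p ^ d) (D.Vj_int 0) hlow (D.norm_coeff_top 0)
    (fun x hx _ => ev_derivative_ne_zero (D.Vj_hom 0) (D.Vj_int 0) (D.Fj_int _) (D.Fj_int _) hy0 hx)
  rw [← hS, ← Fintype.card_coe S, ← Nat.card_eq_fintype_card]
  refine Nat.card_congr (Equiv.ofBijective
    (fun x : D.Λ₁ => (⟨x.1.val, (hS2 _).2 ⟨x.1.norm_lt, D.mem_Λ₁.1 x.2⟩⟩ : S)) ⟨?_, ?_⟩)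
  · intro x y hxy
    have h0 : x.1.val = y.1.val := congrArg (fun a : S => (a : K)) hxy
    exact Subtype.ext (Pts.ext h0)
  · rintro ⟨y, hy'⟩
    obtain ⟨h1, h2⟩ := (hS2 y).1 hy'
    exact ⟨⟨Pts.mk _ y h1, D.mem_Λ₁.2 h2⟩, rfl⟩

/-- `ϖ₁ : Λ → Λ₁` is surjective. -/
theorem exists_Λ_of_mem_Λ₁ {x : Pts (D.Fj 1)} (hx : x ∈ D.Λ₁) : ∃ T ∈ D.Λ, D.ϖHom 1 T = x := by
  classical
  choose f hf using fun (j : ℕ) (a : {a : K // ‖a‖ < 1}) => D.exists_Vj_eq j a.2
  let w' : ℕ → {a : K // ‖a‖ < 1} := fun i => Nat.rec ⟨x.val, x.norm_lt⟩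
    (fun i a => ⟨f (i + 1) a, (hf (i + 1) a).1⟩) i
  let w : ℕ → K := fun j => match j with
    | 0 => 0
    | i + 1 => (w' i).1
  have hw : D.IsTower w := by
    refine ⟨fun j => ?_, fun j => ?_⟩
    · cases j with
      | zero => simp [w]
      | succ i => exact (w' i).2
    · cases j with
      | zero => exact D.mem_Λ₁.1 hx
      | succ i => exact (hf (i + 1) (w' i)).2
  obtain ⟨T, hT, -, hT1⟩ := hw.exists_limit
  refine ⟨Pts.mk _ T hT1, ?_, ?_⟩
  · rw [mem_Λ]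
    exact (hw.eq_ϖ hT 0).symm
  · apply Pts.ext
    exact (hw.eq_ϖ hT 1).symm

/-! Estimates for the sum in `Γ`. -/

omit [IsAlgClosed K] in
lemma norm_ptAdd_Γ_sub_le {x y : K} {C : ℝ} (hC0 : 0 ≤ C) (hC1 : C < 1) (hx : ‖x‖ ≤ C) (hy : ‖y‖ ≤ C) :
    ‖ptAdd D.Γ x y - (x + y)‖ ≤ C ^ p ^ (h + d) := by
  classical
  have hq : 1 ≤ p ^ (h + d) := Nat.one_le_pow _ _ (Fact.out : p.Prime).pos
  have hX0 : IsB (1 : ℝ) 1 (MvPowerSeries.X 0 : MvPowerSeries (Fin 2) K) := isB_X 1 zero_le_one 0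
  have hX1 : IsB (1 : ℝ) 1 (MvPowerSeries.X 1 : MvPowerSeries (Fin 2) K) := isB_X 1 zero_le_one 1
  have hxy : ∀ i, ‖(![x, y] : Fin 2 → K) i‖ < 1 := norm_pair_lt (hx.trans_lt hC1) (hy.trans_lt hC1)
  set A : MvPowerSeries (Fin 2) K := D.Γ.toPowerSeries - (MvPowerSeries.X 0 + MvPowerSeries.X 1) with hA
  have hAB : IsB (1 : ℝ) 1 A := D.Γ_int.sub (hX0.add hX1 zero_le_one) zero_le_one
  have hcoeff : ∀ γ : Fin 2 →₀ ℕ, Finsupp.degree γ < p ^ (h + d) → MvPowerSeries.coeff γ A = 0 := by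
    intro γ hγ
    rw [hA, map_sub, map_add]
    by_cases h2 : 2 ≤ Finsupp.degree γ
    · rw [D.Γ_low γ h2 hγ, MvPowerSeries.coeff_X, MvPowerSeries.coeff_X, if_neg, if_neg]
      · simp
      · rintro rfl; simp at h2
      · rintro rfl; simp at h2
    · have h3 : Finsupp.degree γ = 0 ∨ Finsupp.degree γ = 1 := by omega
      rcases h3 with h3 | h3
      · have : γ = 0 := (Finsupp.degree_eq_zero_iff γ).1 h3
        subst this
        rw [MvPowerSeries.coeff_zero_eq_constantCoeff_apply, MvPowerSeries.coeff_zero_eq_constantCoeff_apply,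
          MvPowerSeries.coeff_zero_eq_constantCoeff_apply, D.Γ.zero_constantCoeff]
        simp
      · obtain ⟨i, rfl⟩ := exists_single_of_degree_one h3
        fin_cases i
        · have e1 : (⟨0, by omega⟩ : Fin 2) = 0 := rfl
          simp only [e1]
          rw [D.Γ.lin_coeff_X, MvPowerSeries.coeff_X, MvPowerSeries.coeff_X, if_pos rfl, if_neg]
          · simp
          · intro h5
            have := DFunLike.congr_fun h5 0
            simp at this
        · have e1 : (⟨1, by omega⟩ : Fin 2) = 1 := rfl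
          simp only [e1]
          rw [D.Γ.lin_coeff_Y, MvPowerSeries.coeff_X, MvPowerSeries.coeff_X, if_pos rfl, if_neg]
          · simp
          · intro h5
            have := DFunLike.congr_fun h5 0
            simp at this
  have h1 := norm_evalS_le_of_order (p ^ (h + d)) (r := 1) (A := A) (fun γ => by simpa using hAB γ) hcoeff hC0 hC1.le
    (x := ![x, y]) (norm_pair_le hx hy)
  rw [one_mul] at h1
  have h2 : evalS A ![x, y] = ptAdd D.Γ x y - (x + y) := by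
    rw [hA, evalS_sub one_pos D.Γ_int (hX0.add hX1 zero_le_one) hxy, evalS_add one_pos hX0 hX1 hxy, evalS_X,
      evalS_X]
    rfl
  rwa [h2] at h1

omit [IsAlgClosed K] in
/-- Multiples in `Γ` are plain multiples up to `C^q`. -/
lemma norm_nsmul_Γ_le {C : ℝ} (hC0 : 0 ≤ C) (hC1 : C < 1) (T : Pts D.Γ) (hT : ‖T.val‖ ≤ C) (m : ℕ) :
    ‖(m • T).val‖ ≤ C ∧ ‖(m • T).val - (m : K) * T.val‖ ≤ C ^ p ^ (h + d) := by
  induction m with
  | zero => simpa using ⟨hC0, pow_nonneg hC0 _⟩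
  | succ m ih =>
    obtain ⟨h1, h2⟩ := ih
    rw [succ_nsmul, Pts.val_add]
    refine ⟨(norm_ptAdd_le D.Γ_int (h1.trans hC1.le) (hT.trans hC1.le)).trans (max_le h1 hT), ?_⟩
    have e : ptAdd D.Γ (m • T).val T.val - ((m + 1 : ℕ) : K) * T.val =
        (ptAdd D.Γ (m • T).val T.val - ((m • T).val + T.val)) + ((m • T).val - (m : K) * T.val) := by
      push_cast; ring
    rw [e]
    exact (IsUltrametricDist.norm_add_le_max _ _).trans
      (max_le (D.norm_ptAdd_Γ_sub_le hC0 hC1 h1 hT) h2)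

omit [IsAlgClosed K] in
/-- Sums in `Γ` are plain sums up to `C^q`. -/
lemma norm_sum_Γ_le {ι : Type*} {C : ℝ} (hC0 : 0 ≤ C) (hC1 : C < 1) (S : Finset ι) (a : ι → Pts D.Γ)
    (ha : ∀ l ∈ S, ‖(a l).val‖ ≤ C) :
    ‖(∑ l ∈ S, a l).val‖ ≤ C ∧ ‖(∑ l ∈ S, a l).val - ∑ l ∈ S, (a l).val‖ ≤ C ^ p ^ (h + d) := by
  classical
  induction S using Finset.induction_on with
  | empty => simpa using ⟨hC0, pow_nonneg hC0 _⟩
  | insert l S hl ih =>
    obtain ⟨h1, h2⟩ := ih fun l' hl' => ha l' (Finset.mem_insert_of_mem hl')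
    have hal := ha l (Finset.mem_insert_self _ _)
    rw [Finset.sum_insert hl, Finset.sum_insert hl, Pts.val_add]
    refine ⟨(norm_ptAdd_le D.Γ_int (hal.trans hC1.le) (h1.trans hC1.le)).trans (max_le hal h1), ?_⟩
    have e : ptAdd D.Γ (a l).val (∑ l ∈ S, a l).val - ((a l).val + ∑ l ∈ S, (a l).val) =
        (ptAdd D.Γ (a l).val (∑ l ∈ S, a l).val - ((a l).val + (∑ l ∈ S, a l).val)) +
          ((∑ l ∈ S, a l).val - ∑ l ∈ S, (a l).val) := by ring
    rw [e]
    exact (IsUltrametricDist.norm_add_le_max _ _).trans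
      (max_le (D.norm_ptAdd_Γ_sub_le hC0 hC1 hal h1) h2)

/-- The admissible tuples: in `Λ`, with independent image in `Λ₁`. -/
def IsAdm (z : Fin d → Pts D.Γ) : Prop := (∀ l, z l ∈ D.Λ) ∧ IndF p (fun l => D.ϖHom 1 (z l))

omit [IsAlgClosed K] in
lemma IsAdm.val_ne_zero {z : Fin d → Pts D.Γ} (hz : D.IsAdm z) (l : Fin d) : (z l).val ≠ 0 := by
  classical
  intro h0
  have h1 : z l = 0 := Pts.ext h0
  have h2 := hz.2.ne_zero l
  simp only [h1, map_zero] at h2
  exact h2 rfl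

/-- Key step of (Orth). -/
lemma orth_step {z : Fin d → Pts D.Γ} (hz : D.IsAdm z)
    (hmin : ∀ z' : Fin d → Pts D.Γ, D.IsAdm z' → ∏ l, ‖(z l).val‖ ≤ ∏ l, ‖(z' l).val‖)
    (S : Finset (Fin d)) (w : Fin d → ℕ) (C : ℝ) (γ : Fin d → ℕ)
    (hC : ∀ l ∈ S, ‖(z l).val ^ (p ^ ((h + d) * w l))‖ = C) (hne : ∃ l ∈ S, (γ l : K) ≠ 0) :
    ‖∑ l ∈ S, (γ l : K) * (z l).val ^ (p ^ ((h + d) * w l))‖ = C := by
  classical
  have hpp : p.Prime := Fact.out
  obtain ⟨l₁, hl₁S, hl₁⟩ := hne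
  have hq1 : 1 < p ^ (h + d) := Nat.one_lt_pow (by have := D.hh; omega) hpp.one_lt
  -- sizes
  have hCpos : 0 < C := by
    rw [← hC l₁ hl₁S]
    exact norm_pos_iff.2 (pow_ne_zero _ (hz.val_ne_zero D l₁))
  have hCone : C < 1 := by
    rw [← hC l₁ hl₁S, norm_pow]
    exact pow_lt_one₀ (norm_nonneg _) (z l₁).norm_lt (pow_ne_zero _ hpp.ne_zero)
  have hle : ‖∑ l ∈ S, (γ l : K) * (z l).val ^ (p ^ ((h + d) * w l))‖ ≤ C := by
    refine IsUltrametricDist.norm_sum_le_of_forall_le_of_nonneg hCpos.le fun l hl => ?_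
    rw [norm_mul, ← hC l hl]
    have h1 := IsUltrametricDist.norm_natCast_le_one K (γ l)
    exact mul_le_of_le_one_left (norm_nonneg _) h1
  refine le_antisymm hle ?_
  by_contra hlt
  push Not at hlt
  -- the set of indices with `γ` prime to `p`
  set S' := S.filter (fun l => (γ l : K) ≠ 0) with hS'
  have hS'ne : S'.Nonempty := ⟨l₁, Finset.mem_filter.2 ⟨hl₁S, hl₁⟩⟩
  have hsum : ∑ l ∈ S', (γ l : K) * (z l).val ^ (p ^ ((h + d) * w l)) =
      ∑ l ∈ S, (γ l : K) * (z l).val ^ (p ^ ((h + d) * w l)) := by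
    refine Finset.sum_filter_of_ne fun l _ hl => ?_
    intro h0
    rw [h0, zero_mul] at hl
    exact hl rfl
  obtain ⟨l₀, hl₀, hl₀min⟩ := Finset.exists_min_image S' w hS'ne
  set w₀ := w l₀ with hw₀
  -- the new element
  set c : Fin d → ℕ := fun l => if l ∈ S' then γ l * p ^ (w l - w₀) else 0 with hc
  set A : Pts D.Γ := ∑ l, c l • z l with hA
  have hAΛ : A ∈ D.Λ := D.Λ.sum_mem fun l _ => D.Λ.nsmul_mem (hz.1 l) _
  have hγ0 : ¬ p ∣ c l₀ := by
    have h1 : c l₀ = γ l₀ := by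
      simp only [hc, if_pos hl₀, ← hw₀, Nat.sub_self, pow_zero, mul_one]
    rw [h1]
    intro hdvd
    have := (Finset.mem_filter.1 hl₀).2
    exact this ((CharP.cast_eq_zero_iff K p _).2 hdvd)
  -- `p^w₀ • A`
  have hpA : (p ^ w₀) • A = ∑ l ∈ S', γ l • ((p ^ w l) • z l) := by
    rw [hA, Finset.smul_sum, ← Finset.sum_filter_of_ne (s := Finset.univ) (p := fun l => l ∈ S')]
    · have hf : Finset.univ.filter (fun l => l ∈ S') = S' := by ext l; simp
      rw [hf]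
      refine Finset.sum_congr rfl fun l hl => ?_
      simp only [hc, if_pos hl, smul_smul]
      congr 1
      have hwl : w₀ ≤ w l := hl₀min l hl
      calc p ^ w₀ * (γ l * p ^ (w l - w₀)) = γ l * (p ^ w₀ * p ^ (w l - w₀)) := by ring
        _ = γ l * p ^ w l := by rw [← pow_add, Nat.add_sub_cancel' hwl]
    · intro l _ hl
      by_contra hlS
      apply hl
      simp [hc, hlS]
  have hval : A.val ^ p ^ ((h + d) * w₀) = (∑ l ∈ S', γ l • ((p ^ w l) • z l)).val := by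
    rw [← hpA, D.val_pow_smul_Γ]
  -- estimate
  have hal : ∀ l ∈ S', ‖((p ^ w l) • z l).val‖ ≤ C := by
    intro l hl
    rw [D.val_pow_smul_Γ, hC l (Finset.mem_filter.1 hl).1]
  have hbl : ∀ l ∈ S', ‖(γ l • ((p ^ w l) • z l)).val‖ ≤ C ∧
      ‖(γ l • ((p ^ w l) • z l)).val - (γ l : K) * ((p ^ w l) • z l).val‖ ≤ C ^ p ^ (h + d) := fun l hl =>
    D.norm_nsmul_Γ_le hCpos.le hCone _ (hal l hl) _
  obtain ⟨-, h2⟩ := D.norm_sum_Γ_le hCpos.le hCone S' (fun l => γ l • ((p ^ w l) • z l))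
    (fun l hl => (hbl l hl).1)
  have hCq : C ^ p ^ (h + d) < C := by
    calc C ^ p ^ (h + d) < C ^ 1 := pow_lt_pow_right_of_lt_one₀ hCpos hCone hq1
      _ = C := pow_one C
  have hplain : ‖∑ l ∈ S', (γ l • ((p ^ w l) • z l)).val‖ < C := by
    have e : ∑ l ∈ S', (γ l • ((p ^ w l) • z l)).val =
        ∑ l ∈ S', ((γ l • ((p ^ w l) • z l)).val - (γ l : K) * ((p ^ w l) • z l).val) +
          ∑ l ∈ S', (γ l : K) * (z l).val ^ (p ^ ((h + d) * w l)) := by
      rw [← Finset.sum_add_distrib]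
      refine Finset.sum_congr rfl fun l _ => ?_
      rw [D.val_pow_smul_Γ]
      ring
    rw [e, hsum]
    refine (IsUltrametricDist.norm_add_le_max _ _).trans_lt (max_lt ?_ hlt)
    refine lt_of_le_of_lt ?_ hCq
    exact IsUltrametricDist.norm_sum_le_of_forall_le_of_nonneg (pow_nonneg hCpos.le _)
      fun l hl => (hbl l hl).2
  have hAsmall : ‖A.val ^ p ^ ((h + d) * w₀)‖ < C := by
    rw [hval]
    have e : (∑ l ∈ S', γ l • ((p ^ w l) • z l)).val =
        ((∑ l ∈ S', γ l • ((p ^ w l) • z l)).val - ∑ l ∈ S', (γ l • ((p ^ w l) • z l)).val) +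
          ∑ l ∈ S', (γ l • ((p ^ w l) • z l)).val := by ring
    rw [e]
    exact (IsUltrametricDist.norm_add_le_max _ _).trans_lt (max_lt (h2.trans_lt hCq) hplain)
  have hAl₀ : ‖A.val‖ < ‖(z l₀).val‖ := by
    have h3 := hC l₀ (Finset.mem_filter.1 hl₀).1
    rw [← h3, norm_pow, norm_pow] at hAsmall
    exact lt_of_pow_lt_pow_left₀ _ (norm_nonneg _) hAsmall
  -- the new tuple
  have hadm : D.IsAdm (Function.update z l₀ A) := by
    refine ⟨fun l => ?_, ?_⟩
    · by_cases hl : l = l₀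
      · rw [hl, Function.update_self]; exact hAΛ
      · rw [Function.update_of_ne hl]; exact hz.1 l
    · have h3 : (fun l => D.ϖHom 1 (Function.update z l₀ A l)) =
          Function.update (fun l => D.ϖHom 1 (z l)) l₀ (∑ l, c l • D.ϖHom 1 (z l)) := by
        funext l
        by_cases hl : l = l₀
        · subst hl
          rw [Function.update_self, Function.update_self, hA, map_sum]
          simp only [map_nsmul]
        · rw [Function.update_of_ne hl, Function.update_of_ne hl]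
      rw [h3]
      exact hz.2.update l₀ c hγ0
  have hprod := hmin _ hadm
  have hlt2 : ∏ l, ‖(Function.update z l₀ A l).val‖ < ∏ l, ‖(z l).val‖ := by
    refine Finset.prod_lt_prod (fun l _ => norm_pos_iff.2 (hadm.val_ne_zero D l)) (fun l _ => ?_)
      ⟨l₀, Finset.mem_univ _, by rw [Function.update_self]; exact hAl₀⟩
    by_cases hl : l = l₀
    · rw [hl, Function.update_self]; exact hAl₀.le
    · rw [Function.update_of_ne hl]
  exact absurd hprod (not_le.2 hlt2)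

/-- (T7) The extremal basis. -/
theorem exists_extremal (hy : PowerSeries.coeff 1 D.V ≠ 0) :
    ∃ z : Fin d → Pts D.Γ, (∀ l, z l ∈ D.Λ) ∧ IndF p (fun l => D.ϖHom 1 (z l)) ∧
      (∀ x ∈ D.Λ₁, ∃ C : Fin d → ℕ, x = ∑ l, C l • D.ϖHom 1 (z l)) ∧ (∀ l, (z l).val ≠ 0) ∧
      ∀ (S : Finset (Fin d)) (w : Fin d → ℕ) (C : ℝ) (γ : Fin d → ℕ),
        (∀ l ∈ S, ‖(z l).val ^ (p ^ ((h + d) * w l))‖ = C) → (∃ l ∈ S, (γ l : K) ≠ 0) →
        ‖∑ l ∈ S, (γ l : K) * (z l).val ^ (p ^ ((h + d) * w l))‖ = C := by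
  classical
  have hp1 : ∀ x ∈ D.Λ₁, p • x = 0 := fun x hx => D.p_smul_Λ₁ hx
  obtain ⟨b, hb1, hb2, -⟩ := exists_ind_span (p := p) D.Λ₁ hp1 (D.card_Λ₁ hy)
  -- nonempty
  choose T hT1 hT2 using fun l => D.exists_Λ_of_mem_Λ₁ (hb1 l)
  have hadm0 : D.IsAdm T := ⟨hT1, by simpa only [hT2] using hb2⟩
  -- finitely many values
  obtain ⟨A, hA⟩ := D.exists_finite_values
  have hval : ∀ z, D.IsAdm z → ∀ l, ‖(z l).val‖ ∈ A := fun z hz l =>
    hA _ (hz.1 l) (hz.2.ne_zero l)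
  let W : Set ℝ := (fun z : Fin d → Pts D.Γ => ∏ l, ‖(z l).val‖) '' {z | D.IsAdm z}
  have hWfin : W.Finite := by
    refine Set.Finite.subset (Finset.finite_toSet
      ((Fintype.piFinset fun _ : Fin d => A).image (fun a : Fin d → ℝ => ∏ l, a l))) ?_
    rintro _ ⟨z, hz, rfl⟩
    simp only [Finset.coe_image, Set.mem_image, Finset.mem_coe, Fintype.mem_piFinset]
    exact ⟨fun l => ‖(z l).val‖, fun l => hval z hz l, rfl⟩
  have hWne : W.Nonempty := ⟨_, T, hadm0, rfl⟩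
  obtain ⟨_, ⟨z, hz, rfl⟩, hmin⟩ := Set.exists_min_image W id hWfin hWne
  have hmin' : ∀ z' : Fin d → Pts D.Γ, D.IsAdm z' → ∏ l, ‖(z l).val‖ ≤ ∏ l, ‖(z' l).val‖ :=
    fun z' hz' => hmin _ ⟨z', hz', rfl⟩
  refine ⟨z, hz.1, hz.2, ?_, hz.val_ne_zero D, ?_⟩
  · exact IndF.span D.Λ₁ hp1 (D.card_Λ₁ hy) (fun l => D.ϖHom_one_mem (hz.1 l)) hz.2
  · exact fun S w C γ hC hne => D.orth_step hz hmin' S w C γ hC hne

end extremal

end TowerData

end Crest.Agent.LT
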