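/-
S0351 T13a: Kodaira-Spencer. The Jacobian of the level-one branches is invertible
(BLUEPRINT §E5(b)), by an analytic first order argument.
-/
import Crest.Agent.Lib.LT.P3Point
import Crest.Agent.Lib.LT.P3Lattice
import Crest.Agent.Lib.LT.P2Taylor
import Crest.Agent.Lib.LT.P3Digits
import Crest.Agent.Lib.LT.CoordAn

set_option autoImplicit false
set_option linter.unusedSectionVars false
set_option linter.unusedVariables false
set_option linter.unnecessarySimpa false
set_option linter.style.haveILetI false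

namespace Crest.Agent.LT

open Filter Topology

open Crest.LubinTate

section dlt

variable {k : Type*} [Field k] [Finite k] {K : Type*} [NontriviallyNormedField K]
  [IsUltrametricDist K] [CompleteSpace K] [Algebra k K] {d : ℕ}

/-- The Taylor coefficient `∂_i r (y)`, as a `K`-valued derivation at the point `y`. -/
noncomputable def dlt (y : Fin d → K) (i : Fin d) (r : MvPowerSeries (Fin d) k) : K :=
  evalS (hasse (Finsupp.single i 1) (MvPowerSeries.map (algebraMap k K) r)) y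

lemma isB_hasse_map (i : Fin d) (r : MvPowerSeries (Fin d) k) :
    IsB (1 : ℝ) 1 (hasse (Finsupp.single i 1) (MvPowerSeries.map (algebraMap k K) r)) := by
  simpa using (isB_map_algebraMap (K := K) r).hasse one_pos (Finsupp.single i 1)

lemma norm_dlt_le_one {y : Fin d → K} (hy : ∀ i, ‖y i‖ < 1) (i : Fin d)
    (r : MvPowerSeries (Fin d) k) : ‖dlt y i r‖ ≤ 1 :=
  norm_evalS_le one_pos (isB_hasse_map i r) (fun j => (hy j).le)

/-- Modulo the maximal ideal, `∂_i r (y)` is the linear coefficient of `r`. -/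
lemma norm_dlt_sub_le {y : Fin d → K} {ρ : ℝ} (hρ0 : 0 ≤ ρ) (hρ1 : ρ < 1) (hy : ∀ i, ‖y i‖ ≤ ρ)
    (i : Fin d) (r : MvPowerSeries (Fin d) k) :
    ‖dlt y i r - algebraMap k K (MvPowerSeries.coeff (Finsupp.single i 1) r)‖ ≤ ρ := by
  classical
  set f := hasse (Finsupp.single i 1) (MvPowerSeries.map (algebraMap k K) r) with hf
  have hfB : IsB (1 : ℝ) 1 f := isB_hasse_map i r
  have hcc : MvPowerSeries.constantCoeff f =
      algebraMap k K (MvPowerSeries.coeff (Finsupp.single i 1) r) := by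
    rw [← MvPowerSeries.coeff_zero_eq_constantCoeff_apply, hf, coeff_hasse, zero_add, MvPowerSeries.coeff_map]
    have : mchoose (Finsupp.single i 1 : Fin d →₀ ℕ) (Finsupp.single i 1) = 1 := by
      rw [mchoose_single]; simp
    rw [this]
    simp
  have hC : IsB (1 : ℝ) 1 (MvPowerSeries.C (MvPowerSeries.constantCoeff f) : MvPowerSeries (Fin d) K) := by
    intro γ
    rw [MvPowerSeries.coeff_C]
    split_ifs with h
    · subst h
      have := hfB 0
      simpa using this
    · simp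
  have h0 : MvPowerSeries.constantCoeff (f - MvPowerSeries.C (MvPowerSeries.constantCoeff f)) = 0 := by
    simp
  have hB := hfB.sub hC zero_le_one
  have h1 := norm_evalS_le_of_const_zero one_pos hρ0 hρ1.le hB h0 hy
  have hy1 : ∀ j, ‖y j‖ < 1 := fun j => (hy j).trans_lt hρ1
  rw [← hcc]
  have h2 : evalS (f - MvPowerSeries.C (MvPowerSeries.constantCoeff f)) y =
      dlt y i r - MvPowerSeries.constantCoeff f := by
    rw [evalS_sub one_pos hfB hC hy1, evalS_C]
    rfl
  rw [h2] at h1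
  simpa using h1


lemma dlt_X (y : Fin d → K) (i j : Fin d) :
    dlt (k := k) y i (MvPowerSeries.X j) = if j = i then 1 else 0 := by
  classical
  have h1 : hasse (Finsupp.single i 1) (MvPowerSeries.map (algebraMap k K) (MvPowerSeries.X j)) =
      (MvPowerSeries.C (if j = i then (1 : K) else 0) : MvPowerSeries (Fin d) K) := by
    ext γ
    rw [coeff_hasse, MvPowerSeries.map_X, MvPowerSeries.coeff_X, MvPowerSeries.coeff_C]
    by_cases h : γ + Finsupp.single i 1 = Finsupp.single j 1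
    · have hdeg : Finsupp.degree γ + 1 = 1 := by
        have := congrArg Finsupp.degree h
        simpa using this
      have hγ : γ = 0 := (Finsupp.degree_eq_zero_iff γ).1 (by omega)
      subst hγ
      have hij : j = i := by
        have h2 := DFunLike.congr_fun h i
        by_contra hne
        simp [Finsupp.single_apply, hne] at h2
      subst hij
      have : mchoose (Finsupp.single j 1 : Fin d →₀ ℕ) (Finsupp.single j 1) = 1 := by
        rw [mchoose_single]; simp
      simp [this]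
    · rw [if_neg h, mul_zero]
      by_cases hγ : γ = 0
      · subst hγ
        have hij : j ≠ i := by
          rintro rfl
          exact h (by simp)
        simp [hij]
      · rw [if_neg hγ]
  rw [dlt, h1, evalS_C]

/-- Second order Taylor at `y`, uniformly for integral coefficients. -/
lemma taylor_evR {y w : Fin d → K} (hy : ∀ i, ‖y i‖ < 1) (hv : ∀ i, ‖(y + w) i‖ < 1) {δ : ℝ}
    (hδ0 : 0 ≤ δ) (hδ1 : δ < 1) (hw : ∀ i, ‖w i‖ ≤ δ) (r : MvPowerSeries (Fin d) k) :
    ‖evR (y + w) hv r - evR y hy r - ∑ b, dlt y b r * w b‖ ≤ δ ^ 2 := by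
  have := taylor2 one_pos (isB_map_algebraMap (K := K) r) hy hδ0 hδ1 hw
  simpa [evR_apply, dlt] using this

/-- The coefficientwise derivative of `f ∈ R⟦X⟧` at `y` in the direction `c`. -/
noncomputable def dSer (y c : Fin d → K) (f : PowerSeries (MvPowerSeries (Fin d) k)) : PowerSeries K :=
  PowerSeries.mk fun m => ∑ b, c b * dlt y b (PowerSeries.coeff m f)

/-- The coefficientwise partial derivative `D_b f` of `f ∈ R⟦X⟧` at `y`. -/
noncomputable def dPart (y : Fin d → K) (b : Fin d) (f : PowerSeries (MvPowerSeries (Fin d) k)) :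
    PowerSeries K :=
  PowerSeries.mk fun m => dlt y b (PowerSeries.coeff m f)

lemma coeff_dSer (y c : Fin d → K) (f : PowerSeries (MvPowerSeries (Fin d) k)) (m : ℕ) :
    PowerSeries.coeff m (dSer y c f) = ∑ b, c b * dlt y b (PowerSeries.coeff m f) := by
  rw [dSer, PowerSeries.coeff_mk]

lemma coeff_dPart (y : Fin d → K) (b : Fin d) (f : PowerSeries (MvPowerSeries (Fin d) k)) (m : ℕ) :
    PowerSeries.coeff m (dPart y b f) = dlt y b (PowerSeries.coeff m f) := by
  rw [dPart, PowerSeries.coeff_mk]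

lemma isInt_dPart {y : Fin d → K} (hy : ∀ i, ‖y i‖ < 1) (b : Fin d)
    (f : PowerSeries (MvPowerSeries (Fin d) k)) : IsInt (dPart y b f) := fun m => by
  rw [coeff_dPart]
  exact norm_dlt_le_one hy _ _

lemma isInt_dSer {y c : Fin d → K} (hy : ∀ i, ‖y i‖ < 1) (hc : ∀ b, ‖c b‖ ≤ 1)
    (f : PowerSeries (MvPowerSeries (Fin d) k)) : IsInt (dSer y c f) := fun m => by
  rw [coeff_dSer]
  refine IsUltrametricDist.norm_sum_le_of_forall_le_of_nonneg zero_le_one fun b _ => ?_
  rw [norm_mul]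
  exact mul_le_one₀ (hc b) (norm_nonneg _) (norm_dlt_le_one hy _ _)

/-- `D_c f = ∑ c_b D_b f` on points. -/
lemma ev_dSer {y c : Fin d → K} (hy : ∀ i, ‖y i‖ < 1) (hc : ∀ b, ‖c b‖ ≤ 1)
    (f : PowerSeries (MvPowerSeries (Fin d) k)) {x : K} (hx : ‖x‖ < 1) :
    ev (dSer y c f) x = ∑ b, c b * ev (dPart y b f) x := by
  classical
  have key : ∀ s : Finset (Fin d), IsInt (∑ b ∈ s, PowerSeries.C (c b) * dPart y b f) ∧
      ev (∑ b ∈ s, PowerSeries.C (c b) * dPart y b f) x = ∑ b ∈ s, c b * ev (dPart y b f) x := by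
    intro s
    induction s using Finset.induction_on with
    | empty =>
      simp only [Finset.sum_empty]
      exact ⟨isInt_zero, ev_zero x⟩
    | insert a s ha ih =>
      obtain ⟨h1, h2⟩ := ih
      have h3 : IsInt (PowerSeries.C (c a) * dPart y a f) := (isInt_C (hc a)).mul (isInt_dPart hy a f)
      rw [Finset.sum_insert ha, Finset.sum_insert ha]
      refine ⟨h3.add h1, ?_⟩
      rw [ev_add h3 h1 hx, ev_mul (isInt_C (hc a)) (isInt_dPart hy a f) hx, ev_C, h2]
  have h : dSer y c f = ∑ b, PowerSeries.C (c b) * dPart y b f := by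
    ext m
    rw [coeff_dSer, map_sum]
    refine Finset.sum_congr rfl fun b _ => ?_
    rw [PowerSeries.coeff_C_mul, coeff_dPart]
  rw [h]
  exact (key Finset.univ).2

/-- First order expansion of a series with coefficients in `R` at a point. -/
lemma norm_ev_taylor {y c : Fin d → K} (hy : ∀ i, ‖y i‖ < 1) (hc : ∀ b, ‖c b‖ ≤ 1) {t : K} (ht : ‖t‖ < 1)
    (hv : ∀ i, ‖(y + t • c) i‖ < 1) (f : PowerSeries (MvPowerSeries (Fin d) k)) {x : K} (hx : ‖x‖ < 1) :
    ‖ev (PowerSeries.map (evR (y + t • c) hv) f) x - ev (PowerSeries.map (evR y hy) f) x -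
      t * ev (dSer y c f) x‖ ≤ ‖t‖ ^ 2 := by
  have hI1 : IsInt (PowerSeries.map (evR (k := k) (y + t • c) hv) f) := fun m => by
    rw [PowerSeries.coeff_map]; exact norm_evR_le_one (hu := hv) _
  have hI2 : IsInt (PowerSeries.map (evR (k := k) y hy) f) := fun m => by
    rw [PowerSeries.coeff_map]; exact norm_evR_le_one (hu := hy) _
  have hI3 := isInt_dSer hy hc f
  have hCt : IsInt (PowerSeries.C t : PowerSeries K) := isInt_C ht.le
  have hI4 := hI2.add (hCt.mul hI3)
  have h1 := norm_ev_sub_le_of_coeff hI1 hI4 (δ := ‖t‖ ^ 2) (fun m => by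
    rw [map_add, PowerSeries.coeff_C_mul, PowerSeries.coeff_map, PowerSeries.coeff_map, coeff_dSer, ← sub_sub]
    have h2 := taylor_evR (k := k) (w := t • c) hy hv (norm_nonneg t) ht
      (fun i => by
        rw [Pi.smul_apply, smul_eq_mul, norm_mul]
        exact mul_le_of_le_one_right (norm_nonneg _) (hc i)) (PowerSeries.coeff m f)
    have h3 : ∑ b, dlt y b (PowerSeries.coeff m f) * (t • c) b =
        t * ∑ b, c b * dlt y b (PowerSeries.coeff m f) := by
      rw [Finset.mul_sum]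
      refine Finset.sum_congr rfl fun b _ => ?_
      rw [Pi.smul_apply, smul_eq_mul]
      ring
    rwa [h3] at h2) hx
  rw [ev_add hI2 (hCt.mul hI3) hx, ev_mul hCt hI3 hx, ev_C, ← sub_sub] at h1
  exact h1

end dlt

section law

variable {K : Type*} [NontriviallyNormedField K] [IsUltrametricDist K] [CompleteSpace K]

omit [IsUltrametricDist K] [CompleteSpace K] in
/-- A law is `X + Y` modulo degree two. -/
lemma coeff_law_low (F : FormalGroup K) (γ : Fin 2 →₀ ℕ) (hγ : Finsupp.degree γ < 2) :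
    MvPowerSeries.coeff γ (F.toPowerSeries - (MvPowerSeries.X 0 + MvPowerSeries.X 1)) = 0 := by
  classical
  rw [map_sub, map_add]
  have h3 : Finsupp.degree γ = 0 ∨ Finsupp.degree γ = 1 := by omega
  rcases h3 with h3 | h3
  · have : γ = 0 := (Finsupp.degree_eq_zero_iff γ).1 h3
    subst this
    rw [MvPowerSeries.coeff_zero_eq_constantCoeff_apply, MvPowerSeries.coeff_zero_eq_constantCoeff_apply,
      MvPowerSeries.coeff_zero_eq_constantCoeff_apply, F.zero_constantCoeff]
    simp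
  · obtain ⟨i, rfl⟩ := exists_single_of_degree_one h3
    fin_cases i
    · have e1 : (⟨0, by omega⟩ : Fin 2) = 0 := rfl
      simp only [e1]
      rw [F.lin_coeff_X, MvPowerSeries.coeff_X, MvPowerSeries.coeff_X, if_pos rfl, if_neg]
      · simp
      · intro h5
        have := DFunLike.congr_fun h5 0
        simp at this
    · have e1 : (⟨1, by omega⟩ : Fin 2) = 1 := rfl
      simp only [e1]
      rw [F.lin_coeff_Y, MvPowerSeries.coeff_X, MvPowerSeries.coeff_X, if_pos rfl, if_neg]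
      · simp
      · intro h5
        have := DFunLike.congr_fun h5 0
        simp at this

/-- Two close laws at two close points. -/
lemma law_diff {F G : FormalGroup K} (hF : IsIntLaw F) (hG : IsIntLaw G) {δ w : ℝ} (hδ0 : 0 ≤ δ)
    (hw0 : 0 ≤ w) (hw1 : w < 1)
    (hc : ∀ γ, ‖MvPowerSeries.coeff γ F.toPowerSeries - MvPowerSeries.coeff γ G.toPowerSeries‖ ≤ δ)
    {a b a0 b0 : K} (ha : ‖a‖ ≤ w) (hb : ‖b‖ ≤ w) (ha0 : ‖a0‖ ≤ w) (hb0 : ‖b0‖ ≤ w)
    (hda : ‖a - a0‖ ≤ δ) (hdb : ‖b - b0‖ ≤ δ) :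
    ‖ptAdd F a b - ptAdd G a0 b0 - (a - a0) - (b - b0)‖ ≤ δ * w := by
  classical
  have hX0 : IsB (1 : ℝ) 1 (MvPowerSeries.X 0 : MvPowerSeries (Fin 2) K) := isB_X 1 zero_le_one 0
  have hX1 : IsB (1 : ℝ) 1 (MvPowerSeries.X 1 : MvPowerSeries (Fin 2) K) := isB_X 1 zero_le_one 1
  have hXX := hX0.add hX1 zero_le_one
  set QF : MvPowerSeries (Fin 2) K := F.toPowerSeries - (MvPowerSeries.X 0 + MvPowerSeries.X 1) with hQF
  set QG : MvPowerSeries (Fin 2) K := G.toPowerSeries - (MvPowerSeries.X 0 + MvPowerSeries.X 1) with hQG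
  have hQFB : IsB (1 : ℝ) 1 QF := hF.sub hXX zero_le_one
  have hQGB : IsB (1 : ℝ) 1 QG := hG.sub hXX zero_le_one
  have e1 : ∀ {H : FormalGroup K} (_ : IsIntLaw H) {u v : K} (_ : ‖u‖ ≤ w) (_ : ‖v‖ ≤ w),
      evalS (H.toPowerSeries - (MvPowerSeries.X 0 + MvPowerSeries.X 1)) ![u, v] = ptAdd H u v - (u + v) := by
    intro H hH u v hu hv
    have hz : ∀ i, ‖(![u, v] : Fin 2 → K) i‖ < 1 := norm_pair_lt (hu.trans_lt hw1) (hv.trans_lt hw1)
    rw [evalS_sub one_pos hH hXX hz, evalS_add one_pos hX0 hX1 hz, evalS_X, evalS_X]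
    rfl
  have h1 : ‖evalS (QF - QG) ![a, b]‖ ≤ δ * w ^ 2 := by
    refine norm_evalS_le_of_order 2 (fun γ => ?_) (fun γ hγ => ?_) hw0 hw1.le (norm_pair_le ha hb)
    · rw [hQF, hQG, map_sub, map_sub, map_sub]
      have := hc γ
      simpa using this
    · rw [map_sub, coeff_law_low F γ hγ, coeff_law_low G γ hγ, sub_zero]
  have h2 := norm_evalS_sub_le one_pos hw0 hw1 hδ0 hQGB (x := ![a, b]) (x' := ![a0, b0])
    (norm_pair_le ha hb) (norm_pair_le ha0 hb0)
    (fun i => by fin_cases i <;> simp [hda, hdb])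
    (fun i _ => coeff_law_low G _ (by simp))
  simp only [div_one, mul_one, one_mul] at h2
  have hz : ∀ i, ‖(![a, b] : Fin 2 → K) i‖ < 1 := norm_pair_lt (ha.trans_lt hw1) (hb.trans_lt hw1)
  have e2 : ptAdd F a b - ptAdd G a0 b0 - (a - a0) - (b - b0) =
      evalS (QF - QG) ![a, b] + (evalS QG ![a, b] - evalS QG ![a0, b0]) := by
    rw [evalS_sub one_pos hQFB hQGB hz, hQF, hQG, e1 hF ha hb, e1 hG ha hb, e1 hG ha0 hb0]
    ring
  rw [e2]
  refine (IsUltrametricDist.norm_add_le_max _ _).trans (max_le ?_ ?_)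
  · refine h1.trans ?_
    rw [pow_two, ← mul_assoc]
    have : δ * w * w ≤ δ * w * 1 := mul_le_mul_of_nonneg_left hw1.le (by positivity)
    simpa using this
  · rw [mul_comm]; exact h2

end law

section firstOrder

variable {p : ℕ} [Fact p.Prime] {n : ℕ} {K : Type*} [NontriviallyNormedField K]
  [IsUltrametricDist K] [CompleteSpace K] [CharP K p] [Algebra (GaloisField p n) K] {h d : ℕ}
  (I : CharPInput p n h d)

omit [CharP K p] in
lemma Fat_int (u : Fin d → K) (hu : ∀ i, ‖u i‖ < 1) : IsIntLaw (I.F.map (evP p n u hu)) := fun γ => by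
  simp only [one_pow, mul_one]
  exact norm_evR_le_one (hu := hu) _

omit [CharP K p] in
lemma Vat_int (u : Fin d → K) (hu : ∀ i, ‖u i‖ < 1) : IsInt (PowerSeries.map (evP p n u hu) I.V) := fun i => by
  rw [PowerSeries.coeff_map]
  exact norm_evR_le_one (hu := hu) _

lemma Vat_hom (u : Fin d → K) (hu : ∀ i, ‖u i‖ < 1) :
    IsFGHom (twL p h (I.F.map (evP p n u hu))) (I.F.map (evP p n u hu))
      (PowerSeries.map (evP p n u hu) I.V) := by
  have h1 := I.V_hom.map (evP p n u hu)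
  rw [fg_map_map, fr_comm_map, ← fg_map_map] at h1
  exact h1

/-- The near-additivity of the derivative of `V`: for `x, x'` where `V_y` has size at most `R`,
the defect of additivity of `D_c V` at `y` is at most `R`. -/
theorem first_order {y c : Fin d → K} (hy : ∀ i, ‖y i‖ < 1) (hc : ∀ b, ‖c b‖ ≤ 1) {x x' : K} (hx : ‖x‖ < 1)
    (hx' : ‖x'‖ < 1) {R : ℝ} (hR0 : 0 ≤ R) (hR1 : R < 1)
    (hRx : ‖ev (PowerSeries.map (evP p n y hy) I.V) x‖ ≤ R)
    (hRx' : ‖ev (PowerSeries.map (evP p n y hy) I.V) x'‖ ≤ R) :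
    ‖ev (dSer y c I.V) (ptAdd (twL p h (I.F.map (evP p n y hy))) x x') - ev (dSer y c I.V) x
      - ev (dSer y c I.V) x'‖ ≤ R := by
  classical
  by_contra hcon
  push Not at hcon
  set A := dSer y c I.V with hA
  set Q := ev A (ptAdd (twL p h (I.F.map (evP p n y hy))) x x') - ev A x - ev A x' with hQ
  -- a small `t`
  obtain ⟨t, ht0, ht1⟩ := NormedField.exists_norm_lt K (lt_min (hR0.trans_lt hcon) one_pos)
  have htQ : ‖t‖ < ‖Q‖ := ht1.trans_le (min_le_left _ _)
  have ht1' : ‖t‖ < 1 := ht1.trans_le (min_le_right _ _)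
  set δ := ‖t‖ with hδ
  have hAI : IsInt A := isInt_dSer hy hc I.V
  -- the point
  set v : Fin d → K := y + t • c with hv
  have hvn : ∀ i, ‖v i‖ < 1 := fun i => by
    rw [hv, Pi.add_apply, Pi.smul_apply, smul_eq_mul]
    refine (IsUltrametricDist.norm_add_le_max _ _).trans_lt (max_lt (hy i) ?_)
    rw [norm_mul]
    exact (mul_le_of_le_one_right (norm_nonneg _) (hc i)).trans_lt ht1'
  have hdv : ∀ i, ‖v i - y i‖ ≤ δ := fun i => by
    rw [hv, Pi.add_apply, Pi.smul_apply, smul_eq_mul, add_sub_cancel_left, norm_mul]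
    exact mul_le_of_le_one_right (norm_nonneg _) (hc i)
  set Vv := PowerSeries.map (evP p n v hvn) I.V with hVv
  set Vy := PowerSeries.map (evP p n y hy) I.V with hVy
  set Fv := I.F.map (evP p n v hvn) with hFv
  set Fy := I.F.map (evP p n y hy) with hFy
  have hVvI : IsInt Vv := Vat_int I v hvn
  have hVyI : IsInt Vy := Vat_int I y hy
  have hFvI : IsIntLaw Fv := Fat_int I v hvn
  have hFyI : IsIntLaw Fy := Fat_int I y hy
  have hF1vI : IsIntLaw (twL p h Fv) := hFvI.tw p h
  have hF1yI : IsIntLaw (twL p h Fy) := hFyI.tw p h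
  have hδ0 : 0 ≤ δ := norm_nonneg _
  -- Taylor
  have hT : ∀ {z : K}, ‖z‖ < 1 → ‖ev Vv z - ev Vy z - t * ev A z‖ ≤ δ ^ 2 := fun {z} hz =>
    norm_ev_taylor hy hc ht1' hvn I.V hz
  -- the two sums
  set s := ptAdd (twL p h Fy) x x' with hs
  set s' := ptAdd (twL p h Fv) x x' with hs'
  have hsn : ‖s‖ < 1 := norm_ptAdd_lt hF1yI hx hx'
  have hsn' : ‖s'‖ < 1 := norm_ptAdd_lt hF1vI hx hx'
  have hh1 : 2 ≤ p ^ h := by
    have h1 : p ≤ p ^ h := Nat.le_self_pow (by have := I.h1; omega) p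
    exact (Fact.out : p.Prime).two_le.trans h1
  have hcoef : ∀ γ, ‖MvPowerSeries.coeff γ Fv.toPowerSeries - MvPowerSeries.coeff γ Fy.toPowerSeries‖ ≤ δ := by
    intro γ
    show ‖MvPowerSeries.coeff γ (MvPowerSeries.map _ I.F.toPowerSeries) -
      MvPowerSeries.coeff γ (MvPowerSeries.map _ I.F.toPowerSeries)‖ ≤ δ
    rw [MvPowerSeries.coeff_map, MvPowerSeries.coeff_map]
    exact norm_evR_sub_evR_le hδ0 hdv _
  have hss' : ‖s' - s‖ ≤ δ ^ 2 := by
    refine norm_ptAdd_sub_le_of_coeff hF1vI hF1yI (fun γ => ?_) hx hx'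
    rw [coeff_twL, coeff_twL, norm_sub_pow_char_pow]
    refine (pow_le_pow_left₀ (norm_nonneg _) (hcoef γ) _).trans ?_
    exact pow_le_pow_of_le_one hδ0 ht1'.le hh1
  -- homomorphisms
  have hom_v : ev Vv s' = ptAdd Fv (ev Vv x) (ev Vv x') :=
    ev_ptAdd (Vat_hom I v hvn) hVvI hF1vI hFvI hx hx'
  have hom_y : ev Vy s = ptAdd Fy (ev Vy x) (ev Vy x') :=
    ev_ptAdd (Vat_hom I y hy) hVyI hF1yI hFyI hx hx'
  -- sizes
  set w := max R δ with hw
  have hw0 : 0 ≤ w := hR0.trans (le_max_left _ _)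
  have hw1 : w < 1 := max_lt hR1 ht1'
  have hδ2 : δ ^ 2 ≤ δ := by
    rw [pow_two]
    exact mul_le_of_le_one_right hδ0 ht1'.le
  have hAx : ‖t * ev A x‖ ≤ δ := by
    rw [norm_mul]
    exact mul_le_of_le_one_right hδ0 (norm_ev_le_one hAI hx.le)
  have hAx' : ‖t * ev A x'‖ ≤ δ := by
    rw [norm_mul]
    exact mul_le_of_le_one_right hδ0 (norm_ev_le_one hAI hx'.le)
  have hda : ‖ev Vv x - ev Vy x‖ ≤ δ := by
    have e : ev Vv x - ev Vy x = (ev Vv x - ev Vy x - t * ev A x) + t * ev A x := by ring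
    rw [e]
    exact (IsUltrametricDist.norm_add_le_max _ _).trans (max_le ((hT hx).trans hδ2) hAx)
  have hdb : ‖ev Vv x' - ev Vy x'‖ ≤ δ := by
    have e : ev Vv x' - ev Vy x' = (ev Vv x' - ev Vy x' - t * ev A x') + t * ev A x' := by ring
    rw [e]
    exact (IsUltrametricDist.norm_add_le_max _ _).trans (max_le ((hT hx').trans hδ2) hAx')
  have hδw : δ ≤ w := le_max_right _ _
  have hRw : R ≤ w := le_max_left _ _
  have ha : ‖ev Vv x‖ ≤ w := by
    have e : ev Vv x = (ev Vv x - ev Vy x) + ev Vy x := by ring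
    rw [e]
    exact (IsUltrametricDist.norm_add_le_max _ _).trans (max_le (hda.trans hδw) (hRx.trans hRw))
  have hb : ‖ev Vv x'‖ ≤ w := by
    have e : ev Vv x' = (ev Vv x' - ev Vy x') + ev Vy x' := by ring
    rw [e]
    exact (IsUltrametricDist.norm_add_le_max _ _).trans (max_le (hdb.trans hδw) (hRx'.trans hRw))
  have hE5 := law_diff hFvI hFyI hδ0 hw0 hw1 hcoef ha hb (hRx.trans hRw) (hRx'.trans hRw) hda hdb
  have hE4 : ‖ev Vv s' - ev Vv s‖ ≤ δ ^ 2 := (lip_ev hVvI hsn' hsn).trans hss'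
  have hE3 := hT hsn
  have hE1 := hT hx
  have hE2 := hT hx'
  -- the identity
  have key : t * Q = (ev Vv x - ev Vy x - t * ev A x) + (ev Vv x' - ev Vy x' - t * ev A x')
      + (ptAdd Fv (ev Vv x) (ev Vv x') - ptAdd Fy (ev Vy x) (ev Vy x') - (ev Vv x - ev Vy x) - (ev Vv x' - ev Vy x'))
      - (ev Vv s' - ev Vv s) - (ev Vv s - ev Vy s - t * ev A s) := by
    rw [hQ, ← hom_v, ← hom_y]
    ring
  have hδδ : δ ^ 2 ≤ δ * w := by
    rw [pow_two]; exact mul_le_mul_of_nonneg_left hδw hδ0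
  have hle : ‖t * Q‖ ≤ δ * w := by
    rw [key]
    have hsub : ∀ {a b : K} {C : ℝ}, ‖a‖ ≤ C → ‖b‖ ≤ C → ‖a - b‖ ≤ C := fun ha hb =>
      (norm_sub_le_max_ultra _ _).trans (max_le ha hb)
    have hadd : ∀ {a b : K} {C : ℝ}, ‖a‖ ≤ C → ‖b‖ ≤ C → ‖a + b‖ ≤ C := fun ha hb =>
      (IsUltrametricDist.norm_add_le_max _ _).trans (max_le ha hb)
    exact hsub (hsub (hadd (hadd (hE1.trans hδδ) (hE2.trans hδδ)) hE5) (hE4.trans hδδ)) (hE3.trans hδδ)
  rw [norm_mul] at hle
  have hQw : ‖Q‖ ≤ w := le_of_mul_le_mul_left hle ht0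
  have : w < ‖Q‖ := max_lt hcon htQ
  exact absurd hQw (not_le.2 this)

/-- The derivative of `V` at `y` is additive on the roots of `V_y`. -/
theorem ev_dSer_ptAdd_of_root {y c : Fin d → K} (hy : ∀ i, ‖y i‖ < 1) (hc : ∀ b, ‖c b‖ ≤ 1) {x x' : K}
    (hx : ‖x‖ < 1) (hx' : ‖x'‖ < 1) (h0 : ev (PowerSeries.map (evP p n y hy) I.V) x = 0)
    (h0' : ev (PowerSeries.map (evP p n y hy) I.V) x' = 0) :
    ev (dSer y c I.V) (ptAdd (twL p h (I.F.map (evP p n y hy))) x x') =
      ev (dSer y c I.V) x + ev (dSer y c I.V) x' := by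
  have := first_order I hy hc hx hx' le_rfl zero_lt_one (by rw [h0, norm_zero]) (by rw [h0', norm_zero])
  have h1 := norm_le_zero_iff.1 this
  rw [sub_sub, sub_eq_zero] at h1
  exact h1

/-! ### The derivative of `V` at the origin -/

omit [CharP K p] in
lemma evP_zero (f : RR p n d) : evP p n (fun _ : Fin d => (0 : K)) (fun _ => by simp) f =
    algebraMap (GaloisField p n) K (MvPowerSeries.constantCoeff f) := by
  have := norm_evR_sub_res_le (k := GaloisField p n) (K := K) (u := fun _ : Fin d => (0 : K))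
    (hu := fun _ => by simp) (ρ := 0) le_rfl zero_le_one (fun _ => by simp) f
  exact sub_eq_zero.1 (norm_le_zero_iff.1 this)

omit [CharP K p] in
lemma Vat_zero : PowerSeries.map (evP p n (fun _ : Fin d => (0 : K)) (fun _ => by simp)) I.V =
    PowerSeries.X ^ p ^ d := by
  ext i
  rw [PowerSeries.coeff_map, evP_zero]
  have h2 := congrArg (PowerSeries.coeff i) I.V_red
  rw [PowerSeries.coeff_map] at h2
  rw [show (MvPowerSeries.constantCoeff (PowerSeries.coeff i I.V) : GaloisField p n) = _ from h2,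
    PowerSeries.coeff_X_pow, PowerSeries.coeff_X_pow]
  split_ifs <;> simp

lemma Fat_zero : I.F.map (evP p n (fun _ : Fin d => (0 : K)) (fun _ => by simp)) = honda p n K := by
  have e : evP p n (fun _ : Fin d => (0 : K)) (fun _ => by simp) =
      (algebraMap (GaloisField p n) K).comp (resR p n d) := RingHom.ext fun f => evP_zero f
  rw [e, ← fg_map_map, I.red, Γ₀, honda_map]

end firstOrder

section nonPow

variable {p : ℕ} [Fact p.Prime] {n : ℕ} {h d : ℕ} (I : CharPInput p n h d)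

/-- **Additivity modulo degree `p^d`.** The linear coefficients in `y_b` of the coefficients of `V`
vanish at exponents below `p^d` which are not powers of `p`. -/
theorem coeff_lin_V_of_not_pow (K : Type*) [NontriviallyNormedField K]
    [IsUltrametricDist K] [CompleteSpace K] [CharP K p] [Algebra (GaloisField p n) K] [PerfectRing K p]
    (b : Fin d) {m : ℕ} (hm : m < p ^ d) (hpow : ∀ j, m ≠ p ^ j) :
    MvPowerSeries.coeff (Finsupp.single b 1) (PowerSeries.coeff m I.V) = 0 := by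
  classical
  have hp : p.Prime := Fact.out
  by_cases hm0 : m = 0
  · subst hm0
    rw [PowerSeries.coeff_zero_eq_constantCoeff_apply, I.V_hom.1, map_zero]
  -- the origin
  set y₀ : Fin d → K := fun _ => 0 with hy₀
  have hy₀n : ∀ i, ‖y₀ i‖ < 1 := fun _ => by simp [hy₀]
  set c : Fin d → K := Pi.single b 1 with hc
  have hc1 : ∀ i, ‖c i‖ ≤ 1 := fun i => by
    rw [hc, Pi.single_apply]
    split_ifs <;> simp
  set E : PowerSeries K := dSer y₀ c I.V with hE
  have hEI : IsInt E := isInt_dSer hy₀n hc1 I.V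
  set e : ℕ → GaloisField p n := fun i => MvPowerSeries.coeff (Finsupp.single b 1) (PowerSeries.coeff i I.V) with he
  have hEc : ∀ i, PowerSeries.coeff i E = algebraMap (GaloisField p n) K (e i) := by
    intro i
    rw [hE, coeff_dSer, Finset.sum_eq_single b]
    · rw [hc, Pi.single_eq_same, one_mul]
      have := norm_dlt_sub_le (k := GaloisField p n) (K := K) (y := y₀) (ρ := 0) le_rfl zero_lt_one
        (fun _ => by simp [hy₀]) b (PowerSeries.coeff i I.V)
      exact sub_eq_zero.1 (norm_le_zero_iff.1 this)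
    · intro b' _ hb'
      rw [hc, Pi.single_eq_of_ne hb', zero_mul]
    · intro h'
      exact absurd (Finset.mem_univ _) h'
  -- the law at the origin
  set Γ := honda p n K with hΓ
  have hΓI : IsIntLaw Γ := isIntLaw_honda n
  have hF0 : I.F.map (evP p n y₀ hy₀n) = Γ := Fat_zero I
  have hV0 : PowerSeries.map (evP p n y₀ hy₀n) I.V = PowerSeries.X ^ p ^ d := Vat_zero I
  have hnn : h + d = n := I.hd
  have hn0 : 1 ≤ n := by have := I.h1; omega
  have hΓtw : twL p h Γ = Γ := honda_map p n _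
  have hpd1 : 1 ≤ p ^ d := Nat.one_le_pow _ _ hp.pos
  have hpdq : p ^ d ≤ p ^ (h + d) := Nat.pow_le_pow_right hp.pos (by omega)
  -- the tower data at the origin, to use the estimate for `Γ`
  set D₀ := pointData (K := K) I y₀ hy₀n (ρ := 0) le_rfl zero_lt_one (fun _ => by simp [hy₀]) with hD₀
  -- near additivity in the plain sum
  have hnear : ∀ {x x' : K} {r : ℝ}, 0 ≤ r → r < 1 → ‖x‖ ≤ r → ‖x'‖ ≤ r →
      ‖ev E (x + x') - ev E x - ev E x'‖ ≤ r ^ p ^ d := by
    intro x x' r hr0 hr1 hxr hxr'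
    have hx : ‖x‖ < 1 := hxr.trans_lt hr1
    have hx' : ‖x'‖ < 1 := hxr'.trans_lt hr1
    have hRx : ∀ {z : K}, ‖z‖ ≤ r → ‖ev (PowerSeries.map (evP p n y₀ hy₀n) I.V) z‖ ≤ r ^ p ^ d := by
      intro z hz
      rw [hV0, ev_X_pow (hz.trans_lt hr1), norm_pow]
      exact pow_le_pow_left₀ (norm_nonneg _) hz _
    have hR1 : r ^ p ^ d < 1 := pow_lt_one₀ hr0 hr1 (by omega)
    have h1 := first_order I hy₀n hc1 hx hx' (pow_nonneg hr0 _) hR1 (hRx hxr) (hRx hxr')
    rw [hF0, hΓtw] at h1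
    have h2 : ‖ptAdd Γ x x' - (x + x')‖ ≤ r ^ p ^ (h + d) := D₀.norm_ptAdd_Γ_sub_le hr0 hr1 hxr hxr'
    have h3 : ‖x + x'‖ < 1 := (IsUltrametricDist.norm_add_le_max _ _).trans_lt (max_lt hx hx')
    have h4 : ‖ev E (x + x') - ev E (ptAdd Γ x x')‖ ≤ r ^ p ^ d := by
      refine (lip_ev hEI h3 (norm_ptAdd_lt hΓI hx hx')).trans ?_
      rw [norm_sub_rev]
      exact h2.trans (pow_le_pow_of_le_one hr0 hr1.le hpdq)
    have e : ev E (x + x') - ev E x - ev E x' = (ev E (x + x') - ev E (ptAdd Γ x x')) +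
        (ev E (ptAdd Γ x x') - ev E x - ev E x') := by ring
    rw [e]
    exact (IsUltrametricDist.norm_add_le_max _ _).trans (max_le h4 h1)
  -- the series in two variables
  set Xp : Unit → MvPowerSeries (Unit ⊕ Unit) K := fun j => MvPowerSeries.X (Sum.inl j) + MvPowerSeries.X (Sum.inr j)
    with hXp
  have hXp0 : ∀ j, MvPowerSeries.constantCoeff (Xp j) = 0 := fun j => by simp [hXp]
  have hXpB : ∀ j, IsB (1 : ℝ) 1 (Xp j) := fun j =>
    (isB_X 1 zero_le_one _).add (isB_X 1 zero_le_one _) zero_le_one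
  set S1 : MvPowerSeries (Unit ⊕ Unit) K := MvPowerSeries.subst Xp (E : MvPowerSeries Unit K) with hS1
  set S2 : MvPowerSeries (Unit ⊕ Unit) K :=
    MvPowerSeries.subst (fun j : Unit => (MvPowerSeries.X (Sum.inl j) : MvPowerSeries (Unit ⊕ Unit) K))
      (E : MvPowerSeries Unit K) with hS2
  set S3 : MvPowerSeries (Unit ⊕ Unit) K :=
    MvPowerSeries.subst (fun j : Unit => (MvPowerSeries.X (Sum.inr j) : MvPowerSeries (Unit ⊕ Unit) K))
      (E : MvPowerSeries Unit K) with hS3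
  have hS1B : IsB (1 : ℝ) 1 S1 := IsB.subst one_pos zero_le_one hEI.isB hXp0 hXpB
  have hS2B : IsB (1 : ℝ) 1 S2 := IsB.subst one_pos zero_le_one hEI.isB (fun j => by simp)
    (fun j => isB_X 1 zero_le_one _)
  have hS3B : IsB (1 : ℝ) 1 S3 := IsB.subst one_pos zero_le_one hEI.isB (fun j => by simp)
    (fun j => isB_X 1 zero_le_one _)
  set f := S1 - S2 - S3 with hf
  have hfB : IsB (1 : ℝ) 1 f := (hS1B.sub hS2B zero_le_one).sub hS3B zero_le_one
  have hord : ∀ γ, Finsupp.degree γ < p ^ d → MvPowerSeries.coeff γ f = 0 := by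
    refine coeff_eq_zero_of_bound (C := 1) one_pos one_pos hfB (p ^ d) zero_le_one ?_
    intro z ρ hz hρ hzρ
    rw [one_mul]
    have e1 : evalS S1 z = ev E (z (Sum.inl ()) + z (Sum.inr ())) := by
      rw [hS1, evalS_subst one_pos zero_le_one hEI.isB hXp0 hXpB hz, ev]
      congr 1
      funext j
      rw [hXp]
      simp only
      rw [evalS_add one_pos (isB_X 1 zero_le_one _) (isB_X 1 zero_le_one _) hz, evalS_X, evalS_X]
    have e2 : evalS S2 z = ev E (z (Sum.inl ())) := by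
      rw [hS2, evalS_subst one_pos zero_le_one hEI.isB (fun j => by simp) (fun j => isB_X 1 zero_le_one _) hz, ev]
      congr 1
      funext j
      rw [evalS_X]
    have e3 : evalS S3 z = ev E (z (Sum.inr ())) := by
      rw [hS3, evalS_subst one_pos zero_le_one hEI.isB (fun j => by simp) (fun j => isB_X 1 zero_le_one _) hz, ev]
      congr 1
      funext j
      rw [evalS_X]
    have e4 : evalS f z = ev E (z (Sum.inl ()) + z (Sum.inr ())) - ev E (z (Sum.inl ())) - ev E (z (Sum.inr ())) := by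
      rw [hf, evalS_sub one_pos (hS1B.sub hS2B zero_le_one) hS3B hz, evalS_sub one_pos hS1B hS2B hz, e1, e2, e3]
    rw [e4]
    set r := max ‖z (Sum.inl ())‖ ‖z (Sum.inr ())‖ with hr
    have hr0 : 0 ≤ r := le_max_of_le_left (norm_nonneg _)
    have hr1 : r < 1 := max_lt (hz _) (hz _)
    have hrρ : r ≤ ρ := max_le (hzρ _) (hzρ _)
    exact (hnear hr0 hr1 (le_max_left _ _) (le_max_right _ _)).trans (pow_le_pow_left₀ hr0 hrρ _)
  -- binomial relation
  have hbinom : ∀ j, 0 < j → j < m → (e m = 0 ∨ p ∣ m.choose j) := by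
    intro j hj0 hjm
    set α : Unit →₀ ℕ := Finsupp.single () (m - j) with hα
    set β : Unit →₀ ℕ := Finsupp.single () j with hβ
    have hαβ : α + β = Finsupp.single () m := by
      rw [hα, hβ, ← Finsupp.single_add]
      congr 1
      omega
    have hα0 : α ≠ 0 := by
      rw [hα, Ne, Finsupp.single_eq_zero]; omega
    have hβ0 : β ≠ 0 := by
      rw [hβ, Ne, Finsupp.single_eq_zero]; omega
    have hdeg : Finsupp.degree (Finsupp.sumElim α β) < p ^ d := by
      rw [degree_sumElim, hα, hβ, Finsupp.degree_single, Finsupp.degree_single]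
      omega
    have h1 := hord _ hdeg
    rw [hf, map_sub, map_sub, hS2, hS3, coeff_subst_inl _ α β hβ0, coeff_subst_inr _ α β hα0, sub_zero, sub_zero] at h1
    have h2 : MvPowerSeries.coeff (Finsupp.sumElim α β) S1 =
        MvPowerSeries.coeff (α + β) (E : MvPowerSeries Unit K) * (mchoose (α + β) β : K) := by
      rw [hS1, coeff_subst_eq_tsum hXp0, tsum_eq_single (α + β)]
      · rw [hXp, coeff_prod_add, if_pos rfl]
      · intro d' hd'
        rw [hXp, coeff_prod_add, if_neg (fun h' => hd' h'.symm), mul_zero]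
    rw [h2, hαβ, hβ, mchoose_single, coeff_unit, Finsupp.single_eq_same, hEc] at h1
    rcases mul_eq_zero.1 h1 with h3 | h3
    · left
      exact (map_eq_zero _).1 h3
    · right
      exact (CharP.cast_eq_zero_iff K p _).1 h3
  by_contra hne
  have hne' : e m ≠ 0 := hne
  obtain ⟨s, hs⟩ := eq_pow_of_dvd_choose p (Nat.one_le_iff_ne_zero.2 hm0)
    (fun j hj0 hjm => (hbinom j hj0 hjm).resolve_left hne')
  exact hpow s hs

/-- The linear coefficient in `y_b` of the coefficient of `X^i` in `V` vanishes for `i < p^b`. -/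
theorem coeff_lin_V_zero (K : Type*) [NontriviallyNormedField K]
    [IsUltrametricDist K] [CompleteSpace K] [CharP K p] [Algebra (GaloisField p n) K] [PerfectRing K p]
    (b : Fin d) {i : ℕ} (hi : i < p ^ b.1) :
    MvPowerSeries.coeff (Finsupp.single b 1) (PowerSeries.coeff i I.V) = 0 := by
  classical
  have hp : p.Prime := Fact.out
  by_cases hpow : ∃ j, i = p ^ j
  · obtain ⟨j, rfl⟩ := hpow
    have hjb : j < b.1 := (Nat.pow_lt_pow_iff_right hp.one_lt).1 hi
    have hjd : j < d := hjb.trans b.2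
    have h1 := I.V_coeff ⟨j, hjd⟩
    simp only at h1
    rw [h1, MvPowerSeries.coeff_X, if_neg]
    intro h2
    have h3 := DFunLike.congr_fun h2 b
    have hne : (⟨j, hjd⟩ : Fin d) ≠ b := fun h' => by
      rw [← h'] at hjb
      simp at hjb
    simp [Finsupp.single_apply, hne] at h3
  · push Not at hpow
    refine coeff_lin_V_of_not_pow I K b ?_ hpow
    exact hi.trans_le (Nat.pow_le_pow_right hp.pos b.2.le)

end nonPow

section main

variable {p : ℕ} [Fact p.Prime] {n : ℕ} {K : Type*} [NontriviallyNormedField K]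
  [IsUltrametricDist K] [CompleteSpace K] [CharP K p] [Algebra (GaloisField p n) K] [PerfectRing K p]
  [IsAlgClosed K] {h d : ℕ} (I : CharPInput p n h d)

theorem ks_aux {y : Fin d → K} (hy : ∀ i, ‖y i‖ < 1) {ρ : ℝ} (hρ0 : 0 ≤ ρ) (hρ1 : ρ < 1)
    (hyρ : ∀ i, ‖y i‖ ≤ ρ) (hy0 : y ⟨0, I.d1⟩ ≠ 0) (D : TowerData p K h d)
    (hDF : D.F = I.F.map (evP p n y hy)) (hDV : D.V = PowerSeries.map (evP p n y hy) I.V)
    (x : Fin d → Pts (D.Fj 1)) (hx : ∀ l, x l ∈ D.Λ₁) (hind : IndF p x) :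
    Matrix.det (Matrix.of fun (l b : Fin d) => ev (dPart y b I.V) (x l).val) ≠ 0 := by
  classical
  have hp : p.Prime := Fact.out
  intro hdet
  obtain ⟨c₀, hc₀ne, hc₀⟩ := Matrix.exists_mulVec_eq_zero_iff.2 hdet
  -- normalise
  have hd1 : Nonempty (Fin d) := ⟨⟨0, I.d1⟩⟩
  obtain ⟨b₀, -, hb₀⟩ := Finset.exists_max_image (Finset.univ : Finset (Fin d)) (fun b => ‖c₀ b‖)
    ⟨⟨0, I.d1⟩, Finset.mem_univ _⟩
  have hcb₀ : c₀ b₀ ≠ 0 := by
    intro h0
    apply hc₀ne
    funext b
    have := hb₀ b (Finset.mem_univ _)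
    rw [h0, norm_zero] at this
    simpa using norm_le_zero_iff.1 this
  set c : Fin d → K := fun b => c₀ b / c₀ b₀ with hc
  have hc1 : ∀ b, ‖c b‖ ≤ 1 := fun b => by
    rw [hc]
    simp only [norm_div]
    exact (div_le_one (norm_pos_iff.2 hcb₀)).2 (hb₀ b (Finset.mem_univ _))
  have hcb₀1 : ‖c b₀‖ = 1 := by
    rw [hc]
    simp only [norm_div]
    exact div_self (norm_ne_zero_iff.2 hcb₀)
  set A := dSer y c I.V with hA
  have hAI : IsInt A := isInt_dSer hy hc1 I.V
  -- vanishing at the basis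
  have hroot : ∀ l, ev A (x l).val = 0 := by
    intro l
    rw [hA, ev_dSer hy hc1 I.V (x l).norm_lt]
    have h1 := congrFun hc₀ l
    rw [Matrix.mulVec, dotProduct] at h1
    simp only [Matrix.of_apply, Pi.zero_apply] at h1
    have h2 : ∑ b, c b * ev (dPart y b I.V) (x l).val =
        (∑ b, ev (dPart y b I.V) (x l).val * c₀ b) / c₀ b₀ := by
      rw [Finset.sum_div]
      refine Finset.sum_congr rfl fun b _ => ?_
      rw [hc]
      ring
    rw [h2, h1, zero_div]
  -- `Fj 1`, `Vj 0`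
  have hF1 : D.Fj 1 = twL p h (I.F.map (evP p n y hy)) := by
    rw [TowerData.Fj, one_mul, hDF]
  have hV0 : D.Vj 0 = PowerSeries.map (evP p n y hy) I.V := by
    rw [TowerData.Vj, zero_mul, tw_zero, hDV]
  -- vanishing on `Λ₁`
  have hP0 : ev A (0 : Pts (D.Fj 1)).val = 0 := by
    rw [Pts.val_zero]
    apply ev_zero_of_cc
    rw [← PowerSeries.coeff_zero_eq_constantCoeff_apply, hA, coeff_dSer]
    refine Finset.sum_eq_zero fun b _ => ?_
    rw [PowerSeries.coeff_zero_eq_constantCoeff_apply, I.V_hom.1]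
    have : dlt (k := GaloisField p n) y b (0 : RR p n d) = 0 := by
      rw [dlt]
      have h0 : hasse (Finsupp.single b 1) (MvPowerSeries.map (algebraMap (GaloisField p n) K) (0 : RR p n d)) = 0 := by
        ext γ
        simp
      rw [h0, evalS_zero]
    rw [this, mul_zero]
  have hPadd : ∀ u u' : Pts (D.Fj 1), u ∈ D.Λ₁ → u' ∈ D.Λ₁ → ev A u.val = 0 → ev A u'.val = 0 →
      ev A (u + u').val = 0 := by
    intro u u' hu hu' h1 h2
    have e1 : ev (PowerSeries.map (evP p n y hy) I.V) u.val = 0 := by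
      rw [← hV0]; exact D.mem_Λ₁.1 hu
    have e2 : ev (PowerSeries.map (evP p n y hy) I.V) u'.val = 0 := by
      rw [← hV0]; exact D.mem_Λ₁.1 hu'
    have h3 := ev_dSer_ptAdd_of_root I hy hc1 u.norm_lt u'.norm_lt e1 e2
    rw [Pts.val_add]
    have e3 : ptAdd (D.Fj 1) u.val u'.val = ptAdd (twL p h (I.F.map (evP p n y hy))) u.val u'.val := by
      rw [hF1]
    rw [e3, hA] at *
    rw [h3, h1, h2, add_zero]
  have hPn : ∀ (m : ℕ) (u : Pts (D.Fj 1)), u ∈ D.Λ₁ → ev A u.val = 0 → ev A (m • u).val = 0 := by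
    intro m u hu h1
    induction m with
    | zero => rw [zero_smul]; exact hP0
    | succ m ih =>
      rw [succ_nsmul]
      exact hPadd _ _ (D.Λ₁.nsmul_mem hu m) hu ih h1
  have hPs : ∀ (C : Fin d → ℕ) (s : Finset (Fin d)), ev A (∑ l ∈ s, C l • x l).val = 0 := by
    intro C s
    induction s using Finset.induction_on with
    | empty => rw [Finset.sum_empty]; exact hP0
    | insert a s ha ih =>
      rw [Finset.sum_insert ha]
      exact hPadd _ _ (D.Λ₁.nsmul_mem (hx a) _) (D.Λ₁.sum_mem fun l _ => D.Λ₁.nsmul_mem (hx l) _)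
        (hPn _ _ (hx a) (hroot a)) ih
  have hcoeff1 : PowerSeries.coeff 1 D.V ≠ 0 := by
    have h1 := I.V_coeff ⟨0, I.d1⟩
    simp only [pow_zero] at h1
    rw [hDV, PowerSeries.coeff_map, h1]
    simpa [evR_X] using hy0
  have hcard := D.card_Λ₁ hcoeff1
  have hp1 : ∀ u ∈ D.Λ₁, p • u = 0 := fun u hu => D.p_smul_Λ₁ hu
  have hvan : ∀ u ∈ D.Λ₁, ev A u.val = 0 := by
    intro u hu
    obtain ⟨C, rfl⟩ := IndF.span D.Λ₁ hp1 hcard hx hind u hu
    exact hPs C _
  -- the leading coefficient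
  set T := Finset.univ.filter (fun b : Fin d => ‖c b‖ = 1) with hT
  have hTne : T.Nonempty := ⟨b₀, by simp [hT, hcb₀1]⟩
  set k₀ := T.min' hTne with hk₀
  have hk₀1 : ‖c k₀‖ = 1 := by
    have := T.min'_mem hTne
    simpa [hT] using this
  have hmin : ∀ b, b < k₀ → ‖c b‖ < 1 := by
    intro b hb
    refine lt_of_le_of_ne (hc1 b) fun h1 => ?_
    have : b ∈ T := by simp [hT, h1]
    exact absurd (T.min'_le b this) (not_le.2 hb)
  have hm : ‖PowerSeries.coeff (p ^ k₀.1) A‖ = 1 := by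
    rw [hA, coeff_dSer, I.V_coeff k₀, Finset.sum_eq_single k₀]
    · rw [dlt_X, if_pos rfl, mul_one, hk₀1]
    · intro b _ hb
      rw [dlt_X, if_neg (Ne.symm hb), mul_zero]
    · intro h'
      exact absurd (Finset.mem_univ _) h'
  have hlow : ∀ i < p ^ k₀.1, ‖PowerSeries.coeff i A‖ < 1 := by
    intro i hi
    rw [hA, coeff_dSer]
    refine norm_sum_lt one_pos fun b _ => ?_
    rw [norm_mul]
    by_cases hb : b < k₀
    · exact (mul_le_of_le_one_right (norm_nonneg _) (norm_dlt_le_one hy _ _)).trans_lt (hmin b hb)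
    · have hb' : k₀.1 ≤ b.1 := not_lt.1 hb
      have hib : i < p ^ b.1 := hi.trans_le (Nat.pow_le_pow_right hp.pos hb')
      have h1 := norm_dlt_sub_le (k := GaloisField p n) hρ0 hρ1 hyρ b (PowerSeries.coeff i I.V)
      rw [coeff_lin_V_zero I K b hib, map_zero, sub_zero] at h1
      exact (mul_le_of_le_one_left (norm_nonneg _) (hc1 b)).trans_lt (h1.trans_lt hρ1)
  -- counting
  have hfin : Finite D.Λ₁ := Nat.finite_of_card_ne_zero (by rw [hcard]; exact pow_ne_zero _ hp.ne_zero)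
  letI : Fintype D.Λ₁ := Fintype.ofFinite _
  set S : Finset K := Finset.univ.image (fun u : D.Λ₁ => u.1.val) with hS
  have hinj : Function.Injective (fun u : D.Λ₁ => u.1.val) := fun u u' huu =>
    Subtype.ext (Pts.ext huu)
  have hScard : S.card = p ^ d := by
    rw [hS, Finset.card_image_of_injective _ hinj, Finset.card_univ, ← Nat.card_eq_fintype_card, hcard]
  have hle := card_roots_le A (p ^ k₀.1) hAI hlow hm S (by
    intro z hz
    rw [hS, Finset.mem_image] at hz
    obtain ⟨u, -, rfl⟩ := hz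
    exact ⟨u.1.norm_lt, hvan u.1 u.2⟩)
  rw [hScard] at hle
  have : p ^ k₀.1 < p ^ d := Nat.pow_lt_pow_right hp.one_lt k₀.2
  omega

/-- **Kodaira-Spencer (E5(b)).** At a point `y` of the open polydisc with `y_0 ≠ 0`, for an `F_p`-basis
`x` of the roots `Λ₁` of `V_y`, the matrix `(D_b V)(x_l)` is invertible. -/
theorem ks_det_ne_zero {y : Fin d → K} (hy : ∀ i, ‖y i‖ < 1) {ρ : ℝ} (hρ0 : 0 ≤ ρ) (hρ1 : ρ < 1)
    (hyρ : ∀ i, ‖y i‖ ≤ ρ) (hy0 : y ⟨0, I.d1⟩ ≠ 0)
    (x : Fin d → Pts ((pointData I y hy hρ0 hρ1 hyρ).Fj 1))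
    (hx : ∀ l, x l ∈ (pointData I y hy hρ0 hρ1 hyρ).Λ₁) (hind : IndF p x) :
    Matrix.det (Matrix.of fun (l b : Fin d) => ev (dPart y b I.V) (x l).val) ≠ 0 :=
  ks_aux I hy hρ0 hρ1 hyρ hy0 _ rfl rfl x hx hind

end main

end Crest.Agent.LT
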