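/-
S0351 T13b: branches of the chain equation and the coordinates `X_l` (BLUEPRINT §E5 (a), (b), (c)).
-/
import Crest.Agent.Lib.LT.CoordDefs
import Crest.Agent.Lib.LT.CoordKS

set_option autoImplicit false
set_option linter.unusedSectionVars false
set_option linter.unusedVariables false
set_option linter.unnecessarySimpa false

namespace Crest.Agent.LT

open MvPowerSeries Filter Topology Crest.LubinTate

section general

variable {K : Type*} [NontriviallyNormedField K] [IsUltrametricDist K] [CompleteSpace K]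

lemma hasse_single_unit (f : PowerSeries K) :
    hasse (Finsupp.single () 1) f = PowerSeries.derivative K f := by
  classical
  ext n
  rw [PowerSeries.coeff_derivative]
  show MvPowerSeries.coeff (Finsupp.single () n) (hasse (Finsupp.single () 1) f) = _
  rw [coeff_hasse]
  have h3 : Finsupp.single () n + Finsupp.single () 1 = Finsupp.single () (n + 1) :=
    (Finsupp.single_add _ _ _).symm
  rw [h3]
  have h5 : mchoose (Finsupp.single () (n + 1)) (Finsupp.single () 1) = n + 1 := by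
    simp [mchoose]
  rw [h5]
  show _ * PowerSeries.coeff (n + 1) f = _
  push_cast
  ring

lemma der_eq (f : PowerSeries K) (x : K) : der f x = ev (PowerSeries.derivative K f) x := by
  show evalS (σ := Unit) (hasse (Finsupp.single () 1) f) (fun _ => x) = _
  rw [hasse_single_unit]
  rfl

lemma der_zero (f : PowerSeries K) : der f 0 = PowerSeries.coeff 1 f := by
  rw [der_eq, ev]
  have : (fun _ : Unit => (0 : K)) = 0 := rfl
  rw [this, evalS_zero_point]
  have h := PowerSeries.coeff_derivative (R := K) f 0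
  simp only [PowerSeries.coeff_zero_eq_constantCoeff_apply] at h
  rw [show constantCoeff (PowerSeries.derivative K f) = PowerSeries.constantCoeff (PowerSeries.derivative K f) from rfl, h]
  simp

/-- A positive lower bound for a finite family of positive numbers. -/
lemma exists_pos_le {ι : Type*} [Fintype ι] (f : ι → ℝ) (hf : ∀ i, 0 < f i) : ∃ r : ℝ, 0 < r ∧ ∀ i, r ≤ f i := by
  by_cases hι : Nonempty ι
  · obtain ⟨i₀, -, hi₀⟩ := Finset.exists_min_image (Finset.univ : Finset ι) f ⟨hι.some, Finset.mem_univ _⟩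
    exact ⟨f i₀, hf _, fun i => hi₀ i (Finset.mem_univ i)⟩
  · exact ⟨1, one_pos, fun i => (hι ⟨i⟩).elim⟩

/-- An upper bound for a finite family of numbers. -/
lemma exists_nonneg_ge {ι : Type*} [Fintype ι] (f : ι → ℝ) : ∃ C : ℝ, 0 ≤ C ∧ ∀ i, f i ≤ C := by
  refine ⟨∑ i, |f i|, Finset.sum_nonneg fun _ _ => abs_nonneg _, fun i => ?_⟩
  exact (le_abs_self _).trans (Finset.single_le_sum (f := fun i => |f i|) (fun _ _ => abs_nonneg _) (Finset.mem_univ i))

section law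

variable {F : FormalGroup K} {ζ : Type*} [Fintype ζ]

/-- Analyticity of the group law. -/
lemma linAt_ptAdd (hF : IsIntLaw F) {a b : (ζ → K) → K} {z : ζ → K} {La Lb : ζ → K} (ha : LinAt a z La)
    (hb : LinAt b z Lb) (ha1 : ‖a z‖ < 1) (hb1 : ‖b z‖ < 1) :
    LinAt (fun x => ptAdd F (a x) (b x)) z
      (fun j => dS F.toPowerSeries ![a z, b z] 0 * La j + dS F.toPowerSeries ![a z, b z] 1 * Lb j) := by
  have h := LinAt.comp (τ := Fin 2) (f := evalS F.toPowerSeries) (G := ![a, b]) (a := z)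
    (L := ![La, Lb]) (M := dS F.toPowerSeries ![a z, b z]) (by
      intro i; fin_cases i
      · exact ha
      · exact hb) (by
      have e : (fun i => (![a, b] : Fin 2 → (ζ → K) → K) i z) = ![a z, b z] := by
        funext i; fin_cases i <;> rfl
      rw [e]
      exact linAt_evalS one_pos hF (norm_pair_lt ha1 hb1))
  have e : ∀ x, (fun i => (![a, b] : Fin 2 → (ζ → K) → K) i x) = ![a x, b x] := by
    intro x; funext i; fin_cases i <;> rfl
  simp only [e] at h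
  simpa [Fin.sum_univ_two, ptAdd] using h

variable [F.IsComm]

/-- Subtraction of a fixed point has nonzero derivative. -/
lemma exists_linAt_ptSub (hF : IsIntLaw F) {w : (ζ → K) → K} {z : ζ → K} {L : ζ → K} (hw : LinAt w z L)
    (hw1 : ‖w z‖ < 1) {x₀ : K} (hx₀ : ‖x₀‖ < 1) :
    ∃ A : K, A ≠ 0 ∧ LinAt (fun x => ptSub F (w x) x₀) z (fun j => A * L j) := by
  classical
  have hneg := norm_ptNeg_lt hF hx₀
  set A : K := dS F.toPowerSeries ![w z, ptNeg F x₀] 0 with hA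
  have h1 : LinAt (fun x => ptSub F (w x) x₀) z (fun j => A * L j) := by
    have := linAt_ptAdd hF hw (linAt_const (ptNeg F x₀) z) hw1 hneg
    simpa [ptSub, hA] using this
  refine ⟨A, ?_, h1⟩
  -- the one variable function and its inverse
  set a := w z with ha
  have hc : LinAt (fun t : Unit → K => t ()) (fun _ => a) (fun _ => 1) := by
    have := linAt_coord (K := K) () (fun _ : Unit => a)
    simpa using this
  have h2 := linAt_ptAdd hF hc (linAt_const (ptNeg F x₀) _) hw1 hneg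
  have hg1 : ‖ptAdd F a (ptNeg F x₀)‖ < 1 := norm_ptAdd_lt hF hw1 hneg
  have h3 := linAt_ptAdd hF h2 (linAt_const x₀ _) hg1 hx₀
  have h4 : LinAt (fun t : Unit → K => ptAdd F (ptAdd F (t ()) (ptNeg F x₀)) x₀) (fun _ => a) (fun _ => 1) := by
    refine hc.congr (sub_pos.2 hw1) fun t ht => ?_
    have ht1 : ‖t ()‖ < 1 := by
      have e : t () = (t () - a) + a := by ring
      rw [e]
      refine (IsUltrametricDist.norm_add_le_max _ _).trans_lt (max_lt ?_ hw1)
      have := ht ()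
      linarith [norm_nonneg a]
    rw [ptAdd_assoc hF ht1 hneg hx₀, ptNeg_ptAdd hF hx₀, ptAdd_zero hF ht1]
  have h5 := congrFun (h3.unique h4) ()
  simp at h5
  intro hA0
  rw [← hA, hA0] at h5
  simp at h5

end law

end general

section chain

variable {p : ℕ} [Fact p.Prime] {n h d : ℕ} (I : CharPInput p n h d)
  {K : Type*} [NontriviallyNormedField K] [IsUltrametricDist K] [CompleteSpace K] [CharP K p]
  [PerfectRing K p] [Algebra (GaloisField p n) K]

omit [PerfectRing K p] in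
/-- At levels `≥ 1` the coefficients are `p`-th powers: no derivative in `y`. -/
lemma dvT_VR_eq_zero {y : Fin d → K} (hy : ∀ i, ‖y i‖ < 1) {m : ℕ} (hm : 1 ≤ m) (k : Fin d) :
    dvT y k (VR I m) = 0 := by
  ext i
  have hh := I.h1
  rw [coeff_dvT, VR, PowerSeries.coeff_map, iterateFrobenius_def, map_zero]
  refine δR_pow p hy k _ ?_
  exact dvd_pow_self p (by
    have : 1 ≤ m * h := Nat.mul_pos hm hh
    omega)

omit [PerfectRing K p] in
lemma dvT_VR_zero {y : Fin d → K} (k : Fin d) : dvT y k (VR I 0) = dPart y k I.V := by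
  ext i
  rw [coeff_dvT, coeff_dPart, VR, PowerSeries.coeff_map, iterateFrobenius_def]
  simp [dlt, δR]

variable {y : Fin d → K} (hy : ∀ i, ‖y i‖ < 1) {ρ : ℝ} (hρ0 : 0 ≤ ρ) (hρ1 : ρ < 1) (hyρ : ∀ i, ‖y i‖ ≤ ρ)

lemma coeff_one_Vj (m : ℕ) : PowerSeries.coeff 1 ((pointData I y hy hρ0 hρ1 hyρ).Vj m) =
    y ⟨0, I.d1⟩ ^ p ^ (m * h) := by
  rw [TowerData.Vj, coeff_tw, pointData_V, PowerSeries.coeff_map]
  have h1 := I.V_coeff ⟨0, I.d1⟩
  simp only [pow_zero] at h1
  rw [h1, evR_X]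

lemma der_Vj_ne_zero (hy0 : y ⟨0, I.d1⟩ ≠ 0) (m : ℕ) {x : K} (hx : ‖x‖ < 1) :
    der ((pointData I y hy hρ0 hρ1 hyρ).Vj m) x ≠ 0 := by
  rw [der_eq]
  refine TowerData.ev_derivative_ne_zero ((pointData I y hy hρ0 hρ1 hyρ).Vj_hom m)
    ((pointData I y hy hρ0 hρ1 hyρ).Vj_int m) ((pointData I y hy hρ0 hρ1 hyρ).Fj_int _)
    ((pointData I y hy hρ0 hρ1 hyρ).Fj_int _) ?_ hx
  rw [coeff_one_Vj I hy hρ0 hρ1 hyρ]
  exact pow_ne_zero _ hy0

/-- The total chain as a function on `(v, T)`. -/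
noncomputable def chZ (m i : ℕ) : (Fin d ⊕ Unit → K) → K :=
  fun z => chT I (fun a => z (Sum.inl a)) m i (z (Sum.inr ()))

include hy hρ0 hρ1 hyρ

lemma norm_chT_lt (m i : ℕ) {x : K} (hx : ‖x‖ < 1) : ‖chT I y m i x‖ < 1 := by
  rw [chT_eq I (hv := hy) (hρ0 := hρ0) (hρ1 := hρ1) (hvρ := hyρ) m i hx]
  exact (pointData I y hy hρ0 hρ1 hyρ).norm_chain_lt _ _ hx

/-- The chain at levels `≥ 1`: no derivative in `y`, nonzero derivative in `T`. -/
lemma exists_linAt_chZ_high (hy0 : y ⟨0, I.d1⟩ ≠ 0) {x₀ : K} (hx₀ : ‖x₀‖ < 1) (i : ℕ) :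
    ∀ m, 1 ≤ m → ∃ c : K, c ≠ 0 ∧ LinAt (chZ I m i) (Sum.elim y fun _ => x₀)
      (Sum.elim (fun _ => 0) (fun _ => c)) := by
  classical
  induction i with
  | zero =>
    intro m _
    refine ⟨1, one_ne_zero, ?_⟩
    have := linAt_coord (K := K) (Sum.inr () : Fin d ⊕ Unit) (Sum.elim y fun _ => x₀)
    have e : chZ I m 0 = fun z : Fin d ⊕ Unit → K => z (Sum.inr ()) := rfl
    rw [e]
    convert this using 1
    funext j
    rcases j with a | u <;> simp
  | succ i ih =>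
    intro m hm
    obtain ⟨c, hc, hL⟩ := ih (m + 1) (by omega)
    have hv1 : ∀ a, ‖(fun z : Fin d ⊕ Unit → K => fun a => z (Sum.inl a)) (Sum.elim y fun _ => x₀) a‖ < 1 := hy
    have hx1 : ‖chZ I (m + 1) i (Sum.elim y fun _ => x₀)‖ < 1 := by
      rw [show chZ I (m + 1) i (Sum.elim y fun _ => x₀) = chT I y (m + 1) i x₀ from rfl,
        chT_eq I (hv := hy) (hρ0 := hρ0) (hρ1 := hρ1) (hvρ := hyρ) _ _ hx₀]
      exact (pointData I y hy hρ0 hρ1 hyρ).norm_chain_lt _ _ hx₀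
    have h1 := linAt_evT (VR I m) (v := fun z : Fin d ⊕ Unit → K => fun a => z (Sum.inl a))
      (x := chZ I (m + 1) i) (a := Sum.elim y fun _ => x₀)
      (Lv := fun a j => if j = Sum.inl a then 1 else 0) (fun a => linAt_coord _ _) hL hv1 hx1
    refine ⟨der (PowerSeries.map (evP p n y hy) (VR I m)) (chT I y (m + 1) i x₀) * c, ?_, ?_⟩
    · refine mul_ne_zero ?_ hc
      rw [map_evP_VR I (K := K) (hρ0 := hρ0) (hρ1 := hρ1) (hvρ := hyρ)]
      exact der_Vj_ne_zero I hy hρ0 hρ1 hyρ hy0 m hx1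
    · have e : (chZ I m (i + 1) : (Fin d ⊕ Unit → K) → K) = fun z => evT (VR I m) (fun a => z (Sum.inl a)) (chZ I (m + 1) i z) := rfl
      rw [e]
      convert h1 using 2 with j
      have h0 : dvT (k := GaloisField p n) (fun a => (Sum.elim y (fun _ => x₀) : Fin d ⊕ Unit → K) (Sum.inl a)) = dvT y := rfl
      simp only [h0, dvT_VR_eq_zero I hy hm]
      rcases j with a | u
      · simp [ev_zero]
      · simp [ev_zero]
        exact Or.inl rfl

/-- The full chain: `∂_k = ev (dPart y k V) (x¹)`, `∂_T ≠ 0`. -/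
lemma exists_linAt_chZ_top (hy0 : y ⟨0, I.d1⟩ ≠ 0) {x₀ : K} (hx₀ : ‖x₀‖ < 1) (i : ℕ) :
    ∃ c : K, c ≠ 0 ∧ LinAt (chZ I 0 (i + 1)) (Sum.elim y fun _ => x₀)
      (Sum.elim (fun k => ev (dPart y k I.V) (chT I y 1 i x₀)) (fun _ => c)) := by
  classical
  obtain ⟨c, hc, hL⟩ := exists_linAt_chZ_high I hy hρ0 hρ1 hyρ hy0 hx₀ i 1 le_rfl
  have hv1 : ∀ a, ‖(fun z : Fin d ⊕ Unit → K => fun a => z (Sum.inl a)) (Sum.elim y fun _ => x₀) a‖ < 1 := hy
  have hx1 : ‖chZ I 1 i (Sum.elim y fun _ => x₀)‖ < 1 := norm_chT_lt I hy hρ0 hρ1 hyρ 1 i hx₀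
  have h1 := linAt_evT (VR I 0) (v := fun z : Fin d ⊕ Unit → K => fun a => z (Sum.inl a))
    (x := chZ I 1 i) (a := Sum.elim y fun _ => x₀)
    (Lv := fun a j => if j = Sum.inl a then 1 else 0) (fun a => linAt_coord _ _) hL hv1 hx1
  refine ⟨der (PowerSeries.map (evP p n y hy) (VR I 0)) (chT I y 1 i x₀) * c, ?_, ?_⟩
  · refine mul_ne_zero ?_ hc
    rw [map_evP_VR I (K := K) (hρ0 := hρ0) (hρ1 := hρ1) (hvρ := hyρ)]
    exact der_Vj_ne_zero I hy hρ0 hρ1 hyρ hy0 0 hx1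
  · have e : (chZ I 0 (i + 1) : (Fin d ⊕ Unit → K) → K) = fun z => evT (VR I 0) (fun a => z (Sum.inl a)) (chZ I 1 i z) := rfl
    rw [e]
    convert h1 using 2 with j
    have h0 : dvT (k := GaloisField p n) (fun a => (Sum.elim y (fun _ => x₀) : Fin d ⊕ Unit → K) (Sum.inl a)) = dvT y := rfl
    simp only [h0, dvT_VR_zero I]
    rcases j with a | u
    · have e1 : ∀ k : Fin d, (if (Sum.inl a : Fin d ⊕ Unit) = Sum.inl k then (1 : K) else 0) = if a = k then 1 else 0 := by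
        intro k
        simp
      simp only [e1, Sum.elim_inl, mul_zero, add_zero, mul_ite, mul_one, mul_zero, Finset.sum_ite_eq, Finset.mem_univ, if_true]
      rfl
    · simp
      exact Or.inl rfl

omit hρ0 hρ1 hyρ in
/-- Branch of the full chain at one root. -/
lemma exists_branch_one {ρ : ℝ} (hρ0 : 0 ≤ ρ) (hρ1 : ρ < 1) (hyρ : ∀ i, ‖y i‖ ≤ ρ)
    (hy0 : y ⟨0, I.d1⟩ ≠ 0) {x₀ : K} (hx₀ : ‖x₀‖ < 1) (i : ℕ) (h0 : chT I y 0 (i + 1) x₀ = 0) :
    ∃ (w : (Fin d → K) → K) (c : K) (J : Fin d → K) (δ η : ℝ), c ≠ 0 ∧ 0 < δ ∧ 0 < η ∧ w y = x₀ ∧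
      LinAt w y J ∧ (∀ k, ev (dPart y k I.V) (chT I y 1 i x₀) + c * J k = 0) ∧
      (∀ v, (∀ a, ‖v a - y a‖ < δ) → chT I v 0 (i + 1) (w v) = 0) ∧
      (∀ v t, (∀ a, ‖v a - y a‖ < δ) → ‖t - x₀‖ ≤ η → chT I v 0 (i + 1) t = 0 → t = w v) := by
  classical
  obtain ⟨c, hc, hL⟩ := exists_linAt_chZ_top I hy hρ0 hρ1 hyρ hy0 hx₀ i
  have hdet : (Matrix.of fun _ _ => c : Matrix Unit Unit K) * (Matrix.of fun _ _ => c⁻¹) = 1 := by
    ext a b
    simp [Matrix.mul_apply, hc]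
  have hdet' : (Matrix.of fun _ _ => c⁻¹ : Matrix Unit Unit K) * (Matrix.of fun _ _ => c) = 1 := by
    ext a b
    simp [Matrix.mul_apply, hc]
  obtain ⟨τ, J, δ, η, hδ, hη, hτ0, hτL, hrel, hsol, huniq⟩ := exists_implicit (α := Fin d) (β := Unit)
    (G := fun _ => chZ I 0 (i + 1)) (z := y) (t0 := fun _ => x₀)
    (L := fun _ => Sum.elim (fun k => ev (dPart y k I.V) (chT I y 1 i x₀)) (fun _ => c))
    (fun _ => hL) (fun _ => h0) (Matrix.of fun _ _ => c) (Matrix.of fun _ _ => c⁻¹)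
    (fun _ _ => rfl) hdet' hdet
  refine ⟨τ (), c, J (), δ, η, hc, hδ, hη, hτ0 (), hτL (), fun k => ?_, fun v hv => ?_, fun v t hv ht h => ?_⟩
  · have := hrel () k
    simpa using this
  · exact (hsol v hv ()).2
  · exact huniq v (fun _ => t) hv (fun _ => ht) (fun _ => h) ()

end chain

section coords

variable {p : ℕ} [Fact p.Prime] {n h d : ℕ} (I : CharPInput p n h d)
  {K : Type*} [NontriviallyNormedField K] [IsUltrametricDist K] [CompleteSpace K] [CharP K p]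
  [PerfectRing K p] [IsAlgClosed K] [Algebra (GaloisField p n) K]
  {y : Fin d → K} (hy : ∀ i, ‖y i‖ < 1) {ρ : ℝ} (hρ0 : 0 ≤ ρ) (hρ1 : ρ < 1) (hyρ : ∀ i, ‖y i‖ ≤ ρ)

local notation "DD" => pointData I y hy hρ0 hρ1 hyρ

/-- **T13b.** Branches and coordinates. -/
theorem exists_coords (hy0 : y ⟨0, I.d1⟩ ≠ 0) {j : ℕ} (hj : 1 ≤ j) {z : Fin d → K} (hz : ∀ l, ‖z l‖ < 1)
    (hz0 : ∀ l, (DD).ϖ 0 (z l) = 0)
    (hind : IndF p (fun l => ((DD).ϖHom 1 (Pts.mk _ (z l) (hz l)))))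
    {ξ : PowerSeries K} (hξ0 : PowerSeries.constantCoeff ξ = 0) (hξ1 : IsInt ξ)
    (hξc : PowerSeries.coeff 1 ξ ≠ 0) :
    ∃ (B : BranchData I y j (fun l => (DD).ϖ j (z l)))
      (Xh Wh : Fin d → MvPowerSeries (Fin d) K) (εX εX' CX εW CW : ℝ), 0 < εX ∧ 0 < εX' ∧ 0 < εW ∧
      (∀ l, IsB εX CX (Xh l)) ∧ (∀ l, constantCoeff (Xh l) = 0) ∧
      (∀ i, IsB εW CW (Wh i)) ∧ (∀ i, constantCoeff (Wh i) = 0) ∧
      (∀ s : Fin d → K, (∀ a, ‖s a‖ < εW) →
        (∀ i, ‖evalS (Wh i) s‖ < εX) ∧ ∀ l, evalS (Xh l) (fun i => evalS (Wh i) s) = s l) ∧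
      (∀ w : Fin d → K, (∀ i, ‖w i‖ < εX') →
        (∀ l, ‖evalS (Xh l) w‖ < εW) ∧ ∀ i, evalS (Wh i) (fun l => evalS (Xh l) w) = w i) ∧
      (∀ v : Fin d → K, (∀ i, ‖v i - y i‖ < εX) → ∀ l, evalS (Xh l) (fun i => v i - y i) =
        ev (tw p (j * h) ξ) (ptSub ((DD).Fj j) (B.w l v) ((DD).ϖ j (z l)))) := by
  classical
  obtain ⟨i, rfl⟩ : ∃ i, j = i + 1 := ⟨j - 1, by omega⟩
  have hx : ∀ l, ‖(DD).ϖ (i + 1) (z l)‖ < 1 := fun l => (DD).norm_ϖ_lt _ (hz l)
  have hroot : ∀ l, chT I y 0 (i + 1) ((DD).ϖ (i + 1) (z l)) = 0 := fun l => by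
    have h1 := (DD).chain_ϖ 0 (i + 1) (hz l)
    rw [zero_add] at h1
    rw [chT_eq I (hv := hy) (hρ0 := hρ0) (hρ1 := hρ1) (hvρ := hyρ) _ _ (hx l), h1, hz0]
  have hx1 : ∀ l, chT I y 1 i ((DD).ϖ (i + 1) (z l)) = (DD).ϖ 1 (z l) := fun l => by
    rw [chT_eq I (hv := hy) (hρ0 := hρ0) (hρ1 := hρ1) (hvρ := hyρ) _ _ (hx l)]
    have := (DD).chain_ϖ 1 i (hz l)
    rwa [show 1 + i = i + 1 by ring] at this
  have hbr := fun l => exists_branch_one I hy hρ0 hρ1 hyρ hy0 (hx l) i (hroot l)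
  choose w c J δ η hc hδ hη hw0 hwL hrel hsol huniq using hbr
  -- common radii for the branches
  obtain ⟨η₀', hη₀', hη₀le⟩ := exists_pos_le η hη
  set η₀ : ℝ := min η₀' (1 / 2) with hη₀def
  have hη₀pos : 0 < η₀ := lt_min hη₀' (by norm_num)
  have hη₀η : ∀ l, η₀ ≤ η l := fun l => (min_le_left _ _).trans (hη₀le l)
  have hlip := fun l => (hwL l).anAt.exists_lip
  choose cl δl hcl hδl hlipl using hlip
  have hpos : ∀ l, 0 < min (min (δ l) (δl l)) (η₀ / (cl l + 1)) := fun l =>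
    lt_min (lt_min (hδ l) (hδl l)) (div_pos hη₀pos (by linarith [hcl l]))
  obtain ⟨r₀, hr₀, hr₀le⟩ := exists_pos_le _ hpos
  have hr₀δ : ∀ l, r₀ ≤ δ l := fun l => ((hr₀le l).trans (min_le_left _ _)).trans (min_le_left _ _)
  have hr₀δl : ∀ l, r₀ ≤ δl l := fun l => ((hr₀le l).trans (min_le_left _ _)).trans (min_le_right _ _)
  have hr₀c : ∀ l, cl l * r₀ ≤ η₀ := fun l => by
    have h1 : r₀ ≤ η₀ / (cl l + 1) := (hr₀le l).trans (min_le_right _ _)
    rw [le_div_iff₀ (by linarith [hcl l])] at h1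
    nlinarith [hcl l]
  have hwclose : ∀ l v, (∀ a, ‖v a - y a‖ < r₀) → ‖w l v - (DD).ϖ (i + 1) (z l)‖ ≤ η₀ := by
    intro l v hv
    have h1 := hlipl l v y r₀ (fun a => lt_of_lt_of_le (hv a) (hr₀δl l))
      (fun a => by simpa using lt_of_lt_of_le hr₀ (hr₀δl l)) hr₀.le (fun a => (hv a).le)
    rw [hw0 l] at h1
    exact h1.trans (hr₀c l)
  let B : BranchData I y (i + 1) (fun l => (DD).ϖ (i + 1) (z l)) :=
    { w := w
      r₀ := r₀
      η₀ := η₀
      r₀_pos := hr₀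
      η₀_pos := hη₀pos
      η₀_lt := fun l => ⟨lt_of_le_of_lt (min_le_right _ _) (by norm_num), hx l⟩
      w_y := hw0
      w_an := fun l => (hwL l).anAt
      w_close := hwclose
      w_root := fun l v hv => hsol l v fun a => lt_of_lt_of_le (hv a) (hr₀δ l)
      w_uniq := fun l v t hv ht h0 => huniq l v t (fun a => lt_of_lt_of_le (hv a) (hr₀δ l))
        (ht.trans (hη₀η l)) h0 }
  -- the coordinates
  have hFint : IsIntLaw ((DD).Fj (i + 1)) := (DD).Fj_int _
  have hsub := fun l => exists_linAt_ptSub (F := (DD).Fj (i + 1)) hFint (hwL l)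
    (by rw [hw0 l]; exact hx l) (hx l)
  choose A hA hAL using hsub
  have hξj : IsInt (tw p ((i + 1) * h) ξ) := hξ1.tw p _
  set aξ : K := PowerSeries.coeff 1 (tw p ((i + 1) * h) ξ) with haξ
  have haξ0 : aξ ≠ 0 := by
    rw [haξ, coeff_tw]
    exact pow_ne_zero _ hξc
  have hsub0 : ∀ l, ptSub ((DD).Fj (i + 1)) (w l y) ((DD).ϖ (i + 1) (z l)) = 0 := fun l => by
    rw [hw0 l, ptSub, ptAdd_ptNeg hFint (hx l)]
  have hXL : ∀ l, LinAt (fun v => ev (tw p ((i + 1) * h) ξ)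
      (ptSub ((DD).Fj (i + 1)) (w l v) ((DD).ϖ (i + 1) (z l)))) y
      (fun k => aξ * (A l * J l k)) := by
    intro l
    have h1 := linAt_ev hξj (hAL l) (by rw [hsub0 l]; simp)
    rw [hsub0 l, der_zero] at h1
    exact h1
  -- the Jacobian is invertible
  set E : Matrix (Fin d) (Fin d) K := Matrix.of fun l k => ev (dPart y k I.V) ((DD).ϖ 1 (z l)) with hE
  have hEdet : E.det ≠ 0 := by
    have := ks_det_ne_zero I hy hρ0 hρ1 hyρ hy0 (fun l => (DD).ϖHom 1 (Pts.mk _ (z l) (hz l)))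
      (fun l => (DD).ϖHom_one_mem ((DD).mem_Λ.2 (hz0 l))) hind
    exact this
  have hJ : ∀ l k, J l k = - E l k / c l := by
    intro l k
    have := hrel l k
    rw [hx1 l] at this
    have hcl := hc l
    field_simp
    simp only [hE, Matrix.of_apply]
    linear_combination this
  set Jm : Matrix (Fin d) (Fin d) K := Matrix.of fun l k => aξ * (A l * J l k) with hJm
  have hJmE : Jm = Matrix.diagonal (fun l => - (aξ * A l) / c l) * E := by
    ext l k
    rw [Matrix.diagonal_mul, hJm, Matrix.of_apply, hJ]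
    ring
  have hJdet : IsUnit Jm.det := by
    rw [isUnit_iff_ne_zero, hJmE, Matrix.det_mul, Matrix.det_diagonal]
    refine mul_ne_zero (Finset.prod_ne_zero_iff.2 fun l _ => ?_) hEdet
    exact div_ne_zero (neg_ne_zero.2 (mul_ne_zero haξ0 (hA l))) (hc l)
  obtain ⟨W, δW, ηW, η₁, hδW, hηW, hη₁, hWy, hWL, hWs, hWv⟩ := exists_inverse
    (f := fun l v => ev (tw p ((i + 1) * h) ξ) (ptSub ((DD).Fj (i + 1)) (w l v) ((DD).ϖ (i + 1) (z l))))
    (y := y) (J := fun l k => aξ * (A l * J l k)) hXL Jm⁻¹ (Matrix.nonsing_inv_mul _ hJdet)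
    (Matrix.mul_nonsing_inv _ hJdet)
  have hf0 : ∀ c, ev (tw p ((i + 1) * h) ξ) (ptSub ((DD).Fj (i + 1)) (w c y) ((DD).ϖ (i + 1) (z c))) = 0 := by
    intro c
    rw [hsub0 c]
    exact ev_zero_of_cc (constantCoeff_tw p hξ0 _)
  have hs0 : (fun c => ev (tw p ((i + 1) * h) ξ) (ptSub ((DD).Fj (i + 1)) (w c y) ((DD).ϖ (i + 1) (z c)))) = 0 := by
    funext c
    exact hf0 c
  have hWy' : ∀ b, W b 0 = y b := fun b => by rw [← hs0]; exact hWy b
  have hWL' : ∀ b, LinAt (W b) 0 (Jm⁻¹ b) := fun b => by rw [← hs0]; exact hWL b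
  have hWs' : ∀ s : Fin d → K, (∀ a, ‖s a‖ < δW) → ∀ b, ev (tw p ((i + 1) * h) ξ)
      (ptSub ((DD).Fj (i + 1)) (w b fun c => W c s) ((DD).ϖ (i + 1) (z b))) = s b := by
    intro s hs b
    refine (hWs s (fun a => ?_) b).2
    rw [hf0 a, sub_zero]
    exact hs a
  -- series
  have hXs : ∀ l, ∃ (g : MvPowerSeries (Fin d) K) (ε C : ℝ), 0 < ε ∧ IsB ε C g ∧
      (∀ k, coeff (Finsupp.single k 1) g = aξ * (A l * J l k)) ∧ ∀ u : Fin d → K, (∀ a, ‖u a‖ < ε) →
      ev (tw p ((i + 1) * h) ξ) (ptSub ((DD).Fj (i + 1)) (w l (fun a => y a + u a)) ((DD).ϖ (i + 1) (z l))) =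
        evalS g u := hXL
  choose gX εg Cg hεg hgB hgL hge using hXs
  have hWser : ∀ b, ∃ (g : MvPowerSeries (Fin d) K) (ε C : ℝ), 0 < ε ∧ IsB ε C g ∧
      (∀ k, coeff (Finsupp.single k 1) g = Jm⁻¹ b k) ∧ ∀ u : Fin d → K, (∀ a, ‖u a‖ < ε) →
      W b (fun a => (0 : Fin d → K) a + u a) = evalS g u := hWL'
  choose gW εW' CW' hεW' hgWB hgWL hgWe using hWser
  obtain ⟨εX, hεX, hεXle⟩ := exists_pos_le εg hεg
  obtain ⟨CX, hCX, hCXle⟩ := exists_nonneg_ge Cg
  have hXB : ∀ l, IsB εX CX (gX l) := fun l => ((hgB l).shrink hεX.le (hεXle l)).mono (hCXle l)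
  have hX0 : ∀ l, constantCoeff (gX l) = 0 := fun l => by
    rw [AnAt.value (f := fun v => ev (tw p ((i + 1) * h) ξ) (ptSub ((DD).Fj (i + 1)) (w l v) ((DD).ϖ (i + 1) (z l))))
      (z := y) (hεg l) (hge l)]
    exact hf0 l
  set Wh : Fin d → MvPowerSeries (Fin d) K := fun b => gW b - C (y b) with hWhdef
  have hgW0 : ∀ b, constantCoeff (gW b) = y b := fun b => by
    rw [AnAt.value (f := W b) (z := 0) (hεW' b) (hgWe b)]
    exact hWy' b
  have hWh0 : ∀ b, constantCoeff (Wh b) = 0 := fun b => by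
    simp [hWhdef, hgW0]
  have hCW' : ∀ b, 0 ≤ CW' b := fun b => (hgWB b).nonneg (hεW' b).le
  have hCb : ∀ b, IsB (εW' b) (CW' b) (C (y b) : MvPowerSeries (Fin d) K) := fun b => by
    refine (isB_C (εW' b) (hεW' b).le (y b)).mono ?_
    have h1 := hgWB b 0
    simpa [hgW0] using h1
  have hWhB : ∀ b, IsB (εW' b) (CW' b) (Wh b) := fun b => (hgWB b).sub (hCb b) (hεW' b).le
  have hWhB' : ∀ b, IsB (min (εW' b) δW) (CW' b) (Wh b) := fun b =>
    (hWhB b).shrink (le_min (hεW' b).le hδW.le) (min_le_left _ _)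
  obtain ⟨εW, hεW, hεWle⟩ := exists_shrink_family (fun b => lt_min (hεW' b) hδW) hWhB' hWh0
    (show 0 < εX / 2 by positivity)
  have hWeval : ∀ b (s : Fin d → K), (∀ a, ‖s a‖ < εW) → W b s = y b + evalS (Wh b) s := by
    intro b s hs
    have hs' : ∀ a, ‖s a‖ < εW' b := fun a =>
      lt_of_lt_of_le (hs a) ((hεWle b).1.trans (min_le_left _ _))
    have h1 := hgWe b s hs'
    have e : (fun a => (0 : Fin d → K) a + s a) = s := by funext a; simp
    rw [e] at h1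
    rw [h1, hWhdef]
    show _ = y b + evalS (gW b - C (y b)) s
    rw [evalS_sub (hεW' b) (hgWB b) (hCb b) hs', evalS_C]
    ring
  have hXBm : ∀ l, IsB (min εX η₁) CX (gX l) := fun l =>
    (hXB l).shrink (le_min hεX.le hη₁.le) (min_le_left _ _)
  obtain ⟨εX', hεX', hεX'le⟩ := exists_shrink_family (C := fun _ => CX) (fun _ => lt_min hεX hη₁) hXBm hX0
    (show 0 < εW / 2 by positivity)
  have hl₀ : Fin d := ⟨0, I.d1⟩
  refine ⟨B, gX, Wh, εX, εX', CX, εW, εX / 2, hεX, hεX', hεW, hXB, hX0, fun b => (hεWle b).2, hWh0, ?_, ?_, ?_⟩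
  · intro s hs
    refine ⟨fun b => ?_, fun l => ?_⟩
    · have h1 := norm_evalS_le hεW (hεWle b).2 (z := s) (fun a => (hs a).le)
      linarith
    · have hsm : ∀ b, ‖evalS (Wh b) s‖ < εg l := fun b => by
        have h1 := norm_evalS_le hεW (hεWle b).2 (z := s) (fun a => (hs a).le)
        linarith [hεXle l]
      rw [← hge l _ hsm]
      have e : (fun a => y a + evalS (Wh a) s) = fun c => W c s := by
        funext c
        rw [hWeval c s hs]
      rw [e]
      exact hWs' s (fun a => lt_of_lt_of_le (hs a) ((hεWle l).1.trans (min_le_right _ _))) l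
  · intro u hu
    have hu1 : ∀ a, ‖u a‖ < εX := fun a => lt_of_lt_of_le (hu a) ((hεX'le a).1.trans (min_le_left _ _))
    have hu2 : ∀ a, ‖u a‖ < η₁ := fun a => lt_of_lt_of_le (hu a) ((hεX'le a).1.trans (min_le_right _ _))
    refine ⟨fun l => ?_, fun b => ?_⟩
    · have h1 := norm_evalS_le hεX' (hεX'le l).2 (z := u) (fun a => (hu a).le)
      linarith
    · have hsm : ∀ a, ‖(fun l => evalS (gX l) u) a‖ < εW := fun a => by
        have h1 := norm_evalS_le hεX' (hεX'le a).2 (z := u) (fun a => (hu a).le)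
        show ‖evalS (gX a) u‖ < εW
        linarith
      have h1 := hWeval b _ hsm
      have h2 := hWv (fun a => y a + u a) (fun a => by simpa using hu2 a) b
      have e : (fun c => ev (tw p ((i + 1) * h) ξ) (ptSub ((DD).Fj (i + 1)) (w c (fun a => y a + u a)) ((DD).ϖ (i + 1) (z c)))) =
          fun l => evalS (gX l) u := by
        funext c
        exact hge c u fun a => lt_of_lt_of_le (hu1 a) (hεXle c)
      rw [e, h1] at h2
      linear_combination h2
  · intro v hv l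
    have := hge l (fun i => v i - y i) (fun a => lt_of_lt_of_le (hv a) (hεXle l))
    rw [add_sub_cancel_fun] at this
    exact this.symm

end coords

end Crest.Agent.LT
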