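/-
S0351 T13g: the orbit of the point `y`, read in coordinates `Xh` with inverse `Wh`, is a germ setting
(`IsGermSetting`, BLUEPRINT E5(d), E3).  A nonzero element of the stable prime gives a nonzero germ
in the ideal `I`.
-/
import Crest.Agent.Lib.LT.CoordDefs
import Crest.Agent.Lib.LT.P3Digits

set_option autoImplicit false
set_option linter.unusedSectionVars false
set_option linter.unusedVariables false
set_option linter.unnecessarySimpa false

namespace Crest.Agent.LT

open MvPowerSeries Filter Topology Crest.LubinTate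

section aux

variable {K : Type*} [NontriviallyNormedField K] [IsUltrametricDist K] [CompleteSpace K]
  {σ : Type*} [Fintype σ] [DecidableEq σ]

/-- Values near the origin are close to the constant term. -/
lemma norm_evalS_sub_cc_le {f : MvPowerSeries σ K} {ε D ρ : ℝ} (hε : 0 < ε) (hρ0 : 0 ≤ ρ)
    (hρε : ρ < ε) (hf : IsB ε D f) {z : σ → K} (hz : ∀ i, ‖z i‖ ≤ ρ) :
    ‖evalS f z - constantCoeff f‖ ≤ D * (ρ / ε) := by
  have hD := hf.nonneg hε.le
  have hcc : ‖constantCoeff f‖ ≤ D := by simpa using hf 0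
  have hB : IsB ε D (MvPowerSeries.C (constantCoeff f) : MvPowerSeries σ K) :=
    (isB_C ε hε.le _).mono hcc
  have h0 : constantCoeff (f - MvPowerSeries.C (constantCoeff f)) = 0 := by simp
  have hz' : ∀ i, ‖z i‖ < ε := fun i => (hz i).trans_lt hρε
  have h1 := norm_evalS_le_of_const_zero hε hρ0 hρε.le (hf.sub hB hε.le) h0 hz
  rwa [evalS_sub hε hf hB hz', evalS_C] at h1

/-- Elements of `𝔪^c` have order at least `c`. -/
lemma ordGe_of_mem_pow {k : Type*} [CommRing k] {c : ℕ} {a : MvPowerSeries σ k}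
    (ha : a ∈ (RingHom.ker (constantCoeff : MvPowerSeries σ k →+* k)) ^ c) : OrdGe c a := by
  induction c generalizing a with
  | zero => intro γ hγ; omega
  | succ c ih =>
    rw [pow_succ] at ha
    refine Submodule.mul_induction_on ha ?_ ?_
    · intro x hx y hy γ hγ
      rw [coeff_mul]
      refine Finset.sum_eq_zero fun q hq => ?_
      have hq' := Finset.HasAntidiagonal.mem_antidiagonal.mp hq
      by_cases h1 : Finsupp.degree q.1 < c
      · rw [ih hx q.1 h1, zero_mul]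
      · have h2 : Finsupp.degree q.2 = 0 := by
          have : Finsupp.degree q.1 + Finsupp.degree q.2 = Finsupp.degree γ := by
            rw [← map_add, hq']
          omega
        have h3 : q.2 = 0 := (Finsupp.degree_eq_zero_iff _).mp h2
        have h4 : constantCoeff y = 0 := hy
        rw [h3, coeff_zero_eq_constantCoeff_apply, h4, mul_zero]
    · intro x y hx hy γ hγ
      rw [map_add, hx γ hγ, hy γ hγ, add_zero]

lemma ordGe_map {k : Type*} [CommRing k] (ι : k →+* K) {c : ℕ} {a : MvPowerSeries σ k}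
    (h : OrdGe c a) : OrdGe c (MvPowerSeries.map ι a) := fun γ hγ => by
  rw [coeff_map, h γ hγ, map_zero]

lemma congX_cmp_germ {R : Type*} [CommRing R] {M : ℕ} {f g : PowerSeries R} (hf : CongX M f)
    (hg : CongX M g) (h0 : PowerSeries.constantCoeff g = 0) : CongX M (cmp f g) := by
  have hd : (PowerSeries.X : PowerSeries R) ^ M ∣ f - PowerSeries.X := by
    rw [PowerSeries.X_pow_dvd_iff]
    intro i hi
    rw [map_sub, hf i hi, sub_self]
  obtain ⟨c, hc⟩ := hd
  have hgS : PowerSeries.HasSubst g := PowerSeries.HasSubst.of_constantCoeff_zero' h0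
  have hf' : f = PowerSeries.X + PowerSeries.X ^ M * c := by rw [← hc]; ring
  have hX : (PowerSeries.X : PowerSeries R) ∣ g := PowerSeries.X_dvd_iff.2 (by simpa using h0)
  have h1 : (PowerSeries.X : PowerSeries R) ^ M ∣ cmp f g - g := by
    rw [hf', cmp, PowerSeries.subst_add hgS, PowerSeries.subst_X hgS, PowerSeries.subst_mul hgS,
      PowerSeries.subst_pow hgS, PowerSeries.subst_X hgS, add_sub_cancel_left]
    exact Dvd.dvd.mul_right (pow_dvd_pow_of_dvd hX M) _
  have h2 : (PowerSeries.X : PowerSeries R) ^ M ∣ g - PowerSeries.X := by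
    rw [PowerSeries.X_pow_dvd_iff]
    intro i hi
    rw [map_sub, hg i hi, sub_self]
  have h3 : (PowerSeries.X : PowerSeries R) ^ M ∣ cmp f g - PowerSeries.X := by
    simpa using dvd_add h1 h2
  intro i hi
  have := PowerSeries.X_pow_dvd_iff.1 h3 i hi
  rwa [map_sub, sub_eq_zero] at this

/-- The Jacobians of inverse coordinates are inverse. -/
lemma jac_of_inverse {Xh Wh : σ → MvPowerSeries σ K} {εX CX εW CW : ℝ} (hεX : 0 < εX) (hεW : 0 < εW)
    (hXB : ∀ l, IsB εX CX (Xh l)) (hWB : ∀ i, IsB εW CW (Wh i)) (hW0 : ∀ i, constantCoeff (Wh i) = 0)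
    (hXW : ∀ s : σ → K, (∀ a, ‖s a‖ < εW) →
      (∀ i, ‖evalS (Wh i) s‖ < εX) ∧ ∀ l, evalS (Xh l) (fun i => evalS (Wh i) s) = s l)
    (l j : σ) :
    ∑ k, coeff (Finsupp.single k 1) (Xh l) * coeff (Finsupp.single j 1) (Wh k) =
      if l = j then 1 else 0 := by
  set ε₁ := smallR εW CW εX with hε₁def
  have hε₁ : 0 < ε₁ := smallR_pos hεW hεX
  have hε₁W : ε₁ ≤ εW := smallR_le hεW
  have hCX := (hXB l).nonneg hεX.le
  have hWS : ∀ i, IsB ε₁ εX (Wh i) := fun i => isB_smallR hεW hεX (hW0 i) (hWB i)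
  have hsub : IsB ε₁ CX ((Xh l).subst Wh) := IsB.subst hε₁ hεX.le (hXB l) hW0 hWS
  have hX : IsB ε₁ ε₁ (X l : MvPowerSeries σ K) := isB_X ε₁ hε₁.le l
  have hB1 : IsB ε₁ (max CX ε₁) ((Xh l).subst Wh) := hsub.mono (le_max_left _ _)
  have hB2 : IsB ε₁ (max CX ε₁) (X l : MvPowerSeries σ K) := hX.mono (le_max_right _ _)
  have hzero : (Xh l).subst Wh - X l = 0 := by
    refine eq_zero_of_evalS_zero hε₁ hε₁ (hB1.sub hB2 hε₁.le) fun s hs => ?_
    rw [evalS_sub hε₁ hB1 hB2 hs, evalS_subst hε₁ hεX.le (hXB l) hW0 hWS hs, evalS_X,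
      (hXW s fun a => (hs a).trans_le hε₁W).2 l, sub_self]
  have h2 := coeff_single_subst hW0 (Xh l) j
  rw [sub_eq_zero.mp hzero, coeff_X] at h2
  rw [← h2]
  by_cases hlj : l = j
  · simp [hlj]
  · have hne : ¬ (Finsupp.single j 1 : σ →₀ ℕ) = Finsupp.single l 1 := fun hc =>
      hlj (Finsupp.single_left_injective (one_ne_zero) hc).symm
    simp [hlj, hne]

end aux

section orbit

variable {p : ℕ} [Fact p.Prime] {n h d : ℕ} (I : CharPInput p n h d)
  {K : Type*} [NontriviallyNormedField K] [IsUltrametricDist K] [CompleteSpace K] [CharP K p]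
  [PerfectRing K p] [Algebra (GaloisField p n) K]

/-- The orbit of `y` under `U_r`. -/
def Orb (y : Fin d → K) (hy : ∀ i, ‖y i‖ < 1) (r : ℕ) : Set (Fin d → K) :=
  {u | ∃ g, IsFGAut (Γ₀ p n) g ∧ CongX r g ∧ u = actPt I g y hy}

/-- The orbit in the coordinates `Xh` (centered at `y`). -/
def OmegaOf (Xh : Fin d → MvPowerSeries (Fin d) K) (y : Fin d → K) (hy : ∀ i, ‖y i‖ < 1) (r : ℕ) :
    Set (Fin d → K) :=
  (fun u l => evalS (Xh l) (fun i => u i - y i)) '' Orb I y hy r

/-- The map `v ↦ v ∘ φ_g`, defined by its series. -/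
noncomputable def actT (g : PowerSeries (GaloisField p n)) (v : Fin d → K) (i : Fin d) : K :=
  evalS (MvPowerSeries.map (algebraMap (GaloisField p n) K) (I.act.φ g (X i))) v

/-- `φ_g y_i` as a series over `K`. -/
noncomputable def serA (g : PowerSeries (GaloisField p n)) (i : Fin d) : MvPowerSeries (Fin d) K :=
  MvPowerSeries.map (algebraMap (GaloisField p n) K) (I.act.φ g (X i))

omit [CharP K p] [PerfectRing K p] in
lemma isB_serA (g : PowerSeries (GaloisField p n)) (i : Fin d) :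
    IsB (1 : ℝ) 1 (serA (K := K) I g i) := isB_map_algebraMap _

/-- The map `v ↦ v ∘ φ_g`, recentered: `w ↦ (y + w) ∘ φ_g − y ∘ φ_g`. -/
noncomputable def PhiT (g : PowerSeries (GaloisField p n)) (y : Fin d → K) (i : Fin d) :
    MvPowerSeries (Fin d) K :=
  shift y (serA I g i) - MvPowerSeries.C (evalS (serA I g i) y)

variable {y : Fin d → K} (hy : ∀ i, ‖y i‖ < 1) {g : PowerSeries (GaloisField p n)}

omit [CharP K p] [PerfectRing K p] in
lemma PhiT_cc (i : Fin d) : constantCoeff (PhiT I g y i) = 0 := by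
  rw [PhiT, map_sub, constantCoeff_shift, constantCoeff_C, sub_self]

include hy in
omit [CharP K p] [PerfectRing K p] in
lemma isB_PhiT (i : Fin d) : IsB (1 : ℝ) 1 (PhiT I g y i) := by
  refine (((isB_serA I g i).shift one_pos fun j => (hy j).le)).sub ?_ zero_le_one
  refine (isB_C 1 zero_le_one _).mono ?_
  exact norm_evalS_le one_pos (isB_serA I g i) fun j => (hy j).le

include hy in
omit [CharP K p] [PerfectRing K p] in
lemma evalS_PhiT {w : Fin d → K} (hw : ∀ i, ‖w i‖ < 1) (i : Fin d) :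
    evalS (PhiT I g y i) w = actT I g (fun a => y a + w a) i - actPt I g y hy i := by
  have h1 : IsB (1 : ℝ) 1 (shift y (serA (K := K) I g i)) :=
    (isB_serA I g i).shift one_pos fun j => (hy j).le
  have h2 : IsB (1 : ℝ) 1 (MvPowerSeries.C (evalS (serA I g i) y) : MvPowerSeries (Fin d) K) :=
    (isB_C 1 zero_le_one _).mono (norm_evalS_le one_pos (isB_serA I g i) fun j => (hy j).le)
  rw [PhiT, evalS_sub one_pos h1 h2 hw, evalS_shift one_pos (isB_serA I g i) hy hw, evalS_C]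
  rfl

include hy in
/-- Deep automorphisms act on the point and on first order nearly trivially. -/
lemma exists_deep_close {τ : ℝ} (hτ : 0 < τ) :
    ∃ r : ℕ, ∀ g, IsFGAut (Γ₀ p n) g → CongX r g → ∀ i,
      ‖actPt I g y hy i - y i‖ ≤ τ ∧
      ∀ m, ‖coeff (Finsupp.single m 1) (PhiT I g y i) - if i = m then 1 else 0‖ ≤ τ := by
  obtain ⟨ρ, hρ0, hρ1, hyρ⟩ := exists_radius one_pos hy
  obtain ⟨c, hc⟩ := exists_pow_lt_of_lt_one hτ hρ1
  obtain ⟨M, hM⟩ := I.act.deep (c + 1) 0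
  refine ⟨M, fun g hg hgM i => ?_⟩
  have ha := (hM g hg hgM).1 (X i)
  set a : RR p n d := I.act.φ g (X i) - X i with hadef
  have hord : OrdGe (c + 1) a := ordGe_of_mem_pow ha
  have hordK := ordGe_map (algebraMap (GaloisField p n) K) hord
  have hser : serA (K := K) I g i = X i + MvPowerSeries.map (algebraMap _ K) a := by
    rw [hadef, map_sub, map_X, serA]; ring
  have hρc : ρ ^ (c + 1) ≤ τ := by
    rw [pow_succ]
    calc ρ ^ c * ρ ≤ ρ ^ c * 1 := by gcongr
      _ = ρ ^ c := mul_one _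
      _ ≤ τ := hc.le
  constructor
  · have h1 : actPt I g y hy i - y i = evP p n y hy a := by
      rw [hadef, map_sub, actPt, evR_X]
    rw [h1]
    have h2 := norm_evalS_le_of_ordGe one_pos (isB_map_algebraMap (K := K) a) hordK hρ0 hρ1.le hyρ
    simp only [one_mul, div_one] at h2
    exact h2.trans hρc
  · intro m
    have hne : (Finsupp.single m 1 : Fin d →₀ ℕ) ≠ 0 := by simp
    set δ : K := if i = m then 1 else 0 with hδ
    have hδ1 : ‖δ‖ ≤ 1 := by
      rw [hδ]; split_ifs <;> simp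
    have hB1 : IsB (1 : ℝ) 1 (hasse (Finsupp.single m 1) (serA (K := K) I g i)) := by
      simpa using (isB_serA (K := K) I g i).hasse one_pos (Finsupp.single m 1)
    have hB2 : IsB (1 : ℝ) 1 (MvPowerSeries.C δ : MvPowerSeries (Fin d) K) :=
      (isB_C 1 zero_le_one δ).mono hδ1
    have hord2 : OrdGe c (hasse (Finsupp.single m 1) (serA (K := K) I g i) - MvPowerSeries.C δ) := by
      intro γ hγ
      have hdeg : Finsupp.degree (γ + Finsupp.single m 1) < c + 1 := by
        rw [map_add]; simpa using hγ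
      have h3 : coeff (γ + Finsupp.single m 1) (serA (K := K) I g i) =
          coeff (γ + Finsupp.single m 1) (X i : MvPowerSeries (Fin d) K) := by
        rw [hser, map_add, hordK _ hdeg, add_zero]
      rw [map_sub, coeff_hasse, h3, coeff_X, coeff_C]
      by_cases hγ0 : γ = 0
      · subst hγ0
        have e1 : mchoose ((0 : Fin d →₀ ℕ) + Finsupp.single m 1) (Finsupp.single m 1) = 1 := by
          simp [mchoose, Nat.choose_self]
        rw [e1, zero_add, if_pos rfl, hδ]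
        by_cases him : i = m
        · subst him; simp
        · have hne2 : ¬ (Finsupp.single m 1 : Fin d →₀ ℕ) = Finsupp.single i 1 := fun hc =>
            him (Finsupp.single_left_injective (one_ne_zero) hc).symm
          simp [him, hne2]
      · have hne2 : ¬ γ + Finsupp.single m 1 = Finsupp.single i 1 := by
          intro hc
          have h4 := congrArg Finsupp.degree hc
          rw [map_add] at h4
          simp only [Finsupp.degree_single] at h4
          exact hγ0 ((Finsupp.degree_eq_zero_iff γ).mp (by omega))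
        rw [if_neg hne2, if_neg hγ0]
        simp
    have h5 : coeff (Finsupp.single m 1) (PhiT I g y i) - δ =
        evalS (hasse (Finsupp.single m 1) (serA (K := K) I g i) - MvPowerSeries.C δ) y := by
      rw [evalS_sub one_pos hB1 hB2 hy, evalS_C, PhiT, map_sub, coeff_shift, coeff_C, if_neg hne,
        sub_zero]
    rw [h5]
    have h6 := norm_evalS_le_of_ordGe one_pos (hB1.sub hB2 zero_le_one) hord2 hρ0 hρ1.le hyρ
    simp only [one_mul, div_one] at h6
    exact h6.trans hc.le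

/-- `φ_g` evaluated at an orbit point. -/
lemma actT_actPt {g g' : PowerSeries (GaloisField p n)} (hg : IsFGAut (Γ₀ p n) g)
    (hg' : IsFGAut (Γ₀ p n) g') (i : Fin d) :
    actT I g (actPt I g' y hy) i = actPt I (cmp g' g) y hy i := by
  have h1 : actPt I (cmp g' g) y hy i = evP p n y hy ((I.act.φ g') (I.act.φ g (X i))) := by
    rw [actPt, I.act.comp g g' hg hg']
    rfl
  rw [h1, evP_act I hg']
  rfl

omit [CharP K p] [PerfectRing K p] in
lemma actPt_X (i : Fin d) : actPt I PowerSeries.X y hy i = y i := by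
  rw [actPt, I.act.one]
  exact evR_X i

/-- The inner series of `F`. -/
noncomputable def GSer (Wh : Fin d → MvPowerSeries (Fin d) K) (g : PowerSeries (GaloisField p n))
    (y : Fin d → K) (i : Fin d) : MvPowerSeries (Fin d) K :=
  (PhiT I g y i).subst Wh

/-- The action of `g` in the coordinates `Xh`, with inverse `Wh`: `s ↦ X(Φ_g(W s))`. -/
noncomputable def FSer (Xh Wh : Fin d → MvPowerSeries (Fin d) K) (g : PowerSeries (GaloisField p n))
    (y : Fin d → K) (hy : ∀ i, ‖y i‖ < 1) (l : Fin d) : MvPowerSeries (Fin d) K :=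
  (shift (fun i => actPt I g y hy i - y i) (Xh l)).subst (GSer I Wh g y)

variable {Xh Wh : Fin d → MvPowerSeries (Fin d) K} {εX CX εW CW η : ℝ}

omit [CharP K p] [PerfectRing K p] in
lemma GSer_cc (hW0 : ∀ i, constantCoeff (Wh i) = 0) (i : Fin d) :
    constantCoeff (GSer I Wh g y i) = 0 := by
  rw [GSer, constantCoeff_subst_of_zero hW0, PhiT_cc]

omit [CharP K p] [PerfectRing K p] in
include hy in
lemma isB_PhiT_small (hη0 : 0 < η) (hη1 : η ≤ 1) (i : Fin d) : IsB η η (PhiT I g y i) := by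
  simpa using (isB_PhiT I hy (g := g) i).scale (PhiT_cc I i) zero_le_one hη0.le hη1

omit [CharP K p] [PerfectRing K p] in
include hy in
lemma isB_GSer (hεW : 0 < εW) (hWB : ∀ i, IsB εW CW (Wh i)) (hW0 : ∀ i, constantCoeff (Wh i) = 0)
    (hη0 : 0 < η) (hη1 : η ≤ 1) (i : Fin d) : IsB (smallR εW CW η) η (GSer I Wh g y i) :=
  IsB.subst (smallR_pos hεW hη0) hη0.le (isB_PhiT_small I hy hη0 hη1 i) hW0
    fun i => isB_smallR hεW hη0 (hW0 i) (hWB i)

omit [CharP K p] [PerfectRing K p] in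
lemma isB_shift_Xh (hεX : 0 < εX) (hXB : ∀ l, IsB εX CX (Xh l)) (hη0 : 0 < η) (hηX : η ≤ εX)
    (hb : ∀ i, ‖actPt I g y hy i - y i‖ ≤ η) (l : Fin d) :
    IsB η CX (shift (fun i => actPt I g y hy i - y i) (Xh l)) :=
  ((hXB l).shrink hη0.le hηX).shift hη0 hb

omit [CharP K p] [PerfectRing K p] in
lemma FSer_cc (hW0 : ∀ i, constantCoeff (Wh i) = 0) (l : Fin d) :
    constantCoeff (FSer I Xh Wh g y hy l) = evalS (Xh l) (fun i => actPt I g y hy i - y i) := by
  rw [FSer, constantCoeff_subst_of_zero (GSer_cc I hW0), constantCoeff_shift]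

omit [CharP K p] [PerfectRing K p] in
lemma isB_FSer (hεX : 0 < εX) (hεW : 0 < εW) (hXB : ∀ l, IsB εX CX (Xh l))
    (hWB : ∀ i, IsB εW CW (Wh i)) (hW0 : ∀ i, constantCoeff (Wh i) = 0)
    (hη0 : 0 < η) (hη1 : η ≤ 1) (hηX : η ≤ εX)
    (hb : ∀ i, ‖actPt I g y hy i - y i‖ ≤ η) (l : Fin d) :
    IsB (smallR εW CW η) CX (FSer I Xh Wh g y hy l) :=
  IsB.subst (smallR_pos hεW hη0) hη0.le (isB_shift_Xh I hy hεX hXB hη0 hηX hb l) (GSer_cc I hW0)
    (isB_GSer I hy hεW hWB hW0 hη0 hη1)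

omit [CharP K p] [PerfectRing K p] in
/-- The value of `F`. -/
lemma evalS_FSer (hεX : 0 < εX) (hεW : 0 < εW) (hXB : ∀ l, IsB εX CX (Xh l))
    (hWB : ∀ i, IsB εW CW (Wh i)) (hW0 : ∀ i, constantCoeff (Wh i) = 0)
    (hη0 : 0 < η) (hη1 : η ≤ 1) (hηX : η < εX)
    (hb : ∀ i, ‖actPt I g y hy i - y i‖ ≤ η) (l : Fin d) {s : Fin d → K}
    (hs : ∀ a, ‖s a‖ < smallR εW CW η) :
    evalS (FSer I Xh Wh g y hy l) s =
      evalS (Xh l) (fun i => actT I g (fun a => y a + evalS (Wh a) s) i - y i) := by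
  have hε₀ : 0 < smallR εW CW η := smallR_pos hεW hη0
  have hWS : ∀ i, IsB (smallR εW CW η) η (Wh i) := fun i => isB_smallR hεW hη0 (hW0 i) (hWB i)
  have hGB := isB_GSer (g := g) I hy hεW hWB hW0 hη0 hη1
  rw [FSer, evalS_subst hε₀ hη0.le (isB_shift_Xh I hy hεX hXB hη0 hηX.le hb l) (GSer_cc I hW0) hGB hs,
    evalS_shift hεX (hXB l) (fun i => (hb i).trans_lt hηX)
      (fun i => (norm_evalS_lt_of_const_zero hε₀ hη0 (hGB i) (GSer_cc I hW0 i) hs).trans hηX)]
  congr 1
  funext i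
  have hWs : ∀ a, ‖evalS (Wh a) s‖ < 1 := fun a =>
    (norm_evalS_lt_of_const_zero hε₀ hη0 (hWS a) (hW0 a) hs).trans_le hη1
  have e1 : evalS (GSer I Wh g y i) s = evalS (PhiT I g y i) (fun a => evalS (Wh a) s) :=
    evalS_subst hε₀ hη0.le (isB_PhiT_small I hy hη0 hη1 i) hW0 hWS hs
  simp only [Pi.add_apply]
  rw [e1, evalS_PhiT I hy hWs i]
  ring

omit [CharP K p] [PerfectRing K p] in
/-- The linear part of `F` is close to the identity for `g` deep. -/
lemma FSer_linear (hεX : 0 < εX) (hεW : 0 < εW) (hXB : ∀ l, IsB εX CX (Xh l))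
    (hWB : ∀ i, IsB εW CW (Wh i)) (hW0 : ∀ i, constantCoeff (Wh i) = 0)
    (hXW : ∀ s : Fin d → K, (∀ a, ‖s a‖ < εW) →
      (∀ i, ‖evalS (Wh i) s‖ < εX) ∧ ∀ l, evalS (Xh l) (fun i => evalS (Wh i) s) = s l)
    {δ : ℝ} (hδ : 0 < δ) :
    ∃ τ : ℝ, 0 < τ ∧ ∀ g : PowerSeries (GaloisField p n), (∀ i, ‖actPt I g y hy i - y i‖ ≤ τ) →
      (∀ i m, ‖coeff (Finsupp.single m 1) (PhiT I g y i) - if i = m then 1 else 0‖ ≤ τ) →
      ∀ l j, ‖coeff (Finsupp.single j 1) (FSer I Xh Wh g y hy l) - if l = j then 1 else 0‖ ≤ δ := by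
  set A₀ : ℝ := |CX| / εX with hA₀
  set B : ℝ := |CW| / εW with hB
  have hA₀0 : 0 ≤ A₀ := by positivity
  have hB0 : 0 ≤ B := by positivity
  set Q : ℝ := A₀ * B / εX + A₀ * B + 1 with hQ
  have hQ0 : 0 < Q := by positivity
  set τ : ℝ := min (min 1 (εX / 2)) (δ / Q) with hτdef
  have hτ0 : 0 < τ := lt_min (lt_min one_pos (by positivity)) (by positivity)
  have hτ1 : τ ≤ 1 := (min_le_left _ _).trans (min_le_left _ _)
  have hτX : τ < εX := ((min_le_left _ _).trans (min_le_right _ _)).trans_lt (by linarith)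
  have hτQ : τ * Q ≤ δ := by
    have : τ ≤ δ / Q := min_le_right _ _
    rwa [le_div_iff₀ hQ0] at this
  refine ⟨τ, hτ0, fun g hb hφ l j => ?_⟩
  have hJ : ∀ k, ‖coeff (Finsupp.single k 1) (Xh l)‖ ≤ A₀ := fun k => by
    have h1 := hXB l (Finsupp.single k 1)
    simp only [Finsupp.degree_single, pow_one] at h1
    rw [hA₀, le_div_iff₀ hεX]
    exact h1.trans (le_abs_self _)
  have hW : ∀ m, ‖coeff (Finsupp.single j 1) (Wh m)‖ ≤ B := fun m => by
    have h1 := hWB m (Finsupp.single j 1)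
    simp only [Finsupp.degree_single, pow_one] at h1
    rw [hB, le_div_iff₀ hεW]
    exact h1.trans (le_abs_self _)
  -- the three expansions
  have e1 := coeff_single_subst (GSer_cc (g := g) (y := y) I hW0)
    (shift (fun i => actPt I g y hy i - y i) (Xh l)) j
  have e2 : ∀ k, coeff (Finsupp.single j 1) (GSer I Wh g y k) =
      ∑ m, coeff (Finsupp.single m 1) (PhiT I g y k) * coeff (Finsupp.single j 1) (Wh m) := fun k =>
    coeff_single_subst hW0 (PhiT I g y k) j
  have e3 := jac_of_inverse hεX hεW hXB hWB hW0 hXW l j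
  -- estimates
  have hc1 : ∀ k, ‖coeff (Finsupp.single j 1) (GSer I Wh g y k) -
      coeff (Finsupp.single j 1) (Wh k)‖ ≤ τ * B := fun k => by
    have e4 : coeff (Finsupp.single j 1) (GSer I Wh g y k) - coeff (Finsupp.single j 1) (Wh k) =
        ∑ m, (coeff (Finsupp.single m 1) (PhiT I g y k) - if k = m then 1 else 0) *
          coeff (Finsupp.single j 1) (Wh m) := by
      rw [e2 k]
      simp only [sub_mul, Finset.sum_sub_distrib, ite_mul, one_mul, zero_mul, Finset.sum_ite_eq,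
        Finset.mem_univ, if_true]
    rw [e4]
    refine IsUltrametricDist.norm_sum_le_of_forall_le_of_nonneg (by positivity) fun m _ => ?_
    rw [norm_mul]
    exact mul_le_mul (hφ k m) (hW m) (norm_nonneg _) hτ0.le
  have hc2 : ∀ k, ‖coeff (Finsupp.single j 1) (GSer I Wh g y k)‖ ≤ B := fun k => by
    have e4 : coeff (Finsupp.single j 1) (GSer I Wh g y k) =
        (coeff (Finsupp.single j 1) (GSer I Wh g y k) - coeff (Finsupp.single j 1) (Wh k)) +
          coeff (Finsupp.single j 1) (Wh k) := by ring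
    rw [e4]
    refine (IsUltrametricDist.norm_add_le_max _ _).trans (max_le ((hc1 k).trans ?_) (hW k))
    calc τ * B ≤ 1 * B := by gcongr
      _ = B := one_mul _
  have ha : ∀ k, ‖coeff (Finsupp.single k 1) (shift (fun i => actPt I g y hy i - y i) (Xh l)) -
      coeff (Finsupp.single k 1) (Xh l)‖ ≤ A₀ * (τ / εX) := fun k => by
    have h1 := norm_evalS_sub_cc_le hεX hτ0.le hτX ((hXB l).hasse hεX (Finsupp.single k 1))
      (z := fun i => actPt I g y hy i - y i) hb
    have h2 : constantCoeff (hasse (Finsupp.single k 1) (Xh l)) = coeff (Finsupp.single k 1) (Xh l) := by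
      rw [← coeff_zero_eq_constantCoeff_apply, coeff_hasse, zero_add]
      simp [mchoose, Nat.choose_self]
    rw [h2] at h1
    simp only [Finsupp.degree_single, pow_one] at h1
    rw [coeff_shift]
    refine h1.trans (mul_le_mul_of_nonneg_right ?_ (by positivity))
    rw [hA₀]
    gcongr
    exact le_abs_self _
  -- assembling
  have e5 : coeff (Finsupp.single j 1) (FSer I Xh Wh g y hy l) - (if l = j then 1 else 0) =
      ∑ k, ((coeff (Finsupp.single k 1) (shift (fun i => actPt I g y hy i - y i) (Xh l)) -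
            coeff (Finsupp.single k 1) (Xh l)) * coeff (Finsupp.single j 1) (GSer I Wh g y k) +
          coeff (Finsupp.single k 1) (Xh l) * (coeff (Finsupp.single j 1) (GSer I Wh g y k) -
            coeff (Finsupp.single j 1) (Wh k))) := by
    rw [← e3, FSer, e1, ← Finset.sum_sub_distrib]
    refine Finset.sum_congr rfl fun k _ => ?_
    ring
  rw [e5]
  refine IsUltrametricDist.norm_sum_le_of_forall_le_of_nonneg hδ.le fun k _ => ?_
  refine (IsUltrametricDist.norm_add_le_max _ _).trans (max_le ?_ ?_)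
  · rw [norm_mul]
    refine (mul_le_mul (ha k) (hc2 k) (norm_nonneg _) (by positivity)).trans (le_trans ?_ hτQ)
    have : A₀ * (τ / εX) * B = τ * (A₀ * B / εX) := by ring
    rw [this]
    refine mul_le_mul_of_nonneg_left ?_ hτ0.le
    rw [hQ]
    have : 0 ≤ A₀ * B := by positivity
    linarith
  · rw [norm_mul]
    refine (mul_le_mul (hJ k) (hc1 k) (norm_nonneg _) hA₀0).trans (le_trans ?_ hτQ)
    have : A₀ * (τ * B) = τ * (A₀ * B) := by ring
    rw [this]
    refine mul_le_mul_of_nonneg_left ?_ hτ0.le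
    rw [hQ]
    have : 0 ≤ A₀ * B / εX := by positivity
    linarith

/-- The main statement of E5(d): the orbit in coordinates is a germ setting, with the germ maps. -/
theorem germ_setting_of_coords {Xh Wh : Fin d → MvPowerSeries (Fin d) K} {εX εX' CX εW CW : ℝ}
    (hεX : 0 < εX) (hεX' : 0 < εX') (hεW : 0 < εW) (hXB : ∀ l, IsB εX CX (Xh l))
    (hX0 : ∀ l, constantCoeff (Xh l) = 0) (hWB : ∀ i, IsB εW CW (Wh i))
    (hW0 : ∀ i, constantCoeff (Wh i) = 0)
    (hXW : ∀ s : Fin d → K, (∀ a, ‖s a‖ < εW) →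
      (∀ i, ‖evalS (Wh i) s‖ < εX) ∧ ∀ l, evalS (Xh l) (fun i => evalS (Wh i) s) = s l)
    (hWX : ∀ w : Fin d → K, (∀ i, ‖w i‖ < εX') →
      (∀ l, ‖evalS (Xh l) w‖ < εW) ∧ ∀ i, evalS (Wh i) (fun l => evalS (Xh l) w) = w i) :
    IsGermSetting (OmegaOf I Xh y hy) ∧
      ∃ (ε₀ C₀ : ℝ) (r₂ : ℕ), 0 < ε₀ ∧ ∀ r ≥ r₂, ∀ g, IsFGAut (Γ₀ p n) g → CongX r g →
        ∃ F : Fin d → MvPowerSeries (Fin d) K,
          (∀ l, constantCoeff (F l) = evalS (Xh l) (fun i => actPt I g y hy i - y i)) ∧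
          (∀ l, IsB ε₀ C₀ (F l)) ∧
          (∀ ω' ∈ OmegaOf I Xh y hy r, (fun l => evalS (F l) ω') ∈ OmegaOf I Xh y hy r) ∧
          ∀ s : Fin d → K, (∀ a, ‖s a‖ < ε₀) → ∀ l,
            evalS (F l) s = evalS (Xh l) (fun i => actT I g (fun a => y a + evalS (Wh a) s) i - y i) := by
  -- the constants
  set η : ℝ := min 1 (εX / 2) with hηdef
  have hη0 : 0 < η := lt_min one_pos (by positivity)
  have hη1 : η ≤ 1 := min_le_left _ _
  have hηX : η < εX := (min_le_right _ _).trans_lt (by linarith)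
  set ε₀ : ℝ := smallR εW CW η with hε₀def
  have hε₀ : 0 < ε₀ := smallR_pos hεW hη0
  have hsmX : ∀ {δ : ℝ}, 0 < δ → ∀ {u : Fin d → K}, (∀ i, ‖u i - y i‖ < smallR εX CX δ) →
      ∀ l, ‖evalS (Xh l) (fun i => u i - y i)‖ < δ := fun {δ} hδ {u} hu l =>
    norm_evalS_lt_of_const_zero (smallR_pos hεX hδ) hδ (isB_smallR hεX hδ (hX0 l) (hXB l)) (hX0 l) hu
  set τ₀ : ℝ := min η (min (εX' / 2) (smallR εX CX ε₀ / 2)) with hτ₀def
  have hτ₀ : 0 < τ₀ := lt_min hη0 (lt_min (by positivity) (half_pos (smallR_pos hεX hε₀)))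
  have hτ₀η : τ₀ ≤ η := min_le_left _ _
  have hτ₀X' : τ₀ < εX' := ((min_le_right _ _).trans (min_le_left _ _)).trans_lt (by linarith)
  have hτ₀s : τ₀ < smallR εX CX ε₀ := ((min_le_right _ _).trans (min_le_right _ _)).trans_lt
    (half_lt_self (smallR_pos hεX hε₀))
  obtain ⟨r₂, hr₂⟩ := exists_deep_close I hy hτ₀
  have hcongr : ∀ {r r' : ℕ} {g : PowerSeries (GaloisField p n)}, r' ≤ r → CongX r g → CongX r' g :=
    fun hrr hc i hi => hc i (hi.trans_le hrr)
  -- stability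
  have hstable : ∀ r ≥ r₂, ∀ g, IsFGAut (Γ₀ p n) g → CongX r g →
      ∀ ω' ∈ OmegaOf I Xh y hy r, (fun l => evalS (FSer I Xh Wh g y hy l) ω') ∈ OmegaOf I Xh y hy r := by
    rintro r hr g hg hc _ ⟨u', ⟨g', hg', hc', rfl⟩, rfl⟩
    refine ⟨actPt I (cmp g' g) y hy, ⟨cmp g' g, hg'.comp hg, congX_cmp_germ hc' hc hg.1.1, rfl⟩, ?_⟩
    funext l
    have hbg : ∀ i, ‖actPt I g y hy i - y i‖ ≤ η := fun i =>
      ((hr₂ g hg (hcongr hr hc) i).1).trans hτ₀η
    have hu' : ∀ i, ‖actPt I g' y hy i - y i‖ ≤ τ₀ := fun i => (hr₂ g' hg' (hcongr hr hc') i).1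
    have hsm : ∀ a, ‖evalS (Xh a) (fun i => actPt I g' y hy i - y i)‖ < ε₀ :=
      hsmX hε₀ (fun i => (hu' i).trans_lt hτ₀s)
    have hinv := (hWX (fun i => actPt I g' y hy i - y i) fun i => (hu' i).trans_lt hτ₀X').2
    show evalS (Xh l) (fun i => actPt I (cmp g' g) y hy i - y i) = _
    rw [evalS_FSer I hy hεX hεW hXB hWB hW0 hη0 hη1 hηX hbg l hsm]
    congr 1
    funext i
    have e : (fun a => y a + evalS (Wh a) (fun l => evalS (Xh l) fun i => actPt I g' y hy i - y i)) =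
        actPt I g' y hy := by
      funext a
      rw [hinv a]
      ring
    rw [e, actT_actPt I hy hg hg']
  refine ⟨⟨?_, ?_, ?_, ?_⟩, ε₀, CX, r₂, hε₀, fun r hr g hg hc => ?_⟩
  · -- antitone
    rintro r r' hrr _ ⟨u, ⟨g, hg, hc, rfl⟩, rfl⟩
    exact ⟨_, ⟨g, hg, hcongr hrr hc, rfl⟩, rfl⟩
  · -- zero
    intro r
    refine ⟨y, ⟨PowerSeries.X, isFGAut_X _, fun i hi => rfl, ?_⟩, ?_⟩
    · funext i
      exact (actPt_X I hy i).symm
    · funext l
      have : (fun i => y i - y i) = (0 : Fin d → K) := by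
        funext i
        simp
      simp only [this]
      rw [evalS_zero_pt, hX0]
      rfl
  · -- small
    intro δ hδ
    obtain ⟨r, hr⟩ := exists_deep_close I hy (half_pos (smallR_pos hεX hδ))
    refine ⟨r, ?_⟩
    rintro _ ⟨u, ⟨g, hg, hc, rfl⟩, rfl⟩ l
    exact hsmX hδ (fun i => ((hr g hg hc i).1).trans_lt (half_lt_self (smallR_pos hεX hδ))) l
  · -- act
    refine ⟨ε₀, CX, hε₀, fun δ hδ => ?_⟩
    obtain ⟨τ, hτ, hlin⟩ := FSer_linear I hy hεX hεW hXB hWB hW0 hXW hδ
    obtain ⟨r₃, hr₃⟩ := exists_deep_close I hy hτ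
    refine ⟨max r₂ r₃, ?_⟩
    rintro r hr _ ⟨u, ⟨g, hg, hc, rfl⟩, rfl⟩
    have hc2 : CongX r₂ g := hcongr ((le_max_left _ _).trans hr) hc
    have hc3 : CongX r₃ g := hcongr ((le_max_right _ _).trans hr) hc
    refine ⟨FSer I Xh Wh g y hy, fun l => FSer_cc I hy hW0 l, fun l => ?_, ?_, ?_⟩
    · exact isB_FSer I hy hεX hεW hXB hWB hW0 hη0 hη1 hηX.le
        (fun i => ((hr₂ g hg hc2 i).1).trans hτ₀η) l
    · exact hlin g (fun i => (hr₃ g hg hc3 i).1) (fun i m => (hr₃ g hg hc3 i).2 m)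
    · exact hstable r ((le_max_left _ _).trans hr) g hg hc
  · -- germ maps
    have hc2 : CongX r₂ g := hcongr hr hc
    have hbg : ∀ i, ‖actPt I g y hy i - y i‖ ≤ η := fun i =>
      ((hr₂ g hg hc2 i).1).trans hτ₀η
    exact ⟨FSer I Xh Wh g y hy, fun l => FSer_cc I hy hW0 l,
      fun l => isB_FSer I hy hεX hεW hXB hWB hW0 hη0 hη1 hηX.le hbg l,
      hstable r hr g hg hc,
      fun s hs l => evalS_FSer I hy hεX hεW hXB hWB hW0 hη0 hη1 hηX hbg l hs⟩

/-- A nonzero element of the ideal vanishing on the orbit gives a nonzero germ in `I`. -/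
theorem inI_of_coords {Xh Wh : Fin d → MvPowerSeries (Fin d) K} {εX εX' CX εW CW : ℝ}
    (hεX : 0 < εX) (hεX' : 0 < εX') (hεW : 0 < εW) (hXB : ∀ l, IsB εX CX (Xh l))
    (hX0 : ∀ l, constantCoeff (Xh l) = 0) (hWB : ∀ i, IsB εW CW (Wh i))
    (hW0 : ∀ i, constantCoeff (Wh i) = 0)
    (hXW : ∀ s : Fin d → K, (∀ a, ‖s a‖ < εW) →
      (∀ i, ‖evalS (Wh i) s‖ < εX) ∧ ∀ l, evalS (Xh l) (fun i => evalS (Wh i) s) = s l)
    (hWX : ∀ w : Fin d → K, (∀ i, ‖w i‖ < εX') →
      (∀ l, ‖evalS (Xh l) w‖ < εW) ∧ ∀ i, evalS (Wh i) (fun l => evalS (Xh l) w) = w i)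
    {f : RR p n d} (hf : f ≠ 0) {r₀ : ℕ}
    (hvan : ∀ u ∈ Orb I y hy r₀, evalS (MvPowerSeries.map (algebraMap _ K) f) u = 0) :
    ∃ fh, InI (OmegaOf I Xh y hy) fh ∧ fh ≠ 0 := by
  set ε₁ : ℝ := smallR εW CW 1 with hε₁def
  have hε₁ : 0 < ε₁ := smallR_pos hεW one_pos
  have hWS : ∀ i, IsB ε₁ 1 (Wh i) := fun i => isB_smallR hεW one_pos (hW0 i) (hWB i)
  set f₁ : MvPowerSeries (Fin d) K := shift y (MvPowerSeries.map (algebraMap _ K) f) with hf₁
  have hf₁B : IsB (1 : ℝ) 1 f₁ := (isB_map_algebraMap f).shift one_pos fun j => (hy j).le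
  have hfhB : IsB ε₁ 1 (f₁.subst Wh) := IsB.subst hε₁ zero_le_one hf₁B hW0 hWS
  have hsmX : ∀ {u : Fin d → K}, (∀ i, ‖u i‖ < smallR εX CX ε₁) → ∀ l, ‖evalS (Xh l) u‖ < ε₁ :=
    fun {u} hu l => norm_evalS_lt_of_const_zero (smallR_pos hεX hε₁) hε₁
      (isB_smallR hεX hε₁ (hX0 l) (hXB l)) (hX0 l) hu
  -- the value at `Xh w`
  have hval : ∀ w : Fin d → K, (∀ i, ‖w i‖ < εX') → (∀ i, ‖w i‖ < smallR εX CX ε₁) → (∀ i, ‖w i‖ < 1) →
      evalS (f₁.subst Wh) (fun l => evalS (Xh l) w) =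
        evalS (MvPowerSeries.map (algebraMap _ K) f) (y + w) := by
    intro w h1 h2 h3
    rw [evalS_subst hε₁ zero_le_one hf₁B hW0 hWS (hsmX h2)]
    have e : (fun i => evalS (Wh i) fun l => evalS (Xh l) w) = w := by
      funext i
      exact (hWX w h1).2 i
    rw [e, hf₁, evalS_shift one_pos (isB_map_algebraMap f) hy h3]
  set τ₀ : ℝ := min (εX' / 2) (min (smallR εX CX ε₁ / 2) (1 / 2)) with hτ₀def
  have hτ₀ : 0 < τ₀ := lt_min (by positivity) (lt_min (half_pos (smallR_pos hεX hε₁)) (by norm_num))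
  have hτ₀1 : τ₀ < εX' := (min_le_left _ _).trans_lt (by linarith)
  have hτ₀2 : τ₀ < smallR εX CX ε₁ := ((min_le_right _ _).trans (min_le_left _ _)).trans_lt
    (half_lt_self (smallR_pos hεX hε₁))
  have hτ₀3 : τ₀ < 1 := ((min_le_right _ _).trans (min_le_right _ _)).trans_lt (by norm_num)
  obtain ⟨r₁, hr₁⟩ := exists_deep_close I hy hτ₀
  refine ⟨f₁.subst Wh, ⟨ε₁, 1, max r₀ r₁, hε₁, hfhB, ?_, ?_⟩, ?_⟩
  · rintro _ ⟨u, ⟨g, hg, hc, rfl⟩, rfl⟩ l
    have hc1 : CongX r₁ g := fun i hi => hc i (hi.trans_le (le_max_right _ _))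
    exact hsmX (fun i => ((hr₁ g hg hc1 i).1).trans_lt hτ₀2) l
  · rintro _ ⟨u, ⟨g, hg, hc, rfl⟩, rfl⟩
    have hc1 : CongX r₁ g := fun i hi => hc i (hi.trans_le (le_max_right _ _))
    have hc0 : CongX r₀ g := fun i hi => hc i (hi.trans_le (le_max_left _ _))
    have hb := fun i => (hr₁ g hg hc1 i).1
    rw [hval _ (fun i => (hb i).trans_lt hτ₀1) (fun i => (hb i).trans_lt hτ₀2)
      (fun i => (hb i).trans_lt hτ₀3)]
    have e : (y + fun i => actPt I g y hy i - y i) = actPt I g y hy := by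
      funext i
      simp
    rw [e]
    exact hvan _ ⟨g, hg, hc0, rfl⟩
  · intro hzero
    -- `f₁` vanishes near the origin
    set δ : ℝ := min εX' (min (smallR εX CX ε₁) 1) with hδdef
    have hδ : 0 < δ := lt_min hεX' (lt_min (smallR_pos hεX hε₁) one_pos)
    have hf₁0 : f₁ = 0 := by
      refine eq_zero_of_evalS_zero one_pos hδ hf₁B fun w hw => ?_
      have h1 : ∀ i, ‖w i‖ < εX' := fun i => (hw i).trans_le (min_le_left _ _)
      have h2 : ∀ i, ‖w i‖ < smallR εX CX ε₁ := fun i =>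
        (hw i).trans_le ((min_le_right _ _).trans (min_le_left _ _))
      have h3 : ∀ i, ‖w i‖ < 1 := fun i =>
        (hw i).trans_le ((min_le_right _ _).trans (min_le_right _ _))
      have h4 := hval w h1 h2 h3
      rw [hzero, evalS_zero, ← evalS_shift one_pos (isB_map_algebraMap f) hy h3] at h4
      exact h4.symm
    have hmap0 : MvPowerSeries.map (algebraMap (GaloisField p n) K) f = 0 := by
      refine eq_zero_of_evalS_zero one_pos one_pos (isB_map_algebraMap f) fun z hz => ?_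
      have h1 : ∀ i, ‖z i - y i‖ < 1 := fun i =>
        (norm_sub_le_max_ultra (z i) (y i)).trans_lt (max_lt (hz i) (hy i))
      have h2 := evalS_shift one_pos (isB_map_algebraMap (K := K) f) hy h1
      rw [← hf₁, hf₁0, evalS_zero] at h2
      have e : (y + fun i => z i - y i) = z := by
        funext i
        simp
      rw [e] at h2
      exact h2.symm
    apply hf
    ext γ
    have := congrArg (coeff γ) hmap0
    rw [coeff_map, map_zero] at this
    rw [map_zero]
    exact (algebraMap (GaloisField p n) K).injective (by rw [this, map_zero])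

end orbit

end Crest.Agent.LT
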