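/-
D3: digit form of a homomorphism between fibres of the Hazewinkel law (BLUEPRINT §D3).
For `θ : F' → F` over a field of characteristic zero, where `F`, `F'` have logarithms supported on
`p`-powers: `θ = Σ^F T_j X^(p^j)` and `T_0 ℓ'_m = Σ_{i+j=m} ℓ_i T_j^(p^i)`.
-/
import Crest.Agent.Lib.LT.Spec
import Crest.Agent.Lib.LT.Frob

set_option autoImplicit false
set_option linter.unusedSectionVars false
set_option linter.unusedVariables false
set_option linter.unnecessarySimpa false
set_option linter.unusedSimpArgs false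

namespace Crest.Agent.LT

open Crest.LubinTate

section digits

variable (p : ℕ) [Fact p.Prime] {R S : Type*} [CommRing R] [CommRing S]

lemma p_pow_pos (J : ℕ) : 0 < p ^ J := pow_pos (Fact.out : p.Prime).pos J

lemma hasSubst_mon (a : R) (J : ℕ) :
    PowerSeries.HasSubst (PowerSeries.C a * PowerSeries.X ^ (p ^ J) : PowerSeries R) :=
  hasSubst_of_cc (by simp [zero_pow (p_pow_pos p J).ne'])

/-- The point `a X^(p^J)`. -/
noncomputable def monPt (F : FormalGroup R) (a : R) (J : ℕ) : F.Point Unit :=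
  ⟨(PowerSeries.C a * PowerSeries.X ^ (p ^ J) : PowerSeries R), hasSubst_mon p a J⟩

@[simp] lemma monPt_val (F : FormalGroup R) (a : R) (J : ℕ) :
    (monPt p F a J).val = (PowerSeries.C a * PowerSeries.X ^ (p ^ J) : PowerSeries R) := rfl

lemma monPt_zero (F : FormalGroup R) (J : ℕ) : monPt p F 0 J = 0 :=
  Subtype.ext (by simp [monPt])

lemma monPt_one_zero (F : FormalGroup R) : monPt p F 1 0 = ptX F :=
  Subtype.ext (by simp [monPt, ptX])

lemma p_pow_injective : Function.Injective (fun J : ℕ => p ^ J) :=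
  Nat.pow_right_injective (Fact.out : p.Prime).two_le

lemma coeff_monPt (F : FormalGroup R) (a : R) (J j : ℕ) [DecidableEq ℕ] :
    PowerSeries.coeff (p ^ j) ((monPt p F a J).val : PowerSeries R) = if j = J then a else 0 := by
  rw [monPt_val, PowerSeries.coeff_C_mul_X_pow]
  by_cases h : j = J
  · simp [h]
  · have : p ^ j ≠ p ^ J := fun e => h (p_pow_injective p e)
    simp [h, this]

variable (F : FormalGroup R) [F.IsComm]

/-- The successive remainders `θ -_F Σ_{j<J} T_j X^(p^j)`. -/
noncomputable def digPt (θ : F.Point Unit) : ℕ → F.Point Unit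
  | 0 => θ
  | J + 1 => digPt θ J - monPt p F (PowerSeries.coeff (p ^ J) ((digPt θ J).val : PowerSeries R)) J

/-- The digits. -/
noncomputable def digT (θ : F.Point Unit) (J : ℕ) : R :=
  PowerSeries.coeff (p ^ J) ((digPt p F θ J).val : PowerSeries R)

lemma digPt_succ (θ : F.Point Unit) (J : ℕ) :
    digPt p F θ (J + 1) = digPt p F θ J - monPt p F (digT p F θ J) J := rfl

lemma digPt_eq_sub_sum (θ : F.Point Unit) (J : ℕ) :
    digPt p F θ J = θ - ∑ j ∈ Finset.range J, monPt p F (digT p F θ j) j := by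
  induction J with
  | zero => simp [digPt]
  | succ J ih =>
    rw [digPt_succ, ih, Finset.sum_range_succ]
    abel

/-! ### Functoriality -/

omit [F.IsComm] in
lemma hasSubst_map_val (φ : R →+* S) {a : MvPowerSeries Unit R} (ha : PowerSeries.HasSubst a) :
    PowerSeries.HasSubst (MvPowerSeries.map φ a) := by
  rw [PowerSeries.HasSubst, MvPowerSeries.constantCoeff_map] at *
  exact ha.map φ

/-- Base change of points. -/
noncomputable def ptMap (φ : R →+* S) : F.Point Unit →+ (F.map φ).Point Unit where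
  toFun x := ⟨MvPowerSeries.map φ x.val, hasSubst_map_val φ x.prop⟩
  map_zero' := Subtype.ext (by
    show MvPowerSeries.map φ (0 : MvPowerSeries Unit R) = 0
    simp)
  map_add' x y := Subtype.ext (map_fgAdd F φ x.prop y.prop)

@[simp] lemma ptMap_val (φ : R →+* S) (x : F.Point Unit) :
    (ptMap F φ x).val = MvPowerSeries.map φ x.val := rfl

lemma ptMap_mon (φ : R →+* S) (a : R) (J : ℕ) :
    ptMap F φ (monPt p F a J) = monPt p (F.map φ) (φ a) J :=
  Subtype.ext (by
    show PowerSeries.map φ (PowerSeries.C a * PowerSeries.X ^ (p ^ J)) = _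
    simp)

lemma coeff_ptMap (φ : R →+* S) (x : F.Point Unit) (i : ℕ) :
    PowerSeries.coeff i ((ptMap F φ x).val : PowerSeries S) =
      φ (PowerSeries.coeff i (x.val : PowerSeries R)) := by
  show PowerSeries.coeff i (PowerSeries.map φ (x.val : PowerSeries R)) = _
  rw [PowerSeries.coeff_map]

lemma digPt_map (φ : R →+* S) (θ : F.Point Unit) (J : ℕ) :
    ptMap F φ (digPt p F θ J) = digPt p (F.map φ) (ptMap F φ θ) J := by
  induction J with
  | zero => rfl
  | succ J ih =>
    rw [digPt_succ, map_sub, ptMap_mon, ih, digPt_succ]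
    congr 2
    rw [digT, digT, ← ih, coeff_ptMap]

lemma digT_map (φ : R →+* S) (θ : F.Point Unit) (J : ℕ) :
    φ (digT p F θ J) = digT p (F.map φ) (ptMap F φ θ) J := by
  rw [digT, digT, ← digPt_map, coeff_ptMap]

/-! ### Digits of `X +_G t X^(p^J₀)` -/

omit [F.IsComm] in
lemma coeff_fgAdd_X_mon (a : R) {e : ℕ} (he : 1 ≤ e) {i : ℕ} (hi : i < e) :
    PowerSeries.coeff i (fgAdd F (PowerSeries.X : PowerSeries R)
      (PowerSeries.C a * PowerSeries.X ^ e : PowerSeries R) : PowerSeries R) =
      PowerSeries.coeff i (PowerSeries.X : PowerSeries R) := by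
  have hX : PowerSeries.HasSubst (PowerSeries.X : PowerSeries R) :=
    PowerSeries.HasSubst.of_constantCoeff_zero' PowerSeries.constantCoeff_X
  have hb : PowerSeries.HasSubst (PowerSeries.C a * PowerSeries.X ^ e : PowerSeries R) :=
    hasSubst_of_cc (by simp [zero_pow (by omega : e ≠ 0)])
  rw [fgAdd_eq F hX hb]
  set w : PowerSeries R := (fgRem F).subst ![(PowerSeries.X : PowerSeries R),
    (PowerSeries.C a * PowerSeries.X ^ e : PowerSeries R)] with hw
  have h1 : PowerSeries.coeff i (PowerSeries.C a * PowerSeries.X ^ e : PowerSeries R) = 0 := by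
    rw [PowerSeries.coeff_C_mul_X_pow, if_neg (by omega)]
  have h2 : PowerSeries.coeff i ((PowerSeries.X : PowerSeries R) *
      (PowerSeries.C a * PowerSeries.X ^ e) * w) = 0 := by
    have : (PowerSeries.X : PowerSeries R) ^ e ∣ (PowerSeries.X : PowerSeries R) *
        (PowerSeries.C a * PowerSeries.X ^ e) * w :=
      ⟨PowerSeries.X * PowerSeries.C a * w, by ring⟩
    exact PowerSeries.X_pow_dvd_iff.1 this i hi
  show PowerSeries.coeff i ((PowerSeries.X : PowerSeries R) +
    (PowerSeries.C a * PowerSeries.X ^ e) + (PowerSeries.X : PowerSeries R) *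
      (PowerSeries.C a * PowerSeries.X ^ e) * w) = _
  rw [map_add, map_add, h1, h2, add_zero, add_zero]

theorem digit_reduce (t : R) {J₀ : ℕ} (hJ₀ : 1 ≤ J₀) :
    digT p F (ptX F + monPt p F t J₀) 0 = 1 ∧ digT p F (ptX F + monPt p F t J₀) J₀ = t ∧
      ∀ j, j ≠ 0 → j ≠ J₀ → digT p F (ptX F + monPt p F t J₀) j = 0 := by
  classical
  set θ := ptX F + monPt p F t J₀ with hθ
  have hpJ : 2 ≤ p ^ J₀ := (Fact.out : p.Prime).two_le.trans (Nat.le_self_pow (by omega) p)
  have h0 : digT p F θ 0 = 1 := by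
    rw [digT]
    show PowerSeries.coeff (p ^ 0) (fgAdd F (PowerSeries.X : PowerSeries R)
      (PowerSeries.C t * PowerSeries.X ^ (p ^ J₀) : PowerSeries R) : PowerSeries R) = 1
    rw [pow_zero, coeff_fgAdd_X_mon F t (by omega) (by omega), PowerSeries.coeff_one_X]
  have h1 : digPt p F θ 1 = monPt p F t J₀ := by
    rw [digPt_succ, h0, monPt_one_zero]
    show θ - ptX F = _
    rw [hθ]
    abel
  have hmid : ∀ j, 1 ≤ j → j ≤ J₀ → digPt p F θ j = monPt p F t J₀ := by
    intro j hj
    induction j, hj using Nat.le_induction with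
    | base => exact fun _ => h1
    | succ j hj ih =>
      intro hjJ
      have h2 := ih (by omega)
      rw [digPt_succ]
      have : digT p F θ j = 0 := by
        rw [digT, h2, coeff_monPt, if_neg (by omega)]
      rw [this, monPt_zero, sub_zero, h2]
  have hJ : digT p F θ J₀ = t := by
    rw [digT, hmid J₀ hJ₀ le_rfl, coeff_monPt, if_pos rfl]
  have hbig : ∀ j, J₀ < j → digPt p F θ j = 0 := by
    intro j hj
    induction j, hj using Nat.le_induction with
    | base =>
      show digPt p F θ (J₀ + 1) = 0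
      rw [digPt_succ, hJ, hmid J₀ hJ₀ le_rfl, sub_self]
    | succ j hj ih =>
      rw [digPt_succ]
      have : digT p F θ j = 0 := by
        rw [digT, ih]
        simp
      rw [this, monPt_zero, sub_zero, ih]
  refine ⟨h0, hJ, fun j hj0 hjJ => ?_⟩
  rcases lt_or_gt_of_ne hjJ with h | h
  · rw [digT, hmid j (by omega) h.le, coeff_monPt, if_neg hjJ]
  · rw [digT, hbig j h]
    simp

end digits

/-! ### Characteristic zero: logarithms -/

section log

variable (p : ℕ) [Fact p.Prime] {K : Type*} [Field K] [CharZero K]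

lemma fgAdd_Ga {τ : Type*} {a b : MvPowerSeries τ K} (ha : PowerSeries.HasSubst a)
    (hb : PowerSeries.HasSubst b) : fgAdd FormalGroup.𝔾ₐ a b = a + b := by
  have hab := hasSubst_pair ha hb
  simp only [fgAdd, FormalGroup.𝔾ₐ_toPowerSeries]
  rw [MvPowerSeries.subst_add hab, MvPowerSeries.subst_X hab, MvPowerSeries.subst_X hab]
  rfl

lemma fgD_Ga : fgD (FormalGroup.𝔾ₐ : FormalGroup K) = 1 := by
  simp only [fgD, FormalGroup.𝔾ₐ_toPowerSeries]
  rw [map_add, MvPowerSeries.pderiv_X_of_ne (by decide), MvPowerSeries.pderiv_X_self, zero_add]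
  exact msubst_one hasSubst_X_zero

/-- Homomorphisms to `𝔾ₐ` are multiples of the logarithm. -/
theorem hom_Ga_unique {F' : FormalGroup K} {f l : PowerSeries K}
    (hf : IsFGHom F' FormalGroup.𝔾ₐ f) (hl : IsFGHom F' FormalGroup.𝔾ₐ l)
    (h1 : PowerSeries.coeff 1 l = 1) : f = PowerSeries.C (PowerSeries.coeff 1 f) * l := by
  have hone : ∀ g : PowerSeries K, PowerSeries.constantCoeff g = 0 →
      cmp (1 : PowerSeries K) g = 1 := by
    intro g hg
    have := map_one (PowerSeries.substAlgHom (R := K) (hasSubst_of_cc hg))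
    rwa [PowerSeries.coe_substAlgHom] at this
  have e1 := hom_ode hf
  have e2 := hom_ode hl
  rw [fgD_Ga, hone _ hf.1, one_mul] at e1
  rw [fgD_Ga, hone _ hl.1, one_mul, h1, map_one] at e2
  set c := PowerSeries.coeff 1 f with hc
  refine PowerSeries.derivative.ext ?_ ?_
  · have hmul : PowerSeries.derivative K (PowerSeries.C c * l) =
        PowerSeries.C c * PowerSeries.derivative K l := by
      rw [← PowerSeries.smul_eq_C_mul, Derivation.map_smul, PowerSeries.smul_eq_C_mul]
    rw [hmul]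
    refine (isUnit_fgD F').mul_left_inj.mp ?_
    rw [e1, mul_assoc, e2, mul_one]
  · rw [hf.1, map_mul, hl.1, mul_zero]

/-- The logarithm on points. -/
noncomputable def Lam {F : FormalGroup K} [F.IsComm] {l : PowerSeries K}
    (hl : IsFGHom F FormalGroup.𝔾ₐ l) : F.Point Unit →+ PowerSeries K where
  toFun x := PowerSeries.subst (x.val : PowerSeries K) l
  map_zero' := PowerSeries.subst_zero_of_constantCoeff_zero hl.1
  map_add' x y := by
    show PowerSeries.subst (fgAdd F x.val y.val : PowerSeries K) l = _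
    have := hl.apply x.prop y.prop
    rw [this]
    exact fgAdd_Ga (hasSubst_psubst hl.1 x.prop) (hasSubst_psubst hl.1 y.prop)

lemma Lam_apply {F : FormalGroup K} [F.IsComm] {l : PowerSeries K}
    (hl : IsFGHom F FormalGroup.𝔾ₐ l) (x : F.Point Unit) :
    Lam hl x = cmp l (x.val : PowerSeries K) := rfl

/-! ### Low order terms of `l ∘ x` -/

lemma cc_of_point {F : FormalGroup K} (x : F.Point Unit) :
    PowerSeries.constantCoeff (x.val : PowerSeries K) = 0 := by
  have h := x.prop
  rw [PowerSeries.HasSubst] at h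
  exact h.eq_zero

lemma coeff_pow_eq_zero {x : PowerSeries K} {e d N : ℕ} (hx : ∀ i < e, PowerSeries.coeff i x = 0)
    (hN : N < e * d) : PowerSeries.coeff N (x ^ d) = 0 := by
  have h1 : (PowerSeries.X : PowerSeries K) ^ e ∣ x := PowerSeries.X_pow_dvd_iff.2 hx
  have h2 : (PowerSeries.X : PowerSeries K) ^ (e * d) ∣ x ^ d := by
    rw [pow_mul]; exact pow_dvd_pow_of_dvd h1 d
  exact PowerSeries.X_pow_dvd_iff.1 h2 N hN

lemma coeff_cmp_low {l x : PowerSeries K} (hl0 : PowerSeries.constantCoeff l = 0)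
    (hl1 : PowerSeries.coeff 1 l = 1) {e : ℕ} (he : 1 ≤ e)
    (hx : ∀ i < e, PowerSeries.coeff i x = 0) {N : ℕ} (hN : N < 2 * e) :
    PowerSeries.coeff N (cmp l x) = PowerSeries.coeff N x := by
  have hx0 : PowerSeries.constantCoeff x = 0 := by
    rw [← PowerSeries.coeff_zero_eq_constantCoeff_apply]
    exact hx 0 (by omega)
  rw [coeff_cmp_eq_sum hx0, Finset.sum_eq_single 1]
  · rw [hl1, one_mul, pow_one]
  · intro d hd hd1
    rcases Nat.eq_zero_or_pos d with rfl | hd0
    · rw [PowerSeries.coeff_zero_eq_constantCoeff_apply, hl0, zero_mul]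
    · rw [coeff_pow_eq_zero hx (e := e) (by nlinarith [show 2 ≤ d by omega]), mul_zero]
  · intro h
    have hN0 : N = 0 := by
      simp only [Finset.mem_range, not_lt] at h
      omega
    rw [hN0, pow_one, PowerSeries.coeff_zero_eq_constantCoeff_apply, hx0]
    rw [mul_zero]

lemma coeff_eq_zero_of_cmp {l x : PowerSeries K} (hl0 : PowerSeries.constantCoeff l = 0)
    (hl1 : PowerSeries.coeff 1 l = 1) (hx0 : PowerSeries.constantCoeff x = 0) {N : ℕ}
    (h : ∀ i < N, PowerSeries.coeff i (cmp l x) = 0) : ∀ i < N, PowerSeries.coeff i x = 0 := by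
  intro i
  induction i using Nat.strong_induction_on with
  | _ i ih =>
    intro hi
    rcases Nat.eq_zero_or_pos i with rfl | hi0
    · rw [PowerSeries.coeff_zero_eq_constantCoeff_apply, hx0]
    · have h1 := coeff_cmp_low hl0 hl1 (e := i) hi0 (fun i' hi' => ih i' hi' (by omega))
        (N := i) (by omega)
      rw [← h1]
      exact h i hi

/-- coefficients of `l (a X^e)` -/
lemma coeff_cmp_mon (l : PowerSeries K) (a : K) {e : ℕ} (he : 1 ≤ e) (N : ℕ) :
    PowerSeries.coeff N (cmp l (PowerSeries.C a * PowerSeries.X ^ e)) =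
      if e ∣ N then PowerSeries.coeff (N / e) l * a ^ (N / e) else 0 := by
  have hc : PowerSeries.constantCoeff (PowerSeries.C a * PowerSeries.X ^ e : PowerSeries K) = 0 := by
    simp [zero_pow (by omega : e ≠ 0)]
  rw [coeff_cmp_eq_sum hc]
  have hpow : ∀ d, PowerSeries.coeff N ((PowerSeries.C a * PowerSeries.X ^ e : PowerSeries K) ^ d) =
      if N = e * d then a ^ d else 0 := by
    intro d
    rw [mul_pow, ← map_pow, ← pow_mul, PowerSeries.coeff_C_mul_X_pow]
  simp only [hpow]
  split_ifs with hdvd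
  · obtain ⟨c, rfl⟩ := hdvd
    have hcN : c ≤ e * c := Nat.le_mul_of_pos_left c (by omega)
    rw [Finset.sum_eq_single c]
    · rw [if_pos rfl, Nat.mul_div_cancel_left c (by omega)]
    · intro d _ hd
      rw [if_neg, mul_zero]
      intro h
      exact hd (Nat.eq_of_mul_eq_mul_left (by omega) h.symm)
    · intro h
      exact absurd (Finset.mem_range.mpr (by omega)) h
  · refine Finset.sum_eq_zero fun d _ => ?_
    rw [if_neg, mul_zero]
    intro h
    exact hdvd ⟨d, h⟩

/-- `p`-power supported series -/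
def PSupp (p : ℕ) (f : PowerSeries K) : Prop :=
  ∀ i, (∀ m, i ≠ p ^ m) → PowerSeries.coeff i f = 0

lemma PSupp.sub {f g : PowerSeries K} (hf : PSupp p f) (hg : PSupp p g) : PSupp p (f - g) := by
  intro i hi
  rw [map_sub, hf i hi, hg i hi, sub_zero]

lemma PSupp.C_mul {f : PowerSeries K} (a : K) (hf : PSupp p f) :
    PSupp p (PowerSeries.C a * f) := by
  intro i hi
  rw [PowerSeries.coeff_C_mul, hf i hi, mul_zero]

lemma PSupp.sum {ι : Type*} {s : Finset ι} {f : ι → PowerSeries K} (hf : ∀ i ∈ s, PSupp p (f i)) :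
    PSupp p (∑ i ∈ s, f i) := by
  intro i hi
  rw [map_sum]
  exact Finset.sum_eq_zero fun j hj => hf j hj i hi

lemma PSupp.cmp_mon {l : PowerSeries K} (hl : PSupp p l) (a : K) (j : ℕ) :
    PSupp p (cmp l (PowerSeries.C a * PowerSeries.X ^ (p ^ j))) := by
  intro i hi
  rw [coeff_cmp_mon l a (p_pow_pos p j)]
  split_ifs with hd
  · obtain ⟨c, rfl⟩ := hd
    rw [Nat.mul_div_cancel_left c (p_pow_pos p j), hl c ?_, zero_mul]
    intro m hm
    exact hi (j + m) (by rw [hm, pow_add])
  · rfl

/-- coefficient at `p^m` of `l (a X^(p^j))` -/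
lemma coeff_cmp_mon_pow (l : PowerSeries K) (a : K) {j m : ℕ} :
    PowerSeries.coeff (p ^ m) (cmp l (PowerSeries.C a * PowerSeries.X ^ (p ^ j))) =
      if j ≤ m then PowerSeries.coeff (p ^ (m - j)) l * a ^ (p ^ (m - j)) else 0 := by
  have hp := (Fact.out : p.Prime)
  rw [coeff_cmp_mon l a (p_pow_pos p j)]
  by_cases h : j ≤ m
  · rw [if_pos ((Nat.pow_dvd_pow_iff_le_right hp.one_lt).2 h), if_pos h,
      Nat.pow_div h hp.pos]
  · rw [if_neg (fun hd => h ((Nat.pow_dvd_pow_iff_le_right hp.one_lt).1 hd)), if_neg h]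

/-- The digit theorem. -/
theorem digit_core {F F' : FormalGroup K} [F.IsComm] {l l' θ : PowerSeries K}
    (hl : IsFGHom F FormalGroup.𝔾ₐ l) (hl' : IsFGHom F' FormalGroup.𝔾ₐ l')
    (hl1 : PowerSeries.coeff 1 l = 1) (hl'1 : PowerSeries.coeff 1 l' = 1)
    (hls : PSupp p l) (hls' : PSupp p l') (hθ : IsFGHom F' F θ)
    (θp : F.Point Unit) (hθp : (θp.val : PowerSeries K) = θ) :
    (∀ J, ∀ i < p ^ J, PowerSeries.coeff i ((digPt p F θp J).val : PowerSeries K) = 0) ∧
    ∀ m, PowerSeries.coeff 1 θ * PowerSeries.coeff (p ^ m) l' =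
      ∑ j ∈ Finset.range (m + 1), PowerSeries.coeff (p ^ (m - j)) l *
        (digT p F θp j) ^ (p ^ (m - j)) := by
  classical
  have hpr := (Fact.out : p.Prime)
  set T₀ := PowerSeries.coeff 1 θ with hT₀
  have hbase : Lam hl θp = PowerSeries.C T₀ * l' := by
    rw [Lam_apply, hθp]
    have hcomp := hl.comp hθ
    have h1 := hom_Ga_unique hcomp hl' hl'1
    rw [coeff_one_cmp hl.1 hθ.1, hl1, one_mul] at h1
    exact h1
  have hLamJ : ∀ J, Lam hl (digPt p F θp J) = PowerSeries.C T₀ * l' -
      ∑ j ∈ Finset.range J, cmp l (PowerSeries.C (digT p F θp j) * PowerSeries.X ^ (p ^ j)) := by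
    intro J
    rw [digPt_eq_sub_sum, map_sub, hbase, map_sum]
    rfl
  have hsupp : ∀ J, PSupp p (Lam hl (digPt p F θp J)) := by
    intro J
    rw [hLamJ]
    exact (hls'.C_mul p T₀).sub p (PSupp.sum p fun j _ => PSupp.cmp_mon p hls _ j)
  have hord : ∀ J, ∀ i < p ^ J, PowerSeries.coeff i ((digPt p F θp J).val : PowerSeries K) = 0 := by
    intro J
    induction J with
    | zero =>
      intro i hi
      have : i = 0 := by simpa using hi
      rw [this, PowerSeries.coeff_zero_eq_constantCoeff_apply]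
      exact cc_of_point _
    | succ J ih =>
      set a := digPt p F θp J with ha
      set b := monPt p F (digT p F θp J) J with hb
      have hb0 : ∀ i < p ^ J, PowerSeries.coeff i (b.val : PowerSeries K) = 0 := by
        intro i hi
        rw [hb, monPt_val, PowerSeries.coeff_C_mul_X_pow, if_neg (by omega)]
      have hpJ := p_pow_pos p J
      have hla : ∀ i, i ≤ p ^ J → PowerSeries.coeff i (Lam hl a) =
          PowerSeries.coeff i (a.val : PowerSeries K) := fun i hi =>
        coeff_cmp_low hl.1 hl1 hpJ ih (by omega)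
      have hlb : ∀ i, i ≤ p ^ J → PowerSeries.coeff i (Lam hl b) =
          PowerSeries.coeff i (b.val : PowerSeries K) := fun i hi =>
        coeff_cmp_low hl.1 hl1 hpJ hb0 (by omega)
      have hc : digPt p F θp (J + 1) = a - b := digPt_succ p F θp J
      refine coeff_eq_zero_of_cmp hl.1 hl1 (cc_of_point _) fun i hi => ?_
      rw [hc, ← Lam_apply hl, map_sub, map_sub]
      by_cases hile : i ≤ p ^ J
      · rw [hla i hile, hlb i hile]
        rcases lt_or_eq_of_le hile with h | h
        · rw [ih i h, hb0 i h, sub_zero]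
        · rw [h, hb, monPt_val, PowerSeries.coeff_C_mul_X_pow, if_pos rfl]
          rw [show PowerSeries.coeff (p ^ J) (a.val : PowerSeries K) = digT p F θp J from rfl]
          exact sub_self _
      · have hnot : ∀ m, i ≠ p ^ m := by
          intro m hm
          have h1 : J < m := by
            by_contra hcon
            exact hile (by rw [hm]; exact Nat.pow_le_pow_right hpr.pos (by omega))
          have h2 : m < J + 1 := by
            by_contra hcon
            have : p ^ (J + 1) ≤ p ^ m := Nat.pow_le_pow_right hpr.pos (by omega)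
            omega
          omega
        have := hsupp (J + 1) i hnot
        rw [hc, map_sub, map_sub] at this
        exact this
  refine ⟨hord, fun m => ?_⟩
  have hlt : p ^ m < p ^ (m + 1) := Nat.pow_lt_pow_right hpr.one_lt (Nat.lt_succ_self m)
  have h1 : PowerSeries.coeff (p ^ m) (Lam hl (digPt p F θp (m + 1))) = 0 :=
    (coeff_cmp_low hl.1 hl1 (p_pow_pos p (m + 1)) (hord (m + 1)) (by omega)).trans
      (hord (m + 1) _ hlt)
  rw [hLamJ, map_sub, map_sum, PowerSeries.coeff_C_mul, sub_eq_zero] at h1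
  rw [h1]
  refine Finset.sum_congr rfl fun j hj => ?_
  have hj' := Finset.mem_range.mp hj
  rw [coeff_cmp_mon_pow, if_pos (by omega)]

end log

/-! ### Sums of homomorphisms and the automorphisms `gTR` -/

section gtr

variable {R : Type*} [CommRing R] {F G : FormalGroup R}

theorem isFGHom_fgAdd_dig [G.IsComm] {f g : PowerSeries R} (hf : IsFGHom F G f) (hg : IsFGHom F G g) :
    IsFGHom F G (fgAdd G f g : PowerSeries R) := by
  have hfs := hasSubst_of_cc hf.1
  have hgs := hasSubst_of_cc hg.1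
  refine IsFGHom.of_apply (constantCoeff_fgAdd_of G hf.1 hg.1) ?_
  have hA : PowerSeries.HasSubst (fgAdd F (MvPowerSeries.X 0) (MvPowerSeries.X 1) :
      MvPowerSeries (Fin 2) R) := hasSubst_fgAdd F (hasSubst_X_i 0) (hasSubst_X_i 1)
  rw [psubst_fgAdd G hfs hgs hA, psubst_fgAdd G hfs hgs (hasSubst_X_i 0),
    psubst_fgAdd G hfs hgs (hasSubst_X_i 1), hf.apply (hasSubst_X_i 0) (hasSubst_X_i 1),
    hg.apply (hasSubst_X_i 0) (hasSubst_X_i 1)]
  let pa : G.Point (Fin 2) := ⟨_, hasSubst_psubst hf.1 (hasSubst_X_i 0)⟩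
  let pb : G.Point (Fin 2) := ⟨_, hasSubst_psubst hf.1 (hasSubst_X_i 1)⟩
  let pc : G.Point (Fin 2) := ⟨_, hasSubst_psubst hg.1 (hasSubst_X_i 0)⟩
  let pd : G.Point (Fin 2) := ⟨_, hasSubst_psubst hg.1 (hasSubst_X_i 1)⟩
  exact congrArg Subtype.val (add_add_add_comm pa pb pc pd)

variable (p : ℕ) [Fact p.Prime] (n : ℕ)

lemma t_pow_card (hn : 1 ≤ n) (t : GaloisField p n) : t ^ (p ^ n) = t := by
  have hcardN : Nat.card (GaloisField p n) = p ^ n := GaloisField.card p n (by omega)
  have : Finite (GaloisField p n) := Nat.finite_of_card_ne_zero (by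
    rw [hcardN]; exact pow_ne_zero _ (prime_ne_zero p))
  let _ : Fintype (GaloisField p n) := Fintype.ofFinite _
  have hcard : Fintype.card (GaloisField p n) = p ^ n := by
    rw [← Nat.card_eq_fintype_card]
    exact hcardN
  rw [← hcard]
  exact FiniteField.pow_card t

/-- `X^(p^r)` is an endomorphism of the Honda law. -/
lemma honda_frob_pow_hom (hn : 1 ≤ n) (r : ℕ) :
    IsFGHom (Γ₀ p n) (Γ₀ p n) (PowerSeries.X ^ (p ^ r)) := by
  induction r with
  | zero => simpa using isFGHom_X (Γ₀ p n)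
  | succ r ih =>
    have h1 := honda_frob_hom p n hn (GaloisField p n)
    have h2 := ih.comp h1
    have e : cmp (PowerSeries.X ^ (p ^ r) : PowerSeries (GaloisField p n)) (PowerSeries.X ^ p) =
        PowerSeries.X ^ (p ^ (r + 1)) := by
      rw [cmp, PowerSeries.subst_pow (hasSubst_of_cc h1.1), PowerSeries.subst_X (hasSubst_of_cc h1.1),
        ← pow_mul, pow_succ, mul_comm]
    rwa [e] at h2

/-- `t X^(p^r)` is an endomorphism of the Honda law. -/
lemma honda_mon_hom (hn : 1 ≤ n) (t : GaloisField p n) (r : ℕ) :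
    IsFGHom (Γ₀ p n) (Γ₀ p n) (PowerSeries.C t * PowerSeries.X ^ (p ^ r)) := by
  have h1 := honda_smul_hom p n hn (GaloisField p n) t (t_pow_card p n hn t)
  have h2 := honda_frob_pow_hom p n hn r
  have h3 := h1.comp h2
  have e : cmp (PowerSeries.C t * PowerSeries.X : PowerSeries (GaloisField p n))
      (PowerSeries.X ^ (p ^ r)) = PowerSeries.C t * PowerSeries.X ^ (p ^ r) := by
    rw [cmp, PowerSeries.subst_mul (hasSubst_of_cc h2.1), PowerSeries.subst_X (hasSubst_of_cc h2.1),
      PowerSeries.subst_C]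
    rfl
  rwa [e] at h3

/-- The automorphism `X +_Γ t X^(p^r)` of the Honda law. -/
noncomputable def gTR (t : GaloisField p n) (r : ℕ) : PowerSeries (GaloisField p n) :=
  fgAdd (Γ₀ p n) (PowerSeries.X : PowerSeries (GaloisField p n))
    (PowerSeries.C t * PowerSeries.X ^ (p ^ r) : PowerSeries (GaloisField p n))

theorem gTR_aut (hn : 1 ≤ n) (t : GaloisField p n) {r : ℕ} (hr : 1 ≤ r) :
    IsFGAut (Γ₀ p n) (gTR p n t r) := by
  have hp2 : 2 ≤ p ^ r := (Fact.out : p.Prime).two_le.trans (Nat.le_self_pow (by omega) p)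
  refine ⟨isFGHom_fgAdd_dig (isFGHom_X _) (honda_mon_hom p n hn t r), ?_⟩
  have : PowerSeries.coeff 1 (gTR p n t r) = 1 := by
    rw [gTR, coeff_fgAdd_X_mon _ t (by omega) (by omega), PowerSeries.coeff_one_X]
  rw [this]
  exact isUnit_one

theorem gTR_congX (t : GaloisField p n) (r : ℕ) : CongX (p ^ r) (gTR p n t r) := fun i hi =>
  coeff_fgAdd_X_mon _ t (p_pow_pos p r) hi

/-- `gTR` as a sum of points. -/
lemma gTR_eq_point (t : GaloisField p n) (r : ℕ) :
    gTR p n t r = ((ptX (Γ₀ p n) + monPt p (Γ₀ p n) t r).val : PowerSeries (GaloisField p n)) := rfl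

end gtr

/-! ### The digit equation on a fibre of the Hazewinkel law -/

section main

variable (p : ℕ) [Fact p.Prime] (n : ℕ)

lemma coeff_logAt_pow {K : Type*} [Field K] [CharZero K] (y : Fin (n - 1) → K) (m : ℕ) :
    PowerSeries.coeff (p ^ m) (logAt p n y) = MvPolynomial.aeval y (hazeLogCoeff p n m) := by
  classical
  have hp1 : 1 < p := (Fact.out : p.Prime).one_lt
  unfold logAt
  rw [PowerSeries.coeff_mk, if_pos ⟨m, rfl⟩, Nat.log_pow hp1]

lemma coeff_logAt_one {K : Type*} [Field K] [CharZero K] (y : Fin (n - 1) → K) :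
    PowerSeries.coeff 1 (logAt p n y) = 1 := by
  have := coeff_logAt_pow p n y 0
  rw [pow_zero, hazeLogCoeff_zero, map_one] at this
  exact this

lemma pSupp_logAt {K : Type*} [Field K] [CharZero K] (y : Fin (n - 1) → K) :
    PSupp p (logAt p n y) := by
  classical
  intro i hi
  unfold logAt
  rw [PowerSeries.coeff_mk, if_neg]
  rintro ⟨m, hm⟩
  exact hi m hm

theorem digit_eq {K : Type*} [NontriviallyNormedField K] [IsUltrametricDist K] [CompleteSpace K]
    [CharZero K] (hn : 1 ≤ n) (ψ : LTRing p n →+* K) (h1 : ∀ f, ‖ψ f‖ ≤ 1)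
    (hm : ∀ f, LTRing.residue p n f = 0 → ‖ψ f‖ < 1) (φ : LTRing p n →+* LTRing p n)
    (θ : PowerSeries (LTRing p n)) (hθ : IsFGHom ((hazeE0 p n).map φ) (hazeE0 p n) θ)
    (t : GaloisField p n) (r : ℕ) (hr : 1 ≤ r)
    (hred : PowerSeries.map (LTRing.residue p n) θ = gTR p n t r) :
    ∃ T : ℕ → K, (∀ j, ‖T j‖ ≤ 1) ∧ ‖T 0 - 1‖ < 1 ∧
      ‖T r - ψ (MvPowerSeries.C (WittVector.teichmuller p t))‖ < 1 ∧
      (∀ j, j ≠ 0 → j ≠ r → ‖T j‖ < 1) ∧
      ∀ m, T 0 * MvPolynomial.aeval (fun i => ψ (φ (MvPowerSeries.X i))) (hazeLogCoeff p n m) =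
        ∑ j ∈ Finset.range (m + 1),
          MvPolynomial.aeval (fun i => ψ (MvPowerSeries.X i)) (hazeLogCoeff p n (m - j)) *
            T j ^ (p ^ (m - j)) := by
  classical
  set F := hazeE0 p n with hF
  have hθs : PowerSeries.HasSubst θ := hasSubst_of_cc hθ.1
  set θp : F.Point Unit := ⟨θ, hθs⟩ with hθp
  -- the digits over `E₀`
  set res := LTRing.residue p n with hres
  have hFred : F.map res = Γ₀ p n := hazeE0_red p n hn
  have hpt : ptMap F res θp = ptX (F.map res) + monPt p (F.map res) t r := by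
    refine Subtype.ext ?_
    show PowerSeries.map res θ = fgAdd (F.map res) (PowerSeries.X : PowerSeries (GaloisField p n))
      (PowerSeries.C t * PowerSeries.X ^ (p ^ r) : PowerSeries (GaloisField p n))
    rw [hred, hFred]
    rfl
  obtain ⟨hd0, hdr, hdo⟩ := digit_reduce p (F.map res) t hr
  rw [← hpt, ← digT_map] at hd0 hdr
  have hdo' : ∀ j, j ≠ 0 → j ≠ r → res (digT p F θp j) = 0 := by
    intro j h0 hr
    have := hdo j h0 hr
    rw [← hpt, ← digT_map] at this
    exact this
  have hteich : res (MvPowerSeries.C (WittVector.teichmuller p t)) = t := by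
    simp [hres, LTRing.residue]
  have hcore := digit_core p (F := F.map ψ) (F' := (F.map φ).map ψ)
    (l := logAt p n fun i => ψ (MvPowerSeries.X i))
    (l' := logAt p n fun i => ψ (φ (MvPowerSeries.X i)))
    (θ := PowerSeries.map ψ θ) (logAt_hom p n ψ)
    (by
      have := logAt_hom p n (ψ.comp φ)
      rwa [← fg_map_map] at this)
    (coeff_logAt_one p n _) (coeff_logAt_one p n _) (pSupp_logAt p n _) (pSupp_logAt p n _)
    (hθ.map ψ) (ptMap F ψ θp) rfl
  refine ⟨fun j => ψ (digT p F θp j), fun j => h1 _, ?_, ?_, ?_, fun m => ?_⟩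
  · rw [show ψ (digT p F θp 0) - 1 = ψ (digT p F θp 0 - 1) by simp]
    exact hm _ (by rw [map_sub, hd0, map_one, sub_self])
  · rw [← map_sub]
    exact hm _ (by rw [map_sub, hdr, hteich, sub_self])
  · intro j h0 hr
    exact hm _ (hdo' j h0 hr)
  · have h2 := hcore.2 m
    rw [coeff_logAt_pow] at h2
    have h3 : PowerSeries.coeff 1 (PowerSeries.map ψ θ) = ψ (digT p F θp 0) := by
      rw [PowerSeries.coeff_map]
      congr 1
    rw [h3] at h2
    rw [h2]
    refine Finset.sum_congr rfl fun j _ => ?_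
    rw [coeff_logAt_pow, ← digT_map]

end main

end Crest.Agent.LT
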