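/-
S0351 T13d: the action of deep automorphisms on the branches of the equation `chain_v(T) = 0`, and the
orbit bound of §E5(h),(i).
-/
import Crest.Agent.Lib.LT.CoordDefs
import Crest.Agent.Lib.LT.P2Digits
import Crest.Agent.Lib.LT.Bridge

set_option autoImplicit false
set_option linter.unusedSectionVars false
set_option linter.unusedVariables false
set_option linter.unnecessarySimpa false

namespace Crest.Agent.LT

open MvPowerSeries Filter Topology Crest.LubinTate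

/-! ### Small lemmas -/

section small

variable {K : Type*} [NontriviallyNormedField K] [IsUltrametricDist K] [CompleteSpace K]

lemma exists_bound_lt_one_orb {ι : Type*} [Finite ι] (f : ι → K) (hf : ∀ i, ‖f i‖ < 1) :
    ∃ ρ : ℝ, 0 ≤ ρ ∧ ρ < 1 ∧ ∀ i, ‖f i‖ ≤ ρ := by
  rcases isEmpty_or_nonempty ι with h | h
  · exact ⟨0, le_rfl, one_pos, fun i => (h.false i).elim⟩
  · obtain ⟨i₀, hi₀⟩ := Finite.exists_max (fun i => ‖f i‖)
    exact ⟨‖f i₀‖, norm_nonneg _, hf i₀, hi₀⟩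

/-- A series close to `X` in low degrees moves small points by little. -/
lemma norm_ev_sub_self_le {f : PowerSeries K} (hf : IsInt f) {N' : ℕ} {δ σ : ℝ} (hσ0 : 0 ≤ σ)
    (hσ1 : σ ≤ 1)
    (hδ : ∀ i, i < N' →
      ‖PowerSeries.coeff i f - PowerSeries.coeff i (PowerSeries.X : PowerSeries K)‖ ≤ δ)
    (hσδ : σ ^ N' ≤ δ) {s : K} (hs : ‖s‖ ≤ σ) (hs1 : ‖s‖ < 1) : ‖ev f s - s‖ ≤ δ := by
  have hδ0 : 0 ≤ δ := (pow_nonneg hσ0 _).trans hσδ
  have e : ev f s - s = ev (f - PowerSeries.X) s := by rw [ev_sub hf isInt_X hs1, ev_X]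
  rw [e]
  refine IsUltrametricDist.norm_tsum_le_of_forall_le_of_nonneg hδ0 fun γ => ?_
  rw [norm_mul, coeff_unit, map_sub]
  have hm : ‖mval (fun _ : Unit => s) γ‖ ≤ σ ^ Finsupp.degree γ :=
    norm_mval_le hσ0 (fun _ => hs) γ
  rw [degree_unit] at hm
  by_cases hγ : γ () < N'
  · have h1 : σ ^ γ () ≤ 1 := pow_le_one₀ hσ0 hσ1
    calc _ ≤ δ * 1 := mul_le_mul (hδ _ hγ) (hm.trans h1) (norm_nonneg _) hδ0
      _ = δ := mul_one _
  · have h1 : ‖PowerSeries.coeff (γ ()) f - PowerSeries.coeff (γ ()) (PowerSeries.X : PowerSeries K)‖ ≤ 1 := by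
      refine (norm_sub_le_max_ultra _ _).trans (max_le (hf _) (isInt_X _))
    have h2 : σ ^ γ () ≤ σ ^ N' := pow_le_pow_of_le_one hσ0 hσ1 (by omega)
    calc _ ≤ 1 * σ ^ N' := mul_le_mul h1 (hm.trans h2) (norm_nonneg _) zero_le_one
      _ = σ ^ N' := one_mul _
      _ ≤ δ := hσδ

end small

/-! ### Intertwining the chains -/

namespace TowerData

variable {p : ℕ} [Fact p.Prime] {K : Type*} [NontriviallyNormedField K] [IsUltrametricDist K]
  [CompleteSpace K] [CharP K p] [PerfectRing K p] {h d : ℕ}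

lemma cmp_tw_Vj (D D' : TowerData p K h d) {θ : PowerSeries K}
    (hθ0 : PowerSeries.constantCoeff θ = 0) (hcomm : cmp θ D'.V = cmp D.V (tw p h θ)) (j : ℕ) :
    cmp (tw p (j * h) θ) (D'.Vj j) = cmp (D.Vj j) (tw p ((j + 1) * h) θ) := by
  have := congrArg (PowerSeries.map (fr p (j * h))) hcomm
  rw [map_cmp _ D'.V_hom.1, map_cmp _ (constantCoeff_tw p hθ0 h)] at this
  have e : tw p ((j + 1) * h) θ = PowerSeries.map (fr p (j * h)) (tw p h θ) := by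
    have := tw_tw p (j * h) h θ
    rw [tw] at this
    rw [this]
    congr 2
    ring
  rw [e]
  exact this

/-- The chains at two points are intertwined by the twists of `θ`. -/
lemma chain_θ (D D' : TowerData p K h d) {θ : PowerSeries K} (hθ : IsInt θ)
    (hθ0 : PowerSeries.constantCoeff θ = 0) (hcomm : cmp θ D'.V = cmp D.V (tw p h θ)) (m i : ℕ)
    {s : K} (hs : ‖s‖ < 1) :
    D.chain m i (ev (tw p ((m + i) * h) θ) s) = ev (tw p (m * h) θ) (D'.chain m i s) := by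
  have hθj : ∀ e, IsInt (tw p e θ) := fun e => hθ.tw p e
  have hθj0 : ∀ e, PowerSeries.constantCoeff (tw p e θ) = 0 := fun e => constantCoeff_tw p hθ0 e
  induction i generalizing m with
  | zero => rfl
  | succ i ih =>
    rw [chain_succ, chain_succ, show m + (i + 1) = m + 1 + i by ring, ih (m + 1)]
    have hc := D'.norm_chain_lt (m + 1) i hs
    rw [← ev_cmp (D.Vj_int m) (hθj _) (hθj0 _) hc, ← cmp_tw_Vj D D' hθ0 hcomm m,
      ev_cmp (hθj _) (D'.Vj_int m) (D'.Vj_cc m) hc]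

end TowerData

/-! ### Points of `R` -/

section points

variable {p : ℕ} [Fact p.Prime] {n h d : ℕ} (I : CharPInput p n h d)
  {K : Type*} [NontriviallyNormedField K] [IsUltrametricDist K] [CompleteSpace K] [CharP K p]
  [PerfectRing K p] [Algebra (GaloisField p n) K]

lemma norm_evP_le_of_mem_pow_orb {u : Fin d → K} {hu : ∀ i, ‖u i‖ < 1} {ρ : ℝ} (hρ0 : 0 ≤ ρ) (hρ1 : ρ ≤ 1)
    (huρ : ∀ i, ‖u i‖ ≤ ρ) (c : ℕ) {a : RR p n d} (ha : a ∈ mR p n d ^ c) :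
    ‖evP p n u hu a‖ ≤ ρ ^ c := by
  induction c generalizing a with
  | zero => simpa using norm_evR_le_one (hu := hu) a
  | succ c ih =>
    rw [pow_succ'] at ha
    refine Submodule.mul_induction_on ha (fun x hx y hy => ?_) (fun x y hx hy => ?_)
    · rw [map_mul, norm_mul, pow_succ']
      have hx' : ‖evP p n u hu x‖ ≤ ρ := by
        simpa using norm_evR_le_of_cc hρ0 hρ1 huρ (f := x) (by simpa [RingHom.mem_ker] using hx)
      exact mul_le_mul hx' (ih hy) (norm_nonneg _) hρ0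
    · rw [map_add]
      exact (IsUltrametricDist.norm_add_le_max _ _).trans (max_le hx hy)

/-- Deep automorphisms barely move a point. -/
lemma norm_actPt_sub_le {g : PowerSeries (GaloisField p n)} {u : Fin d → K} {hu : ∀ i, ‖u i‖ < 1} {ρ : ℝ}
    (hρ0 : 0 ≤ ρ) (hρ1 : ρ ≤ 1) (huρ : ∀ i, ‖u i‖ ≤ ρ) {c : ℕ}
    (hc : ∀ a, I.act.φ g a - a ∈ mR p n d ^ c) (i : Fin d) :
    ‖actPt I g u hu i - u i‖ ≤ ρ ^ c := by
  have e : actPt I g u hu i - u i = evP p n u hu (I.act.φ g (MvPowerSeries.X i) - MvPowerSeries.X i) := by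
    rw [map_sub, evR_X]
    rfl
  rw [e]
  exact norm_evP_le_of_mem_pow_orb hρ0 hρ1 huρ c (hc _)

/-- Deep automorphisms have `θ_{g,u}` close to `X`. -/
lemma norm_coeff_θAt_sub_le {g : PowerSeries (GaloisField p n)} {u : Fin d → K} {hu : ∀ i, ‖u i‖ < 1} {ρ : ℝ}
    (hρ0 : 0 ≤ ρ) (hρ1 : ρ ≤ 1) (huρ : ∀ i, ‖u i‖ ≤ ρ) {c N' : ℕ}
    (hc : ∀ i, i < N' → PowerSeries.coeff i (I.act.θ g) -
      PowerSeries.coeff i (PowerSeries.X : PowerSeries (RR p n d)) ∈ mR p n d ^ c)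
    (e : ℕ) {i : ℕ} (hi : i < N') :
    ‖PowerSeries.coeff i (tw p e (θAt I g u hu)) -
      PowerSeries.coeff i (PowerSeries.X : PowerSeries K)‖ ≤ ρ ^ c := by
  classical
  have h1 : PowerSeries.coeff i (θAt I g u hu) - PowerSeries.coeff i (PowerSeries.X : PowerSeries K) =
      evP p n u hu (PowerSeries.coeff i (I.act.θ g) -
        PowerSeries.coeff i (PowerSeries.X : PowerSeries (RR p n d))) := by
    rw [map_sub, θAt, PowerSeries.coeff_map, PowerSeries.coeff_X, PowerSeries.coeff_X]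
    split_ifs <;> simp
  have h2 := norm_evP_le_of_mem_pow_orb (u := u) (hu := hu) hρ0 hρ1 huρ c (hc i hi)
  rw [← h1] at h2
  have h3 : PowerSeries.coeff i (PowerSeries.X : PowerSeries K) =
      (PowerSeries.coeff i (PowerSeries.X : PowerSeries K)) ^ p ^ e := by
    rw [PowerSeries.coeff_X]
    split_ifs
    · simp
    · rw [zero_pow (pow_ne_zero _ (Fact.out : p.Prime).ne_zero)]
  rw [coeff_tw]
  rw [h3, norm_sub_pow_char_pow]
  refine (pow_le_of_le_one (norm_nonneg _) (h2.trans (pow_le_one₀ hρ0 hρ1)) (pow_ne_zero _ (Fact.out : p.Prime).ne_zero)).trans h2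

/-- `θ_{g,u}` commutes with `V`. -/
lemma θAt_comm {g : PowerSeries (GaloisField p n)} (hg : IsFGAut (Γ₀ p n) g) {u : Fin d → K}
    {hu : ∀ i, ‖u i‖ < 1} {ρ ρ' : ℝ} (hρ0 : 0 ≤ ρ) (hρ1 : ρ < 1) (huρ : ∀ i, ‖u i‖ ≤ ρ) (hρ0' : 0 ≤ ρ')
    (hρ1' : ρ' < 1) (huρ' : ∀ i, ‖actPt I g u hu i‖ ≤ ρ') :
    cmp (θAt I g u hu) (pointData I (actPt I g u hu) (norm_actPt_lt I hg) hρ0' hρ1' huρ').V =
      cmp (pointData I u hu hρ0 hρ1 huρ).V (tw p h (θAt I g u hu)) := by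
  have hp1 := (pointData I (actPt I g u hu) (norm_actPt_lt I hg) hρ0' hρ1' huρ').V_p
  have hp2 := (pointData I u hu hρ0 hρ1 huρ).V_p
  exact cmp_V_eq p (θAt_hom I hg)
    ((pointData I (actPt I g u hu) (norm_actPt_lt I hg) hρ0' hρ1' huρ').V_hom.1) hp1 hp2

/-- The action of deep automorphisms on the branches. -/
theorem action_branch {y : Fin d → K} (hy : ∀ i, ‖y i‖ < 1) {j : ℕ} {x : Fin d → K}
    (B : BranchData I y j x) :
    ∃ (r₁ : ℕ) (δ₁ : ℝ), 0 < δ₁ ∧ ∀ g, IsFGAut (Γ₀ p n) g → CongX r₁ g →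
      ∀ (v : Fin d → K) (hv : ∀ i, ‖v i‖ < 1), (∀ i, ‖v i - y i‖ < δ₁) →
        ∀ l, ev (tw p (j * h) (θAt I g v hv)) (B.w l (actPt I g v hv)) = B.w l v := by
  classical
  obtain ⟨ρy, hρy0, hρy1, hρy⟩ := exists_bound_lt_one_orb y hy
  obtain ⟨ρx, hρx0, hρx1, hρx⟩ := exists_bound_lt_one_orb x (fun l => (B.η₀_lt l).2)
  have hd1 : 0 < d := I.d1
  have hη1 : B.η₀ < 1 := (B.η₀_lt ⟨0, hd1⟩).1
  set ρ₀ : ℝ := max (1 / 2) ρy with hρ₀
  have hρ₀0 : 0 ≤ ρ₀ := hρy0.trans (le_max_right _ _)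
  have hρ₀1 : ρ₀ < 1 := max_lt (by norm_num) hρy1
  set σ : ℝ := max ρx B.η₀ with hσ
  have hσ0 : 0 ≤ σ := hρx0.trans (le_max_left _ _)
  have hσ1 : σ < 1 := max_lt hρx1 hη1
  obtain ⟨N', hN'⟩ := exists_pow_lt_of_lt_one B.η₀_pos hσ1
  obtain ⟨c, hc⟩ := exists_pow_lt_of_lt_one (lt_min B.η₀_pos B.r₀_pos) hρ₀1
  have hcη : ρ₀ ^ c ≤ B.η₀ := hc.le.trans (min_le_left _ _)
  have hcr : ρ₀ ^ c < B.r₀ := hc.trans_le (min_le_right _ _)
  obtain ⟨r₁, hr₁⟩ := I.act.deep c N'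
  refine ⟨r₁, min B.r₀ (1 / 2), lt_min B.r₀_pos (by norm_num), fun g hg hgr v hv hvy l => ?_⟩
  obtain ⟨hg1, hg2⟩ := hr₁ g hg hgr
  have hvy1 : ∀ i, ‖v i - y i‖ < B.r₀ := fun i => (hvy i).trans_le (min_le_left _ _)
  have hvy2 : ∀ i, ‖v i - y i‖ < 1 / 2 := fun i => (hvy i).trans_le (min_le_right _ _)
  have hvρ : ∀ i, ‖v i‖ ≤ ρ₀ := fun i => by
    have e : v i = (v i - y i) + y i := by ring
    rw [e]
    exact (IsUltrametricDist.norm_add_le_max _ _).trans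
      (max_le_max (hvy2 i).le (hρy i))
  set u : Fin d → K := actPt I g v hv with hu
  have hu1 : ∀ i, ‖u i‖ < 1 := norm_actPt_lt I hg
  have huρ : ∀ i, ‖u i‖ ≤ ρ₀ := norm_actPt_le I hg hρ₀0 hρ₀1.le hvρ
  have huy : ∀ i, ‖u i - y i‖ < B.r₀ := fun i => by
    have e : u i - y i = (u i - v i) + (v i - y i) := by ring
    rw [e]
    refine (IsUltrametricDist.norm_add_le_max _ _).trans_lt (max_lt ?_ (hvy1 i))
    exact (norm_actPt_sub_le I hρ₀0 hρ₀1.le hvρ hg1 i).trans_lt hcr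
  set s : K := B.w l u with hs
  have hsx : ‖s - x l‖ ≤ B.η₀ := B.w_close l u huy
  have hsσ : ‖s‖ ≤ σ := by
    have e : s = (s - x l) + x l := by ring
    rw [e]
    refine (IsUltrametricDist.norm_add_le_max _ _).trans (max_le ?_ ?_)
    · exact hsx.trans (le_max_right _ _)
    · exact (hρx l).trans (le_max_left _ _)
  have hs1 : ‖s‖ < 1 := hsσ.trans_lt hσ1
  set θ : PowerSeries K := θAt I g v hv with hθ
  have hθi : IsInt θ := θAt_int I g
  have hθ0 : PowerSeries.constantCoeff θ = 0 := θAt_cc I hg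
  set t : K := ev (tw p (j * h) θ) s with ht
  have ht1 : ‖t‖ < 1 := norm_ev_lt_one (hθi.tw p _) (constantCoeff_tw p hθ0 _) hs1
  have hts : ‖t - s‖ ≤ B.η₀ := by
    refine norm_ev_sub_self_le (hθi.tw p _) (N' := N') hσ0 hσ1.le (fun i hi => ?_) hN'.le hsσ hs1
    exact (norm_coeff_θAt_sub_le I hρ₀0 hρ₀1.le hvρ hg2 _ hi).trans hcη
  have htx : ‖t - x l‖ ≤ B.η₀ := by
    have e : t - x l = (t - s) + (s - x l) := by ring
    rw [e]
    exact (IsUltrametricDist.norm_add_le_max _ _).trans (max_le hts hsx)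
  have hchain : chT I v 0 j t = 0 := by
    rw [chT_eq (hv := hv) (hρ0 := hρ₀0) (hρ1 := hρ₀1) (hvρ := hvρ) I 0 j ht1]
    have h1 := TowerData.chain_θ (pointData I v hv hρ₀0 hρ₀1 hvρ) (pointData I u hu1 hρ₀0 hρ₀1 huρ)
      hθi hθ0 (θAt_comm I hg hρ₀0 hρ₀1 hvρ hρ₀0 hρ₀1 huρ) 0 j hs1
    rw [zero_add] at h1
    rw [ht, h1, ← chT_eq (hv := hu1) (hρ0 := hρ₀0) (hρ1 := hρ₀1) (hvρ := huρ) I 0 j hs1,
      B.w_root l u huy]
    exact ev_zero_of_cc (constantCoeff_tw p hθ0 _)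
  exact B.w_uniq l v t hvy1 htx hchain

end points

/-! ### Orbit bound -/

section laws

variable {K : Type*} [NontriviallyNormedField K] [IsUltrametricDist K] [CompleteSpace K]
  {F G : FormalGroup K}

lemma norm_ptAdd_sub_left_le (hF : IsIntLaw F) {x τ : K} (hx : ‖x‖ < 1) (hτ : ‖τ‖ < 1) :
    ‖ptAdd F x τ - x‖ ≤ ‖τ‖ := by
  have h0 : ‖(0 : K)‖ < 1 := by simp
  have := lip_ptAdd hF hx hτ hx h0
  rw [ptAdd_zero hF hx] at this
  simpa using this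

lemma norm_ptAdd_sub_right_le (hF : IsIntLaw F) {x τ : K} (hx : ‖x‖ < 1) (hτ : ‖τ‖ < 1) :
    ‖ptAdd F x τ - τ‖ ≤ ‖x‖ := by
  have h0 : ‖(0 : K)‖ < 1 := by simp
  have := lip_ptAdd hF hx hτ h0 hτ
  rw [zero_ptAdd hF hτ] at this
  simpa using this

lemma norm_ptSub_le_sub (hF : IsIntLaw F) {a a' : K} (ha : ‖a‖ < 1) (ha' : ‖a'‖ < 1) :
    ‖ptSub F a a'‖ ≤ ‖a - a'‖ := by
  have hn := norm_ptNeg_lt hF ha'
  have := lip_ptAdd hF ha hn ha' hn
  rw [ptAdd_ptNeg hF ha'] at this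
  simpa [ptSub] using this

lemma ptSub_eq_add_of [F.IsComm] (hF : IsIntLaw F) {a a' x τ : K} (ha : ‖a‖ < 1) (ha' : ‖a'‖ < 1)
    (hx : ‖x‖ < 1) (hτ : ‖τ‖ < 1) (h : a' = ptAdd F x τ) :
    ptSub F a x = ptAdd F (ptSub F a a') τ := by
  have hE := norm_ptSub_lt hF ha ha'
  have e : a = ptAdd F (ptAdd F (ptSub F a a') τ) x := by
    rw [ptAdd_assoc hF hE hτ hx, ptAdd_comm hF hτ hx, ← h, ptSub_add hF ha ha']
  conv_lhs => rw [e]
  rw [add_ptSub hF (norm_ptAdd_lt hF hE hτ) hx]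

end laws

namespace TowerData

variable {p : ℕ} [Fact p.Prime] {K : Type*} [NontriviallyNormedField K] [IsUltrametricDist K]
  [CompleteSpace K] [CharP K p] [PerfectRing K p] {h d : ℕ}

lemma norm_chain_le_orb (D : TowerData p K h d) (j i : ℕ) {x : K} (hx : ‖x‖ < 1) :
    ‖D.chain j i x‖ ≤ ‖x‖ := by
  induction i generalizing j with
  | zero => exact le_rfl
  | succ i ih =>
    rw [chain_succ]
    exact (norm_ev_le (D.Vj_int j) (D.Vj_cc j) (D.norm_chain_lt _ _ hx).le).trans (ih (j + 1))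

/-- Continuity of `ϖ_j` at the origin. -/
lemma exists_ϖ_small (D : TowerData p K h d) (j : ℕ) {ε : ℝ} (hε : 0 < ε) :
    ∃ δ : ℝ, 0 < δ ∧ ∀ T : K, ‖T‖ < δ → ‖D.ϖ j T‖ < ε := by
  set ε' : ℝ := min ε 1 with hε'
  have hε'0 : 0 < ε' := lt_min hε one_pos
  have hε'1 : ε' ≤ 1 := min_le_right _ _
  have h1 : ∀ᶠ J in atTop, D.r J < ε' := D.tendsto_r.eventually (gt_mem_nhds hε'0)
  obtain ⟨J, hJr, hJj⟩ := (h1.and (eventually_ge_atTop j)).exists
  refine ⟨ε' ^ p ^ (d * J), by positivity, fun T hT => ?_⟩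
  have hT1 : ‖T‖ < 1 := hT.trans_le (pow_le_one₀ hε'0.le hε'1)
  have hτ : ‖D.τ J T‖ < ε' := by
    have e := D.τ_pow J T
    rw [← e, norm_pow] at hT
    exact lt_of_pow_lt_pow_left₀ _ hε'0.le hT
  have hϖ : ‖D.ϖ J T‖ < ε' := by
    have e : D.ϖ J T = (D.ϖ J T - D.τ J T) + D.τ J T := by ring
    rw [e]
    exact (IsUltrametricDist.norm_add_le_max _ _).trans_lt
      (max_lt ((D.norm_ϖ_sub_τ J hT1).trans_lt hJr) hτ)
  have e : D.ϖ j T = D.chain j (J - j) (D.ϖ (j + (J - j)) T) := (D.chain_ϖ j (J - j) hT1).symm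
  rw [Nat.add_sub_cancel' hJj] at e
  rw [e]
  exact (D.norm_chain_le_orb _ _ (D.norm_ϖ_lt J hT1)).trans_lt (hϖ.trans_le (min_le_left _ _))

end TowerData

section orbit

variable {p : ℕ} [Fact p.Prime] {n h d : ℕ} (I : CharPInput p n h d)
  {K : Type*} [NontriviallyNormedField K] [IsUltrametricDist K] [CompleteSpace K] [CharP K p]
  [PerfectRing K p] [Algebra (GaloisField p n) K]

/-- Solutions of `T^q = T` lie in `k`. -/
lemma exists_eq_algebraMap_of_pow_eq (hn : 1 ≤ n) {t : K} (ht : t ^ p ^ n = t) :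
    ∃ t₀ : GaloisField p n, algebraMap (GaloisField p n) K t₀ = t := by
  classical
  have hn0 : n ≠ 0 := by omega
  have := Fintype.ofFinite (GaloisField p n)
  have hp1 : 1 < p := (Fact.out : p.Prime).one_lt
  set P : Polynomial K := Polynomial.X ^ p ^ n - Polynomial.X with hP
  have hP0 : P ≠ 0 := FiniteField.X_pow_card_pow_sub_X_ne_zero K hn0 hp1
  have hdeg : P.natDegree = p ^ n := FiniteField.X_pow_card_pow_sub_X_natDegree_eq K hn0 hp1
  set S : Finset K := Finset.univ.image (algebraMap (GaloisField p n) K) with hS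
  have hcard : S.card = p ^ n := by
    rw [hS, Finset.card_image_of_injective _ (algebraMap (GaloisField p n) K).injective,
      Finset.card_univ, ← Nat.card_eq_fintype_card, GaloisField.card p n hn0]
  have hsub : S ⊆ P.roots.toFinset := by
    intro a ha
    obtain ⟨b, -, rfl⟩ := Finset.mem_image.1 ha
    rw [Multiset.mem_toFinset, Polynomial.mem_roots hP0, Polynomial.IsRoot, hP]
    simp only [Polynomial.eval_sub, Polynomial.eval_pow, Polynomial.eval_X]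
    rw [← map_pow, galois_pow hn0, sub_self]
  have hle : P.roots.toFinset.card ≤ S.card := by
    rw [hcard, ← hdeg]
    exact (Multiset.toFinset_card_le _).trans (Polynomial.card_roots' P)
  have heq := Finset.eq_of_subset_of_card_le hsub hle
  have hmem : t ∈ P.roots.toFinset := by
    rw [Multiset.mem_toFinset, Polynomial.mem_roots hP0, Polynomial.IsRoot, hP]
    simp only [Polynomial.eval_sub, Polynomial.eval_pow, Polynomial.eval_X]
    rw [ht, sub_self]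
  rw [← heq] at hmem
  obtain ⟨b, -, hb⟩ := Finset.mem_image.1 hmem
  exact ⟨b, hb⟩

lemma congX_sInv {R : Type*} [CommRing R] {M : ℕ} {f : PowerSeries R} (hf : CongX M f)
    (h0 : PowerSeries.constantCoeff f = 0) (hu : IsUnit (PowerSeries.coeff 1 f)) :
    CongX M (sInv f hu) := by
  have h1 := dvd_cmp_sub_of_congX hf (cc_sInv f hu)
  rw [cmp_sInv f h0 hu] at h1
  exact congX_of_dvd ((dvd_sub_comm).1 h1)

/-- `gTR` on points of `K`. -/
lemma ev_gK_gTR (t₀ : GaloisField p n) (r : ℕ) {x : K} (hx : ‖x‖ < 1) :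
    ev (gK (K := K) (gTR p n t₀ r)) x =
      ptAdd (honda p n K) x (algebraMap (GaloisField p n) K t₀ * x ^ p ^ r) := by
  have hX : PowerSeries.HasSubst (PowerSeries.X : PowerSeries (GaloisField p n)) :=
    hasSubst_of_cc PowerSeries.constantCoeff_X
  have hp2 : p ^ r ≠ 0 := pow_ne_zero _ (Fact.out : p.Prime).ne_zero
  have hm0 : PowerSeries.constantCoeff
      (PowerSeries.C t₀ * PowerSeries.X ^ p ^ r : PowerSeries (GaloisField p n)) = 0 := by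
    rw [map_mul, map_pow, PowerSeries.constantCoeff_X, zero_pow hp2, mul_zero]
  have hm : PowerSeries.HasSubst
      (PowerSeries.C t₀ * PowerSeries.X ^ p ^ r : PowerSeries (GaloisField p n)) := hasSubst_of_cc hm0
  have e : gK (K := K) (gTR p n t₀ r) =
      fgAdd (honda p n K) (PowerSeries.X : PowerSeries K)
        (PowerSeries.C (algebraMap (GaloisField p n) K t₀) * PowerSeries.X ^ p ^ r : PowerSeries K) := by
    have h1 := map_fgAdd (Γ₀ p n) (algebraMap (GaloisField p n) K) hX hm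
    rw [honda_map] at h1
    refine h1.trans ?_
    congr 1
    · exact PowerSeries.map_X _
    · show PowerSeries.map _ _ = _
      simp
  have ht : ‖algebraMap (GaloisField p n) K t₀‖ ≤ 1 := norm_algebraMap_le_one _
  have hI : IsInt (PowerSeries.C (algebraMap (GaloisField p n) K t₀) * PowerSeries.X ^ p ^ r : PowerSeries K) :=
    (isInt_C ht).mul (isInt_X_pow _)
  have hI0 : PowerSeries.constantCoeff
      (PowerSeries.C (algebraMap (GaloisField p n) K t₀) * PowerSeries.X ^ p ^ r : PowerSeries K) = 0 := by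
    rw [map_mul, map_pow, PowerSeries.constantCoeff_X, zero_pow hp2, mul_zero]
  rw [e]
  have h3 := evalS_fgAdd (τ := Unit) (F := honda p n K) (isIntLaw_honda n) isInt_X.isB hI.isB
    PowerSeries.constantCoeff_X hI0 (z := fun _ => x) (fun _ => hx)
  rw [show evalS (σ := Unit) PowerSeries.X (fun _ => x) = x from ev_X x] at h3
  have h4 : evalS (σ := Unit) (PowerSeries.C (algebraMap (GaloisField p n) K t₀) * PowerSeries.X ^ p ^ r :
      PowerSeries K) (fun _ => x) = algebraMap (GaloisField p n) K t₀ * x ^ p ^ r := by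
    show ev _ x = _
    rw [ev_mul (isInt_C ht) (isInt_X_pow _) hx, ev_C, ev_X_pow hx]
  rw [h4] at h3
  exact h3

/-- The inverse point. -/
lemma actPt_inverse {g g' : PowerSeries (GaloisField p n)} (hg : IsFGAut (Γ₀ p n) g)
    (hg' : IsFGAut (Γ₀ p n) g') (hc : cmp g g' = PowerSeries.X) {y : Fin d → K} (hy : ∀ i, ‖y i‖ < 1) :
    actPt I g' (actPt I g y hy) (norm_actPt_lt I hg) = y := by
  funext i
  have h1 : evP p n (actPt I g y hy) (norm_actPt_lt I hg) (I.act.φ g' (MvPowerSeries.X i)) =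
      evP p n y hy (I.act.φ g (I.act.φ g' (MvPowerSeries.X i))) := by
    rw [← evP_comp_act I hg]
    rfl
  have h2 : I.act.φ g (I.act.φ g' (MvPowerSeries.X i)) = MvPowerSeries.X i := by
    have h3 := I.act.comp g' g hg' hg
    rw [hc, I.act.one] at h3
    exact (RingHom.congr_fun h3 _).symm
  show evP p n (actPt I g y hy) (norm_actPt_lt I hg) (I.act.φ g' (MvPowerSeries.X i)) = y i
  rw [h1, h2, evR_X]

lemma ϖ_pointData_congr {u u' : Fin d → K} (e : u = u') {hu : ∀ i, ‖u i‖ < 1} {hu' : ∀ i, ‖u' i‖ < 1}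
    {ρ : ℝ} (hρ0 : 0 ≤ ρ) (hρ1 : ρ < 1) {hr : ∀ i, ‖u i‖ ≤ ρ} {hr' : ∀ i, ‖u' i‖ ≤ ρ} (j : ℕ) (T : K) :
    (pointData I u hu hρ0 hρ1 hr).ϖ j T = (pointData I u' hu' hρ0 hρ1 hr').ϖ j T := by
  subst e
  rfl

/-- The orbit bound. -/
theorem orbit_bound {y : Fin d → K} (hy : ∀ i, ‖y i‖ < 1) {ρ : ℝ} (hρ0 : 0 ≤ ρ) (hρ1 : ρ < 1)
    (hyρ : ∀ i, ‖y i‖ ≤ ρ) {j : ℕ} (hj : 1 ≤ j) {z : Fin d → K} (hz : ∀ l, ‖z l‖ < 1)
    (hz0 : ∀ l, (pointData I y hy hρ0 hρ1 hyρ).ϖ 0 (z l) = 0)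
    (B : BranchData I y j (fun l => (pointData I y hy hρ0 hρ1 hyρ).ϖ j (z l)))
    {ξ : PowerSeries K} (hξ0 : PowerSeries.constantCoeff ξ = 0) (hξ1 : IsInt ξ)
    (hξ : IsFGHom (I.F.map (evP p n y hy)) (honda p h K) ξ) {CW εW : ℝ} (hCW : 1 ≤ CW) (hεW : 0 < εW)
    (hW : ∀ v : Fin d → K, (∀ i, ‖v i - y i‖ < εW) → ∀ A : ℝ,
      (∀ l, ‖ev (tw p (j * h) ξ) (ptSub ((pointData I y hy hρ0 hρ1 hyρ).Fj j) (B.w l v)
        ((pointData I y hy hρ0 hρ1 hyρ).ϖ j (z l)))‖ ≤ A) → ∀ i, ‖v i - y i‖ ≤ CW * A)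
    (r₀ : ℕ) (t : K) (ht0 : t ≠ 0) (htq : t ^ p ^ (h + d) = t) :
    ∀ᶠ r in atTop, ∃ g, IsFGAut (Γ₀ p n) g ∧ CongX r₀ g ∧ ∀ A : ℝ,
      (∀ l, ‖ev (tw p (j * h) ξ) ((pointData I y hy hρ0 hρ1 hyρ).ϖ j (t * z l ^ p ^ r))‖ ≤ A) →
      (∀ l, ‖ev (tw p (j * h) ξ) (ptSub ((pointData I y hy hρ0 hρ1 hyρ).Fj j) (B.w l (actPt I g y hy))
        ((pointData I y hy hρ0 hρ1 hyρ).ϖ j (z l)))‖ ≤ A) ∧
      ∀ l, ‖ev (tw p (j * h) ξ) (ptSub ((pointData I y hy hρ0 hρ1 hyρ).Fj j) (B.w l (actPt I g y hy))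
        ((pointData I y hy hρ0 hρ1 hyρ).ϖ j (z l))) -
        ev (tw p (j * h) ξ) ((pointData I y hy hρ0 hρ1 hyρ).ϖ j (t * z l ^ p ^ r))‖ ≤
          (CW * A) ^ p ^ (j * h) := by
  classical
  have hh1 : 1 ≤ h := I.h1
  have hn1 : 1 ≤ n := by have := I.hd; omega
  have hd1 : 0 < d := I.d1
  have : Nonempty (Fin d) := ⟨⟨0, hd1⟩⟩
  let D := pointData I y hy hρ0 hρ1 hyρ
  set N : ℕ := p ^ (j * h) with hN
  have hp2 : 2 ≤ p := (Fact.out : p.Prime).two_le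
  have hN2 : 2 ≤ N := by
    have h1 : j * h ≠ 0 := by positivity
    exact hp2.trans (Nat.le_self_pow h1 p)
  rw [I.hd] at htq
  obtain ⟨t₀, ht₀⟩ := exists_eq_algebraMap_of_pow_eq hn1 htq
  have ht1 : ‖t‖ ≤ 1 := ht₀ ▸ norm_algebraMap_le_one t₀
  -- thresholds
  have hCW0 : 0 < CW := by linarith
  have hCWN : 0 < CW ^ N := by positivity
  have hCWN1 : 1 ≤ CW ^ N := one_le_pow₀ hCW
  have hCWle : CW ≤ CW ^ N := le_self_pow₀ hCW (by omega)
  set μ : ℝ := (CW ^ N)⁻¹ with hμ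
  have hμ0 : 0 < μ := inv_pos.2 hCWN
  have hμ1 : μ ≤ 1 := inv_le_one_of_one_le₀ hCWN1
  have hμC : ∀ M : ℝ, M < μ → CW ^ N * M < 1 := fun M hM => by
    have := mul_lt_mul_of_pos_left hM hCWN
    rwa [hμ, mul_inv_cancel₀ hCWN.ne'] at this
  have hkey : ∀ M : ℝ, 0 < M → M < μ → (CW * M) ^ N < M := by
    intro M hM0 hMμ
    have hM1 : M ≤ 1 := hMμ.le.trans hμ1
    have h1 : M ^ N ≤ M ^ 2 := pow_le_pow_of_le_one hM0.le hM1 hN2
    calc (CW * M) ^ N = CW ^ N * M ^ N := mul_pow _ _ _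
      _ ≤ CW ^ N * M ^ 2 := mul_le_mul_of_nonneg_left h1 hCWN.le
      _ = (CW ^ N * M) * M := by ring
      _ < 1 * M := mul_lt_mul_of_pos_right (hμC M hMμ) hM0
      _ = M := one_mul _
  set δ₀ : ℝ := min (min B.r₀ εW) (min B.η₀ μ) with hδ₀
  have hδ₀0 : 0 < δ₀ := lt_min (lt_min B.r₀_pos hεW) (lt_min B.η₀_pos hμ0)
  have hδ₀r : δ₀ ≤ B.r₀ := (min_le_left _ _).trans (min_le_left _ _)
  have hδ₀ε : δ₀ ≤ εW := (min_le_left _ _).trans (min_le_right _ _)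
  have hδ₀η : δ₀ ≤ B.η₀ := (min_le_right _ _).trans (min_le_left _ _)
  have hδ₀μ : δ₀ ≤ μ := (min_le_right _ _).trans (min_le_right _ _)
  obtain ⟨c, hc⟩ := exists_pow_lt_of_lt_one hδ₀0 hρ1
  have hδ₁0 : 0 ≤ ρ ^ c := pow_nonneg hρ0 c
  have hδ₁1 : ρ ^ c ≤ 1 := pow_le_one₀ hρ0 hρ1.le
  obtain ⟨M₁, hM₁⟩ := I.act.deep c 0
  obtain ⟨δτ, hδτ0, hδτ⟩ := D.exists_ϖ_small j (lt_min B.η₀_pos hμ0)
  obtain ⟨ρz, hρz0, hρz1, hρz⟩ := exists_bound_lt_one_orb z hz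
  have hev : ∀ᶠ r : ℕ in atTop, ρz ^ r < δτ :=
    (tendsto_pow_atTop_nhds_zero_of_lt_one hρz0 hρz1).eventually (gt_mem_nhds hδτ0)
  filter_upwards [hev, eventually_ge_atTop (max 1 (max r₀ M₁))] with r hr hrR
  have hr1 : 1 ≤ r := (le_max_left _ _).trans hrR
  have hrr₀ : r₀ ≤ r := ((le_max_left _ _).trans (le_max_right _ _)).trans hrR
  have hrM₁ : M₁ ≤ r := ((le_max_right _ _).trans (le_max_right _ _)).trans hrR
  have hrp : r ≤ p ^ r := (Nat.lt_pow_self (Fact.out : p.Prime).one_lt).le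
  -- the automorphisms
  set h' : PowerSeries (GaloisField p n) := gTR p n t₀ r with hh'
  have hh'a : IsFGAut (Γ₀ p n) h' := gTR_aut p n hn1 t₀ hr1
  set g : PowerSeries (GaloisField p n) := sInv h' hh'a.2 with hg
  have hga : IsFGAut (Γ₀ p n) g := hh'a.inv
  have hgc : CongX (p ^ r) g := congX_sInv (gTR_congX p n t₀ r) hh'a.1.1 hh'a.2
  have hgh : cmp g h' = PowerSeries.X := cmp_sInv' h' hh'a.1.1 hh'a.2
  have hgr₀ : CongX r₀ g := fun i hi => hgc i (hi.trans_le (hrr₀.trans hrp))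
  have hgM₁ : CongX M₁ g := fun i hi => hgc i (hi.trans_le (hrM₁.trans hrp))
  refine ⟨g, hga, hgr₀, fun A hA => ?_⟩
  -- the point
  set u : Fin d → K := actPt I g y hy with hu
  have hu1 : ∀ i, ‖u i‖ < 1 := norm_actPt_lt I hga
  have huρ : ∀ i, ‖u i‖ ≤ ρ := norm_actPt_le I hga hρ0 hρ1.le hyρ
  have huy : ∀ i, ‖u i - y i‖ ≤ ρ ^ c := fun i =>
    norm_actPt_sub_le I hρ0 hρ1.le hyρ (hM₁ g hga hgM₁).1 i
  set Du := pointData I u hu1 hρ0 hρ1 huρ with hDu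
  have hact : actPt I h' u hu1 = y := actPt_inverse I hga hh'a hgh hy
  have hact1 : ∀ i, ‖actPt I h' u hu1 i‖ ≤ ρ := fun i => by rw [hact]; exact hyρ i
  -- the images of the torsion points
  set e : Fin d → K := fun l => ev (gK (K := K) h') (z l) with he
  have he1 : ∀ l, ‖e l‖ < 1 := fun l => norm_ev_lt_one (gK_int h')
    (constantCoeff_map' _ hh'a.1.1) (hz l)
  set T : Fin d → K := fun l => t * z l ^ p ^ r with hT
  have hT1 : ∀ l, ‖T l‖ < δτ := fun l => by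
    have h1 : ‖z l‖ ^ p ^ r ≤ ρz ^ r :=
      (pow_le_pow_left₀ (norm_nonneg _) (hρz l) _).trans (pow_le_pow_of_le_one hρz0 hρz1.le hrp)
    rw [hT]
    simp only [norm_mul, norm_pow]
    calc ‖t‖ * ‖z l‖ ^ p ^ r ≤ 1 * ρz ^ r := mul_le_mul ht1 h1 (by positivity) zero_le_one
      _ = ρz ^ r := one_mul _
      _ < δτ := hr
  have hT1' : ∀ l, ‖T l‖ < 1 := fun l => by
    rw [hT]
    simp only [norm_mul, norm_pow]
    have h1 : ‖z l‖ ^ p ^ r < 1 := pow_lt_one₀ (norm_nonneg _) (hz l) (pow_ne_zero _ (by omega))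
    calc ‖t‖ * ‖z l‖ ^ p ^ r ≤ 1 * ‖z l‖ ^ p ^ r := mul_le_mul_of_nonneg_right ht1 (by positivity)
      _ = ‖z l‖ ^ p ^ r := one_mul _
      _ < 1 := h1
  have heT : ∀ l, e l = ptAdd D.Γ (z l) (T l) := fun l => by
    have := ev_gK_gTR (K := K) t₀ r (hz l)
    rw [ht₀] at this
    exact this
  have hϖ0 : ∀ l, Du.ϖ 0 (e l) = 0 := fun l => by
    have h1 := ev_θAt_ϖ I (u := u) (hu := hu1) hh'a hρ0 hρ1 huρ hρ0 hρ1 hact1 0 (hz l)
    rw [ϖ_pointData_congr I hact hρ0 hρ1 (hu' := hy) (hr' := hyρ), hz0 l,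
      ev_zero_of_cc (constantCoeff_tw p (θAt_cc I hh'a) _)] at h1
    exact h1.symm
  set F := D.Fj j with hF
  have hFi : IsIntLaw F := D.Fj_int j
  have hFc : F.IsComm := D.Fj_comm j
  set a : Fin d → K := fun l => Du.ϖ j (e l) with ha
  set a' : Fin d → K := fun l => D.ϖ j (e l) with ha'
  let x : Fin d → K := fun l => D.ϖ j (z l)
  set τ' : Fin d → K := fun l => D.ϖ j (T l) with hτ'
  have ha1 : ∀ l, ‖a l‖ < 1 := fun l => Du.norm_ϖ_lt j (he1 l)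
  have ha'1 : ∀ l, ‖a' l‖ < 1 := fun l => D.norm_ϖ_lt j (he1 l)
  have hx1 : ∀ l, ‖x l‖ < 1 := fun l => D.norm_ϖ_lt j (hz l)
  have hτ'1 : ∀ l, ‖τ' l‖ < 1 := fun l => D.norm_ϖ_lt j (hT1' l)
  have hτ'small : ∀ l, ‖τ' l‖ < min B.η₀ μ := fun l => hδτ _ (hT1 l)
  have ha'add : ∀ l, a' l = ptAdd F (x l) (τ' l) := fun l => by
    show D.ϖ j (e l) = _
    rw [heT l]
    exact D.ϖ_ptAdd j (hz l) (hT1' l)
  have hcompare : ∀ δ : ℝ, 0 ≤ δ → δ ≤ 1 → (∀ i, ‖u i - y i‖ ≤ δ) → ∀ l, ‖a l - a' l‖ ≤ δ ^ N :=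
    fun δ h0 h1 h2 l => D.norm_ϖ_sub_ϖ Du h0 h1 (fun i => norm_coeff_V_sub I u y hu1 hy h0 h2 i) j (he1 l)
  -- the branch
  have hpow : ‖(ρ ^ c : ℝ)‖ ≥ 0 := norm_nonneg _
  have hδ₁N : (ρ ^ c) ^ N ≤ ρ ^ c := pow_le_of_le_one hδ₁0 hδ₁1 (by omega)
  have hδ₁δ₀ : (ρ ^ c) ^ N < δ₀ := hδ₁N.trans_lt hc
  have hroot : ∀ l, chT I u 0 j (a l) = 0 := fun l => by
    rw [chT_eq (hv := hu1) (hρ0 := hρ0) (hρ1 := hρ1) (hvρ := huρ) I 0 j (ha1 l)]
    have h1 := Du.chain_ϖ 0 j (he1 l)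
    rw [zero_add] at h1
    rw [← hϖ0 l, ← h1]
  have hwa : ∀ l, B.w l u = a l := fun l => by
    refine (B.w_uniq l u (a l) (fun i => (huy i).trans_lt (hc.trans_le hδ₀r)) ?_ (hroot l)).symm
    show ‖a l - x l‖ ≤ B.η₀
    have e1 : a l - x l = (a l - a' l) + (a' l - x l) := by ring
    rw [e1]
    refine (IsUltrametricDist.norm_add_le_max _ _).trans (max_le ?_ ?_)
    · exact (hcompare _ hδ₁0 hδ₁1 huy l).trans (hδ₁δ₀.le.trans hδ₀η)
    · rw [ha'add l]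
      exact (norm_ptAdd_sub_left_le hFi (hx1 l) (hτ'1 l)).trans
        ((hτ'small l).le.trans (min_le_left _ _))
  -- the homomorphism
  set Ξ : PowerSeries K := tw p (j * h) ξ with hΞ
  have hΞi : IsInt Ξ := hξ1.tw p _
  have hΞ0 : PowerSeries.constantCoeff Ξ = 0 := constantCoeff_tw p hξ0 _
  set G : FormalGroup K := twL p (j * h) (honda p h K) with hG
  have hGi : IsIntLaw G := (isIntLaw_honda h).tw p _
  have hΞh : IsFGHom F G Ξ := hξ.map (fr p (j * h))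
  set ω : Fin d → K := fun l => ev Ξ (ptSub F (B.w l u) (x l)) with hω
  set Θ : Fin d → K := fun l => ev Ξ (τ' l) with hΘ
  have hΘ1 : ∀ l, ‖Θ l‖ < 1 := fun l => norm_ev_lt_one hΞi hΞ0 (hτ'1 l)
  have hΘsmall : ∀ l, ‖Θ l‖ < μ := fun l =>
    (norm_ev_le hΞi hΞ0 (hτ'1 l).le).trans_lt ((hτ'small l).trans_le (min_le_right _ _))
  have hE1 : ∀ l, ‖ptSub F (a l) (a' l)‖ < 1 := fun l => norm_ptSub_lt hFi (ha1 l) (ha'1 l)
  have hωeq : ∀ l, ω l = ptAdd G (ev Ξ (ptSub F (a l) (a' l))) (Θ l) := fun l => by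
    show ev Ξ (ptSub F (B.w l u) (x l)) = _
    rw [hwa l, ptSub_eq_add_of hFi (ha1 l) (ha'1 l) (hx1 l) (hτ'1 l) (ha'add l),
      ev_ptAdd hΞh hΞi hFi hGi (hE1 l) (hτ'1 l)]
  have hωΘ : ∀ δ : ℝ, 0 ≤ δ → δ ≤ 1 → (∀ i, ‖u i - y i‖ ≤ δ) → ∀ l, ‖ω l - Θ l‖ ≤ δ ^ N := by
    intro δ h0 h1 h2 l
    rw [hωeq l]
    refine (norm_ptAdd_sub_right_le hGi (norm_ev_lt_one hΞi hΞ0 (hE1 l)) (hΘ1 l)).trans ?_
    refine (norm_ev_le hΞi hΞ0 (hE1 l).le).trans ?_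
    exact (norm_ptSub_le_sub hFi (ha1 l) (ha'1 l)).trans (hcompare δ h0 h1 h2 l)
  have hωsmall : ∀ l, ‖ω l‖ < μ := fun l => by
    have e1 : ω l = (ω l - Θ l) + Θ l := by ring
    rw [e1]
    refine (IsUltrametricDist.norm_add_le_max _ _).trans_lt (max_lt ?_ (hΘsmall l))
    exact (hωΘ _ hδ₁0 hδ₁1 huy l).trans_lt (hδ₁δ₀.trans_le hδ₀μ)
  -- the maximum
  obtain ⟨l₀, hl₀⟩ := Finite.exists_max (fun l => ‖ω l‖)
  set M : ℝ := ‖ω l₀‖ with hM
  have hM0 : 0 ≤ M := norm_nonneg _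
  have hMμ : M < μ := hωsmall l₀
  have huM : ∀ i, ‖u i - y i‖ ≤ CW * M :=
    hW u (fun i => (huy i).trans_lt (hc.trans_le hδ₀ε)) M hl₀
  have hCM1 : CW * M ≤ 1 := by
    have h1 := hμC M hMμ
    have h2 : CW * M ≤ CW ^ N * M := mul_le_mul_of_nonneg_right hCWle hM0
    linarith
  have hCM0 : 0 ≤ CW * M := by positivity
  have hbound : ∀ l, ‖ω l - Θ l‖ ≤ (CW * M) ^ N := fun l => hωΘ _ hCM0 hCM1 huM l
  have hMA : M ≤ A := by
    by_contra hcon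
    have hcon : A < M := not_le.1 hcon
    have hA0 : 0 ≤ A := (norm_nonneg _).trans (hA l₀)
    have hMpos : 0 < M := hA0.trans_lt hcon
    have h1 := hkey M hMpos hMμ
    have e1 : ω l₀ = (ω l₀ - Θ l₀) + Θ l₀ := by ring
    have h2 : M ≤ max ‖ω l₀ - Θ l₀‖ ‖Θ l₀‖ := by
      rw [hM]
      conv_lhs => rw [e1]
      exact IsUltrametricDist.norm_add_le_max _ _
    have h3 : max ‖ω l₀ - Θ l₀‖ ‖Θ l₀‖ < M :=
      max_lt ((hbound l₀).trans_lt h1) ((hA l₀).trans_lt hcon)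
    exact absurd (h2.trans_lt h3) (lt_irrefl _)
  refine ⟨fun l => (hl₀ l).trans hMA, fun l => (hbound l).trans ?_⟩
  exact pow_le_pow_left₀ hCM0 (mul_le_mul_of_nonneg_left hMA hCW0.le) _

end orbit

end Crest.Agent.LT
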