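/-
S0351 T13c: the translation series `S(s, A)`; the data shared by clauses (a), (b') of E4.
-/
import Crest.Agent.Lib.LT.CoordBranch

set_option autoImplicit false
set_option linter.unusedSectionVars false
set_option linter.unusedVariables false
set_option linter.unnecessarySimpa false

namespace Crest.Agent.LT

open MvPowerSeries Filter Topology Crest.LubinTate

variable {p : ℕ} [Fact p.Prime] {n h d : ℕ}

/-- The data of the translation series. `Wp s = y + Wh(s)`, `Q(s, T) = Σ_{i<N} ξ̂_i(Wp s)^N T^i`,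
`Tf s A` is the small solution of `Q(s, T) = A`, and `Sh l (s, A) = ξ^[j]((w_l(v) +_{F_v^[j]} T) -_{F_y^[j]} x_l)`
with `v = Wp s`, `T = Tf s A_l`. -/
structure SData (I : CharPInput p n h d) {K : Type*} [NontriviallyNormedField K] [IsUltrametricDist K]
    [CompleteSpace K] [CharP K p] [PerfectRing K p] [Algebra (GaloisField p n) K]
    (y : Fin d → K) (F : FormalGroup K) (ξj : PowerSeries K) (j N : ℕ) (x : Fin d → K)
    (w : Fin d → (Fin d → K) → K) (Wh : Fin d → MvPowerSeries (Fin d) K)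
    (ξh : ℕ → (Fin d → K) → K) where
  /-- `T(s, A)` -/
  Tf : (Fin d → K) → K → K
  /-- radius -/
  δT : ℝ
  /-- Lipschitz constant of `T` in `A` -/
  CT : ℝ
  δT_pos : 0 < δT
  δT_lt : δT < 1
  CT_nonneg : 0 ≤ CT
  /-- `Q(s, T(s, A)) = A` -/
  Tf_sol : ∀ (s : Fin d → K) (A : K), (∀ a, ‖s a‖ < δT) → ‖A‖ < δT →
    ∑ i ∈ Finset.range N, ξh i (fun a => y a + evalS (Wh a) s) ^ N * Tf s A ^ i = A
  /-- `|T(s, A)| ≤ C |A|` and `|T| < 1` -/
  Tf_le : ∀ (s : Fin d → K) (A : K), (∀ a, ‖s a‖ < δT) → ‖A‖ < δT → ‖Tf s A‖ ≤ CT * ‖A‖ ∧ ‖Tf s A‖ < 1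
  /-- the series -/
  Sh : Fin d → MvPowerSeries (Fin d ⊕ Fin d) K
  /-- radius of the series -/
  εS : ℝ
  /-- bound of the series -/
  CS : ℝ
  εS_pos : 0 < εS
  Sh_B : ∀ l, IsB εS CS (Sh l)
  Sh_eval : ∀ (s A : Fin d → K), (∀ a, ‖s a‖ < εS) → (∀ a, ‖A a‖ < εS) → ∀ l,
    evalS (Sh l) (Sum.elim s A) = ev ξj (ptSub F
      (evTL (FR I j) (fun a => y a + evalS (Wh a) s) (w l (fun a => y a + evalS (Wh a) s)) (Tf s (A l))) (x l))

end Crest.Agent.LT
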