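/-
S0351 T13x: the coefficients of `ξ ∘ θ_g` are analytic functions of the point `u = y ∘ φ_g`.
BLUEPRINT §E5.
-/
import Crest.Agent.Lib.LT.CoordDefs

set_option autoImplicit false
set_option linter.unusedSectionVars false
set_option linter.unusedVariables false
set_option linter.unnecessarySimpa false

namespace Crest.Agent.LT

open MvPowerSeries Filter Topology Crest.LubinTate

section step

variable {K : Type*} [NontriviallyNormedField K] [IsUltrametricDist K] [CompleteSpace K]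
  {ζ : Type*} [Fintype ζ]

/-- Composition with the projection to the first block: no derivative in the second block. -/
lemma exists_linAt_inl [DecidableEq ζ] {β : Type*} [Fintype β] [DecidableEq β] {y : ζ → K} {t0 : β → K}
    {a : (ζ → K) → K} (ha : AnAt a y) :
    ∃ L : ζ ⊕ β → K, LinAt (fun z : ζ ⊕ β → K => a (fun i => z (Sum.inl i))) (Sum.elim y t0) L ∧
      ∀ b, L (Sum.inr b) = 0 := by
  classical
  obtain ⟨M, hM⟩ := ha.exists_linAt
  refine ⟨_, LinAt.comp (f := a) (G := fun i (z : ζ ⊕ β → K) => z (Sum.inl i)) (a := Sum.elim y t0)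
    (fun i => linAt_coord (Sum.inl i) _) hM, fun b => ?_⟩
  simp

/-- The implicit function theorem for an equation `t^q - a t - A = 0` in characteristic `p`,
`p ∣ q`, `a ≠ 0`. -/
theorem exists_as_step (p : ℕ) [CharP K p] {y : ζ → K} {a A : (ζ → K) → K} (ha : AnAt a y)
    (hA : AnAt A y) (ha0 : a y ≠ 0) {q : ℕ} (hq : p ∣ q) {t0 : K}
    (h0 : t0 ^ q - a y * t0 - A y = 0) :
    ∃ τ : (ζ → K) → K, AnAt τ y ∧ τ y = t0 ∧ ∃ δ η : ℝ, 0 < δ ∧ 0 < η ∧
      ∀ (v : ζ → K) (t : K), (∀ i, ‖v i - y i‖ < δ) → ‖t - t0‖ ≤ η →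
        t ^ q - a v * t - A v = 0 → t = τ v := by
  classical
  set base : ζ ⊕ Unit → K := Sum.elim y (fun _ => t0) with hbase
  obtain ⟨La, hLa, hLa0⟩ := exists_linAt_inl (β := Unit) (t0 := fun _ => t0) ha
  obtain ⟨LA, hLA, hLA0⟩ := exists_linAt_inl (β := Unit) (t0 := fun _ => t0) hA
  have hcoord := linAt_coord (Sum.inr () : ζ ⊕ Unit) base
  have h1 := (hcoord.pow_char p hq).sub ((hLa.mul hcoord).add hLA)
  set G : Unit → (ζ ⊕ Unit → K) → K := fun _ z => z (Sum.inr ()) ^ q -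
    (a (fun i => z (Sum.inl i)) * z (Sum.inr ()) + A (fun i => z (Sum.inl i))) with hG
  have hG1 : ∀ b, LinAt (G b) base _ := fun b => h1
  have hG0 : ∀ b, G b base = 0 := fun b => by
    simp only [hG, hbase, Sum.elim_inr, Sum.elim_inl]
    linear_combination h0
  have hMN : (Matrix.of fun _ _ => -(a y)⁻¹ : Matrix Unit Unit K) * (Matrix.of fun _ _ => - a y) = 1 := by
    ext i j
    simp [Matrix.mul_apply, ha0]
  have hNM : (Matrix.of fun _ _ => - a y : Matrix Unit Unit K) * (Matrix.of fun _ _ => -(a y)⁻¹) = 1 := by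
    ext i j
    simp [Matrix.mul_apply, ha0]
  obtain ⟨τ, J, δ, η, hδ, hη, hτ0, hτL, -, -, huniq⟩ := exists_implicit (α := ζ) (β := Unit) (z := y)
    (t0 := fun _ => t0) hG1 hG0 (Matrix.of fun _ _ => - a y) (Matrix.of fun _ _ => -(a y)⁻¹)
    (fun b b' => by
      simp [hLa0, hLA0]) hMN hNM
  refine ⟨τ (), (hτL ()).anAt, hτ0 (), δ, η, hδ, hη, fun v t hv ht hrel => ?_⟩
  refine huniq v (fun _ => t) hv (fun _ => ht) (fun b => ?_) ()
  simp only [hG, Sum.elim_inr, Sum.elim_inl]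
  linear_combination hrel

end step

section xi

variable {p : ℕ} [hp : Fact p.Prime] {n h d : ℕ} (I : CharPInput p n h d) {K : Type*}
  [NontriviallyNormedField K] [IsUltrametricDist K] [CompleteSpace K] [CharP K p] [PerfectRing K p]
  [Algebra (GaloisField p n) K]

/-- Total evaluation of an element of `R`. -/
noncomputable def rvXi (r : RR p n d) (v : Fin d → K) : K :=
  evalS (MvPowerSeries.map (algebraMap (GaloisField p n) K) r) v

omit [CharP K p] [PerfectRing K p] in
lemma rvXi_eq (r : RR p n d) {v : Fin d → K} (hv : ∀ i, ‖v i‖ < 1) : rvXi r v = evP p n v hv r := rfl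

omit [CharP K p] [PerfectRing K p] in
lemma anAt_rvXi (r : RR p n d) {y : Fin d → K} (hy : ∀ i, ‖y i‖ < 1) : AnAt (rvXi (K := K) r) y :=
  anAt_evalS one_pos (isB_map_algebraMap r) hy

omit [CharP K p] [PerfectRing K p] in
lemma AnAt.sum_xi {ζ ι : Type*} [Fintype ζ] {f : ι → (ζ → K) → K} {z : ζ → K} (s : Finset ι)
    (hf : ∀ i ∈ s, AnAt (f i) z) : AnAt (fun x => ∑ i ∈ s, f i x) z := by
  classical
  induction s using Finset.induction_on with
  | empty => simpa using anAt_const (0 : K) z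
  | insert a s ha ih =>
    simp only [Finset.sum_insert ha]
    exact (hf a (Finset.mem_insert_self _ _)).add (ih fun i hi => hf i (Finset.mem_insert_of_mem hi))

/-- `coeff n (f^n) = (coeff 1 f)^n` for `f` without constant term. -/
lemma coeff_self_pow_of_cc {A : Type*} [CommRing A] {f : PowerSeries A}
    (h0 : PowerSeries.constantCoeff f = 0) (m : ℕ) :
    PowerSeries.coeff m (f ^ m) = (PowerSeries.coeff 1 f) ^ m := by
  induction m with
  | zero => simp
  | succ m ih =>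
    rw [pow_succ, PowerSeries.coeff_mul, Finset.sum_eq_single (m, 1)]
    · rw [ih, pow_succ]
    · rintro ⟨a, b⟩ hab hne
      rw [Finset.HasAntidiagonal.mem_antidiagonal] at hab
      simp only at hab
      rcases Nat.lt_or_ge b 1 with hb | hb
      · have : b = 0 := by omega
        subst this
        rw [PowerSeries.coeff_zero_eq_constantCoeff_apply, h0, mul_zero]
      · have hb' : b ≠ 1 := fun h => hne (by
          have : a = m := by omega
          rw [this, h])
        have ha : a < m := by omega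
        rw [coeff_zero_pow_of_cc h0 m a ha, zero_mul]
    · intro h
      exact absurd (Finset.HasAntidiagonal.mem_antidiagonal (n := m + 1) (a := (m, 1)) |>.2 rfl) h

lemma cc_map_V {u : Fin d → K} (hu : ∀ i, ‖u i‖ < 1) :
    PowerSeries.constantCoeff (PowerSeries.map (evP p n u hu) I.V) = 0 :=
  constantCoeff_map' _ I.V_hom.1

lemma coeff_one_map_V {u : Fin d → K} (hu : ∀ i, ‖u i‖ < 1) :
    PowerSeries.coeff 1 (PowerSeries.map (evP p n u hu) I.V) = u ⟨0, I.d1⟩ := by
  have h1 := I.V_coeff ⟨0, I.d1⟩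
  simp only [pow_zero] at h1
  rw [PowerSeries.coeff_map, h1]
  exact evR_X _

/-- The recursion for the coefficients of a solution of `e ∘ V_u = e^(p^h)`. -/
lemma coeff_rec {u : Fin d → K} (hu : ∀ i, ‖u i‖ < 1) {e : PowerSeries K}
    (he : cmp e (PowerSeries.map (evP p n u hu) I.V) = tw p h e) (i : ℕ) :
    (PowerSeries.coeff i e) ^ p ^ h - (u ⟨0, I.d1⟩) ^ i * PowerSeries.coeff i e -
      ∑ k ∈ Finset.range i, PowerSeries.coeff k e * rvXi (PowerSeries.coeff i (I.V ^ k)) u = 0 := by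
  have h1 := congrArg (PowerSeries.coeff i) he
  rw [coeff_cmp_eq_sum (cc_map_V I hu), coeff_tw, Finset.sum_range_succ,
    coeff_self_pow_of_cc (cc_map_V I hu), coeff_one_map_V] at h1
  have h2 : ∀ k, PowerSeries.coeff i ((PowerSeries.map (evP p n u hu) I.V) ^ k) =
      rvXi (PowerSeries.coeff i (I.V ^ k)) u := by
    intro k
    rw [← map_pow, PowerSeries.coeff_map, rvXi_eq _ hu]
  simp only [h2] at h1
  rw [← h1]
  ring

lemma mulSeries_map_eq {u : Fin d → K} (hu : ∀ i, ‖u i‖ < 1) :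
    mulSeries (I.F.map (evP p n u hu)) p =
      cmp (PowerSeries.map (evP p n u hu) I.V) (PowerSeries.X ^ p ^ h) := by
  rw [mulSeries_map, I.V_p, map_cmp _ (constantCoeff_X_pow (prime_pow_ne_zero p h))]
  simp

/-- `e_g = ξ ∘ θ_g` solves the equation at `u = y ∘ φ_g`. -/
lemma cmp_e_eq {g : PowerSeries (GaloisField p n)} (hg : IsFGAut (Γ₀ p n) g) {y : Fin d → K}
    (hy : ∀ i, ‖y i‖ < 1) {ξ : PowerSeries K}
    (hξV : cmp ξ (PowerSeries.map (evP p n y hy) I.V) = tw p h ξ) :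
    cmp (cmp ξ (θAt I g y hy)) (PowerSeries.map (evP p n (actPt I g y hy) (norm_actPt_lt I hg)) I.V) =
      tw p h (cmp ξ (θAt I g y hy)) := by
  have hθ0 := θAt_cc I hg (u := y) (hu := hy)
  have hθ0' : PowerSeries.constantCoeff (PowerSeries.map (iterateFrobenius K p h) (θAt I g y hy)) = 0 :=
    constantCoeff_map' _ hθ0
  have h1 := cmp_V_eq p (θAt_hom I hg (u := y) (hu := hy)) (cc_map_V I (norm_actPt_lt I hg))
    (mulSeries_map_eq I (norm_actPt_lt I hg)) (mulSeries_map_eq I hy)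
  rw [cmp_assoc hθ0 (cc_map_V I (norm_actPt_lt I hg)), h1,
    ← cmp_assoc (cc_map_V I hy) hθ0', hξV, tw, tw, map_cmp _ hθ0]

lemma norm_evP_le_of_mem_pow {y : Fin d → K} (hy : ∀ i, ‖y i‖ < 1) {ρ : ℝ} (hρ0 : 0 ≤ ρ) (hρ1 : ρ ≤ 1)
    (hyρ : ∀ i, ‖y i‖ ≤ ρ) (c : ℕ) {f : RR p n d} (hf : f ∈ mR p n d ^ c) :
    ‖evP p n y hy f‖ ≤ ρ ^ c := by
  induction c generalizing f with
  | zero => simpa using norm_evR_le_one (hu := hy) f
  | succ c ih =>
    rw [pow_succ] at hf
    refine Submodule.mul_induction_on hf (fun x hx z hz => ?_) (fun x z hx hz => ?_)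
    · rw [map_mul, norm_mul, pow_succ]
      refine mul_le_mul (ih hx) ?_ (norm_nonneg _) (pow_nonneg hρ0 _)
      exact norm_evR_le_of_cc hρ0 hρ1 hyρ hz
    · rw [map_add]
      exact (IsUltrametricDist.norm_add_le_max _ _).trans (max_le hx hz)

/-- Deep automorphisms are close to the identity. -/
lemma exists_deep {y : Fin d → K} (hy : ∀ i, ‖y i‖ < 1) {δ : ℝ} (hδ : 0 < δ) (N : ℕ) :
    ∃ r : ℕ, ∀ g, IsFGAut (Γ₀ p n) g → CongX r g → (∀ a, ‖actPt I g y hy a - y a‖ < δ) ∧
      ∀ j ≤ N, ‖PowerSeries.coeff j (θAt I g y hy) - PowerSeries.coeff j (PowerSeries.X : PowerSeries K)‖ < δ := by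
  obtain ⟨ρ, hρ0, hρ1, hρ⟩ := exists_radius one_pos hy
  obtain ⟨c, hc⟩ := exists_pow_lt_of_lt_one hδ hρ1
  obtain ⟨M, hM⟩ := I.act.deep c (N + 1)
  refine ⟨M, fun g hg hgM => ?_⟩
  obtain ⟨h1, h2⟩ := hM g hg hgM
  constructor
  · intro a
    have e : actPt I g y hy a - y a = evP p n y hy (I.act.φ g (MvPowerSeries.X a) - MvPowerSeries.X a) := by
      rw [map_sub]
      congr 1
      exact (evR_X a).symm
    rw [e]
    exact (norm_evP_le_of_mem_pow hy hρ0 hρ1.le hρ c (h1 _)).trans_lt hc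
  · intro j hj
    have e : PowerSeries.coeff j (θAt I g y hy) - PowerSeries.coeff j (PowerSeries.X : PowerSeries K) =
        evP p n y hy (PowerSeries.coeff j (I.act.θ g) - PowerSeries.coeff j (PowerSeries.X : PowerSeries (RR p n d))) := by
      rw [map_sub, θAt, PowerSeries.coeff_map]
      congr 1
      rw [← PowerSeries.coeff_map, PowerSeries.map_X]
    rw [e]
    exact (norm_evP_le_of_mem_pow hy hρ0 hρ1.le hρ c (h2 j (Nat.lt_succ_of_le hj))).trans_lt hc

omit [CompleteSpace K] [CharP K p] [PerfectRing K p] [Algebra (GaloisField p n) K] in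
lemma trunc_mul {A B : PowerSeries K} {i : ℕ} {δ : ℝ} (hδ : 0 ≤ δ)
    (hA : ∀ j ≤ i, ‖PowerSeries.coeff j A‖ ≤ δ) (hB : IsInt B) :
    ∀ j ≤ i, ‖PowerSeries.coeff j (A * B)‖ ≤ δ := by
  intro j hj
  rw [PowerSeries.coeff_mul]
  refine IsUltrametricDist.norm_sum_le_of_forall_le_of_nonneg hδ fun x hx => ?_
  have hx' := Finset.HasAntidiagonal.mem_antidiagonal.1 hx
  rw [norm_mul]
  calc _ ≤ δ * 1 := mul_le_mul (hA _ (by omega)) (hB _) (norm_nonneg _) hδ
    _ = δ := mul_one _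

omit [CompleteSpace K] [CharP K p] [PerfectRing K p] [Algebra (GaloisField p n) K] in
lemma trunc_pow_sub {θ : PowerSeries K} (hθ : IsInt θ) {i : ℕ} {δ : ℝ} (hδ : 0 ≤ δ)
    (h : ∀ j ≤ i, ‖PowerSeries.coeff j θ - PowerSeries.coeff j (PowerSeries.X : PowerSeries K)‖ ≤ δ) (k : ℕ) :
    ∀ j ≤ i, ‖PowerSeries.coeff j (θ ^ k - PowerSeries.X ^ k)‖ ≤ δ := by
  induction k with
  | zero => intro j _; simpa using hδ
  | succ k ih =>
    intro j hj
    have e : θ ^ (k + 1) - PowerSeries.X ^ (k + 1) =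
        (θ ^ k - PowerSeries.X ^ k) * θ + (θ - PowerSeries.X) * PowerSeries.X ^ k := by ring
    rw [e, map_add]
    refine (IsUltrametricDist.norm_add_le_max _ _).trans (max_le (trunc_mul hδ ih hθ j hj) ?_)
    refine trunc_mul hδ (fun j' hj' => ?_) (isInt_X_pow k) j hj
    rw [map_sub]
    exact h j' hj'

omit [CompleteSpace K] [CharP K p] [PerfectRing K p] [Algebra (GaloisField p n) K] in
lemma coeff_cmp_sub_le {ξ θ : PowerSeries K} (hξ : IsInt ξ) (hθ : IsInt θ)
    (hθ0 : PowerSeries.constantCoeff θ = 0) {i : ℕ} {δ : ℝ} (hδ : 0 ≤ δ)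
    (h : ∀ j ≤ i, ‖PowerSeries.coeff j θ - PowerSeries.coeff j (PowerSeries.X : PowerSeries K)‖ ≤ δ) :
    ‖PowerSeries.coeff i (cmp ξ θ) - PowerSeries.coeff i ξ‖ ≤ δ := by
  classical
  have h1 : PowerSeries.coeff i ξ = ∑ k ∈ Finset.range (i + 1), PowerSeries.coeff k ξ *
      PowerSeries.coeff i (PowerSeries.X ^ k : PowerSeries K) := by
    rw [Finset.sum_eq_single i]
    · rw [PowerSeries.coeff_X_pow, if_pos rfl, mul_one]
    · intro k _ hk
      rw [PowerSeries.coeff_X_pow, if_neg (Ne.symm hk), mul_zero]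
    · intro h2
      exact absurd (Finset.mem_range.2 (Nat.lt_succ_self i)) h2
  rw [coeff_cmp_eq_sum hθ0, h1, ← Finset.sum_sub_distrib]
  refine IsUltrametricDist.norm_sum_le_of_forall_le_of_nonneg hδ fun k _ => ?_
  rw [← mul_sub, norm_mul, ← map_sub]
  calc _ ≤ 1 * δ := mul_le_mul (hξ k) (trunc_pow_sub hθ hδ h k i le_rfl) (norm_nonneg _) zero_le_one
    _ = δ := one_mul _

omit [CharP K p] [PerfectRing K p] [Algebra (GaloisField p n) K] in
/-- `CongX` is antitone in the order. -/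
lemma CongX.mono_xi {R : Type*} [CommRing R] {r r' : ℕ} (h : r' ≤ r) {g : PowerSeries R} (hg : CongX r g) :
    CongX r' g := fun i hi => hg i (lt_of_lt_of_le hi h)

/-- **T13x**: the coefficients of `ξ ∘ θ_g` are analytic functions of `u = y ∘ φ_g`. -/
theorem exists_xiHat {y : Fin d → K} (hy : ∀ i, ‖y i‖ < 1) (hy0 : y ⟨0, I.d1⟩ ≠ 0) {ξ : PowerSeries K}
    (hξ0 : PowerSeries.constantCoeff ξ = 0) (hξ1 : ∀ i, ‖PowerSeries.coeff i ξ‖ < 1)
    (hξV : cmp ξ (PowerSeries.map (evP p n y hy) I.V) = tw p h ξ) (L : ℕ) :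
    ∃ ξh : ℕ → (Fin d → K) → K, (∀ i, AnAt (ξh i) y) ∧ (∀ i, ξh i y = PowerSeries.coeff i ξ) ∧
      (∀ v, ξh 0 v = 0) ∧ ∃ r₁ : ℕ, ∀ g, IsFGAut (Γ₀ p n) g → CongX r₁ g → ∀ i < L,
        PowerSeries.coeff i (cmp ξ (θAt I g y hy)) = ξh i (actPt I g y hy) := by
  classical
  have hξint : IsInt ξ := fun i => (hξ1 i).le
  induction L with
  | zero =>
    refine ⟨fun i _ => PowerSeries.coeff i ξ, fun i => anAt_const _ _, fun i => rfl, fun v => ?_, 0,
      fun g _ _ i hi => absurd hi (Nat.not_lt_zero i)⟩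
    exact (PowerSeries.coeff_zero_eq_constantCoeff_apply ξ).trans hξ0
  | succ L ih =>
    obtain ⟨ξh, h1, h2, h3, r₁, hr₁⟩ := ih
    rcases Nat.eq_zero_or_pos L with rfl | hL
    · refine ⟨ξh, h1, h2, h3, r₁, fun g hg hgr i hi => ?_⟩
      obtain rfl : i = 0 := by omega
      rw [h3, PowerSeries.coeff_zero_eq_constantCoeff_apply]
      exact constantCoeff_cmp hξ0 (θAt_cc I hg)
    set i₀ : Fin d := ⟨0, I.d1⟩ with hi₀
    have ha : AnAt (fun v : Fin d → K => (v i₀) ^ L) y := (anAt_coord i₀ y).pow L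
    have hA : AnAt (fun v : Fin d → K => ∑ k ∈ Finset.range L,
        ξh k v * rvXi (PowerSeries.coeff L (I.V ^ k)) v) y :=
      AnAt.sum_xi _ fun k _ => (h1 k).mul (anAt_rvXi _ hy)
    have hrel0 := coeff_rec I hy hξV L
    have hq : p ∣ p ^ h := dvd_pow_self p (by have := I.h1; omega)
    obtain ⟨τ, hτ, hτy, δ, η, hδ, hη, huniq⟩ := exists_as_step p ha hA (pow_ne_zero L hy0) hq
      (t0 := PowerSeries.coeff L ξ) (by
        simp only [h2]
        exact hrel0)
    obtain ⟨r₂, hr₂⟩ := exists_deep I hy (lt_min hδ hη) L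
    refine ⟨Function.update ξh L τ, fun i => ?_, fun i => ?_, fun v => ?_, max r₁ r₂, fun g hg hgr i hi => ?_⟩
    · by_cases hi : i = L
      · subst hi; simpa using hτ
      · simpa [Function.update_of_ne hi] using h1 i
    · by_cases hi : i = L
      · subst hi; simpa using hτy
      · simpa [Function.update_of_ne hi] using h2 i
    · rw [Function.update_of_ne hL.ne]
      exact h3 v
    · have hg1 : CongX r₁ g := hgr.mono_xi (le_max_left _ _)
      have hg2 : CongX r₂ g := hgr.mono_xi (le_max_right _ _)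
      have hIH := hr₁ g hg hg1
      by_cases hiL : i = L
      · subst hiL
        rw [Function.update_self]
        obtain ⟨hu, hθ⟩ := hr₂ g hg hg2
        have hclose : ‖PowerSeries.coeff i (cmp ξ (θAt I g y hy)) - PowerSeries.coeff i ξ‖ ≤ min δ η :=
          coeff_cmp_sub_le hξint (θAt_int I g) (θAt_cc I hg) (lt_min hδ hη).le fun j hj => (hθ j hj).le
        refine huniq _ _ (fun a => (hu a).trans_le (min_le_left _ _)) (hclose.trans (min_le_right _ _)) ?_
        have hrel := coeff_rec I (norm_actPt_lt I hg) (cmp_e_eq I hg hy hξV) i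
        rw [← hrel]
        congr 1
        refine Finset.sum_congr rfl fun k hk => ?_
        rw [hIH k (Finset.mem_range.1 hk)]
      · rw [Function.update_of_ne hiL]
        exact hIH i (by omega)

end xi

end Crest.Agent.LT
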