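/-
S0351 T13c: clause (a) of E4: the germ maps agree with `S(ω, A)` modulo `A^N`.
-/
import Crest.Agent.Lib.LT.CoordS
import Crest.Agent.Lib.LT.CoordGerm
import Crest.Agent.Lib.LT.CoordXi
import Crest.Agent.Lib.LT.CoordOrbit

set_option autoImplicit false
set_option linter.unusedSectionVars false
set_option linter.unusedVariables false
set_option linter.unnecessarySimpa false

namespace Crest.Agent.LT

open MvPowerSeries Filter Topology Crest.LubinTate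

section iso

variable {K : Type*} [NontriviallyNormedField K] [IsUltrametricDist K] [CompleteSpace K]

/-- Near `0` a series with nonzero linear coefficient scales distances by that coefficient. -/
lemma norm_ev_sub_eq {f : PowerSeries K} (hf : IsInt f) {a b : K}
    (ha : ‖a‖ < ‖PowerSeries.coeff 1 f‖) (hb : ‖b‖ < ‖PowerSeries.coeff 1 f‖) :
    ‖ev f a - ev f b‖ = ‖PowerSeries.coeff 1 f‖ * ‖a - b‖ := by
  classical
  set c := PowerSeries.coeff 1 f with hc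
  have hc1 : ‖c‖ ≤ 1 := hf 1
  have hc0 : 0 < ‖c‖ := lt_of_le_of_lt (norm_nonneg a) ha
  set A : PowerSeries K := f - PowerSeries.C c * PowerSeries.X with hA
  have hCX : IsInt (PowerSeries.C c * PowerSeries.X) := (isInt_C hc1).mul isInt_X
  have hAint : IsInt A := hf.sub hCX
  have hA1 : PowerSeries.coeff 1 A = 0 := by
    rw [hA, map_sub, PowerSeries.coeff_C_mul, PowerSeries.coeff_one_X]
    simp [hc]
  have ha1 : ‖a‖ < 1 := lt_of_lt_of_le ha hc1
  have hb1 : ‖b‖ < 1 := lt_of_lt_of_le hb hc1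
  set η := max ‖a‖ ‖b‖ with hη
  have hη0 : 0 ≤ η := le_max_of_le_left (norm_nonneg _)
  have hηc : η < ‖c‖ := max_lt ha hb
  have h1 : ‖ev A a - ev A b‖ ≤ η * ‖a - b‖ := by
    have := norm_evalS_sub_le (σ := Unit) (A := A) (ε := 1) (η := η) (C := 1) (δ := ‖a - b‖) one_pos hη0
      (lt_of_lt_of_le hηc hc1) (norm_nonneg _) hAint.isB (x := fun _ => a) (x' := fun _ => b)
      (fun _ => le_max_left _ _) (fun _ => le_max_right _ _) (fun _ => le_rfl) (fun i _ => by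
        have : (Finsupp.single i 1 : Unit →₀ ℕ) = Finsupp.single () 1 := rfl
        rw [this]
        exact hA1)
    simpa [ev] using this
  have e : ev f a - ev f b = c * (a - b) + (ev A a - ev A b) := by
    have hfa : ∀ x : K, ‖x‖ < 1 → ev f x = ev A x + c * x := by
      intro x hx
      have h2 : f = A + PowerSeries.C c * PowerSeries.X := by rw [hA]; ring
      conv_lhs => rw [h2]
      rw [ev_add hAint hCX hx, ev_mul (isInt_C hc1) isInt_X hx, ev_C, ev_X]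
    rw [hfa a ha1, hfa b hb1]
    ring
  rw [e]
  by_cases hab : a = b
  · simp [hab]
  have hab0 : 0 < ‖a - b‖ := norm_pos_iff.2 (sub_ne_zero.2 hab)
  have h3 : ‖ev A a - ev A b‖ < ‖c * (a - b)‖ := by
    rw [norm_mul]
    exact lt_of_le_of_lt h1 (mul_lt_mul_of_pos_right hηc hab0)
  rw [IsUltrametricDist.norm_add_eq_max_of_norm_ne_norm h3.ne', max_eq_left h3.le, norm_mul]

/-- Tail estimate. -/
lemma norm_ev_sub_trunc {f : PowerSeries K} (hf : IsInt f) {x : K} (hx : ‖x‖ < 1) (N : ℕ) :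
    ‖ev f x - ∑ i ∈ Finset.range N, PowerSeries.coeff i f * x ^ i‖ ≤ ‖x‖ ^ N := by
  classical
  set P : PowerSeries K := ∑ i ∈ Finset.range N, PowerSeries.C (PowerSeries.coeff i f) * PowerSeries.X ^ i with hP
  have hPi : ∀ s : Finset ℕ, IsInt (∑ i ∈ s, PowerSeries.C (PowerSeries.coeff i f) * PowerSeries.X ^ i) ∧
      ev (∑ i ∈ s, PowerSeries.C (PowerSeries.coeff i f) * PowerSeries.X ^ i) x =
        ∑ i ∈ s, PowerSeries.coeff i f * x ^ i := by
    intro s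
    induction s using Finset.induction_on with
    | empty => simpa using ⟨isInt_zero, ev_zero x⟩
    | insert a s ha ih =>
      rw [Finset.sum_insert ha, Finset.sum_insert ha]
      have h1 : IsInt (PowerSeries.C (PowerSeries.coeff a f) * PowerSeries.X ^ a) :=
        (isInt_C (hf a)).mul (isInt_X_pow a)
      refine ⟨h1.add ih.1, ?_⟩
      rw [ev_add h1 ih.1 hx, ev_mul (isInt_C (hf a)) (isInt_X_pow a) hx, ev_C, ev_X_pow hx, ih.2]
  have hPint := (hPi (Finset.range N)).1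
  have hcoeffP : ∀ m, PowerSeries.coeff m P = if m < N then PowerSeries.coeff m f else 0 := by
    intro m
    rw [hP, map_sum]
    simp only [PowerSeries.coeff_C_mul, PowerSeries.coeff_X_pow]
    by_cases hm : m < N
    · rw [if_pos hm, Finset.sum_eq_single m]
      · simp
      · intro b _ hb
        simp [Ne.symm hb]
      · intro hmem
        exact absurd (Finset.mem_range.2 hm) hmem
    · rw [if_neg hm]
      refine Finset.sum_eq_zero fun b hb => ?_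
      have : m ≠ b := fun h => hm (h ▸ Finset.mem_range.1 hb)
      simp [this]
  have hsub := ev_sub hf hPint hx
  rw [(hPi (Finset.range N)).2] at hsub
  rw [← hsub]
  have := norm_evalS_le_of_order (σ := Unit) (A := f - P) (r := 1) (ρ := ‖x‖) N
    (fun γ => ?_) (fun γ hγ => ?_) (norm_nonneg _) hx.le (x := fun _ => x) (fun _ => le_rfl)
  · simpa [ev] using this
  · have h1 := (hf.sub hPint) (γ ())
    rw [coeff_unit]
    exact h1
  · rw [coeff_unit, map_sub, hcoeffP, if_pos, sub_self]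
    rwa [degree_unit] at hγ


/-- The abstract estimate behind clause (a). -/
lemma abstract_est {F F' : FormalGroup K} [F.IsComm] (hF : IsIntLaw F) (hF' : IsIntLaw F')
    {θ θv ξ : PowerSeries K} (hθ : IsInt θ) (hθ0 : PowerSeries.constantCoeff θ = 0)
    (hθ1 : ‖PowerSeries.coeff 1 θ‖ = 1) (hθv : IsInt θv) (hθF : IsFGHom F' F θ)
    (hξ : IsInt ξ)
    {N : ℕ} {x a t₁ av T A : K} (hx : ‖x‖ < 1) (ha : ‖a‖ < 1) (ht₁ : ‖t₁‖ < 1) (hav : ‖av‖ < 1)
    (hT : ‖T‖ < 1) (hT1 : ‖T‖ < ‖PowerSeries.coeff 1 ξ‖) (hb : ‖ptSub F av x‖ < ‖PowerSeries.coeff 1 ξ‖)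
    {δ₁ : ℝ} (hδ₁ : ∀ i, ‖PowerSeries.coeff i θ - PowerSeries.coeff i θv‖ ≤ δ₁)
    (h1 : ev θv t₁ = av) (h2 : ev θ a = x)
    (hsum : ∑ i ∈ Finset.range N, PowerSeries.coeff i (cmp ξ θ) * T ^ i = A)
    (hA : ev ξ (ptSub F av x) = A) :
    ‖ev ξ (ptSub F t₁ x) - ev ξ (ptSub F (ptAdd F' a T) x)‖ ≤
      max δ₁ (‖PowerSeries.coeff 1 ξ‖⁻¹ * ‖T‖ ^ N) := by
  set c := PowerSeries.coeff 1 ξ with hc
  have hc0 : 0 < ‖c‖ := lt_of_le_of_lt (norm_nonneg _) hT1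
  have hnx : ‖ptNeg F x‖ < 1 := norm_ptNeg_lt hF hx
  have ht₂ : ‖ptAdd F' a T‖ < 1 := norm_ptAdd_lt hF' ha hT
  have hb1 : ‖ptSub F av x‖ < 1 := norm_ptSub_lt hF hav hx
  -- the isometry
  have hiso : ‖ev θ t₁ - ev θ (ptAdd F' a T)‖ = ‖t₁ - ptAdd F' a T‖ := by
    rw [norm_ev_sub_eq hθ (by rwa [hθ1]) (by rwa [hθ1]), hθ1, one_mul]
  have hstep1 : ‖ev ξ (ptSub F t₁ x) - ev ξ (ptSub F (ptAdd F' a T) x)‖ ≤ ‖t₁ - ptAdd F' a T‖ := by
    refine (lip_ev hξ (norm_ptSub_lt hF ht₁ hx) (norm_ptSub_lt hF ht₂ hx)).trans ?_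
    refine (lip_ptAdd hF ht₁ hnx ht₂ hnx).trans ?_
    simp
  refine hstep1.trans ?_
  rw [← hiso]
  -- the second point
  have hτ : ‖ev θ T‖ ≤ ‖T‖ := norm_ev_le hθ hθ0 hT.le
  have hτ1 : ‖ev θ T‖ < 1 := hτ.trans_lt hT
  have e2 : ev θ (ptAdd F' a T) = ptAdd F x (ev θ T) := by
    rw [ev_ptAdd hθF hθ hF' hF ha hT, h2]
  have e3 : av = ptAdd F x (ptSub F av x) := by
    rw [ptAdd_comm hF hx hb1, ptSub_add hF hav hx]
  have h4 : ‖ev θ t₁ - av‖ ≤ δ₁ := by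
    rw [← h1]
    exact norm_ev_sub_le_of_coeff hθ hθv hδ₁ ht₁
  have h5 : ‖ptSub F av x - ev θ T‖ ≤ ‖c‖⁻¹ * ‖T‖ ^ N := by
    have h6 := norm_ev_sub_eq hξ hb (hτ.trans_lt hT1)
    rw [hA, ← hc] at h6
    have h7 : ev ξ (ev θ T) = ev (cmp ξ θ) T := (ev_cmp hξ hθ hθ0 hT).symm
    have h8 := norm_ev_sub_trunc (hξ.cmp hθ hθ0) hT N
    rw [hsum, ← h7, norm_sub_rev] at h8
    rw [le_inv_mul_iff₀ hc0, ← h6]
    exact h8
  have h9 : ‖av - ptAdd F x (ev θ T)‖ ≤ ‖c‖⁻¹ * ‖T‖ ^ N := by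
    conv_lhs => rw [e3]
    refine (lip_ptAdd hF hx hb1 hx hτ1).trans ?_
    simpa using h5
  rw [e2]
  have e4 : ev θ t₁ - ptAdd F x (ev θ T) = (ev θ t₁ - av) + (av - ptAdd F x (ev θ T)) := by ring
  rw [e4]
  exact (IsUltrametricDist.norm_add_le_max _ _).trans (max_le_max h4 h9)

end iso


section main

variable {p : ℕ} [Fact p.Prime] {n h d : ℕ} (I : CharPInput p n h d)
  {K : Type*} [NontriviallyNormedField K] [IsUltrametricDist K] [CompleteSpace K] [CharP K p]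
  [PerfectRing K p] [Algebra (GaloisField p n) K]

lemma actT_eq_actPt (g : PowerSeries (GaloisField p n)) {v : Fin d → K} (hv : ∀ i, ‖v i‖ < 1) (i : Fin d) :
    actT I g v i = actPt I g v hv i := rfl

/-- Clause (a), with the data abstracted so that the proof can abbreviate. -/
theorem clause_a_aux {y : Fin d → K} (hy : ∀ i, ‖y i‖ < 1) {ρ : ℝ} (hρ0 : 0 ≤ ρ) (hρ1 : ρ < 1)
    (hyρ : ∀ i, ‖y i‖ ≤ ρ) {j : ℕ} {x : Fin d → K} {ξ : PowerSeries K}
    (hξ0 : PowerSeries.constantCoeff ξ = 0) (hξ1 : IsInt ξ) (hξc : PowerSeries.coeff 1 ξ ≠ 0)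
    {F₀ : FormalGroup K} (hF₀ : F₀ = (pointData I y hy hρ0 hρ1 hyρ).Fj j) {N : ℕ} (hN : N = p ^ (j * h))
    {ξj : PowerSeries K} (hξj : ξj = tw p (j * h) ξ)
    (B : BranchData I y j x) {Xh Wh : Fin d → MvPowerSeries (Fin d) K} {εX εX' CX εW CW : ℝ}
    (hεX : 0 < εX) (hεX' : 0 < εX') (hεW : 0 < εW) (hXB : ∀ l, IsB εX CX (Xh l))
    (hX0 : ∀ l, constantCoeff (Xh l) = 0) (hWB : ∀ i, IsB εW CW (Wh i))
    (hW0 : ∀ i, constantCoeff (Wh i) = 0)
    (hXW : ∀ s : Fin d → K, (∀ a, ‖s a‖ < εW) →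
      (∀ i, ‖evalS (Wh i) s‖ < εX) ∧ ∀ l, evalS (Xh l) (fun i => evalS (Wh i) s) = s l)
    (hWX : ∀ w : Fin d → K, (∀ i, ‖w i‖ < εX') →
      (∀ l, ‖evalS (Xh l) w‖ < εW) ∧ ∀ i, evalS (Wh i) (fun l => evalS (Xh l) w) = w i)
    (hXc : ∀ v : Fin d → K, (∀ i, ‖v i - y i‖ < εX) → ∀ l, evalS (Xh l) (fun i => v i - y i) =
      ev ξj (ptSub F₀ (B.w l v) (x l)))
    {ξh : ℕ → (Fin d → K) → K}
    (hξh : ∃ r₃ : ℕ, ∀ g, IsFGAut (Γ₀ p n) g → CongX r₃ g → ∀ i < N,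
      PowerSeries.coeff i (cmp ξ (θAt I g y hy)) = ξh i (actPt I g y hy))
    (Sd : SData I y F₀ ξj j N x B.w Wh ξh) :
    ∃ r₂ : ℕ, ∀ g, IsFGAut (Γ₀ p n) g → CongX r₂ g → ∀ (F : Fin d → MvPowerSeries (Fin d) K) {ε₀ C₀ : ℝ},
      0 < ε₀ → (∀ l, IsB ε₀ C₀ (F l)) →
      (∀ s : Fin d → K, (∀ a, ‖s a‖ < ε₀) → ∀ l,
        evalS (F l) s = evalS (Xh l) (fun i => actT I g (fun a => y a + evalS (Wh a) s) i - y i)) →
      ∀ l, CongO N (F l)
        (peval (fun l' => evalS (Xh l') (fun i => actPt I g y hy i - y i)) (Sd.Sh l)) := by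
  classical
  obtain ⟨r₁, δ₁, hδ₁, hact⟩ := action_branch I hy B
  obtain ⟨r₃, hr₃⟩ := hξh
  set D := pointData I y hy hρ0 hρ1 hyρ with hD
  have hξj1 : IsInt ξj := hξj ▸ hξ1.tw p _
  have hF₀int : IsIntLaw F₀ := hF₀ ▸ D.Fj_int j
  haveI hF₀comm : F₀.IsComm := hF₀ ▸ D.Fj_comm j
  set c₁ := ‖PowerSeries.coeff 1 ξj‖ with hc₁
  have hc₁0 : 0 < c₁ := by
    rw [hc₁, hξj, coeff_tw, norm_pow]
    exact pow_pos (norm_pos_iff.2 hξc) _
  set η := min Sd.εS Sd.δT with hη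
  have hη0 : 0 < η := lt_min Sd.εS_pos Sd.δT_pos
  have hsm0 : 0 < smallR εX CX η := smallR_pos hεX hη0
  set τ : ℝ := min (min εX εX') (min (min δ₁ B.r₀) (min 1 (smallR εX CX η))) with hτ
  have hτ0 : 0 < τ := by
    simp only [hτ, lt_min_iff]
    exact ⟨⟨hεX, hεX'⟩, ⟨hδ₁, B.r₀_pos⟩, one_pos, hsm0⟩
  have hτ1 : τ ≤ εX := (min_le_left _ _).trans (min_le_left _ _)
  have hτ2 : τ ≤ εX' := (min_le_left _ _).trans (min_le_right _ _)
  have hτ3 : τ ≤ δ₁ := (min_le_right _ _).trans ((min_le_left _ _).trans (min_le_left _ _))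
  have hτ4 : τ ≤ B.r₀ := (min_le_right _ _).trans ((min_le_left _ _).trans (min_le_right _ _))
  have hτ5 : τ ≤ 1 := (min_le_right _ _).trans ((min_le_right _ _).trans (min_le_left _ _))
  have hτ6 : τ ≤ smallR εX CX η := (min_le_right _ _).trans ((min_le_right _ _).trans (min_le_right _ _))
  obtain ⟨r_d, hrd⟩ := exists_deep I hy hτ0 1
  refine ⟨max r₁ (max r₃ r_d), fun g hg hgr F ε₀ C₀ hε₀ hFB hFe l => ?_⟩
  have hg1 : CongX r₁ g := CongX.mono_xi (le_max_left _ _) hgr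
  have hg3 : CongX r₃ g := CongX.mono_xi ((le_max_left _ _).trans (le_max_right _ _)) hgr
  have hgd : CongX r_d g := CongX.mono_xi ((le_max_right _ _).trans (le_max_right _ _)) hgr
  obtain ⟨huy, hθc⟩ := hrd g hg hgd
  set u := actPt I g y hy with hu
  have hun : ∀ i, ‖u i‖ < 1 := norm_actPt_lt I hg
  have huρ : ∀ i, ‖u i‖ ≤ ρ := norm_actPt_le I hg hρ0 hρ1.le hyρ
  set Du := pointData I u hun hρ0 hρ1 huρ with hDu
  set ω : Fin d → K := fun l' => evalS (Xh l') (fun i => u i - y i) with hω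
  have hωη : ∀ l', ‖ω l'‖ < η := fun l' =>
    norm_evalS_lt_of_const_zero hsm0 hη0 (isB_smallR hεX hη0 (hX0 l') (hXB l')) (hX0 l')
      (fun i => (huy i).trans_le hτ6)
  have hωS : ∀ l', ‖ω l'‖ < Sd.εS := fun l' => (hωη l').trans_le (min_le_left _ _)
  have hωT : ∀ l', ‖ω l'‖ < Sd.δT := fun l' => (hωη l').trans_le (min_le_right _ _)
  have hWpω : (fun a => y a + evalS (Wh a) ω) = u := by
    funext a
    rw [((hWX (fun i => u i - y i) (fun i => (huy i).trans_le hτ2)).2 a)]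
    ring
  -- the unit coefficient
  have hθunit : ‖PowerSeries.coeff 1 (θAt I g y hy)‖ = 1 := by
    have h1 := hθc 1 le_rfl
    rw [PowerSeries.coeff_one_X] at h1
    have h2 : ‖PowerSeries.coeff 1 (θAt I g y hy) - 1‖ < ‖(1 : K)‖ := by
      rw [norm_one]
      exact h1.trans_le hτ5
    have e : PowerSeries.coeff 1 (θAt I g y hy) = 1 + (PowerSeries.coeff 1 (θAt I g y hy) - 1) := by ring
    rw [e, IsUltrametricDist.norm_add_eq_max_of_norm_ne_norm h2.ne', norm_one]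
    exact max_eq_left (by rw [norm_one] at h2; exact h2.le)
  have hθy : IsInt (θAt I g y hy) := θAt_int I g
  have hθy0 : PowerSeries.constantCoeff (θAt I g y hy) = 0 := θAt_cc I hg
  set θj := tw p (j * h) (θAt I g y hy) with hθj
  have hθj1 : IsInt θj := hθy.tw p _
  have hθj0 : PowerSeries.constantCoeff θj = 0 := constantCoeff_tw p hθy0 _
  have hθjunit : ‖PowerSeries.coeff 1 θj‖ = 1 := by
    rw [hθj, coeff_tw, norm_pow, hθunit, one_pow]
  have hθjF : IsFGHom (Du.Fj j) F₀ θj := by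
    rw [hF₀]
    exact (θAt_hom I hg (u := y) (hu := hy)).map (fr p (j * h))
  have hcmp : cmp ξj θj = tw p (j * h) (cmp ξ (θAt I g y hy)) := by
    rw [hξj]
    exact (map_cmp (fr p (j * h)) hθy0).symm
  -- the Lipschitz constant of the branch
  obtain ⟨cL, δL, hcL, hδL, hL⟩ := AnAt.exists_lip (B.w_an l)
  have hcLc : 0 < c₁ / (cL + 1) := by positivity
  set τv : ℝ := min (min δ₁ (εX / 2)) (min (B.r₀ / 2) (min 1 (min δL (c₁ / (cL + 1))))) with hτv
  have hτv0 : 0 < τv := by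
    simp only [hτv, lt_min_iff]
    exact ⟨⟨hδ₁, by positivity⟩, by have := B.r₀_pos; positivity, one_pos, hδL, hcLc⟩
  have hτv1 : τv ≤ δ₁ := (min_le_left _ _).trans (min_le_left _ _)
  have hτv2 : τv ≤ εX / 2 := (min_le_left _ _).trans (min_le_right _ _)
  have hτv3 : τv ≤ B.r₀ / 2 := (min_le_right _ _).trans (min_le_left _ _)
  have hτv4 : τv ≤ 1 := (min_le_right _ _).trans ((min_le_right _ _).trans (min_le_left _ _))
  have hτv5 : τv ≤ δL :=
    (min_le_right _ _).trans ((min_le_right _ _).trans ((min_le_right _ _).trans (min_le_left _ _)))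
  have hτv6 : τv ≤ c₁ / (cL + 1) :=
    (min_le_right _ _).trans ((min_le_right _ _).trans ((min_le_right _ _).trans (min_le_right _ _)))
  have hCT := Sd.CT_nonneg
  have hsm1 : 0 < smallR εW CW τv := smallR_pos hεW hτv0
  have hCTc : 0 < c₁ / (Sd.CT + 1) := by positivity
  set δ : ℝ := min (min ε₀ Sd.εS) (min Sd.δT (min εW (min (smallR εW CW τv) (c₁ / (Sd.CT + 1))))) with hδ
  have hε : 0 < min ε₀ Sd.εS := lt_min hε₀ Sd.εS_pos
  have hδ0 : 0 < δ := by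
    simp only [hδ, lt_min_iff]
    exact ⟨⟨hε₀, Sd.εS_pos⟩, Sd.δT_pos, hεW, hsm1, hCTc⟩
  have hδ1 : δ ≤ min ε₀ Sd.εS := min_le_left _ _
  have hδ2 : δ ≤ Sd.δT := (min_le_right _ _).trans (min_le_left _ _)
  have hδ3 : δ ≤ εW := (min_le_right _ _).trans ((min_le_right _ _).trans (min_le_left _ _))
  have hδ4 : δ ≤ smallR εW CW τv :=
    (min_le_right _ _).trans ((min_le_right _ _).trans ((min_le_right _ _).trans (min_le_left _ _)))
  have hδ5 : δ ≤ c₁ / (Sd.CT + 1) :=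
    (min_le_right _ _).trans ((min_le_right _ _).trans ((min_le_right _ _).trans (min_le_right _ _)))
  set Cb := max C₀ Sd.CS with hCb
  have hFB' : IsB (min ε₀ Sd.εS) Cb (F l) := ((hFB l).shrink hε.le (min_le_left _ _)).mono (le_max_left _ _)
  have hSB' : IsB (min ε₀ Sd.εS) Cb (peval ω (Sd.Sh l)) :=
    (((Sd.Sh_B l).peval Sd.εS_pos (fun i => (hωS i).le)).shrink hε.le (min_le_right _ _)).mono (le_max_right _ _)
  have hCW0 : 0 ≤ CW := (hWB ⟨0, I.d1⟩).nonneg hεW.le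
  set CL := CW / εW with hCL
  have hCL0 : 0 ≤ CL := by positivity
  have hc₁inv : 0 ≤ c₁⁻¹ := by positivity
  rw [congO_iff]
  refine coeff_eq_zero_of_bound hε hδ0 (hFB'.sub hSB' hε.le) N
    (C := CL ^ N + c₁⁻¹ * Sd.CT ^ N) (by positivity) ?_
  intro A r hAδ hr0 hAr
  have hAε : ∀ i, ‖A i‖ < min ε₀ Sd.εS := fun i => (hAδ i).trans_le hδ1
  have hAε₀ : ∀ i, ‖A i‖ < ε₀ := fun i => (hAε i).trans_le (min_le_left _ _)
  have hAS : ∀ i, ‖A i‖ < Sd.εS := fun i => (hAε i).trans_le (min_le_right _ _)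
  have hAT : ∀ i, ‖A i‖ < Sd.δT := fun i => (hAδ i).trans_le hδ2
  have hAW : ∀ i, ‖A i‖ < εW := fun i => (hAδ i).trans_le hδ3
  set v : Fin d → K := fun a => y a + evalS (Wh a) A with hv
  have hvy0 : ∀ a, v a - y a = evalS (Wh a) A := fun a => by rw [hv]; ring
  have hvy : ∀ a, ‖v a - y a‖ < τv := fun a => by
    rw [hvy0]
    exact norm_evalS_lt_of_const_zero hsm1 hτv0 (isB_smallR hεW hτv0 (hW0 a) (hWB a)) (hW0 a)
      (fun i => (hAδ i).trans_le hδ4)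
  have hvy' : ∀ a, ‖v a - y a‖ ≤ CL * r := fun a => by
    obtain ⟨r', hr'0, hr'W, hr'⟩ := exists_radius hεW hAW
    rw [hvy0]
    have hs0 : 0 ≤ min r r' := le_min hr0 hr'0
    have hsW : min r r' ≤ εW := (min_le_right _ _).trans hr'W.le
    have h1 := norm_evalS_le_of_const_zero hεW hs0 hsW (hWB a) (hW0 a) (z := A)
      (fun i => le_min (hAr i) (hr' i))
    refine h1.trans ?_
    have h2 : CW * (min r r' / εW) = CL * min r r' := by rw [hCL]; field_simp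
    rw [h2]
    exact mul_le_mul_of_nonneg_left (min_le_left _ _) hCL0
  have hvn : ∀ i, ‖v i‖ < 1 := fun i => by
    have e : v i = y i + (v i - y i) := by ring
    rw [e]
    exact (IsUltrametricDist.norm_add_le_max _ _).trans_lt
      (max_lt (hy i) ((hvy i).trans_le hτv4))
  set u' := actPt I g v hvn with hu'
  have hu'n : ∀ i, ‖u' i‖ < 1 := norm_actPt_lt I hg
  have hu'u : ∀ i, ‖u' i - u i‖ ≤ τv := fun i =>
    norm_evR_sub_evR_le hτv0.le (fun a => (hvy a).le) _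
  have hu'e : ∀ i, u' i - y i = (u' i - u i) + (u i - y i) := fun i => by ring
  have hu'X : ∀ i, ‖u' i - y i‖ < εX := fun i => by
    rw [hu'e]
    refine (IsUltrametricDist.norm_add_le_max _ _).trans_lt (max_lt ?_ ((huy i).trans_le hτ1))
    exact (hu'u i).trans_lt (hτv2.trans_lt (by linarith))
  have hu'r : ∀ i, ‖u' i - y i‖ < B.r₀ := fun i => by
    rw [hu'e]
    refine (IsUltrametricDist.norm_add_le_max _ _).trans_lt (max_lt ?_ ((huy i).trans_le hτ4))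
    have := B.r₀_pos
    exact (hu'u i).trans_lt (hτv3.trans_lt (by linarith))
  have hx1 : ‖x l‖ < 1 := (B.η₀_lt l).2
  have hη1 : B.η₀ < 1 := (B.η₀_lt l).1
  have hwn : ∀ v' : Fin d → K, (∀ i, ‖v' i - y i‖ < B.r₀) → ‖B.w l v'‖ < 1 := fun v' hv' => by
    have e : B.w l v' = x l + (B.w l v' - x l) := by ring
    rw [e]
    exact (IsUltrametricDist.norm_add_le_max _ _).trans_lt
      (max_lt hx1 ((B.w_close l v' hv').trans_lt hη1))
  have hvr : ∀ i, ‖v i - y i‖ < B.r₀ := fun i => by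
    have := B.r₀_pos
    exact (hvy i).trans_le (hτv3.trans (by linarith))
  have hvX : ∀ i, ‖v i - y i‖ < εX := fun i => (hvy i).trans_le (hτv2.trans (by linarith))
  have ht₁ : ‖B.w l u'‖ < 1 := hwn _ hu'r
  have ha : ‖B.w l u‖ < 1 := hwn _ (fun i => (huy i).trans_le hτ4)
  have hav : ‖B.w l v‖ < 1 := hwn _ hvr
  have hTle := Sd.Tf_le ω (A l) hωT (hAT l)
  set T := Sd.Tf ω (A l) with hT
  have hT1 : ‖T‖ < c₁ := by
    have h1 : ‖A l‖ < c₁ / (Sd.CT + 1) := (hAδ l).trans_le hδ5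
    rw [lt_div_iff₀ (by positivity)] at h1
    refine hTle.1.trans_lt (lt_of_le_of_lt ?_ h1)
    nlinarith [norm_nonneg (A l)]
  -- closeness of `av` and `x`
  have hb : ‖ptSub F₀ (B.w l v) (x l)‖ < c₁ := by
    have h1 : ‖B.w l v - x l‖ ≤ cL * τv := by
      have := hL v y τv (fun i => (hvy i).trans_le hτv5) (fun i => by simpa using hδL) hτv0.le
        (fun i => (hvy i).le)
      rwa [B.w_y l] at this
    have h2 : cL * τv < c₁ := by
      have h3 : τv * (cL + 1) ≤ c₁ := (le_div_iff₀ (by positivity)).1 hτv6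
      nlinarith
    have h3 := lip_ptAdd hF₀int hav (norm_ptNeg_lt hF₀int hx1) hx1 (norm_ptNeg_lt hF₀int hx1)
    rw [ptAdd_ptNeg hF₀int hx1, sub_zero, sub_self, norm_zero,
      max_eq_left (norm_nonneg _)] at h3
    exact h3.trans_lt (h1.trans_lt h2)
  -- the coefficients at `v` and at `y`
  have hδθ : ∀ i, ‖PowerSeries.coeff i θj - PowerSeries.coeff i (tw p (j * h) (θAt I g v hvn))‖ ≤ (CL * r) ^ N := by
    intro i
    rw [hθj, coeff_tw, coeff_tw, norm_sub_pow_char_pow, ← hN]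
    refine pow_le_pow_left₀ (norm_nonneg _) ?_ N
    rw [θAt, θAt, PowerSeries.coeff_map, PowerSeries.coeff_map]
    exact norm_evR_sub_evR_le (by positivity) (fun a => by rw [norm_sub_rev]; exact hvy' a) _
  have h1act : ev (tw p (j * h) (θAt I g v hvn)) (B.w l u') = B.w l v :=
    hact g hg hg1 v hvn (fun i => (hvy i).trans_le hτv1) l
  have h2act : ev θj (B.w l u) = x l := by
    have := hact g hg hg1 y hy (fun i => by simpa using hδ₁) l
    rwa [B.w_y l] at this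
  have hsum : ∑ i ∈ Finset.range N, PowerSeries.coeff i (cmp ξj θj) * T ^ i = A l := by
    rw [hcmp, ← Sd.Tf_sol ω (A l) hωT (hAT l), hWpω]
    refine Finset.sum_congr rfl fun i hi => ?_
    rw [coeff_tw, ← hN, hr₃ g hg hg3 i (Finset.mem_range.1 hi)]
  have hA : ev ξj (ptSub F₀ (B.w l v) (x l)) = A l := by
    rw [← hXc v hvX l]
    have e : (fun i => v i - y i) = fun i => evalS (Wh i) A := funext hvy0
    rw [e]
    exact (hXW A hAW).2 l
  have est := abstract_est hF₀int (Du.Fj_int j) hθj1 hθj0 hθjunit ((θAt_int I g (u := v) (hu := hvn)).tw p _) hθjF hξj1 (N := N)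
    hx1 ha ht₁ hav (hTle.2) hT1 hb hδθ h1act h2act hsum hA
  rw [evalS_sub hε hFB' hSB' hAε]
  have e₁ : evalS (F l) A = ev ξj (ptSub F₀ (B.w l u') (x l)) := by
    rw [hFe A hAε₀ l]
    exact hXc u' hu'X l
  have e₂ : evalS (peval ω (Sd.Sh l)) A = ev ξj (ptSub F₀ (ptAdd (Du.Fj j) (B.w l u) T) (x l)) := by
    rw [evalS_peval Sd.εS_pos (Sd.Sh_B l) hωS hAS, Sd.Sh_eval ω A hωS hAS l, hWpω,
      evTL_eq (FR I j) hun ha hTle.2]
    rw [map_evP_FR I j (hρ0 := hρ0) (hρ1 := hρ1) (hvρ := huρ)]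
  rw [e₁, e₂]
  refine est.trans (max_le ?_ ?_)
  · rw [mul_pow, add_mul]
    have : 0 ≤ c₁⁻¹ * Sd.CT ^ N * r ^ N := by positivity
    linarith
  · have h1 : ‖T‖ ≤ Sd.CT * r := hTle.1.trans (mul_le_mul_of_nonneg_left (hAr l) hCT)
    have h2 : ‖T‖ ^ N ≤ (Sd.CT * r) ^ N := pow_le_pow_left₀ (norm_nonneg _) h1 N
    rw [mul_pow] at h2
    have h3 : c₁⁻¹ * ‖T‖ ^ N ≤ c₁⁻¹ * (Sd.CT ^ N * r ^ N) := mul_le_mul_of_nonneg_left h2 hc₁inv
    rw [add_mul]
    have : 0 ≤ CL ^ N * r ^ N := by positivity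
    nlinarith

/-- Clause (a): the germ maps agree with `S(ω, A)` modulo degree `N`. -/
theorem clause_a {y : Fin d → K} (hy : ∀ i, ‖y i‖ < 1) {ρ : ℝ} (hρ0 : 0 ≤ ρ) (hρ1 : ρ < 1)
    (hyρ : ∀ i, ‖y i‖ ≤ ρ) {j : ℕ} {x : Fin d → K} {ξ : PowerSeries K}
    (hξ0 : PowerSeries.constantCoeff ξ = 0) (hξ1 : IsInt ξ) (hξc : PowerSeries.coeff 1 ξ ≠ 0)
    (B : BranchData I y j x) {Xh Wh : Fin d → MvPowerSeries (Fin d) K} {εX εX' CX εW CW : ℝ}
    (hεX : 0 < εX) (hεX' : 0 < εX') (hεW : 0 < εW) (hXB : ∀ l, IsB εX CX (Xh l))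
    (hX0 : ∀ l, constantCoeff (Xh l) = 0) (hWB : ∀ i, IsB εW CW (Wh i))
    (hW0 : ∀ i, constantCoeff (Wh i) = 0)
    (hXW : ∀ s : Fin d → K, (∀ a, ‖s a‖ < εW) →
      (∀ i, ‖evalS (Wh i) s‖ < εX) ∧ ∀ l, evalS (Xh l) (fun i => evalS (Wh i) s) = s l)
    (hWX : ∀ w : Fin d → K, (∀ i, ‖w i‖ < εX') →
      (∀ l, ‖evalS (Xh l) w‖ < εW) ∧ ∀ i, evalS (Wh i) (fun l => evalS (Xh l) w) = w i)
    (hXc : ∀ v : Fin d → K, (∀ i, ‖v i - y i‖ < εX) → ∀ l, evalS (Xh l) (fun i => v i - y i) =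
      ev (tw p (j * h) ξ) (ptSub ((pointData I y hy hρ0 hρ1 hyρ).Fj j) (B.w l v) (x l)))
    {ξh : ℕ → (Fin d → K) → K}
    (hξh : ∃ r₃ : ℕ, ∀ g, IsFGAut (Γ₀ p n) g → CongX r₃ g → ∀ i < p ^ (j * h),
      PowerSeries.coeff i (cmp ξ (θAt I g y hy)) = ξh i (actPt I g y hy))
    (Sd : SData I y ((pointData I y hy hρ0 hρ1 hyρ).Fj j) (tw p (j * h) ξ) j (p ^ (j * h)) x B.w Wh ξh) :
    ∃ r₂ : ℕ, ∀ g, IsFGAut (Γ₀ p n) g → CongX r₂ g → ∀ (F : Fin d → MvPowerSeries (Fin d) K) {ε₀ C₀ : ℝ},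
      0 < ε₀ → (∀ l, IsB ε₀ C₀ (F l)) →
      (∀ s : Fin d → K, (∀ a, ‖s a‖ < ε₀) → ∀ l,
        evalS (F l) s = evalS (Xh l) (fun i => actT I g (fun a => y a + evalS (Wh a) s) i - y i)) →
      ∀ l, CongO (p ^ (j * h)) (F l)
        (peval (fun l' => evalS (Xh l') (fun i => actPt I g y hy i - y i)) (Sd.Sh l)) :=
  clause_a_aux I hy hρ0 hρ1 hyρ hξ0 hξ1 hξc rfl rfl rfl B hεX hεX' hεW hXB hX0 hWB hW0 hXW hWX hXc hξh Sd

end main

end Crest.Agent.LT
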