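/-
S0351 T13c1: existence of the translation data `SData`, clause (b') of E4.
-/
import Crest.Agent.Lib.LT.CoordS
import Crest.Agent.Lib.LT.CoordXi

set_option autoImplicit false
set_option linter.unusedSectionVars false
set_option linter.unusedVariables false
set_option linter.unnecessarySimpa false

namespace Crest.Agent.LT

open MvPowerSeries Filter Topology Crest.LubinTate

section general

variable {K : Type*} [NontriviallyNormedField K] [IsUltrametricDist K] [CompleteSpace K]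

lemma LinAt.sum_sb {ζ ι : Type*} [Fintype ζ] {f : ι → (ζ → K) → K} {L : ι → ζ → K} {z : ζ → K}
    (s : Finset ι) (hf : ∀ i ∈ s, LinAt (f i) z (L i)) :
    LinAt (fun x => ∑ i ∈ s, f i x) z (fun j => ∑ i ∈ s, L i j) := by
  classical
  induction s using Finset.induction_on with
  | empty =>
    have := linAt_const (0 : K) z
    simpa [Pi.zero_def] using this
  | insert a s ha ih =>
    simp only [Finset.sum_insert ha]
    exact (hf a (Finset.mem_insert_self _ _)).add (ih fun i hi => hf i (Finset.mem_insert_of_mem hi))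

/-- The truncation of an integral series. -/
noncomputable def truncSb (f : PowerSeries K) (m : ℕ) : PowerSeries K :=
  ∑ i ∈ Finset.range m, PowerSeries.C (PowerSeries.coeff i f) * PowerSeries.X ^ i

lemma coeff_truncSb (f : PowerSeries K) (m i : ℕ) :
    PowerSeries.coeff i (truncSb f m) = if i < m then PowerSeries.coeff i f else 0 := by
  classical
  rw [truncSb, map_sum]
  simp only [PowerSeries.coeff_C_mul, PowerSeries.coeff_X_pow, mul_ite, mul_one, mul_zero]
  simp [Finset.sum_ite_eq]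

lemma isInt_truncSb {f : PowerSeries K} (hf : IsInt f) (m : ℕ) : IsInt (truncSb f m) := by
  intro i
  rw [coeff_truncSb]
  split_ifs
  · exact hf i
  · simp

lemma ev_truncSb {f : PowerSeries K} (hf : IsInt f) {x : K} (hx : ‖x‖ < 1) (m : ℕ) :
    ev (truncSb f m) x = ∑ i ∈ Finset.range m, PowerSeries.coeff i f * x ^ i := by
  induction m with
  | zero => simp [truncSb, ev_zero]
  | succ m ih =>
    have e : truncSb f (m + 1) = truncSb f m + PowerSeries.C (PowerSeries.coeff m f) * PowerSeries.X ^ m := by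
      simp [truncSb, Finset.sum_range_succ]
    rw [e, ev_add (isInt_truncSb hf m) ((isInt_C (hf m)).mul (isInt_X_pow m)) hx, ih,
      ev_mul (isInt_C (hf m)) (isInt_X_pow m) hx, ev_C, ev_X_pow hx, Finset.sum_range_succ]

/-- An integral series and its Taylor polynomial. -/
lemma norm_ev_sub_sum_le {f : PowerSeries K} (hf : IsInt f) {x : K} (hx : ‖x‖ < 1) (m : ℕ) :
    ‖ev f x - ∑ i ∈ Finset.range m, PowerSeries.coeff i f * x ^ i‖ ≤ ‖x‖ ^ m := by
  have hT := isInt_truncSb hf m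
  rw [← ev_truncSb hf hx m, ← ev_sub hf hT hx]
  have h := norm_evalS_le_of_order (σ := Unit) (A := f - truncSb f m) (r := 1) (ρ := ‖x‖) m ?_ ?_
    (norm_nonneg _) hx.le (x := fun _ => x) (fun _ => le_rfl)
  · simpa [ev] using h
  · intro γ
    rw [coeff_unit]
    exact (hf.sub hT) _
  · intro γ hγ
    rw [degree_unit] at hγ
    rw [coeff_unit, map_sub, coeff_truncSb, if_pos hγ, sub_self]

end general

section sdata

variable {p : ℕ} [Fact p.Prime] {n h d : ℕ} (I : CharPInput p n h d)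
  {K : Type*} [NontriviallyNormedField K] [IsUltrametricDist K] [CompleteSpace K] [CharP K p]
  [PerfectRing K p] [Algebra (GaloisField p n) K]
  {y : Fin d → K} (hy : ∀ i, ‖y i‖ < 1) {ρ : ℝ} (hρ0 : 0 ≤ ρ) (hρ1 : ρ < 1) (hyρ : ∀ i, ‖y i‖ ≤ ρ)

local notation "DD" => pointData I y hy hρ0 hρ1 hyρ

omit [CharP K p] [PerfectRing K p] in
lemma isIntLaw_FR_map {v : Fin d → K} (hv : ∀ i, ‖v i‖ < 1) (m : ℕ) :
    IsIntLaw ((FR I m).map (evR v hv)) := fun γ => by
  simp only [one_pow, mul_one]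
  show ‖coeff γ (MvPowerSeries.map (evR v hv) (FR I m).toPowerSeries)‖ ≤ 1
  rw [coeff_map]
  exact norm_evR_le_one _

lemma sum_term_zero (ξh : ℕ → (Fin d → K) → K) (hξ00 : ∀ v, ξh 0 v = 0) {N : ℕ} (hN : N ≠ 0)
    (M : ℕ) (v : Fin d → K) : ∑ i ∈ Finset.range M, ξh i v ^ N * (0 : K) ^ i = 0 := by
  refine Finset.sum_eq_zero fun i _ => ?_
  rcases Nat.eq_zero_or_pos i with rfl | hi
  · rw [hξ00, zero_pow hN, zero_mul]
  · rw [zero_pow hi.ne', mul_zero]


section build

variable {Wh : Fin d → MvPowerSeries (Fin d) K} {εW CW : ℝ} (hεW : 0 < εW) (hWB : ∀ i, IsB εW CW (Wh i))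
  (hW0 : ∀ i, constantCoeff (Wh i) = 0)

include hεW hWB hW0

omit [CharP K p] [PerfectRing K p] [Algebra (GaloisField p n) K] in
/-- `u ↦ y_a + Wh_a(s(u))` is analytic. -/
lemma anAt_Wp {ζ : Type*} [Fintype ζ] (y : Fin d → K) {s : Fin d → (ζ → K) → K} {z₀ : ζ → K}
    (hs : ∀ i, AnAt (s i) z₀) (hs0 : ∀ i, s i z₀ = 0) (a : Fin d) :
    AnAt (fun u => y a + evalS (Wh a) (fun i => s i u)) z₀ := by
  refine (anAt_const (y a) z₀).add (AnAt.comp (f := evalS (Wh a)) (G := s) hs ?_)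
  have e : (fun i => s i z₀) = 0 := by
    funext i
    exact hs0 i
  rw [e]
  exact anAt_evalS hεW (hWB a) (fun i => by simpa using hεW)

omit [CharP K p] [PerfectRing K p] [Algebra (GaloisField p n) K] in
lemma Wp_zero (y : Fin d → K) {s : Fin d → K} (hs : s = 0) :
    (fun a => y a + evalS (Wh a) s) = y := by
  subst hs
  funext a
  rw [evalS_zero_point, hW0, add_zero]

/-- **The existence of the translation data.** -/
theorem exists_sdata {j : ℕ} (hj : 1 ≤ j) {x : Fin d → K} (B : BranchData I y j x)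
    {ξ : PowerSeries K} (hξ1 : IsInt ξ) (hξ0 : PowerSeries.constantCoeff ξ = 0)
    (hξc : PowerSeries.coeff 1 ξ ≠ 0)
    {ξh : ℕ → (Fin d → K) → K} (hξan : ∀ i, AnAt (ξh i) y) (hξy : ∀ i, ξh i y = PowerSeries.coeff i ξ)
    (hξ00 : ∀ v, ξh 0 v = 0) :
    Nonempty (SData I y ((DD).Fj j) (tw p (j * h) ξ) j (p ^ (j * h)) x B.w Wh ξh) := by
  classical
  have hpp : p.Prime := Fact.out
  have hh := I.h1
  set N := p ^ (j * h) with hN
  have hN2 : 2 ≤ N := by
    have h1 : 1 ≤ j * h := Nat.mul_pos hj hh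
    calc 2 ≤ p := hpp.two_le
      _ = p ^ 1 := (pow_one p).symm
      _ ≤ p ^ (j * h) := Nat.pow_le_pow_right hpp.pos h1
  have hN0 : N ≠ 0 := by omega
  have hpN : p ∣ N := dvd_pow_self p (by have : 1 ≤ j * h := Nat.mul_pos hj hh; omega)
  -- the coefficient functions
  let ζ := Fin d ⊕ Unit
  let aF : ℕ → (ζ → K) → K := fun i u => ξh i (fun a => y a + evalS (Wh a) (fun c => u (Sum.inl c))) ^ N
  have hz0 : ∀ (c : Fin d), (fun u : ζ → K => u (Sum.inl c)) 0 = 0 := fun c => rfl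
  have hWz : (fun a => y a + evalS (Wh a) (fun c => (0 : ζ → K) (Sum.inl c))) = y :=
    Wp_zero hεW hWB hW0 y rfl
  have hWan : ∀ a, AnAt (fun u : ζ → K => y a + evalS (Wh a) (fun c => u (Sum.inl c))) 0 := fun a =>
    anAt_Wp hεW hWB hW0 y (s := fun c (u : ζ → K) => u (Sum.inl c)) (fun c => anAt_coord _ _) (fun c => rfl) a
  have haF : ∀ i, AnAt (aF i) 0 := by
    intro i
    refine AnAt.pow (AnAt.comp (f := ξh i)
      (G := fun a (u : ζ → K) => y a + evalS (Wh a) (fun c => u (Sum.inl c))) hWan ?_) N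
    rw [hWz]
    exact hξan i
  have hLa := fun i => exists_linAt_inl (ζ := ζ) (β := Unit) (y := 0) (t0 := fun _ => (0 : K)) (haF i)
  choose La hLaL hLa0 using hLa
  set base : ζ ⊕ Unit → K := Sum.elim 0 (fun _ => 0) with hbase
  have hcT := linAt_coord (K := K) (Sum.inr () : ζ ⊕ Unit) base
  have hcA := linAt_coord (K := K) (Sum.inl (Sum.inr ()) : ζ ⊕ Unit) base
  -- the equation
  let G : Unit → (ζ ⊕ Unit → K) → K := fun _ z =>
    ∑ i ∈ Finset.range N, aF i (fun c => z (Sum.inl c)) * z (Sum.inr ()) ^ i - z (Sum.inl (Sum.inr ()))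
  have hterm := fun i => (hLaL i).mul (hcT.pow i)
  have hG := (LinAt.sum_sb (Finset.range N) (fun i _ => hterm i)).sub hcA
  set LG : ζ ⊕ Unit → K := _ with hLG
  have hGL : ∀ b, LinAt (G b) base LG := fun b => hG
  have hbaseT : base (Sum.inr ()) = 0 := rfl
  have hbaseL : (fun c => base (Sum.inl c)) = (0 : ζ → K) := rfl
  have hbaseS : (fun c => (0 : ζ → K) (Sum.inl c)) = (0 : Fin d → K) := rfl
  have haF0 : ∀ i, aF i 0 = (PowerSeries.coeff i ξ) ^ N := by
    intro i
    show ξh i (fun a => y a + evalS (Wh a) (fun c => (0 : ζ → K) (Sum.inl c))) ^ N = _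
    rw [hWz, hξy]
  set c0 : K := (PowerSeries.coeff 1 ξ) ^ N with hc0
  have hc00 : c0 ≠ 0 := pow_ne_zero _ hξc
  have hLGT : LG (Sum.inr ()) = c0 := by
    rw [hLG]
    simp only [hLa0, hbaseL, hbaseT, zero_mul, zero_add]
    rw [Finset.sum_eq_single 1]
    · simp [hc0, haF0]
    · intro i _ hi
      rcases Nat.eq_zero_or_pos i with rfl | hi0
      · simp
      · have : i - 1 ≠ 0 := by omega
        simp [this]
    · intro h1
      exact absurd (Finset.mem_range.2 (by omega)) h1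
  have hG0 : ∀ b, G b base = 0 := by
    intro b
    show ∑ i ∈ Finset.range N, aF i (fun c => base (Sum.inl c)) * base (Sum.inr ()) ^ i - base (Sum.inl (Sum.inr ())) = 0
    rw [hbaseT, hbaseL, show base (Sum.inl (Sum.inr ())) = 0 from rfl, sub_zero]
    exact sum_term_zero ξh hξ00 hN0 _ _
  have hMN : (Matrix.of fun _ _ => c0⁻¹ : Matrix Unit Unit K) * (Matrix.of fun _ _ => c0) = 1 := by
    ext a b
    simp [Matrix.mul_apply, hc00]
  have hNM : (Matrix.of fun _ _ => c0 : Matrix Unit Unit K) * (Matrix.of fun _ _ => c0⁻¹) = 1 := by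
    ext a b
    simp [Matrix.mul_apply, hc00]
  obtain ⟨τ, J, δ, η, hδ, hη, hτ0, hτL, -, hsol, huniq⟩ := exists_implicit (α := ζ) (β := Unit)
    (G := G) (z := 0) (t0 := fun _ => 0) (L := fun _ => LG) hGL hG0
    (Matrix.of fun _ _ => c0) (Matrix.of fun _ _ => c0⁻¹) (fun _ _ => hLGT.symm) hMN hNM
  obtain ⟨c, δ', hc, hδ', hlip⟩ := (hτL ()).anAt.exists_lip
  set δT : ℝ := min (min δ δ') (min (1 / 2) (1 / (c + 1))) with hδT
  have hδTpos : 0 < δT := by positivity
  have hδTδ : δT ≤ δ := (min_le_left _ _).trans (min_le_left _ _)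
  have hδTδ' : δT ≤ δ' := (min_le_left _ _).trans (min_le_right _ _)
  have hδT2 : δT ≤ 1 / 2 := (min_le_right _ _).trans (min_le_left _ _)
  have hδTc : δT ≤ 1 / (c + 1) := (min_le_right _ _).trans (min_le_right _ _)
  have hpt : ∀ (s : Fin d → K) (A : K), (∀ a, ‖s a‖ < δT) → ‖A‖ < δT →
      ∀ i, ‖(Sum.elim s (fun _ => A) : ζ → K) i - (0 : ζ → K) i‖ < δT := by
    rintro s A hs hA (a | u)
    · simpa using hs a
    · simpa using hA
  -- the solution
  let Tf : (Fin d → K) → K → K := fun s A => τ () (Sum.elim s (fun _ => A))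
  have hTf_sol : ∀ (s : Fin d → K) (A : K), (∀ a, ‖s a‖ < δT) → ‖A‖ < δT →
      ∑ i ∈ Finset.range N, ξh i (fun a => y a + evalS (Wh a) s) ^ N * Tf s A ^ i = A := by
    intro s A hs hA
    have h1 := (hsol (Sum.elim s (fun _ => A)) (fun i => (hpt s A hs hA i).trans_le hδTδ) ()).2
    exact sub_eq_zero.1 h1
  have hTf0 : ∀ (s : Fin d → K), (∀ a, ‖s a‖ < δT) → Tf s 0 = 0 := by
    intro s hs
    have hs' : ∀ a, ‖(0 : K)‖ < δT ∧ ‖s a‖ < δT := fun a => ⟨by simpa using hδTpos, hs a⟩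
    have h0' : ‖(0 : K)‖ < δT := by simpa using hδTpos
    refine (huniq (Sum.elim s (fun _ => 0)) (fun _ => 0) (fun i => (hpt s 0 hs h0' i).trans_le hδTδ)
      (fun _ => by simpa using hη.le) (fun b => ?_) ()).symm
    show ∑ i ∈ Finset.range N, ξh i (fun a => y a + evalS (Wh a) s) ^ N * (0 : K) ^ i - 0 = 0
    rw [sum_term_zero ξh hξ00 hN0, sub_zero]
  have hTf_le : ∀ (s : Fin d → K) (A : K), (∀ a, ‖s a‖ < δT) → ‖A‖ < δT → ‖Tf s A‖ ≤ c * ‖A‖ ∧ ‖Tf s A‖ < 1 := by
    intro s A hs hA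
    have h0' : ‖(0 : K)‖ < δT := by simpa using hδTpos
    have h1 := hlip (Sum.elim s (fun _ => A)) (Sum.elim s (fun _ => 0)) ‖A‖
      (fun i => (hpt s A hs hA i).trans_le hδTδ') (fun i => (hpt s 0 hs h0' i).trans_le hδTδ')
      (norm_nonneg _) (by
        rintro (a | u)
        · simp
        · simp)
    have h2 : ‖Tf s A‖ ≤ c * ‖A‖ := by
      have e : Tf s A = τ () (Sum.elim s (fun _ => A)) - τ () (Sum.elim s (fun _ => 0)) := by
        have := hTf0 s hs
        show Tf s A = Tf s A - Tf s 0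
        rw [this, sub_zero]
      rw [e]
      exact h1
    refine ⟨h2, h2.trans_lt ?_⟩
    have hA1 : ‖A‖ < 1 / (c + 1) := hA.trans_le hδTc
    rw [lt_div_iff₀ (by positivity)] at hA1
    nlinarith [norm_nonneg A]
  -- the series
  have hFint : IsIntLaw ((DD).Fj j) := (DD).Fj_int _
  have hξj : IsInt (tw p (j * h) ξ) := hξ1.tw p _
  have hxl : ∀ l, ‖x l‖ < 1 := fun l => (B.η₀_lt l).2
  let fS : Fin d → (Fin d ⊕ Fin d → K) → K := fun l u =>
    ev (tw p (j * h) ξ) (ptSub ((DD).Fj j)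
      (evTL (FR I j) (fun a => y a + evalS (Wh a) (fun c => u (Sum.inl c)))
        (B.w l (fun a => y a + evalS (Wh a) (fun c => u (Sum.inl c))))
        (τ () (Sum.elim (fun c => u (Sum.inl c)) (fun _ => u (Sum.inr l))))) (x l))
  have hfS : ∀ l, AnAt (fS l) 0 := by
    intro l
    have hv : ∀ a, AnAt (fun u : Fin d ⊕ Fin d → K => y a + evalS (Wh a) (fun c => u (Sum.inl c))) 0 := fun a =>
      anAt_Wp hεW hWB hW0 y (s := fun c (u : Fin d ⊕ Fin d → K) => u (Sum.inl c)) (fun c => anAt_coord _ _)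
        (fun c => rfl) a
    have hv0 : (fun a => y a + evalS (Wh a) (fun c => (0 : Fin d ⊕ Fin d → K) (Sum.inl c))) = y :=
      Wp_zero hεW hWB hW0 y rfl
    have hw : AnAt (fun u : Fin d ⊕ Fin d → K => B.w l (fun a => y a + evalS (Wh a) (fun c => u (Sum.inl c)))) 0 := by
      refine AnAt.comp (f := B.w l) (G := fun a (u : Fin d ⊕ Fin d → K) => y a + evalS (Wh a) (fun c => u (Sum.inl c))) hv ?_
      rw [hv0]
      exact B.w_an l
    have hT : AnAt (fun u : Fin d ⊕ Fin d → K => τ () (Sum.elim (fun c => u (Sum.inl c)) (fun _ => u (Sum.inr l)))) 0 := by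
      have h1 : AnAt (fun u : Fin d ⊕ Fin d → K => τ () (fun i : ζ =>
          (Sum.elim (fun c (u : Fin d ⊕ Fin d → K) => u (Sum.inl c)) (fun _ u => u (Sum.inr l)) : ζ → _) i u)) 0 := by
        refine AnAt.comp (f := τ ()) (G := (Sum.elim (fun c (u : Fin d ⊕ Fin d → K) => u (Sum.inl c)) (fun _ u => u (Sum.inr l)) : ζ → _)) ?_ ?_
        · rintro (c | u)
          · exact anAt_coord _ _
          · exact anAt_coord _ _
        · have e : (fun i : ζ => (Sum.elim (fun c (u : Fin d ⊕ Fin d → K) => u (Sum.inl c)) (fun _ u => u (Sum.inr l)) : ζ → _) i 0) = 0 := by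
            funext i
            rcases i with c | u <;> rfl
          rw [e]
          exact (hτL ()).anAt
      have e : ∀ u : Fin d ⊕ Fin d → K, (fun i : ζ =>
          (Sum.elim (fun c (u : Fin d ⊕ Fin d → K) => u (Sum.inl c)) (fun _ u => u (Sum.inr l)) : ζ → _) i u) =
          Sum.elim (fun c => u (Sum.inl c)) (fun _ => u (Sum.inr l)) := by
        intro u
        funext i
        rcases i with c | u' <;> rfl
      simpa only [e] using h1
    obtain ⟨Lw, hLw⟩ := hw.exists_linAt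
    obtain ⟨LT, hLT⟩ := hT.exists_linAt
    have hvL := fun a => (hv a).exists_linAt
    choose Lv hLv using hvL
    have hv1 : ∀ a, ‖(fun u : Fin d ⊕ Fin d → K => fun a => y a + evalS (Wh a) (fun c => u (Sum.inl c))) 0 a‖ < 1 := by
      intro a
      show ‖(fun a => y a + evalS (Wh a) (fun c => (0 : Fin d ⊕ Fin d → K) (Sum.inl c))) a‖ < 1
      rw [hv0]
      exact hy a
    have hw0 : B.w l (fun a => y a + evalS (Wh a) (fun c => (0 : Fin d ⊕ Fin d → K) (Sum.inl c))) = x l := by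
      rw [hv0, B.w_y]
    have hT0 : τ () (Sum.elim (fun c => (0 : Fin d ⊕ Fin d → K) (Sum.inl c)) (fun _ => (0 : Fin d ⊕ Fin d → K) (Sum.inr l))) = 0 := by
      have e : (Sum.elim (fun c => (0 : Fin d ⊕ Fin d → K) (Sum.inl c)) (fun _ => (0 : Fin d ⊕ Fin d → K) (Sum.inr l)) : ζ → K) = 0 := by
        funext i
        rcases i with c | u <;> rfl
      rw [e]
      exact hτ0 ()
    have hE := linAt_evTL (FR I j) (v := fun u a => y a + evalS (Wh a) (fun c => u (Sum.inl c))) hLv hLw hLT hv1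
      (by
        show ‖B.w l (fun a => y a + evalS (Wh a) (fun c => (0 : Fin d ⊕ Fin d → K) (Sum.inl c)))‖ < 1
        rw [hw0]
        exact hxl l)
      (by
        show ‖τ () (Sum.elim (fun c => (0 : Fin d ⊕ Fin d → K) (Sum.inl c)) (fun _ => (0 : Fin d ⊕ Fin d → K) (Sum.inr l)))‖ < 1
        rw [hT0]
        simp)
    have hE1 : ‖evTL (FR I j) (fun a => y a + evalS (Wh a) (fun c => (0 : Fin d ⊕ Fin d → K) (Sum.inl c)))
        (B.w l (fun a => y a + evalS (Wh a) (fun c => (0 : Fin d ⊕ Fin d → K) (Sum.inl c))))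
        (τ () (Sum.elim (fun c => (0 : Fin d ⊕ Fin d → K) (Sum.inl c)) (fun _ => (0 : Fin d ⊕ Fin d → K) (Sum.inr l))))‖ < 1 := by
      rw [hw0, hT0, hv0, evTL_eq _ hy (hxl l) (by simp)]
      exact norm_ptAdd_lt (isIntLaw_FR_map I hy j) (hxl l) (by simp)
    obtain ⟨A', -, hA'⟩ := exists_linAt_ptSub hFint hE hE1 (hxl l)
    exact (linAt_ev hξj hA' (norm_ptSub_lt hFint hE1 (hxl l))).anAt
  choose gS εg Cg hεg hgB hge using hfS
  obtain ⟨εS, hεS, hεSle⟩ := exists_pos_le εg hεg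
  obtain ⟨CS, hCS, hCSle⟩ := exists_nonneg_ge Cg
  exact ⟨{ Tf := Tf
           δT := δT
           CT := c
           δT_pos := hδTpos
           δT_lt := by linarith
           CT_nonneg := hc
           Tf_sol := hTf_sol
           Tf_le := hTf_le
           Sh := gS
           εS := εS
           CS := CS
           εS_pos := hεS
           Sh_B := fun l => ((hgB l).shrink hεS.le (hεSle l)).mono (hCSle l)
           Sh_eval := fun s A hs hA l => by
             have hw : ∀ i, ‖(Sum.elim s A) i‖ < εg l := by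
               rintro (a | a)
               · exact (hs a).trans_le (hεSle l)
               · exact (hA a).trans_le (hεSle l)
             have h1 := hge l (Sum.elim s A) hw
             have e : (fun i => (0 : Fin d ⊕ Fin d → K) i + Sum.elim s A i) = Sum.elim s A := by
               funext i
               simp
             rw [e] at h1
             exact h1.symm }⟩

end build


section hb

omit [PerfectRing K p] in
/-- Coefficients of `F^[m]` at two points. -/
lemma norm_FR_map_sub_le {v v' : Fin d → K} (hv : ∀ i, ‖v i‖ < 1) (hv' : ∀ i, ‖v' i‖ < 1) {δ : ℝ} (hδ : 0 ≤ δ)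
    (hd : ∀ i, ‖v i - v' i‖ ≤ δ) (m : ℕ) (γ : Fin 2 →₀ ℕ) :
    ‖coeff γ ((FR I m).map (evR v hv)).toPowerSeries - coeff γ ((FR I m).map (evR v' hv')).toPowerSeries‖ ≤
      δ ^ p ^ (m * h) := by
  show ‖coeff γ (MvPowerSeries.map (evR v hv) (FR I m).toPowerSeries) -
    coeff γ (MvPowerSeries.map (evR v' hv') (FR I m).toPowerSeries)‖ ≤ _
  rw [coeff_map, coeff_map]
  have e : coeff γ (FR I m).toPowerSeries = (coeff γ I.F.toPowerSeries) ^ p ^ (m * h) := by
    show coeff γ (MvPowerSeries.map (iterateFrobenius (RR p n d) p (m * h)) I.F.toPowerSeries) = _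
    rw [coeff_map, iterateFrobenius_def]
  rw [e, map_pow, map_pow, norm_sub_pow_char_pow]
  exact pow_le_pow_left₀ (norm_nonneg _) (norm_evR_sub_evR_le hδ hd _) _

omit [CharP K p] [PerfectRing K p] [Algebra (GaloisField p n) K] in
lemma ptSub_ptAdd_sb {F : FormalGroup K} [F.IsComm] (hF : IsIntLaw F) {a Q x : K} (ha : ‖a‖ < 1) (hQ : ‖Q‖ < 1)
    (hx : ‖x‖ < 1) : ptSub F (ptAdd F a Q) x = ptAdd F (ptSub F a x) Q := by
  have hn := norm_ptNeg_lt hF hx
  rw [ptSub, ptSub, ptAdd_assoc hF ha hQ hn, ptAdd_comm hF hQ hn, ptAdd_assoc hF ha hn hQ]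

variable {Wh : Fin d → MvPowerSeries (Fin d) K} {εW CW : ℝ} (hεW : 0 < εW) (hWB : ∀ i, IsB εW CW (Wh i))
  (hW0 : ∀ i, constantCoeff (Wh i) = 0)

include hεW hWB hW0

/-- **Clause (b') of E4**: the translation series is the Honda law modulo degree `N`. -/
theorem sdata_hb {j : ℕ} (hj : 1 ≤ j) {x : Fin d → K} (B : BranchData I y j x)
    {ξ : PowerSeries K} (hξ1 : IsInt ξ) (hξhom : IsFGHom (DD).F (honda p h K) ξ)
    {Xh : Fin d → MvPowerSeries (Fin d) K} {εX : ℝ}
    (hXW : ∀ s : Fin d → K, (∀ a, ‖s a‖ < εW) →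
      (∀ i, ‖evalS (Wh i) s‖ < εX) ∧ ∀ l, evalS (Xh l) (fun i => evalS (Wh i) s) = s l)
    (hlast : ∀ v : Fin d → K, (∀ i, ‖v i - y i‖ < εX) → ∀ l, evalS (Xh l) (fun i => v i - y i) =
      ev (tw p (j * h) ξ) (ptSub ((DD).Fj j) (B.w l v) (x l)))
    {ξh : ℕ → (Fin d → K) → K} (hξan : ∀ i, AnAt (ξh i) y) (hξy : ∀ i, ξh i y = PowerSeries.coeff i ξ)
    (S : SData I y ((DD).Fj j) (tw p (j * h) ξ) j (p ^ (j * h)) x B.w Wh ξh) (l : Fin d) :
    CongO (p ^ (j * h)) (S.Sh l) (fgAdd (honda p h K) (X (Sum.inl l)) (X (Sum.inr l))) := by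
  classical
  revert S
  have hpp : p.Prime := Fact.out
  have hd1 := I.d1
  set N := p ^ (j * h) with hN
  have hN0 : N ≠ 0 := pow_ne_zero _ hpp.ne_zero
  set F := (DD).Fj j with hF
  set ξj := tw p (j * h) ξ with hξj
  set Γ := honda p h K with hΓ
  have hFint : IsIntLaw F := (DD).Fj_int _
  have hΓint : IsIntLaw Γ := isIntLaw_honda h
  have : F.IsComm := TowerData.Fj_comm _ _
  have : Γ.IsComm := honda_comm p h K
  have hξjint : IsInt ξj := hξ1.tw p _
  have hξjhom : IsFGHom F Γ ξj := by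
    have := hξhom.map (fr p (j * h))
    rwa [honda_map] at this
  have hFmap : F = (FR I j).map (evR y hy) :=
    (map_evP_FR I (hv := hy) (hρ0 := hρ0) (hρ1 := hρ1) (hvρ := hyρ) j).symm
  intro S
  -- Lipschitz constants of the `ξ̂`
  have hlip := fun i => (hξan i).exists_lip
  choose cξ δξ hcξ hδξ hξlip using hlip
  obtain ⟨c, hc0, hcle⟩ : ∃ c : ℝ, 0 ≤ c ∧ ∀ i < N, cξ i ≤ c :=
    ⟨∑ i ∈ Finset.range N, cξ i, Finset.sum_nonneg fun i _ => hcξ i, fun i hi =>
      Finset.single_le_sum (f := cξ) (fun i _ => hcξ i) (Finset.mem_range.2 hi)⟩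
  obtain ⟨δc, hδc, hδcle⟩ := exists_pos_le (ι := Fin N) (fun i => δξ i) (fun i => hδξ i)
  have hCW : 0 ≤ CW := (hWB ⟨0, hd1⟩).nonneg hεW.le
  set C₁ : ℝ := CW / εW with hC₁
  have hC₁0 : 0 ≤ C₁ := by positivity
  set m : ℝ := min (min δc B.r₀) 1 with hm
  have hm0 : 0 < m := lt_min (lt_min hδc B.r₀_pos) one_pos
  set δ₀ : ℝ := min (min (min S.εS S.δT) εW) (min (1 / 2) (m / (C₁ + 1))) with hδ₀
  have hδ₀0 : 0 < δ₀ := by
    have := S.εS_pos
    have := S.δT_pos
    positivity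
  have hδ₀ε : δ₀ ≤ S.εS := (min_le_left _ _).trans ((min_le_left _ _).trans (min_le_left _ _))
  have hδ₀T : δ₀ ≤ S.δT := (min_le_left _ _).trans ((min_le_left _ _).trans (min_le_right _ _))
  have hδ₀W : δ₀ ≤ εW := (min_le_left _ _).trans (min_le_right _ _)
  have hδ₀1 : δ₀ ≤ 1 / 2 := (min_le_right _ _).trans (min_le_left _ _)
  have hδ₀m : C₁ * δ₀ < m := by
    have h1 : δ₀ ≤ m / (C₁ + 1) := (min_le_right _ _).trans (min_le_right _ _)
    rw [le_div_iff₀ (by positivity)] at h1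
    nlinarith
  set C : ℝ := C₁ ^ N + S.CT ^ N + (c * C₁) ^ N with hC
  have hCT := S.CT_nonneg
  have hC0 : 0 ≤ C := by positivity
  -- the pointwise estimate
  have main : ∀ (z : Fin d ⊕ Fin d → K) (ρ' : ℝ), (∀ i, ‖z i‖ < δ₀) → 0 ≤ ρ' → (∀ i, ‖z i‖ ≤ ρ') →
      ‖evalS (S.Sh l) z - ptAdd Γ (z (Sum.inl l)) (z (Sum.inr l))‖ ≤ C * ρ' ^ N := by
    intro z ρ' hz hρ' hzρ
    set ρ'' : ℝ := min ρ' δ₀ with hρ''
    have hρ''0 : 0 ≤ ρ'' := le_min hρ' hδ₀0.le
    have hzρ'' : ∀ i, ‖z i‖ ≤ ρ'' := fun i => le_min (hzρ i) (hz i).le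
    have hρ''δ : ρ'' ≤ δ₀ := min_le_right _ _
    have hρ''ρ : ρ'' ^ N ≤ ρ' ^ N := pow_le_pow_left₀ hρ''0 (min_le_left _ _) _
    set s : Fin d → K := fun c => z (Sum.inl c) with hs
    set A : Fin d → K := fun c => z (Sum.inr c) with hA
    have hzel : z = Sum.elim s A := by
      funext i
      rcases i with c | c <;> rfl
    have hs0 : ∀ a, ‖s a‖ < δ₀ := fun a => hz _
    have hA0 : ∀ a, ‖A a‖ < δ₀ := fun a => hz _
    have hsW : ∀ a, ‖s a‖ < εW := fun a => (hs0 a).trans_le hδ₀W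
    set e : ℝ := C₁ * ρ'' with he
    have he0 : 0 ≤ e := by positivity
    have hem : e < m := lt_of_le_of_lt (mul_le_mul_of_nonneg_left hρ''δ hC₁0) hδ₀m
    have hWle : ∀ a, ‖evalS (Wh a) s‖ ≤ e := by
      intro a
      have h1 := norm_evalS_le_of_const_zero hεW hρ''0 (hρ''δ.trans hδ₀W) (hWB a) (hW0 a) (z := s)
        (fun i => hzρ'' _)
      have h2 : CW * (ρ'' / εW) = e := by
        rw [he, hC₁]
        field_simp
      rwa [h2] at h1
    set v : Fin d → K := fun a => y a + evalS (Wh a) s with hvdef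
    have hvy : ∀ a, v a - y a = evalS (Wh a) s := fun a => by simp [hvdef]
    have hvye : ∀ a, ‖v a - y a‖ ≤ e := fun a => by rw [hvy]; exact hWle a
    have he1 : e < 1 := hem.trans_le (min_le_right _ _)
    have hv1 : ∀ a, ‖v a‖ < 1 := fun a =>
      (IsUltrametricDist.norm_add_le_max _ _).trans_lt (max_lt (hy a) ((hWle a).trans_lt he1))
    have hsT : ∀ a, ‖s a‖ < S.δT := fun a => (hs0 a).trans_le hδ₀T
    have hAT : ‖A l‖ < S.δT := (hA0 l).trans_le hδ₀T
    set Q : K := S.Tf s (A l) with hQ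
    obtain ⟨hQle, hQ1⟩ := S.Tf_le s (A l) hsT hAT
    have hsol := S.Tf_sol s (A l) hsT hAT
    have hs1 : ‖s l‖ < 1 := (hs0 l).trans_le (hδ₀1.trans (by norm_num)) |>.trans_le le_rfl
    have hA1 : ‖A l‖ < 1 := (hA0 l).trans_le (hδ₀1.trans (by norm_num)) |>.trans_le le_rfl
    -- the branch
    have her₀ : e < B.r₀ := hem.trans_le ((min_le_left _ _).trans (min_le_right _ _))
    have hwc := B.w_close l v fun i => (hvye i).trans_lt her₀
    have hx1 : ‖x l‖ < 1 := (B.η₀_lt l).2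
    set a : K := B.w l v with ha
    have ha1 : ‖a‖ < 1 := by
      have e1 : a = (a - x l) + x l := by ring
      rw [e1]
      exact (IsUltrametricDist.norm_add_le_max _ _).trans_lt
        (max_lt (hwc.trans_lt (B.η₀_lt l).1) hx1)
    -- the value of the series
    have hSh := S.Sh_eval s A (fun a => (hs0 a).trans_le hδ₀ε) (fun a => (hA0 a).trans_le hδ₀ε) l
    rw [← hzel] at hSh
    set Fv := (FR I j).map (evR v hv1) with hFv
    have hFvint : IsIntLaw Fv := isIntLaw_FR_map I hv1 j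
    set E : K := evTL (FR I j) v a Q with hE
    have hEeq : E = ptAdd Fv a Q := evTL_eq _ hv1 ha1 hQ1
    have hE1 : ‖E‖ < 1 := by
      rw [hEeq]
      exact norm_ptAdd_lt hFvint ha1 hQ1
    set P₀ : K := ptAdd F a Q with hP₀
    have hP₀1 : ‖P₀‖ < 1 := norm_ptAdd_lt hFint ha1 hQ1
    have h1 : ‖E - P₀‖ ≤ e ^ N := by
      rw [hEeq, hP₀]
      refine norm_ptAdd_sub_le_of_coeff hFvint hFint (fun γ => ?_) ha1 hQ1
      rw [hFmap]
      exact norm_FR_map_sub_le I hv1 hy he0 hvye j γ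
    have hn1 := norm_ptNeg_lt hFint hx1
    have h2 : ‖ptSub F E (x l) - ptSub F P₀ (x l)‖ ≤ e ^ N := by
      refine (lip_ptAdd hFint hE1 hn1 hP₀1 hn1).trans (max_le h1 ?_)
      rw [sub_self, norm_zero]
      positivity
    have h3 : ‖ev ξj (ptSub F E (x l)) - ev ξj (ptSub F P₀ (x l))‖ ≤ e ^ N :=
      (lip_ev hξjint (norm_ptSub_lt hFint hE1 hx1) (norm_ptSub_lt hFint hP₀1 hx1)).trans h2
    have h4 : ptSub F P₀ (x l) = ptAdd F (ptSub F a (x l)) Q := ptSub_ptAdd_sb hFint ha1 hQ1 hx1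
    have hsa1 := norm_ptSub_lt hFint ha1 hx1
    have h5 : ev ξj (ptAdd F (ptSub F a (x l)) Q) = ptAdd Γ (ev ξj (ptSub F a (x l))) (ev ξj Q) :=
      ev_ptAdd hξjhom hξjint hFint hΓint hsa1 hQ1
    have h6 : ev ξj (ptSub F a (x l)) = s l := by
      have h61 := hlast v (fun i => by rw [hvy]; exact ((hXW s hsW).1 i)) l
      rw [← h61]
      have e2 : (fun i => v i - y i) = fun i => evalS (Wh i) s := funext hvy
      rw [e2]
      exact (hXW s hsW).2 l
    -- comparison of `ξ^[j](Q)` with `A_l`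
    have h7 : ‖ev ξj Q - A l‖ ≤ max (‖Q‖ ^ N) ((c * e) ^ N) := by
      have h71 := norm_ev_sub_sum_le hξjint hQ1 N
      have h72 : ‖∑ i ∈ Finset.range N, PowerSeries.coeff i ξj * Q ^ i - A l‖ ≤ (c * e) ^ N := by
        rw [← hsol, ← Finset.sum_sub_distrib]
        refine IsUltrametricDist.norm_sum_le_of_forall_le_of_nonneg (by positivity) fun i hi => ?_
        have hi' := Finset.mem_range.1 hi
        rw [← sub_mul, norm_mul, norm_pow Q, hξj, coeff_tw, ← hξy i, norm_sub_pow_char_pow]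
        have h8 : ‖ξh i y - ξh i v‖ ≤ c * e := by
          have hδi : e < δξ i := (hem.trans_le ((min_le_left _ _).trans (min_le_left _ _))).trans_le (hδcle ⟨i, hi'⟩)
          have h9 := hξlip i y v e (fun a => by simpa using (hδξ i)) (fun a => (hvye a).trans_lt hδi) he0
            (fun a => by rw [norm_sub_rev]; exact hvye a)
          exact h9.trans (mul_le_mul_of_nonneg_right (hcle i hi') he0)
        calc _ ≤ (c * e) ^ N * 1 := mul_le_mul (pow_le_pow_left₀ (norm_nonneg _) h8 _)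
              (pow_le_one₀ (norm_nonneg _) hQ1.le) (by positivity) (by positivity)
          _ = _ := mul_one _
      have e3 : ev ξj Q - A l = (ev ξj Q - ∑ i ∈ Finset.range N, PowerSeries.coeff i ξj * Q ^ i) +
          (∑ i ∈ Finset.range N, PowerSeries.coeff i ξj * Q ^ i - A l) := by ring
      rw [e3]
      exact (IsUltrametricDist.norm_add_le_max _ _).trans (max_le_max h71 h72)
    have hξQ1 : ‖ev ξj Q‖ < 1 := norm_ev_lt_one hξjint hξjhom.1 hQ1
    have h10 : ‖ptAdd Γ (s l) (ev ξj Q) - ptAdd Γ (s l) (A l)‖ ≤ ‖ev ξj Q - A l‖ := by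
      refine (lip_ptAdd hΓint hs1 hξQ1 hs1 hA1).trans (max_le ?_ le_rfl)
      rw [sub_self, norm_zero]
      exact norm_nonneg _
    -- conclusion
    have hval : evalS (S.Sh l) z - ptAdd Γ (z (Sum.inl l)) (z (Sum.inr l)) =
        (ev ξj (ptSub F E (x l)) - ev ξj (ptSub F P₀ (x l))) +
          (ptAdd Γ (s l) (ev ξj Q) - ptAdd Γ (s l) (A l)) := by
      rw [hSh, h4, h5, h6]
      ring
    rw [hval]
    refine (IsUltrametricDist.norm_add_le_max _ _).trans (max_le (h3.trans ?_) (h10.trans (h7.trans (max_le ?_ ?_))))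
    · rw [he, mul_pow, hC]
      have h11 : C₁ ^ N * ρ'' ^ N ≤ C₁ ^ N * ρ' ^ N := mul_le_mul_of_nonneg_left hρ''ρ (by positivity)
      have h12 : C₁ ^ N * ρ' ^ N ≤ (C₁ ^ N + S.CT ^ N + (c * C₁) ^ N) * ρ' ^ N := by
        refine mul_le_mul_of_nonneg_right ?_ (by positivity)
        have : 0 ≤ S.CT ^ N := by positivity
        have : 0 ≤ (c * C₁) ^ N := by positivity
        linarith
      linarith
    · have hAρ : ‖A l‖ ≤ ρ'' := hzρ'' _
      have h11 : ‖Q‖ ≤ S.CT * ρ'' := hQle.trans (mul_le_mul_of_nonneg_left hAρ hCT)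
      have h12 : ‖Q‖ ^ N ≤ S.CT ^ N * ρ'' ^ N := by
        rw [← mul_pow]
        exact pow_le_pow_left₀ (norm_nonneg _) h11 _
      have h13 : S.CT ^ N * ρ'' ^ N ≤ S.CT ^ N * ρ' ^ N := mul_le_mul_of_nonneg_left hρ''ρ (by positivity)
      have h14 : S.CT ^ N * ρ' ^ N ≤ (C₁ ^ N + S.CT ^ N + (c * C₁) ^ N) * ρ' ^ N := by
        refine mul_le_mul_of_nonneg_right ?_ (by positivity)
        have : 0 ≤ C₁ ^ N := by positivity
        have : 0 ≤ (c * C₁) ^ N := by positivity
        linarith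
      rw [hC]
      linarith
    · have e4 : (c * e) ^ N = (c * C₁) ^ N * ρ'' ^ N := by
        rw [he, ← mul_assoc, mul_pow]
      rw [e4, hC]
      have h13 : (c * C₁) ^ N * ρ'' ^ N ≤ (c * C₁) ^ N * ρ' ^ N := mul_le_mul_of_nonneg_left hρ''ρ (by positivity)
      have h14 : (c * C₁) ^ N * ρ' ^ N ≤ (C₁ ^ N + S.CT ^ N + (c * C₁) ^ N) * ρ' ^ N := by
        refine mul_le_mul_of_nonneg_right ?_ (by positivity)
        have : 0 ≤ C₁ ^ N := by positivity
        have : 0 ≤ S.CT ^ N := by positivity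
        linarith
      linarith
  -- the order lemma
  have hCS := (S.Sh_B l).nonneg S.εS_pos.le
  set ε : ℝ := min S.εS 1 with hε
  have hε0 : 0 < ε := lt_min S.εS_pos one_pos
  have hX1 : IsB (1 : ℝ) 1 (X (Sum.inl l) : MvPowerSeries (Fin d ⊕ Fin d) K) := isB_X 1 zero_le_one _
  have hX2 : IsB (1 : ℝ) 1 (X (Sum.inr l) : MvPowerSeries (Fin d ⊕ Fin d) K) := isB_X 1 zero_le_one _
  have hc1 : constantCoeff (X (Sum.inl l) : MvPowerSeries (Fin d ⊕ Fin d) K) = 0 := by simp
  have hc2 : constantCoeff (X (Sum.inr l) : MvPowerSeries (Fin d ⊕ Fin d) K) = 0 := by simp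
  have hB1 : IsB ε (max S.CS 1) (S.Sh l) :=
    ((S.Sh_B l).shrink hε0.le (min_le_left _ _)).mono (le_max_left _ _)
  have hB2 : IsB ε (max S.CS 1) (fgAdd Γ (X (Sum.inl l)) (X (Sum.inr l))) :=
    ((isB_fgAdd hΓint hX1 hX2 hc1 hc2).shrink hε0.le (min_le_right _ _)).mono (le_max_right _ _)
  have hδmin : 0 < min δ₀ ε := lt_min hδ₀0 hε0
  have key := coeff_eq_zero_of_bound hε0 hδmin (hB1.sub hB2 hε0.le) N hC0 (fun z ρ' hz hρ' hzρ => by
    have hz1 : ∀ i, ‖z i‖ < 1 := fun i => ((hz i).trans_le (min_le_right _ _)).trans_le (min_le_right _ _)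
    rw [evalS_sub hε0 hB1 hB2 (fun i => (hz i).trans_le (min_le_right _ _)),
      evalS_fgAdd hΓint hX1 hX2 hc1 hc2 hz1, evalS_X, evalS_X]
    exact main z ρ' (fun i => (hz i).trans_le (min_le_left _ _)) hρ' hzρ)
  intro γ hγ
  have := key γ hγ
  rwa [map_sub, sub_eq_zero] at this

end hb

end sdata

end Crest.Agent.LT
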