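/-
C3/C4 core: a point of a Noetherian local ring with finite residue field killing a prime `P`,
with values in a normed algebraically closed field, from a complete DVR mapping to the ring.
(BLUEPRINT §C3, §C4)
-/
import Mathlib

set_option autoImplicit false
set_option linter.unusedSectionVars false
set_option linter.unusedVariables false
set_option linter.style.haveILetI false
set_option linter.unusedSimpArgs false

namespace Crest.Agent.LT

open IsLocalRing

section Krull

variable {A : Type*} [CommRing A] [IsDomain A] [IsLocalRing A] [IsNoetherianRing A]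

/-- If every nonzero prime of a Noetherian local domain contains `t ≠ 0`, `t ∈ 𝔪`,
then `𝔪` is minimal over `(t)`. -/
lemma maximalIdeal_mem_minimalPrimes (t : A) (ht0 : t ≠ 0) (ht : t ∈ maximalIdeal A)
    (h : ∀ q : Ideal A, q.IsPrime → q ≠ ⊥ → t ∈ q) :
    maximalIdeal A ∈ (Ideal.span {t}).minimalPrimes := by
  classical
  by_contra hnot
  have hfin : ((Ideal.span {t}).minimalPrimes).Finite :=
    Ideal.finite_minimalPrimes_of_isNoetherianRing A _
  set S : Finset (Ideal A) := hfin.toFinset with hS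
  have hmemS : ∀ q, q ∈ S ↔ q ∈ (Ideal.span {t}).minimalPrimes := fun q => by simp [hS]
  have htm : Ideal.span {t} ≤ maximalIdeal A := (Ideal.span_singleton_le_iff_mem _).mpr ht
  -- prime avoidance
  have hav : ¬ ((maximalIdeal A : Set A) ⊆ ⋃ i ∈ (S : Set (Ideal A)), id i) := by
    intro hsub
    have := (Ideal.subset_union_prime (R := A) (f := (id : Ideal A → Ideal A)) (s := S) ⊥ ⊥
      (fun i hi _ _ => ((hmemS i).mp hi).1.1)).mp hsub
    obtain ⟨q, hq, hle⟩ := this
    have hq' := (hmemS q).mp hq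
    have hqp : q.IsPrime := hq'.1.1
    have : q = maximalIdeal A := le_antisymm (le_maximalIdeal hqp.ne_top) hle
    exact hnot (this ▸ hq')
  obtain ⟨a, ham, ha⟩ := Set.not_subset.mp hav
  simp only [Set.mem_iUnion, not_exists, id, SetLike.mem_coe, Finset.mem_coe] at ha
  have hane : a ≠ 0 := by
    rintro rfl
    obtain ⟨q₁, hq₁, _⟩ := Ideal.exists_minimalPrimes_le htm
    exact ha q₁ ((hmemS q₁).mpr hq₁) (zero_mem _)
  have ham' : Ideal.span {a} ≤ maximalIdeal A := (Ideal.span_singleton_le_iff_mem _).mpr ham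
  obtain ⟨q', hq', hq'm⟩ := Ideal.exists_minimalPrimes_le ham'
  have hq'p : q'.IsPrime := hq'.1.1
  have haq' : a ∈ q' := hq'.1.2 (Ideal.mem_span_singleton_self a)
  have hq'ne : q' ≠ ⊥ := fun e => hane (by simpa [e] using haq')
  have htq' : Ideal.span {t} ≤ q' := (Ideal.span_singleton_le_iff_mem _).mpr (h q' hq'p hq'ne)
  obtain ⟨q₀, hq₀, hq₀q'⟩ := Ideal.exists_minimalPrimes_le htq'
  have hq₀p : q₀.IsPrime := hq₀.1.1
  have haq₀ : a ∉ q₀ := ha q₀ ((hmemS q₀).mpr hq₀)
  have hlt : q₀ < q' := lt_of_le_of_ne hq₀q' (fun e => haq₀ (e ▸ haq'))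
  have hbot : (⊥ : Ideal A) < q₀ := by
    refine bot_lt_iff_ne_bot.mpr fun e => ht0 ?_
    have := hq₀.1.2 (Ideal.mem_span_singleton_self t)
    simpa [e] using this
  haveI : (⊥ : Ideal A).IsPrime := Ideal.isPrime_bot
  have h1 := Ideal.height_add_one_le_of_lt_of_isPrime hbot
  have h2 := Ideal.height_add_one_le_of_lt_of_isPrime hlt
  have h3 : q'.height ≤ 1 :=
    Ideal.height_le_one_of_isPrincipal_of_mem_minimalPrimes (Ideal.span {a}) q' hq'
  rw [Ideal.height_bot] at h1
  have h4 : (1 : ℕ∞) + 1 ≤ q'.height := by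
    calc (1 : ℕ∞) + 1 ≤ q₀.height + 1 := by
          gcongr
          simpa using h1
      _ ≤ q'.height := h2
  have h5 : (1 : ℕ∞) + 1 ≤ 1 := h4.trans h3
  exact absurd h5 (by norm_num)

end Krull

section Ultra

variable {B K : Type*} [CommRing B] [NormedField K] [IsUltrametricDist K]

/-- An element integral over a ring of elements of norm `≤ 1` has norm `≤ 1`. -/
lemma norm_le_one_of_eval₂_eq_zero (ι : B →+* K) (hι : ∀ b, ‖ι b‖ ≤ 1) (f : Polynomial B)
    (hf : f.Monic) (x : K) (hx : Polynomial.eval₂ ι x f = 0) : ‖x‖ ≤ 1 := by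
  by_contra hlt
  push Not at hlt
  have hKnt : Nontrivial B := by
    by_contra hB
    rw [not_nontrivial_iff_subsingleton] at hB
    have := map_one ι
    rw [Subsingleton.elim (1 : B) 0, map_zero] at this
    exact zero_ne_one this
  rcases Nat.eq_zero_or_pos f.natDegree with h0 | hpos
  · have hone : f = 1 := by
      exact (Polynomial.Monic.natDegree_eq_zero hf).mp h0
    rw [hone, Polynomial.eval₂_one] at hx
    exact one_ne_zero hx
  · have hexp := Polynomial.eval₂_eq_sum_range (p := f) ι x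
    rw [hx, Finset.sum_range_succ, hf.coeff_natDegree, map_one, one_mul] at hexp
    have hxn : x ^ f.natDegree = - ∑ i ∈ Finset.range f.natDegree, ι (f.coeff i) * x ^ i :=
      by rw [eq_neg_iff_add_eq_zero, add_comm]; exact hexp.symm
    have hb : ‖∑ i ∈ Finset.range f.natDegree, ι (f.coeff i) * x ^ i‖ ≤ ‖x‖ ^ (f.natDegree - 1) := by
      refine IsUltrametricDist.norm_sum_le_of_forall_le_of_nonneg (by positivity) fun i hi => ?_
      rw [norm_mul, norm_pow]
      have hi' : i ≤ f.natDegree - 1 := by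
        have := Finset.mem_range.mp hi; omega
      calc ‖ι (f.coeff i)‖ * ‖x‖ ^ i ≤ 1 * ‖x‖ ^ i := by gcongr; exact hι _
        _ = ‖x‖ ^ i := one_mul _
        _ ≤ ‖x‖ ^ (f.natDegree - 1) := pow_le_pow_right₀ hlt.le hi'
    have : ‖x‖ ^ f.natDegree ≤ ‖x‖ ^ (f.natDegree - 1) := by
      rw [← norm_pow, hxn, norm_neg]; exact hb
    have h2 : ‖x‖ ^ (f.natDegree - 1) < ‖x‖ ^ f.natDegree :=
      pow_lt_pow_right₀ hlt (by omega)
    exact absurd this (not_le.mpr h2)

end Ultra

section Main

variable {R B K : Type*} [CommRing R] [IsLocalRing R] [IsNoetherianRing R]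
  [Finite (ResidueField R)] [CommRing B] [IsDomain B]

/-- Finite residue fields pass to quotients. -/
lemma finite_residueField_quotient (Q : Ideal R) [Q.IsPrime] [IsLocalRing (R ⧸ Q)] :
    Finite (ResidueField (R ⧸ Q)) := by
  haveI : IsLocalHom (Ideal.Quotient.mk Q) :=
    IsLocalHom.of_surjective _ Ideal.Quotient.mk_surjective
  refine Finite.of_surjective (ResidueField.map (Ideal.Quotient.mk Q)) ?_
  intro x
  obtain ⟨a, rfl⟩ := IsLocalRing.residue_surjective x
  obtain ⟨b, rfl⟩ := Ideal.Quotient.mk_surjective a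
  exact ⟨IsLocalRing.residue R b, rfl⟩

/-- Completeness hypothesis: every digit sequence has a sum. -/
def DigitComplete (π : B) : Prop :=
  ∀ c : ℕ → B, ∃ L : B, ∀ J : ℕ, ∃ w : B, L = ∑ j ∈ Finset.range J, c j * π ^ j + π ^ J * w

/-- Finiteness over the base ring: a Noetherian local domain `A` with `A/(t)` finite is a finite
module over a digit-complete ring `B` mapping `π ↦ t`. -/
lemma span_digits_eq_top {A : Type*} [CommRing A] [IsDomain A] [IsLocalRing A] [IsNoetherianRing A]
    (φ : B →+* A) (π : B) (hπ : DigitComplete π) (t : A) (htdef : φ π = t)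
    (ht : t ∈ maximalIdeal A)
    [Fintype (A ⧸ Ideal.span {t})] (x : A) :
    ∃ L : (A ⧸ Ideal.span {t}) → B,
      x = ∑ e, φ (L e) * Function.surjInv (Ideal.Quotient.mk_surjective (I := Ideal.span {t})) e := by
  classical
  let sec : (A ⧸ Ideal.span {t}) → A := Function.surjInv (Ideal.Quotient.mk_surjective (I := Ideal.span {t}))
  have hsec : ∀ e, Ideal.Quotient.mk (Ideal.span {t}) (sec e) = e :=
    Function.surjInv_eq (Ideal.Quotient.mk_surjective (I := Ideal.span {t}))
  -- decomposition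
  have hdec : ∀ y : A, ∃ z : A, y = sec (Ideal.Quotient.mk _ y) + t * z := by
    intro y
    have : y - sec (Ideal.Quotient.mk _ y) ∈ Ideal.span {t} := by
      rw [← Ideal.Quotient.eq, hsec]
    obtain ⟨z, hz⟩ := Ideal.mem_span_singleton.mp this
    exact ⟨z, by rw [← hz]; ring⟩
  choose next hnext using hdec
  let xs : ℕ → A := fun j => next^[j] x
  have hxs : ∀ j, xs (j + 1) = next (xs j) := fun j => Function.iterate_succ_apply' next j x
  let d : ℕ → (A ⧸ Ideal.span {t}) := fun j => Ideal.Quotient.mk _ (xs j)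
  have hsum : ∀ J : ℕ, x = ∑ j ∈ Finset.range J, sec (d j) * t ^ j + t ^ J * xs J := by
    intro J
    induction J with
    | zero => simp [xs]
    | succ J ih =>
      rw [Finset.sum_range_succ, hxs]
      have := hnext (xs J)
      calc x = _ := ih
        _ = ∑ j ∈ Finset.range J, sec (d j) * t ^ j +
            t ^ J * (sec (Ideal.Quotient.mk _ (xs J)) + t * next (xs J)) := by rw [← this]
        _ = _ := by simp only [d]; ring
  -- the limits
  choose L hL using fun e : (A ⧸ Ideal.span {t}) => hπ (fun j => if d j = e then (1 : B) else 0)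
  refine ⟨L, ?_⟩
  change x = ∑ e, φ (L e) * sec e
  -- difference in all powers
  have hpow : ∀ J : ℕ, x - ∑ e, φ (L e) * sec e ∈ (Ideal.span {t}) ^ J := by
    intro J
    rw [Ideal.span_singleton_pow, Ideal.mem_span_singleton]
    choose w hw using fun e => hL e J
    have h1 : ∀ e, φ (L e) * sec e =
        (∑ j ∈ Finset.range J, (if d j = e then sec e * t ^ j else 0)) +
          t ^ J * (φ (w e) * sec e) := by
      intro e
      rw [hw e, map_add, map_sum, map_mul, map_pow, add_mul, Finset.sum_mul, htdef]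
      congr 1
      · refine Finset.sum_congr rfl fun j _ => ?_
        split_ifs with hj
        · simp [mul_comm, htdef]
        · simp
      · ring
    rw [Finset.sum_congr rfl (fun e _ => h1 e), Finset.sum_add_distrib, Finset.sum_comm]
    have h2 : ∀ j ∈ Finset.range J, ∑ e, (if d j = e then sec e * t ^ j else 0) = sec (d j) * t ^ j := by
      intro j _
      simp
    rw [Finset.sum_congr rfl h2, ← Finset.mul_sum]
    refine ⟨xs J - ∑ e, φ (w e) * sec e, ?_⟩
    conv_lhs => rw [hsum J]
    ring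
  have hbot : ⨅ i : ℕ, (Ideal.span {t}) ^ i = (⊥ : Ideal A) := by
    apply Ideal.iInf_pow_eq_bot_of_isLocalRing
    intro htop
    rw [Ideal.span_singleton_eq_top] at htop
    exact (mem_maximalIdeal t).mp ht htop
  have : x - ∑ e, φ (L e) * sec e ∈ (⊥ : Ideal A) := by
    rw [← hbot]
    exact (Submodule.mem_iInf _).mpr hpow
  rw [Ideal.mem_bot, sub_eq_zero] at this
  exact this

/-- The main abstract construction of a point. -/
theorem exists_point_of_dvr
    [NormedField K] [IsUltrametricDist K] [IsAlgClosed K]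
    (φ : B →+* R) (π : B) (hπm : φ π ∈ maximalIdeal R) (hπ : DigitComplete π)
    (hdvr : ∀ b : B, b ≠ 0 → ∃ (j : ℕ) (u : B), b = π ^ j * u ∧ IsUnit u)
    (P : Ideal R) [hP : P.IsPrime] (ht : φ π ∉ P)
    (ι : B →+* K) (hι : Function.Injective ι) (hι1 : ∀ b, ‖ι b‖ ≤ 1) (hπ1 : ‖ι π‖ < 1) :
    ∃ ψ : R →+* K, (∀ f ∈ P, ψ f = 0) ∧ ψ.comp φ = ι ∧ (∀ f, ‖ψ f‖ ≤ 1) ∧
      (∀ f ∈ maximalIdeal R, ‖ψ f‖ < 1) := by
  classical
  set t := φ π with ht_def
  -- Step 1: choose `Q`
  let 𝒮 : Set (Ideal R) := {Q | Q.IsPrime ∧ P ≤ Q ∧ t ∉ Q}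
  have h𝒮 : 𝒮.Nonempty := ⟨P, hP, le_rfl, ht⟩
  obtain ⟨Q, hQ, hQmax⟩ := set_has_maximal_iff_noetherian.mpr (inferInstanceAs (IsNoetherian R R)) 𝒮 h𝒮
  obtain ⟨hQp, hPQ, htQ⟩ := hQ
  haveI := hQp
  -- Step 2: the quotient
  let A := R ⧸ Q
  haveI : IsLocalRing A := IsLocalRing.of_surjective' (Ideal.Quotient.mk Q) Ideal.Quotient.mk_surjective
  haveI : IsDomain A := Ideal.Quotient.isDomain Q
  haveI : IsNoetherianRing A := inferInstance
  let mkQ : R →+* A := Ideal.Quotient.mk Q
  have hmkQ_surj : Function.Surjective mkQ := Ideal.Quotient.mk_surjective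
  haveI hloc : IsLocalHom mkQ := IsLocalHom.of_surjective _ hmkQ_surj
  have hmem_max : ∀ f ∈ maximalIdeal R, mkQ f ∈ maximalIdeal A := by
    intro f hf
    rw [mem_maximalIdeal, mem_nonunits_iff] at hf ⊢
    exact fun h => hf (isUnit_of_map_unit mkQ f h)
  let t' : A := mkQ t
  have ht'0 : t' ≠ 0 := fun e => htQ (Ideal.Quotient.eq_zero_iff_mem.mp e)
  have ht'm : t' ∈ maximalIdeal A := hmem_max t hπm
  -- every nonzero prime contains `t'`
  have hprimes : ∀ q : Ideal A, q.IsPrime → q ≠ ⊥ → t' ∈ q := by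
    intro q hq hne
    by_contra htq
    have hq' : (q.comap mkQ).IsPrime := Ideal.comap_isPrime _ _
    have hle : Q ≤ q.comap mkQ := by
      intro x hx
      have : mkQ x = 0 := Ideal.Quotient.eq_zero_iff_mem.mpr hx
      simp [Ideal.mem_comap, this]
    have hnot : ¬ Q < q.comap mkQ := hQmax _ ⟨hq', hPQ.trans hle, htq⟩
    have heq : Q = q.comap mkQ := by
      rcases hle.lt_or_eq with h | h
      · exact absurd h hnot
      · exact h
    apply hne
    rw [eq_bot_iff]
    intro x hx
    obtain ⟨y, rfl⟩ := hmkQ_surj x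
    have : y ∈ q.comap mkQ := hx
    rw [← heq] at this
    simpa using Ideal.Quotient.eq_zero_iff_mem.mpr this
  have hmin := maximalIdeal_mem_minimalPrimes t' ht'0 ht'm hprimes
  -- Step 3: `A/(t')` is finite
  haveI : Finite (ResidueField A) := finite_residueField_quotient Q
  haveI hart : IsArtinianRing (A ⧸ Ideal.span {t'}) :=
    IsLocalRing.quotient_artinian_of_mem_minimalPrimes_of_isLocalRing _ hmin
  obtain ⟨N, hN⟩ := IsLocalRing.exists_maximalIdeal_pow_le_of_isArtinianRing_quotient
    (Ideal.span {t'})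
  haveI hfin : Finite (A ⧸ Ideal.span {t'}) := IsLocalRing.finite_quotient_iff.mpr ⟨N, hN⟩
  -- Step 4: the algebra structure
  let φ' : B →+* A := mkQ.comp φ
  have hφ'π : φ' π = t' := rfl
  letI : Algebra B A := φ'.toAlgebra
  have halg : ∀ b, algebraMap B A b = φ' b := fun _ => rfl
  letI : Fintype (A ⧸ Ideal.span {t'}) := Fintype.ofFinite _
  have hspan : Module.Finite B A := by
    refine ⟨⟨(Finset.univ : Finset (A ⧸ Ideal.span {t'})).image
      (Function.surjInv (Ideal.Quotient.mk_surjective (I := Ideal.span {t'}))), ?_⟩⟩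
    rw [eq_top_iff]
    intro x _
    obtain ⟨L, hx⟩ := span_digits_eq_top φ' π hπ t' hφ'π ht'm x
    have hx' : x = ∑ e, L e • Function.surjInv (Ideal.Quotient.mk_surjective (I := Ideal.span {t'})) e := by
      rw [hx]
      exact Finset.sum_congr rfl fun e _ => by
        rw [Algebra.smul_def, halg]
    rw [hx']
    refine Submodule.sum_mem _ fun e _ => Submodule.smul_mem _ _ (Submodule.subset_span ?_)
    simp
  haveI hint : Algebra.IsIntegral B A := Algebra.IsIntegral.of_finite B A
  -- injectivity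
  have hinj : Function.Injective φ' := by
    rw [injective_iff_map_eq_zero]
    intro b hb
    by_contra hb0
    obtain ⟨j, u, rfl, hu⟩ := hdvr b hb0
    rw [map_mul, map_pow, hφ'π] at hb
    have hu' : φ' u ≠ 0 := (hu.map φ').ne_zero
    have := mul_ne_zero (pow_ne_zero j ht'0) hu'
    exact this hb
  letI : Algebra B K := ι.toAlgebra
  have halgK : ∀ b, algebraMap B K b = ι b := fun _ => rfl
  haveI : FaithfulSMul B A := (faithfulSMul_iff_algebraMap_injective B A).mpr hinj
  haveI : FaithfulSMul B K := (faithfulSMul_iff_algebraMap_injective B K).mpr hι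
  haveI : Module.IsTorsionFree B A := Module.isTorsionFree_iff_faithfulSMul.mpr inferInstance
  haveI : Module.IsTorsionFree B K := Module.isTorsionFree_iff_faithfulSMul.mpr inferInstance
  let ψ' : A →ₐ[B] K := IsAlgClosed.lift
  have hnorm' : ∀ a : A, ‖ψ' a‖ ≤ 1 := by
    intro a
    obtain ⟨f, hf, hfa⟩ := (Algebra.IsIntegral.isIntegral (R := B) a)
    refine norm_le_one_of_eval₂_eq_zero ι hι1 f hf (ψ' a) ?_
    have := congrArg (ψ' : A →+* K) hfa
    rw [map_zero, Polynomial.hom_eval₂] at this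
    rwa [show (ψ' : A →+* K).comp (algebraMap B A) = ι from
      RingHom.ext fun b => by simp [halgK]] at this
  refine ⟨(ψ' : A →+* K).comp mkQ, ?_, ?_, ?_, ?_⟩
  · intro f hf
    have : mkQ f = 0 := Ideal.Quotient.eq_zero_iff_mem.mpr (hPQ hf)
    simp [this]
  · ext b
    change ψ' (algebraMap B A b) = ι b
    rw [AlgHom.commutes, halgK]
  · intro f
    exact hnorm' _
  · intro f hf
    have hfm := hmem_max f hf
    have hNm : mkQ f ^ N ∈ Ideal.span {t'} := hN (Ideal.pow_mem_pow hfm N)
    obtain ⟨w, hw⟩ := Ideal.mem_span_singleton.mp hNm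
    have hpt : ψ' t' = ι π := by
      change ψ' (algebraMap B A π) = ι π
      rw [AlgHom.commutes, halgK]
    have h1 : ‖ψ' (mkQ f)‖ ^ N < 1 := by
      rw [← norm_pow, ← map_pow, hw, map_mul, norm_mul, hpt]
      calc ‖ι π‖ * ‖ψ' w‖ ≤ ‖ι π‖ * 1 := by gcongr; exact hnorm' w
        _ < 1 := by simpa using hπ1
    have hN0 : N ≠ 0 := by
      rintro rfl
      have : (1 : A) ∈ Ideal.span {t'} := by
        rw [pow_zero] at hNm; simpa using hNm
      have h2 := (Ideal.span_singleton_le_iff_mem _).mpr ht'm this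
      exact (mem_maximalIdeal _).mp h2 isUnit_one
    by_contra hge
    push Not at hge
    have := one_le_pow₀ hge (n := N)
    change ‖ψ' (mkQ f)‖ ^ N < 1 at h1
    exact absurd h1 (not_lt.mpr this)

end Main

end Crest.Agent.LT
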