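/-
A bounded ring homomorphism out of a power series ring, with small images of the variables,
is evaluation at those images.
-/
import Crest.Agent.Lib.LT.Eval

set_option autoImplicit false
set_option linter.unusedSectionVars false
set_option linter.unusedVariables false
set_option linter.style.haveILetI false
set_option linter.unusedSimpArgs false
set_option linter.unnecessarySimpa false

namespace Crest.Agent.LT

open MvPowerSeries

variable {σ A K : Type*} [Fintype σ] [CommRing A] [NontriviallyNormedField K] [IsUltrametricDist K]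

/-- A series without terms of degree `≤ N` is sent to a small element. -/
lemma norm_ringHom_le_of_order (ψ : MvPowerSeries σ A →+* K) (h1 : ∀ f, ‖ψ f‖ ≤ 1)
    {ρ : ℝ} (hρ0 : 0 ≤ ρ) (hρ : ∀ i, ‖ψ (X i)‖ ≤ ρ) (N : ℕ) :
    ∀ g : MvPowerSeries σ A, (∀ γ : σ →₀ ℕ, Finsupp.degree γ < N → coeff γ g = 0) →
      ‖ψ g‖ ≤ ρ ^ N := by
  classical
  induction N with
  | zero => intro g _; simpa using h1 g
  | succ N ih =>
    intro g hg
    by_cases hσ : Nonempty σ
    swap
    · have hg0 : g = 0 := by
        ext γ
        have hγ : γ = 0 := Finsupp.ext fun i => (hσ ⟨i⟩).elim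
        subst hγ
        rw [hg 0 (by simp)]
        simp
      rw [hg0, map_zero, norm_zero]
      positivity
    -- choose a variable for every nonzero exponent
    have hne : ∀ (i : σ) (δ : σ →₀ ℕ), δ + Finsupp.single i 1 ≠ 0 := by
      intro i δ h
      have := DFunLike.congr_fun h i
      simp at this
    have hsupp : ∀ γ : σ →₀ ℕ, γ ≠ 0 → ∃ i, γ i ≠ 0 := by
      intro γ hγ
      by_contra hcon
      push Not at hcon
      exact hγ (Finsupp.ext fun i => by simpa using hcon i)
    choose! pick hpick using hsupp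
    let G : σ → MvPowerSeries σ A := fun i δ =>
      if pick (δ + Finsupp.single i 1) = i then coeff (δ + Finsupp.single i 1) g else 0
    have hGc : ∀ i δ, coeff δ (G i) =
        if pick (δ + Finsupp.single i 1) = i then coeff (δ + Finsupp.single i 1) g else 0 :=
      fun i δ => rfl
    have hXG : ∀ i γ, coeff γ (X i * G i) =
        if γ i ≠ 0 ∧ pick γ = i then coeff γ g else 0 := by
      intro i γ
      by_cases hi : γ i = 0
      · have : coeff γ (X i * G i) = 0 :=
          (MvPowerSeries.X_dvd_iff.mp (dvd_mul_right (X i) (G i))) γ hi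
        rw [this, if_neg (by simp [hi])]
      · have hγ : γ = (γ - Finsupp.single i 1) + Finsupp.single i 1 := by
          ext j
          by_cases hj : j = i
          · subst hj
            simp
            omega
          · simp [Finsupp.single_apply, Ne.symm hj]
        have h2 : coeff γ (X i * G i) = coeff (γ - Finsupp.single i 1) (G i) := by
          conv_lhs => rw [hγ, add_comm]
          rw [X_def, coeff_add_monomial_mul, one_mul]
        rw [h2, hGc, ← hγ]
        simp [hi]
    have hsum : g = ∑ i, X i * G i := by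
      ext γ
      rw [map_sum]
      simp only [hXG]
      by_cases hγ : γ = 0
      · subst hγ
        rw [hg 0 (by simp)]
        simp
      · rw [Finset.sum_eq_single (pick γ)]
        · rw [if_pos ⟨hpick γ hγ, rfl⟩]
        · intro j _ hj
          rw [if_neg]
          rintro ⟨_, h⟩
          exact hj h.symm
        · simp
    have hGsmall : ∀ i, ‖ψ (G i)‖ ≤ ρ ^ N := by
      intro i
      refine ih (G i) fun δ hδ => ?_
      rw [hGc]
      split_ifs
      · refine hg _ ?_
        rw [map_add]
        simp
        omega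
      · rfl
    rw [hsum, map_sum, pow_succ']
    refine IsUltrametricDist.norm_sum_le_of_forall_le_of_nonneg (by positivity) fun i _ => ?_
    rw [map_mul, norm_mul]
    exact mul_le_mul (hρ i) (hGsmall i) (norm_nonneg _) hρ0

/-- A bounded ring hom with small variables is evaluation. -/
theorem ringHom_eq_evalS [CompleteSpace K] (ψ : MvPowerSeries σ A →+* K) (h1 : ∀ f, ‖ψ f‖ ≤ 1)
    (hX : ∀ i, ‖ψ (X i)‖ < 1) (f : MvPowerSeries σ A) :
    ψ f = evalS (MvPowerSeries.map (ψ.comp C) f) (fun i => ψ (X i)) := by
  classical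
  obtain ⟨ρ, hρ0, hρ1, hρ⟩ := exists_radius (K := K) one_pos hX
  set z : σ → K := fun i => ψ (X i) with hz
  set F := MvPowerSeries.map (ψ.comp C) f with hF
  have hFB : IsB (1 : ℝ) 1 F := by
    intro γ
    rw [one_pow, mul_one, hF, coeff_map]
    exact h1 _
  have hsum : Summable (fun γ : σ →₀ ℕ => coeff γ F * mval z γ) :=
    summable_eval' one_pos hFB hX
  have hHS := hsum.hasSum
  -- truncations
  let T : ℕ → Finset (σ →₀ ℕ) := fun N => (finite_degree_le (σ := σ) N).toFinset
  have hT : ∀ N γ, γ ∈ T N ↔ Finsupp.degree γ ≤ N := fun N γ => by simp [T]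
  have hmono : Monotone T := by
    intro a b hab γ hγ
    rw [hT] at hγ ⊢
    omega
  have hcover : ∀ γ, ∃ N, γ ∈ T N := fun γ => ⟨Finsupp.degree γ, (hT _ _).mpr le_rfl⟩
  have htT : Filter.Tendsto T Filter.atTop Filter.atTop :=
    Filter.tendsto_atTop_finset_of_monotone hmono hcover
  have hlim1 := hHS.comp htT
  -- the monomials
  have hmon : ∀ (γ : σ →₀ ℕ) (c : A), ψ (monomial γ c) = ψ (C c) * mval z γ := by
    intro γ c
    rw [MvPowerSeries.monomial_eq', map_mul, Finsupp.prod_fintype _ _ (by simp), map_prod]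
    simp [mval, hz]
  have hdiff : ∀ N, ‖ψ f - ∑ γ ∈ T N, coeff γ F * mval z γ‖ ≤ ρ ^ (N + 1) := by
    intro N
    have : ψ f - ∑ γ ∈ T N, coeff γ F * mval z γ = ψ (f - ∑ γ ∈ T N, monomial γ (coeff γ f)) := by
      rw [map_sub, map_sum]
      congr 1
      refine Finset.sum_congr rfl fun γ _ => ?_
      rw [hmon, hF, coeff_map]
      rfl
    rw [this]
    refine norm_ringHom_le_of_order ψ h1 hρ0 hρ (N + 1) _ fun γ hγ => ?_
    rw [map_sub, map_sum]
    have hγT : γ ∈ T N := (hT _ _).mpr (by omega)
    rw [Finset.sum_eq_single γ]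
    · simp
    · intro b _ hb
      rw [coeff_monomial, if_neg (Ne.symm hb)]
    · intro h; exact absurd hγT h
  have hlim2 : Filter.Tendsto (fun N => ∑ γ ∈ T N, coeff γ F * mval z γ) Filter.atTop (nhds (ψ f)) := by
    rw [tendsto_iff_norm_sub_tendsto_zero]
    have h0 : Filter.Tendsto (fun N : ℕ => ρ ^ (N + 1)) Filter.atTop (nhds 0) :=
      (tendsto_pow_atTop_nhds_zero_of_lt_one hρ0 hρ1).comp (Filter.tendsto_add_atTop_nat 1)
    refine squeeze_zero (fun _ => norm_nonneg _) (fun N => ?_) h0
    rw [norm_sub_rev]
    exact hdiff N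
  exact tendsto_nhds_unique hlim2 hlim1

end Crest.Agent.LT
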