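/-
C3: a point of `k⟦y⟧` killing a prime, with values in a complete algebraically closed field of
characteristic `p`.  BLUEPRINT §C3.
-/
import Crest.Agent.Lib.LT.Core
import Crest.Agent.Lib.LT.PointEval
import Crest.Agent.Lib.LT.PointAbs
import Crest.Agent.Lib.LT.AlgClosedDense

set_option autoImplicit false
set_option linter.unusedSectionVars false
set_option linter.unusedVariables false
set_option linter.style.haveILetI false
set_option linter.unusedSimpArgs false
set_option linter.unnecessarySimpa false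

namespace Crest.Agent.LT

open scoped LaurentSeries NNReal
open WithZero IsLocalRing

section Norm

variable (k : Type) [Field k]

/-- the rank one structure on Laurent series -/
noncomputable instance laurentRankOne : (Valued.v : Valuation k⸨X⸩ ℤᵐ⁰).RankOne where
  hom' := (WithZeroMulInt.toNNReal (e := 2) two_ne_zero).comp MonoidWithZeroHom.ValueGroup₀.embedding
  strictMono' := (WithZeroMulInt.toNNReal_strictMono (e := 2) one_lt_two).comp
    MonoidWithZeroHom.ValueGroup₀.embedding_strictMono
  exists_val_nontrivial := by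
    refine ⟨((PowerSeries.X : PowerSeries k) : k⸨X⸩), ?_⟩
    have := LaurentSeries.valuation_X_pow (K := k) 1
    rw [pow_one] at this
    rw [this]
    constructor
    · exact WithZero.exp_ne_zero
    · intro h
      have h2 : WithZero.exp (-((1 : ℕ) : ℤ)) = WithZero.exp (0 : ℤ) := by
        rw [h]; rfl
      have := WithZero.exp_injective h2
      simp at this

noncomputable instance laurentNormedField : NormedField k⸨X⸩ := Valued.toNormedField k⸨X⸩ ℤᵐ⁰

lemma laurent_norm_def (f : k⸨X⸩) :
    ‖f‖ = (WithZeroMulInt.toNNReal (e := 2) two_ne_zero (Valued.v f) : ℝ) := by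
  change (Valued.v : Valuation k⸨X⸩ ℤᵐ⁰).norm f = _
  rw [Valuation.norm_def]
  congr 1
  change (WithZeroMulInt.toNNReal (e := 2) two_ne_zero)
    (MonoidWithZeroHom.ValueGroup₀.embedding _) = _
  rw [Valuation.embedding_restrict]

lemma laurent_norm_le_one_of_v {f : k⸨X⸩} (h : Valued.v f ≤ 1) : ‖f‖ ≤ 1 := by
  rw [laurent_norm_def]
  have := (WithZeroMulInt.toNNReal_strictMono (e := 2) one_lt_two).monotone h
  rw [map_one] at this
  exact_mod_cast this

lemma laurent_norm_lt_one_of_v {f : k⸨X⸩} (h : Valued.v f < 1) : ‖f‖ < 1 := by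
  rw [laurent_norm_def]
  have := (WithZeroMulInt.toNNReal_strictMono (e := 2) one_lt_two) h
  rw [map_one] at this
  exact_mod_cast this

lemma laurent_norm_coe_le_one (f : PowerSeries k) : ‖(f : k⸨X⸩)‖ ≤ 1 :=
  laurent_norm_le_one_of_v k ((LaurentSeries.val_le_one_iff_eq_coe k _).mpr ⟨f, rfl⟩)

lemma laurent_norm_X_lt_one : ‖((PowerSeries.X : PowerSeries k) : k⸨X⸩)‖ < 1 := by
  apply laurent_norm_lt_one_of_v
  have := LaurentSeries.valuation_X_pow (K := k) 1
  rw [pow_one] at this
  rw [this]
  rw [← WithZero.exp_zero, WithZero.exp_lt_exp]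
  simp

lemma laurent_X_ne_zero : ((PowerSeries.X : PowerSeries k) : k⸨X⸩) ≠ 0 := by
  intro h
  have := IsFractionRing.injective (PowerSeries k) k⸨X⸩
  have h2 : algebraMap (PowerSeries k) k⸨X⸩ PowerSeries.X = 0 := by
    rw [LaurentSeries.coe_algebraMap]; exact h
  rw [map_eq_zero_iff _ this] at h2
  exact PowerSeries.X_ne_zero h2

noncomputable instance laurentNontrivNormed : NontriviallyNormedField k⸨X⸩ where
  non_trivial := by
    refine ⟨(((PowerSeries.X : PowerSeries k) : k⸨X⸩))⁻¹, ?_⟩
    rw [norm_inv]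
    have h0 : 0 < ‖((PowerSeries.X : PowerSeries k) : k⸨X⸩)‖ :=
      norm_pos_iff.mpr (laurent_X_ne_zero k)
    exact (one_lt_inv₀ h0).mpr (laurent_norm_X_lt_one k)

instance laurentUltra : IsUltrametricDist k⸨X⸩ :=
  IsUltrametricDist.isUltrametricDist_of_forall_norm_add_le_max_norm
    (fun x y => (Valued.v : Valuation k⸨X⸩ ℤᵐ⁰).norm_add_le x y)

instance laurentComplete : CompleteSpace k⸨X⸩ := LaurentSeries.instLaurentSeriesComplete

/-- algebraic closure of Laurent series -/
abbrev LCl : Type := AlgebraicClosure k⸨X⸩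

noncomputable instance lclNormed : NormedField (LCl k) := spectralNorm.normedField k⸨X⸩ (LCl k)

noncomputable instance lclNormedAlg : NormedAlgebra k⸨X⸩ (LCl k) := spectralNorm.normedAlgebra _ _

instance lclUltra : IsUltrametricDist (LCl k) :=
  IsUltrametricDist.isUltrametricDist_of_forall_norm_add_le_max_norm
    (isNonarchimedean_spectralNorm (K := k⸨X⸩) (L := LCl k))

lemma lcl_norm_extends (x : k⸨X⸩) : ‖algebraMap k⸨X⸩ (LCl k) x‖ = ‖x‖ := by
  exact spectralNorm_extends x

noncomputable instance lclNontriv : NontriviallyNormedField (LCl k) where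
  non_trivial := by
    obtain ⟨x, hx⟩ := NontriviallyNormedField.non_trivial (α := k⸨X⸩)
    exact ⟨algebraMap _ _ x, by rwa [lcl_norm_extends]⟩

/-- The complete algebraically closed field -/
abbrev KP : Type := UniformSpace.Completion (LCl k)

noncomputable instance kpNormed : NormedField (KP k) := inferInstance

lemma kp_norm_coe (x : LCl k) : ‖algebraMap (LCl k) (KP k) x‖ = ‖x‖ :=
  UniformSpace.Completion.norm_coe x

noncomputable instance kpNontriv : NontriviallyNormedField (KP k) where
  non_trivial := by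
    obtain ⟨x, hx⟩ := NontriviallyNormedField.non_trivial (α := LCl k)
    exact ⟨algebraMap _ _ x, by rwa [kp_norm_coe]⟩

instance kpUltra : IsUltrametricDist (KP k) := IsUltrametricDist.of_normedAlgebra k⸨X⸩

instance kpAlgClosed : IsAlgClosed (KP k) :=
  isAlgClosed_of_denseRange (L₀ := LCl k) UniformSpace.Completion.denseRange_coe

/-- The map from power series -/
noncomputable def iotaP : PowerSeries k →+* KP k :=
  (algebraMap (LCl k) (KP k)).comp ((algebraMap k⸨X⸩ (LCl k)).comp (algebraMap (PowerSeries k) k⸨X⸩))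

lemma iotaP_injective : Function.Injective (iotaP k) := by
  refine (algebraMap (LCl k) (KP k)).injective.comp ?_
  exact (algebraMap k⸨X⸩ (LCl k)).injective.comp (IsFractionRing.injective (PowerSeries k) k⸨X⸩)

lemma iotaP_norm (f : PowerSeries k) : ‖iotaP k f‖ = ‖(f : k⸨X⸩)‖ := by
  simp only [iotaP, RingHom.comp_apply]
  rw [kp_norm_coe, lcl_norm_extends, LaurentSeries.coe_algebraMap]

lemma iotaP_norm_le (f : PowerSeries k) : ‖iotaP k f‖ ≤ 1 := by
  rw [iotaP_norm]; exact laurent_norm_coe_le_one k f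

lemma iotaP_norm_X : ‖iotaP k PowerSeries.X‖ < 1 := by
  rw [iotaP_norm]; exact laurent_norm_X_lt_one k

end Norm

section Digit

variable {k : Type*} [Field k]

lemma digitComplete_powerSeries : DigitComplete (PowerSeries.X : PowerSeries k) := by
  intro c
  refine ⟨PowerSeries.mk fun n => ∑ j ∈ Finset.range (n + 1), PowerSeries.coeff (n - j) (c j),
    fun J => ?_⟩
  have hdvd : (PowerSeries.X : PowerSeries k) ^ J ∣
      (PowerSeries.mk fun n => ∑ j ∈ Finset.range (n + 1), PowerSeries.coeff (n - j) (c j)) -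
        ∑ j ∈ Finset.range J, c j * PowerSeries.X ^ j := by
    rw [PowerSeries.X_pow_dvd_iff]
    intro m hm
    rw [map_sub, map_sum, PowerSeries.coeff_mk, sub_eq_zero]
    simp only [PowerSeries.coeff_mul_X_pow']
    have hsub : Finset.range (m + 1) ⊆ Finset.range J := by
      intro x hx
      rw [Finset.mem_range] at hx ⊢
      omega
    rw [← Finset.sum_subset hsub]
    · refine Finset.sum_congr rfl fun j hj => ?_
      rw [if_pos (by have := Finset.mem_range.mp hj; omega)]
    · intro x _ hx
      rw [if_neg]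
      rw [Finset.mem_range] at hx
      omega
  obtain ⟨w, hw⟩ := hdvd
  exact ⟨w, by rw [← hw]; ring⟩

lemma dvr_powerSeries (b : PowerSeries k) (hb : b ≠ 0) :
    ∃ (j : ℕ) (u : PowerSeries k), b = PowerSeries.X ^ j * u ∧ IsUnit u := by
  obtain ⟨n, u, hu⟩ := IsDiscreteValuationRing.associated_pow_irreducible hb
    (PowerSeries.X_irreducible (R := k))
  refine ⟨n, ((u⁻¹ : (PowerSeries k)ˣ) : PowerSeries k), ?_, Units.isUnit _⟩
  rw [← hu]
  simp

end Digit

section Main

variable (k : Type) [Field k] [Finite k]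

lemma finite_residueField_of_surj {R F : Type*} [CommRing R] [IsLocalRing R] [CommRing F] [Finite F]
    (res : R →+* F) (hk : RingHom.ker res ≤ maximalIdeal R)
    (hk' : maximalIdeal R ≤ RingHom.ker res) : Finite (ResidueField R) := by
  let l : ResidueField R →+* F := Ideal.Quotient.lift (maximalIdeal R) res (fun a ha => hk' ha)
  exact Finite.of_injective l (RingHom.lift_injective_of_ker_le_ideal _ _ hk)

variable {d : ℕ}

lemma mem_max_iff (f : MvPowerSeries (Fin d) k) :
    f ∈ maximalIdeal (MvPowerSeries (Fin d) k) ↔ MvPowerSeries.constantCoeff f = 0 := by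
  rw [mem_maximalIdeal, mem_nonunits_iff, MvPowerSeries.isUnit_iff_constantCoeff, isUnit_iff_ne_zero]
  simp

instance finite_residue_mv : Finite (ResidueField (MvPowerSeries (Fin d) k)) :=
  finite_residueField_of_surj (MvPowerSeries.constantCoeff (R := k))
    (fun f hf => (mem_max_iff k f).mpr hf) (fun f hf => (mem_max_iff k f).mp hf)

/-- **C3**: points in characteristic `p`. -/
theorem exists_point_charP_aux (p : ℕ) [CharP k p] (hd : 1 ≤ d) (P : Ideal (MvPowerSeries (Fin d) k))
    [P.IsPrime] (hy : (MvPowerSeries.X ⟨0, hd⟩ : MvPowerSeries (Fin d) k) ∉ P) :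
    ∃ (K : Type) (_ : NontriviallyNormedField K) (_ : IsUltrametricDist K) (_ : CompleteSpace K)
      (_ : IsAlgClosed K) (_ : CharP K p) (_ : Algebra k K)
      (ψ : MvPowerSeries (Fin d) k →ₐ[k] K),
      (∀ f ∈ P, ψ f = 0) ∧ ψ (MvPowerSeries.X ⟨0, hd⟩) ≠ 0 ∧ (∀ f, ‖ψ f‖ ≤ 1) ∧
      (∀ f, MvPowerSeries.constantCoeff f = 0 → ‖ψ f‖ < 1) ∧
      ∀ f, ψ f = evalS (MvPowerSeries.map (algebraMap k K) f) (fun i => ψ (MvPowerSeries.X i)) := by
  classical
  let R := MvPowerSeries (Fin d) k
  have hsubst : PowerSeries.HasSubst (MvPowerSeries.X ⟨0, hd⟩ : R) := PowerSeries.HasSubst.X _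
  let φA : PowerSeries k →ₐ[k] R := PowerSeries.substAlgHom hsubst
  let φ : PowerSeries k →+* R := φA.toRingHom
  have hφX : φ PowerSeries.X = MvPowerSeries.X ⟨0, hd⟩ := by
    change φA PowerSeries.X = _
    rw [PowerSeries.coe_substAlgHom]
    exact PowerSeries.subst_X hsubst
  have hφC : ∀ c : k, φ (PowerSeries.C c) = MvPowerSeries.C c := by
    intro c
    have := φA.commutes c
    exact this
  obtain ⟨ψ, hψP, hψφ, hψ1, hψm⟩ := exists_point_of_dvr (K := KP k) φ PowerSeries.X
    (by rw [hφX, mem_max_iff]; simp) digitComplete_powerSeries dvr_powerSeries P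
    (by rw [hφX]; exact hy) (iotaP k) (iotaP_injective k) (iotaP_norm_le k) (iotaP_norm_X k)
  let j : k →+* KP k := (iotaP k).comp PowerSeries.C
  have hj : ∀ c, ψ (MvPowerSeries.C c) = j c := by
    intro c
    rw [← hφC c]
    exact RingHom.congr_fun hψφ _
  letI alg : Algebra k (KP k) := j.toAlgebra
  have halg : ∀ c, algebraMap k (KP k) c = j c := fun _ => rfl
  have hchar : CharP (KP k) p := charP_of_injective_ringHom j.injective p
  let ψA : R →ₐ[k] KP k := { ψ with commutes' := fun c => by exact hj c }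
  have hψA : ∀ f, ψA f = ψ f := fun _ => rfl
  have hX1 : ∀ i, ‖ψ (MvPowerSeries.X i)‖ < 1 := fun i =>
    hψm _ ((mem_max_iff k _).mpr (by simp))
  refine ⟨KP k, inferInstance, inferInstance, inferInstance, inferInstance, hchar, alg, ψA,
    hψP, ?_, hψ1, fun f hf => hψm f ((mem_max_iff k f).mpr hf), fun f => ?_⟩
  · rw [hψA, ← hφX]
    have : ψ (φ PowerSeries.X) = iotaP k PowerSeries.X := RingHom.congr_fun hψφ _
    rw [this]
    exact fun h0 => PowerSeries.X_ne_zero ((map_eq_zero_iff _ (iotaP_injective k)).mp h0)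
  · have := ringHom_eq_evalS ψ hψ1 hX1 f
    rw [hψA, this]
    congr 1
    ext γ
    simp only [MvPowerSeries.coeff_map, RingHom.comp_apply, hj, halg]

end Main

/-- **C3** for the Galois field. -/
theorem exists_point_charP (p n : ℕ) [Fact p.Prime] {d : ℕ} (hd : 1 ≤ d)
    (P : Ideal (MvPowerSeries (Fin d) (GaloisField p n))) [P.IsPrime]
    (hy : (MvPowerSeries.X ⟨0, hd⟩ : MvPowerSeries (Fin d) (GaloisField p n)) ∉ P) :
    ∃ (K : Type) (_ : NontriviallyNormedField K) (_ : IsUltrametricDist K) (_ : CompleteSpace K)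
      (_ : IsAlgClosed K) (_ : CharP K p) (_ : Algebra (GaloisField p n) K)
      (ψ : MvPowerSeries (Fin d) (GaloisField p n) →ₐ[GaloisField p n] K),
      (∀ f ∈ P, ψ f = 0) ∧ ψ (MvPowerSeries.X ⟨0, hd⟩) ≠ 0 ∧ (∀ f, ‖ψ f‖ ≤ 1) ∧
      (∀ f, MvPowerSeries.constantCoeff f = 0 → ‖ψ f‖ < 1) ∧
      ∀ f, ψ f = evalS (MvPowerSeries.map (algebraMap (GaloisField p n) K) f)
        (fun i => ψ (MvPowerSeries.X i)) :=
  exists_point_charP_aux (GaloisField p n) p hd P hy

end Crest.Agent.LT
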