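/-
E7, the relation clause: germ theorem (E3) + truncated homomorphism (E4) + digits, in the form
consumed by `e7_false` (`P3E7`).
-/
import Crest.Agent.Lib.LT.P3Digits

set_option autoImplicit false
set_option linter.unusedSectionVars false
set_option linter.unusedVariables false
set_option linter.unnecessarySimpa false

namespace Crest.Agent.LT

open MvPowerSeries

variable {K : Type*} [NontriviallyNormedField K] [IsUltrametricDist K] [CompleteSpace K]
variable {σ : Type*} [Fintype σ] [DecidableEq σ]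

/-- **Relation clause of E7.** If `I ≠ 0`, there is a coordinate `l₁` such that at each level `N` at
which the germ maps are given by a series `S(s,A)` as in `hom_of_germ`, the coordinate `ω l₁` of the
points of `Ω r` is, for `r` large, the plain sum of digit terms of the other coordinates. -/
theorem relation_of_germ (p : ℕ) [hp : Fact p.Prime] [CharP K p] [PerfectRing K p] {h : ℕ}
    (hh : 1 ≤ h) {Ω : ℕ → Set (σ → K)} (hΩ : IsGermSetting Ω) {f₀ : MvPowerSeries σ K}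
    (hf₀ : InI Ω f₀) (hf₀0 : f₀ ≠ 0) :
    ∃ l₁ : σ, ∀ {N N₁ : ℕ}, 1 ≤ N → p ^ h * N₁ ≤ N →
      ∀ {S : σ → MvPowerSeries (σ ⊕ σ) K} {εS CS : ℝ}, 0 < εS → (∀ i, IsB εS CS (S i)) →
      ∀ {ε₀ C₀ : ℝ}, 0 < ε₀ → ∀ {r₂ : ℕ},
      (∀ r ≥ r₂, ∀ ω ∈ Ω r, ∃ F : σ → MvPowerSeries σ K, (∀ i, constantCoeff (F i) = ω i) ∧
        (∀ i, IsB ε₀ C₀ (F i)) ∧ (∀ ω' ∈ Ω r, (fun i => evalS (F i) ω') ∈ Ω r) ∧
        ∀ i, CongO N (F i) (peval ω (S i))) →
      (∀ i, CongO N (S i) (fgAdd (honda p h K) (X (Sum.inl i)) (X (Sum.inr i)))) →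
      ∃ (b' : σ → ℕ → K) (C : ℝ), 1 ≤ C ∧ (∀ s, b' l₁ s = 0) ∧ (∀ l s, b' l s ^ p ^ h = b' l s) ∧
        (∀ l s, N₁ ≤ s → b' l s = 0) ∧
        ∃ r₀ : ℕ, ∀ r ≥ r₀, ∀ ω ∈ Ω r, ∀ R M : ℝ, (∀ i, ‖ω i‖ ≤ R) →
          (∀ i s, b' i s ≠ 0 → ‖ω i‖ ^ p ^ s ≤ M) → M < 1 →
          ‖ω l₁ - ∑ i, ∑ s ∈ Finset.range N₁, b' i s * ω i ^ p ^ s‖ ≤
            max (C * R ^ N₁) (M ^ p ^ h) := by
  classical
  obtain ⟨E, G, hE, hG0, ⟨εG, CG, hεG, hGB⟩, hGE, ⟨rG, hgraph⟩, hI⟩ := germ_main p hΩ hf₀ hf₀0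
  obtain ⟨l₁, hl₁⟩ : ∃ l₁, l₁ ∉ E := by
    by_contra hcon
    push Not at hcon
    exact hE (Finset.eq_univ_iff_forall.mpr hcon)
  refine ⟨l₁, ?_⟩
  intro N N₁ hN hN₁ S εS CS hεS hSB ε₀ C₀ hε₀ r₂ hact hb
  have hT := hom_of_germ p hΩ hG0 hεG hGB hGE hgraph hI (honda p h K) hN hεS hSB hε₀ hact hb l₁
  obtain ⟨b, hb1, hb2, ρ, C, hρ, hC, hmain⟩ :=
    digits_eval p hh hN₁ (hG0 l₁) hT hεG (hGB l₁)
  have hpp : p.Prime := hp.out
  refine ⟨fun i s => if hi : i ∈ E then b ⟨i, hi⟩ s else 0, max C 1, le_max_right _ _,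
    fun s => by simp [hl₁], ?_, ?_, ?_⟩
  · intro l s
    by_cases hi : l ∈ E
    · simp only [hi, dif_pos]
      exact hb1 _ _
    · simp only [hi, dif_neg, not_false_iff]
      exact zero_pow (pow_ne_zero _ hpp.ne_zero)
  · intro l s hs
    by_cases hi : l ∈ E
    · simp only [hi, dif_pos]
      exact hb2 _ _ (hs.trans (Nat.lt_pow_self hpp.one_lt).le)
    · simp only [hi, dif_neg, not_false_iff]
  · obtain ⟨r₁, hr₁⟩ := hΩ.small ρ hρ
    refine ⟨max rG r₁, fun r hr ω hω R M hR hM hM1 => ?_⟩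
    have hωG : ω ∈ Ω rG := hΩ.anti (le_trans (le_max_left _ _) hr) hω
    have hω₁ : ω ∈ Ω r₁ := hΩ.anti (le_trans (le_max_right _ _) hr) hω
    have hR0 : 0 ≤ R := (norm_nonneg _).trans (hR l₁)
    set M' : ℝ := max 0 M with hM'
    have hM'0 : 0 ≤ M' := le_max_left _ _
    have hM'1 : M' < 1 := max_lt one_pos hM1
    have hkey := hmain (prE E ω) (fun i => (hr₁ ω hω₁ i).le) R M' hR0 (fun i => hR i) hM'0 hM'1
      (fun i s hi => by
        have := hM i.1 s (by simpa [prE, i.2] using hi)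
        exact this.trans (le_max_right _ _))
    have hsum : ∑ i, ∑ s ∈ Finset.range N₁,
        (if hi : i ∈ E then b ⟨i, hi⟩ s else 0) * ω i ^ p ^ s =
        ∑ s ∈ Finset.range N₁, ∑ i : E, b i s * prE E ω i ^ p ^ s := by
      rw [Finset.sum_comm]
      refine Finset.sum_congr rfl fun s _ => ?_
      rw [← Finset.sum_subset (Finset.subset_univ E) (fun x _ hx => by simp [hx]),
        ← Finset.sum_attach E, Finset.univ_eq_attach]
      refine Finset.sum_congr rfl fun i _ => ?_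
      simp [prE, i.2]
    simp only [hsum]
    rw [hgraph ω hωG l₁]
    refine hkey.trans (max_le ?_ ?_)
    · refine le_trans ?_ (le_max_left _ _)
      exact mul_le_mul_of_nonneg_right (le_max_left _ _) (pow_nonneg hR0 _)
    · by_cases hM0 : 0 ≤ M
      · rw [hM', max_eq_right hM0]
        exact le_max_right _ _
      · have : M' = 0 := max_eq_left (not_le.mp hM0).le
        rw [this, zero_pow (pow_ne_zero _ hpp.ne_zero)]
        refine le_trans ?_ (le_max_left _ _)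
        positivity

end Crest.Agent.LT
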