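/-
E7: from the approximate relations to the hypothesis of the Final Lemma (BLUEPRINT §E7).
This file is pure valuation theory: the inputs are Lemma N for a map `Θ`, the orbit bound and the
digit relation.
-/
import Crest.Agent.Lib.LT.P3Final

set_option autoImplicit false
set_option linter.unusedSectionVars false
set_option linter.unusedVariables false
set_option linter.unnecessarySimpa false

namespace Crest.Agent.LT

open Filter Topology

section VV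

variable (p : ℕ) [Fact p.Prime] {K : Type*} [NormedField K] (c : ℤ → K)

/-- `V(s) = inf_a (v_a + p^a s)`, over the `a` with `c a ≠ 0`. -/
noncomputable def VV (s : ℝ) : ℝ := ⨅ a : {a : ℤ // c a ≠ 0}, vl (c a.1) + (p : ℝ) ^ a.1 * s

variable {p c}

omit [Fact p.Prime] in
lemma vl_nonneg_of_lt {x : K} (hx : ‖x‖ ≤ 1) : 0 ≤ vl x := by
  have := Real.log_nonpos (norm_nonneg x) hx
  simp only [vl]; linarith

lemma hp_pos : (0 : ℝ) < p := by exact_mod_cast (Fact.out : p.Prime).pos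

lemma hp_one : (1 : ℝ) < p := by exact_mod_cast (Fact.out : p.Prime).one_lt

lemma VV_bdd (hc1 : ∀ a, ‖c a‖ < 1) {s : ℝ} (hs : 0 ≤ s) :
    BddBelow (Set.range fun a : {a : ℤ // c a ≠ 0} => vl (c a.1) + (p : ℝ) ^ a.1 * s) := by
  refine ⟨0, ?_⟩
  rintro _ ⟨a, rfl⟩
  have h1 := vl_nonneg_of_lt (hc1 a.1).le
  have h2 : 0 ≤ (p : ℝ) ^ a.1 * s := mul_nonneg (zpow_nonneg hp_pos.le _) hs
  simp only
  linarith

lemma VV_le (hc1 : ∀ a, ‖c a‖ < 1) {s : ℝ} (hs : 0 ≤ s) {a : ℤ} (ha : c a ≠ 0) :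
    VV p c s ≤ vl (c a) + (p : ℝ) ^ a * s :=
  ciInf_le (VV_bdd hc1 hs) (⟨a, ha⟩ : {a : ℤ // c a ≠ 0})

lemma le_VV (hc0 : ∃ a, c a ≠ 0) {s m : ℝ} (h : ∀ a, c a ≠ 0 → m ≤ vl (c a) + (p : ℝ) ^ a * s) :
    m ≤ VV p c s := by
  haveI : Nonempty {a : ℤ // c a ≠ 0} := by
    obtain ⟨a, ha⟩ := hc0
    exact ⟨⟨a, ha⟩⟩
  exact le_ciInf fun a => h a.1 a.2

/-- `V(q s) = p^h V(s)`. -/
lemma VV_scale {h d : ℕ} (hc : ∀ a, c a = c (a + d) ^ (p ^ h)) (hc1 : ∀ a, ‖c a‖ < 1) (hc0 : ∃ a, c a ≠ 0)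
    {s : ℝ} (hs : 0 ≤ s) : VV p c ((p : ℝ) ^ (h + d) * s) = (p : ℝ) ^ h * VV p c s := by
  have hp0 : (0 : ℝ) < p := hp_pos
  have hpne : (p : ℝ) ≠ 0 := hp0.ne'
  have hhpos : (0 : ℝ) < (p : ℝ) ^ h := pow_pos hp0 _
  have hq : 0 ≤ (p : ℝ) ^ (h + d) * s := mul_nonneg (pow_nonneg hp0.le _) hs
  have hne : ∀ a, c a ≠ 0 ↔ c (a + d) ≠ 0 := by
    intro a
    rw [hc a]
    exact (pow_ne_zero_iff (pow_ne_zero _ (Fact.out : p.Prime).ne_zero))
  have hterm : ∀ a : ℤ, vl (c a) + (p : ℝ) ^ a * ((p : ℝ) ^ (h + d) * s) =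
      (p : ℝ) ^ h * (vl (c (a + d)) + (p : ℝ) ^ (a + d) * s) := by
    intro a
    rw [hc a, vl_pow, zpow_add₀ hpne, zpow_natCast]
    push_cast
    rw [pow_add]
    ring
  apply le_antisymm
  · rw [← div_le_iff₀' hhpos]
    refine le_VV hc0 fun a ha => ?_
    rw [div_le_iff₀' hhpos]
    have h1 : c (a + (-(d : ℤ))) ≠ 0 := by
      rw [hne]
      simpa using ha
    have h2 := VV_le (p := p) hc1 hq h1
    refine h2.trans (le_of_eq ?_)
    rw [hterm]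
    simp
  · refine le_VV hc0 fun a ha => ?_
    rw [hterm]
    exact mul_le_mul_of_nonneg_left (VV_le hc1 hs ((hne a).1 ha)) hhpos.le

end VV

section VVpos

variable (p : ℕ) [Fact p.Prime] {K : Type*} [NormedField K] [CharP K p] [PerfectRing K p]
  {c : ℤ → K} {h d : ℕ}

/-- `V(s) > 0` for `s > 0`. -/
lemma VV_pos (hh : 1 ≤ h) (hd : 1 ≤ d) (hc : ∀ a, c a = c (a + d) ^ (p ^ h)) (hc1 : ∀ a, ‖c a‖ < 1)
    (hc0 : ∃ a, c a ≠ 0) {s : ℝ} (hs : 0 < s) : 0 < VV p c s := by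
  classical
  have hp0 : (0 : ℝ) < p := hp_pos
  have hp1 : (1 : ℝ) < p := hp_one
  -- large negative `a`
  have h1 := tendsto_c_atBot p h d hh hd c hc hc1
  have h2 := (h1.eventually (gt_mem_nhds (show (0 : ℝ) < Real.exp (-1) from Real.exp_pos _)))
  obtain ⟨A, hA⟩ := eventually_atBot.1 h2
  -- large positive `a`
  have h3 : Tendsto (fun a : ℕ => (p : ℝ) ^ a * s) atTop atTop :=
    (tendsto_pow_atTop_atTop_of_one_lt hp1).atTop_mul_const hs
  obtain ⟨B₀, hB₀⟩ := eventually_atTop.1 (h3.eventually_ge_atTop 1)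
  have hB : ∀ a : ℤ, (B₀ : ℤ) ≤ a → 1 ≤ (p : ℝ) ^ a * s := by
    intro a ha
    have h4 := hB₀ B₀ le_rfl
    have h5 : (p : ℝ) ^ B₀ ≤ (p : ℝ) ^ a := by
      rw [← zpow_natCast]
      exact zpow_le_zpow_right₀ hp1.le ha
    exact h4.trans (mul_le_mul_of_nonneg_right h5 hs.le)
  set B : ℤ := (B₀ : ℤ) with hBdef
  -- the finitely many others
  have hfin : ∃ ε > 0, ∀ a ∈ Finset.Icc A B, c a ≠ 0 → ε ≤ vl (c a) := by
    refine Finset.induction_on (Finset.Icc A B) ⟨1, one_pos, by simp⟩ ?_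
    intro a S ha ih
    obtain ⟨ε, hε, hS⟩ := ih
    by_cases hca : c a = 0
    · refine ⟨ε, hε, fun b hb hb0 => ?_⟩
      rcases Finset.mem_insert.1 hb with rfl | hb
      · exact absurd hca hb0
      · exact hS b hb hb0
    · refine ⟨min ε (vl (c a)), lt_min hε (vl_pos hca (hc1 a)), fun b hb hb0 => ?_⟩
      rcases Finset.mem_insert.1 hb with rfl | hb
      · exact min_le_right _ _
      · exact (min_le_left _ _).trans (hS b hb hb0)
  obtain ⟨ε, hε, hfin⟩ := hfin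
  have hlow : min 1 ε ≤ VV p c s := by
    refine le_VV hc0 fun a ha => ?_
    have hv : 0 ≤ vl (c a) := vl_nonneg_of_lt (hc1 a).le
    have hpa : 0 ≤ (p : ℝ) ^ a * s := mul_nonneg (zpow_nonneg hp0.le _) hs.le
    by_cases haA : a ≤ A
    · have h4 := hA a haA
      have h5 : 1 ≤ vl (c a) := by
        have h6 : Real.log ‖c a‖ < -1 := by
          rw [Real.log_lt_iff_lt_exp (norm_pos_iff.2 ha)]
          exact h4
        simp only [vl]; linarith
      exact (min_le_left _ _).trans (by linarith)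
    by_cases haB : B ≤ a
    · exact (min_le_left _ _).trans (by have := hB a haB; linarith)
    · have h7 := hfin a (Finset.mem_Icc.2 ⟨by omega, by omega⟩) ha
      exact (min_le_right _ _).trans (by linarith)
  exact lt_of_lt_of_le (lt_min one_pos hε) hlow

/-- `V(p^(n w + e) s) = p^(h w) V(p^e s)`. -/
lemma VV_pow (hc : ∀ a, c a = c (a + d) ^ (p ^ h)) (hc1 : ∀ a, ‖c a‖ < 1) (hc0 : ∃ a, c a ≠ 0)
    {s : ℝ} (hs : 0 ≤ s) (w : ℕ) :
    VV p c ((p : ℝ) ^ ((h + d) * w) * s) = (p : ℝ) ^ (h * w) * VV p c s := by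
  have hp0 : (0 : ℝ) < p := hp_pos
  induction w with
  | zero => simp
  | succ w ih =>
    have e1 : (p : ℝ) ^ ((h + d) * (w + 1)) * s = (p : ℝ) ^ (h + d) * ((p : ℝ) ^ ((h + d) * w) * s) := by
      rw [show (h + d) * (w + 1) = (h + d) + (h + d) * w by ring, pow_add]; ring
    rw [e1, VV_scale hc hc1 hc0 (mul_nonneg (pow_nonneg hp0.le _) hs), ih,
      show h * (w + 1) = h + h * w by ring, pow_add]
    ring

/-- Comparison constant `K₀`. -/
lemma exists_ratio {ι : Type*} [Fintype ι] (hh : 1 ≤ h) (hd : 1 ≤ d) (hc : ∀ a, c a = c (a + d) ^ (p ^ h))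
    (hc1 : ∀ a, ‖c a‖ < 1) (hc0 : ∃ a, c a ≠ 0) (ν : ι → ℝ) (hν : ∀ l, 0 < ν l) :
    ∃ K₀ : ℝ, 0 < K₀ ∧ ∀ (r : ℕ) (l l' : ι),
      VV p c ((p : ℝ) ^ r * ν l) ≤ K₀ * VV p c ((p : ℝ) ^ r * ν l') := by
  classical
  have hp0 : (0 : ℝ) < p := hp_pos
  have hn : 0 < h + d := by omega
  set Q : ℕ → ι → ι → ℝ := fun e l l' => VV p c ((p : ℝ) ^ e * ν l) / VV p c ((p : ℝ) ^ e * ν l') with hQ
  have hVpos : ∀ e l, 0 < VV p c ((p : ℝ) ^ e * ν l) := fun e l =>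
    VV_pos p hh hd hc hc1 hc0 (mul_pos (pow_pos hp0 _) (hν l))
  have hQpos : ∀ e l l', 0 ≤ Q e l l' := fun e l l' => (div_pos (hVpos e l) (hVpos e l')).le
  refine ⟨1 + ∑ e ∈ Finset.range (h + d), ∑ l, ∑ l', Q e l l', ?_, ?_⟩
  · have : 0 ≤ ∑ e ∈ Finset.range (h + d), ∑ l, ∑ l', Q e l l' :=
      Finset.sum_nonneg fun e _ => Finset.sum_nonneg fun l _ => Finset.sum_nonneg fun l' _ => hQpos e l l'
    linarith
  · intro r l l'
    have hdecomp : ∀ l'' : ι, (p : ℝ) ^ r * ν l'' = (p : ℝ) ^ ((h + d) * (r / (h + d))) * ((p : ℝ) ^ (r % (h + d)) * ν l'') := by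
      intro l''
      rw [← mul_assoc, ← pow_add, Nat.div_add_mod]
    set e := r % (h + d) with he
    set w := r / (h + d) with hw
    have hs : ∀ l'' : ι, 0 ≤ (p : ℝ) ^ e * ν l'' := fun l'' => (mul_pos (pow_pos hp0 _) (hν l'')).le
    rw [hdecomp l, hdecomp l', VV_pow p hc hc1 hc0 (hs l), VV_pow p hc hc1 hc0 (hs l')]
    have hQle : Q e l l' ≤ 1 + ∑ e ∈ Finset.range (h + d), ∑ l, ∑ l', Q e l l' := by
      have h1 : Q e l l' ≤ ∑ l', Q e l l' :=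
        Finset.single_le_sum (f := fun l' => Q e l l') (fun l'' _ => hQpos e l l'') (Finset.mem_univ l')
      have h2 : ∑ l', Q e l l' ≤ ∑ l, ∑ l', Q e l l' :=
        Finset.single_le_sum (f := fun l => ∑ l', Q e l l')
          (fun l'' _ => Finset.sum_nonneg fun l3 _ => hQpos e l'' l3) (Finset.mem_univ l)
      have h3 : ∑ l, ∑ l', Q e l l' ≤ ∑ e ∈ Finset.range (h + d), ∑ l, ∑ l', Q e l l' :=
        Finset.single_le_sum (f := fun e => ∑ l, ∑ l', Q e l l')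
          (fun e' _ => Finset.sum_nonneg fun l'' _ => Finset.sum_nonneg fun l3 _ => hQpos e' l'' l3)
          (Finset.mem_range.2 (Nat.mod_lt _ hn))
      linarith
    have h5 : VV p c ((p : ℝ) ^ e * ν l) ≤ (1 + ∑ e ∈ Finset.range (h + d), ∑ l, ∑ l', Q e l l') *
        VV p c ((p : ℝ) ^ e * ν l') := by
      rw [← div_le_iff₀ (hVpos e l')]
      exact hQle
    have h6 : (0 : ℝ) ≤ (p : ℝ) ^ (h * w) := pow_nonneg hp0.le _
    calc (p : ℝ) ^ (h * w) * VV p c ((p : ℝ) ^ e * ν l) ≤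
        (p : ℝ) ^ (h * w) * ((1 + ∑ e ∈ Finset.range (h + d), ∑ l, ∑ l', Q e l l') *
          VV p c ((p : ℝ) ^ e * ν l')) := mul_le_mul_of_nonneg_left h5 h6
      _ = _ := by ring

/-- `V(p^r ν) → ∞`. -/
lemma tendsto_VV (hh : 1 ≤ h) (hd : 1 ≤ d) (hc : ∀ a, c a = c (a + d) ^ (p ^ h)) (hc1 : ∀ a, ‖c a‖ < 1)
    (hc0 : ∃ a, c a ≠ 0) {ν : ℝ} (hν : 0 < ν) :
    Tendsto (fun r : ℕ => VV p c ((p : ℝ) ^ r * ν)) atTop atTop := by
  classical
  have hp0 : (0 : ℝ) < p := hp_pos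
  have hp1 : (1 : ℝ) < p := hp_one
  have hn : 0 < h + d := by omega
  -- minimal value on a period
  obtain ⟨e₀, -, he₀⟩ := Finset.exists_min_image (Finset.range (h + d))
    (fun e => VV p c ((p : ℝ) ^ e * ν)) ⟨0, Finset.mem_range.2 hn⟩
  have hμ : 0 < VV p c ((p : ℝ) ^ e₀ * ν) := VV_pos p hh hd hc hc1 hc0 (mul_pos (pow_pos hp0 _) hν)
  set μ := VV p c ((p : ℝ) ^ e₀ * ν) with hμdef
  rw [tendsto_atTop]
  intro B
  have h1 : Tendsto (fun w : ℕ => (p : ℝ) ^ w * μ) atTop atTop :=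
    (tendsto_pow_atTop_atTop_of_one_lt hp1).atTop_mul_const hμ
  obtain ⟨W, hW⟩ := eventually_atTop.1 (h1.eventually_ge_atTop B)
  filter_upwards [eventually_ge_atTop ((h + d) * W)] with r hr
  have hdecomp : (p : ℝ) ^ r * ν = (p : ℝ) ^ ((h + d) * (r / (h + d))) * ((p : ℝ) ^ (r % (h + d)) * ν) := by
    rw [← mul_assoc, ← pow_add, Nat.div_add_mod]
  rw [hdecomp, VV_pow p hc hc1 hc0 (mul_pos (pow_pos hp0 _) hν).le]
  have hw : W ≤ r / (h + d) := (Nat.le_div_iff_mul_le hn).2 (by rw [mul_comm]; exact hr)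
  have h2 := he₀ (r % (h + d)) (Finset.mem_range.2 (Nat.mod_lt _ hn))
  have h3 : W ≤ h * (r / (h + d)) := hw.trans (Nat.le_mul_of_pos_left _ (by omega))
  have h4 : (p : ℝ) ^ W ≤ (p : ℝ) ^ (h * (r / (h + d))) := pow_le_pow_right₀ hp1.le h3
  calc B ≤ (p : ℝ) ^ W * μ := hW W le_rfl
    _ ≤ (p : ℝ) ^ (h * (r / (h + d))) * VV p c ((p : ℝ) ^ (r % (h + d)) * ν) :=
        mul_le_mul h4 h2 hμ.le (pow_nonneg hp0.le _)

end VVpos

lemma norm_sub_le_max_K {K : Type*} [NormedField K] [IsUltrametricDist K] (x y : K) :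
    ‖x - y‖ ≤ max ‖x‖ ‖y‖ := by
  rw [sub_eq_add_neg]
  simpa using IsUltrametricDist.norm_add_le_max x (-y)

section core

variable (p : ℕ) [Fact p.Prime] {K : Type*} [NormedField K] [IsUltrametricDist K] [CharP K p]
  [PerfectRing K p] [IsAlgClosed K] [CompleteSpace K]

/-- Lemma N of the blueprint, in lower bound form. -/
def LemmaN (h : ℕ) (c : ℤ → K) (Θ : K → K) : Prop :=
  ∀ T : K, T ≠ 0 → ‖T‖ < 1 → ∀ m : ℝ, (∀ a, c a ≠ 0 → m ≤ vl (c a) + (p : ℝ) ^ a * vl T) →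
    ‖Θ T‖ ≤ Real.exp (-m) ∧ ‖Θ T - ∑' a : ℤ, c a * pw p a T‖ ≤ Real.exp (-((p : ℝ) ^ h * m))

omit [IsAlgClosed K] [IsUltrametricDist K] [CompleteSpace K] in
lemma pw_term (c₀ t z : K) (a : ℤ) (r s : ℕ) :
    (c₀ * pw p a (t * z ^ p ^ r)) ^ p ^ s = c₀ ^ p ^ s * pw p (a + s) t * pw p (a + s + r) z := by
  have h1 : pw p a (z ^ p ^ r) = pw p (a + r) z := by
    rw [← pw_nat p, pw_add]
  have h2 : ∀ (e : ℤ) (x : K), (pw p e x) ^ p ^ s = pw p (e + s) x := by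
    intro e x
    rw [← pw_nat p, ← pw_add, add_comm]
  rw [map_mul, h1, mul_pow, mul_pow, h2, h2, mul_assoc]
  congr 3
  ring_nf

omit [IsAlgClosed K] in
theorem e7_core (h d : ℕ) (hh : 1 ≤ h) (hd : 1 ≤ d)
    (c : ℤ → K) (hc : ∀ a, c a = c (a + d) ^ (p ^ h)) (hc1 : ∀ a, ‖c a‖ < 1) (hc0 : ∃ a, c a ≠ 0)
    {ι : Type*} [Fintype ι] [DecidableEq ι] (z : ι → K) (hz0 : ∀ l, z l ≠ 0) (hz1 : ∀ l, ‖z l‖ < 1)
    (Θ : K → K) (hΘ : LemmaN p h c Θ) :
    ∃ K₀ : ℝ, 0 < K₀ ∧ ∀ (N N₁ : ℕ), (p : ℝ) ^ h * K₀ < N → (p : ℝ) ^ h * K₀ < N₁ →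
      ∀ (C' C : ℝ), 1 ≤ C' → 1 ≤ C → ∀ (S : ℕ) (l₁ : ι) (b' : ι → ℕ → K),
      (∀ s, b' l₁ s = 0) → (∀ l s, b' l s ^ p ^ h = b' l s) → (∀ l s, S ≤ s → b' l s = 0) →
      ∀ ω : K → ℕ → ι → K,
      (∀ t : K, t ≠ 0 → t ^ p ^ (h + d) = t → ∀ᶠ r : ℕ in atTop,
        (∀ A : ℝ, (∀ l, ‖Θ (t * z l ^ p ^ r)‖ ≤ A) →
          (∀ l, ‖ω t r l‖ ≤ A) ∧ ∀ l, ‖ω t r l - Θ (t * z l ^ p ^ r)‖ ≤ (C' * A) ^ N) ∧
        (∀ R M : ℝ, (∀ i, ‖ω t r i‖ ≤ R) → (∀ i s, b' i s ≠ 0 → ‖ω t r i‖ ^ p ^ s ≤ M) → M < 1 →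
          ‖ω t r l₁ - ∑ i, ∑ s ∈ Finset.range S, b' i s * ω t r i ^ p ^ s‖ ≤
            max (C * R ^ N₁) (M ^ p ^ h))) →
      ∀ t : K, t ^ p ^ (h + d) = t → ∀ᶠ r : ℕ in atTop, ∀ m : ℝ,
        (∀ l s (a : ℤ), ((if l = l₁ ∧ s = 0 then 1 else 0) - b' l s) ≠ 0 → c a ≠ 0 →
          m ≤ (p : ℝ) ^ s * vl (c a) + (p : ℝ) ^ (a + s + r) * vl (z l)) →
        ‖∑ l, ∑ s ∈ Finset.range (S + 1), ∑' a : ℤ,
            ((if l = l₁ ∧ s = 0 then 1 else 0) - b' l s) * c a ^ (p ^ s) * pw p (a + s) t * pw p (a + s + r) (z l)‖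
          ≤ Real.exp (-((p : ℝ) ^ h * m)) := by
  classical
  have hpp : p.Prime := Fact.out
  have hp0 : (0 : ℝ) < p := hp_pos
  have hp1 : (1 : ℝ) < p := hp_one
  set ν : ι → ℝ := fun l => vl (z l) with hν
  have hνpos : ∀ l, 0 < ν l := fun l => vl_pos (hz0 l) (hz1 l)
  obtain ⟨K₀, hK₀, hratio⟩ := exists_ratio p hh hd hc hc1 hc0 ν hνpos
  refine ⟨K₀, hK₀, ?_⟩
  intro N N₁ hN hN₁ C' C hC' hC S l₁ b' hb'1 hb'q hb'S ω hω t ht
  set q : ℝ := (p : ℝ) ^ h with hq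
  have hqpos : 0 < q := pow_pos hp0 _
  have hq1 : 1 ≤ q := one_le_pow₀ hp1.le
  set b : ι → ℕ → K := fun l s => (if l = l₁ ∧ s = 0 then 1 else 0) - b' l s with hb
  by_cases ht0 : t = 0
  · refine Eventually.of_forall fun r m _ => ?_
    have : ∀ (x y : K) (e : ℤ), x * y * pw p e t = 0 := by
      intro x y e
      rw [ht0, map_zero, mul_zero]
    simp only [this, zero_mul, tsum_zero, Finset.sum_const_zero, norm_zero]
    exact (Real.exp_pos _).le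
  have hq2 : 2 ≤ p ^ (h + d) := by
    calc 2 ≤ p := hpp.two_le
      _ = p ^ 1 := (pow_one p).symm
      _ ≤ p ^ (h + d) := Nat.pow_le_pow_right hpp.pos (by omega)
  have htn : ‖t‖ = 1 := norm_eq_one_of_pow_eq t _ hq2 ht ht0
  have hlC' : 0 ≤ Real.log C' := Real.log_nonneg hC'
  have hlC : 0 ≤ Real.log C := Real.log_nonneg hC
  have hA1 : 0 < (N : ℝ) - q * K₀ := by linarith
  have hA2 : 0 < (N₁ : ℝ) - q * K₀ := by linarith
  set B : ℝ := max 1 (max (Real.log C') (max ((N : ℝ) * Real.log C' / ((N : ℝ) - q * K₀))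
    (Real.log C / ((N₁ : ℝ) - q * K₀)))) with hB
  have hev := eventually_all.2 fun l =>
    (tendsto_VV p hh hd hc hc1 hc0 (hνpos l)).eventually_ge_atTop B
  filter_upwards [hω t ht0 ht, hev] with r hr hVB m hm
  obtain ⟨horbit, hrel⟩ := hr
  set V : ι → ℝ := fun l => VV p c ((p : ℝ) ^ r * ν l) with hV
  obtain ⟨l₂, -, hl₂⟩ := Finset.exists_min_image Finset.univ V ⟨l₁, Finset.mem_univ _⟩
  set M0 := V l₂ with hM0
  have hM0B : B ≤ M0 := hVB l₂
  have hM01 : 1 ≤ M0 := (le_max_left _ _).trans hM0B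
  have hM0C' : Real.log C' ≤ M0 := ((le_max_left _ _).trans (le_max_right _ _)).trans hM0B
  have hM0N : (N : ℝ) * Real.log C' / ((N : ℝ) - q * K₀) ≤ M0 :=
    ((le_max_left _ _).trans ((le_max_right _ _).trans (le_max_right _ _))).trans hM0B
  have hM0N₁ : Real.log C / ((N₁ : ℝ) - q * K₀) ≤ M0 :=
    ((le_max_right _ _).trans ((le_max_right _ _).trans (le_max_right _ _))).trans hM0B
  rw [div_le_iff₀ hA1] at hM0N
  rw [div_le_iff₀ hA2] at hM0N₁
  set A : ℝ := Real.exp (-M0) with hA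
  have hApos : 0 < A := Real.exp_pos _
  set T : ι → K := fun l => t * z l ^ p ^ r with hT
  have hTne : ∀ l, T l ≠ 0 := fun l => mul_ne_zero ht0 (pow_ne_zero _ (hz0 l))
  have hTlt : ∀ l, ‖T l‖ < 1 := fun l => by
    simp only [hT]
    rw [norm_mul, htn, one_mul, norm_pow]
    exact pow_lt_one₀ (norm_nonneg _) (hz1 l) (pow_ne_zero _ hpp.ne_zero)
  have hvlT : ∀ l, vl (T l) = (p : ℝ) ^ r * ν l := fun l => by
    simp only [hT]
    rw [vl_mul ht0 (pow_ne_zero _ (hz0 l)), vl_pow]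
    have : vl t = 0 := by simp [vl, htn]
    rw [this, zero_add]
    push_cast
    rfl
  have hs0 : ∀ l, 0 ≤ (p : ℝ) ^ r * ν l := fun l => (mul_pos (pow_pos hp0 _) (hνpos l)).le
  have hΘl : ∀ l, ‖Θ (T l)‖ ≤ Real.exp (-V l) ∧
      ‖Θ (T l) - ∑' a : ℤ, c a * pw p a (T l)‖ ≤ Real.exp (-(q * V l)) := by
    intro l
    refine hΘ (T l) (hTne l) (hTlt l) (V l) fun a ha => ?_
    rw [hvlT]
    exact VV_le hc1 (hs0 l) ha
  have hΘA : ∀ l, ‖Θ (T l)‖ ≤ A := fun l =>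
    (hΘl l).1.trans (Real.exp_le_exp.2 (neg_le_neg (hl₂ l (Finset.mem_univ _))))
  obtain ⟨h1, h2⟩ := horbit A hΘA
  -- lower bounds for `V`
  have hb11 : b l₁ 0 = 1 := by simp [hb, hb'1]
  have hmV : ∀ l s, b l s ≠ 0 → m ≤ (p : ℝ) ^ s * V l := by
    intro l s hbl
    have hps : 0 < (p : ℝ) ^ s := pow_pos hp0 _
    rw [← div_le_iff₀' hps]
    refine le_VV hc0 fun a ha => ?_
    rw [div_le_iff₀' hps]
    refine (hm l s a hbl ha).trans (le_of_eq ?_)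
    have hpne : (p : ℝ) ≠ 0 := hp0.ne'
    rw [zpow_add₀ hpne, zpow_add₀ hpne, zpow_natCast, zpow_natCast]
    ring
  have hml₁ : m ≤ V l₁ := by
    have := hmV l₁ 0 (by rw [hb11]; exact one_ne_zero)
    simpa using this
  have hmK : m ≤ K₀ * M0 := hml₁.trans (hratio r l₁ l₂)
  set Y : ℝ := Real.exp (-(q * m)) with hY
  have hYpos : 0 < Y := Real.exp_pos _
  have hexpY : Real.exp (-(q * (K₀ * M0))) ≤ Y :=
    Real.exp_le_exp.2 (neg_le_neg (mul_le_mul_of_nonneg_left hmK hqpos.le))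
  -- the orbit error
  set X : ℝ := (C' * A) ^ N with hX
  have hC'A : C' * A = Real.exp (Real.log C' - M0) := by
    rw [Real.exp_sub, Real.exp_log (by linarith), hA, Real.exp_neg]
    rfl
  have hXle : X ≤ Real.exp (-(q * (K₀ * M0))) := by
    rw [hX, hC'A, ← Real.exp_nat_mul]
    refine Real.exp_le_exp.2 ?_
    nlinarith
  have hXY : X ≤ Y := hXle.trans hexpY
  have hX0 : 0 ≤ X := pow_nonneg (by positivity) _
  have hC'A1 : C' * A ≤ 1 := by
    rw [hC'A]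
    exact Real.exp_le_one_iff.2 (by linarith)
  have hX1 : X ≤ 1 := pow_le_one₀ (by positivity) hC'A1
  have hXpow : ∀ s : ℕ, X ^ p ^ s ≤ X := fun s =>
    pow_le_of_le_one hX0 hX1 (pow_ne_zero _ hpp.ne_zero)
  -- rewrite the target
  set Θ' : ι → K := fun l => ∑' a : ℤ, c a * pw p a (T l) with hΘ'
  have hsum : ∀ l, Summable (fun a : ℤ => c a * pw p a (T l)) := by
    intro l
    have := summable_term p h d hh hd c hc hc1 (z l) (hz1 l) (r : ℤ) 1 (by simp) 1 one_ne_zero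
      (fun a => pw p a t) (fun a => norm_pw_le_one p t htn.le a)
    refine this.congr fun a => ?_
    simp only [hT, map_mul, one_mul, pow_one]
    have h3 : pw p a (z l ^ p ^ r) = pw p (a + r) (z l) := by rw [← pw_nat p, pw_add]
    rw [h3, mul_assoc]
  have hfr : ∀ l s, ∑' a : ℤ, b l s * c a ^ p ^ s * pw p (a + s) t * pw p (a + s + r) (z l) =
      b l s * (Θ' l) ^ p ^ s := by
    intro l s
    have h3 := (hsum l).map_tsum (iterateFrobenius K p s)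
      (by
        have : (iterateFrobenius K p s : K → K) = fun x => x ^ p ^ s :=
          funext (iterateFrobenius_def p s)
        rw [this]
        exact continuous_pow _)
    simp only [iterateFrobenius_def] at h3
    simp only [hΘ']
    rw [h3, ← tsum_mul_left]
    refine tsum_congr fun a => ?_
    simp only [hT]
    rw [pw_term]
    ring
  have htarget : ∑ l, ∑ s ∈ Finset.range (S + 1), ∑' a : ℤ,
      ((if l = l₁ ∧ s = 0 then 1 else 0) - b' l s) * c a ^ (p ^ s) * pw p (a + s) t * pw p (a + s + r) (z l)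
      = ∑ l, ∑ s ∈ Finset.range (S + 1), b l s * (Θ' l) ^ p ^ s :=
    Finset.sum_congr rfl fun l _ => Finset.sum_congr rfl fun s _ => hfr l s
  rw [htarget]
  -- trivial case
  have hbnorm : ∀ l s, ‖b l s‖ ≤ 1 := by
    intro l s
    have hq3 : 2 ≤ p ^ h := by
      calc 2 ≤ p := hpp.two_le
        _ = p ^ 1 := (pow_one p).symm
        _ ≤ p ^ h := Nat.pow_le_pow_right hpp.pos hh
    refine norm_le_one_of_pow_eq _ (p ^ h) hq3 ?_
    simp only [hb]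
    rw [sub_pow_char_pow, hb'q]
    congr 1
    split_ifs
    · simp
    · rw [zero_pow (pow_ne_zero _ hpp.ne_zero)]
  by_cases hm0 : m ≤ 0
  · have hΘ'1 : ∀ l, ‖Θ' l‖ ≤ 1 := by
      intro l
      refine IsUltrametricDist.norm_tsum_le_of_forall_le_of_nonneg zero_le_one fun a => ?_
      rw [norm_mul]
      exact mul_le_one₀ (hc1 a).le (norm_nonneg _) (norm_pw_le_one p _ (hTlt l).le a)
    have hY1 : 1 ≤ Y := by
      rw [hY]
      exact Real.one_le_exp (by nlinarith)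
    refine le_trans ?_ hY1
    refine IsUltrametricDist.norm_sum_le_of_forall_le_of_nonneg zero_le_one fun l _ => ?_
    refine IsUltrametricDist.norm_sum_le_of_forall_le_of_nonneg zero_le_one fun s _ => ?_
    rw [norm_mul, norm_pow]
    exact mul_le_one₀ (hbnorm l s) (pow_nonneg (norm_nonneg _) _) (pow_le_one₀ (norm_nonneg _) (hΘ'1 l))
  push Not at hm0
  -- identity
  have hid : ∀ x : ι → K, ∑ l, ∑ s ∈ Finset.range (S + 1), b l s * x l ^ p ^ s =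
      x l₁ - ∑ i, ∑ s ∈ Finset.range S, b' i s * x i ^ p ^ s := by
    intro x
    have h3 : ∀ l, ∑ s ∈ Finset.range (S + 1), b l s * x l ^ p ^ s =
        (if l = l₁ then x l else 0) - ∑ s ∈ Finset.range S, b' l s * x l ^ p ^ s := by
      intro l
      simp only [hb, sub_mul, Finset.sum_sub_distrib]
      have e2 : ∑ s ∈ Finset.range (S + 1), b' l s * x l ^ p ^ s = ∑ s ∈ Finset.range S, b' l s * x l ^ p ^ s := by
        rw [Finset.sum_range_succ, hb'S l S le_rfl, zero_mul, add_zero]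
      rw [e2]
      congr 1
      rw [Finset.sum_eq_single 0]
      · by_cases hl : l = l₁
        · simp [hl]
        · simp [hl]
      · intro s _ hs
        simp [hs]
      · intro h0
        exact absurd (Finset.mem_range.2 (Nat.succ_pos S)) h0
    simp only [h3, Finset.sum_sub_distrib]
    simp
  have hdecomp : ∑ l, ∑ s ∈ Finset.range (S + 1), b l s * (Θ' l) ^ p ^ s =
      (ω t r l₁ - ∑ i, ∑ s ∈ Finset.range S, b' i s * ω t r i ^ p ^ s) -
        ∑ l, ∑ s ∈ Finset.range (S + 1), b l s * (ω t r l - Θ' l) ^ p ^ s := by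
    rw [← hid (ω t r), ← Finset.sum_sub_distrib]
    refine Finset.sum_congr rfl fun l _ => ?_
    rw [← Finset.sum_sub_distrib]
    refine Finset.sum_congr rfl fun s _ => ?_
    rw [sub_pow_char_pow]
    ring
  rw [hdecomp]
  refine (norm_sub_le_max_K _ _).trans (max_le ?_ ?_)
  · -- the relation
    set M : ℝ := Real.exp (-m) with hMdef
    have hM1 : M < 1 := Real.exp_lt_one_iff.2 (by linarith)
    have hωpow : ∀ i s, b' i s ≠ 0 → ‖ω t r i‖ ^ p ^ s ≤ M := by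
      intro i s hb'is
      have hi : i ≠ l₁ := fun e => hb'is (by rw [e]; exact hb'1 s)
      have hbis : b i s ≠ 0 := by
        simp only [hb, hi, false_and, if_false, zero_sub]
        exact neg_ne_zero.2 hb'is
      have hmVi := hmV i s hbis
      have e1 : ω t r i = (ω t r i - Θ (T i)) + Θ (T i) := by ring
      have h3 : ‖ω t r i‖ ≤ max X (Real.exp (-V i)) := by
        rw [e1]
        exact (IsUltrametricDist.norm_add_le_max _ _).trans
          (max_le_max (h2 i) (hΘl i).1)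
      rcases le_max_iff.1 h3 with h4 | h4
      · refine (pow_le_pow_left₀ (norm_nonneg _) h4 _).trans ((hXpow s).trans (hXY.trans ?_))
        exact Real.exp_le_exp.2 (neg_le_neg (by nlinarith))
      · refine (pow_le_pow_left₀ (norm_nonneg _) h4 _).trans ?_
        rw [← Real.exp_nat_mul]
        refine Real.exp_le_exp.2 ?_
        push_cast
        nlinarith
    refine (hrel A M h1 hωpow hM1).trans (max_le ?_ ?_)
    · have hCA : C * A ^ N₁ = Real.exp (Real.log C - N₁ * M0) := by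
        rw [Real.exp_sub, Real.exp_log (by linarith), hA, ← Real.exp_nat_mul, div_eq_mul_inv,
          ← Real.exp_neg]
        congr 2
        ring
      rw [hCA]
      refine le_trans (Real.exp_le_exp.2 ?_) hexpY
      nlinarith
    · rw [hMdef, ← Real.exp_nat_mul, hY]
      refine Real.exp_le_exp.2 (le_of_eq ?_)
      rw [hq]
      push_cast
      ring
  · refine IsUltrametricDist.norm_sum_le_of_forall_le_of_nonneg hYpos.le fun l _ => ?_
    refine IsUltrametricDist.norm_sum_le_of_forall_le_of_nonneg hYpos.le fun s _ => ?_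
    by_cases hbls : b l s = 0
    · rw [hbls, zero_mul, norm_zero]
      exact hYpos.le
    rw [norm_mul, norm_pow]
    have e1 : ω t r l - Θ' l = (ω t r l - Θ (T l)) + (Θ (T l) - Θ' l) := by ring
    have h3 : ‖ω t r l - Θ' l‖ ≤ max X (Real.exp (-(q * V l))) := by
      rw [e1]
      exact (IsUltrametricDist.norm_add_le_max _ _).trans (max_le_max (h2 l) (hΘl l).2)
    have h5 : ‖ω t r l - Θ' l‖ ^ p ^ s ≤ Y := by
      rcases le_max_iff.1 h3 with h4 | h4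
      · exact (pow_le_pow_left₀ (norm_nonneg _) h4 _).trans ((hXpow s).trans hXY)
      · refine (pow_le_pow_left₀ (norm_nonneg _) h4 _).trans ?_
        rw [← Real.exp_nat_mul]
        refine Real.exp_le_exp.2 ?_
        have hmVl := hmV l s hbls
        push_cast
        nlinarith
    calc ‖b l s‖ * ‖ω t r l - Θ' l‖ ^ p ^ s ≤ 1 * Y :=
          mul_le_mul (hbnorm l s) h5 (pow_nonneg (norm_nonneg _) _) zero_le_one
      _ = Y := one_mul Y

/-- **E7**: the approximate relations are contradictory. -/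
theorem e7_false (h d : ℕ) (hh : 1 ≤ h) (hd : 1 ≤ d)
    (c : ℤ → K) (hc : ∀ a, c a = c (a + d) ^ (p ^ h)) (hc1 : ∀ a, ‖c a‖ < 1) (hc0 : ∃ a, c a ≠ 0)
    {ι : Type*} [Fintype ι] [DecidableEq ι] (z : ι → K) (hz0 : ∀ l, z l ≠ 0) (hz1 : ∀ l, ‖z l‖ < 1)
    (Orth : ∀ (S : Finset ι) (w : ι → ℕ) (C : ℝ) (γ : ι → ℕ),
      (∀ l ∈ S, ‖z l ^ (p ^ ((h + d) * w l))‖ = C) → (∃ l ∈ S, (γ l : K) ≠ 0) →
      ‖∑ l ∈ S, (γ l : K) * z l ^ (p ^ ((h + d) * w l))‖ = C)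
    (Θ : K → K) (hΘ : LemmaN p h c Θ) :
    ∃ K₀ : ℝ, 0 < K₀ ∧ ∀ (N N₁ : ℕ), (p : ℝ) ^ h * K₀ < N → (p : ℝ) ^ h * K₀ < N₁ →
      ∀ (C' C : ℝ), 1 ≤ C' → 1 ≤ C → ∀ (S : ℕ) (l₁ : ι) (b' : ι → ℕ → K),
      (∀ s, b' l₁ s = 0) → (∀ l s, b' l s ^ p ^ h = b' l s) → (∀ l s, S ≤ s → b' l s = 0) →
      ∀ ω : K → ℕ → ι → K,
      (∀ t : K, t ≠ 0 → t ^ p ^ (h + d) = t → ∀ᶠ r : ℕ in atTop,
        (∀ A : ℝ, (∀ l, ‖Θ (t * z l ^ p ^ r)‖ ≤ A) →
          (∀ l, ‖ω t r l‖ ≤ A) ∧ ∀ l, ‖ω t r l - Θ (t * z l ^ p ^ r)‖ ≤ (C' * A) ^ N) ∧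
        (∀ R M : ℝ, (∀ i, ‖ω t r i‖ ≤ R) → (∀ i s, b' i s ≠ 0 → ‖ω t r i‖ ^ p ^ s ≤ M) → M < 1 →
          ‖ω t r l₁ - ∑ i, ∑ s ∈ Finset.range S, b' i s * ω t r i ^ p ^ s‖ ≤
            max (C * R ^ N₁) (M ^ p ^ h))) → False := by
  classical
  have hpp : p.Prime := Fact.out
  obtain ⟨K₀, h0, hH⟩ := e7_core p h d hh hd c hc hc1 hc0 z hz0 hz1 Θ hΘ
  refine ⟨K₀, h0, fun N N₁ hN hN₁ C' C hC' hC S l₁ b' h1 h2 h3 ω hω => ?_⟩
  refine final_lemma p h d hh hd c hc hc1 hc0 z hz0 hz1 Orth (S + 1)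
    (fun l s => (if l = l₁ ∧ s = 0 then 1 else 0) - b' l s) ?_ ?_ ?_
    (hH N N₁ hN hN₁ C' C hC' hC S l₁ b' h1 h2 h3 ω hω)
  · intro l s
    rw [sub_pow_char_pow, h2]
    congr 1
    split_ifs
    · simp
    · rw [zero_pow (pow_ne_zero _ hpp.ne_zero)]
  · intro l s hs
    have hs0 : s ≠ 0 := by omega
    simp only [hs0, and_false, if_false, zero_sub, neg_eq_zero]
    exact h3 l s (by omega)
  · exact ⟨l₁, 0, by simp [h1]⟩

end core

end Crest.Agent.LT
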