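/-
The tropical selection lemma of the Final Lemma (BLUEPRINT §E6): purely about real numbers.
-/
import Mathlib

set_option autoImplicit false

namespace Crest.Agent.LT

open Filter Topology

/-- Super-exponential decay beats exponential growth. -/
theorem tendsto_pow_pow_mul {p : ℕ} (hp : 2 ≤ p) {δ Y : ℝ} (hδ0 : 0 ≤ δ) (hδ1 : δ < 1)
    (hY : 0 ≤ Y) : Tendsto (fun k : ℕ => δ ^ p ^ k * Y ^ k) atTop (𝓝 0) := by
  obtain ⟨K, hK⟩ := exists_pow_lt_of_lt_one (show (0 : ℝ) < 1 / (2 * (Y + 1)) by positivity) hδ1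
  have hK2 : δ ^ K * Y ≤ 1 / 2 := by
    have h1 : δ ^ K * Y ≤ 1 / (2 * (Y + 1)) * Y := by gcongr
    refine h1.trans ?_
    rw [div_mul_eq_mul_div, div_le_div_iff₀ (by positivity) (by norm_num)]
    nlinarith
  have hev : ∀ᶠ k : ℕ in atTop, K * k ≤ p ^ k := by
    have h := tendsto_pow_const_div_const_pow_of_one_lt 1 (by norm_num : (1 : ℝ) < 2)
    have h2 := h.eventually (gt_mem_nhds (show (0 : ℝ) < 1 / ((K : ℝ) + 1) by positivity))
    filter_upwards [h2] with k hk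
    simp only [pow_one] at hk
    rw [div_lt_div_iff₀ (by positivity) (by positivity)] at hk
    have h3 : ((K * k : ℕ) : ℝ) ≤ ((2 ^ k : ℕ) : ℝ) := by
      push_cast
      have : (0 : ℝ) ≤ k := by positivity
      nlinarith
    have h4 : K * k ≤ 2 ^ k := by exact_mod_cast h3
    exact h4.trans (Nat.pow_le_pow_left hp k)
  refine squeeze_zero' (Eventually.of_forall fun k => by positivity) ?_
    (tendsto_pow_atTop_nhds_zero_of_lt_one (by norm_num : (0 : ℝ) ≤ 1 / 2) (by norm_num))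
  filter_upwards [hev] with k hk
  calc δ ^ p ^ k * Y ^ k ≤ δ ^ (K * k) * Y ^ k := by
        gcongr ?_ * _
        exact pow_le_pow_of_le_one hδ0 hδ1.le hk
    _ = (δ ^ K * Y) ^ k := by rw [mul_pow, pow_mul]
    _ ≤ (1 / 2) ^ k := pow_le_pow_left₀ (by positivity) hK2 k

/-- Convergence to `0` along the cofinite filter of `ℤ` from the two directions. -/
theorem tendsto_int_cofinite {E : Type*} [TopologicalSpace E] {f : ℤ → E} {l : E}
    (h₁ : Tendsto (fun k : ℕ => f k) atTop (𝓝 l))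
    (h₂ : Tendsto (fun k : ℕ => f (-(k : ℤ))) atTop (𝓝 l)) : Tendsto f cofinite (𝓝 l) := by
  rw [Int.cofinite_eq]
  refine Tendsto.sup ?_ ?_
  · have h : (atBot : Filter ℤ) = map (fun k : ℕ => -(k : ℤ)) atTop := by
      have h3 : map (fun k : ℕ => -(k : ℤ)) atTop = map (fun a : ℤ => -a) (map Nat.cast atTop) := by
        rw [map_map]; rfl
      rw [h3, Nat.map_cast_int_atTop]
      refine le_antisymm ?_ ?_
      · intro s hs
        rw [mem_map] at hs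
        obtain ⟨b, hb⟩ := mem_atTop_sets.1 hs
        refine mem_atBot_sets.2 ⟨-b, fun a ha => ?_⟩
        have := hb (-a) (by omega)
        simpa using this
      · exact tendsto_neg_atTop_atBot
    rw [h, tendsto_map'_iff]
    exact h₂
  · rw [← Nat.map_cast_int_atTop, tendsto_map'_iff]
    exact h₁

/-- A function tending to `0` along the cofinite filter with a positive value has a maximum. -/
theorem exists_argmax_of_tendsto {α : Type*} {f : α → ℝ} (hf : Tendsto f cofinite (𝓝 0)) {a₀ : α}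
    (h₀ : 0 < f a₀) : ∃ a, 0 < f a ∧ ∀ a', f a' ≤ f a := by
  have hfin : {a | f a₀ ≤ f a}.Finite := by
    have h := hf.eventually (gt_mem_nhds h₀)
    rw [eventually_cofinite] at h
    refine h.subset fun a ha => ?_
    simpa using ha
  have hne : (hfin.toFinset).Nonempty := ⟨a₀, by simp⟩
  obtain ⟨a, ha, hmax⟩ := Finset.exists_max_image hfin.toFinset f hne
  have ha' : f a₀ ≤ f a := by simpa using ha
  refine ⟨a, lt_of_lt_of_le h₀ ha', fun a' => ?_⟩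
  by_cases h : f a₀ ≤ f a'
  · exact hmax a' (by simpa using h)
  · exact (le_of_not_ge h).trans ha'

theorem exists_pos_le_of_finset {α : Type*} (s : Finset α) (f : α → ℝ) (hf : ∀ i ∈ s, 0 < f i) :
    ∃ x₀ : ℝ, 0 < x₀ ∧ x₀ < 1 ∧ ∀ i ∈ s, x₀ ≤ f i := by
  classical
  induction s using Finset.induction_on with
  | empty => exact ⟨1 / 2, by norm_num, by norm_num, by simp⟩
  | insert a s ha ih =>
    obtain ⟨x, hx0, hx1, hx⟩ := ih fun i hi => hf i (Finset.mem_insert_of_mem hi)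
    refine ⟨min x (f a), lt_min hx0 (hf a (Finset.mem_insert_self _ _)),
      (min_le_left _ _).trans_lt hx1, fun i hi => ?_⟩
    rcases Finset.mem_insert.1 hi with rfl | hi
    · exact min_le_right _ _
    · exact (min_le_left _ _).trans (hx i hi)

section Selection

variable {p h d : ℕ} {v : ℤ → ℝ}

theorem v_shift (hvd : ∀ a, v a = v (a + d) ^ p ^ h) (a : ℤ) (k : ℕ) :
    v (a - d * k) = v a ^ (p ^ h) ^ k := by
  induction k with
  | zero => simp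
  | succ k ih =>
    have h1 : a - d * ((k + 1 : ℕ) : ℤ) + d = a - d * k := by push_cast; ring
    rw [hvd, h1, ih, ← pow_mul, pow_succ]

theorem v_neg_bound (hp : 2 ≤ p) (hh : 1 ≤ h) (hd : 1 ≤ d) (hv0 : ∀ a, 0 ≤ v a)
    (hvd : ∀ a, v a = v (a + d) ^ p ^ h) {δ : ℝ} (hδ1 : δ ≤ 1)
    (hδ : ∀ j : ℕ, j < d → v (-(j : ℤ)) ≤ δ) (k : ℕ) : v (-(k : ℤ)) ≤ δ ^ p ^ (k / d) := by
  have hk : -(k : ℤ) = -((k % d : ℕ) : ℤ) - d * ((k / d : ℕ) : ℤ) := by
    have := Nat.mod_add_div k d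
    zify at this
    push_cast
    linarith
  rw [hk, v_shift hvd]
  have hj := hδ (k % d) (Nat.mod_lt _ (by omega))
  have h0 := hv0 (-((k % d : ℕ) : ℤ))
  have hδ0 : 0 ≤ δ := h0.trans hj
  calc v (-((k % d : ℕ) : ℤ)) ^ (p ^ h) ^ (k / d) ≤ δ ^ (p ^ h) ^ (k / d) :=
        pow_le_pow_left₀ h0 hj _
    _ ≤ δ ^ p ^ (k / d) := by
        refine pow_le_pow_of_le_one hδ0 hδ1 ?_
        refine Nat.pow_le_pow_left ?_ _
        calc p = p ^ 1 := (pow_one p).symm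
          _ ≤ p ^ h := Nat.pow_le_pow_right (by omega) hh

/-- the weight `φ_i(a) = v a ^ (p^i) * x^(a+i)` tends to `0`. -/
theorem tendsto_phi (hp : 2 ≤ p) (hh : 1 ≤ h) (hd : 1 ≤ d) (hv0 : ∀ a, 0 ≤ v a)
    (hv1 : ∀ a, v a < 1) (hvd : ∀ a, v a = v (a + d) ^ p ^ h) {x : ℝ} (hx0 : 0 < x) (hx1 : x < 1)
    (i : ℕ) : Tendsto (fun a : ℤ => v a ^ p ^ i * x ^ (a + (i : ℤ))) cofinite (𝓝 0) := by
  have hle : ∀ a, v a ^ p ^ i ≤ v a := fun a =>
    pow_le_of_le_one (hv0 a) (hv1 a).le (pow_ne_zero _ (by omega))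
  have hle1 : ∀ a, v a ^ p ^ i ≤ 1 := fun a => (hle a).trans (hv1 a).le
  have hnn : ∀ a, 0 ≤ v a ^ p ^ i := fun a => pow_nonneg (hv0 a) _
  refine tendsto_int_cofinite ?_ ?_
  · have h1 : Tendsto (fun k : ℕ => x ^ (i : ℤ) * x ^ k) atTop (𝓝 (x ^ (i : ℤ) * 0)) :=
      (tendsto_pow_atTop_nhds_zero_of_lt_one hx0.le hx1).const_mul _
    rw [mul_zero] at h1
    refine squeeze_zero (fun k => mul_nonneg (hnn _) (zpow_nonneg hx0.le _)) (fun k => ?_) h1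
    have h2 : x ^ ((k : ℤ) + (i : ℤ)) = x ^ (i : ℤ) * x ^ k := by
      rw [zpow_add₀ hx0.ne', zpow_natCast, mul_comm]
    rw [h2]
    calc v k ^ p ^ i * (x ^ (i : ℤ) * x ^ k) ≤ 1 * (x ^ (i : ℤ) * x ^ k) := by
          gcongr
          exact hle1 _
      _ = _ := one_mul _
  · -- the direction `a → -∞`
    obtain ⟨j₀, hj₀, hmax⟩ := Finset.exists_max_image (Finset.range d)
      (fun j : ℕ => v (-(j : ℤ))) ⟨0, by simp; omega⟩
    set δ := v (-(j₀ : ℤ)) with hδdef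
    have hδ0 : 0 ≤ δ := hv0 _
    have hδ1 : δ < 1 := hv1 _
    have hδ : ∀ j : ℕ, j < d → v (-(j : ℤ)) ≤ δ := fun j hj => hmax j (by simpa using hj)
    set Y : ℝ := (x⁻¹) ^ d with hY
    have hxi : 1 ≤ x⁻¹ := (one_le_inv₀ hx0).2 hx1.le
    have hY0 : 0 ≤ Y := by positivity
    have h1 := tendsto_pow_pow_mul hp hδ0 hδ1 hY0
    have hdiv : Tendsto (fun k : ℕ => k / d) atTop atTop := by
      refine tendsto_atTop_atTop.2 fun b => ⟨b * d, fun a ha => ?_⟩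
      exact (Nat.le_div_iff_mul_le (by omega)).2 ha
    have h2 := h1.comp hdiv
    have h3 : Tendsto (fun k : ℕ => (x ^ (i : ℤ) * Y) * (δ ^ p ^ (k / d) * Y ^ (k / d))) atTop
        (𝓝 ((x ^ (i : ℤ) * Y) * 0)) := h2.const_mul _
    rw [mul_zero] at h3
    refine squeeze_zero (fun k => mul_nonneg (hnn _) (zpow_nonneg hx0.le _)) (fun k => ?_) h3
    have h4 : x ^ (-(k : ℤ) + (i : ℤ)) = x ^ (i : ℤ) * (x⁻¹) ^ k := by
      rw [zpow_add₀ hx0.ne', zpow_neg, zpow_natCast, inv_pow, mul_comm]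
    have h5 : (x⁻¹) ^ k ≤ Y * Y ^ (k / d) := by
      rw [hY, ← pow_succ', ← pow_mul]
      refine pow_le_pow_right₀ hxi ?_
      have := Nat.div_add_mod k d
      have h6 := Nat.mod_lt k (show d > 0 by omega)
      nlinarith
    have h7 := v_neg_bound hp hh hd hv0 hvd hδ1.le hδ k
    rw [h4]
    calc v (-(k : ℤ)) ^ p ^ i * (x ^ (i : ℤ) * (x⁻¹) ^ k)
        ≤ δ ^ p ^ (k / d) * (x ^ (i : ℤ) * (Y * Y ^ (k / d))) := by
          gcongr
          exact (hle _).trans h7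
      _ = _ := by ring

/-- Generic choice of the slope `x`. -/
theorem exists_generic_slope (hv0 : ∀ a, 0 ≤ v a) {x₀ : ℝ} (hx₀ : 0 < x₀) :
    ∃ x : ℝ, 0 < x ∧ x < x₀ ∧ ∀ (i : ℕ) (a a' : ℤ), a ≠ a' → v a ≠ 0 → v a' ≠ 0 →
      v a ^ p ^ i * x ^ (a + (i : ℤ)) ≠ v a' ^ p ^ i * x ^ (a' + (i : ℤ)) := by
  classical
  set B : ℕ × ℤ × ℤ → Set ℝ := fun t => {x | 0 < x ∧ t.2.1 ≠ t.2.2 ∧ v t.2.1 ≠ 0 ∧ v t.2.2 ≠ 0 ∧
    v t.2.1 ^ p ^ t.1 * x ^ (t.2.1 + (t.1 : ℤ)) = v t.2.2 ^ p ^ t.1 * x ^ (t.2.2 + (t.1 : ℤ))}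
    with hB
  have hsub : ∀ t, (B t).Subsingleton := by
    rintro ⟨i, a, a'⟩ x ⟨hx, hne, h1, h2, h3⟩ y ⟨hy, -, -, -, h4⟩
    dsimp only at hne h1 h2 h3 h4
    have hA : 0 < v a ^ p ^ i := pow_pos (lt_of_le_of_ne (hv0 _) (Ne.symm h1)) _
    have hA' : 0 < v a' ^ p ^ i := pow_pos (lt_of_le_of_ne (hv0 _) (Ne.symm h2)) _
    have key : ∀ w : ℝ, 0 < w → v a ^ p ^ i * w ^ (a + (i : ℤ)) = v a' ^ p ^ i * w ^ (a' + (i : ℤ)) →
        w ^ (a - a') = v a' ^ p ^ i / v a ^ p ^ i := by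
      intro w hw h
      have hw1 : w ^ (a + (i : ℤ)) = w ^ (a - a') * w ^ (a' + (i : ℤ)) := by
        rw [← zpow_add₀ hw.ne']; congr 1; ring
      rw [hw1] at h
      have hw2 : 0 < w ^ (a' + (i : ℤ)) := zpow_pos hw _
      rw [eq_div_iff hA.ne']
      have h5 : (w ^ (a - a') * v a ^ p ^ i) * w ^ (a' + (i : ℤ)) =
          v a' ^ p ^ i * w ^ (a' + (i : ℤ)) := by rw [← h]; ring
      exact mul_right_cancel₀ hw2.ne' h5
    have h5 := (key x hx h3).trans (key y hy h4).symm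
    exact (zpow_left_inj₀ hx.le hy.le (sub_ne_zero.2 hne)).1 h5
  have hcount : (⋃ t, B t).Countable := Set.countable_iUnion fun t => (hsub t).countable
  have hdense := Set.Countable.dense_compl ℝ hcount
  obtain ⟨x, hxc, hxI⟩ := hdense.exists_mem_open (isOpen_Ioo (a := (0 : ℝ)) (b := x₀))
    ⟨x₀ / 2, by constructor <;> linarith⟩
  refine ⟨x, hxI.1, hxI.2, fun i a a' hne h1 h2 h3 => hxc ?_⟩
  exact Set.mem_iUnion.2 ⟨(i, a, a'), hxI.1, hne, h1, h2, h3⟩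

/-- Monotonicity of the maximisers in the row. -/
theorem argmax_mono (hp : 2 ≤ p) (hv0 : ∀ a, 0 ≤ v a) {x : ℝ} (hx0 : 0 < x) (hx1 : x < 1)
    {i j : ℕ} (hij : i < j) {ai aj : ℤ}
    (hposi : 0 < v ai ^ p ^ i * x ^ (ai + (i : ℤ)))
    (hmaxi : ∀ a, v a ^ p ^ i * x ^ (a + (i : ℤ)) ≤ v ai ^ p ^ i * x ^ (ai + (i : ℤ)))
    (hmaxj : ∀ a, v a ^ p ^ j * x ^ (a + (j : ℤ)) ≤ v aj ^ p ^ j * x ^ (aj + (j : ℤ))) :
    ai ≤ aj := by
  by_contra hlt
  rw [not_le] at hlt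
  obtain ⟨g, hg⟩ : ∃ g : ℕ, ai = aj + g := ⟨(ai - aj).toNat, by omega⟩
  have hg1 : 1 ≤ g := by omega
  have hxi : 0 < x ^ (i : ℤ) := zpow_pos hx0 _
  have hC : 0 < v ai := by
    have h0 := hv0 ai
    rcases h0.lt_or_eq with h | h
    · exact h
    · rw [← h, zero_pow (pow_ne_zero _ (by omega)), zero_mul] at hposi
      exact absurd hposi (lt_irrefl _)
  set k := p ^ (j - i) with hk
  have hpj : p ^ j = p ^ i * k := by rw [hk, ← pow_add]; congr 1; omega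
  have hk2 : 2 ≤ k := by
    calc 2 ≤ p := hp
      _ = p ^ 1 := (pow_one p).symm
      _ ≤ p ^ (j - i) := Nat.pow_le_pow_right (by omega) (by omega)
  set C := v ai with hCdef
  set C' := v aj with hC'def
  have hC'0 : 0 ≤ C' := hv0 _
  have hxaj : 0 < x ^ aj := zpow_pos hx0 _
  -- first inequality
  have h1 : C' ^ p ^ i ≤ C ^ p ^ i * x ^ g := by
    have h : C' ^ p ^ i * x ^ (aj + (i : ℤ)) ≤ C ^ p ^ i * x ^ (ai + (i : ℤ)) := hmaxi aj
    rw [hg] at h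
    have e1 : x ^ (aj + (g : ℤ) + (i : ℤ)) = x ^ g * (x ^ aj * x ^ (i : ℤ)) := by
      rw [zpow_add₀ hx0.ne', zpow_add₀ hx0.ne', zpow_natCast]; ring
    have e2 : x ^ (aj + (i : ℤ)) = x ^ aj * x ^ (i : ℤ) := zpow_add₀ hx0.ne' _ _
    rw [e1, e2] at h
    have h3 : 0 < x ^ aj * x ^ (i : ℤ) := mul_pos hxaj hxi
    have h4 : C' ^ p ^ i * (x ^ aj * x ^ (i : ℤ)) ≤ (C ^ p ^ i * x ^ g) * (x ^ aj * x ^ (i : ℤ)) := by
      calc _ ≤ _ := h
        _ = _ := by ring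
    exact le_of_mul_le_mul_right h4 h3
  -- second inequality
  have h2 : C ^ p ^ j * x ^ g ≤ C' ^ p ^ j := by
    have h : C ^ p ^ j * x ^ (ai + (j : ℤ)) ≤ C' ^ p ^ j * x ^ (aj + (j : ℤ)) := hmaxj ai
    rw [hg] at h
    have hxj : 0 < x ^ (j : ℤ) := zpow_pos hx0 _
    have e1 : x ^ (aj + (g : ℤ) + (j : ℤ)) = x ^ g * (x ^ aj * x ^ (j : ℤ)) := by
      rw [zpow_add₀ hx0.ne', zpow_add₀ hx0.ne', zpow_natCast]; ring
    have e2 : x ^ (aj + (j : ℤ)) = x ^ aj * x ^ (j : ℤ) := zpow_add₀ hx0.ne' _ _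
    rw [e1, e2] at h
    have h3 : 0 < x ^ aj * x ^ (j : ℤ) := mul_pos hxaj hxj
    have h4 : (C ^ p ^ j * x ^ g) * (x ^ aj * x ^ (j : ℤ)) ≤ C' ^ p ^ j * (x ^ aj * x ^ (j : ℤ)) := by
      calc _ = _ := by ring
        _ ≤ _ := h
    exact le_of_mul_le_mul_right h4 h3
  -- raise the first to the power `k`
  have h3 : C' ^ p ^ j ≤ C ^ p ^ j * (x ^ g) ^ k := by
    have h := pow_le_pow_left₀ (pow_nonneg hC'0 _) h1 k
    rw [mul_pow, ← pow_mul, ← pow_mul, ← hpj] at h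
    exact h
  have h4 : C ^ p ^ j * x ^ g ≤ C ^ p ^ j * (x ^ g) ^ k := h2.trans h3
  have h5 : x ^ g ≤ (x ^ g) ^ k := le_of_mul_le_mul_left h4 (pow_pos hC _)
  have h6 : (x ^ g) ^ k < x ^ g := by
    have hxg : x ^ g < 1 := pow_lt_one₀ hx0.le hx1 (by omega)
    exact pow_lt_self_of_lt_one₀ (pow_pos hx0 _) hxg (by omega)
  exact absurd h5 (not_le.2 h6)

theorem g_shift {g : ℤ → ℝ} (hgh : ∀ e, g (e + h) = g e ^ p ^ h) (e : ℤ) (k : ℕ) :
    g (e + h * k) = g e ^ (p ^ h) ^ k := by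
  induction k with
  | zero => simp
  | succ k ih =>
    have h1 : e + h * ((k + 1 : ℕ) : ℤ) = (e + h * k) + h := by push_cast; ring
    rw [h1, hgh, ih, ← pow_mul, pow_succ]

theorem tendsto_gamma (hp : 2 ≤ p) {g : ℤ → ℝ} (hg0 : ∀ e, 0 ≤ g e) (hg1 : ∀ e, g e ≤ 1)
    {ζ : ℝ} (hζ0 : 0 ≤ ζ) (hζ1 : ζ < 1) (hgζ : ∀ k : ℕ, g k ≤ ζ ^ p ^ k)
    {x : ℝ} (hx0 : 0 < x) (hx1 : x < 1) :
    Tendsto (fun e : ℤ => g e * x ^ (-e)) cofinite (𝓝 0) := by
  refine tendsto_int_cofinite ?_ ?_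
  · have h1 := tendsto_pow_pow_mul hp hζ0 hζ1 (show 0 ≤ x⁻¹ by positivity)
    refine squeeze_zero (fun k => mul_nonneg (hg0 _) (zpow_nonneg hx0.le _)) (fun k => ?_) h1
    rw [zpow_neg, zpow_natCast, ← inv_pow]
    gcongr
    exact hgζ k
  · have h1 := tendsto_pow_atTop_nhds_zero_of_lt_one hx0.le hx1
    refine squeeze_zero (fun k => mul_nonneg (hg0 _) (zpow_nonneg hx0.le _)) (fun k => ?_) h1
    rw [neg_neg, zpow_natCast]
    calc g (-(k : ℤ)) * x ^ k ≤ 1 * x ^ k := by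
          gcongr
          exact hg1 _
      _ = _ := one_mul _

theorem phi_gamma_eq {x : ℝ} (hx0 : 0 < x) (V G : ℝ) (a r : ℤ) (i : ℕ) :
    V * x ^ (a + (i : ℤ)) * (G * x ^ (-(a + (i : ℤ) + r))) = (V * G) * x ^ (-r) := by
  have h1 : x ^ (-r) = x ^ (a + (i : ℤ)) * x ^ (-(a + (i : ℤ) + r)) := by
    rw [← zpow_add₀ hx0.ne']; congr 1; ring
  rw [h1]; ring

/-- **Tropical selection** (BLUEPRINT §E6, "Selection"): for every `R` there are `r₀ ≥ R` and a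
grouped term at `r₀` which is the strict maximum in its class modulo `n = h + d`, and which
dominates all grouped terms at `r₀ + u`, `u ≥ 0`. -/
theorem tropical_selection (hp : 2 ≤ p) (hh : 1 ≤ h) (hd : 1 ≤ d)
    (hv0 : ∀ a, 0 ≤ v a) (hv1 : ∀ a, v a < 1) (hvd : ∀ a, v a = v (a + d) ^ p ^ h)
    (hvne : ∃ a, v a ≠ 0)
    {I : Finset ℕ} (hIh : ∀ i ∈ I, i < h) (hI : I.Nonempty)
    {g : ℕ → ℤ → ℝ} (hg0 : ∀ i e, 0 ≤ g i e) (hg1 : ∀ i e, g i e ≤ 1)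
    (hgh : ∀ i e, g i (e + h) = g i e ^ p ^ h)
    (hgne : ∀ i ∈ I, ∃ e, g i e ≠ 0)
    {ζ : ℝ} (hζ0 : 0 ≤ ζ) (hζ1 : ζ < 1) (hgζ : ∀ i (k : ℕ), g i k ≤ ζ ^ p ^ k)
    (R : ℤ) :
    ∃ (r₀ : ℤ) (i₀ : ℕ) (a₀ : ℤ), R ≤ r₀ ∧ i₀ ∈ I ∧
      0 < v a₀ ^ p ^ i₀ * g i₀ (a₀ + i₀ + r₀) ∧
      (∀ i ∈ I, ∀ a : ℤ, ((h + d : ℕ) : ℤ) ∣ (a + i - (a₀ + i₀)) → (i, a) ≠ (i₀, a₀) →
        v a ^ p ^ i * g i (a + i + r₀) < v a₀ ^ p ^ i₀ * g i₀ (a₀ + i₀ + r₀)) ∧
      (∀ i ∈ I, ∀ (a : ℤ) (u : ℕ),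
        v a ^ p ^ i * g i (a + i + r₀ + u) ≤ v a₀ ^ p ^ i₀ * g i₀ (a₀ + i₀ + r₀)) := by
  classical
  have hp0 : 0 < p := by omega
  set B : ℤ := |R| + h with hB
  have hBpos : (0 : ℤ) ≤ B := by positivity
  -- the point `a*`
  obtain ⟨a1, ha1⟩ := hvne
  obtain ⟨astar, hastarB, hastar⟩ : ∃ a, a ≤ -B ∧ 0 < v a := by
    refine ⟨a1 - d * ((|a1| + B).toNat : ℕ), ?_, ?_⟩
    · have h1 : (((|a1| + B).toNat : ℕ) : ℤ) = |a1| + B := Int.toNat_of_nonneg (by positivity)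
      rw [h1]
      have h2 : a1 ≤ |a1| := le_abs_self a1
      have h3 : (1 : ℤ) ≤ d := by exact_mod_cast hd
      have h4 : (0 : ℤ) ≤ |a1| + B := by positivity
      nlinarith
    · rw [v_shift hvd]
      exact pow_pos (lt_of_le_of_ne (hv0 _) (Ne.symm ha1)) _
  -- the points `e*`
  have hestar : ∀ i, ∃ e, i ∈ I → (B ≤ e ∧ 0 < g i e) := by
    intro i
    by_cases hi : i ∈ I
    · obtain ⟨e, he⟩ := hgne i hi
      refine ⟨e + h * ((|e| + B).toNat : ℕ), fun _ => ⟨?_, ?_⟩⟩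
      · have h1 : (((|e| + B).toNat : ℕ) : ℤ) = |e| + B := Int.toNat_of_nonneg (by positivity)
        rw [h1]
        have h2 : -e ≤ |e| := neg_le_abs e
        have h3 : (1 : ℤ) ≤ h := by exact_mod_cast hh
        have h4 : (0 : ℤ) ≤ |e| + B := by positivity
        nlinarith
      · rw [g_shift (hgh i)]
        exact pow_pos (lt_of_le_of_ne (hg0 _ _) (Ne.symm he)) _
    · exact ⟨0, fun h => absurd h hi⟩
  choose es hes using hestar
  -- the threshold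
  obtain ⟨x₁, hx₁0, hx₁1, hx₁⟩ := exists_pos_le_of_finset (Finset.range (h + 1))
    (fun i => v astar ^ p ^ i) (fun i _ => pow_pos hastar _)
  obtain ⟨x₂, hx₂0, hx₂1, hx₂⟩ := exists_pos_le_of_finset I (fun i => g i (es i))
    (fun i hi => (hes i hi).2)
  obtain ⟨x, hx0, hxx₀, hgen⟩ := exists_generic_slope (p := p) hv0 (lt_min hx₁0 hx₂0)
  have hx1 : x < 1 := hxx₀.trans ((min_le_left _ _).trans_lt hx₁1)
  have hxv : ∀ i, i < h + 1 → x < v astar ^ p ^ i := fun i hi =>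
    (hxx₀.trans_le (min_le_left _ _)).trans_le (hx₁ i (Finset.mem_range.2 hi))
  have hxg : ∀ i ∈ I, x < g i (es i) := fun i hi =>
    (hxx₀.trans_le (min_le_right _ _)).trans_le (hx₂ i hi)
  -- the maximisers
  set φ : ℕ → ℤ → ℝ := fun i a => v a ^ p ^ i * x ^ (a + (i : ℤ)) with hφ
  set γ : ℕ → ℤ → ℝ := fun i e => g i e * x ^ (-e) with hγ
  have hφnn : ∀ i a, 0 ≤ φ i a := fun i a =>
    mul_nonneg (pow_nonneg (hv0 a) _) (zpow_nonneg hx0.le _)
  have hγnn : ∀ i e, 0 ≤ γ i e := fun i e => mul_nonneg (hg0 i e) (zpow_nonneg hx0.le _)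
  have harg : ∀ i, ∃ a, 0 < φ i a ∧ ∀ a', φ i a' ≤ φ i a := fun i =>
    exists_argmax_of_tendsto (tendsto_phi hp hh hd hv0 hv1 hvd hx0 hx1 i)
      (a₀ := astar) (mul_pos (pow_pos hastar _) (zpow_pos hx0 _))
  choose A hApos hAmax using harg
  have harg2 : ∀ i, ∃ e, i ∈ I → (0 < γ i e ∧ ∀ e', γ i e' ≤ γ i e) := by
    intro i
    by_cases hi : i ∈ I
    · obtain ⟨e, he1, he2⟩ := exists_argmax_of_tendsto
        (tendsto_gamma hp (hg0 i) (hg1 i) hζ0 hζ1 (hgζ i) hx0 hx1)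
        (a₀ := es i) (mul_pos (hes i hi).2 (zpow_pos hx0 _))
      exact ⟨e, fun _ => ⟨he1, he2⟩⟩
    · exact ⟨0, fun h => absurd h hi⟩
  choose E hE using harg2
  -- `A i ≤ astar`
  have hAle : ∀ i, i < h → A i ≤ astar := by
    intro i hi
    by_contra hlt
    rw [not_le] at hlt
    obtain ⟨k, hk⟩ : ∃ k : ℕ, A i = astar + k := ⟨(A i - astar).toNat, by omega⟩
    have hk1 : 1 ≤ k := by omega
    have h1 := hAmax i astar
    simp only [hφ] at h1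
    have h2 : x ^ (A i + (i : ℤ)) = x ^ k * x ^ (astar + (i : ℤ)) := by
      rw [hk, ← zpow_natCast x k, ← zpow_add₀ hx0.ne']; congr 1; ring
    rw [h2] at h1
    have h3 : v (A i) ^ p ^ i ≤ 1 := pow_le_one₀ (hv0 _) (hv1 _).le
    have h4 : 0 < x ^ (astar + (i : ℤ)) := zpow_pos hx0 _
    have h5 : v astar ^ p ^ i * x ^ (astar + (i : ℤ)) ≤ x ^ k * x ^ (astar + (i : ℤ)) := by
      calc _ ≤ _ := h1
        _ ≤ 1 * (x ^ k * x ^ (astar + (i : ℤ))) := by gcongr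
        _ = _ := one_mul _
    have h6 := le_of_mul_le_mul_right h5 h4
    have h7 : x ^ k ≤ x := pow_le_of_le_one hx0.le hx1.le (by omega)
    exact absurd ((hxv i (by omega)).trans_le (h6.trans h7)) (lt_irrefl _)
  -- `es i ≤ E i`
  have hEge : ∀ i ∈ I, es i ≤ E i := by
    intro i hi
    by_contra hlt
    rw [not_le] at hlt
    obtain ⟨k, hk⟩ : ∃ k : ℕ, es i = E i + k := ⟨(es i - E i).toNat, by omega⟩
    have hk1 : 1 ≤ k := by omega
    have h1 := (hE i hi).2 (es i)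
    simp only [hγ] at h1
    have h2 : x ^ (-(E i)) = x ^ k * x ^ (-(es i)) := by
      rw [hk, ← zpow_natCast x k, ← zpow_add₀ hx0.ne']; congr 1; ring
    rw [h2] at h1
    have h3 : g i (E i) ≤ 1 := hg1 _ _
    have h4 : 0 < x ^ (-(es i)) := zpow_pos hx0 _
    have h5 : g i (es i) * x ^ (-(es i)) ≤ x ^ k * x ^ (-(es i)) := by
      calc _ ≤ _ := h1
        _ ≤ 1 * (x ^ k * x ^ (-(es i))) := by gcongr
        _ = _ := one_mul _
    have h6 := le_of_mul_le_mul_right h5 h4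
    have h7 : x ^ k ≤ x := pow_le_of_le_one hx0.le hx1.le (by omega)
    exact absurd ((hxg i hi).trans_le (h6.trans h7)) (lt_irrefl _)
  -- the row
  obtain ⟨i₀, hi₀, hi₀max⟩ := Finset.exists_max_image I (fun i => φ i (A i) * γ i (E i)) hI
  set a₀ := A i₀ with ha₀
  set r₀ : ℤ := E i₀ - a₀ - i₀ with hr₀
  have hE₀ : a₀ + (i₀ : ℤ) + r₀ = E i₀ := by rw [hr₀]; ring
  set y := v a₀ ^ p ^ i₀ * g i₀ (a₀ + i₀ + r₀) with hy
  have hx_r : 0 < x ^ (-r₀) := zpow_pos hx0 _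
  have hidY : φ i₀ a₀ * γ i₀ (E i₀) = y * x ^ (-r₀) := by
    have := phi_gamma_eq hx0 (v a₀ ^ p ^ i₀) (g i₀ (a₀ + i₀ + r₀)) a₀ r₀ i₀
    simp only [hφ, hγ]
    rw [← hE₀]
    exact this
  have hypos : 0 < y := by
    have h1 : 0 < φ i₀ a₀ * γ i₀ (E i₀) := mul_pos (hApos i₀) (hE i₀ hi₀).1
    rw [hidY] at h1
    exact (mul_pos_iff_of_pos_right hx_r).1 h1
  -- bound for all rows
  have hgen_bound : ∀ i ∈ I, ∀ (a e : ℤ), φ i a * γ i e ≤ y * x ^ (-r₀) := by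
    intro i hi a e
    calc φ i a * γ i e ≤ φ i (A i) * γ i (E i) :=
          mul_le_mul (hAmax i a) ((hE i hi).2 e) (hγnn _ _) (hφnn _ _)
      _ ≤ φ i₀ (A i₀) * γ i₀ (E i₀) := hi₀max i hi
      _ = y * x ^ (-r₀) := hidY
  -- monotonicity of the rows
  have hmono : ∀ i j, i < j → A i ≤ A j := fun i j hij =>
    argmax_mono hp hv0 hx0 hx1 hij (hApos i) (hAmax i) (hAmax j)
  have hwrap : ∀ j, j < h → A j ≤ A 0 + d := by
    intro j hj
    refine argmax_mono hp hv0 hx0 hx1 hj (hApos j) (hAmax j) ?_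
    intro a
    have hxp : 0 < x ^ ((d : ℤ) + (h : ℤ)) := zpow_pos hx0 _
    have e1 : v a ^ p ^ h * x ^ (a + (h : ℤ)) = φ 0 (a - d) * x ^ ((d : ℤ) + (h : ℤ)) := by
      have h1 : v (a - d) = v a ^ p ^ h := by
        rw [hvd (a - d)]; congr 2; ring
      simp only [hφ, pow_zero, pow_one, h1]
      rw [mul_assoc, ← zpow_add₀ hx0.ne']; congr 2; push_cast; ring
    have e2 : v (A 0 + d) ^ p ^ h * x ^ (A 0 + (d : ℤ) + (h : ℤ)) =
        φ 0 (A 0) * x ^ ((d : ℤ) + (h : ℤ)) := by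
      simp only [hφ, pow_zero, pow_one]
      rw [← hvd, mul_assoc, ← zpow_add₀ hx0.ne']; congr 2; push_cast; ring
    rw [e1, e2]
    exact mul_le_mul_of_nonneg_right (hAmax 0 _) hxp.le
  have hdistinct : ∀ i j, i < j → j < h → ¬ ((h + d : ℕ) : ℤ) ∣ ((A j + j) - (A i + i)) := by
    intro i j hij hj hdvd
    have h1 := hmono i j hij
    have h2 := hwrap j hj
    have h3 : A 0 ≤ A i := by
      rcases Nat.eq_zero_or_pos i with rfl | hi
      · exact le_rfl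
      · exact hmono 0 i hi
    have h4 : (0 : ℤ) < (A j + j) - (A i + i) := by
      have : (i : ℤ) < j := by exact_mod_cast hij
      linarith
    have h5 := Int.le_of_dvd h4 hdvd
    push_cast at h5
    have h6 : (j : ℤ) < h := by exact_mod_cast hj
    have h7 : (0 : ℤ) ≤ i := by positivity
    linarith
  -- conclusion
  refine ⟨r₀, i₀, a₀, ?_, hi₀, hypos, ?_, ?_⟩
  · have h1 := (hes i₀ hi₀).1
    have h2 := hEge i₀ hi₀
    have h3 := hAle i₀ (hIh i₀ hi₀)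
    have h4 : (i₀ : ℤ) < h := by exact_mod_cast hIh i₀ hi₀
    have h5 : R ≤ |R| := le_abs_self R
    have h6 : (0 : ℤ) ≤ |R| := abs_nonneg R
    rw [hr₀]
    have h7 : (0 : ℤ) ≤ h := by positivity
    linarith
  · intro i hi a hdvd hne
    by_cases hva : v a = 0
    · rw [hva, zero_pow (pow_ne_zero _ (by omega)), zero_mul]
      exact hypos
    have hne' : a ≠ A i := by
      rintro rfl
      have hii : i = i₀ := by
        rcases lt_trichotomy i i₀ with hlt | heq | hgt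
        · exact absurd hdvd (by
            intro hd'
            refine hdistinct i i₀ hlt (hIh i₀ hi₀) ?_
            have := (dvd_neg (a := (((h + d : ℕ) : ℤ)))).2 hd'
            rwa [neg_sub] at this)
        · exact heq
        · exact absurd hdvd (hdistinct i₀ i hgt (hIh i hi))
      subst hii
      exact hne rfl
    have hvApos : v (A i) ≠ 0 := by
      intro h0
      have := hApos i
      simp only [hφ, h0, zero_pow (pow_ne_zero i hp0.ne')] at this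
      simp at this
    have hstrict : φ i a < φ i (A i) :=
      lt_of_le_of_ne (hAmax i a) (hgen i a (A i) hne' hva hvApos)
    have hγpos := (hE i hi).1
    have h1 : φ i a * γ i (a + i + r₀) < φ i (A i) * γ i (E i) :=
      calc φ i a * γ i (a + i + r₀) ≤ φ i a * γ i (E i) :=
            mul_le_mul_of_nonneg_left ((hE i hi).2 _) (hφnn _ _)
        _ < φ i (A i) * γ i (E i) := mul_lt_mul_of_pos_right hstrict hγpos
    have h2 : φ i a * γ i (a + i + r₀) = (v a ^ p ^ i * g i (a + i + r₀)) * x ^ (-r₀) :=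
      phi_gamma_eq hx0 _ _ a r₀ i
    have h3 : (v a ^ p ^ i * g i (a + i + r₀)) * x ^ (-r₀) < y * x ^ (-r₀) := by
      rw [← h2]
      exact h1.trans_le ((hi₀max i hi).trans_eq hidY)
    exact lt_of_mul_lt_mul_right h3 hx_r.le
  · intro i hi a u
    have hb := hgen_bound i hi a (a + i + r₀ + u)
    have h2 : φ i a * γ i (a + i + r₀ + u) =
        (v a ^ p ^ i * g i (a + i + r₀ + u)) * x ^ (-(r₀ + u)) := by
      have := phi_gamma_eq hx0 (v a ^ p ^ i) (g i (a + i + r₀ + u)) a (r₀ + u) i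
      simp only [hφ, hγ]
      rw [← add_assoc] at this
      exact this
    rw [h2] at hb
    have h3 : x ^ (-(r₀ + u)) = x ^ (-r₀) * (x⁻¹) ^ u := by
      rw [neg_add, zpow_add₀ hx0.ne', zpow_neg x (u : ℤ), zpow_natCast, inv_pow]
    rw [h3] at hb
    have h4 : (v a ^ p ^ i * g i (a + i + r₀ + u)) * (x⁻¹) ^ u ≤ y := by
      have : ((v a ^ p ^ i * g i (a + i + r₀ + u)) * (x⁻¹) ^ u) * x ^ (-r₀) ≤ y * x ^ (-r₀) := by
        calc _ = _ := by ring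
          _ ≤ _ := hb
      exact le_of_mul_le_mul_right this hx_r
    have h5 : (1 : ℝ) ≤ (x⁻¹) ^ u := one_le_pow₀ ((one_le_inv₀ hx0).2 hx1.le)
    have h6 : 0 ≤ v a ^ p ^ i * g i (a + i + r₀ + u) :=
      mul_nonneg (pow_nonneg (hv0 _) _) (hg0 _ _)
    calc v a ^ p ^ i * g i (a + i + r₀ + u) = v a ^ p ^ i * g i (a + i + r₀ + u) * 1 := (mul_one _).symm
      _ ≤ _ := by gcongr
      _ ≤ y := h4

end Selection

end Crest.Agent.LT
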