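/-
E2 (part A): construction of `ξ : F → Γ_h` with `ξ ∘ V = ξ^(p^h)`. BLUEPRINT §E2.
-/
import Crest.Agent.Lib.LT.Lazard
import Crest.Agent.Lib.LT.Frob
import Crest.Agent.Lib.LT.EvalOne

set_option autoImplicit false
set_option linter.unusedSectionVars false
set_option linter.unusedVariables false

namespace Crest.Agent.LT

open Crest.LubinTate

/-- Building a sequence by strong recursion with choice. -/
theorem exists_seq_strong {α : Type*} [Inhabited α] (P : ℕ → (ℕ → α) → α → Prop)
    (hP : ∀ i g, ∃ x, P i g x)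
    (hloc : ∀ i g g', (∀ k, k < i → g k = g' k) → ∀ x, P i g x → P i g' x) :
    ∃ f : ℕ → α, ∀ i, P i f (f i) := by
  classical
  choose φ hφ using hP
  let G : ℕ → ℕ → α := fun n =>
    Nat.rec (fun _ => default) (fun n g => Function.update g n (φ n g)) n
  have hG0 : ∀ n, G (n + 1) = Function.update (G n) n (φ n (G n)) := fun n => rfl
  have hG : ∀ n k, k < n → G n k = φ k (G k) := by
    intro n
    induction n with
    | zero => intro k hk; omega
    | succ n ih =>
      intro k hk
      rw [hG0]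
      by_cases hkn : k = n
      · subst hkn
        simp
      · rw [Function.update_of_ne hkn]
        exact ih k (by omega)
  refine ⟨fun n => φ n (G n), fun i => ?_⟩
  exact hloc i (G i) _ (fun k hk => hG i k hk) _ (hφ i (G i))

section Coeff

variable {R : Type*} [CommRing R]

lemma coeff_pow_self_of_cc {V : PowerSeries R} (hV0 : PowerSeries.constantCoeff V = 0) (n : ℕ) :
    PowerSeries.coeff n (V ^ n) = PowerSeries.coeff 1 V ^ n := by
  obtain ⟨W, rfl⟩ := PowerSeries.X_dvd_iff.2 hV0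
  rw [mul_pow, PowerSeries.coeff_X_pow_mul', if_pos le_rfl, Nat.sub_self]
  simp only [PowerSeries.coeff_zero_eq_constantCoeff, map_pow]
  congr 1
  rw [show (1 : ℕ) = 0 + 1 from rfl, PowerSeries.coeff_succ_X_mul]
  simp

end Coeff

section Norm

variable {K : Type*} [NontriviallyNormedField K] [IsUltrametricDist K]

omit [IsUltrametricDist K] in
lemma norm_lt_one_of_pow_eq_add {x a b : K} {Q : ℕ} (hQ : 1 ≤ Q) (ha : ‖a‖ < 1) (hb : ‖b‖ < 1)
    [IsUltrametricDist K] (h : x ^ Q = a * x + b) : ‖x‖ < 1 := by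
  by_contra hge
  rw [not_lt] at hge
  have h1 : ‖x‖ ≤ ‖x ^ Q‖ := by
    rw [norm_pow]
    exact le_self_pow₀ hge (by omega)
  have hx0 : 0 < ‖x‖ := by linarith
  have h2 : ‖a * x‖ < ‖x‖ := by
    rw [norm_mul]
    nlinarith
  have h3 : ‖a * x + b‖ ≤ max ‖a * x‖ ‖b‖ := IsUltrametricDist.norm_add_le_max _ _
  have h4 : max ‖a * x‖ ‖b‖ < ‖x‖ := max_lt h2 (by linarith)
  rw [← h] at h3
  linarith

lemma norm_finsum_lt_one {α : Type*} {s : Finset α} {f : α → K} (h : ∀ i ∈ s, ‖f i‖ < 1) :
    ‖∑ i ∈ s, f i‖ < 1 := by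
  classical
  rcases s.eq_empty_or_nonempty with rfl | hs
  · simp
  · obtain ⟨i, hi, hle⟩ := IsUltrametricDist.exists_norm_finsetSum_le_of_nonempty hs f
    exact hle.trans_lt (h i hi)

end Norm

section Xi

variable {K : Type*} [NontriviallyNormedField K] [IsUltrametricDist K] [IsAlgClosed K]
  (p : ℕ) [hp : Fact p.Prime] [CharP K p]

omit [CharP K p] in
/-- Solving the recursion for the coefficients of `ξ`. -/
theorem exists_xi_seq {h : ℕ} (hh : 1 ≤ h) {V : PowerSeries K} (hV0 : PowerSeries.constantCoeff V = 0)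
    (hVint : IsInt V) (hy0 : PowerSeries.coeff 1 V ≠ 0) (hy1 : ‖PowerSeries.coeff 1 V‖ < 1) :
    ∃ f : ℕ → K, f 0 = 0 ∧ f 1 ≠ 0 ∧ (∀ i, ‖f i‖ < 1) ∧
      ∀ i, 1 ≤ i → f i ^ p ^ h = PowerSeries.coeff 1 V ^ i * f i +
        ∑ k ∈ Finset.range i, f k * PowerSeries.coeff i (V ^ k) := by
  classical
  set y₀ := PowerSeries.coeff 1 V with hy₀
  set Q := p ^ h with hQ
  have hQ2 : 2 ≤ Q := by
    calc 2 ≤ p := hp.out.two_le
      _ = p ^ 1 := (pow_one p).symm
      _ ≤ p ^ h := Nat.pow_le_pow_right hp.out.pos hh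
  set c : ℕ → (ℕ → K) → K := fun i g => ∑ k ∈ Finset.range i, g k * PowerSeries.coeff i (V ^ k) with hc
  let P : ℕ → (ℕ → K) → K → Prop := fun i g x =>
    (i = 0 → x = 0) ∧ (i = 1 → x ≠ 0) ∧ (1 ≤ i → x ^ Q = y₀ ^ i * x + c i g)
  have hP : ∀ i g, ∃ x, P i g x := by
    intro i g
    rcases Nat.eq_zero_or_pos i with rfl | hi
    · exact ⟨0, fun _ => rfl, by simp, by simp⟩
    by_cases hi1 : i = 1
    · subst hi1
      obtain ⟨x, hx⟩ := IsAlgClosed.exists_pow_nat_eq y₀ (show 0 < Q - 1 by omega)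
      refine ⟨x, by simp, fun _ hx0 => ?_, fun _ => ?_⟩
      · rw [hx0, zero_pow (by omega)] at hx
        exact hy0 hx.symm
      · have h1 : c 1 g = 0 := by simp [hc]
        rw [h1, add_zero, pow_one, ← hx, ← pow_succ]
        congr 1
        omega
    · let q : Polynomial K := Polynomial.X ^ Q - (Polynomial.C (y₀ ^ i) * Polynomial.X + Polynomial.C (c i g))
      have hdeg : q.degree ≠ 0 := by
        have h1 : (Polynomial.C (y₀ ^ i) * Polynomial.X + Polynomial.C (c i g)).degree <
            (Polynomial.X ^ Q : Polynomial K).degree := by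
          rw [Polynomial.degree_X_pow]
          refine lt_of_le_of_lt Polynomial.degree_linear_le ?_
          exact_mod_cast (by omega : 1 < Q)
        have h2 : q.degree = (Polynomial.X ^ Q : Polynomial K).degree :=
          Polynomial.degree_sub_eq_left_of_degree_lt h1
        rw [h2, Polynomial.degree_X_pow]
        exact_mod_cast (by omega : Q ≠ 0)
      obtain ⟨x, hx⟩ := IsAlgClosed.exists_root q hdeg
      refine ⟨x, fun h => by omega, fun h => by omega, fun _ => ?_⟩
      have h3 : x ^ Q - (y₀ ^ i * x + c i g) = 0 := by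
        simpa [q, Polynomial.IsRoot] using hx
      exact sub_eq_zero.1 h3
  have hloc : ∀ i g g', (∀ k, k < i → g k = g' k) → ∀ x, P i g x → P i g' x := by
    intro i g g' hgg x hx
    refine ⟨hx.1, hx.2.1, fun hi => ?_⟩
    have h1 : c i g = c i g' := Finset.sum_congr rfl fun k hk => by
      rw [hgg k (Finset.mem_range.1 hk)]
    rw [← h1]
    exact hx.2.2 hi
  let _ : Inhabited K := ⟨0⟩
  obtain ⟨f, hf⟩ := exists_seq_strong P hP hloc
  have hf0 : f 0 = 0 := (hf 0).1 rfl
  have hnorm : ∀ i, ‖f i‖ < 1 := by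
    intro i
    induction i using Nat.strong_induction_on with
    | _ i ih =>
      rcases Nat.eq_zero_or_pos i with rfl | hi
      · rw [hf0]; simp
      · have h1 := (hf i).2.2 hi
        refine norm_lt_one_of_pow_eq_add (by omega) ?_ ?_ h1
        · rw [norm_pow]
          exact pow_lt_one₀ (norm_nonneg _) hy1 (by omega)
        · refine norm_finsum_lt_one fun k hk => ?_
          rw [norm_mul]
          have h2 := ih k (Finset.mem_range.1 hk)
          have h3 : ‖PowerSeries.coeff i (V ^ k)‖ ≤ 1 := (hVint.pow k) i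
          calc ‖f k‖ * ‖PowerSeries.coeff i (V ^ k)‖ ≤ ‖f k‖ * 1 := by gcongr
            _ < 1 := by rwa [mul_one]
  exact ⟨f, hf0, (hf 1).2.1 rfl, hnorm, fun i hi => (hf i).2.2 hi⟩

/-- First form of `ξ`: a series with `ξ ∘ V = ξ^(p^h)`. -/
theorem exists_xi_raw {h : ℕ} (hh : 1 ≤ h) {V : PowerSeries K}
    (hV0 : PowerSeries.constantCoeff V = 0) (hVint : IsInt V) (hy0 : PowerSeries.coeff 1 V ≠ 0)
    (hy1 : ‖PowerSeries.coeff 1 V‖ < 1) :
    ∃ ξ : PowerSeries K, PowerSeries.constantCoeff ξ = 0 ∧ PowerSeries.coeff 1 ξ ≠ 0 ∧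
      (∀ i, ‖PowerSeries.coeff i ξ‖ < 1) ∧
      cmp ξ V = PowerSeries.map (iterateFrobenius K p h) ξ := by
  obtain ⟨f, hf0, hf1, hfn, hf⟩ := exists_xi_seq p hh hV0 hVint hy0 hy1
  have hcoeff : ∀ i, PowerSeries.coeff i (PowerSeries.mk f) = f i := fun i =>
    PowerSeries.coeff_mk _ _
  refine ⟨PowerSeries.mk f, ?_, ?_, ?_, ?_⟩
  · rw [← PowerSeries.coeff_zero_eq_constantCoeff_apply, hcoeff, hf0]
  · rw [hcoeff]; exact hf1
  · intro i; rw [hcoeff]; exact hfn i
  · ext n
    rw [coeff_cmp_eq_sum hV0, PowerSeries.coeff_map, hcoeff, iterateFrobenius_def]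
    rcases Nat.eq_zero_or_pos n with rfl | hn
    · simp [hcoeff, hf0, hp.out.ne_zero]
    · rw [Finset.sum_range_succ, hcoeff, hf n hn, coeff_pow_self_of_cc hV0, add_comm, mul_comm]
      congr 1
      exact Finset.sum_congr rfl fun k _ => by rw [hcoeff]

end Xi

section Descent

/-- A formal group law over `K` all of whose coefficients lie in the image of an injective ring hom
`ι : L → K` descends to `L`. -/
theorem exists_law_descent {L K : Type*} [CommRing L] [CommRing K] (ι : L →+* K)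
    (hι : Function.Injective ι) (G : FormalGroup K)
    (hG : ∀ γ, MvPowerSeries.coeff γ G.toPowerSeries ∈ Set.range ι) :
    ∃ Gd : FormalGroup L, Gd.map ι = G := by
  classical
  choose s hs using hG
  let S : MvPowerSeries (Fin 2) L := fun γ => s γ
  have hcS : ∀ γ, ι (MvPowerSeries.coeff γ S) = MvPowerSeries.coeff γ G.toPowerSeries := by
    intro γ
    exact hs γ
  have hmapS : MvPowerSeries.map ι S = G.toPowerSeries := by
    ext γ
    rw [MvPowerSeries.coeff_map, hcS]
  have hS0 : MvPowerSeries.constantCoeff S = 0 := by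
    apply hι
    rw [map_zero, ← MvPowerSeries.coeff_zero_eq_constantCoeff_apply, hcS,
      MvPowerSeries.coeff_zero_eq_constantCoeff_apply, G.zero_constantCoeff]
  have hS1 : MvPowerSeries.coeff (Finsupp.single 0 1) S = 1 := by
    apply hι
    rw [hcS, G.lin_coeff_X, map_one]
  have hS2 : MvPowerSeries.coeff (Finsupp.single 1 1) S = 1 := by
    apply hι
    rw [hcS, G.lin_coeff_Y, map_one]
  have hinj3 : Function.Injective (MvPowerSeries.map (σ := Fin 3) ι) := by
    intro a b hab
    ext γ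
    apply hι
    have := congrArg (MvPowerSeries.coeff γ) hab
    simpa [MvPowerSeries.coeff_map] using this
  have hX : ∀ i : Fin 3, PowerSeries.HasSubst (MvPowerSeries.X i : MvPowerSeries (Fin 3) L) :=
    hasSubst_X_i
  have hS3 : ∀ {a b : MvPowerSeries (Fin 3) L}, PowerSeries.HasSubst a → PowerSeries.HasSubst b →
      PowerSeries.HasSubst (S.subst ![a, b]) := by
    intro a b ha hb
    exact MvPowerSeries.IsNilpotent_subst (hasSubst_pair ha hb) (hS0 ▸ IsNilpotent.zero)
  refine ⟨⟨S, hS0, hS1, hS2, ?_⟩, ?_⟩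
  · apply hinj3
    have hmapX : ∀ i : Fin 3, MvPowerSeries.map ι (MvPowerSeries.X i : MvPowerSeries (Fin 3) L) =
        MvPowerSeries.X i := fun i => MvPowerSeries.map_X _ _
    rw [map_subst_pair ι S (hS3 (hX 0) (hX 1)) (hX 2),
      map_subst_pair ι S (hX 0) (hS3 (hX 1) (hX 2)),
      map_subst_pair ι S (hX 0) (hX 1), map_subst_pair ι S (hX 1) (hX 2), hmapS]
    simp only [hmapX]
    exact G.assoc
  · apply FormalGroup.ext
    exact hmapS

end Descent

section XiHom

variable {K : Type*} [NontriviallyNormedField K] [IsUltrametricDist K] [IsAlgClosed K]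
  (p : ℕ) [hp : Fact p.Prime] [CharP K p]

theorem galois_pow_card' {m : ℕ} (hm : m ≠ 0) (x : GaloisField p m) : x ^ p ^ m = x := by
  have h1 := GaloisField.card p m hm
  have h2 : Finite (GaloisField p m) := Nat.finite_of_card_ne_zero (by
    rw [h1]; exact pow_ne_zero _ hp.out.ne_zero)
  have := Fintype.ofFinite (GaloisField p m)
  have h3 := FiniteField.pow_card x
  rwa [← Nat.card_eq_fintype_card, h1] at h3

/-- Embedding of `GaloisField p m` into an algebraically closed field of characteristic `p`, whose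
image is exactly the set of roots of `X^(p^m) = X`. -/
theorem exists_galois_embedding' (m : ℕ) (hm : m ≠ 0) :
    ∃ ι : GaloisField p m →+* K, ∀ a : K, a ^ p ^ m = a → a ∈ Set.range ι := by
  classical
  let _ : Algebra (ZMod p) K := ZMod.algebra K p
  let ι : GaloisField p m →+* K := (IsAlgClosed.lift : GaloisField p m →ₐ[ZMod p] K).toRingHom
  refine ⟨ι, fun a ha => ?_⟩
  by_contra hmem
  have h1 := GaloisField.card p m hm
  have hq : 1 < p ^ m := Nat.one_lt_pow hm hp.out.one_lt
  have hfin : Finite (GaloisField p m) := Nat.finite_of_card_ne_zero (by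
    rw [h1]; omega)
  have := Fintype.ofFinite (GaloisField p m)
  set P : Polynomial K := Polynomial.X ^ (p ^ m) - Polynomial.X with hP
  have hdeg : P.natDegree = p ^ m := FiniteField.X_pow_card_sub_X_natDegree_eq K hq
  have hP0 : P ≠ 0 := FiniteField.X_pow_card_sub_X_ne_zero K hq
  set Z : Finset K := insert a (Finset.univ.image ι) with hZ
  have hcard : Z.card = p ^ m + 1 := by
    rw [hZ, Finset.card_insert_of_notMem, Finset.card_image_of_injective _ ι.injective,
      Finset.card_univ, ← Nat.card_eq_fintype_card, h1]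
    simpa using hmem
  have hsub : Z.val ⊆ P.roots := by
    intro w hw
    have hw' : w ∈ Z := hw
    rw [Polynomial.mem_roots hP0, Polynomial.IsRoot, hP]
    simp only [Polynomial.eval_sub, Polynomial.eval_pow, Polynomial.eval_X]
    rcases Finset.mem_insert.1 hw' with rfl | hw''
    · rw [ha, sub_self]
    · obtain ⟨x, -, rfl⟩ := Finset.mem_image.1 hw''
      rw [← map_pow, galois_pow_card' p hm, sub_self]
  have h3 := Polynomial.card_le_degree_of_subset_roots hsub
  rw [hcard, hdeg] at h3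
  omega

/-- **Construction of `ξ`** (BLUEPRINT §E2). -/
theorem exists_xi {h : ℕ} (hh : 1 ≤ h) (F : FormalGroup K) [F.IsComm] {V : PowerSeries K}
    (hVhom : IsFGHom (F.map (iterateFrobenius K p h)) F V)
    (hVp : mulSeries F p = cmp V (PowerSeries.X ^ p ^ h))
    (hVint : IsInt V) (hy0 : PowerSeries.coeff 1 V ≠ 0) (hy1 : ‖PowerSeries.coeff 1 V‖ < 1) :
    ∃ ξ : PowerSeries K, PowerSeries.constantCoeff ξ = 0 ∧ PowerSeries.coeff 1 ξ ≠ 0 ∧
      (∀ i, ‖PowerSeries.coeff i ξ‖ < 1) ∧ IsFGHom F (honda p h K) ξ ∧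
      cmp ξ V = PowerSeries.map (iterateFrobenius K p h) ξ := by
  classical
  have hV0 := hVhom.1
  obtain ⟨ξ₀, h0, h1, hn, hξV⟩ := exists_xi_raw p hh hV0 hVint hy0 hy1
  have hu : IsUnit (PowerSeries.coeff 1 ξ₀) := isUnit_iff_ne_zero.2 h1
  set φ := iterateFrobenius K p h with hφ
  set G := conjLaw F ξ₀ hu h0 with hG
  have hξ : IsFGHom F G ξ₀ := isFGHom_conjLaw F ξ₀ hu h0
  have hh0 : h ≠ 0 := by omega
  -- `G` is fixed by the twist
  have hGφ : G.map φ = G := by
    have hu' : IsUnit (PowerSeries.coeff 1 (PowerSeries.map φ ξ₀)) := by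
      rw [PowerSeries.coeff_map]
      exact hu.map φ
    have e1 : IsFGHom (F.map φ) (G.map φ) (PowerSeries.map φ ξ₀) := hξ.map φ
    have e2 : IsFGHom (F.map φ) G (PowerSeries.map φ ξ₀) := by
      rw [← hξV]
      exact hξ.comp hVhom
    have e3 := conjLaw_eq_of_hom (F.map φ) _ hu' e1
    have e4 := conjLaw_eq_of_hom (F.map φ) _ hu' e2
    exact e3.symm.trans e4
  -- the `p`-series of `G`
  have hGp : mulSeries G p = PowerSeries.X ^ p ^ h := by
    have hq : p ^ h ≠ 0 := pow_ne_zero _ hp.out.ne_zero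
    have hXq : PowerSeries.constantCoeff (PowerSeries.X ^ p ^ h : PowerSeries K) = 0 := by
      rw [map_pow, PowerSeries.constantCoeff_X, zero_pow hq]
    have e1 : cmp (mulSeries G p) ξ₀ = cmp (PowerSeries.X ^ p ^ h) ξ₀ := by
      rw [← hξ.cmp_mulSeries, hVp, ← cmp_assoc hV0 hXq, hξV, cmp_X_pow_left _ h0,
        pow_eq_cmp p h ξ₀]
    have e2 : cmp (cmp (mulSeries G p) ξ₀) (sInv ξ₀ hu) =
        cmp (cmp (PowerSeries.X ^ p ^ h) ξ₀) (sInv ξ₀ hu) := by rw [e1]
    rw [cmp_assoc h0 (cc_sInv ξ₀ hu), cmp_assoc h0 (cc_sInv ξ₀ hu), cmp_sInv ξ₀ h0 hu] at e2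
    simpa [cmp, PowerSeries.X_subst] using e2
  -- descent
  obtain ⟨ι, hι⟩ := exists_galois_embedding' (K := K) p h hh0
  have hcoef : ∀ γ, MvPowerSeries.coeff γ G.toPowerSeries ∈ Set.range ι := by
    intro γ
    refine hι _ ?_
    have e := congrArg (fun L : FormalGroup K => MvPowerSeries.coeff γ L.toPowerSeries) hGφ
    simp only [FormalGroup.map_toPowerSeries, MvPowerSeries.coeff_map] at e
    rwa [hφ, iterateFrobenius_def] at e
  obtain ⟨Gd, hGd⟩ := exists_law_descent ι ι.injective G hcoef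
  have : Gd.IsComm := by
    have : (Gd.map ι).IsComm := by rw [hGd]; infer_instance
    exact fg_comm_of_map_inj Gd ι ι.injective
  have hGdp : mulSeries Gd p = PowerSeries.X ^ p ^ h := by
    apply PowerSeries.map_injective ι ι.injective
    rw [← mulSeries_map, hGd, hGp]
    simp
  obtain ⟨κL, hκ1, hκL⟩ := exists_iso_honda p h hh (GaloisField p h) Gd hGdp
  set κ := PowerSeries.map ι κL with hκ
  have hκhom : IsFGHom G (honda p h K) κ := by
    have := hκL.map ι
    rwa [hGd, honda_map] at this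
  have hκφ : PowerSeries.map φ κ = κ := by
    ext n
    simp only [hκ, PowerSeries.coeff_map, hφ, iterateFrobenius_def]
    rw [← map_pow, galois_pow_card' p hh0]
  have hκnorm : ∀ n, ‖PowerSeries.coeff n κ‖ ≤ 1 := by
    intro n
    have h2 : PowerSeries.coeff n κ ^ p ^ h = PowerSeries.coeff n κ := by
      simp only [hκ, PowerSeries.coeff_map]
      rw [← map_pow, galois_pow_card' p hh0]
    by_contra hgt
    rw [not_le] at hgt
    have h3 : ‖PowerSeries.coeff n κ‖ ^ p ^ h = ‖PowerSeries.coeff n κ‖ := by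
      rw [← norm_pow, h2]
    have hq2 : p ^ h ≠ 1 := by
      have := Nat.one_lt_pow hh0 hp.out.one_lt
      omega
    have h4 : ‖PowerSeries.coeff n κ‖ < ‖PowerSeries.coeff n κ‖ ^ p ^ h :=
      lt_self_pow₀ hgt (by have := Nat.one_lt_pow hh0 hp.out.one_lt; omega)
    exact absurd h3 h4.ne'
  have hκ0 : PowerSeries.constantCoeff κ = 0 := hκhom.1
  have hκ1' : PowerSeries.coeff 1 κ = 1 := by
    simp only [hκ, PowerSeries.coeff_map, hκ1, map_one]
  -- coefficients of the powers of `ξ₀`
  have hξ₀int : IsInt ξ₀ := fun i => (hn i).le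
  have hpow : ∀ d, 1 ≤ d → ∀ n, ‖PowerSeries.coeff n (ξ₀ ^ d)‖ < 1 := by
    intro d hd
    induction d, hd using Nat.le_induction with
    | base => simpa using hn
    | succ d hd ih =>
      intro n
      rw [pow_succ, PowerSeries.coeff_mul]
      refine norm_finsum_lt_one fun x _ => ?_
      rw [norm_mul]
      have h3 := ih x.1
      have h4 := (hn x.2).le
      calc _ ≤ ‖PowerSeries.coeff x.1 (ξ₀ ^ d)‖ * 1 := by gcongr
        _ < 1 := by rwa [mul_one]
  refine ⟨cmp κ ξ₀, constantCoeff_cmp hκ0 h0, ?_, ?_, hκhom.comp hξ, ?_⟩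
  · rw [coeff_one_cmp hκ0 h0, hκ1', one_mul]
    exact h1
  · intro n
    rw [coeff_cmp_eq_sum h0]
    refine norm_finsum_lt_one fun d hd => ?_
    rcases Nat.eq_zero_or_pos d with rfl | hd0
    · rw [PowerSeries.coeff_zero_eq_constantCoeff_apply, hκ0, zero_mul, norm_zero]
      exact one_pos
    · rw [norm_mul]
      calc _ ≤ 1 * ‖PowerSeries.coeff n (ξ₀ ^ d)‖ := by
            gcongr
            exact hκnorm d
        _ < 1 := by rw [one_mul]; exact hpow d hd0 n
  · have e1 : PowerSeries.map φ (cmp κ ξ₀) = cmp κ (PowerSeries.map φ ξ₀) := by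
      rw [map_cmp φ h0, hκφ]
    rw [cmp_assoc h0 hV0, hξV, e1]

end XiHom

end Crest.Agent.LT
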