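/-
E2 (part B): the digits `c_a` of `ξ`. BLUEPRINT §E2.
-/
import Crest.Agent.Lib.LT.P3Tower
import Crest.Agent.Lib.LT.P3XiA

set_option autoImplicit false
set_option linter.unusedSectionVars false
set_option linter.unusedVariables false
set_option linter.unnecessarySimpa false

namespace Crest.Agent.LT

open Filter Topology

open Crest.LubinTate

variable {p : ℕ} [hp : Fact p.Prime] {K : Type*} [NontriviallyNormedField K] [IsUltrametricDist K]
  [CompleteSpace K] [CharP K p] [PerfectRing K p]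

/-- The series `ξ` attached to tower data (output of `exists_xi`). -/
structure XiData {h d : ℕ} (D : TowerData p K h d) where
  ξ : PowerSeries K
  cc : PowerSeries.constantCoeff ξ = 0
  lin : PowerSeries.coeff 1 ξ ≠ 0
  norm_lt : ∀ i, ‖PowerSeries.coeff i ξ‖ < 1
  hom : IsFGHom D.F (honda p h K) ξ
  cmpV : cmp ξ D.V = tw p h ξ

lemma small_mul {f g : PowerSeries K} {ρ : ℝ} (hρ : 0 ≤ ρ)
    (hf : ∀ i, ‖PowerSeries.coeff i f‖ ≤ ρ) (hg : IsInt g) (i : ℕ) :
    ‖PowerSeries.coeff i (f * g)‖ ≤ ρ := by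
  rw [PowerSeries.coeff_mul]
  refine IsUltrametricDist.norm_sum_le_of_forall_le_of_nonneg hρ fun x _ => ?_
  rw [norm_mul]
  calc _ ≤ ρ * 1 := mul_le_mul (hf _) (hg _) (norm_nonneg _) hρ
    _ = ρ := mul_one _

lemma small_pow_sub {V Y : PowerSeries K} {ρ : ℝ} (hρ : 0 ≤ ρ) (hV : IsInt V) (hY : IsInt Y)
    (h : ∀ i, ‖PowerSeries.coeff i V - PowerSeries.coeff i Y‖ ≤ ρ) (k i : ℕ) :
    ‖PowerSeries.coeff i (V ^ k - Y ^ k)‖ ≤ ρ := by
  induction k generalizing i with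
  | zero => simpa using hρ
  | succ k ih =>
    have e : V ^ (k + 1) - Y ^ (k + 1) = (V ^ k - Y ^ k) * V + (V - Y) * Y ^ k := by ring
    rw [e, map_add]
    refine (IsUltrametricDist.norm_add_le_max _ _).trans (max_le ?_ ?_)
    · exact small_mul hρ ih hV i
    · refine small_mul hρ (fun j => ?_) (hY.pow k) i
      rw [map_sub]
      exact h j

namespace XiData

variable {h d : ℕ} {D : TowerData p K h d} (X : XiData D)

lemma isInt : IsInt X.ξ := fun i => (X.norm_lt i).le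

/-- The basic congruence: `ξ_[m+d]^(p^h) ≡ ξ_[m]`. -/
lemma coeff_step (m : ℕ) :
    ‖(PowerSeries.coeff (p ^ (m + d)) X.ξ) ^ p ^ h - PowerSeries.coeff (p ^ m) X.ξ‖ ≤ D.ρ := by
  classical
  have hp0 : 0 < p := hp.out.pos
  set n := p ^ (m + d) with hn
  set Y : PowerSeries K := PowerSeries.X ^ p ^ d with hY
  have hV0 : PowerSeries.constantCoeff D.V = 0 := D.V_hom.1
  have h1 : (PowerSeries.coeff n X.ξ) ^ p ^ h =
      ∑ k ∈ Finset.range (n + 1), PowerSeries.coeff k X.ξ * PowerSeries.coeff n (D.V ^ k) := by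
    have := congrArg (PowerSeries.coeff n) X.cmpV
    rw [coeff_cmp_eq_sum hV0, coeff_tw] at this
    exact this.symm
  have hpm : p ^ m ∈ Finset.range (n + 1) := by
    rw [Finset.mem_range, hn]
    exact Nat.lt_succ_of_le (Nat.pow_le_pow_right hp0 (by omega))
  have hYk : ∀ k, PowerSeries.coeff n (Y ^ k) = if k = p ^ m then 1 else 0 := by
    intro k
    rw [hY, ← pow_mul, PowerSeries.coeff_X_pow]
    have h2 : n = p ^ d * k ↔ k = p ^ m := by
      rw [hn, pow_add, mul_comm (p ^ m)]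
      constructor
      · intro h3
        exact (Nat.eq_of_mul_eq_mul_left (pow_pos hp0 d) h3).symm
      · rintro rfl
        rfl
    by_cases hk : k = p ^ m
    · rw [if_pos hk, if_pos (h2.2 hk)]
    · rw [if_neg hk, if_neg (fun h3 => hk (h2.1 h3))]
  have h2 : PowerSeries.coeff (p ^ m) X.ξ =
      ∑ k ∈ Finset.range (n + 1), PowerSeries.coeff k X.ξ * PowerSeries.coeff n (Y ^ k) := by
    simp only [hYk]
    rw [Finset.sum_eq_single (p ^ m)]
    · simp
    · intro k _ hk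
      rw [if_neg hk, mul_zero]
    · intro hk
      exact absurd hpm hk
  rw [h1, h2, ← Finset.sum_sub_distrib]
  refine IsUltrametricDist.norm_sum_le_of_forall_le_of_nonneg D.ρ0 fun k _ => ?_
  rw [← mul_sub, norm_mul, ← map_sub]
  have h3 := small_pow_sub D.ρ0 D.V_int (isInt_X_pow (K := K) (p ^ d)) D.V_close k n
  calc _ ≤ 1 * D.ρ := mul_le_mul (X.norm_lt k).le h3 (norm_nonneg _) zero_le_one
    _ = D.ρ := one_mul _

/-- Twisted form of `coeff_step`. -/
lemma coeff_step_tw (m j : ℕ) :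
    ‖(PowerSeries.coeff (p ^ (m + d)) X.ξ) ^ p ^ ((j + 1) * h) -
      (PowerSeries.coeff (p ^ m) X.ξ) ^ p ^ (j * h)‖ ≤ D.ρ ^ p ^ (j * h) := by
  have e : (PowerSeries.coeff (p ^ (m + d)) X.ξ) ^ p ^ ((j + 1) * h) =
      ((PowerSeries.coeff (p ^ (m + d)) X.ξ) ^ p ^ h) ^ p ^ (j * h) := by
    rw [← pow_mul, ← pow_add]
    congr 2
    ring
  rw [e, norm_sub_pow_char_pow]
  exact pow_le_pow_left₀ (norm_nonneg _) (X.coeff_step m) _

/-- The approximants of the digit `c_a`. -/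
noncomputable def s (a : ℤ) (j : ℕ) : K :=
  (PowerSeries.coeff (p ^ (a + (d * j : ℕ)).toNat) X.ξ) ^ p ^ (j * h)

lemma s_step {a : ℤ} {j : ℕ} (hj : 0 ≤ a + (d * j : ℕ)) :
    ‖X.s a (j + 1) - X.s a j‖ ≤ D.r j := by
  have e : (a + (d * (j + 1) : ℕ)).toNat = (a + (d * j : ℕ)).toNat + d := by
    push_cast at hj ⊢
    have : (0 : ℤ) ≤ d := by positivity
    rw [mul_add, mul_one, ← add_assoc]
    omega
  rw [s, s, e]
  exact X.coeff_step_tw _ j

lemma s_nonneg_mono {a : ℤ} {j j' : ℕ} (hj : 0 ≤ a + (d * j : ℕ)) (hjj : j ≤ j') :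
    0 ≤ a + (d * j' : ℕ) := by
  have : ((d * j : ℕ) : ℤ) ≤ (d * j' : ℕ) := by
    exact_mod_cast Nat.mul_le_mul_left d hjj
  omega

lemma s_dist {a : ℤ} {j : ℕ} (hj : 0 ≤ a + (d * j : ℕ)) (i : ℕ) :
    ‖X.s a (j + i) - X.s a j‖ ≤ D.r j := by
  induction i with
  | zero => simpa using D.r_nonneg j
  | succ i ih =>
    have e : X.s a (j + (i + 1)) - X.s a j =
        (X.s a (j + i + 1) - X.s a (j + i)) + (X.s a (j + i) - X.s a j) := by
      rw [add_assoc]; ring
    rw [e]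
    refine (IsUltrametricDist.norm_add_le_max _ _).trans (max_le ?_ ih)
    refine (X.s_step (s_nonneg_mono hj (Nat.le_add_right j i))).trans ?_
    exact D.r_anti (Nat.le_add_right j i)

/-- Existence of the limit. -/
lemma exists_digit (a : ℤ) : ∃ c : K, ∀ j : ℕ, 0 ≤ a + (d * j : ℕ) → ‖c - X.s a j‖ ≤ D.r j := by
  have hd := D.hd
  obtain ⟨j₀, hj₀⟩ : ∃ j₀ : ℕ, 0 ≤ a + (d * j₀ : ℕ) := by
    refine ⟨(-a).toNat, ?_⟩
    push_cast
    have h1 : -a ≤ ((-a).toNat : ℤ) := Int.self_le_toNat _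
    have h2 : (1 : ℤ) ≤ d := by exact_mod_cast hd
    have h3 : (0 : ℤ) ≤ ((-a).toNat : ℤ) := by positivity
    nlinarith
  have hcauchy : CauchySeq (fun i => X.s a (j₀ + i)) := by
    refine cauchySeq_of_le_geometric D.ρ 1 D.ρ1 fun i => ?_
    rw [dist_comm, dist_eq_norm, one_mul]
    have h1 := X.s_step (s_nonneg_mono hj₀ (Nat.le_add_right j₀ i))
    refine h1.trans ((D.r_anti (Nat.le_add_left i j₀)).trans (D.r_le_pow i))
  obtain ⟨c, hc⟩ := cauchySeq_tendsto_of_complete hcauchy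
  refine ⟨c, fun j hj => ?_⟩
  have h2 : Tendsto (fun i => ‖X.s a (j₀ + i) - X.s a j‖) atTop (𝓝 ‖c - X.s a j‖) :=
    (hc.sub_const _).norm
  refine le_of_tendsto h2 ?_
  filter_upwards [eventually_ge_atTop j] with i hi
  have h3 : j₀ + i = j + (j₀ + i - j) := by omega
  rw [h3]
  exact X.s_dist hj _

/-- The digits. -/
noncomputable def c (a : ℤ) : K := (X.exists_digit a).choose

lemma c_sub_s {a : ℤ} {j : ℕ} (hj : 0 ≤ a + (d * j : ℕ)) : ‖X.c a - X.s a j‖ ≤ D.r j :=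
  (X.exists_digit a).choose_spec j hj

/-- `c_a = c_{a+d}^(p^h)` -/
theorem c_eq (a : ℤ) : X.c a = X.c (a + d) ^ p ^ h := by
  have hd := D.hd
  obtain ⟨j₀, hj₀⟩ : ∃ j₀ : ℕ, 0 ≤ a + (d * j₀ : ℕ) := by
    refine ⟨(-a).toNat, ?_⟩
    push_cast
    have h1 : -a ≤ ((-a).toNat : ℤ) := Int.self_le_toNat _
    have h2 : (1 : ℤ) ≤ d := by exact_mod_cast hd
    have h3 : (0 : ℤ) ≤ ((-a).toNat : ℤ) := by positivity
    nlinarith
  have hle : ∀ j, j₀ ≤ j → ‖X.c a - X.c (a + d) ^ p ^ h‖ ≤ D.r j := by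
    intro j hj
    have hj1 : 0 ≤ a + (d * j : ℕ) := s_nonneg_mono hj₀ hj
    have hj2 : 0 ≤ a + d + (d * j : ℕ) := by
      have : (0 : ℤ) ≤ d := by positivity
      omega
    have hj3 : 0 ≤ a + (d * (j + 1) : ℕ) := s_nonneg_mono hj₀ (by omega)
    have e1 : X.s (a + d) j ^ p ^ h = X.s a (j + 1) := by
      simp only [s]
      have e2 : (a + d + (d * j : ℕ)).toNat = (a + (d * (j + 1) : ℕ)).toNat := by
        congr 1
        push_cast
        ring
      rw [e2, ← pow_mul, ← pow_add]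
      congr 2
      ring
    have e3 : X.c a - X.c (a + d) ^ p ^ h =
        (X.c a - X.s a (j + 1)) - (X.c (a + d) ^ p ^ h - X.s (a + d) j ^ p ^ h) := by
      rw [e1]; ring
    rw [e3]
    refine (norm_sub_le_max_ultra _ _).trans (max_le ?_ ?_)
    · exact (X.c_sub_s hj3).trans (D.r_anti (by omega))
    · rw [norm_sub_pow_char_pow]
      refine (pow_le_pow_left₀ (norm_nonneg _) (X.c_sub_s hj2) _).trans ?_
      exact pow_le_of_le_one (D.r_nonneg j) (D.r_lt_one j).le (pow_ne_zero _ hp.out.ne_zero)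
  have h4 : Tendsto (fun j => D.r (j + j₀)) atTop (𝓝 0) := (tendsto_add_atTop_iff_nat j₀).2 D.tendsto_r
  have h5 : ‖X.c a - X.c (a + d) ^ p ^ h‖ ≤ 0 :=
    ge_of_tendsto h4 (Eventually.of_forall fun j => hle _ (Nat.le_add_left _ _))
  exact sub_eq_zero.1 (norm_le_zero_iff.1 h5)

lemma norm_c_lt (a : ℤ) : ‖X.c a‖ < 1 := by
  have hd := D.hd
  have h0 : ∀ a : ℤ, 0 ≤ a → ‖X.c a‖ < 1 := by
    intro a ha
    have hj : 0 ≤ a + (d * 0 : ℕ) := by simpa using ha
    have h1 := X.c_sub_s hj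
    have h2 : ‖X.s a 0‖ < 1 := by
      simp only [s, zero_mul, pow_zero, pow_one]
      exact X.norm_lt _
    have h3 : D.r 0 < 1 := D.r_lt_one 0
    have e : X.c a = (X.c a - X.s a 0) + X.s a 0 := by ring
    rw [e]
    exact (IsUltrametricDist.norm_add_le_max _ _).trans_lt (max_lt (h1.trans_lt h3) h2)
  have hk : ∀ (k : ℕ) (a : ℤ), 0 ≤ a + (d * k : ℕ) → ‖X.c a‖ < 1 := by
    intro k
    induction k with
    | zero => intro a ha; exact h0 a (by simpa using ha)
    | succ k ih =>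
      intro a ha
      rw [X.c_eq a, norm_pow]
      refine pow_lt_one₀ (norm_nonneg _) (ih (a + d) ?_) (pow_ne_zero _ hp.out.ne_zero)
      push_cast at ha ⊢
      rw [mul_add, mul_one] at ha
      linarith
  refine hk (-a).toNat a ?_
  push_cast
  have h1 : -a ≤ ((-a).toNat : ℤ) := Int.self_le_toNat _
  have h2 : (1 : ℤ) ≤ d := by exact_mod_cast hd
  have h3 : (0 : ℤ) ≤ ((-a).toNat : ℤ) := by positivity
  nlinarith

end XiData

end Crest.Agent.LT
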