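/-
E2 (part C): the Gauss estimate for `ξ^[j]`: away from `p`-powers coefficients are much smaller.
BLUEPRINT §E2 (the proof of Lemma N).
-/
import Crest.Agent.Lib.LT.P3XiB
import Crest.Agent.Lib.LT.P3Point

set_option autoImplicit false
set_option linter.unusedSectionVars false
set_option linter.unusedVariables false
set_option linter.unnecessarySimpa false

namespace Crest.Agent.LT

open Filter Topology

open Crest.LubinTate

section gauss

variable {K : Type*} [NontriviallyNormedField K] [IsUltrametricDist K]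

omit [IsUltrametricDist K] in
lemma isB_unit_iff {ε C : ℝ} {f : PowerSeries K} :
    IsB ε C (σ := Unit) f ↔ ∀ i, ‖PowerSeries.coeff i f‖ * ε ^ i ≤ C := by
  constructor
  · intro h i
    have := h (Finsupp.single () i)
    simpa [PowerSeries.coeff] using this
  · intro h γ
    simpa [coeff_unit, degree_unit] using h (γ ())

/-- Powers: `W^k - Y^k` is small when `W - Y` is. -/
lemma isB_pow_sub {W Y : PowerSeries K} {ε β ϑ : ℝ} (hε : 0 ≤ ε) (hϑ : 0 ≤ ϑ)
    (hW : IsB ε β (σ := Unit) W) (hY : IsB ε β (σ := Unit) Y)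
    (hWY : IsB ε (ϑ * β) (σ := Unit) (W - Y)) (k : ℕ) :
    IsB ε (ϑ * β ^ k) (σ := Unit) (W ^ k - Y ^ k) := by
  have hβ : 0 ≤ β := hW.nonneg hε
  induction k with
  | zero =>
    simp only [pow_zero, sub_self, mul_one]
    exact (isB_zero ε).mono hϑ
  | succ k ih =>
    have e : W ^ (k + 1) - Y ^ (k + 1) = (W ^ k - Y ^ k) * W + Y ^ k * (W - Y) := by ring
    rw [e]
    have h1 := ih.mul hW hε
    have h2 := (hY.pow hε k).mul hWY hε
    have e1 : ϑ * β ^ k * β = ϑ * β ^ (k + 1) := by ring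
    have e2 : β ^ k * (ϑ * β) = ϑ * β ^ (k + 1) := by ring
    rw [e1] at h1
    rw [e2] at h2
    exact h1.add h2 hε

lemma exists_argmax_nat (a : ℕ → ℝ) (h0 : ∀ i, 0 ≤ a i) (ht : Tendsto a atTop (𝓝 0)) :
    ∃ m, ∀ i, a i ≤ a m := by
  by_cases hall : ∀ i, a i = 0
  · exact ⟨0, fun i => by rw [hall i, hall 0]⟩
  push Not at hall
  obtain ⟨i₀, hi₀⟩ := hall
  have hpos : 0 < a i₀ := lt_of_le_of_ne (h0 _) (Ne.symm hi₀)
  obtain ⟨N, hN⟩ := eventually_atTop.1 (ht.eventually (gt_mem_nhds hpos))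
  obtain ⟨m, -, hm⟩ := Finset.exists_max_image (Finset.range (max N i₀ + 1)) a
    ⟨i₀, Finset.mem_range.2 (Nat.lt_succ_of_le (le_max_right _ _))⟩
  refine ⟨m, fun i => ?_⟩
  by_cases hi : i ∈ Finset.range (max N i₀ + 1)
  · exact hm i hi
  · have h1 : N ≤ i := by
      rw [Finset.mem_range] at hi
      have := le_max_left N i₀
      omega
    exact (hN i h1).le.trans (hm i₀ (Finset.mem_range.2 (Nat.lt_succ_of_le (le_max_right _ _))))

/-- The Gauss norm transfer: if `W` is close to `X^q` at radius `ε`, the Gauss norm of `f` at radius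
`ε^q` is bounded by the Gauss norm of `f ∘ W` at radius `ε`. -/
lemma gauss_transfer {f W : PowerSeries K} (hf : IsInt f) (hW0 : PowerSeries.constantCoeff W = 0)
    {ε ϑ C' : ℝ} {q : ℕ} (hq : q ≠ 0) (hε0 : 0 < ε) (hε1 : ε < 1) (hϑ0 : 0 ≤ ϑ) (hϑ1 : ϑ < 1)
    (hW : ∀ k n, ‖PowerSeries.coeff n (W ^ k - (PowerSeries.X ^ q) ^ k)‖ * ε ^ n ≤ ϑ * (ε ^ q) ^ k)
    (hcmp : ∀ n, ‖PowerSeries.coeff n (cmp f W)‖ * ε ^ n ≤ C') (i : ℕ) :
    ‖PowerSeries.coeff i f‖ * (ε ^ q) ^ i ≤ C' := by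
  classical
  have hC' : 0 ≤ C' := (mul_nonneg (norm_nonneg _) (pow_nonneg hε0.le _)).trans (hcmp 0)
  have hβ0 : 0 < ε ^ q := pow_pos hε0 _
  have hβ1 : ε ^ q < 1 := pow_lt_one₀ hε0.le hε1 hq
  set a : ℕ → ℝ := fun i => ‖PowerSeries.coeff i f‖ * (ε ^ q) ^ i with ha
  have ha0 : ∀ i, 0 ≤ a i := fun i => mul_nonneg (norm_nonneg _) (pow_nonneg hβ0.le _)
  have hat : Tendsto a atTop (𝓝 0) := by
    refine squeeze_zero ha0 (g := fun i => (ε ^ q) ^ i) (fun i => ?_)
      (tendsto_pow_atTop_nhds_zero_of_lt_one hβ0.le hβ1)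
    calc a i ≤ 1 * (ε ^ q) ^ i := mul_le_mul_of_nonneg_right (hf i) (pow_nonneg hβ0.le _)
      _ = _ := one_mul _
  obtain ⟨m, hm⟩ := exists_argmax_nat a ha0 hat
  refine (hm i).trans ?_
  set n := q * m with hn
  have hεn : 0 < ε ^ n := pow_pos hε0 _
  have hamn : a m = ‖PowerSeries.coeff m f‖ * ε ^ n := by
    simp only [ha, hn, pow_mul]
  have hmn : m ∈ Finset.range (n + 1) := by
    rw [Finset.mem_range, hn]
    exact Nat.lt_succ_of_le (Nat.le_mul_of_pos_left _ (Nat.pos_of_ne_zero hq))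
  have hY : ∀ k, PowerSeries.coeff n ((PowerSeries.X ^ q : PowerSeries K) ^ k) = if k = m then 1 else 0 := by
    intro k
    rw [← pow_mul, PowerSeries.coeff_X_pow]
    have : n = q * k ↔ k = m := by
      rw [hn]
      constructor
      · intro h
        exact (Nat.eq_of_mul_eq_mul_left (Nat.pos_of_ne_zero hq) h).symm
      · rintro rfl; rfl
    simp only [this]
  have hsum : PowerSeries.coeff n (cmp f W) = PowerSeries.coeff m f +
      ∑ k ∈ Finset.range (n + 1), PowerSeries.coeff k f *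
        PowerSeries.coeff n (W ^ k - (PowerSeries.X ^ q) ^ k) := by
    rw [coeff_cmp_eq_sum hW0]
    have : ∀ k ∈ Finset.range (n + 1), PowerSeries.coeff k f * PowerSeries.coeff n (W ^ k) =
        (if k = m then PowerSeries.coeff k f else 0) + PowerSeries.coeff k f *
        PowerSeries.coeff n (W ^ k - (PowerSeries.X ^ q) ^ k) := by
      intro k _
      rw [map_sub, hY]
      split_ifs with h
      · ring
      · ring
    rw [Finset.sum_congr rfl this, Finset.sum_add_distrib, Finset.sum_ite_eq' _ _, if_pos hmn]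
  set R := ∑ k ∈ Finset.range (n + 1), PowerSeries.coeff k f *
        PowerSeries.coeff n (W ^ k - (PowerSeries.X ^ q) ^ k) with hR
  have hRb : ‖R‖ * ε ^ n ≤ ϑ * a m := by
    have h1 : ‖R‖ ≤ ϑ * a m / ε ^ n := by
      refine IsUltrametricDist.norm_sum_le_of_forall_le_of_nonneg
        (div_nonneg (mul_nonneg hϑ0 (ha0 m)) hεn.le) fun k _ => ?_
      rw [le_div_iff₀ hεn, norm_mul, mul_assoc]
      have h2 := hW k n
      calc ‖PowerSeries.coeff k f‖ * (‖PowerSeries.coeff n (W ^ k - (PowerSeries.X ^ q) ^ k)‖ * ε ^ n)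
          ≤ ‖PowerSeries.coeff k f‖ * (ϑ * (ε ^ q) ^ k) :=
            mul_le_mul_of_nonneg_left h2 (norm_nonneg _)
        _ = ϑ * a k := by simp only [ha]; ring
        _ ≤ ϑ * a m := mul_le_mul_of_nonneg_left (hm k) hϑ0
    rwa [le_div_iff₀ hεn] at h1
  have hfm : PowerSeries.coeff m f = PowerSeries.coeff n (cmp f W) - R := by rw [hsum]; ring
  have hle : a m ≤ max C' (ϑ * a m) := by
    have h3 := norm_sub_le_max_ultra (PowerSeries.coeff n (cmp f W)) R
    have h7 : a m ≤ max ‖PowerSeries.coeff n (cmp f W)‖ ‖R‖ * ε ^ n := by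
      rw [hamn, hfm]
      exact mul_le_mul_of_nonneg_right h3 hεn.le
    rcases le_total ‖PowerSeries.coeff n (cmp f W)‖ ‖R‖ with h4 | h4
    · rw [max_eq_right h4] at h7
      exact le_max_of_le_right (h7.trans hRb)
    · rw [max_eq_left h4] at h7
      exact le_max_of_le_left (h7.trans (hcmp n))
  rcases le_max_iff.1 hle with h5 | h5
  · exact h5
  · have : a m = 0 := by
      have h6 := ha0 m
      nlinarith
    rw [this]
    exact hC'

end gauss

section xi

variable {p : ℕ} [hp : Fact p.Prime] {K : Type*} [NontriviallyNormedField K] [IsUltrametricDist K]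
  [CompleteSpace K] [CharP K p] [PerfectRing K p]

lemma TowerData.mulSeries_Fj {h d : ℕ} (D : TowerData p K h d) (j : ℕ) :
    mulSeries (D.Fj j) p = cmp (D.Vj j) (PowerSeries.X ^ p ^ h) := by
  have hq : p ^ h ≠ 0 := pow_ne_zero _ hp.out.ne_zero
  show mulSeries (D.F.map (fr p (j * h))) p = _
  rw [mulSeries_map, D.V_p, map_cmp _ (constantCoeff_X_pow hq)]
  simp [TowerData.Vj]

lemma X_pow_eq_cmp (h d : ℕ) : (PowerSeries.X ^ p ^ (h + d) : PowerSeries K) =
    cmp (PowerSeries.X ^ p ^ d) (PowerSeries.X ^ p ^ h) := by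
  have hq : p ^ h ≠ 0 := pow_ne_zero _ hp.out.ne_zero
  rw [cmp_X_pow_left _ (constantCoeff_X_pow hq), ← pow_mul, pow_add]

lemma TowerData.W_close {h d : ℕ} (D : TowerData p K h d) (j n : ℕ) :
    ‖PowerSeries.coeff n (mulSeries (D.Fj j) p - PowerSeries.X ^ p ^ (h + d))‖ ≤ D.r j := by
  have hq : p ^ h ≠ 0 := pow_ne_zero _ hp.out.ne_zero
  rw [D.mulSeries_Fj, X_pow_eq_cmp, map_sub]
  by_cases hn : p ^ h ∣ n
  · obtain ⟨k, rfl⟩ := hn
    rw [coeff_cmp_X_pow hq, coeff_cmp_X_pow hq]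
    exact D.Vj_close j k
  · rw [coeff_cmp_X_pow_of_not_dvd hq _ hn, coeff_cmp_X_pow_of_not_dvd hq _ hn]
    simpa using D.r_nonneg j

namespace XiData

variable {h d : ℕ} {D : TowerData p K h d} (X : XiData D)

/-- `ξ^[j]`. -/
noncomputable def ξj (j : ℕ) : PowerSeries K := tw p (j * h) X.ξ

lemma ξj_int (j : ℕ) : IsInt (X.ξj j) := X.isInt.tw p _

lemma ξj_cc (j : ℕ) : PowerSeries.constantCoeff (X.ξj j) = 0 := constantCoeff_tw p X.cc _

lemma ξj_hom (j : ℕ) : IsFGHom (D.Fj j) (honda p h K) (X.ξj j) := by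
  have := X.hom.map (fr p (j * h))
  rwa [honda_map] at this

lemma norm_ξj_lt (j i : ℕ) : ‖PowerSeries.coeff i (X.ξj j)‖ < 1 := by
  rw [ξj, coeff_tw, norm_pow]
  exact pow_lt_one₀ (norm_nonneg _) (X.norm_lt i) (pow_ne_zero _ hp.out.ne_zero)

lemma cmp_ξj_mul (j : ℕ) : cmp (X.ξj j) (mulSeries (D.Fj j) p) = (X.ξj j) ^ p ^ h := by
  rw [(X.ξj_hom j).cmp_mulSeries, honda_mulSeries p h D.hh, cmp_X_pow_left _ (X.ξj_cc j)]

/-- The first Gauss estimate: `G_j(q s) ≥ q_h G_j(s)` for `s` small. -/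
theorem gauss_A (j : ℕ) {ε C : ℝ} (hε0 : 0 < ε) (hε1 : ε < 1) (hr : D.r j < ε ^ p ^ (h + d))
    (hC : ∀ i, ‖PowerSeries.coeff i (X.ξj j)‖ * ε ^ i ≤ C) (i : ℕ) :
    ‖PowerSeries.coeff i (X.ξj j)‖ * (ε ^ p ^ (h + d)) ^ i ≤ C ^ p ^ h := by
  set q := p ^ (h + d) with hq
  have hq0 : q ≠ 0 := pow_ne_zero _ hp.out.ne_zero
  have hβ : 0 < ε ^ q := pow_pos hε0 _
  set ϑ := D.r j / ε ^ q with hϑ
  have hϑ0 : 0 ≤ ϑ := div_nonneg (D.r_nonneg j) hβ.le
  have hϑ1 : ϑ < 1 := (div_lt_one hβ).2 hr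
  have hϑβ : ϑ * ε ^ q = D.r j := div_mul_cancel₀ _ hβ.ne'
  have hWY : IsB ε (ϑ * ε ^ q) (σ := Unit) (mulSeries (D.Fj j) p - PowerSeries.X ^ q) := by
    rw [isB_unit_iff, hϑβ]
    intro n
    calc _ ≤ D.r j * 1 := mul_le_mul (D.W_close j n) (pow_le_one₀ hε0.le hε1.le) (by positivity) (D.r_nonneg j)
      _ = D.r j := mul_one _
  have hY : IsB ε (ε ^ q) (σ := Unit) (PowerSeries.X ^ q : PowerSeries K) := by
    rw [isB_unit_iff]
    intro n
    rw [PowerSeries.coeff_X_pow]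
    split_ifs with hn
    · rw [hn]; simp
    · simpa using hβ.le
  have hW : IsB ε (ε ^ q) (σ := Unit) (mulSeries (D.Fj j) p) := by
    have e : mulSeries (D.Fj j) p = PowerSeries.X ^ q + (mulSeries (D.Fj j) p - PowerSeries.X ^ q) := by
      ring
    rw [e]
    refine hY.add (hWY.mono ?_) hε0.le
    rw [hϑβ]
    exact hr.le
  have hB := isB_pow_sub hε0.le hϑ0 hW hY hWY
  refine gauss_transfer (X.ξj_int j) (constantCoeff_mulSeries _ _) hq0 hε0 hε1 hϑ0 hϑ1
    (fun k n => isB_unit_iff.1 (hB k) n) (fun n => ?_) i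
  rw [X.cmp_ξj_mul j]
  exact isB_unit_iff.1 ((isB_unit_iff.2 hC).pow hε0.le (p ^ h)) n

end XiData

/-! ### The law close to addition -/

lemma isB_self_of_cc {σ : Type*} [Fintype σ] {A : MvPowerSeries σ K} (hA : IsB (1 : ℝ) 1 A)
    (h0 : MvPowerSeries.constantCoeff A = 0) {ε : ℝ} (hε0 : 0 ≤ ε) (hε1 : ε ≤ 1) : IsB ε ε A := by
  classical
  intro γ
  by_cases hγ : γ = 0
  · subst hγ
    have : MvPowerSeries.coeff (0 : σ →₀ ℕ) A = 0 := h0
    rw [this]
    simpa using hε0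
  · have h1 : Finsupp.degree γ ≠ 0 := fun h => hγ ((Finsupp.degree_eq_zero_iff γ).1 h)
    have h2 : ‖MvPowerSeries.coeff γ A‖ ≤ 1 := by simpa using hA γ
    calc _ ≤ 1 * ε := mul_le_mul h2 (pow_le_of_le_one hε0 hε1 h1) (by positivity) zero_le_one
      _ = ε := one_mul _

lemma isB_fgRem {G : FormalGroup K} (hG : IsIntLaw G) : IsB (1 : ℝ) 1 (fgRem G) := by
  classical
  intro γ
  have h1 := hG (γ + (Finsupp.single 0 1 + Finsupp.single 1 1))
  simp only [one_pow, mul_one] at h1 ⊢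
  have hd : Finsupp.degree (γ + (Finsupp.single (0 : Fin 2) 1 + Finsupp.single 1 1)) ≠ 1 := by
    rw [map_add, map_add, Finsupp.degree_single, Finsupp.degree_single]
    omega
  have hne : ∀ i : Fin 2, γ + (Finsupp.single (0 : Fin 2) 1 + Finsupp.single 1 1) ≠ Finsupp.single i 1 := by
    intro i h
    apply hd
    rw [h, Finsupp.degree_single]
  have h2 : MvPowerSeries.coeff (γ + (Finsupp.single 0 1 + Finsupp.single 1 1)) G.toPowerSeries =
      MvPowerSeries.coeff γ (fgRem G) := by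
    rw [fg_eq_rem G, map_add, map_add, MvPowerSeries.coeff_X, MvPowerSeries.coeff_X, if_neg (hne 0),
      if_neg (hne 1), zero_add, zero_add, mul_comm,
      show (MvPowerSeries.X 0 * MvPowerSeries.X 1 : MvPowerSeries (Fin 2) K) =
        MvPowerSeries.monomial (Finsupp.single 0 1 + Finsupp.single 1 1) 1 by
          rw [MvPowerSeries.X, MvPowerSeries.X, MvPowerSeries.monomial_mul_monomial, one_mul],
      MvPowerSeries.coeff_add_mul_monomial, mul_one]
  rwa [h2] at h1

/-- The series `X₀ + X₁`. -/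
noncomputable abbrev uu (K : Type*) [CommRing K] : MvPowerSeries (Fin 2) K :=
  MvPowerSeries.X 0 + MvPowerSeries.X 1

lemma cc_uu : MvPowerSeries.constantCoeff (uu K) = 0 := by simp

lemma isB_uu {ε : ℝ} (hε : 0 ≤ ε) : IsB ε ε (uu K) :=
  (isB_X ε hε 0).add (isB_X ε hε 1) hε

lemma hasSubst_uu : PowerSeries.HasSubst (uu K) :=
  PowerSeries.HasSubst.of_constantCoeff_zero cc_uu

lemma coeff_law_sub_low (G : FormalGroup K) (γ : Fin 2 →₀ ℕ) (hγ : Finsupp.degree γ < 2) :
    MvPowerSeries.coeff γ (G.toPowerSeries - uu K) = 0 := by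
  classical
  have hdeg : Finsupp.degree γ = γ 0 + γ 1 := by
    rw [degree_eq_sum]; simp
  have hγ' : γ = Finsupp.single 0 (γ 0) + Finsupp.single 1 (γ 1) := by
    ext i; fin_cases i <;> simp
  by_cases h0 : γ 0 = 0
  · have e : γ = Finsupp.single 1 (γ 1) := by rw [hγ']; simp [h0]
    rw [e, map_sub, coeff_single_one, map_add, MvPowerSeries.coeff_X, MvPowerSeries.coeff_X]
    have h1 : γ 1 < 2 := by omega
    by_cases h2 : γ 1 = 1
    · simp [h2, Finsupp.single_eq_single_iff]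
    · have h3 : γ 1 = 0 := by omega
      have hz : ∀ i : Fin 2, (0 : Fin 2 →₀ ℕ) ≠ Finsupp.single i 1 := fun i =>
        (Finsupp.single_ne_zero.2 one_ne_zero).symm
      simp [h3, hz]
  · have h1 : γ 1 = 0 := by omega
    have h2 : γ 0 = 1 := by omega
    have e : γ = Finsupp.single 0 1 := by rw [hγ']; simp [h1, h2]
    rw [e, map_sub, coeff_single_zero, map_add, MvPowerSeries.coeff_X, MvPowerSeries.coeff_X]
    simp [Finsupp.single_eq_single_iff]

lemma coeff_uu_of_two_le (γ : Fin 2 →₀ ℕ) (hγ : 2 ≤ Finsupp.degree γ) :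
    MvPowerSeries.coeff γ (uu K) = 0 := by
  classical
  have hne : ∀ i : Fin 2, γ ≠ Finsupp.single i 1 := by
    intro i h
    rw [h, Finsupp.degree_single] at hγ
    omega
  rw [map_add, MvPowerSeries.coeff_X, MvPowerSeries.coeff_X, if_neg (hne 0), if_neg (hne 1), add_zero]

/-- A law whose coefficients are small in degrees `2 ≤ · < q` is close to `X₀ + X₁` at radius `ε`. -/
lemma isB_law_sub_low {G : FormalGroup K} (hG : IsIntLaw G) {q : ℕ} {δ ε : ℝ} (hδ : 0 ≤ δ)
    (hε0 : 0 ≤ ε) (hε1 : ε ≤ 1) (hδε : δ ≤ ε ^ q)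
    (hlow : ∀ γ, 2 ≤ Finsupp.degree γ → Finsupp.degree γ < q → ‖MvPowerSeries.coeff γ G.toPowerSeries‖ ≤ δ) :
    IsB ε (ε ^ q) (G.toPowerSeries - uu K) := by
  classical
  intro γ
  have hint : ‖MvPowerSeries.coeff γ (G.toPowerSeries - uu K)‖ ≤ 1 := by
    have := (hG.sub (isB_uu (K := K) zero_le_one) zero_le_one) γ
    simpa using this
  have hq0 : 0 ≤ ε ^ q := pow_nonneg hε0 _
  rcases lt_or_ge (Finsupp.degree γ) 2 with h2 | h2
  · rw [coeff_law_sub_low G γ h2]
    simpa using hq0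
  rcases lt_or_ge (Finsupp.degree γ) q with h3 | h3
  · rw [map_sub, coeff_uu_of_two_le γ h2, sub_zero]
    calc _ ≤ δ * 1 := mul_le_mul (hlow γ h2 h3) (pow_le_one₀ hε0 hε1) (by positivity) hδ
      _ ≤ ε ^ q := by rw [mul_one]; exact hδε
  · calc _ ≤ 1 * ε ^ q := mul_le_mul hint (pow_le_pow_of_le_one hε0 hε1 h3) (by positivity) zero_le_one
      _ = ε ^ q := one_mul _

lemma isB_fgAdd' {G : FormalGroup K} {ε η C : ℝ} (hε : 0 < ε) (hη : 0 ≤ η)
    (hG : IsB η C G.toPowerSeries) {a b : MvPowerSeries (Fin 2) K} (ha : IsB ε η a) (hb : IsB ε η b)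
    (ha0 : MvPowerSeries.constantCoeff a = 0) (hb0 : MvPowerSeries.constantCoeff b = 0) :
    IsB ε C (fgAdd G a b) := by
  refine IsB.subst hε hη hG ?_ ?_
  · intro i; fin_cases i
    · exact ha0
    · exact hb0
  · intro i; fin_cases i
    · exact ha
    · exact hb

lemma isB_psubst' {f : PowerSeries K} {g : MvPowerSeries (Fin 2) K} {ε η C : ℝ} (hε : 0 < ε) (hη : 0 ≤ η)
    (hf : IsB η C (σ := Unit) f) (hg : IsB ε η g) (hg0 : MvPowerSeries.constantCoeff g = 0) :
    IsB ε C (PowerSeries.subst g f) := by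
  rw [psubst_eq]
  exact IsB.subst hε hη hf (fun _ => hg0) (fun _ => hg)

/-- `X₀ +_G X₁ = (X₀ + X₁) +_G e` with `e` small. -/
theorem exists_law_e {G : FormalGroup K} (hG : IsIntLaw G) {q : ℕ} {δ ε : ℝ} (hδ : 0 ≤ δ)
    (hε0 : 0 < ε) (hε1 : ε ≤ 1) (hδε : δ ≤ ε ^ q)
    (hlow : ∀ γ, 2 ≤ Finsupp.degree γ → Finsupp.degree γ < q → ‖MvPowerSeries.coeff γ G.toPowerSeries‖ ≤ δ) :
    ∃ e : MvPowerSeries (Fin 2) K, MvPowerSeries.constantCoeff e = 0 ∧
      fgAdd G (uu K) e = G.toPowerSeries ∧ IsB ε (ε ^ q) e := by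
  classical
  have hu := hasSubst_uu (K := K)
  have hnu := hasSubst_fgNeg G hu
  have ha := hasSubst_law G
  have hG0 := G.zero_constantCoeff
  have hinv := isInt_fgInv hG
  have hinv0 : PowerSeries.constantCoeff (fgInv G) = 0 := constantCoeff_fgInv G
  have hnu0 : MvPowerSeries.constantCoeff (fgNeg G (uu K)) = 0 :=
    PowerSeries.constantCoeff_subst_eq_zero cc_uu _ hinv0
  set e := fgAdd G (fgNeg G (uu K)) G.toPowerSeries with he
  have he0 : MvPowerSeries.constantCoeff e = 0 := constantCoeff_fgAdd_of G hnu0 hG0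
  have hes : PowerSeries.HasSubst e := PowerSeries.HasSubst.of_constantCoeff_zero he0
  have heq : fgAdd G (uu K) e = G.toPowerSeries := by
    rw [he, ← fgAdd_assoc G hu hnu ha, fgAdd_fgNeg G hu, zero_fgAdd G ha]
  refine ⟨e, he0, heq, ?_⟩
  have hSelf : IsB ε ε G.toPowerSeries := isB_self_of_cc hG hG0 hε0.le hε1
  have hInv' : IsB ε ε (σ := Unit) (fgInv G) := isB_self_of_cc hinv.isB hinv0 hε0.le hε1
  have hnuB : IsB ε ε (fgNeg G (uu K)) := isB_psubst' hε0 hε0.le hInv' (isB_uu hε0.le) cc_uu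
  have hinit : IsB ε ε e := isB_fgAdd' hε0 hε0.le hSelf hnuB hSelf hnu0 hG0
  have hremB : IsB ε 1 ((fgRem G).subst ![uu K, e]) := by
    have h1 : IsB ε 1 (fgRem G) := (isB_fgRem hG).shrink hε0.le hε1
    refine IsB.subst hε0 hε0.le h1 ?_ ?_
    · intro i; fin_cases i
      · exact cc_uu
      · exact he0
    · intro i; fin_cases i
      · exact isB_uu hε0.le
      · exact hinit
  have hform : e = (G.toPowerSeries - uu K) - uu K * e * (fgRem G).subst ![uu K, e] := by
    have := fgAdd_eq G hu hes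
    rw [heq] at this
    rw [this]; ring
  have hmain := isB_law_sub_low hG hδ hε0.le hε1 hδε hlow
  have hq0 : 0 ≤ ε ^ q := pow_nonneg hε0.le _
  have key : ∀ k : ℕ, IsB ε (max (ε ^ q) (ε ^ (k + 1))) e := by
    intro k
    induction k with
    | zero => simpa using hinit.mono (le_max_right _ _)
    | succ k ih =>
      rw [hform]
      have h1 := ((isB_uu hε0.le).mul ih hε0.le).mul hremB hε0.le
      have h2 : ε * max (ε ^ q) (ε ^ (k + 1)) * 1 ≤ max (ε ^ q) (ε ^ (k + 1 + 1)) := by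
        rw [mul_one]
        rcases le_total (ε ^ q) (ε ^ (k + 1)) with h3 | h3
        · rw [max_eq_right h3]
          exact le_max_of_le_right (by rw [pow_succ ε (k + 1), mul_comm])
        · rw [max_eq_left h3]
          exact le_max_of_le_left (mul_le_of_le_one_left hq0 hε1)
      exact (hmain.mono (le_max_left _ _)).sub (h1.mono h2) hε0.le
  have := key q
  rwa [max_eq_left (pow_le_pow_of_le_one hε0.le hε1 (Nat.le_succ q))] at this

/-! ### Coefficient extraction -/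

lemma coeff_psubst_X_i (f : PowerSeries K) (i : Fin 2) (e : Fin 2 →₀ ℕ)
    (he : ∀ n, e ≠ Finsupp.single i n) :
    MvPowerSeries.coeff e (PowerSeries.subst (MvPowerSeries.X i : MvPowerSeries (Fin 2) K) f) = 0 := by
  classical
  rw [PowerSeries.coeff_subst (hasSubst_X_i i)]
  refine finsum_eq_zero_of_forall_eq_zero fun n => ?_
  rw [MvPowerSeries.coeff_X_pow, if_neg (he n), smul_zero]

lemma coeff_uu_pow_of_ne (n : ℕ) (e : Fin 2 →₀ ℕ) (he : Finsupp.degree e ≠ n) :
    MvPowerSeries.coeff e ((uu K) ^ n) = 0 := by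
  classical
  rw [uu, add_pow, map_sum]
  refine Finset.sum_eq_zero fun k hk => ?_
  rw [← map_natCast (MvPowerSeries.C (σ := Fin 2) (R := K)), MvPowerSeries.coeff_mul_C,
    coeff_X_pow_mul_X_pow, if_neg, zero_mul]
  intro h
  apply he
  rw [h, map_add, Finsupp.degree_single, Finsupp.degree_single]
  have := Finset.mem_range.1 hk
  omega

/-- The coefficient of `X₀^Q X₁^(Q(t-1))` in `f(X₀ + X₁)`. -/
lemma coeff_psubst_uu (f : PowerSeries K) {Q t : ℕ} (i : ℕ) (hQ : Q = p ^ i) (ht : 1 ≤ t) :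
    MvPowerSeries.coeff (Finsupp.single 0 Q + Finsupp.single 1 (Q * (t - 1)))
      (PowerSeries.subst (uu K) f) = PowerSeries.coeff (Q * t) f * (t : K) := by
  classical
  have hQ0 : Q ≠ 0 := by rw [hQ]; exact pow_ne_zero _ hp.out.ne_zero
  have hdeg : Finsupp.degree (Finsupp.single (0 : Fin 2) Q + Finsupp.single 1 (Q * (t - 1))) = Q * t := by
    rw [map_add, Finsupp.degree_single, Finsupp.degree_single]
    obtain ⟨t', rfl⟩ : ∃ t', t = t' + 1 := ⟨t - 1, by omega⟩
    simp only [Nat.add_sub_cancel]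
    ring
  rw [PowerSeries.coeff_subst hasSubst_uu, finsum_eq_single _ (Q * t)]
  · rw [smul_eq_mul]
    congr 1
    have : CharP (MvPowerSeries (Fin 2) K) p :=
      charP_of_injective_ringHom (f := MvPowerSeries.C (σ := Fin 2) (R := K))
        (fun _ _ h => by simpa using congrArg MvPowerSeries.constantCoeff h) p
    rw [pow_mul, hQ, uu, add_pow_char_pow, ← hQ]
    exact coeff_add_pow_X Q t hQ0 ht
  · intro n hn
    rw [coeff_uu_pow_of_ne n _ (by rw [hdeg]; exact fun h => hn h.symm), smul_zero]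

lemma norm_natCast_eq_one_of_not_dvd {t : ℕ} (ht : ¬ p ∣ t) : ‖(t : K)‖ = 1 := by
  have hc : Nat.Coprime t p := ((Nat.Prime.coprime_iff_not_dvd hp.out).2 ht).symm
  obtain ⟨a, b, hab⟩ := Nat.isCoprime_iff_coprime.2 hc
  have h2 : (a : K) * (t : K) = 1 := by
    have := congrArg (Int.cast : ℤ → K) hab
    push_cast at this
    rw [CharP.cast_eq_zero K p, mul_zero, add_zero] at this
    exact this
  have h3 : ‖(a : K)‖ ≤ 1 := IsUltrametricDist.norm_intCast_le_one K a
  have h4 : ‖(t : K)‖ ≤ 1 := IsUltrametricDist.norm_natCast_le_one K t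
  have h5 : ‖(a : K)‖ * ‖(t : K)‖ = 1 := by rw [← norm_mul, h2, norm_one]
  refine le_antisymm h4 ?_
  calc (1 : ℝ) = ‖(a : K)‖ * ‖(t : K)‖ := h5.symm
    _ ≤ 1 * ‖(t : K)‖ := mul_le_mul_of_nonneg_right h3 (norm_nonneg _)
    _ = ‖(t : K)‖ := one_mul _

/-- `G(a, b) = a + b + S(a, b)` with `S = G - X₀ - X₁`. -/
lemma fgAdd_eq_S (G : FormalGroup K) {a b : MvPowerSeries (Fin 2) K} (ha : PowerSeries.HasSubst a)
    (hb : PowerSeries.HasSubst b) :
    fgAdd G a b = a + b + (G.toPowerSeries - uu K).subst ![a, b] := by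
  have hab := hasSubst_pair ha hb
  rw [uu, MvPowerSeries.subst_sub hab, MvPowerSeries.subst_add hab, MvPowerSeries.subst_X hab,
    MvPowerSeries.subst_X hab]
  simp

namespace XiData

variable {h d : ℕ} {D : TowerData p K h d} (X : XiData D)

/-- The second Gauss estimate: outside `p`-powers the terms are at most `C^(p^h)`. -/
theorem gauss_B (j : ℕ) {ε C : ℝ} (hε0 : 0 < ε) (hε1 : ε < 1) (hr : D.r j < ε ^ p ^ (h + d))
    (hC0 : 0 ≤ C) (hC1 : C ≤ 1)
    (hC : ∀ i, ‖PowerSeries.coeff i (X.ξj j)‖ * ε ^ i ≤ C) {m : ℕ} (hm : ∀ k, m ≠ p ^ k) :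
    ‖PowerSeries.coeff m (X.ξj j)‖ * ε ^ m ≤ C ^ p ^ h := by
  classical
  have hh := D.hh
  have hp1 := hp.out.one_lt
  rcases Nat.eq_zero_or_pos m with rfl | hm0
  · rw [PowerSeries.coeff_zero_eq_constantCoeff_apply, X.ξj_cc j]
    simpa using pow_nonneg hC0 _
  set f := X.ξj j with hf
  set G := D.Fj j with hG
  set q := p ^ (h + d) with hq
  have hGint : IsIntLaw G := D.Fj_int j
  -- the law at level `j` is close to addition
  have hlow : ∀ γ, 2 ≤ Finsupp.degree γ → Finsupp.degree γ < q →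
      ‖MvPowerSeries.coeff γ G.toPowerSeries‖ ≤ D.r j := by
    intro γ h2 h3
    rw [hG, TowerData.Fj, coeff_twL, norm_pow]
    refine pow_le_pow_left₀ (norm_nonneg _) ?_ _
    have := D.F_close γ
    rwa [D.Γ_low γ h2 h3, sub_zero] at this
  obtain ⟨e, he0, heq, heB⟩ := exists_law_e hGint (D.r_nonneg j) hε0 hε1.le hr.le hlow
  have hu := hasSubst_uu (K := K)
  have hes : PowerSeries.HasSubst e := PowerSeries.HasSubst.of_constantCoeff_zero he0
  have hhom := X.ξj_hom j
  -- the homomorphism relation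
  have hX0 := hasSubst_X_i (R := K) (0 : Fin 2)
  have hX1 := hasSubst_X_i (R := K) (1 : Fin 2)
  have h1 : fgAdd (honda p h K) (PowerSeries.subst (uu K) f) (PowerSeries.subst e f) =
      fgAdd (honda p h K) (PowerSeries.subst (MvPowerSeries.X 0 : MvPowerSeries (Fin 2) K) f)
        (PowerSeries.subst (MvPowerSeries.X 1 : MvPowerSeries (Fin 2) K) f) := by
    rw [← hhom.apply hu hes, heq, ← hhom.apply hX0 hX1, fgAdd_X_X]
  set x := PowerSeries.subst (uu K) f with hx
  set y := PowerSeries.subst e f with hy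
  set x' := PowerSeries.subst (MvPowerSeries.X 0 : MvPowerSeries (Fin 2) K) f with hx'
  set y' := PowerSeries.subst (MvPowerSeries.X 1 : MvPowerSeries (Fin 2) K) f with hy'
  have hfB : IsB ε C (σ := Unit) f := isB_unit_iff.2 hC
  have hqq : 0 ≤ ε ^ q := (pow_pos hε0 _).le
  have hfB' : IsB (ε ^ q) (C ^ p ^ h) (σ := Unit) f := isB_unit_iff.2 (X.gauss_A j hε0 hε1 hr hC)
  have hxB : IsB ε C x := isB_psubst' hε0 hε0.le hfB (isB_uu hε0.le) cc_uu
  have hyB : IsB ε (C ^ p ^ h) y := isB_psubst' hε0 hqq hfB' heB he0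
  have hx'B : IsB ε C x' := isB_psubst' hε0 hε0.le hfB (isB_X ε hε0.le 0) (by simp)
  have hy'B : IsB ε C y' := isB_psubst' hε0 hε0.le hfB (isB_X ε hε0.le 1) (by simp)
  have cc_of : ∀ g : MvPowerSeries (Fin 2) K, MvPowerSeries.constantCoeff g = 0 →
      MvPowerSeries.constantCoeff (PowerSeries.subst g f) = 0 := fun g hg =>
    PowerSeries.constantCoeff_subst_eq_zero hg _ (X.ξj_cc j)
  have hx0 : MvPowerSeries.constantCoeff x = 0 := cc_of _ cc_uu
  have hy0 : MvPowerSeries.constantCoeff y = 0 := cc_of _ he0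
  have hx'0 : MvPowerSeries.constantCoeff x' = 0 := cc_of _ (by simp)
  have hy'0 : MvPowerSeries.constantCoeff y' = 0 := cc_of _ (by simp)
  have hxs := PowerSeries.HasSubst.of_constantCoeff_zero hx0
  have hys := PowerSeries.HasSubst.of_constantCoeff_zero hy0
  have hx's := PowerSeries.HasSubst.of_constantCoeff_zero hx'0
  have hy's := PowerSeries.HasSubst.of_constantCoeff_zero hy'0
  -- the Honda law is additive up to degree `p^h`
  have hHint : IsIntLaw (honda p h K) := isIntLaw_honda h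
  have hS : IsB C (C ^ p ^ h) ((honda p h K).toPowerSeries - uu K) :=
    isB_law_sub_low hHint le_rfl hC0 hC1 (pow_nonneg hC0 _) (fun γ h2 h3 => by
      rw [honda_low h hh γ h2 h3, norm_zero])
  have hCp : C ^ p ^ h ≤ C := pow_le_of_le_one hC0 hC1 (pow_ne_zero _ hp.out.ne_zero)
  have hSb : ∀ a b : MvPowerSeries (Fin 2) K, IsB ε C a → IsB ε C b →
      MvPowerSeries.constantCoeff a = 0 → MvPowerSeries.constantCoeff b = 0 →
      IsB ε (C ^ p ^ h) (((honda p h K).toPowerSeries - uu K).subst ![a, b]) := by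
    intro a b ha hb ha0 hb0
    refine IsB.subst hε0 hC0 hS ?_ ?_
    · intro i; fin_cases i
      · exact ha0
      · exact hb0
    · intro i; fin_cases i
      · exact ha
      · exact hb
  have hA : x - x' - y' = ((honda p h K).toPowerSeries - uu K).subst ![x', y'] -
      ((honda p h K).toPowerSeries - uu K).subst ![x, y] - y := by
    have := h1
    rw [fgAdd_eq_S _ hxs hys, fgAdd_eq_S _ hx's hy's] at this
    linear_combination this
  have hAB : IsB ε (C ^ p ^ h) (x - x' - y') := by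
    rw [hA]
    exact ((hSb _ _ hx'B hy'B hx'0 hy'0).sub (hSb _ _ hxB (hyB.mono hCp) hx0 hy0) hε0.le).sub hyB hε0.le
  -- the extraction
  set v := m.factorization p with hv
  set Q := p ^ v with hQ
  set t := m / Q with ht
  have hqt : Q * t = m := Nat.ordProj_mul_ordCompl_eq_self m p
  have htp : ¬ p ∣ t := Nat.not_dvd_ordCompl hp.out hm0.ne'
  have hQ0 : Q ≠ 0 := pow_ne_zero _ hp.out.ne_zero
  have ht0 : t ≠ 0 := by
    intro h0
    rw [h0, mul_zero] at hqt
    exact hm0.ne hqt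
  have ht1 : t ≠ 1 := by
    intro h1
    rw [h1, mul_one] at hqt
    exact hm v hqt.symm
  have ht2 : 2 ≤ t := by
    clear_value t
    omega
  set e₀ : Fin 2 →₀ ℕ := Finsupp.single 0 Q + Finsupp.single 1 (Q * (t - 1)) with he₀
  have hedeg : Finsupp.degree e₀ = m := by
    rw [he₀, map_add, Finsupp.degree_single, Finsupp.degree_single, ← hqt]
    obtain ⟨t', ht'⟩ : ∃ t', t = t' + 1 := ⟨t - 1, by omega⟩
    rw [ht']
    simp only [Nat.add_sub_cancel]
    ring
  have he00 : e₀ 0 = Q := by simp [he₀]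
  have he01 : e₀ 1 = Q * (t - 1) := by simp [he₀]
  have he01' : Q * (t - 1) ≠ 0 := Nat.mul_ne_zero hQ0 (by omega)
  have c0 : MvPowerSeries.coeff e₀ x' = 0 := by
    refine coeff_psubst_X_i f 0 e₀ fun n hn => ?_
    rw [hn, Finsupp.single_eq_of_ne (by decide)] at he01
    exact he01' he01.symm
  have c1 : MvPowerSeries.coeff e₀ y' = 0 := by
    refine coeff_psubst_X_i f 1 e₀ fun n hn => ?_
    rw [hn, Finsupp.single_eq_of_ne (by decide)] at he00
    exact hQ0 he00.symm
  have c2 : MvPowerSeries.coeff e₀ x = PowerSeries.coeff m f * (t : K) := by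
    rw [hx, he₀, coeff_psubst_uu f v hQ (by omega), hqt]
  have hb := hAB e₀
  rw [map_sub, map_sub, c0, c1, c2, sub_zero, sub_zero, norm_mul,
    norm_natCast_eq_one_of_not_dvd htp, mul_one, hedeg] at hb
  exact hb

end XiData

end xi

end Crest.Agent.LT
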