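/-
E2 (part D): the homomorphism `Θ`, Lemma N, and the nonvanishing of the digits. BLUEPRINT §E2.
-/
import Crest.Agent.Lib.LT.P3XiC
import Crest.Agent.Lib.LT.P3Lattice
import Crest.Agent.Lib.LT.P3Trop

set_option autoImplicit false
set_option linter.unusedSectionVars false
set_option linter.unusedVariables false
set_option linter.unnecessarySimpa false

namespace Crest.Agent.LT

open Filter Topology

open Crest.LubinTate

variable {p : ℕ} [hp : Fact p.Prime] {K : Type*} [NontriviallyNormedField K] [IsUltrametricDist K]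
  [CompleteSpace K] [CharP K p] [PerfectRing K p]

lemma norm_pw_lt (a : ℤ) {T : K} (hT : ‖T‖ < 1) : ‖pw p a T‖ < 1 := by
  by_cases h0 : T = 0
  · rw [h0, map_zero, norm_zero]; exact one_pos
  · rw [norm_pw_eq p a h0, Real.exp_lt_one_iff]
    have h1 := vl_pos h0 hT
    have h2 : (0 : ℝ) < p := by exact_mod_cast hp.out.pos
    have h3 : 0 < (p : ℝ) ^ a := zpow_pos h2 a
    have h4 := mul_pos h3 h1
    linarith

/-- Split off the terms outside the range of an injective map. -/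
lemma norm_tsum_sub_comp_le {ι ι' : Type*} {f : ι → K} (hf : Summable f) {e : ι' → ι}
    (he : Function.Injective e) {B : ℝ} (hB : 0 ≤ B) (hB' : ∀ i, i ∉ Set.range e → ‖f i‖ ≤ B) :
    ‖∑' i, f i - ∑' k, f (e k)‖ ≤ B := by
  classical
  set s := Set.range e with hs
  have h1 : ∑' k, f (e k) = ∑' i, s.indicator f i := by
    have h2 : ∀ k, f (e k) = s.indicator f (e k) := fun k => by
      rw [Set.indicator_of_mem (Set.mem_range_self k)]
    simp_rw [h2]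
    refine he.tsum_eq fun i hi => ?_
    by_contra h3
    exact hi (Set.indicator_of_notMem h3 f)
  have h3 : Summable (s.indicator f) := hf.indicator s
  have h4 : Summable (sᶜ.indicator f) := hf.indicator sᶜ
  have h5 : ∑' i, f i = ∑' i, s.indicator f i + ∑' i, sᶜ.indicator f i := by
    rw [← h3.tsum_add h4]
    refine tsum_congr fun i => ?_
    have := congrFun (Set.indicator_self_add_compl s f) i
    simpa using this.symm
  rw [h1, h5, add_sub_cancel_left]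
  refine IsUltrametricDist.norm_tsum_le_of_forall_le_of_nonneg hB fun i => ?_
  by_cases hi : i ∈ s
  · rw [Set.indicator_of_notMem (by simpa using hi), norm_zero]
    exact hB
  · rw [Set.indicator_of_mem (by simpa using hi)]
    exact hB' i hi

lemma summable_coeff_mul_pow (f : PowerSeries K) (hf : IsInt f) {x : K} (hx : ‖x‖ < 1) :
    Summable (fun i : ℕ => PowerSeries.coeff i f * x ^ i) := by
  apply NonarchimedeanAddGroup.summable_of_tendsto_cofinite_zero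
  rw [Nat.cofinite_eq_atTop, tendsto_zero_iff_norm_tendsto_zero]
  refine squeeze_zero (fun _ => norm_nonneg _) (fun i => ?_)
    (tendsto_pow_atTop_nhds_zero_of_lt_one (norm_nonneg x) hx)
  rw [norm_mul, norm_pow]
  calc _ ≤ 1 * ‖x‖ ^ i := mul_le_mul_of_nonneg_right (hf i) (by positivity)
    _ = _ := one_mul _

/-- A series with nonzero linear term has no small nonzero zeros. -/
lemma ev_ne_zero_of_small {f : PowerSeries K} (hf : IsInt f) (h0 : PowerSeries.constantCoeff f = 0)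
    {x : K} (hx0 : x ≠ 0) (hx1 : ‖x‖ < 1) (hx : ‖x‖ < ‖PowerSeries.coeff 1 f‖) : ev f x ≠ 0 := by
  classical
  intro hev
  rw [ev_eq_tsum] at hev
  have hs := summable_coeff_mul_pow f hf hx1
  rw [hs.tsum_eq_add_tsum_ite 1, pow_one] at hev
  have hb : ‖∑' i, if i = 1 then 0 else PowerSeries.coeff i f * x ^ i‖ ≤ ‖x‖ ^ 2 := by
    refine IsUltrametricDist.norm_tsum_le_of_forall_le_of_nonneg (by positivity) fun i => ?_
    split_ifs with h1
    · rw [norm_zero]; positivity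
    · rcases Nat.eq_zero_or_pos i with rfl | hi
      · rw [PowerSeries.coeff_zero_eq_constantCoeff_apply, h0, zero_mul, norm_zero]; positivity
      · rw [norm_mul, norm_pow]
        calc _ ≤ 1 * ‖x‖ ^ i := mul_le_mul_of_nonneg_right (hf i) (by positivity)
          _ = ‖x‖ ^ i := one_mul _
          _ ≤ _ := pow_le_pow_of_le_one (norm_nonneg _) hx1.le (by omega)
  have h3 : PowerSeries.coeff 1 f * x = - ∑' i, if i = 1 then 0 else PowerSeries.coeff i f * x ^ i :=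
    eq_neg_of_add_eq_zero_left hev
  have h4 : ‖PowerSeries.coeff 1 f‖ * ‖x‖ ≤ ‖x‖ ^ 2 := by
    rw [← norm_mul, h3, norm_neg]
    exact hb
  have hx' : 0 < ‖x‖ := norm_pos_iff.2 hx0
  nlinarith

namespace TowerData

variable {h d : ℕ} (D : TowerData p K h d)

/-- `ϖ₀` is surjective onto the open disc. -/
theorem exists_ϖ_eq [IsAlgClosed K] {a : K} (ha : ‖a‖ < 1) : ∃ T, ‖T‖ < 1 ∧ D.ϖ 0 T = a := by
  classical
  choose f hf using fun (j : ℕ) (a : {a : K // ‖a‖ < 1}) => D.exists_Vj_eq j a.2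
  let w' : ℕ → {a : K // ‖a‖ < 1} := fun i => Nat.rec ⟨a, ha⟩ (fun i b => ⟨f i b, (hf i b).1⟩) i
  have hw : D.IsTower (fun j => (w' j).1) := ⟨fun j => (w' j).2, fun j => (hf j (w' j)).2⟩
  obtain ⟨T, hT, -, hT1⟩ := hw.exists_limit
  exact ⟨T, hT1, (hw.eq_ϖ hT 0).symm⟩

lemma ϖ_zero (j : ℕ) : D.ϖ j 0 = 0 := by
  have h1 := map_zero (D.ϖHom j)
  exact congrArg Pts.val h1

end TowerData

namespace XiData

variable {h d : ℕ} {D : TowerData p K h d} (X : XiData D)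

lemma cmp_ξj_Vj (j : ℕ) : cmp (X.ξj j) (D.Vj j) = X.ξj (j + 1) := by
  have e := congrArg (PowerSeries.map (fr p (j * h))) X.cmpV
  rw [map_cmp _ D.V_hom.1] at e
  refine e.trans ?_
  show tw p (j * h) (tw p h X.ξ) = tw p ((j + 1) * h) X.ξ
  rw [tw_tw]
  congr 1
  ring

/-- The map `Θ`. -/
noncomputable def Θ (T : K) : K := ev X.ξ (D.ϖ 0 T)

lemma ξj_zero : X.ξj 0 = X.ξ := by
  simp [ξj, tw_zero]

lemma ev_ξj_ϖ (j : ℕ) {T : K} (hT : ‖T‖ < 1) : ev (X.ξj j) (D.ϖ j T) = X.Θ T := by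
  induction j with
  | zero => rw [ξj_zero]; rfl
  | succ j ih =>
    rw [← X.cmp_ξj_Vj j, ev_cmp (X.ξj_int j) (D.Vj_int j) (D.Vj_cc j) (D.norm_ϖ_lt _ hT),
      D.ev_Vj_ϖ j hT, ih]

lemma norm_Θ_lt {T : K} (hT : ‖T‖ < 1) : ‖X.Θ T‖ < 1 :=
  norm_ev_lt_one X.isInt X.cc (D.norm_ϖ_lt 0 hT)

lemma Θ_zero : X.Θ 0 = 0 := by
  rw [Θ, D.ϖ_zero, ev_zero_of_cc X.cc]

/-- `Θ` is a homomorphism from `Γ` to the Honda law. -/
theorem Θ_ptAdd {T T' : K} (hT : ‖T‖ < 1) (hT' : ‖T'‖ < 1) :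
    X.Θ (ptAdd D.Γ T T') = ptAdd (honda p h K) (X.Θ T) (X.Θ T') := by
  have hs := norm_ptAdd_lt D.Γ_int hT hT'
  rw [← X.ev_ξj_ϖ 0 hs, ← X.ev_ξj_ϖ 0 hT, ← X.ev_ξj_ϖ 0 hT', D.ϖ_ptAdd 0 hT hT']
  exact ev_ptAdd (X.ξj_hom 0) (X.ξj_int 0) (D.Fj_int 0) (isIntLaw_honda h) (D.norm_ϖ_lt 0 hT)
    (D.norm_ϖ_lt 0 hT')

/-- `Θ(T^q) = Θ(T)^(q_h)`. -/
theorem Θ_pow {T : K} (hT : ‖T‖ < 1) : X.Θ (T ^ p ^ (h + d)) = (X.Θ T) ^ p ^ h := by
  set T₀ : Pts D.Γ := Pts.mk _ T hT with hT₀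
  have h1 : T ^ p ^ (h + d) = (p • T₀).val := (D.val_p_smul_Γ T₀).symm
  have h2 : D.ϖ 0 (p • T₀).val = ev (mulSeries (D.Fj 0) p) (D.ϖ 0 T) := by
    have h3 := congrArg Pts.val (map_nsmul (D.ϖHom 0) p T₀)
    rw [Pts.val_nsmul] at h3
    exact h3
  have hq : ‖T ^ p ^ (h + d)‖ < 1 := by
    rw [norm_pow]
    exact pow_lt_one₀ (norm_nonneg _) hT (pow_ne_zero _ hp.out.ne_zero)
  rw [← X.ev_ξj_ϖ 0 hq, h1, h2, ← ev_cmp (X.ξj_int 0) (isInt_mulSeries (D.Fj_int 0) p)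
    (constantCoeff_mulSeries _ _) (D.norm_ϖ_lt 0 hT), X.cmp_ξj_mul 0,
    ev_pow (X.ξj_int 0) (D.norm_ϖ_lt 0 hT), X.ev_ξj_ϖ 0 hT]

/-! ### Tails of the digits -/

lemma norm_c_iter (k : ℕ) (a : ℤ) : ‖X.c a‖ = ‖X.c (a + (d * k : ℕ))‖ ^ p ^ (k * h) := by
  induction k generalizing a with
  | zero => simp
  | succ k ih =>
    have e : a + ((d * (k + 1) : ℕ) : ℤ) = a + d + (d * k : ℕ) := by
      push_cast; ring
    rw [e, X.c_eq a, norm_pow, ih (a + d), ← pow_mul, ← pow_add]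
    congr 2
    ring

lemma exists_tail : ∃ μ : ℝ, 0 ≤ μ ∧ μ < 1 ∧ ∀ (j : ℕ) (a : ℤ), a < -((d * j : ℕ) : ℤ) → ‖X.c a‖ ≤ μ ^ j := by
  classical
  have hd := D.hd
  have hd0 : (0 : ℤ) < d := by exact_mod_cast hd
  obtain ⟨b₀, hb₀, hmax⟩ := Finset.exists_max_image (Finset.Ico (0 : ℤ) d) (fun b => ‖X.c b‖)
    ⟨0, Finset.mem_Ico.2 ⟨le_rfl, hd0⟩⟩
  refine ⟨‖X.c b₀‖, norm_nonneg _, X.norm_c_lt b₀, fun j a ha => ?_⟩
  set q := a / d with hq
  have e1 : a % d + d * q = a := Int.emod_add_mul_ediv a d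
  have e2 : 0 ≤ a % d := Int.emod_nonneg a hd0.ne'
  have e3 : a % d < d := Int.emod_lt_of_pos a hd0
  push_cast at ha
  have hqj : q < -(j : ℤ) := by
    by_contra hcon
    push Not at hcon
    have : (d : ℤ) * (-(j : ℤ)) ≤ d * q := mul_le_mul_of_nonneg_left hcon hd0.le
    nlinarith
  set k := (-q).toNat with hk
  have hkq : (k : ℤ) = -q := Int.toNat_of_nonneg (by omega)
  have hjk : j ≤ k := by
    have : (j : ℤ) < k := by rw [hkq]; omega
    omega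
  have hab : a + ((d * k : ℕ) : ℤ) = a % d := by
    push_cast
    rw [hkq]
    nlinarith
  rw [X.norm_c_iter k a, hab]
  have h1 : ‖X.c (a % d)‖ ≤ ‖X.c b₀‖ := hmax _ (Finset.mem_Ico.2 ⟨e2, e3⟩)
  have h2 : j ≤ p ^ (k * h) := by
    calc j ≤ k := hjk
      _ ≤ k * h := Nat.le_mul_of_pos_right _ D.hh
      _ ≤ p ^ (k * h) := (Nat.lt_pow_self hp.out.one_lt).le
  calc _ ≤ ‖X.c b₀‖ ^ p ^ (k * h) := pow_le_pow_left₀ (norm_nonneg _) h1 _
    _ ≤ _ := pow_le_pow_of_le_one (norm_nonneg _) (X.norm_c_lt b₀).le h2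

/-- The digit series converges. -/
theorem summable_digit {T : K} (hT : ‖T‖ < 1) : Summable (fun a : ℤ => X.c a * pw p a T) := by
  obtain ⟨μ, hμ0, hμ1, hμ⟩ := X.exists_tail
  have hd := D.hd
  apply NonarchimedeanAddGroup.summable_of_tendsto_cofinite_zero
  rw [tendsto_zero_iff_norm_tendsto_zero]
  refine tendsto_int_cofinite ?_ ?_
  · refine squeeze_zero (fun _ => norm_nonneg _) (g := fun k : ℕ => ‖T‖ ^ k) (fun k => ?_)
      (tendsto_pow_atTop_nhds_zero_of_lt_one (norm_nonneg T) hT)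
    rw [norm_mul, pw_nat, norm_pow]
    calc _ ≤ 1 * ‖T‖ ^ p ^ k := mul_le_mul_of_nonneg_right (X.norm_c_lt _).le (by positivity)
      _ = ‖T‖ ^ p ^ k := one_mul _
      _ ≤ _ := pow_le_pow_of_le_one (norm_nonneg _) hT.le (Nat.lt_pow_self hp.out.one_lt).le
  · rw [Metric.tendsto_atTop]
    intro δ hδ
    obtain ⟨J, hJ⟩ := exists_pow_lt_of_lt_one hδ hμ1
    refine ⟨d * J + 1, fun k hk => ?_⟩
    rw [Real.dist_eq, sub_zero, abs_of_nonneg (norm_nonneg _), norm_mul]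
    have h1 : -(k : ℤ) < -((d * J : ℕ) : ℤ) := by
      have : d * J < k := hk
      omega
    have h2 := hμ J _ h1
    calc _ ≤ μ ^ J * 1 := mul_le_mul h2 (norm_pw_lt _ hT).le (norm_nonneg _) (pow_nonneg hμ0 _)
      _ < δ := by rw [mul_one]; exact hJ

/-- Lemma N at level `j`. -/
theorem level_bound {T : K} (hT0 : T ≠ 0) (hT1 : ‖T‖ < 1) {M : ℝ} (hM0 : 0 ≤ M)
    (hM : ∀ a : ℤ, ‖X.c a‖ * ‖pw p a T‖ ≤ M) (j : ℕ) (hj : D.r j < ‖T‖ ^ p ^ (h + d)) {t : ℝ}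
    (ht0 : 0 ≤ t) (ht : ∀ a : ℤ, a < -((d * j : ℕ) : ℤ) → ‖X.c a‖ ≤ t) :
    ‖X.Θ T - ∑' a : ℤ, X.c a * pw p a T‖ ≤ max (D.r j) (max (max M (D.r j) ^ p ^ h) t) := by
  classical
  have hp0 : p ≠ 0 := hp.out.ne_zero
  have hp1 := hp.out.one_lt
  have hrj := D.r_nonneg j
  set τ := D.τ j T with hτ
  set ε := ‖τ‖ with hε
  set f := X.ξj j with hf
  have hτ0 : τ ≠ 0 := (pw_eq_zero_iff p _ T).not.2 hT0
  have hε0 : 0 < ε := norm_pos_iff.2 hτ0
  have hε1 : ε < 1 := D.norm_τ_lt j hT1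
  have hεT : ‖T‖ ≤ ε := by
    have h1 := D.τ_pow j T
    have h2 : ‖T‖ = ε ^ p ^ (d * j) := by rw [← h1, norm_pow]
    rw [h2]
    exact pow_le_of_le_one hε0.le hε1.le (pow_ne_zero _ hp0)
  have hrε : D.r j < ε ^ p ^ (h + d) := hj.trans_le (pow_le_pow_left₀ (norm_nonneg _) hεT _)
  set a : ℕ → ℝ := fun i => ‖PowerSeries.coeff i f‖ * ε ^ i with ha
  have hfint := X.ξj_int j
  have ha0 : ∀ i, 0 ≤ a i := fun i => mul_nonneg (norm_nonneg _) (pow_nonneg hε0.le _)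
  have hat : Tendsto a atTop (𝓝 0) := by
    refine squeeze_zero ha0 (g := fun i => ε ^ i) (fun i => ?_)
      (tendsto_pow_atTop_nhds_zero_of_lt_one hε0.le hε1)
    calc a i ≤ 1 * ε ^ i := mul_le_mul_of_nonneg_right (hfint i) (pow_nonneg hε0.le _)
      _ = _ := one_mul _
  obtain ⟨i₀, hi₀⟩ := exists_argmax_nat a ha0 hat
  set C := a i₀ with hC
  have hC0 : 0 ≤ C := ha0 i₀
  have hC1 : C < 1 := by
    calc C ≤ ‖PowerSeries.coeff i₀ f‖ * 1 :=
          mul_le_mul_of_nonneg_left (pow_le_one₀ hε0.le hε1.le) (norm_nonneg _)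
      _ < 1 := by rw [mul_one]; exact X.norm_ξj_lt j i₀
  have hGB : ∀ m : ℕ, (∀ k, m ≠ p ^ k) → a m ≤ C ^ p ^ h := fun m hm =>
    X.gauss_B j hε0 hε1 hrε hC0 hC1.le hi₀ hm
  -- indices
  set φ : ℕ → ℤ := fun n => (n : ℤ) - ((d * j : ℕ) : ℤ) with hφ
  have hφ1 : ∀ n, 0 ≤ φ n + ((d * j : ℕ) : ℤ) := fun n => by simp [hφ]
  have hsn : ∀ n, PowerSeries.coeff (p ^ n) f = X.s (φ n) j := by
    intro n
    rw [hf, ξj, coeff_tw, s]
    have : (φ n + ((d * j : ℕ) : ℤ)).toNat = n := by simp [hφ]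
    rw [this]
  have hτn : ∀ n, τ ^ p ^ n = pw p (φ n) T := by
    intro n
    rw [← pw_nat, hτ, TowerData.τ, ← pw_add]
    congr 2
  have hterm : ∀ n, PowerSeries.coeff (p ^ n) f * τ ^ p ^ n - X.c (φ n) * pw p (φ n) T =
      (X.s (φ n) j - X.c (φ n)) * pw p (φ n) T := by
    intro n
    rw [hsn, hτn]; ring
  have hsc : ∀ n, ‖X.s (φ n) j - X.c (φ n)‖ ≤ D.r j := fun n => by
    rw [norm_sub_rev]
    exact X.c_sub_s (hφ1 n)
  -- the maximal term is small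
  have hCM : C ≤ max M (D.r j) := by
    by_cases hpow : ∃ n, i₀ = p ^ n
    · obtain ⟨n, hn⟩ := hpow
      have h1 : C = ‖X.s (φ n) j‖ * ‖pw p (φ n) T‖ := by
        rw [hC, ha]
        simp only
        rw [hn, hsn, hε, ← norm_pow, hτn]
      rw [h1]
      have e : X.s (φ n) j = X.c (φ n) + (X.s (φ n) j - X.c (φ n)) := by ring
      rw [e]
      refine ((mul_le_mul_of_nonneg_right (IsUltrametricDist.norm_add_le_max _ _)
        (norm_nonneg _))).trans ?_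
      rcases le_total ‖X.c (φ n)‖ ‖X.s (φ n) j - X.c (φ n)‖ with h2 | h2
      · rw [max_eq_right h2]
        refine le_max_of_le_right ?_
        calc _ ≤ D.r j * 1 := mul_le_mul (hsc n) (norm_pw_lt _ hT1).le (norm_nonneg _) hrj
          _ = D.r j := mul_one _
      · rw [max_eq_left h2]
        exact le_max_of_le_left (hM _)
    · push Not at hpow
      have h1 := hGB i₀ hpow
      have h2 : C = 0 := by
        by_contra hne
        have hpos : 0 < C := lt_of_le_of_ne hC0 (Ne.symm hne)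
        have h3 : C ^ p ^ h < C := pow_lt_self_of_lt_one₀ hpos hC1 (by
          calc 1 < p := hp1
            _ = p ^ 1 := (pow_one p).symm
            _ ≤ p ^ h := Nat.pow_le_pow_right hp.out.pos D.hh)
        linarith
      rw [h2]
      exact le_max_of_le_left hM0
  have hM' : 0 ≤ max M (D.r j) := le_max_of_le_left hM0
  have hB1 : 0 ≤ max M (D.r j) ^ p ^ h := pow_nonneg hM' _
  have hCB : C ^ p ^ h ≤ max M (D.r j) ^ p ^ h := pow_le_pow_left₀ hC0 hCM _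
  -- the pieces
  have hτ1 : ‖τ‖ < 1 := hε1
  set P : ℕ → ℕ := fun n => p ^ n with hP
  have hPinj : Function.Injective P := Nat.pow_right_injective hp1
  have hφinj : Function.Injective φ := fun x y hxy => by
    simp only [hφ] at hxy
    omega
  have hsh := summable_coeff_mul_pow f hfint hτ1
  have hsg := X.summable_digit hT1
  have E1 : ‖∑' i, PowerSeries.coeff i f * τ ^ i -
      ∑' n, PowerSeries.coeff (P n) f * τ ^ (P n)‖ ≤ max M (D.r j) ^ p ^ h := by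
    refine norm_tsum_sub_comp_le hsh hPinj hB1 fun i hi => ?_
    have h1 : ∀ k, i ≠ p ^ k := fun k hk => hi ⟨k, hk.symm⟩
    have h2 := hGB i h1
    rw [norm_mul, norm_pow]
    exact h2.trans hCB
  have E2 : ‖∑' a : ℤ, X.c a * pw p a T - ∑' n, X.c (φ n) * pw p (φ n) T‖ ≤ t := by
    refine norm_tsum_sub_comp_le hsg hφinj ht0 fun b hb => ?_
    have h1 : b < -((d * j : ℕ) : ℤ) := by
      by_contra hcon
      push Not at hcon
      refine hb ⟨(b + ((d * j : ℕ) : ℤ)).toNat, ?_⟩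
      simp only [hφ]
      rw [Int.toNat_of_nonneg (by omega)]
      ring
    rw [norm_mul]
    calc _ ≤ t * 1 := mul_le_mul (ht b h1) (norm_pw_lt _ hT1).le (norm_nonneg _) ht0
      _ = t := mul_one _
  have E3 : ‖∑' n, PowerSeries.coeff (P n) f * τ ^ (P n) - ∑' n, X.c (φ n) * pw p (φ n) T‖ ≤ D.r j := by
    have hs1 : Summable fun n => PowerSeries.coeff (P n) f * τ ^ (P n) := hsh.comp_injective hPinj
    have hs2 : Summable fun n => X.c (φ n) * pw p (φ n) T := hsg.comp_injective hφinj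
    rw [← hs1.tsum_sub hs2]
    refine IsUltrametricDist.norm_tsum_le_of_forall_le_of_nonneg hrj fun n => ?_
    simp only [hP]
    rw [hterm, norm_mul]
    calc _ ≤ D.r j * 1 := mul_le_mul (hsc n) (norm_pw_lt _ hT1).le (norm_nonneg _) hrj
      _ = D.r j := mul_one _
  have E4 : ‖X.Θ T - ∑' i, PowerSeries.coeff i f * τ ^ i‖ ≤ D.r j := by
    rw [← ev_eq_tsum, ← X.ev_ξj_ϖ j hT1]
    exact (lip_ev hfint (D.norm_ϖ_lt j hT1) hτ1).trans (D.norm_ϖ_sub_τ j hT1)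
  have key : X.Θ T - ∑' a : ℤ, X.c a * pw p a T =
      (X.Θ T - ∑' i, PowerSeries.coeff i f * τ ^ i) +
      (∑' i, PowerSeries.coeff i f * τ ^ i - ∑' n, PowerSeries.coeff (P n) f * τ ^ (P n)) +
      (∑' n, PowerSeries.coeff (P n) f * τ ^ (P n) - ∑' n, X.c (φ n) * pw p (φ n) T) -
      (∑' a : ℤ, X.c a * pw p a T - ∑' n, X.c (φ n) * pw p (φ n) T) := by ring
  rw [key]
  refine (norm_sub_le_max_ultra _ _).trans (max_le ?_ ?_)
  · refine (IsUltrametricDist.norm_add_le_max _ _).trans (max_le ?_ ?_)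
    · refine (IsUltrametricDist.norm_add_le_max _ _).trans (max_le ?_ ?_)
      · exact E4.trans (le_max_left _ _)
      · exact E1.trans ((le_max_left _ _).trans (le_max_right _ _))
    · exact E3.trans (le_max_left _ _)
  · exact E2.trans ((le_max_right _ _).trans (le_max_right _ _))

/-- **Lemma N.** If all terms `c_a T^(p^a)` have norm at most `M`, then
`‖Θ T - ∑ c_a T^(p^a)‖ ≤ M^(p^h)`. -/
theorem norm_Θ_sub_le {T : K} (hT1 : ‖T‖ < 1) {M : ℝ} (hM0 : 0 ≤ M)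
    (hM : ∀ a : ℤ, ‖X.c a‖ * ‖pw p a T‖ ≤ M) :
    ‖X.Θ T - ∑' a : ℤ, X.c a * pw p a T‖ ≤ M ^ p ^ h := by
  by_cases hT0 : T = 0
  · subst hT0
    simp only [map_zero, mul_zero, tsum_zero, sub_zero, X.Θ_zero, norm_zero]
    positivity
  obtain ⟨μ, hμ0, hμ1, hμ⟩ := X.exists_tail
  have hr := D.tendsto_r
  have hT2 : 0 < ‖T‖ ^ p ^ (h + d) := pow_pos (norm_pos_iff.2 hT0) _
  have hev : ∀ᶠ j in atTop, D.r j < ‖T‖ ^ p ^ (h + d) := hr.eventually (gt_mem_nhds hT2)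
  have hlim : Tendsto (fun j : ℕ => max (D.r j) (max (max M (D.r j) ^ p ^ h) (μ ^ j))) atTop
      (𝓝 (max 0 (max (max M 0 ^ p ^ h) 0))) := by
    refine hr.max (Tendsto.max ?_ (tendsto_pow_atTop_nhds_zero_of_lt_one hμ0 hμ1))
    exact (tendsto_const_nhds.max hr).pow _
  have e : max 0 (max (max M 0 ^ p ^ h) 0) = M ^ p ^ h := by
    have h1 : 0 ≤ M ^ p ^ h := pow_nonneg hM0 _
    rw [max_eq_left hM0, max_eq_left h1, max_eq_right h1]
  rw [e] at hlim
  refine ge_of_tendsto hlim ?_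
  filter_upwards [hev] with j hj
  exact X.level_bound hT0 hT1 hM0 hM j hj (pow_nonneg hμ0 _) (hμ j)

/-- The sum of the digit series is bounded by its largest term. -/
theorem norm_digit_sum_le {T : K} {M : ℝ} (hM0 : 0 ≤ M) (hM : ∀ a : ℤ, ‖X.c a‖ * ‖pw p a T‖ ≤ M) :
    ‖∑' a : ℤ, X.c a * pw p a T‖ ≤ M :=
  IsUltrametricDist.norm_tsum_le_of_forall_le_of_nonneg hM0 fun a => by
    rw [norm_mul]; exact hM a

/-- `val Θ(T) ≥ V(s)`. -/
theorem norm_Θ_le {T : K} (hT1 : ‖T‖ < 1) {M : ℝ} (hM0 : 0 ≤ M)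
    (hM : ∀ a : ℤ, ‖X.c a‖ * ‖pw p a T‖ ≤ M) : ‖X.Θ T‖ ≤ M := by
  rcases le_or_gt 1 M with h1 | h1
  · exact (X.norm_Θ_lt hT1).le.trans h1
  have e : X.Θ T = (X.Θ T - ∑' a : ℤ, X.c a * pw p a T) + ∑' a : ℤ, X.c a * pw p a T := by ring
  rw [e]
  refine (IsUltrametricDist.norm_add_le_max _ _).trans (max_le ?_ (X.norm_digit_sum_le hM0 hM))
  exact (X.norm_Θ_sub_le hT1 hM0 hM).trans
    (pow_le_of_le_one hM0 h1.le (pow_ne_zero _ hp.out.ne_zero))

/-- Not all digits vanish. -/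
theorem exists_c_ne [IsAlgClosed K] : ∃ a : ℤ, X.c a ≠ 0 := by
  by_contra hcon
  push Not at hcon
  have hΘ : ∀ T : K, ‖T‖ < 1 → X.Θ T = 0 := by
    intro T hT
    have h1 := X.norm_Θ_le hT le_rfl (fun a => by rw [hcon a]; simp)
    exact norm_le_zero_iff.1 h1
  have h1 : 0 < ‖PowerSeries.coeff 1 X.ξ‖ := norm_pos_iff.2 X.lin
  obtain ⟨x, hx0, hx1⟩ := NormedField.exists_norm_lt K h1
  have hx2 : ‖x‖ < 1 := hx1.trans (X.norm_lt 1)
  obtain ⟨T, hT, hTx⟩ := D.exists_ϖ_eq hx2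
  have h2 := hΘ T hT
  rw [Θ, hTx] at h2
  exact ev_ne_zero_of_small X.isInt X.cc (norm_pos_iff.1 hx0) hx2 hx1 h2

end XiData

/-- Tower data with `coeff 1 V ≠ 0` carry a series `ξ`. -/
theorem TowerData.exists_xiData [IsAlgClosed K] {h d : ℕ} (D : TowerData p K h d)
    (hy0 : PowerSeries.coeff 1 D.V ≠ 0) : Nonempty (XiData D) := by
  have := D.comm
  have hd := D.hd
  have hy1 : ‖PowerSeries.coeff 1 D.V‖ < 1 := by
    have h1 := D.V_close 1
    have h2 : (1 : ℕ) ≠ p ^ d := by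
      have : p ^ 1 ≤ p ^ d := Nat.pow_le_pow_right hp.out.pos hd
      have h3 := hp.out.one_lt
      rw [pow_one] at this
      omega
    rw [PowerSeries.coeff_X_pow, if_neg h2, sub_zero] at h1
    exact h1.trans_lt D.ρ1
  obtain ⟨ξ, h0, h1, h2, h3, h4⟩ := exists_xi (K := K) p D.hh D.F D.V_hom D.V_p D.V_int hy0 hy1
  exact ⟨⟨ξ, h0, h1, h2, h3, h4⟩⟩

end Crest.Agent.LT
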