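/-
E2: Lemma N in the form used by E7 (`LemmaN`, lower-bound form).
-/
import Crest.Agent.Lib.LT.P3Xi
import Crest.Agent.Lib.LT.P3E7

set_option autoImplicit false
set_option linter.unusedSectionVars false
set_option linter.unusedVariables false
set_option linter.unnecessarySimpa false

namespace Crest.Agent.LT

open Filter Topology

open Crest.LubinTate

variable {p : ℕ} [hp : Fact p.Prime] {K : Type*} [NontriviallyNormedField K] [IsUltrametricDist K]
  [CompleteSpace K] [CharP K p] [PerfectRing K p] [IsAlgClosed K]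

namespace XiData

variable {h d : ℕ} {D : TowerData p K h d} (X : XiData D)

/-- Lemma N in the form of `P3E7`. -/
theorem lemmaN : LemmaN p h X.c X.Θ := by
  intro T hT0 hT1 m hm
  have hM0 : 0 ≤ Real.exp (-m) := (Real.exp_pos _).le
  have hM : ∀ a : ℤ, ‖X.c a‖ * ‖pw p a T‖ ≤ Real.exp (-m) := by
    intro a
    by_cases hc : X.c a = 0
    · rw [hc, norm_zero, zero_mul]
      exact hM0
    · rw [norm_eq_exp_vl hc, norm_pw_eq p a hT0, ← Real.exp_add, Real.exp_le_exp]
      have := hm a hc
      linarith
  refine ⟨X.norm_Θ_le hT1 hM0 hM, (X.norm_Θ_sub_le hT1 hM0 hM).trans_eq ?_⟩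
  rw [← Real.exp_nat_mul]
  congr 1
  push_cast
  ring

end XiData

end Crest.Agent.LT
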