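/-
E7: assembly of Part III from the outputs of P3Xi (T11), P3Coord (T13), the germ theorem and the Final Lemma.

`CoordTarget` below is the exact statement required from T13.
-/
import Crest.Agent.Lib.LT.P3Rel
import Crest.Agent.Lib.LT.P3XiN
import Crest.Agent.Lib.LT.P3Lattice
import Crest.Agent.Lib.LT.P3Point
import Crest.Agent.Lib.LT.FieldP

set_option autoImplicit false
set_option linter.unusedSectionVars false
set_option linter.unusedVariables false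

namespace Crest.Agent.LT

open MvPowerSeries Filter Topology Crest.LubinTate

section out

variable {K : Type*} [NontriviallyNormedField K] [IsUltrametricDist K] [CompleteSpace K]

/-- **The output of T13 at level `N = p^(jh)`** (BLUEPRINT E5): a germ setting `Ω` in `K^d` (coordinates around the
base point `y`) with a nonzero germ vanishing on it, germ maps described by `S` modulo degree `N`, and the orbit
points `ω t r` (the point `X(y ∘ φ_g)`, `g = (gTR t r)⁻¹`) compared with `Θ(t z_l^(p^r))`. -/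
structure CoordOut (p h d N : ℕ) [Fact p.Prime] [CharP K p] [PerfectRing K p] (Θ : K → K) (z : Fin d → K) where
  Ω : ℕ → Set (Fin d → K)
  germ : IsGermSetting Ω
  f₀ : MvPowerSeries (Fin d) K
  hf₀ : InI Ω f₀
  hf₀0 : f₀ ≠ 0
  S : Fin d → MvPowerSeries (Fin d ⊕ Fin d) K
  εS : ℝ
  CS : ℝ
  hεS : 0 < εS
  hSB : ∀ i, IsB εS CS (S i)
  ε₀ : ℝ
  C₀ : ℝ
  hε₀ : 0 < ε₀
  r₂ : ℕ
  /-- (a) -/
  hact : ∀ r ≥ r₂, ∀ ω ∈ Ω r, ∃ F : Fin d → MvPowerSeries (Fin d) K, (∀ i, constantCoeff (F i) = ω i) ∧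
      (∀ i, IsB ε₀ C₀ (F i)) ∧ (∀ ω' ∈ Ω r, (fun i => evalS (F i) ω') ∈ Ω r) ∧
      ∀ i, CongO N (F i) (peval ω (S i))
  /-- (b') -/
  hb : ∀ i, CongO N (S i) (fgAdd (honda p h K) (X (Sum.inl i)) (X (Sum.inr i)))
  C' : ℝ
  hC' : 1 ≤ C'
  /-- the orbit points: `ω = X(y ∘ φ_g)`, `g = (gTR t r)⁻¹` -/
  orbit : ∀ t : K, t ≠ 0 → t ^ p ^ (h + d) = t → ∀ r₀, ∀ᶠ r : ℕ in atTop, ∃ ω ∈ Ω r₀,
    ∀ A : ℝ, (∀ l, ‖Θ (t * z l ^ p ^ r)‖ ≤ A) →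
      (∀ l, ‖ω l‖ ≤ A) ∧ ∀ l, ‖ω l - Θ (t * z l ^ p ^ r)‖ ≤ (C' * A) ^ N

end out

section target

variable (p : ℕ) [hp : Fact p.Prime] (n : ℕ) {h d : ℕ}

/-- **The output of T13.** -/
def CoordTarget (I : CharPInput p n h d) : Prop :=
  ∀ (K : Type) [NontriviallyNormedField K] [IsUltrametricDist K] [CompleteSpace K] [IsAlgClosed K] [CharP K p]
    [PerfectRing K p] [Algebra (GaloisField p n) K]
    (y : Fin d → K) (hy : ∀ i, ‖y i‖ < 1) (ρ : ℝ) (hρ0 : 0 ≤ ρ) (hρ1 : ρ < 1) (hyρ : ∀ i, ‖y i‖ ≤ ρ)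
    (hy0 : y ⟨0, I.d1⟩ ≠ 0) (X : XiData (pointData I y hy hρ0 hρ1 hyρ))
    (z : Fin d → Pts (pointData I y hy hρ0 hρ1 hyρ).Γ)
    (hz : ∀ l, z l ∈ (pointData I y hy hρ0 hρ1 hyρ).Λ)
    (hind : IndF p (fun l => (pointData I y hy hρ0 hρ1 hyρ).ϖHom 1 (z l)))
    (j : ℕ) (hj : 1 ≤ j) (f : RR p n d) (hf : f ≠ 0) (M : ℕ) (hM : 1 ≤ M)
    (hfv : ∀ g, IsFGAut (Γ₀ p n) g → CongX M g → evR y hy (I.act.φ g f) = 0),
    Nonempty (CoordOut p h d (p ^ (j * h)) X.Θ fun l => (z l).val)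

/-- **Part III**, assembly. -/
theorem partIII_of {h d : ℕ} (I : CharPInput p n h d) (hC : CoordTarget p n I) (M : ℕ) (hM : 1 ≤ M)
    (P : Ideal (RR p n d)) [P.IsPrime] (hy : (MvPowerSeries.X ⟨0, I.d1⟩ : RR p n d) ∉ P)
    (hst : ∀ g, IsFGAut (Γ₀ p n) g → CongX M g → P.comap (I.act.φ g) = P) : P = ⊥ := by
  classical
  by_contra hP
  obtain ⟨f, hfP, hf0⟩ := Submodule.exists_mem_ne_zero_of_ne_bot hP
  obtain ⟨K, _, _, _, _, _, _, ψ, hψP, hψ0, hψ1, hψm, hψev⟩ := exists_point_charP p n I.d1 P hy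
  have hpp : p.Prime := Fact.out
  have hh := I.h1
  have hd := I.d1
  -- the point
  set y : Fin d → K := fun i => ψ (MvPowerSeries.X i) with hydef
  have hy1 : ∀ i, ‖y i‖ < 1 := fun i => hψm _ (by simp)
  obtain ⟨i₀, -, hi₀⟩ := Finset.exists_max_image (Finset.univ : Finset (Fin d)) (fun i => ‖y i‖)
    ⟨⟨0, hd⟩, Finset.mem_univ _⟩
  have hρ0 : 0 ≤ ‖y i₀‖ := norm_nonneg _
  have hρ1 : ‖y i₀‖ < 1 := hy1 i₀
  have hyρ : ∀ i, ‖y i‖ ≤ ‖y i₀‖ := fun i => hi₀ i (Finset.mem_univ _)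
  have hy0 : y ⟨0, hd⟩ ≠ 0 := hψ0
  have hψy : ∀ a, ψ a = evR y hy1 a := fun a => by rw [hψev a, evR_apply]
  set D := pointData I y hy1 hρ0 hρ1 hyρ with hD
  -- linear coefficient of `V`
  have hV1 : PowerSeries.coeff 1 D.V = y ⟨0, hd⟩ := by
    have h1 := I.V_coeff ⟨0, hd⟩
    simp only [pow_zero] at h1
    rw [hD, pointData_V, PowerSeries.coeff_map, h1]
    exact evR_X _
  have hV10 : PowerSeries.coeff 1 D.V ≠ 0 := by rw [hV1]; exact hy0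
  obtain ⟨z, hzΛ, hzind, -, hz0, Orth⟩ := D.exists_extremal hV10
  obtain ⟨X⟩ := D.exists_xiData hV10
  obtain ⟨K₀, hK₀, hH⟩ := e7_false p h d hh hd X.c X.c_eq X.norm_c_lt X.exists_c_ne (fun l => (z l).val) hz0
    (fun l => (z l).norm_lt) Orth X.Θ X.lemmaN
  -- the level
  obtain ⟨j, hj⟩ : ∃ j : ℕ, (p : ℝ) ^ h * K₀ < (p ^ (j * h) : ℕ) := by
    obtain ⟨j, hj⟩ := exists_nat_gt ((p : ℝ) ^ h * K₀)
    refine ⟨j, hj.trans ?_⟩
    have h1 : j < p ^ (j * h) :=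
      lt_of_lt_of_le (Nat.lt_pow_self hpp.one_lt) (Nat.pow_le_pow_right hpp.pos (Nat.le_mul_of_pos_right _ hh))
    exact_mod_cast h1
  set N₁ := p ^ (j * h) with hN₁
  set N := p ^ ((j + 1) * h) with hN
  have hNN : N = p ^ h * N₁ := by rw [hN, hN₁, ← pow_add]; congr 1; ring
  have hN1le : N₁ ≤ N := by
    rw [hNN]
    exact Nat.le_mul_of_pos_left _ (pow_pos hpp.pos _)
  have hNpos : 1 ≤ N := pow_pos hpp.pos _
  have hjN : (p : ℝ) ^ h * K₀ < N := lt_of_lt_of_le hj (by exact_mod_cast hN1le)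
  -- the vanishing of `f` along the orbit
  have hfv : ∀ g, IsFGAut (Γ₀ p n) g → CongX M g → evR y hy1 (I.act.φ g f) = 0 := by
    intro g hg hgM
    rw [← hψy]
    refine hψP _ ?_
    have h1 := hst g hg hgM
    have h2 : f ∈ P.comap (I.act.φ g) := by rw [h1]; exact hfP
    exact h2
  obtain ⟨O⟩ := hC K y hy1 _ hρ0 hρ1 hyρ hy0 X z hzΛ hzind (j + 1) (by omega) f hf0 M hM hfv
  obtain ⟨l₁, hl₁⟩ := relation_of_germ p hh O.germ O.hf₀ O.hf₀0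
  obtain ⟨b', C, hC1, hb1, hb2, hb3, r₃, hrel⟩ := hl₁ (N₁ := N₁) hNpos hNN.ge O.hεS O.hSB O.hε₀ O.hact O.hb
  -- the orbit points as a function
  set Q : K → ℕ → (Fin d → K) → Prop := fun t r ω => ω ∈ O.Ω r₃ ∧ ∀ A : ℝ,
    (∀ l, ‖X.Θ (t * (z l).val ^ p ^ r)‖ ≤ A) →
      (∀ l, ‖ω l‖ ≤ A) ∧ ∀ l, ‖ω l - X.Θ (t * (z l).val ^ p ^ r)‖ ≤ (O.C' * A) ^ N with hQ
  set ω : K → ℕ → Fin d → K := fun t r => if hq : ∃ ω, Q t r ω then hq.choose else 0 with hω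
  have hωQ : ∀ t r, (∃ ω, Q t r ω) → Q t r (ω t r) := by
    intro t r hq
    simp only [hω, dif_pos hq]
    exact hq.choose_spec
  refine hH N N₁ hjN hj O.C' C O.hC' hC1 N₁ l₁ b' hb1 hb2 hb3 ω fun t ht0 ht => ?_
  filter_upwards [O.orbit t ht0 ht r₃] with r hr
  obtain ⟨ω', hω', hω'2⟩ := hr
  obtain ⟨hr1, hr2⟩ := hωQ t r ⟨ω', hω', hω'2⟩
  exact ⟨hr2, fun R M' hR hM' hM'1 => hrel r₃ le_rfl _ hr1 R M' hR hM' hM'1⟩

end target

end Crest.Agent.LT
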