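/-
S0351 T13: final assembly of §E5: `coord_main : CoordTarget p n I`.
-/
import Crest.Agent.Lib.LT.P3Main
import Crest.Agent.Lib.LT.CoordGerm
import Crest.Agent.Lib.LT.CoordS
import Crest.Agent.Lib.LT.CoordXi
import Crest.Agent.Lib.LT.CoordOrbit
import Crest.Agent.Lib.LT.CoordSa
import Crest.Agent.Lib.LT.CoordSb

set_option autoImplicit false
set_option linter.unusedSectionVars false
set_option linter.unusedVariables false

namespace Crest.Agent.LT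

open MvPowerSeries Filter Topology Crest.LubinTate

section inverse

variable {K : Type*} [NontriviallyNormedField K] [IsUltrametricDist K] [CompleteSpace K]
  {d : ℕ}

/-- The inverse coordinates are Lipschitz, in the form needed by `orbit_bound`. -/
lemma exists_wh_bound (hd : 1 ≤ d) {y : Fin d → K} {Xh Wh : Fin d → MvPowerSeries (Fin d) K} {εX' εW CW : ℝ} (hεX' : 0 < εX')
    (hεW : 0 < εW) (hWB : ∀ i, IsB εW CW (Wh i)) (hW0 : ∀ i, constantCoeff (Wh i) = 0)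
    (hWX : ∀ w : Fin d → K, (∀ i, ‖w i‖ < εX') →
      (∀ l, ‖evalS (Xh l) w‖ < εW) ∧ ∀ i, evalS (Wh i) (fun l => evalS (Xh l) w) = w i) :
    ∃ C : ℝ, 1 ≤ C ∧ ∀ v : Fin d → K, (∀ i, ‖v i - y i‖ < εX') → ∀ A : ℝ,
      (∀ l, ‖evalS (Xh l) (fun i => v i - y i)‖ ≤ A) → ∀ i, ‖v i - y i‖ ≤ C * A := by
  have hCW : 0 ≤ CW := (hWB ⟨0, hd⟩).nonneg hεW.le
  refine ⟨max 1 (CW / εW), le_max_left _ _, fun v hv A hA i => ?_⟩
  have hA0 : 0 ≤ A := (norm_nonneg _).trans (hA ⟨0, hd⟩)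
  obtain ⟨h1, h2⟩ := hWX (fun i => v i - y i) hv
  have h3 := h2 i
  rw [← h3]
  by_cases hAε : A ≤ εW
  · have h4 := norm_evalS_le_of_const_zero hεW hA0 hAε (hWB i) (hW0 i) hA
    refine h4.trans ?_
    have : CW * (A / εW) = CW / εW * A := by ring
    rw [this]
    exact mul_le_mul_of_nonneg_right (le_max_right _ _) hA0
  · have hAε' := (not_le.1 hAε).le
    have h4 := norm_evalS_le_of_const_zero hεW hεW.le le_rfl (hWB i) (hW0 i)
      (z := fun l => evalS (Xh l) (fun i => v i - y i)) fun l => (h1 l).le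
    refine h4.trans ?_
    have : CW * (εW / εW) = CW / εW * εW := by field_simp
    rw [this]
    exact (mul_le_mul_of_nonneg_left hAε' (div_nonneg hCW hεW.le)).trans
      (mul_le_mul_of_nonneg_right (le_max_right _ _) hA0)

end inverse

section main

variable {p : ℕ} [hp : Fact p.Prime] {n h d : ℕ} (I : CharPInput p n h d)

theorem coord_main : CoordTarget p n I := by
  intro K _ _ _ _ _ _ _ y hy ρ hρ0 hρ1 hyρ hy0 X z hz hind j hj f hf M hM hfv
  have hz1 : ∀ l, ‖(z l).val‖ < 1 := fun l => (z l).norm_lt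
  have hz0 : ∀ l, (pointData I y hy hρ0 hρ1 hyρ).ϖ 0 (z l).val = 0 := fun l =>
    (pointData I y hy hρ0 hρ1 hyρ).mem_Λ.1 (hz l)
  obtain ⟨B, Xh, Wh, εX, εX', CX, εW, CW, hεX, hεX', hεW, hXB, hX0, hWB, hW0, hXW, hWX, hXc⟩ :=
    exists_coords I hy hρ0 hρ1 hyρ hy0 hj hz1 hz0 hind X.cc X.isInt X.lin
  obtain ⟨hΩ, ε₀, C₀, r₂, hε₀, hF⟩ :=
    germ_setting_of_coords I hy hεX hεX' hεW hXB hX0 hWB hW0 hXW hWX
  obtain ⟨fh, hfh, hfh0⟩ := inI_of_coords I hy hεX hεX' hεW hXB hX0 hWB hW0 hXW hWX hf (r₀ := M) (by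
    rintro u ⟨g, hg, hgM, rfl⟩
    have h1 := evP_act I hg (hu := hy) f
    have h2 := hfv g hg hgM
    rw [show evP p n y hy (I.act.φ g f) = evR y hy (I.act.φ g f) from rfl, h2] at h1
    rw [show evP p n (actPt I g y hy) (norm_actPt_lt I hg) f =
      evR (actPt I g y hy) (norm_actPt_lt I hg) f from rfl, evR_apply] at h1
    exact h1.symm)
  have hξV : cmp X.ξ (PowerSeries.map (evP p n y hy) I.V) = tw p h X.ξ := X.cmpV
  obtain ⟨ξh, hξh1, hξh2, hξh3, r₁, hξh4⟩ := exists_xiHat I hy hy0 X.cc X.norm_lt hξV (p ^ (j * h))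
  -- the translation series
  obtain ⟨S⟩ := exists_sdata I hy hρ0 hρ1 hyρ hεW hWB hW0 hj B X.isInt X.cc X.lin hξh1 hξh2 hξh3
  have hSb := sdata_hb I hy hρ0 hρ1 hyρ hεW hWB hW0 hj B X.isInt X.hom hXW hXc hξh1 hξh2 S
  obtain ⟨r₃, hSa⟩ := clause_a I hy hρ0 hρ1 hyρ X.cc X.isInt X.lin B hεX hεX' hεW hXB hX0 hWB hW0 hXW hWX hXc
    ⟨r₁, hξh4⟩ S
  -- the constant in the orbit bound
  obtain ⟨C', hC', hW⟩ := exists_wh_bound (y := y) I.d1 hεX' hεW hWB hW0 hWX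
  have horbit : ∀ (r₀ : ℕ) (t : K), t ≠ 0 → t ^ p ^ (h + d) = t → ∀ᶠ r in atTop, ∃ g, IsFGAut (Γ₀ p n) g ∧ CongX r₀ g ∧
      ∀ A : ℝ, (∀ l, ‖ev (tw p (j * h) X.ξ) ((pointData I y hy hρ0 hρ1 hyρ).ϖ j (t * (z l).val ^ p ^ r))‖ ≤ A) →
      (∀ l, ‖ev (tw p (j * h) X.ξ) (ptSub ((pointData I y hy hρ0 hρ1 hyρ).Fj j) (B.w l (actPt I g y hy)) ((pointData I y hy hρ0 hρ1 hyρ).ϖ j (z l).val))‖ ≤ A) ∧
      ∀ l, ‖ev (tw p (j * h) X.ξ) (ptSub ((pointData I y hy hρ0 hρ1 hyρ).Fj j) (B.w l (actPt I g y hy)) ((pointData I y hy hρ0 hρ1 hyρ).ϖ j (z l).val)) -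
        ev (tw p (j * h) X.ξ) ((pointData I y hy hρ0 hρ1 hyρ).ϖ j (t * (z l).val ^ p ^ r))‖ ≤ (C' * A) ^ p ^ (j * h) := by
    intro r₀ t ht0 htq
    refine orbit_bound I hy hρ0 hρ1 hyρ hj hz1 hz0 B X.cc X.isInt X.hom hC' (εW := min εX εX') (lt_min hεX hεX') ?_ r₀ t ht0 htq
    intro v hv A hA i
    have hv1 : ∀ i, ‖v i - y i‖ < εX := fun i => (hv i).trans_le (min_le_left _ _)
    have hv2 : ∀ i, ‖v i - y i‖ < εX' := fun i => (hv i).trans_le (min_le_right _ _)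
    refine hW v hv2 A (fun l => ?_) i
    rw [hXc v hv1 l]
    exact hA l
  obtain ⟨rε, hrε⟩ := exists_deep I hy hεX 0
  refine ⟨{ Ω := OmegaOf I Xh y hy
            germ := hΩ
            f₀ := fh
            hf₀ := hfh
            hf₀0 := hfh0
            S := S.Sh
            εS := S.εS
            CS := S.CS
            hεS := S.εS_pos
            hSB := S.Sh_B
            ε₀ := ε₀
            C₀ := C₀
            hε₀ := hε₀
            r₂ := max r₂ r₃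
            hact := ?_
            hb := hSb
            C' := C'
            hC' := hC'
            orbit := ?_ }⟩
  · rintro r hr ω ⟨u, ⟨g, hg, hgr, rfl⟩, rfl⟩
    obtain ⟨F, hF0, hFB, hFst, hFev⟩ := hF r (le_trans (le_max_left _ _) hr) g hg hgr
    exact ⟨F, hF0, hFB, hFst, hSa g hg (CongX.mono_xi (le_trans (le_max_right _ _) hr) hgr) F hε₀ hFB hFev⟩
  · intro t ht0 htq r₀
    filter_upwards [horbit (max r₀ rε) t ht0 htq, eventually_ge_atTop 1] with r hr hr1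
    obtain ⟨g, hg, hgr, hA⟩ := hr
    have hgε : ∀ i, ‖actPt I g y hy i - y i‖ < εX := (hrε g hg (CongX.mono_xi (le_max_right _ _) hgr)).1
    have hXc' := hXc (actPt I g y hy) hgε
    refine ⟨_, ⟨actPt I g y hy, ⟨g, hg, CongX.mono_xi (le_max_left _ _) hgr, rfl⟩, rfl⟩, fun A hAt => ?_⟩
    have hT : ∀ l, ‖t * (z l).val ^ p ^ r‖ < 1 := by
      intro l
      have h1 : ‖t‖ ≤ 1 := norm_le_one_of_pow_eq t _ (by
        have := (Fact.out : p.Prime).two_le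
        calc 2 ≤ p := this
          _ = p ^ 1 := (pow_one p).symm
          _ ≤ p ^ (h + d) := Nat.pow_le_pow_right (Fact.out : p.Prime).pos (by have := I.h1; omega)) htq
      rw [norm_mul, norm_pow]
      have h2 : ‖(z l).val‖ ^ p ^ r < 1 := pow_lt_one₀ (norm_nonneg _) (hz1 l) (pow_ne_zero _ (Fact.out : p.Prime).ne_zero)
      calc ‖t‖ * ‖(z l).val‖ ^ p ^ r ≤ 1 * ‖(z l).val‖ ^ p ^ r := mul_le_mul_of_nonneg_right h1 (by positivity)
        _ < 1 := by rwa [one_mul]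
    have hΘ : ∀ l, X.Θ (t * (z l).val ^ p ^ r) = ev (tw p (j * h) X.ξ) ((pointData I y hy hρ0 hρ1 hyρ).ϖ j (t * (z l).val ^ p ^ r)) :=
      fun l => (X.ev_ξj_ϖ j (hT l)).symm
    simp only [hΘ] at hAt ⊢
    obtain ⟨h1, h2⟩ := hA A hAt
    simp only [hXc'] at *
    exact ⟨h1, h2⟩

end main

end Crest.Agent.LT
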