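/-
C4: a point of `E₀` killing a prime not containing `p`, with values in `ℂ_[p]`.  BLUEPRINT §C4.
-/
import Crest.Agent.Lib.LT.FieldP

set_option autoImplicit false
set_option linter.unusedSectionVars false
set_option linter.unusedVariables false
set_option linter.style.haveILetI false
set_option linter.unusedSimpArgs false
set_option linter.unnecessarySimpa false

namespace Crest.Agent.LT

open IsLocalRing Crest.LubinTate

/-- Digit completeness from adic completeness. -/
lemma digitComplete_of_isPrecomplete {B : Type*} [CommRing B] (π : B)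
    [IsPrecomplete (Ideal.span {π}) B] : DigitComplete π := by
  intro c
  let s : ℕ → B := fun J => ∑ j ∈ Finset.range J, c j * π ^ j
  have hmem : ∀ (x : B) (n : ℕ), x ∈ ((Ideal.span {π} : Ideal B) ^ n • ⊤ : Submodule B B) ↔
      π ^ n ∣ x := by
    intro x n
    rw [smul_eq_mul, Ideal.mul_top, Ideal.span_singleton_pow, Ideal.mem_span_singleton]
  have hs : ∀ {m n : ℕ}, m ≤ n → s m ≡ s n [SMOD ((Ideal.span {π} : Ideal B) ^ m • ⊤ : Submodule B B)] := by
    intro m n hmn
    rw [SModEq.sub_mem, hmem]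
    have : s m - s n = - ∑ j ∈ Finset.Ico m n, c j * π ^ j := by
      simp only [s]
      rw [Finset.sum_Ico_eq_sub _ hmn]
      ring
    rw [this, dvd_neg]
    refine Finset.dvd_sum fun j hj => ?_
    exact Dvd.dvd.mul_left (pow_dvd_pow _ (Finset.mem_Ico.mp hj).1) _
  obtain ⟨L, hL⟩ := IsPrecomplete.prec (I := Ideal.span {π}) (M := B) (inferInstance) hs
  refine ⟨L, fun J => ?_⟩
  have := hL (n := J)
  rw [SModEq.sub_mem, hmem] at this
  obtain ⟨w, hw⟩ := this
  refine ⟨-w, ?_⟩
  have h2 : L = s J - π ^ J * w := by rw [← hw]; ring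
  rw [h2]
  simp only [s]
  ring

variable (p n : ℕ) [Fact p.Prime]

local notation "k" => GaloisField p n
local notation "E0" => LTRing p n

lemma residue_unit_iff (f : E0) : IsUnit f ↔ LTRing.residue p n f ≠ 0 := by
  rw [MvPowerSeries.isUnit_iff_constantCoeff]
  constructor
  · intro h
    have := h.map (WittVector.constantCoeff : WittVector p k →+* k)
    exact this.ne_zero
  · intro h
    exact WittVector.isUnit_of_coeff_zero_ne_zero _ h

lemma mem_max_E0 (f : E0) : f ∈ maximalIdeal E0 ↔ LTRing.residue p n f = 0 := by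
  rw [mem_maximalIdeal, mem_nonunits_iff, residue_unit_iff, not_not]

instance finite_residue_E0 : Finite (ResidueField E0) :=
  finite_residueField_of_surj (LTRing.residue p n)
    (fun f hf => (mem_max_E0 p n f).mpr hf) (fun f hf => (mem_max_E0 p n f).mp hf)

/-- The base map `ℤ_p → E₀`. -/
noncomputable def phiE0 : ℤ_[p] →+* E0 :=
  (MvPowerSeries.C : WittVector p k →+* E0).comp
    ((WittVector.map (ZMod.castHom (dvd_refl p) k)).comp
      ((WittVector.equiv p).symm : ℤ_[p] →+* WittVector p (ZMod p)))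

lemma phiE0_p : phiE0 p n (p : ℤ_[p]) = (p : E0) := map_natCast _ p

/-- The embedding of `ℤ_p` into `ℂ_p`. -/
noncomputable def iotaZ : ℤ_[p] →+* ℂ_[p] :=
  (algebraMap (PadicAlgCl p) ℂ_[p]).comp
    ((algebraMap ℚ_[p] (PadicAlgCl p)).comp (PadicInt.Coe.ringHom))

lemma iotaZ_injective : Function.Injective (iotaZ p) := by
  refine (algebraMap (PadicAlgCl p) ℂ_[p]).injective.comp ?_
  exact (algebraMap ℚ_[p] (PadicAlgCl p)).injective.comp Subtype.val_injective

lemma iotaZ_norm (b : ℤ_[p]) : ‖iotaZ p b‖ = ‖b‖ := by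
  simp only [iotaZ, RingHom.comp_apply]
  rw [← PadicComplex.coe_eq, PadicComplex.norm_extends, PadicAlgCl.norm_extends]
  rfl

/-- **C4**. -/
theorem exists_point_char0 (P : Ideal E0) [P.IsPrime] (hp : (p : E0) ∉ P) :
    ∃ ψ : E0 →+* ℂ_[p], (∀ f ∈ P, ψ f = 0) ∧ Function.Injective (ψ.comp MvPowerSeries.C) ∧
      (∀ f, ‖ψ f‖ ≤ 1) ∧ (∀ f, LTRing.residue p n f = 0 → ‖ψ f‖ < 1) ∧
      ∀ f, ψ f = evalS (MvPowerSeries.map (ψ.comp MvPowerSeries.C) f)
        (fun i => ψ (MvPowerSeries.X i)) := by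
  classical
  haveI : IsPrecomplete (Ideal.span {(p : ℤ_[p])}) ℤ_[p] := by
    rw [← PadicInt.maximalIdeal_eq_span_p]; infer_instance
  obtain ⟨ψ, hψP, hψφ, hψ1, hψm⟩ := exists_point_of_dvr (K := ℂ_[p]) (phiE0 p n) (p : ℤ_[p])
    (by
      rw [phiE0_p, mem_max_E0]
      simp [LTRing.residue])
    (digitComplete_of_isPrecomplete _)
    (fun b hb => ⟨b.valuation, PadicInt.unitCoeff hb, by
      rw [mul_comm]; exact PadicInt.unitCoeff_spec hb, Units.isUnit _⟩) P
    (by rw [phiE0_p]; exact hp) (iotaZ p) (iotaZ_injective p)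
    (fun b => by rw [iotaZ_norm]; exact PadicInt.norm_le_one b)
    (by
      rw [iotaZ_norm, PadicInt.norm_p]
      exact inv_lt_one_of_one_lt₀ (by exact_mod_cast (Fact.out : p.Prime).one_lt))
  have hψp : ψ (p : E0) = (p : ℂ_[p]) := map_natCast ψ p
  have hres : ∀ i, LTRing.residue p n (MvPowerSeries.X i) = 0 := fun i => by
    simp [LTRing.residue]
  refine ⟨ψ, hψP, ?_, hψ1, fun f hf => hψm f ((mem_max_E0 p n f).mpr hf), fun f => ?_⟩
  · rw [injective_iff_map_eq_zero]
    intro a ha
    by_contra ha0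
    obtain ⟨m, b, rfl⟩ := WittVector.exists_eq_pow_p_mul' a ha0
    simp only [RingHom.comp_apply, map_mul, map_pow, map_natCast] at ha
    have hne : (p : ℂ_[p]) ≠ 0 := Nat.cast_ne_zero.mpr (Fact.out : p.Prime).ne_zero
    have hb : ψ (MvPowerSeries.C (b : WittVector p k)) ≠ 0 :=
      ((b.isUnit.map (MvPowerSeries.C (R := WittVector p k))).map ψ).ne_zero
    exact mul_ne_zero (pow_ne_zero m hne) hb ha
  · exact ringHom_eq_evalS ψ hψ1 (fun i => hψm _ ((mem_max_E0 p n _).mpr (hres i))) f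

end Crest.Agent.LT
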