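/-
D2, linear algebra core: the Wronskian lemma (BLUEPRINT §D2), over a normed ultrametric field.
-/
import Mathlib

set_option autoImplicit false
set_option linter.unusedSectionVars false
set_option linter.unusedVariables false
set_option linter.deprecated false

namespace Crest.Agent.LT
namespace Period

open Matrix

variable {K : Type*} [NormedField K] [IsUltrametricDist K]

/-- All entries of the matrix have norm at most one. -/
def IntM {ι κ : Type*} (M : Matrix ι κ K) : Prop := ∀ i j, ‖M i j‖ ≤ 1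

lemma norm_sum_le_one {ι : Type*} (s : Finset ι) (g : ι → K) (h : ∀ i ∈ s, ‖g i‖ ≤ 1) :
    ‖∑ i ∈ s, g i‖ ≤ 1 :=
  IsUltrametricDist.norm_sum_le_of_forall_le_of_nonneg zero_le_one h

lemma norm_prod_le_one {ι : Type*} (s : Finset ι) (g : ι → K) (h : ∀ i ∈ s, ‖g i‖ ≤ 1) :
    ‖∏ i ∈ s, g i‖ ≤ 1 := by
  rw [norm_prod]
  exact Finset.prod_le_one (fun _ _ => norm_nonneg _) h

lemma IntM.mul {ι κ μ : Type*} [Fintype κ] {A : Matrix ι κ K} {B : Matrix κ μ K} (hA : IntM A)
    (hB : IntM B) : IntM (A * B) := fun i j => by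
  rw [Matrix.mul_apply]
  refine norm_sum_le_one _ _ fun k _ => ?_
  rw [norm_mul]
  exact mul_le_one₀ (hA _ _) (norm_nonneg _) (hB _ _)

lemma IntM.det_le {ι : Type*} [Fintype ι] [DecidableEq ι] {A : Matrix ι ι K} (hA : IntM A) :
    ‖A.det‖ ≤ 1 := by
  rw [Matrix.det_apply]
  refine norm_sum_le_one _ _ fun σ _ => ?_
  rw [Units.smul_def, zsmul_eq_mul, norm_mul]
  refine mul_le_one₀ ?_ (norm_nonneg _) (norm_prod_le_one _ _ fun i _ => hA _ _)
  rcases Int.units_eq_one_or (Equiv.Perm.sign σ) with h | h <;> simp [h]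

lemma IntM.adjugate {ι : Type*} [Fintype ι] [DecidableEq ι] {A : Matrix ι ι K} (hA : IntM A) :
    IntM A.adjugate := fun i j => by
  rw [Matrix.adjugate_apply]
  refine IntM.det_le fun a b => ?_
  rw [Matrix.updateRow_apply]
  split_ifs
  · rw [Pi.single_apply]
    split_ifs <;> simp
  · exact hA _ _

/-- A matrix with unimodular determinant and integral entries has an integral inverse. -/
lemma IntM.exists_inv {ι : Type*} [Fintype ι] [DecidableEq ι] {A : Matrix ι ι K} (hA : IntM A)
    (hd : ‖A.det‖ = 1) : ∃ N : Matrix ι ι K, IntM N ∧ N * A = 1 := by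
  have hd0 : A.det ≠ 0 := by
    intro h
    rw [h, norm_zero] at hd
    exact zero_ne_one hd
  refine ⟨A.det⁻¹ • A.adjugate, fun i j => ?_, ?_⟩
  · rw [Matrix.smul_apply, smul_eq_mul, norm_mul, norm_inv, hd, inv_one, one_mul]
    exact hA.adjugate i j
  · rw [Matrix.smul_mul, Matrix.adjugate_mul, smul_smul, inv_mul_cancel₀ hd0, one_smul]

lemma norm_one_add_of_lt {x : K} (hx : ‖x‖ < 1) : ‖1 + x‖ = 1 := by
  have h1 : ‖(1 : K)‖ = 1 := norm_one
  rw [IsUltrametricDist.norm_add_eq_max_of_norm_ne_norm (by rw [h1]; exact hx.ne'), h1]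
  exact max_eq_left hx.le

lemma norm_sum_lt_one {ι : Type*} (s : Finset ι) (g : ι → K) (h : ∀ i ∈ s, ‖g i‖ < 1) :
    ‖∑ i ∈ s, g i‖ < 1 := by
  rcases s.eq_empty_or_nonempty with rfl | hs
  · simp
  · obtain ⟨i, hi, hle⟩ := IsUltrametricDist.exists_norm_finset_sum_le_of_nonempty hs g
    exact hle.trans_lt (h i hi)

/-- Hypotheses of the Wronskian lemma. `π` is `p`, `a i e` is `v_{i+1}^(p^e)` (`v_{d+1} = 1`),
`c j 0` is `ℓ_j`, `c j (b+1)` is `∂_b ℓ_j`, and `f` is the forcing term. -/
structure WrData (d : ℕ) (π : K) (a : ℕ → ℕ → K) (c f : ℕ → Fin (d + 1) → K) : Prop where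
  π0 : π ≠ 0
  π1 : ‖π‖ < 1
  a_le : ∀ i e, ‖a i e‖ ≤ 1
  a_last : ∀ e, a d e = 1
  recur : ∀ j k, π * c (j + 1) k =
    ∑ i ∈ Finset.range (d + 1), (if i ≤ j then c (j - i) k * a i (j - i) else 0) + f (j + 1) k
  c0 : ∀ k, c 0 k = if k = 0 then 1 else 0
  f_zero : ∀ j, f j 0 = 0
  f_diag : ∀ k : Fin (d + 1), k ≠ 0 → f k.1 k = 1
  f_gt : ∀ (j : ℕ) (k : Fin (d + 1)), j < k.1 → f j k = 0
  f_small : ∀ (j : ℕ) (k : Fin (d + 1)), k.1 < j → ‖f j k‖ < 1

/-- The Wronskian matrix at level `m`. -/
def WM {d : ℕ} (c : ℕ → Fin (d + 1) → K) (m : ℕ) : Matrix (Fin (d + 1)) (Fin (d + 1)) K :=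
  fun i k => c (m - i.1) k

variable {d : ℕ} {π : K} {a : ℕ → ℕ → K} {c f : ℕ → Fin (d + 1) → K}

/-! ### Base case -/

/-- lower triangular matrix `Q`: `Q * Ŵ = C̃`. -/
noncomputable def QM (d : ℕ) (π : K) (a : ℕ → ℕ → K) : Matrix (Fin (d + 1)) (Fin (d + 1)) K :=
  fun j b =>
    if j.1 = 0 then (if b.1 = 0 then 1 else 0)
    else (if b = j then π else if b.1 < j.1 then - a (j.1 - 1 - b.1) b.1 else 0)

/-- `C̃`. -/
noncomputable def CM {d : ℕ} (f : ℕ → Fin (d + 1) → K) : Matrix (Fin (d + 1)) (Fin (d + 1)) K :=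
  fun j k => if j.1 = 0 then (if k.1 = 0 then 1 else 0) else f j.1 k

lemma QM_int (h : WrData d π a c f) : IntM (QM d π a) := fun j b => by
  unfold QM
  split_ifs <;> simp [h.π1.le, h.a_le]

lemma CM_int (h : WrData d π a c f) : IntM (CM f) := fun j k => by
  unfold CM
  split_ifs with h1 h2
  · simp
  · simp
  · rcases lt_trichotomy k.1 j.1 with hlt | heq | hgt
    · exact (h.f_small _ _ hlt).le
    · have : j = k := Fin.ext heq.symm
      subst this
      rw [h.f_diag j (fun h0 => h1 (by simp [h0]))]; simp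
    · rw [h.f_gt _ _ hgt]; simp

lemma QM_det (h : WrData d π a c f) : (QM d π a).det = π ^ d := by
  rw [Matrix.det_of_lowerTriangular]
  · rw [Fin.prod_univ_succ]
    simp [QM]
  · intro i j hij
    have hij' : i < j := by simpa using hij
    have hj : j ≠ i := hij'.ne'
    have hj' : ¬ j.1 < i.1 := by
      have : i.1 < j.1 := hij'
      omega
    have hj0 : j.1 ≠ 0 := by
      have : i.1 < j.1 := hij'
      omega
    simp [QM, hj, hj', hj0]

lemma CM_det (h : WrData d π a c f) : (CM f).det = 1 := by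
  rw [Matrix.det_of_lowerTriangular]
  · refine Finset.prod_eq_one fun j _ => ?_
    unfold CM
    split_ifs with h1
    · rfl
    · exact h.f_diag j (fun h0 => h1 (by simp [h0]))
  · intro i j hij
    have hij' : i.1 < j.1 := by simpa using hij
    unfold CM
    split_ifs with h1 h2
    · omega
    · rfl
    · exact h.f_gt _ _ hij'

lemma QM_mul (h : WrData d π a c f) :
    QM d π a * (Matrix.of fun (j k : Fin (d + 1)) => c j.1 k) = CM f := by
  ext j k
  rw [Matrix.mul_apply]
  simp only [Matrix.of_apply]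
  by_cases hj : j.1 = 0
  · have hj' : j = 0 := Fin.ext hj
    subst hj'
    rw [Fin.sum_univ_succ]
    simp [QM, CM, h.c0]
  · -- row `j = j' + 1`
    obtain ⟨j', hj'⟩ : ∃ j', j.1 = j' + 1 := Nat.exists_eq_succ_of_ne_zero hj
    have hR := h.recur j' k
    have hjd : j' < d + 1 := by have := j.2; omega
    -- split off the diagonal
    have hsum : ∑ b : Fin (d + 1), QM d π a j b * c b.1 k =
        π * c j.1 k - ∑ i ∈ Finset.range (d + 1),
          (if i ≤ j' then c (j' - i) k * a i (j' - i) else 0) := by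
      have h1 : ∀ b : Fin (d + 1), QM d π a j b * c b.1 k =
          (if b = j then π * c j.1 k else 0) -
            (if b.1 ≤ j' then c b.1 k * a (j' - b.1) b.1 else 0) := by
        intro b
        simp only [QM, hj, if_false]
        by_cases hb : b = j
        · subst hb
          have : ¬ b.1 ≤ j' := by omega
          simp [this]
        · have hb' : b.1 ≠ j.1 := fun e => hb (Fin.ext e)
          by_cases hlt : b.1 < j.1
          · have hle' : b.1 ≤ j' := by omega
            have hsub : j.1 - 1 - b.1 = j' - b.1 := by omega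
            simp [hb, hlt, hle', hsub]
            ring
          · have hle' : ¬ b.1 ≤ j' := by omega
            simp [hb, hlt, hle']
      rw [Finset.sum_congr rfl fun b _ => h1 b, Finset.sum_sub_distrib]
      congr 1
      · simp
      · -- reindex `b ↦ j' - b`
        rw [Fin.sum_univ_eq_sum_range
          (fun b => if b ≤ j' then c b k * a (j' - b) b else 0) (d + 1)]
        have hsplit : ∀ g : ℕ → K, (∀ i, j' < i → g i = 0) →
            ∑ i ∈ Finset.range (d + 1), g i = ∑ i ∈ Finset.range (j' + 1), g i := by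
          intro g hg
          refine (Finset.sum_subset (Finset.range_subset_range.mpr (by omega)) ?_).symm
          intro i _ hi
          exact hg i (by simpa using hi)
        rw [hsplit _ (fun i hi => by simp [Nat.not_le.mpr hi]),
          hsplit _ (fun i hi => by simp [Nat.not_le.mpr hi])]
        rw [← Finset.sum_range_reflect]
        refine Finset.sum_congr rfl fun i hi => ?_
        have hi' : i ≤ j' := by simpa [Nat.lt_succ_iff] using hi
        have h2 : j' + 1 - 1 - i = j' - i := by omega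
        have h3 : j' - (j' - i) = i := by omega
        simp [h2, h3, hi']
    rw [hsum, hj', hR]
    simp [CM, hj, hj']

/-- Base case of the Wronskian lemma. -/
theorem wr_base (h : WrData d π a c f) :
    ‖(WM c d).det‖ * ‖π‖ ^ d = 1 ∧ ∃ N : Matrix (Fin (d + 1)) (Fin (d + 1)) K, IntM N ∧
      N * WM c d = 1 := by
  set W : Matrix (Fin (d + 1)) (Fin (d + 1)) K := Matrix.of fun (j k : Fin (d + 1)) => c j.1 k
    with hW
  have hmul := QM_mul h
  have hdet : (QM d π a).det * W.det = 1 := by
    rw [← Matrix.det_mul, hmul, CM_det h]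
  rw [QM_det h] at hdet
  have hWd : WM c d = W.submatrix Fin.revPerm id := by
    ext i k
    simp only [WM, hW, Matrix.submatrix_apply, Matrix.of_apply, id, Fin.revPerm_apply, Fin.val_rev]
    congr 1
    omega
  constructor
  · rw [hWd]
    have hs : (W.submatrix Fin.revPerm id).det =
        ((Equiv.Perm.sign (Fin.revPerm (n := d + 1)) : ℤˣ) : K) * W.det := by
      simpa using Matrix.det_permute (Fin.revPerm) W
    have hsign : ‖((Equiv.Perm.sign (Fin.revPerm (n := d + 1)) : ℤˣ) : K)‖ = 1 := by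
      rcases Int.units_eq_one_or (Equiv.Perm.sign (Fin.revPerm (n := d + 1))) with h' | h' <;>
        simp [h']
    rw [hs, norm_mul, hsign, one_mul, mul_comm, ← norm_pow, ← norm_mul, hdet, norm_one]
  · obtain ⟨Ci, hCi, hCi1⟩ := (CM_int h).exists_inv (by rw [CM_det h, norm_one])
    refine ⟨(Ci * QM d π a).submatrix id Fin.revPerm, fun i j => (hCi.mul (QM_int h)) _ _, ?_⟩
    have h1 : ((Ci * QM d π a).submatrix id Fin.revPerm) * WM c d = 1 := by
      rw [hWd]
      have := Matrix.submatrix_mul_equiv (Ci * QM d π a) W id Fin.revPerm id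
      rw [this, Matrix.mul_assoc, hmul, hCi1]
      simp
    exact h1

/-! ### The step -/

/-- Companion matrix. -/
noncomputable def BM (d : ℕ) (π : K) (a : ℕ → ℕ → K) (m : ℕ) :
    Matrix (Fin (d + 1)) (Fin (d + 1)) K :=
  fun i k => if i.1 = 0 then π⁻¹ * a k.1 (m - k.1) else (if i.1 = k.1 + 1 then 1 else 0)

/-- Its integral inverse. -/
noncomputable def BI (d : ℕ) (π : K) (a : ℕ → ℕ → K) (m : ℕ) :
    Matrix (Fin (d + 1)) (Fin (d + 1)) K :=
  fun i k => if i.1 = d then (if k.1 = 0 then π else - a (k.1 - 1) (m - (k.1 - 1)))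
    else (if k.1 = i.1 + 1 then 1 else 0)

lemma BI_int (h : WrData d π a c f) (m : ℕ) : IntM (BI d π a m) := fun j b => by
  unfold BI
  split_ifs <;> simp [h.π1.le, h.a_le]

lemma BI_mul (h : WrData d π a c f) (m : ℕ) : BI d π a m * BM d π a m = 1 := by
  ext i k
  rw [Matrix.mul_apply, Fin.sum_univ_succ]
  have hB : ∀ j' : Fin d, BM d π a m j'.succ k = if j'.1 = k.1 then 1 else 0 := by
    intro j'
    simp [BM]
  simp only [hB]
  simp only [BM, Fin.val_zero, if_true]
  by_cases hi : i.1 = d
  · have hBI : ∀ j' : Fin d, BI d π a m i j'.succ = - a j'.1 (m - j'.1) := by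
      intro j'
      simp [BI, hi]
    simp only [hBI]
    have h0 : BI d π a m i 0 = π := by simp [BI, hi]
    rw [h0, mul_inv_cancel_left₀ h.π0]
    by_cases hk : k.1 < d
    · have h1 : ∑ x : Fin d, - a x.1 (m - x.1) * (if x.1 = k.1 then (1 : K) else 0)
          = - a k.1 (m - k.1) := by
        rw [Finset.sum_eq_single (⟨k.1, hk⟩ : Fin d)]
        · simp
        · intro b _ hb
          have : b.1 ≠ k.1 := fun e => hb (Fin.ext e)
          simp [this]
        · simp
      rw [h1, Matrix.one_apply_ne]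
      · ring
      · intro e
        rw [e] at hi
        omega
    · have hkd : k = i := Fin.ext (by have := k.2; omega)
      subst hkd
      have h1 : ∑ x : Fin d, - a x.1 (m - x.1) * (if x.1 = k.1 then (1 : K) else 0) = 0 := by
        refine Finset.sum_eq_zero fun x _ => ?_
        have : x.1 ≠ k.1 := by have := x.2; omega
        simp [this]
      rw [h1, hi, h.a_last, Matrix.one_apply_eq]
      ring
  · have hi' : i.1 < d := by have := i.2; omega
    have h0 : BI d π a m i 0 = 0 := by simp [BI, hi]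
    rw [h0, zero_mul, zero_add]
    rw [Finset.sum_eq_single (⟨i.1, hi'⟩ : Fin d)]
    · simp only [BI, hi, if_false, Fin.val_succ, if_true, one_mul]
      by_cases hik : i = k
      · subst hik; simp
      · have : i.1 ≠ k.1 := fun e => hik (Fin.ext e)
        simp [this, Matrix.one_apply_ne hik]
    · intro b _ hb
      have : b.1 ≠ i.1 := fun e => hb (Fin.ext e)
      have h2 : ¬ (b.1 + 1 = i.1 + 1) := by omega
      simp [BI, hi, h2]
      exact fun _ => this
    · simp

lemma BM_det (h : WrData d π a c f) (m : ℕ) (hm : d ≤ m) : ‖(BM d π a m).det‖ = ‖π‖⁻¹ := by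
  rw [Matrix.det_succ_row_zero, Finset.sum_eq_single (Fin.last d)]
  · have h1 : ((BM d π a m).submatrix Fin.succ (Fin.last d).succAbove) = 1 := by
      ext i k
      by_cases hik : i = k
      · subst hik
        simp [BM]
      · have : i.1 ≠ k.1 := fun e => hik (Fin.ext e)
        simp [BM, Matrix.one_apply_ne hik, this]
    rw [h1]
    have hl : BM d π a m 0 (Fin.last d) = π⁻¹ := by
      simp [BM, h.a_last]
    rw [hl]
    simp
  · intro b _ hb
    have hb' : b.1 < d := by
      have := b.2
      have h2 : b.1 ≠ d := fun e => hb (Fin.ext e)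
      omega
    have : ((BM d π a m).submatrix Fin.succ b.succAbove).det = 0 := by
      refine Matrix.det_eq_zero_of_row_eq_zero (⟨b.1, hb'⟩ : Fin d) fun k => ?_
      have h3 : (b.succAbove k).1 ≠ b.1 := by
        intro e
        exact (Fin.succAbove_ne b k) (Fin.ext e)
      simp only [BM, Matrix.submatrix_apply, Fin.val_succ]
      have h4 : b.1 + 1 ≠ (b.succAbove k).1 + 1 := by omega
      simp [h4]
      exact fun e => h3 e.symm
    rw [this]
    simp
  · simp

/-- last-row forcing matrix -/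
def EM {d : ℕ} (f : ℕ → Fin (d + 1) → K) (m : ℕ) : Matrix (Fin (d + 1)) (Fin (d + 1)) K :=
  fun i k => if i = Fin.last d then f (m + 1) k else 0

lemma WM_succ (h : WrData d π a c f) (m : ℕ) (hm : d ≤ m) :
    WM c (m + 1) = BM d π a m * (WM c m + EM f m) := by
  ext i k
  rw [Matrix.mul_apply]
  by_cases hi : i.1 = 0
  · have hi' : i = 0 := Fin.ext hi
    subst hi'
    simp only [BM, Fin.val_zero, if_true, Matrix.add_apply, WM, EM]
    have hR := h.recur m k
    have h1 : ∑ i ∈ Finset.range (d + 1), (if i ≤ m then c (m - i) k * a i (m - i) else 0)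
        = ∑ x : Fin (d + 1), c (m - x.1) k * a x.1 (m - x.1) := by
      rw [← Fin.sum_univ_eq_sum_range
        (fun i => if i ≤ m then c (m - i) k * a i (m - i) else 0) (d + 1)]
      refine Finset.sum_congr rfl fun x _ => ?_
      have : x.1 ≤ m := by have := x.2; omega
      simp [this]
    rw [h1] at hR
    have h2 : ∑ x : Fin (d + 1), π⁻¹ * a x.1 (m - x.1) *
        (c (m - x.1) k + if x = Fin.last d then f (m + 1) k else 0) =
        π⁻¹ * (∑ x : Fin (d + 1), c (m - x.1) k * a x.1 (m - x.1) + f (m + 1) k) := by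
      rw [mul_add, Finset.mul_sum]
      have h3 : ∀ x : Fin (d + 1), π⁻¹ * a x.1 (m - x.1) *
          (c (m - x.1) k + if x = Fin.last d then f (m + 1) k else 0) =
          π⁻¹ * (c (m - x.1) k * a x.1 (m - x.1)) +
            (if x = Fin.last d then π⁻¹ * f (m + 1) k else 0) := by
        intro x
        split_ifs with hx
        · subst hx
          simp [h.a_last]
          ring
        · ring
      rw [Finset.sum_congr rfl fun x _ => h3 x, Finset.sum_add_distrib]
      simp
    rw [h2, ← hR, inv_mul_cancel_left₀ h.π0]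
    simp
  · obtain ⟨i', hi'⟩ : ∃ i', i.1 = i' + 1 := Nat.exists_eq_succ_of_ne_zero hi
    have hi'd : i' < d := by have := i.2; omega
    rw [Finset.sum_eq_single (⟨i', by omega⟩ : Fin (d + 1))]
    · have hne : (⟨i', by omega⟩ : Fin (d + 1)) ≠ Fin.last d := by
        intro e
        have := congrArg Fin.val e
        simp at this
        omega
      simp [BM, hi, hi', WM, EM, hne]
    · intro b _ hb
      have : i' ≠ b.1 := fun e => hb (Fin.ext e.symm)
      have h2 : ¬ (i' + 1 = b.1 + 1) := by omega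
      simp [BM, hi, hi', h2]
      exact fun e => absurd e this
    · simp

/-- The step of the Wronskian lemma. -/
theorem wr_step (h : WrData d π a c f) (m : ℕ) (hm : d ≤ m)
    (hdet : ‖(WM c m).det‖ * ‖π‖ ^ m = 1)
    (hN : ∃ N : Matrix (Fin (d + 1)) (Fin (d + 1)) K, IntM N ∧ N * WM c m = 1) :
    ‖(WM c (m + 1)).det‖ * ‖π‖ ^ (m + 1) = 1 ∧
      ∃ N : Matrix (Fin (d + 1)) (Fin (d + 1)) K, IntM N ∧ N * WM c (m + 1) = 1 := by
  obtain ⟨N, hNi, hN1⟩ := hN
  have hN2 : WM c m * N = 1 := mul_eq_one_comm.mp hN1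
  set u : Fin (d + 1) → K := fun i => N i (Fin.last d) with hu
  set v : Fin (d + 1) → K := fun k => f (m + 1) k with hv
  have hNE : N * EM f m = Matrix.replicateCol Unit u * Matrix.replicateRow Unit v := by
    ext i k
    rw [Matrix.mul_apply, Finset.sum_eq_single (Fin.last d)]
    · simp [EM, hu, hv, Matrix.mul_apply]
    · intro b _ hb
      simp [EM, hb]
    · simp
  have hvlt : ∀ k, ‖v k‖ < 1 := fun k =>
    h.f_small _ _ (by have := k.2; omega)
  set G : Matrix (Fin (d + 1)) (Fin (d + 1)) K := 1 + N * EM f m with hG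
  have hGdet : ‖G.det‖ = 1 := by
    rw [hG, hNE, Matrix.det_one_add_replicateCol_mul_replicateRow]
    apply norm_one_add_of_lt
    refine norm_sum_lt_one _ _ fun k _ => ?_
    rw [norm_mul]
    calc ‖v k‖ * ‖u k‖ ≤ ‖v k‖ * 1 := by gcongr; exact hNi _ _
      _ < 1 := by simpa using hvlt k
  have hGint : IntM G := by
    intro i k
    rw [hG, hNE, Matrix.add_apply]
    refine (IsUltrametricDist.norm_add_le_max _ _).trans (max_le ?_ ?_)
    · rw [Matrix.one_apply]
      split_ifs <;> simp
    · simp only [Matrix.mul_apply, Matrix.replicateCol_apply, Matrix.replicateRow_apply,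
        Fintype.univ_unit, Finset.sum_singleton]
      rw [norm_mul]
      exact mul_le_one₀ (hNi _ _) (norm_nonneg _) (hvlt k).le
  have hWE : WM c m + EM f m = WM c m * G := by
    rw [hG, Matrix.mul_add, Matrix.mul_one, ← Matrix.mul_assoc, hN2, Matrix.one_mul]
  have hstep := WM_succ h m hm
  constructor
  · rw [hstep, Matrix.det_mul, hWE, Matrix.det_mul, norm_mul, norm_mul, BM_det h m hm, hGdet,
      mul_one, pow_succ]
    have hπ : ‖π‖ ≠ 0 := norm_ne_zero_iff.mpr h.π0
    field_simp
    linarith [hdet]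
  · obtain ⟨Gi, hGii, hGi1⟩ := hGint.exists_inv hGdet
    refine ⟨Gi * N * BI d π a m, (hGii.mul hNi).mul (BI_int h m), ?_⟩
    rw [hstep, hWE]
    calc Gi * N * BI d π a m * (BM d π a m * (WM c m * G))
        = Gi * N * (BI d π a m * BM d π a m) * (WM c m * G) := by
          simp only [Matrix.mul_assoc]
      _ = Gi * ((N * WM c m) * G) := by
          rw [BI_mul h m]; simp only [Matrix.mul_assoc, Matrix.mul_one]
      _ = 1 := by rw [hN1, Matrix.one_mul, hGi1]

/-- The Wronskian lemma: `|det W_m| = |p|^{-m}` for `m ≥ d`. -/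
theorem wr_all (h : WrData d π a c f) (m : ℕ) (hm : d ≤ m) :
    ‖(WM c m).det‖ * ‖π‖ ^ m = 1 ∧
      ∃ N : Matrix (Fin (d + 1)) (Fin (d + 1)) K, IntM N ∧ N * WM c m = 1 := by
  induction m, hm using Nat.le_induction with
  | base => exact wr_base h
  | succ m hm ih => exact wr_step h m hm ih.1 ih.2

end Period
end Crest.Agent.LT
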