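/-
D1, D2: the period limits `Φ_r = lim p^w ℓ_{(d+1)w+r}` and their Wronskian (BLUEPRINT §D1, §D2).
Here `n = d + 1`, the variables are `Fin d`.
-/
import Crest.Agent.Lib.LT.Eval
import Crest.Agent.Lib.LT.P2Wronskian

set_option autoImplicit false
set_option linter.unusedSectionVars false
set_option linter.unusedVariables false
set_option linter.deprecated false
set_option linter.unusedSimpArgs false
set_option linter.unnecessarySimpa false

namespace Crest.Agent.LT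
namespace Period

open MvPowerSeries Filter Topology

variable {K : Type*} [NontriviallyNormedField K] [IsUltrametricDist K]

/-- `v_{i+1}` as a polynomial, with `v_{d+1} = 1` (only used for `i ≤ d`). -/
noncomputable def vP (d : ℕ) (i : ℕ) : MvPolynomial (Fin d) K :=
  if h : i < d then MvPolynomial.X ⟨i, h⟩ else 1

/-- The defining recursion of the coefficients of the logarithm, with `v_{d+1} = 1` and
`v_j = 0` for `j > d + 1`. -/
structure IsLogSeq (p d : ℕ) (ℓ : ℕ → MvPolynomial (Fin d) K) : Prop where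
  zero : ℓ 0 = 1
  succ : ∀ m, MvPolynomial.C (p : K) * ℓ (m + 1) =
    ∑ i ∈ Finset.range (d + 1), if i ≤ m then ℓ (m - i) * vP d i ^ (p ^ (m - i)) else 0

variable {p d : ℕ} {ℓ : ℕ → MvPolynomial (Fin d) K}

/-- Coercion to series. -/
noncomputable abbrev cS (f : MvPolynomial (Fin d) K) : MvPowerSeries (Fin d) K :=
  MvPolynomial.coeToMvPowerSeries.ringHom f

lemma isB_sum {ι : Type*} {ε C : ℝ} (hε : 0 ≤ ε) (hC : 0 ≤ C) (s : Finset ι)
    (g : ι → MvPowerSeries (Fin d) K) (h : ∀ i ∈ s, IsB ε C (g i)) : IsB ε C (∑ i ∈ s, g i) := by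
  classical
  induction s using Finset.induction_on with
  | empty => simpa using (isB_zero ε).mono hC
  | insert a s ha ih =>
    rw [Finset.sum_insert ha]
    exact (h a (Finset.mem_insert_self _ _)).add
      (ih fun i hi => h i (Finset.mem_insert_of_mem hi)) hε

lemma exists_isB_poly {ρ : ℝ} (hρ : 0 ≤ ρ) (f : MvPolynomial (Fin d) K) :
    ∃ C, 0 ≤ C ∧ IsB ρ C (cS f) := by
  induction f using MvPolynomial.induction_on with
  | C a =>
    refine ⟨‖a‖, norm_nonneg _, ?_⟩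
    have : cS (MvPolynomial.C a : MvPolynomial (Fin d) K) = MvPowerSeries.C a := by
      simp [cS, MvPolynomial.coeToMvPowerSeries.ringHom_apply]
    rw [this]
    exact isB_C ρ hρ a
  | add f g hf hg =>
    obtain ⟨C₁, h1, hf⟩ := hf
    obtain ⟨C₂, h2, hg⟩ := hg
    refine ⟨C₁ + C₂, by positivity, ?_⟩
    rw [cS, map_add]
    exact (hf.mono (by linarith)).add (hg.mono (by linarith)) hρ
  | mul_X f i hf =>
    obtain ⟨C₁, h1, hf⟩ := hf
    refine ⟨C₁ * ρ, by positivity, ?_⟩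
    rw [cS, map_mul]
    refine hf.mul ?_ hρ
    have : MvPolynomial.coeToMvPowerSeries.ringHom (MvPolynomial.X i : MvPolynomial (Fin d) K) =
        MvPowerSeries.X i := by
      simp [MvPolynomial.coeToMvPowerSeries.ringHom_apply]
    rw [this]
    exact isB_X ρ hρ i

lemma cS_vP_of_lt {i : ℕ} (h : i < d) : cS (vP (K := K) d i) = MvPowerSeries.X ⟨i, h⟩ := by
  simp [cS, vP, h, MvPolynomial.coeToMvPowerSeries.ringHom_apply]

lemma cS_vP_last : cS (vP (K := K) d d) = 1 := by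
  simp [cS, vP]

/-- The recursion in the stable range, as series. -/
lemma IsLogSeq.stable (h : IsLogSeq (K := K) p d ℓ) (m : ℕ) (hm : d ≤ m) :
    MvPowerSeries.C (p : K) * cS (ℓ (m + 1)) =
      cS (ℓ (m - d)) + ∑ i ∈ Finset.range d, cS (ℓ (m - i)) * cS (vP d i) ^ (p ^ (m - i)) := by
  have h1 := congrArg cS (h.succ m)
  have hC : cS (MvPolynomial.C (p : K) : MvPolynomial (Fin d) K) = MvPowerSeries.C (p : K) := by
    simp [cS, MvPolynomial.coeToMvPowerSeries.ringHom_apply]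
  rw [cS, map_mul, ← cS, hC] at h1
  rw [h1, cS, map_sum, Finset.sum_range_succ, add_comm]
  congr 1
  · rw [if_pos hm, map_mul, map_pow]
    have : MvPolynomial.coeToMvPowerSeries.ringHom (vP (K := K) d d) = 1 := cS_vP_last
    rw [this, one_pow, mul_one]
  · refine Finset.sum_congr rfl fun i hi => ?_
    have : i ≤ m := by have := Finset.mem_range.mp hi; omega
    rw [if_pos this, map_mul, map_pow]

/-- `Gauss norm` estimate for the coefficients of the logarithm. -/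
theorem exists_bound (hp : 1 < p) (hπ0 : (p : K) ≠ 0) (hπ1 : ‖(p : K)‖ < 1)
    (h : IsLogSeq (K := K) p d ℓ) {ρ : ℝ} (hρ0 : 0 < ρ) (hρ1 : ρ < 1) :
    ∃ C, 0 ≤ C ∧ ∀ m, IsB ρ (C * (‖(p : K)‖⁻¹) ^ (m / (d + 1))) (cS (ℓ m)) := by
  set R : ℝ := ‖(p : K)‖⁻¹ with hR
  have hπpos : 0 < ‖(p : K)‖ := norm_pos_iff.mpr hπ0
  have hR1 : 1 ≤ R := (one_le_inv₀ hπpos).mpr hπ1.le
  have hR0 : 0 < R := by linarith
  -- threshold
  obtain ⟨m₀, hm₀⟩ : ∃ m₀ : ℕ, ρ ^ m₀ ≤ R⁻¹ := by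
    have := (tendsto_pow_atTop_nhds_zero_of_lt_one hρ0.le hρ1)
    obtain ⟨N, hN⟩ := ((tendsto_order.1 this).2 R⁻¹ (by positivity)).exists
    exact ⟨N, hN.le⟩
  have hthr : ∀ e, m₀ ≤ e → R * ρ ^ (p ^ e) ≤ 1 := by
    intro e he
    have h1 : m₀ ≤ p ^ e := he.trans (Nat.lt_pow_self hp).le
    have h2 : ρ ^ (p ^ e) ≤ ρ ^ m₀ := pow_le_pow_of_le_one hρ0.le hρ1.le h1
    calc R * ρ ^ (p ^ e) ≤ R * R⁻¹ := by gcongr; exact h2.trans hm₀
      _ = 1 := mul_inv_cancel₀ hR0.ne'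
  -- constants for the initial segment
  choose C₀ hC₀0 hC₀ using fun m => exists_isB_poly (K := K) hρ0.le (ℓ m)
  set m₁ := m₀ + d + 1 with hm₁
  set C := ∑ m ∈ Finset.range m₁, C₀ m with hCdef
  have hC0 : 0 ≤ C := Finset.sum_nonneg fun m _ => hC₀0 m
  refine ⟨C, hC0, ?_⟩
  have hRpow : ∀ k : ℕ, 1 ≤ R ^ k := fun k => one_le_pow₀ hR1
  intro m
  induction m using Nat.strong_induction_on with
  | _ m ih =>
    by_cases hm : m < m₁
    · refine (hC₀ m).mono ?_
      have h1 : C₀ m ≤ C := Finset.single_le_sum (fun i _ => hC₀0 i) (Finset.mem_range.mpr hm)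
      calc C₀ m ≤ C := h1
        _ = C * 1 := (mul_one C).symm
        _ ≤ C * R ^ (m / (d + 1)) := by gcongr; exact hRpow _
    · obtain ⟨m', rfl⟩ : ∃ m', m = m' + 1 := ⟨m - 1, by omega⟩
      have hm' : m₀ + d ≤ m' := by omega
      have hs := h.stable m' (by omega)
      have hpinv : cS (ℓ (m' + 1)) = MvPowerSeries.C ((p : K)⁻¹) * (MvPowerSeries.C (p : K) * cS (ℓ (m' + 1))) := by
        rw [← mul_assoc, ← map_mul, inv_mul_cancel₀ hπ0, map_one, one_mul]
      rw [hpinv, hs]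
      -- the bracket is bounded by `‖p‖ * target`
      set B : ℝ := C * R ^ ((m' + 1) / (d + 1)) with hB
      have hB0 : 0 ≤ B := by positivity
      have hbr : IsB ρ (‖(p : K)‖ * B) (cS (ℓ (m' - d)) + ∑ i ∈ Finset.range d,
          cS (ℓ (m' - i)) * cS (vP d i) ^ (p ^ (m' - i))) := by
        refine IsB.add ?_ (isB_sum hρ0.le (by positivity) _ _ fun i hi => ?_) hρ0.le
        · refine (ih _ (by omega)).mono (le_of_eq ?_)
          have hdiv : (m' + 1) / (d + 1) = (m' - d) / (d + 1) + 1 := by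
            have : m' + 1 = (m' - d) + (d + 1) := by omega
            rw [this, Nat.add_div_right _ (Nat.succ_pos d)]
          rw [hB, hdiv, pow_succ, hR]
          have : ‖(p : K)‖ * ‖(p : K)‖⁻¹ = 1 := mul_inv_cancel₀ hπpos.ne'
          calc _ = C * (‖(p : K)‖⁻¹) ^ ((m' - d) / (d + 1)) * (‖(p : K)‖ * ‖(p : K)‖⁻¹) := by
                rw [this, mul_one]
            _ = _ := by ring
        · have hi' : i < d := Finset.mem_range.mp hi
          have hle : m₀ ≤ m' - i := by omega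
          have hX : IsB ρ (ρ ^ (p ^ (m' - i))) (cS (vP (K := K) d i) ^ (p ^ (m' - i))) := by
            rw [cS_vP_of_lt hi']
            exact (isB_X ρ hρ0.le _).pow hρ0.le _
          have h1 := (ih (m' - i) (by omega)).mul hX hρ0.le
          refine h1.mono ?_
          have h2 := hthr _ hle
          have h3 : R ^ ((m' - i) / (d + 1)) ≤ R ^ ((m' + 1) / (d + 1)) :=
            pow_le_pow_right₀ hR1 (Nat.div_le_div_right (by omega))
          have hρp : 0 ≤ ρ ^ (p ^ (m' - i)) := by positivity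
          have h4 : ρ ^ (p ^ (m' - i)) ≤ ‖(p : K)‖ := by
            have : ρ ^ (p ^ (m' - i)) = R⁻¹ * (R * ρ ^ (p ^ (m' - i))) := by
              field_simp
            rw [this]
            have hRi : R⁻¹ = ‖(p : K)‖ := by rw [hR, inv_inv]
            rw [hRi]
            calc ‖(p : K)‖ * (R * ρ ^ (p ^ (m' - i))) ≤ ‖(p : K)‖ * 1 := by gcongr
              _ = ‖(p : K)‖ := mul_one _
          calc C * R ^ ((m' - i) / (d + 1)) * ρ ^ (p ^ (m' - i))
              ≤ C * R ^ ((m' + 1) / (d + 1)) * ‖(p : K)‖ := by gcongr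
            _ = ‖(p : K)‖ * B := by rw [hB]; ring
      have h5 := (isB_C (σ := Fin d) ρ hρ0.le ((p : K)⁻¹)).mul hbr hρ0.le
      refine h5.mono (le_of_eq ?_)
      rw [norm_inv, ← mul_assoc, inv_mul_cancel₀ hπpos.ne', one_mul]

/-- The approximating sequence. -/
noncomputable def aS (p d : ℕ) (ℓ : ℕ → MvPolynomial (Fin d) K) (r w : ℕ) :
    MvPowerSeries (Fin d) K :=
  MvPowerSeries.C ((p : K) ^ w) * cS (ℓ ((d + 1) * w + r))

/-- Geometric decay of the differences. -/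
theorem exists_diff_bound (hp : 1 < p) (hπ0 : (p : K) ≠ 0) (hπ1 : ‖(p : K)‖ < 1)
    (h : IsLogSeq (K := K) p d ℓ) {ρ : ℝ} (hρ0 : 0 < ρ) (hρ1 : ρ < 1) (r : ℕ) :
    ∃ D, 0 ≤ D ∧ ∀ w, IsB ρ (D * ρ ^ w) (aS p d ℓ r (w + 1) - aS p d ℓ r w) := by
  obtain ⟨C, hC0, hC⟩ := exists_bound hp hπ0 hπ1 h hρ0 hρ1
  set R : ℝ := ‖(p : K)‖⁻¹ with hR
  have hπpos : 0 < ‖(p : K)‖ := norm_pos_iff.mpr hπ0
  have hR1 : 1 ≤ R := (one_le_inv₀ hπpos).mpr hπ1.le
  have hR0 : 0 < R := by linarith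
  refine ⟨C * R ^ ((d + r) / (d + 1)), by positivity, fun w => ?_⟩
  set m := (d + 1) * w + d + r with hm
  have hdm : d ≤ m := by
    rw [hm]; omega
  have hs := h.stable m hdm
  have e1 : (d + 1) * (w + 1) + r = m + 1 := by rw [hm]; ring
  have e2 : m - d = (d + 1) * w + r := by
    rw [hm]; omega
  have hdiff : aS p d ℓ r (w + 1) - aS p d ℓ r w = MvPowerSeries.C ((p : K) ^ w) *
      ∑ i ∈ Finset.range d, cS (ℓ (m - i)) * cS (vP d i) ^ (p ^ (m - i)) := by
    simp only [aS]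
    rw [e1, pow_succ, map_mul, mul_assoc, hs, e2, mul_add]
    ring
  rw [hdiff]
  have hpow : ‖(p : K) ^ w‖ = ‖(p : K)‖ ^ w := norm_pow _ _
  have hsum : IsB ρ (R ^ w * (C * R ^ ((d + r) / (d + 1)) * ρ ^ w))
      (∑ i ∈ Finset.range d, cS (ℓ (m - i)) * cS (vP d i) ^ (p ^ (m - i))) := by
    refine isB_sum hρ0.le (by positivity) _ _ fun i hi => ?_
    have hi' : i < d := Finset.mem_range.mp hi
    have hX : IsB ρ (ρ ^ (p ^ (m - i))) (cS (vP (K := K) d i) ^ (p ^ (m - i))) := by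
      rw [cS_vP_of_lt hi']
      exact (isB_X ρ hρ0.le _).pow hρ0.le _
    refine ((hC (m - i)).mul hX hρ0.le).mono ?_
    have hdv : (m - i) / (d + 1) ≤ w + (d + r) / (d + 1) := by
      have h1 : (m - i) / (d + 1) ≤ m / (d + 1) := Nat.div_le_div_right (by omega)
      have h2 : m / (d + 1) = (d + r) / (d + 1) + w := by
        rw [hm, show (d + 1) * w + d + r = (d + r) + (d + 1) * w by ring,
          Nat.add_mul_div_left _ _ (Nat.succ_pos d)]
      omega
    have h3 : R ^ ((m - i) / (d + 1)) ≤ R ^ w * R ^ ((d + r) / (d + 1)) := by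
      rw [← pow_add]
      exact pow_le_pow_right₀ hR1 hdv
    have h4 : ρ ^ (p ^ (m - i)) ≤ ρ ^ w := by
      refine pow_le_pow_of_le_one hρ0.le hρ1.le ?_
      have h5 : m - i ≤ p ^ (m - i) := (Nat.lt_pow_self hp).le
      have h6 : w ≤ m - i := by
        have : w ≤ (d + 1) * w := Nat.le_mul_of_pos_left w (Nat.succ_pos d)
        rw [hm]; omega
      omega
    calc C * R ^ ((m - i) / (d + 1)) * ρ ^ (p ^ (m - i))
        ≤ C * (R ^ w * R ^ ((d + r) / (d + 1))) * ρ ^ w := by gcongr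
      _ = _ := by ring
  have h5 := (isB_C (σ := Fin d) ρ hρ0.le ((p : K) ^ w)).mul hsum hρ0.le
  refine h5.mono (le_of_eq ?_)
  rw [hpow, ← mul_assoc, hR, ← mul_pow, mul_inv_cancel₀ hπpos.ne', one_pow, one_mul]

variable [CompleteSpace K]

/-- The period series `Φ_r`. -/
noncomputable def PhiS (p d : ℕ) (ℓ : ℕ → MvPolynomial (Fin d) K) (r : ℕ) :
    MvPowerSeries (Fin d) K :=
  fun γ => limUnder atTop (fun w => coeff γ (aS p d ℓ r w))

lemma coeff_PhiS (γ : Fin d →₀ ℕ) (r : ℕ) :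
    coeff γ (PhiS p d ℓ r) = limUnder atTop (fun w => coeff γ (aS p d ℓ r w)) := rfl

/-- Geometric convergence in the Gauss norm. -/
theorem exists_limit_bound (hp : 1 < p) (hπ0 : (p : K) ≠ 0) (hπ1 : ‖(p : K)‖ < 1)
    (h : IsLogSeq (K := K) p d ℓ) {ρ : ℝ} (hρ0 : 0 < ρ) (hρ1 : ρ < 1) (r : ℕ) :
    ∃ D, 0 ≤ D ∧ ∀ w, IsB ρ (D * ρ ^ w) (aS p d ℓ r w - PhiS p d ℓ r) := by
  obtain ⟨D, hD0, hD⟩ := exists_diff_bound hp hπ0 hπ1 h hρ0 hρ1 r
  refine ⟨D / (1 - ρ), div_nonneg hD0 (by linarith), fun w γ => ?_⟩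
  have hpow : 0 < ρ ^ Finsupp.degree γ := pow_pos hρ0 _
  set D' := D / ρ ^ Finsupp.degree γ with hD'
  have hgeo : ∀ w, dist (coeff γ (aS p d ℓ r w)) (coeff γ (aS p d ℓ r (w + 1))) ≤ D' * ρ ^ w := by
    intro w
    have h1 := hD w γ
    rw [dist_comm, dist_eq_norm, ← map_sub, hD', div_mul_eq_mul_div, le_div_iff₀ hpow]
    exact h1
  have hcau := cauchySeq_of_le_geometric ρ D' hρ1 hgeo
  have hlim : Tendsto (fun w => coeff γ (aS p d ℓ r w)) atTop (𝓝 (coeff γ (PhiS p d ℓ r))) :=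
    tendsto_nhds_limUnder (cauchySeq_tendsto_of_complete hcau)
  have hle := dist_le_of_le_geometric_of_tendsto ρ D' hρ1 hgeo hlim w
  rw [dist_eq_norm, ← map_sub] at hle
  calc ‖coeff γ (aS p d ℓ r w - PhiS p d ℓ r)‖ * ρ ^ Finsupp.degree γ
      ≤ D' * ρ ^ w / (1 - ρ) * ρ ^ Finsupp.degree γ := by gcongr
    _ = D / (1 - ρ) * ρ ^ w := by
      rw [hD']
      have h1 : 1 - ρ ≠ 0 := by linarith
      field_simp

/-- `Φ_r` is bounded at every radius below one. -/
theorem exists_isB_PhiS (hp : 1 < p) (hπ0 : (p : K) ≠ 0) (hπ1 : ‖(p : K)‖ < 1)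
    (h : IsLogSeq (K := K) p d ℓ) {ρ : ℝ} (hρ0 : 0 < ρ) (hρ1 : ρ < 1) (r : ℕ) :
    ∃ C, 0 ≤ C ∧ IsB ρ C (PhiS p d ℓ r) := by
  obtain ⟨D, hD0, hD⟩ := exists_limit_bound hp hπ0 hπ1 h hρ0 hρ1 r
  obtain ⟨C, hC0, hC⟩ := exists_isB_poly (K := K) hρ0.le (ℓ ((d + 1) * 0 + r))
  refine ⟨C + D, by positivity, ?_⟩
  have h1 : PhiS p d ℓ r = aS p d ℓ r 0 - (aS p d ℓ r 0 - PhiS p d ℓ r) := by ring
  rw [h1]
  refine IsB.sub ?_ ?_ hρ0.le
  · simp only [aS, pow_zero, map_one, one_mul]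
    exact hC.mono (by linarith)
  · exact (hD 0).mono (by simp; linarith)

/-! ### Evaluation of polynomials -/

lemma evalS_cS (f : MvPolynomial (Fin d) K) (y : Fin d → K) :
    evalS (cS f) y = MvPolynomial.eval y f := by
  rw [evalS, MvPolynomial.eval_eq', tsum_eq_sum (s := f.support)]
  · refine Finset.sum_congr rfl fun γ _ => ?_
    simp [cS, mval, MvPolynomial.coeToMvPowerSeries.ringHom_apply]
  · intro γ hγ
    have : MvPolynomial.coeff γ f = 0 := by simpa using hγ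
    simp [cS, MvPolynomial.coeToMvPowerSeries.ringHom_apply, this]

omit [CompleteSpace K] in
lemma mchoose_single (γ : Fin d →₀ ℕ) (b : Fin d) :
    mchoose (γ + Finsupp.single b 1) (Finsupp.single b 1) = γ b + 1 := by
  classical
  rw [mchoose, Finset.prod_eq_single b]
  · simp
  · intro i _ hi
    simp [Finsupp.single_apply, hi.symm]
  · simp

omit [CompleteSpace K] in
lemma hasse_cS (f : MvPolynomial (Fin d) K) (b : Fin d) :
    hasse (Finsupp.single b 1) (cS f) = cS (MvPolynomial.pderiv b f) := by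
  ext γ
  rw [coeff_hasse, mchoose_single]
  simp only [cS, MvPolynomial.coeToMvPowerSeries.ringHom_apply, MvPolynomial.coeff_coe,
    MvPolynomial.coeff_pderiv]
  push_cast
  ring

/-! ### Convergence of the values -/

lemma exists_radius_lt {y : Fin d → K} (hy : ∀ i, ‖y i‖ < 1) :
    ∃ ρ : ℝ, 0 < ρ ∧ ρ < 1 ∧ ∀ i, ‖y i‖ < ρ := by
  obtain ⟨ρ₀, h0, h1, h2⟩ := exists_radius (σ := Fin d) (K := K) (ε := 1) one_pos hy
  exact ⟨(ρ₀ + 1) / 2, by linarith, by linarith, fun i => by have := h2 i; linarith⟩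

lemma tendsto_evalS_of_geom {ρ D : ℝ} (hρ0 : 0 < ρ) (hρ1 : ρ < 1)
    {A : ℕ → MvPowerSeries (Fin d) K} {Φ : MvPowerSeries (Fin d) K}
    (hA : ∀ w, ∃ C, IsB ρ C (A w)) (hΦ : ∃ C, IsB ρ C Φ) (hD : ∀ w, IsB ρ (D * ρ ^ w) (A w - Φ))
    {y : Fin d → K} (hy : ∀ i, ‖y i‖ < ρ) :
    Tendsto (fun w => evalS (A w) y) atTop (𝓝 (evalS Φ y)) := by
  rw [tendsto_iff_norm_sub_tendsto_zero]
  have hlim : Tendsto (fun w : ℕ => D * ρ ^ w) atTop (𝓝 0) := by
    simpa using (tendsto_pow_atTop_nhds_zero_of_lt_one hρ0.le hρ1).const_mul D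
  refine squeeze_zero (fun _ => norm_nonneg _) (fun w => ?_) hlim
  obtain ⟨C₁, h1⟩ := hA w
  obtain ⟨C₂, h2⟩ := hΦ
  have h1' : IsB ρ (max C₁ C₂) (A w) := h1.mono (le_max_left _ _)
  have h2' : IsB ρ (max C₁ C₂) Φ := h2.mono (le_max_right _ _)
  rw [← evalS_sub hρ0 h1' h2' hy]
  exact norm_evalS_le hρ0 (hD w) fun i => (hy i).le

omit [CompleteSpace K] in
lemma hasse_sub (β : Fin d →₀ ℕ) (f g : MvPowerSeries (Fin d) K) :
    hasse β (f - g) = hasse β f - hasse β g := by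
  ext γ
  simp [mul_sub]

omit [CompleteSpace K] in
lemma hasse_C_mul (β : Fin d →₀ ℕ) (a : K) (f : MvPowerSeries (Fin d) K) :
    hasse β (MvPowerSeries.C a * f) = MvPowerSeries.C a * hasse β f := by
  ext γ
  simp only [coeff_hasse, coeff_C_mul]
  ring

/-- Values of `p^w ℓ_{(d+1)w+r}` converge to `Φ_r`. -/
theorem tendsto_eval_PhiS (hp : 1 < p) (hπ0 : (p : K) ≠ 0) (hπ1 : ‖(p : K)‖ < 1)
    (h : IsLogSeq (K := K) p d ℓ) {y : Fin d → K} (hy : ∀ i, ‖y i‖ < 1) (r : ℕ) :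
    Tendsto (fun w => (p : K) ^ w * MvPolynomial.eval y (ℓ ((d + 1) * w + r))) atTop
      (𝓝 (evalS (PhiS p d ℓ r) y)) := by
  obtain ⟨ρ, hρ0, hρ1, hyρ⟩ := exists_radius_lt hy
  obtain ⟨D, hD0, hD⟩ := exists_limit_bound hp hπ0 hπ1 h hρ0 hρ1 r
  obtain ⟨C, _, hC⟩ := exists_isB_PhiS hp hπ0 hπ1 h hρ0 hρ1 r
  have hA : ∀ w, ∃ C, IsB ρ C (aS p d ℓ r w) := fun w => by
    obtain ⟨C', _, hC'⟩ := exists_isB_poly (K := K) hρ0.le (ℓ ((d + 1) * w + r))
    exact ⟨_, (isB_C (σ := Fin d) ρ hρ0.le _).mul hC' hρ0.le⟩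
  have := tendsto_evalS_of_geom hρ0 hρ1 hA ⟨C, hC⟩ hD hyρ
  refine this.congr fun w => ?_
  obtain ⟨C', _, hC'⟩ := exists_isB_poly (K := K) hρ0.le (ℓ ((d + 1) * w + r))
  rw [aS, evalS_mul hρ0 (isB_C (σ := Fin d) ρ hρ0.le _) hC' hyρ, evalS_C, evalS_cS]

/-- First derivatives of `p^w ℓ_{(d+1)w+r}` converge to those of `Φ_r`. -/
theorem tendsto_eval_deriv_PhiS (hp : 1 < p) (hπ0 : (p : K) ≠ 0) (hπ1 : ‖(p : K)‖ < 1)
    (h : IsLogSeq (K := K) p d ℓ) {y : Fin d → K} (hy : ∀ i, ‖y i‖ < 1) (r : ℕ) (b : Fin d) :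
    Tendsto (fun w => (p : K) ^ w *
        MvPolynomial.eval y (MvPolynomial.pderiv b (ℓ ((d + 1) * w + r)))) atTop
      (𝓝 (evalS (hasse (Finsupp.single b 1) (PhiS p d ℓ r)) y)) := by
  obtain ⟨ρ, hρ0, hρ1, hyρ⟩ := exists_radius_lt hy
  obtain ⟨D, hD0, hD⟩ := exists_limit_bound hp hπ0 hπ1 h hρ0 hρ1 r
  obtain ⟨C, _, hC⟩ := exists_isB_PhiS hp hπ0 hπ1 h hρ0 hρ1 r
  have hAe : ∀ w, hasse (Finsupp.single b 1) (aS p d ℓ r w) = MvPowerSeries.C ((p : K) ^ w) *
      cS (MvPolynomial.pderiv b (ℓ ((d + 1) * w + r))) := fun w => by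
    rw [aS, hasse_C_mul, hasse_cS]
  have hA : ∀ w, ∃ C, IsB ρ C (hasse (Finsupp.single b 1) (aS p d ℓ r w)) := fun w => by
    obtain ⟨C', _, hC'⟩ := exists_isB_poly (K := K) hρ0.le
      (MvPolynomial.pderiv b (ℓ ((d + 1) * w + r)))
    rw [hAe]
    exact ⟨_, (isB_C (σ := Fin d) ρ hρ0.le _).mul hC' hρ0.le⟩
  have hdeg : Finsupp.degree (Finsupp.single b 1) = 1 := by simp
  have hD' : ∀ w, IsB ρ (D / ρ * ρ ^ w)
      (hasse (Finsupp.single b 1) (aS p d ℓ r w) - hasse (Finsupp.single b 1) (PhiS p d ℓ r)) := by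
    intro w
    rw [← hasse_sub]
    have := (hD w).hasse hρ0 (Finsupp.single b 1)
    rw [hdeg, pow_one] at this
    refine this.mono (le_of_eq ?_)
    field_simp
  have := tendsto_evalS_of_geom hρ0 hρ1 hA ⟨_, hC.hasse hρ0 (Finsupp.single b 1)⟩ hD' hyρ
  refine this.congr fun w => ?_
  obtain ⟨C', _, hC'⟩ := exists_isB_poly (K := K) hρ0.le
      (MvPolynomial.pderiv b (ℓ ((d + 1) * w + r)))
  rw [hAe, evalS_mul hρ0 (isB_C (σ := Fin d) ρ hρ0.le _) hC' hyρ, evalS_C, evalS_cS]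

/-! ### Data for the Wronskian lemma -/

/-- the values `v_{i+1}^(p^e)` -/
noncomputable def aV (p d : ℕ) (y : Fin d → K) (i e : ℕ) : K :=
  MvPolynomial.eval y (vP d i) ^ (p ^ e)

/-- the value and first derivatives of `ℓ_j`. -/
noncomputable def cV (d : ℕ) (ℓ : ℕ → MvPolynomial (Fin d) K) (y : Fin d → K) (j : ℕ) :
    Fin (d + 1) → K :=
  Fin.cases (MvPolynomial.eval y (ℓ j)) (fun b => MvPolynomial.eval y (MvPolynomial.pderiv b (ℓ j)))

/-- the forcing term -/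
noncomputable def fV (p d : ℕ) (ℓ : ℕ → MvPolynomial (Fin d) K) (y : Fin d → K) (j : ℕ) :
    Fin (d + 1) → K :=
  Fin.cases 0 (fun b => if b.1 < j then
    (p : K) ^ (j - 1 - b.1) * MvPolynomial.eval y (ℓ (j - 1 - b.1)) *
      y b ^ (p ^ (j - 1 - b.1) - 1) else 0)

omit [CompleteSpace K] in
lemma eval_vP_of_lt (y : Fin d → K) {i : ℕ} (h : i < d) :
    MvPolynomial.eval y (vP d i) = y ⟨i, h⟩ := by simp [vP, h]

omit [CompleteSpace K] in
lemma eval_vP_last (y : Fin d → K) : MvPolynomial.eval y (vP d d) = 1 := by simp [vP]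

omit [CompleteSpace K] in
lemma norm_eval_vP_le {y : Fin d → K} (hy : ∀ i, ‖y i‖ < 1) (i : ℕ) :
    ‖MvPolynomial.eval y (vP d i)‖ ≤ 1 := by
  unfold vP
  split_ifs with h
  · simpa using (hy ⟨i, h⟩).le
  · simp

omit [CompleteSpace K] in
lemma pderiv_vP (b : Fin d) (i : ℕ) :
    MvPolynomial.pderiv b (vP (K := K) d i) = if i = b.1 then 1 else 0 := by
  classical
  unfold vP
  split_ifs with h1 h2 h2
  · have : (⟨i, h1⟩ : Fin d) = b := Fin.ext h2
    subst this
    simp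
  · have : b ≠ (⟨i, h1⟩ : Fin d) := fun e => h2 (by rw [e])
    simp [MvPolynomial.pderiv_X, Pi.single_apply, this.symm]
  · exact absurd (h2 ▸ b.2) h1
  · simp

omit [CompleteSpace K] in
/-- `p^e ℓ_e` is integral at integral points. -/
lemma norm_pow_mul_eval_le (hπ1 : ‖(p : K)‖ < 1) (h : IsLogSeq (K := K) p d ℓ) {y : Fin d → K}
    (hy : ∀ i, ‖y i‖ < 1) (e : ℕ) : ‖(p : K) ^ e * MvPolynomial.eval y (ℓ e)‖ ≤ 1 := by
  induction e using Nat.strong_induction_on with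
  | _ e ih =>
    cases e with
    | zero => simp [h.zero]
    | succ e =>
      have h1 := congrArg (MvPolynomial.eval y) (h.succ e)
      simp only [map_mul, MvPolynomial.eval_C, map_sum, apply_ite (MvPolynomial.eval y), map_pow,
        map_zero] at h1
      have h2 : (p : K) ^ (e + 1) * MvPolynomial.eval y (ℓ (e + 1)) = (p : K) ^ e *
          ∑ i ∈ Finset.range (d + 1), if i ≤ e then MvPolynomial.eval y (ℓ (e - i)) *
            MvPolynomial.eval y (vP d i) ^ p ^ (e - i) else 0 := by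
        rw [← h1, pow_succ]; ring
      rw [h2, Finset.mul_sum]
      refine norm_sum_le_one _ _ fun i _ => ?_
      split_ifs with hi
      · have h3 : (p : K) ^ e = (p : K) ^ i * (p : K) ^ (e - i) := by
          rw [← pow_add]; congr 1; omega
        rw [h3]
        have h4 : (p : K) ^ i * (p : K) ^ (e - i) * (MvPolynomial.eval y (ℓ (e - i)) *
            MvPolynomial.eval y (vP d i) ^ p ^ (e - i)) = (p : K) ^ i *
            ((p : K) ^ (e - i) * MvPolynomial.eval y (ℓ (e - i))) *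
            MvPolynomial.eval y (vP d i) ^ p ^ (e - i) := by ring
        rw [h4, norm_mul, norm_mul, norm_pow, norm_pow]
        refine mul_le_one₀ (mul_le_one₀ (pow_le_one₀ (norm_nonneg _) hπ1.le) (norm_nonneg _)
          (ih _ (by omega))) (by positivity) (pow_le_one₀ (norm_nonneg _)
          (norm_eval_vP_le hy i))
      · simp

omit [CompleteSpace K] in
/-- Differentiated recursion. -/
lemma deriv_rec (h : IsLogSeq (K := K) p d ℓ) (y : Fin d → K) (j : ℕ) (b : Fin d) :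
    (p : K) * MvPolynomial.eval y (MvPolynomial.pderiv b (ℓ (j + 1))) =
      ∑ i ∈ Finset.range (d + 1), (if i ≤ j then
        MvPolynomial.eval y (MvPolynomial.pderiv b (ℓ (j - i))) *
          MvPolynomial.eval y (vP d i) ^ p ^ (j - i) else 0) +
      (if b.1 < j + 1 then (p : K) ^ (j - b.1) * MvPolynomial.eval y (ℓ (j - b.1)) *
        y b ^ (p ^ (j - b.1) - 1) else 0) := by
  have h1 : MvPolynomial.C (p : K) * MvPolynomial.pderiv b (ℓ (j + 1)) =
      ∑ i ∈ Finset.range (d + 1), if i ≤ j then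
        MvPolynomial.pderiv b (ℓ (j - i) * vP d i ^ (p ^ (j - i))) else 0 := by
    rw [← MvPolynomial.pderiv_C_mul, h.succ j, map_sum]
    refine Finset.sum_congr rfl fun i _ => ?_
    split_ifs <;> simp
  have h2 := congrArg (MvPolynomial.eval y) h1
  rw [map_mul, MvPolynomial.eval_C, map_sum] at h2
  rw [h2]
  have h3 : ∀ i ∈ Finset.range (d + 1), MvPolynomial.eval y (if i ≤ j then
        MvPolynomial.pderiv b (ℓ (j - i) * vP d i ^ (p ^ (j - i))) else 0) =
      (if i ≤ j then MvPolynomial.eval y (MvPolynomial.pderiv b (ℓ (j - i))) *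
          MvPolynomial.eval y (vP d i) ^ p ^ (j - i) else 0) +
      (if i = b.1 then (if b.1 < j + 1 then (p : K) ^ (j - b.1) * MvPolynomial.eval y (ℓ (j - b.1)) *
        y b ^ (p ^ (j - b.1) - 1) else 0) else 0) := by
    intro i _
    by_cases h4 : i = b.1
    · subst h4
      by_cases h5 : b.1 ≤ j
      · have h6 : b.1 < j + 1 := by omega
        simp only [h5, h6, if_true, MvPolynomial.pderiv_mul, MvPolynomial.pderiv_pow, pderiv_vP,
          map_add, map_mul, map_pow, map_natCast, map_one, mul_one,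
          eval_vP_of_lt y b.2]
        push_cast
        ring
      · have h6 : ¬ b.1 < j + 1 := by omega
        simp [h5, h6]
    · by_cases h5 : i ≤ j
      · simp [h5, h4, MvPolynomial.pderiv_mul, MvPolynomial.pderiv_pow, pderiv_vP]
        ring
      · simp [h5, h4]
  rw [Finset.sum_congr rfl h3, Finset.sum_add_distrib]
  congr 1
  rw [Finset.sum_ite_eq' (Finset.range (d + 1)) b.1]
  have : b.1 ∈ Finset.range (d + 1) := Finset.mem_range.mpr (by have := b.2; omega)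
  rw [if_pos this]

/-- The Wronskian data at a point of the open polydisc. -/
theorem wrData (hp : 1 < p) (hπ0 : (p : K) ≠ 0) (hπ1 : ‖(p : K)‖ < 1)
    (h : IsLogSeq (K := K) p d ℓ) {y : Fin d → K} (hy : ∀ i, ‖y i‖ < 1) :
    WrData d (p : K) (aV p d y) (cV d ℓ y) (fV p d ℓ y) where
  π0 := hπ0
  π1 := hπ1
  a_le := fun i e => by
    rw [aV, norm_pow]
    exact pow_le_one₀ (norm_nonneg _) (norm_eval_vP_le hy i)
  a_last := fun e => by rw [aV, eval_vP_last, one_pow]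
  recur := fun j k => by
    refine Fin.cases ?_ (fun b => ?_) k
    · simp only [cV, fV, Fin.cases_zero, add_zero, aV]
      have h1 := congrArg (MvPolynomial.eval y) (h.succ j)
      simp only [map_mul, MvPolynomial.eval_C, map_sum, apply_ite (MvPolynomial.eval y), map_pow,
        map_zero] at h1
      exact h1
    · simp only [cV, fV, Fin.cases_succ, aV]
      have h2 := deriv_rec h y j b
      simpa using h2
  c0 := fun k => by
    refine Fin.cases ?_ (fun b => ?_) k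
    · simp [cV, h.zero]
    · simp [cV, h.zero]
  f_zero := fun j => by simp [fV]
  f_diag := fun k hk => by
    obtain ⟨b, rfl⟩ := Fin.exists_succ_eq.mpr hk
    simp [fV, h.zero]
  f_gt := fun j k hjk => by
    refine Fin.cases ?_ (fun b => ?_) k hjk
    · intro _; simp [fV]
    · intro hjk'
      have : ¬ b.1 < j := by
        simp only [Fin.val_succ] at hjk'
        omega
      simp [fV, this]
  f_small := fun j k hjk => by
    refine Fin.cases ?_ (fun b => ?_) k hjk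
    · intro _; simp [fV]
    · intro hjk'
      have hb : b.1 + 1 < j := by simpa using hjk'
      have hb' : b.1 < j := by omega
      simp only [fV, Fin.cases_succ, if_pos hb']
      set e := j - 1 - b.1 with he
      have he1 : 1 ≤ e := by omega
      rw [norm_mul, norm_pow]
      have h1 := norm_pow_mul_eval_le hπ1 h hy e
      have h2 : 1 ≤ p ^ e - 1 := by
        have : 2 ≤ p ^ e := by
          calc 2 ≤ p := hp
            _ = p ^ 1 := (pow_one p).symm
            _ ≤ p ^ e := Nat.pow_le_pow_right (by omega) he1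
        omega
      have h3 : ‖y b‖ ^ (p ^ e - 1) < 1 := pow_lt_one₀ (norm_nonneg _) (hy b) (by omega)
      calc _ ≤ 1 * ‖y b‖ ^ (p ^ e - 1) := by gcongr
        _ < 1 := by simpa using h3

/-! ### The Wronskian of the period map -/

/-- The Wronskian matrix of the period map at `y`: rows `r ∈ {0, …, d}`, columns
`Φ_r(y), ∂_1 Φ_r(y), …, ∂_d Φ_r(y)`. -/
noncomputable def wrM (Φ : ℕ → MvPowerSeries (Fin d) K) (y : Fin d → K) :
    Matrix (Fin (d + 1)) (Fin (d + 1)) K :=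
  fun r => Fin.cases (evalS (Φ r.1) y) (fun b => evalS (hasse (Finsupp.single b 1) (Φ r.1)) y)

/-- **Wronskian lemma**: `|det (Φ, ∂Φ)(y)| = |p|^{-d}` on the open polydisc. -/
theorem norm_det_wrM (hp : 1 < p) (hπ0 : (p : K) ≠ 0) (hπ1 : ‖(p : K)‖ < 1)
    (h : IsLogSeq (K := K) p d ℓ) {y : Fin d → K} (hy : ∀ i, ‖y i‖ < 1) :
    ‖(wrM (PhiS p d ℓ) y).det‖ * ‖(p : K)‖ ^ d = 1 := by
  have hW := wrData hp hπ0 hπ1 h hy
  have hπpos : 0 < ‖(p : K)‖ := norm_pos_iff.mpr hπ0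
  set L : Matrix (Fin (d + 1)) (Fin (d + 1)) K :=
    (wrM (PhiS p d ℓ) y).submatrix Fin.revPerm id with hL
  have hsub : ∀ (w : ℕ) (i : Fin (d + 1)),
      (d + 1) * w + d - i.1 = (d + 1) * w + (Fin.revPerm i).1 := by
    intro w i
    have := i.2
    simp only [Fin.revPerm_apply, Fin.val_rev]
    omega
  have hlim : Tendsto (fun w : ℕ => ((p : K) ^ w) • WM (cV d ℓ y) ((d + 1) * w + d)) atTop (𝓝 L) := by
    refine tendsto_pi_nhds.mpr fun i => tendsto_pi_nhds.mpr fun k => ?_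
    simp only [Matrix.smul_apply, smul_eq_mul, WM, hsub, hL, Matrix.submatrix_apply, id]
    refine Fin.cases ?_ (fun b => ?_) k
    · simpa [cV, wrM] using tendsto_eval_PhiS hp hπ0 hπ1 h hy (Fin.revPerm i).1
    · simpa [cV, wrM] using tendsto_eval_deriv_PhiS hp hπ0 hπ1 h hy (Fin.revPerm i).1 b
  have hdetlim : Tendsto (fun w : ℕ => ‖(((p : K) ^ w) • WM (cV d ℓ y) ((d + 1) * w + d)).det‖ *
      ‖(p : K)‖ ^ d) atTop (𝓝 (‖L.det‖ * ‖(p : K)‖ ^ d)) := by
    have hc : Continuous fun M : Matrix (Fin (d + 1)) (Fin (d + 1)) K => M.det :=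
      continuous_id.matrix_det
    exact ((hc.tendsto L).comp hlim).norm.mul_const _
  have hconst : ∀ w : ℕ, ‖(((p : K) ^ w) • WM (cV d ℓ y) ((d + 1) * w + d)).det‖ *
      ‖(p : K)‖ ^ d = 1 := by
    intro w
    have h1 := (wr_all hW ((d + 1) * w + d) (by omega)).1
    rw [Matrix.det_smul, norm_mul, norm_pow, norm_pow, Fintype.card_fin]
    rw [pow_add] at h1
    calc _ = ‖(WM (cV d ℓ y) ((d + 1) * w + d)).det‖ * (‖(p : K)‖ ^ ((d + 1) * w) *
          ‖(p : K)‖ ^ d) := by rw [pow_mul' ‖(p : K)‖ (d + 1) w]; ring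
      _ = 1 := h1
  have huniq : ‖L.det‖ * ‖(p : K)‖ ^ d = 1 := by
    refine tendsto_nhds_unique hdetlim ?_
    simp only [hconst]
    exact tendsto_const_nhds
  have hs : L.det = ((Equiv.Perm.sign (Fin.revPerm (n := d + 1)) : ℤˣ) : K) *
      (wrM (PhiS p d ℓ) y).det := by
    rw [hL]
    simpa using Matrix.det_permute (Fin.revPerm) (wrM (PhiS p d ℓ) y)
  have hsign : ‖((Equiv.Perm.sign (Fin.revPerm (n := d + 1)) : ℤˣ) : K)‖ = 1 := by
    rcases Int.units_eq_one_or (Equiv.Perm.sign (Fin.revPerm (n := d + 1))) with h' | h' <;>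
      simp [h']
  rw [hs, norm_mul, hsign, one_mul] at huniq
  exact huniq

/-- Periodicity of the periods. -/
theorem PhiS_add (hp : 1 < p) (hπ0 : (p : K) ≠ 0) (hπ1 : ‖(p : K)‖ < 1)
    (h : IsLogSeq (K := K) p d ℓ) (r : ℕ) :
    MvPowerSeries.C (p : K) * PhiS p d ℓ (r + (d + 1)) = PhiS p d ℓ r := by
  ext γ
  rw [coeff_C_mul]
  obtain ⟨D₁, _, hD₁⟩ := exists_limit_bound hp hπ0 hπ1 h (K := K) (ρ := 1 / 2) (by norm_num)
    (by norm_num) r
  obtain ⟨D₂, _, hD₂⟩ := exists_limit_bound hp hπ0 hπ1 h (K := K) (ρ := 1 / 2) (by norm_num)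
    (by norm_num) (r + (d + 1))
  have hconv : ∀ r' (D : ℝ), (∀ w, IsB (1 / 2 : ℝ) (D * (1 / 2) ^ w)
      (aS p d ℓ r' w - PhiS p d ℓ r')) →
      Tendsto (fun w => coeff γ (aS p d ℓ r' w)) atTop (𝓝 (coeff γ (PhiS p d ℓ r'))) := by
    intro r' D hD
    rw [tendsto_iff_norm_sub_tendsto_zero]
    have hpow : (0 : ℝ) < (1 / 2) ^ Finsupp.degree γ := by positivity
    have hlim : Tendsto (fun w : ℕ => D / (1 / 2) ^ Finsupp.degree γ * (1 / 2 : ℝ) ^ w) atTop (𝓝 0) := by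
      simpa using (tendsto_pow_atTop_nhds_zero_of_lt_one (by norm_num : (0 : ℝ) ≤ 1 / 2)
        (by norm_num)).const_mul (D / (1 / 2) ^ Finsupp.degree γ)
    refine squeeze_zero (fun _ => norm_nonneg _) (fun w => ?_) hlim
    have := hD w γ
    rw [← map_sub, div_mul_eq_mul_div, le_div_iff₀ hpow]
    exact this
  have h1 := hconv r _ hD₁
  have h2 := hconv _ _ hD₂
  have h3 : Tendsto (fun w => coeff γ (aS p d ℓ r (w + 1))) atTop (𝓝 (coeff γ (PhiS p d ℓ r))) :=
    h1.comp (tendsto_add_atTop_nat 1)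
  refine tendsto_nhds_unique ?_ h3
  have h4 : ∀ w, coeff γ (aS p d ℓ r (w + 1)) = (p : K) * coeff γ (aS p d ℓ (r + (d + 1)) w) := by
    intro w
    simp only [aS, coeff_C_mul]
    rw [show (d + 1) * (w + 1) + r = (d + 1) * w + (r + (d + 1)) by ring, pow_succ]
    ring
  simp only [h4]
  exact h2.const_mul _

end Period
end Crest.Agent.LT
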