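/-
D3, limit step: from the digit equations `T_0 ℓ_m(y') = ∑_{j ≤ m} ℓ_{m-j}(y) T_j^(p^(m-j))`
to the equation `T_0 Φ_i(y') = Φ_i(y) + p^w τ^(p^(i-s)) Φ_{i-s}(y)`.
-/
import Crest.Agent.Lib.LT.P2Period

set_option autoImplicit false
set_option linter.unusedSectionVars false
set_option linter.unusedVariables false
set_option linter.deprecated false
set_option linter.unusedSimpArgs false
set_option linter.unnecessarySimpa false

namespace Crest.Agent.LT
namespace Period

open Filter Topology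

variable {K : Type*} [NontriviallyNormedField K] [IsUltrametricDist K]

/-- The `p`-th power map contracts congruences. -/
lemma norm_pow_prime_sub_le {p : ℕ} (hp : p.Prime) {x τ : K} (hτ : ‖τ‖ ≤ 1) (hx : ‖x - τ‖ ≤ 1) :
    ‖x ^ p - τ ^ p‖ ≤ max (‖x - τ‖ ^ p) (‖(p : K)‖ * ‖x - τ‖) := by
  set h := x - τ with hh
  have hxe : x = h + τ := by rw [hh]; ring
  rw [hxe, add_pow_prime_eq hp]
  have h1 : h ^ p + τ ^ p + (p : K) * h * τ *
      ∑ k ∈ Finset.Ioo 0 p, h ^ (k - 1) * τ ^ (p - k - 1) * ((p.choose k / p : ℕ) : K) - τ ^ p =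
      h ^ p + (p : K) * h * (τ *
      ∑ k ∈ Finset.Ioo 0 p, h ^ (k - 1) * τ ^ (p - k - 1) * ((p.choose k / p : ℕ) : K)) := by ring
  rw [h1]
  refine (IsUltrametricDist.norm_add_le_max _ _).trans (max_le_max ?_ ?_)
  · rw [norm_pow]
  · rw [norm_mul, norm_mul]
    have h2 : ‖τ * ∑ k ∈ Finset.Ioo 0 p, h ^ (k - 1) * τ ^ (p - k - 1) *
        ((p.choose k / p : ℕ) : K)‖ ≤ 1 := by
      rw [norm_mul]
      refine mul_le_one₀ hτ (norm_nonneg _) (norm_sum_le_one _ _ fun k _ => ?_)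
      rw [norm_mul, norm_mul, norm_pow, norm_pow]
      refine mul_le_one₀ (mul_le_one₀ (pow_le_one₀ (norm_nonneg _) hx) (by positivity)
        (pow_le_one₀ (norm_nonneg _) hτ)) (norm_nonneg _) ?_
      exact IsUltrametricDist.norm_natCast_le_one K _
    calc ‖(p : K)‖ * ‖h‖ * ‖τ * ∑ k ∈ Finset.Ioo 0 p, h ^ (k - 1) * τ ^ (p - k - 1) *
          ((p.choose k / p : ℕ) : K)‖ ≤ ‖(p : K)‖ * ‖h‖ * 1 := by gcongr
      _ = _ := mul_one _

/-- Iterated `p`-th powers converge (geometrically) towards the `p^e`-th powers. -/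
lemma tendsto_pow_pow_sub {p : ℕ} (hp : p.Prime) (hπ1 : ‖(p : K)‖ < 1) {x τ : K} (hτ : ‖τ‖ ≤ 1)
    (hx : ‖x - τ‖ < 1) : Tendsto (fun e : ℕ => x ^ (p ^ e) - τ ^ (p ^ e)) atTop (𝓝 0) := by
  set δ := max (‖x - τ‖ ^ (p - 1)) ‖(p : K)‖ with hδ
  have hp1 : 1 ≤ p - 1 := by have := hp.two_le; omega
  have hδ1 : δ < 1 := max_lt (pow_lt_one₀ (norm_nonneg _) hx (by omega)) hπ1
  have hδ0 : 0 ≤ δ := le_max_of_le_right (norm_nonneg _)
  have hbd : ∀ e : ℕ, ‖x ^ (p ^ e) - τ ^ (p ^ e)‖ ≤ δ ^ e * ‖x - τ‖ := by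
    intro e
    induction e with
    | zero => simp
    | succ e ih =>
      have hτe : ‖τ ^ (p ^ e)‖ ≤ 1 := by
        rw [norm_pow]; exact pow_le_one₀ (norm_nonneg _) hτ
      have hle : ‖x ^ (p ^ e) - τ ^ (p ^ e)‖ ≤ ‖x - τ‖ := by
        calc _ ≤ δ ^ e * ‖x - τ‖ := ih
          _ ≤ 1 * ‖x - τ‖ := by gcongr; exact pow_le_one₀ hδ0 hδ1.le
          _ = _ := one_mul _
      have h1 := norm_pow_prime_sub_le hp hτe (hle.trans hx.le)
      rw [← pow_mul, ← pow_mul, ← pow_succ] at h1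
      refine h1.trans (max_le ?_ ?_)
      · have hsplit : p = (p - 1) + 1 := by omega
        calc ‖x ^ (p ^ e) - τ ^ (p ^ e)‖ ^ p
            = ‖x ^ (p ^ e) - τ ^ (p ^ e)‖ ^ (p - 1) * ‖x ^ (p ^ e) - τ ^ (p ^ e)‖ := by
              rw [← pow_succ, ← hsplit]
          _ ≤ ‖x - τ‖ ^ (p - 1) * (δ ^ e * ‖x - τ‖) := by gcongr
          _ ≤ δ * (δ ^ e * ‖x - τ‖) := by gcongr; exact le_max_left _ _
          _ = δ ^ (e + 1) * ‖x - τ‖ := by ring
      · calc ‖(p : K)‖ * ‖x ^ (p ^ e) - τ ^ (p ^ e)‖ ≤ δ * (δ ^ e * ‖x - τ‖) := by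
              gcongr; exact le_max_right _ _
          _ = δ ^ (e + 1) * ‖x - τ‖ := by ring
  rw [tendsto_zero_iff_norm_tendsto_zero]
  refine squeeze_zero (fun _ => norm_nonneg _) hbd ?_
  simpa using (tendsto_pow_atTop_nhds_zero_of_lt_one hδ0 hδ1).mul_const ‖x - τ‖

/-- Periodic target: `x^(p^((d+1)u + c)) → τ^(p^c)` when `τ^(p^(d+1)) = τ`. -/
lemma tendsto_pow_periodic {p : ℕ} (hp : p.Prime) (hπ1 : ‖(p : K)‖ < 1) {x τ : K} (hτ : ‖τ‖ ≤ 1)
    (hx : ‖x - τ‖ < 1) {n : ℕ} (hn : 1 ≤ n) (hτq : τ ^ (p ^ n) = τ) (c : ℕ) :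
    Tendsto (fun u : ℕ => x ^ (p ^ (n * u + c))) atTop (𝓝 (τ ^ (p ^ c))) := by
  have hper : ∀ u : ℕ, τ ^ (p ^ (n * u + c)) = τ ^ (p ^ c) := by
    intro u
    have h1 : ∀ u : ℕ, τ ^ (p ^ (n * u)) = τ := by
      intro u
      induction u with
      | zero => simp
      | succ u ih => rw [Nat.mul_succ, pow_add, pow_mul, ih, hτq]
    rw [pow_add, pow_mul, h1]
  have h2 := tendsto_pow_pow_sub hp hπ1 hτ hx
  have hmono : Tendsto (fun u : ℕ => n * u + c) atTop atTop :=
    tendsto_atTop_mono (fun u => by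
      have := Nat.le_mul_of_pos_left u (show 0 < n by omega)
      simp only [id]; omega) tendsto_id
  have h3 := h2.comp hmono
  have h4 := h3.add_const (τ ^ (p ^ c))
  simp only [zero_add] at h4
  refine h4.congr fun u => ?_
  simp [hper u]

/-- Small integral numbers: powers go to zero. -/
lemma tendsto_pow_pow_zero {p : ℕ} (hp : 1 < p) {x : K} (hx : ‖x‖ < 1) :
    Tendsto (fun e : ℕ => ‖x‖ ^ (p ^ e)) atTop (𝓝 0) := by
  refine squeeze_zero (fun _ => by positivity) (fun e => ?_)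
    (tendsto_pow_atTop_nhds_zero_of_lt_one (norm_nonneg x) hx)
  exact pow_le_pow_of_le_one (norm_nonneg _) hx.le (Nat.lt_pow_self hp).le

variable [CompleteSpace K]

/-- Bound of the values of `ℓ_m`. -/
lemma exists_bound_eval {p d : ℕ} {ℓ : ℕ → MvPolynomial (Fin d) K} (hp : 1 < p)
    (hπ0 : (p : K) ≠ 0) (hπ1 : ‖(p : K)‖ < 1)
    (h : IsLogSeq (K := K) p d ℓ) {y : Fin d → K} (hy : ∀ i, ‖y i‖ < 1) :
    ∃ C, 0 ≤ C ∧ ∀ m, ‖MvPolynomial.eval y (ℓ m)‖ ≤ C * (‖(p : K)‖⁻¹) ^ (m / (d + 1)) := by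
  obtain ⟨ρ, hρ0, hρ1, hyρ⟩ := exists_radius_lt hy
  obtain ⟨C, hC0, hC⟩ := exists_bound hp hπ0 hπ1 h hρ0 hρ1
  refine ⟨C, hC0, fun m => ?_⟩
  rw [← evalS_cS]
  exact norm_evalS_le hρ0 (hC m) fun i => (hyρ i).le

/-- Geometric summability of the dominating sequence. -/
lemma summable_pow_div {a : ℝ} (ha0 : 0 < a) (ha1 : a < 1) (n : ℕ) (hn : 1 ≤ n) :
    Summable (fun j : ℕ => a ^ (j / n)) := by
  set ρ : ℝ := a ^ ((1 : ℝ) / n) with hρ
  have hn' : (0 : ℝ) < n := by exact_mod_cast hn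
  have hρ0 : 0 < ρ := Real.rpow_pos_of_pos ha0 _
  have hρ1 : ρ < 1 := Real.rpow_lt_one ha0.le ha1 (by positivity)
  have hρn : ρ ^ n = a := by
    rw [hρ, ← Real.rpow_natCast, ← Real.rpow_mul ha0.le]
    field_simp
    simp
  refine Summable.of_nonneg_of_le (fun j => by positivity) (fun j => ?_)
    ((summable_geometric_of_lt_one hρ0.le hρ1).mul_left (ρ⁻¹ ^ n))
  have h1 : j < n * (j / n) + n := by
    have := Nat.div_add_mod j n
    have := Nat.mod_lt j (show 0 < n by omega)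
    omega
  calc a ^ (j / n) = ρ ^ (n * (j / n)) := by rw [pow_mul, hρn]
    _ = ρ⁻¹ ^ n * ρ ^ (n * (j / n) + n) := by
        rw [pow_add, inv_pow]
        field_simp
    _ ≤ ρ⁻¹ ^ n * ρ ^ j :=
        mul_le_mul_of_nonneg_left (pow_le_pow_of_le_one hρ0.le hρ1.le h1.le) (by positivity)

/-- **The limit equation** (BLUEPRINT D3). -/
theorem limit_eq {p d : ℕ} (hpp : p.Prime) {ℓ : ℕ → MvPolynomial (Fin d) K}
    (hπ0 : (p : K) ≠ 0) (hπ1 : ‖(p : K)‖ < 1)
    (h : IsLogSeq (K := K) p d ℓ) {y y' : Fin d → K} (hy : ∀ i, ‖y i‖ < 1) (hy' : ∀ i, ‖y' i‖ < 1)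
    {T : ℕ → K} {τ : K} (hT1 : ∀ j, ‖T j‖ ≤ 1) (hT0 : ‖T 0 - 1‖ < 1) (s w : ℕ)
    (hr : 1 ≤ s + (d + 1) * w) (hTr : ‖T (s + (d + 1) * w) - τ‖ < 1) (hτ1 : ‖τ‖ ≤ 1)
    (hτq : τ ^ (p ^ (d + 1)) = τ) (hTo : ∀ j, j ≠ 0 → j ≠ s + (d + 1) * w → ‖T j‖ < 1)
    (hdig : ∀ m, T 0 * MvPolynomial.eval y' (ℓ m) = ∑ j ∈ Finset.range (m + 1),
      MvPolynomial.eval y (ℓ (m - j)) * T j ^ (p ^ (m - j)))
    (i : ℕ) (hi : s ≤ i) :
    T 0 * evalS (PhiS p d ℓ i) y' = evalS (PhiS p d ℓ i) y +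
      (p : K) ^ w * τ ^ (p ^ (i - s)) * evalS (PhiS p d ℓ (i - s)) y := by
  classical
  have hp : 1 < p := hpp.one_lt
  set r := s + (d + 1) * w with hrdef
  set a : ℝ := ‖(p : K)‖ with ha
  have ha0 : 0 < a := norm_pos_iff.mpr hπ0
  set R : ℝ := a⁻¹ with hR
  have hR1 : 1 ≤ R := (one_le_inv₀ ha0).mpr hπ1.le
  have hR0 : 0 < R := by linarith
  obtain ⟨C, hC0, hC⟩ := exists_bound_eval hp hπ0 hπ1 h hy
  -- terms
  let m : ℕ → ℕ := fun v => (d + 1) * v + i
  let g : ℕ → ℕ → K := fun v j => if j ≤ m v then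
    (p : K) ^ v * (MvPolynomial.eval y (ℓ (m v - j)) * T j ^ (p ^ (m v - j))) else 0
  let gL : ℕ → K := fun j => if j = 0 then evalS (PhiS p d ℓ i) y else if j = r then
    (p : K) ^ w * τ ^ (p ^ (i - s)) * evalS (PhiS p d ℓ (i - s)) y else 0
  set B : ℝ := C * R ^ (i / (d + 1)) with hB
  have hB0 : 0 ≤ B := by positivity
  have hval : ∀ v j, j ≤ m v → ‖(p : K) ^ v * MvPolynomial.eval y (ℓ (m v - j))‖ ≤
      B * a ^ (j / (d + 1)) := by
    intro v j hj
    rw [norm_mul, norm_pow]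
    have h1 := hC (m v - j)
    have hdiv : (m v - j) / (d + 1) + j / (d + 1) ≤ v + i / (d + 1) := by
      have h2 : (m v - j) / (d + 1) + j / (d + 1) ≤ m v / (d + 1) := by
        rw [Nat.le_div_iff_mul_le (by omega : 0 < d + 1), add_mul]
        have h3 := Nat.div_mul_le_self (m v - j) (d + 1)
        have h4 := Nat.div_mul_le_self j (d + 1)
        omega
      have h3 : m v / (d + 1) = i / (d + 1) + v := by
        simp only [m]
        rw [add_comm, Nat.add_mul_div_left _ _ (by omega : 0 < d + 1)]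
      omega
    have hkey : a ^ v * R ^ ((m v - j) / (d + 1)) ≤ R ^ (i / (d + 1)) * a ^ (j / (d + 1)) := by
      have h5 : R ^ ((m v - j) / (d + 1)) * R ^ (j / (d + 1)) ≤ R ^ v * R ^ (i / (d + 1)) := by
        rw [← pow_add, ← pow_add]
        exact pow_le_pow_right₀ hR1 hdiv
      have h6 : R * a = 1 := inv_mul_cancel₀ ha0.ne'
      have h7 : ∀ k : ℕ, R ^ k * a ^ k = 1 := fun k => by rw [← mul_pow, h6, one_pow]
      have ha' : 0 ≤ a ^ v * a ^ (j / (d + 1)) := by positivity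
      calc a ^ v * R ^ ((m v - j) / (d + 1))
          = a ^ v * a ^ (j / (d + 1)) * (R ^ ((m v - j) / (d + 1)) * R ^ (j / (d + 1))) := by
            have := h7 (j / (d + 1))
            calc a ^ v * R ^ ((m v - j) / (d + 1)) =
                a ^ v * R ^ ((m v - j) / (d + 1)) * (R ^ (j / (d + 1)) * a ^ (j / (d + 1))) := by
                  rw [this, mul_one]
              _ = _ := by ring
        _ ≤ a ^ v * a ^ (j / (d + 1)) * (R ^ v * R ^ (i / (d + 1))) := by gcongr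
        _ = (R ^ v * a ^ v) * (R ^ (i / (d + 1)) * a ^ (j / (d + 1))) := by ring
        _ = _ := by rw [h7, one_mul]
    calc a ^ v * ‖MvPolynomial.eval y (ℓ (m v - j))‖
        ≤ a ^ v * (C * R ^ ((m v - j) / (d + 1))) := by gcongr
      _ = C * (a ^ v * R ^ ((m v - j) / (d + 1))) := by ring
      _ ≤ C * (R ^ (i / (d + 1)) * a ^ (j / (d + 1))) := by gcongr
      _ = _ := by rw [hB]; ring
  have hdom : ∀ v j, ‖g v j‖ ≤ B * a ^ (j / (d + 1)) := by
    intro v j
    simp only [g]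
    split_ifs with hj
    · rw [← mul_assoc, norm_mul, norm_pow]
      have hTp : ‖T j‖ ^ (p ^ (m v - j)) ≤ 1 := pow_le_one₀ (norm_nonneg _) (hT1 j)
      calc _ ≤ B * a ^ (j / (d + 1)) * 1 := mul_le_mul (hval v j hj) hTp (by positivity) (by positivity)
        _ = _ := mul_one _
    · simpa using mul_nonneg hB0 (pow_nonneg ha0.le _)
  have hsummable : Summable (fun j : ℕ => B * a ^ (j / (d + 1))) :=
    (summable_pow_div ha0 hπ1 (d + 1) (by omega)).mul_left B
  have hm_top : Tendsto m atTop atTop :=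
    tendsto_atTop_mono (fun v => by
      have := Nat.le_mul_of_pos_left v (by omega : 0 < d + 1)
      simp only [m, id]; omega) tendsto_id
  -- pointwise limits
  have hpt : ∀ j, Tendsto (fun v => g v j) atTop (𝓝 (gL j)) := by
    intro j
    have hev : ∀ᶠ v in atTop, j ≤ m v := hm_top.eventually_ge_atTop j
    by_cases hj0 : j = 0
    · subst hj0
      simp only [gL, if_true]
      have h1 := tendsto_eval_PhiS hp hπ0 hπ1 h hy i
      have h2 := tendsto_pow_periodic hpp hπ1 (x := T 0) (τ := 1) (by simp) hT0 (n := d + 1)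
        (by omega) (by simp) i
      simp only [one_pow, mul_one] at h2
      have h3 := h1.mul h2
      rw [mul_one] at h3
      refine h3.congr' ?_
      filter_upwards with v
      simp [g, m, mul_assoc]
    · by_cases hjr : j = r
      · have hgL : gL j = (p : K) ^ w * τ ^ (p ^ (i - s)) * evalS (PhiS p d ℓ (i - s)) y := by
          simp only [gL, if_neg hj0, if_pos hjr]
        rw [hgL]
        have h1 := tendsto_eval_PhiS hp hπ0 hπ1 h hy (i - s)
        have h2 := tendsto_pow_periodic hpp hπ1 (x := T r) (τ := τ) hτ1 hTr (n := d + 1)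
          (by omega) hτq (i - s)
        have h3 := (h1.mul h2).const_mul ((p : K) ^ w)
        have h4 : Tendsto (fun v => g (v + w) j) atTop
            (𝓝 ((p : K) ^ w * (evalS (PhiS p d ℓ (i - s)) y * τ ^ (p ^ (i - s))))) := by
          refine h3.congr fun u => ?_
          have hmv : m (u + w) - j = (d + 1) * u + (i - s) := by
            simp only [m]
            rw [hjr, hrdef, Nat.mul_add]
            omega
          have hle : j ≤ m (u + w) := by
            simp only [m]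
            rw [hjr, hrdef, Nat.mul_add]
            omega
          have hg : g (u + w) j = (p : K) ^ (u + w) * (MvPolynomial.eval y (ℓ ((d + 1) * u + (i - s))) *
              T j ^ (p ^ ((d + 1) * u + (i - s)))) := by
            simp only [g]
            rw [if_pos hle, hmv]
          rw [hg, hjr, pow_add]
          ring
        have h5 := (tendsto_add_atTop_iff_nat (f := fun v => g v j) w).mp h4
        convert h5 using 2
        ring
      · have hgL : gL j = 0 := by simp [gL, hj0, hjr]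
        rw [hgL, tendsto_zero_iff_norm_tendsto_zero]
        have hTj := hTo j hj0 hjr
        have h1 : Tendsto (fun e : ℕ => ‖T j‖ ^ (p ^ e)) atTop (𝓝 0) := tendsto_pow_pow_zero hp hTj
        have hsub : Tendsto (fun v => m v - j) atTop atTop :=
          (tendsto_sub_atTop_nat j).comp hm_top
        have h2 := (h1.comp hsub).const_mul (B * 1)
        simp only [mul_zero] at h2
        refine squeeze_zero' (Eventually.of_forall fun _ => norm_nonneg _) ?_ h2
        filter_upwards [hev] with v hv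
        simp only [g, if_pos hv, Function.comp]
        rw [← mul_assoc, norm_mul, norm_pow]
        have h3 := hval v j hv
        have h4 : a ^ (j / (d + 1)) ≤ 1 := pow_le_one₀ ha0.le hπ1.le
        have h5 : ‖(p : K) ^ v * MvPolynomial.eval y (ℓ (m v - j))‖ ≤ B * 1 :=
          h3.trans (by gcongr)
        exact mul_le_mul_of_nonneg_right h5 (by positivity)
  -- the dominated limit
  have hlim := tendsto_tsum_of_dominated_convergence hsummable hpt (Eventually.of_forall hdom)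
  have hsumv : ∀ v, ∑' j, g v j = (p : K) ^ v * (T 0 * MvPolynomial.eval y' (ℓ (m v))) := by
    intro v
    rw [tsum_eq_sum (s := Finset.range (m v + 1))]
    · rw [hdig, Finset.mul_sum]
      refine Finset.sum_congr rfl fun j hj => ?_
      have : j ≤ m v := Nat.lt_succ_iff.mp (Finset.mem_range.mp hj)
      simp only [g, if_pos this]
    · intro j hj
      have : ¬ j ≤ m v := by
        intro h'
        exact hj (Finset.mem_range.mpr (Nat.lt_succ_iff.mpr h'))
      simp only [g, if_neg this]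
  have hr0 : r ≠ 0 := by omega
  have hsumL : ∑' j, gL j = evalS (PhiS p d ℓ i) y +
      (p : K) ^ w * τ ^ (p ^ (i - s)) * evalS (PhiS p d ℓ (i - s)) y := by
    rw [tsum_eq_sum (s := {0, r})]
    · rw [Finset.sum_pair hr0.symm]
      simp [gL, hr0]
    · intro j hj
      simp only [Finset.mem_insert, Finset.mem_singleton, not_or] at hj
      simp [gL, hj.1, hj.2]
  rw [← hsumL]
  simp only [hsumv] at hlim
  refine tendsto_nhds_unique ?_ hlim
  have h1 := (tendsto_eval_PhiS hp hπ0 hπ1 h hy' i).const_mul (T 0)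
  refine h1.congr fun v => ?_
  simp only [m]
  ring

end Period
end Crest.Agent.LT
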