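/-
D4: from the limit equation to vanishing (BLUEPRINT §D4), abstract form.
-/
import Crest.Agent.Lib.LT.P2Limit
import Crest.Agent.Lib.LT.P2Taylor

set_option autoImplicit false
set_option linter.unusedSectionVars false
set_option linter.unusedVariables false
set_option linter.deprecated false
set_option linter.unusedSimpArgs false
set_option linter.unnecessarySimpa false

namespace Crest.Agent.LT
namespace Period

open Filter Topology Matrix

variable {K : Type*} [NontriviallyNormedField K] [IsUltrametricDist K] [CompleteSpace K]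
variable {d : ℕ}

lemma norm_sum_le_of_le {ι : Type*} (s : Finset ι) (g : ι → K) {c : ℝ} (hc : 0 ≤ c)
    (h : ∀ i ∈ s, ‖g i‖ ≤ c) : ‖∑ i ∈ s, g i‖ ≤ c :=
  IsUltrametricDist.norm_sum_le_of_forall_le_of_nonneg hc h

/-- Entrywise bound for matrix-vector products. -/
lemma norm_mulVec_le {n : ℕ} (A : Matrix (Fin n) (Fin n) K) {c u : ℝ} (hc : 0 ≤ c) (hu : 0 ≤ u)
    (hA : ∀ i j, ‖A i j‖ ≤ c) (v : Fin n → K) (hv : ∀ j, ‖v j‖ ≤ u) (i : Fin n) :
    ‖A.mulVec v i‖ ≤ c * u := by
  simp only [Matrix.mulVec, dotProduct]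
  refine norm_sum_le_of_le _ _ (by positivity) fun j _ => ?_
  rw [norm_mul]
  exact mul_le_mul (hA i j) (hv j) (norm_nonneg _) hc

/-- **First order analysis of the flow equation.** -/
theorem flow_first_order {Φ : Fin (d + 1) → MvPowerSeries (Fin d) K} {ρ C : ℝ} (hρ0 : 0 < ρ)
    (hΦ : ∀ r, IsB ρ C (Φ r)) {y : Fin d → K} (hy : ∀ i, ‖y i‖ < ρ)
    {π : K} (hπ0 : π ≠ 0) (hπ1 : ‖π‖ < 1)
    (M : Matrix (Fin (d + 1)) (Fin (d + 1)) K)
    (hM : ∀ r k, M r k = Fin.cases (evalS (Φ r) y)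
      (fun b => evalS (hasse (Finsupp.single b 1) (Φ r)) y) k)
    (Mi : Matrix (Fin (d + 1)) (Fin (d + 1)) K) (hMi : Mi * M = 1)
    (e : Fin (d + 1) → K)
    {y' : ℕ → Fin d → K} {T : ℕ → K}
    (hy' : ∀ b, Tendsto (fun w => y' w b) atTop (𝓝 (y b)))
    (hT : ∀ᶠ w in atTop, ‖T w‖ = 1)
    (heq : ∀ᶠ w in atTop, ∀ r, T w * evalS (Φ r) (y' w) = evalS (Φ r) y + π ^ w * e r)
    {f : MvPowerSeries (Fin d) K} {ε C' : ℝ} (hε : 0 < ε) (hf : IsB ε C' f) (hyε : ∀ i, ‖y i‖ < ε)
    (hfy : evalS f y = 0) (hfy' : ∀ᶠ w in atTop, evalS f (y' w) = 0) :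
    ∑ b, evalS (hasse (Finsupp.single b 1) f) y * Mi.mulVec e b.succ = 0 := by
  classical
  -- constants
  obtain ⟨cM, hcM0, hcM⟩ : ∃ c : ℝ, 0 ≤ c ∧ ∀ i j, ‖Mi i j‖ ≤ c := by
    refine ⟨∑ i, ∑ j, ‖Mi i j‖, by positivity, fun i j => ?_⟩
    calc ‖Mi i j‖ ≤ ∑ j, ‖Mi i j‖ :=
          Finset.single_le_sum (f := fun j => ‖Mi i j‖) (fun _ _ => norm_nonneg _) (Finset.mem_univ j)
      _ ≤ _ := Finset.single_le_sum (f := fun i => ∑ j, ‖Mi i j‖)
          (fun _ _ => by positivity) (Finset.mem_univ i)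
  set x := Mi.mulVec e with hx
  set D : ℕ → Fin d → K := fun w => y' w - y with hD
  have hD0 : Tendsto D atTop (𝓝 0) := by
    refine tendsto_pi_nhds.mpr fun b => ?_
    have := (hy' b).sub_const (y b)
    simpa [hD] using this
  set δ : ℕ → ℝ := fun w => ‖D w‖ with hδ
  have hδ0 : ∀ w, 0 ≤ δ w := fun w => norm_nonneg _
  have hδlim : Tendsto δ atTop (𝓝 0) := by
    have := hD0.norm
    simpa using this
  have hDb : ∀ w b, ‖D w b‖ ≤ δ w := fun w b => norm_le_pi_norm (D w) b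
  have hCρ : 0 ≤ C := (hΦ 0).nonneg hρ0.le
  set C₁ : ℝ := C / ρ ^ 2 with hC₁
  have hC₁0 : 0 ≤ C₁ := by positivity
  have hypos : ∀ᶠ w in atTop, δ w < ρ := (tendsto_order.1 hδlim).2 ρ hρ0
  -- Taylor error for `Φ`
  set Er : ℕ → Fin (d + 1) → K := fun w r =>
    evalS (Φ r) (y + D w) - evalS (Φ r) y - ∑ b, evalS (hasse (Finsupp.single b 1) (Φ r)) y * D w b
    with hEr
  have hErb : ∀ᶠ w in atTop, ∀ r, ‖Er w r‖ ≤ C₁ * δ w ^ 2 := by
    filter_upwards [hypos] with w hw r
    have := taylor2 hρ0 (hΦ r) hy (hδ0 w) hw (hDb w)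
    refine this.trans (le_of_eq ?_)
    rw [hC₁, div_pow]
    ring
  -- the vector `v`
  set v : ℕ → Fin (d + 1) → K := fun w => Fin.cases (T w - 1) (fun b => T w * D w b) with hv
  have hyy : ∀ w, y + D w = y' w := fun w => by simp [hD]
  have hMv : ∀ᶠ w in atTop, ∀ r, M.mulVec (v w) r = π ^ w * e r - T w * Er w r := by
    filter_upwards [heq] with w hw r
    simp only [Matrix.mulVec, dotProduct, Fin.sum_univ_succ, hM, hv, Fin.cases_zero, Fin.cases_succ]
    have h1 := hw r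
    simp only [hEr, hyy]
    have h2 : ∑ b, evalS (hasse (Finsupp.single b 1) (Φ r)) y * (T w * D w b) =
        T w * ∑ b, evalS (hasse (Finsupp.single b 1) (Φ r)) y * D w b := by
      rw [Finset.mul_sum]
      exact Finset.sum_congr rfl fun b _ => by ring
    rw [h2]
    linear_combination h1
  -- inverting
  have hinv : ∀ᶠ w in atTop, ∀ k, v w k = π ^ w * x k - Mi.mulVec (fun r => T w * Er w r) k := by
    filter_upwards [hMv] with w hw k
    have h1 : v w = Mi.mulVec (M.mulVec (v w)) := by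
      rw [Matrix.mulVec_mulVec, hMi, Matrix.one_mulVec]
    have h2 : M.mulVec (v w) = fun r => π ^ w * e r - T w * Er w r := funext hw
    rw [h1, h2]
    have h3 : (fun r => π ^ w * e r - T w * Er w r) = π ^ w • e - fun r => T w * Er w r := by
      ext r; simp
    rw [h3, Matrix.mulVec_sub, Matrix.mulVec_smul]
    simp [hx]
  -- error bound for the inverted term
  have herr : ∀ᶠ w in atTop, ∀ k, ‖Mi.mulVec (fun r => T w * Er w r) k‖ ≤ cM * (C₁ * δ w ^ 2) := by
    filter_upwards [hErb, hT] with w h1 h2 k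
    refine norm_mulVec_le Mi hcM0 (by positivity) hcM _ (fun r => ?_) k
    rw [norm_mul, h2, one_mul]
    exact h1 r
  -- size of x
  obtain ⟨cx, hcx0, hcx⟩ : ∃ c : ℝ, 0 ≤ c ∧ ∀ k, ‖x k‖ ≤ c :=
    ⟨‖x‖, norm_nonneg _, fun k => norm_le_pi_norm x k⟩
  -- δ is small: eventually `cM * C₁ * δ ≤ 1/2`
  have hsmall : ∀ᶠ w in atTop, cM * C₁ * δ w < 1 := by
    have h1 : Tendsto (fun w => cM * C₁ * δ w) atTop (𝓝 0) := by
      simpa using hδlim.const_mul (cM * C₁)
    exact (tendsto_order.1 h1).2 1 one_pos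
  -- main estimate `δ w ≤ cx ‖π‖^w`
  have hπpos : 0 < ‖π‖ := norm_pos_iff.mpr hπ0
  have hδbd : ∀ᶠ w in atTop, δ w ≤ cx * ‖π‖ ^ w := by
    filter_upwards [hinv, herr, hsmall, hT] with w h1 h2 h3 h4
    by_contra hcon
    push Not at hcon
    have hδpos : 0 < δ w := lt_of_le_of_lt (by positivity) hcon
    have h5 : δ w ≤ max (cx * ‖π‖ ^ w) (cM * (C₁ * δ w ^ 2)) := by
      refine (pi_norm_le_iff_of_nonneg (le_max_of_le_left (by positivity))).mpr fun b => ?_
      have h6 : ‖D w b‖ = ‖v w b.succ‖ := by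
        simp only [hv, Fin.cases_succ, norm_mul, h4, one_mul]
      rw [h6, h1]
      rw [sub_eq_add_neg]
      refine (IsUltrametricDist.norm_add_le_max _ _).trans (max_le_max ?_ (by rw [norm_neg]; exact h2 _))
      rw [norm_mul, norm_pow, mul_comm]
      gcongr
      exact hcx _
    have h7 : cM * (C₁ * δ w ^ 2) < δ w := by
      have : cM * (C₁ * δ w ^ 2) = (cM * C₁ * δ w) * δ w := by ring
      rw [this]
      nlinarith
    rcases le_max_iff.mp h5 with h8 | h8
    · linarith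
    · linarith
  -- `T → 1`
  have hpowlim : Tendsto (fun w : ℕ => ‖π‖ ^ w) atTop (𝓝 0) :=
    tendsto_pow_atTop_nhds_zero_of_lt_one hπpos.le hπ1
  have herrbd : ∀ᶠ w in atTop, ∀ k, ‖Mi.mulVec (fun r => T w * Er w r) k‖ ≤
      cM * C₁ * cx ^ 2 * (‖π‖ ^ w * ‖π‖ ^ w) := by
    filter_upwards [herr, hδbd] with w h1 h2 k
    refine (h1 k).trans ?_
    have h3 : δ w ^ 2 ≤ (cx * ‖π‖ ^ w) ^ 2 := pow_le_pow_left₀ (hδ0 w) h2 2
    calc cM * (C₁ * δ w ^ 2) ≤ cM * (C₁ * (cx * ‖π‖ ^ w) ^ 2) := by gcongr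
      _ = _ := by ring
  have hT1 : Tendsto T atTop (𝓝 1) := by
    rw [tendsto_iff_norm_sub_tendsto_zero]
    have hb : Tendsto (fun w : ℕ => cx * ‖π‖ ^ w + cM * C₁ * cx ^ 2 * (‖π‖ ^ w * ‖π‖ ^ w)) atTop (𝓝 0) := by
      have := (hpowlim.const_mul cx).add (((hpowlim.mul hpowlim)).const_mul (cM * C₁ * cx ^ 2))
      simpa using this
    refine squeeze_zero' (Eventually.of_forall fun _ => norm_nonneg _) ?_ hb
    filter_upwards [hinv, herrbd] with w h1 h2
    have h3 : T w - 1 = v w 0 := by simp [hv]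
    rw [h3, h1]
    have h4 := h2 0
    have h5 : ‖π ^ w * x 0‖ ≤ cx * ‖π‖ ^ w := by
      rw [norm_mul, norm_pow, mul_comm]
      gcongr
      exact hcx _
    calc ‖π ^ w * x 0 - Mi.mulVec (fun r => T w * Er w r) 0‖
        ≤ ‖π ^ w * x 0‖ + ‖Mi.mulVec (fun r => T w * Er w r) 0‖ := norm_sub_le _ _
      _ ≤ _ := add_le_add h5 h4
  -- `D/π^w → x`
  have hz : ∀ b, Tendsto (fun w => D w b / π ^ w) atTop (𝓝 (x b.succ)) := by
    intro b
    have h1 : Tendsto (fun w => T w * (D w b / π ^ w)) atTop (𝓝 (x b.succ)) := by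
      rw [tendsto_iff_norm_sub_tendsto_zero]
      have hb := hpowlim.const_mul (cM * C₁ * cx ^ 2)
      rw [mul_zero] at hb
      refine squeeze_zero' (Eventually.of_forall fun _ => norm_nonneg _) ?_ hb
      filter_upwards [hinv, herrbd] with w h2 h3
      have h4 : T w * (D w b / π ^ w) - x b.succ =
          - (Mi.mulVec (fun r => T w * Er w r) b.succ) / π ^ w := by
        have h5 := h2 b.succ
        simp only [hv, Fin.cases_succ] at h5
        have hpne : π ^ w ≠ 0 := pow_ne_zero _ hπ0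
        field_simp
        linear_combination h5
      rw [h4, norm_div, norm_neg, norm_pow, div_le_iff₀ (by positivity)]
      have := h3 b.succ
      calc _ ≤ _ := this
        _ = _ := by ring
    have h2 : Tendsto (fun w => (T w)⁻¹ * (T w * (D w b / π ^ w))) atTop (𝓝 (1⁻¹ * x b.succ)) :=
      (hT1.inv₀ one_ne_zero).mul h1
    rw [inv_one, one_mul] at h2
    refine h2.congr' ?_
    filter_upwards [hT] with w hw
    have : T w ≠ 0 := by
      intro h0
      rw [h0, norm_zero] at hw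
      exact zero_ne_one hw
    field_simp
  -- the equation for `f`
  have hsumlim : Tendsto (fun w => ∑ b, evalS (hasse (Finsupp.single b 1) f) y * (D w b / π ^ w))
      atTop (𝓝 (∑ b, evalS (hasse (Finsupp.single b 1) f) y * x b.succ)) :=
    tendsto_finset_sum _ fun b _ => (hz b).const_mul _
  have hzero : Tendsto (fun w => ∑ b, evalS (hasse (Finsupp.single b 1) f) y * (D w b / π ^ w))
      atTop (𝓝 0) := by
    rw [tendsto_zero_iff_norm_tendsto_zero]
    have hb := hpowlim.const_mul (C' * (cx / ε) ^ 2)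
    rw [mul_zero] at hb
    refine squeeze_zero' (Eventually.of_forall fun _ => norm_nonneg _) ?_ hb
    have hεev : ∀ᶠ w in atTop, δ w < ε := (tendsto_order.1 hδlim).2 ε hε
    filter_upwards [hεev, hfy', hδbd] with w h1 h2 h3
    have h4 := taylor2 hε hf hyε (hδ0 w) h1 (hDb w)
    rw [hyy, h2, hfy] at h4
    have h5 : ∑ b, evalS (hasse (Finsupp.single b 1) f) y * (D w b / π ^ w) =
        (∑ b, evalS (hasse (Finsupp.single b 1) f) y * D w b) / π ^ w := by
      rw [Finset.sum_div]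
      exact Finset.sum_congr rfl fun b _ => by ring
    rw [h5, norm_div, norm_pow, div_le_iff₀ (by positivity)]
    have h6 : ‖∑ b, evalS (hasse (Finsupp.single b 1) f) y * D w b‖ ≤ C' * (δ w / ε) ^ 2 := by
      simpa using h4
    have hC'0 : 0 ≤ C' := hf.nonneg hε.le
    refine h6.trans ?_
    have h7 : (δ w / ε) ^ 2 ≤ (cx * ‖π‖ ^ w / ε) ^ 2 := by
      gcongr
    calc C' * (δ w / ε) ^ 2 ≤ C' * (cx * ‖π‖ ^ w / ε) ^ 2 := by gcongr
      _ = _ := by ring
  exact tendsto_nhds_unique hsumlim hzero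

/-! ### Dedekind independence -/

section Dedekind

variable {k : Type*} [Field k] [Fintype k]

/-- Distinct Frobenius powers on a finite field. -/
lemma exists_pow_ne {p n : ℕ} (hp : p.Prime) [CharP k p] (hcard : Fintype.card k = p ^ n)
    {a : ℕ} (ha0 : 0 < a) (ha : a < n) : ∃ t : k, t ^ (p ^ a) ≠ t := by
  classical
  by_contra hcon
  push Not at hcon
  have hq : 1 < p ^ a := Nat.one_lt_pow (by omega) hp.one_lt
  have hne := FiniteField.X_pow_card_sub_X_ne_zero k hq
  refine hne (Polynomial.eq_zero_of_natDegree_lt_card_of_eval_eq_zero' _ Finset.univ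
    (fun t _ => ?_) ?_)
  · simp [hcon t]
  · rw [FiniteField.X_pow_card_sub_X_natDegree_eq k hq, Finset.card_univ, hcard]
    exact Nat.pow_lt_pow_right hp.one_lt ha

/-- Independence of the characters `t ↦ τ(t)^(p^(r+c))`, `r < n`. -/
theorem chars_indep {p n : ℕ} (hp : p.Prime) [CharP k p] (hcard : Fintype.card k = p ^ n)
    (τ : k →* K) (hτ : Function.Injective τ) (c : ℕ) (a : Fin n → K)
    (h : ∀ t : k, ∑ r, a r * τ t ^ (p ^ (r.1 + c)) = 0) (r : Fin n) : a r = 0 := by
  classical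
  haveI : ExpChar k p := ExpChar.prime hp
  let χ : Fin n → (k →* K) := fun r => (powMonoidHom (p ^ (r.1 + c))).comp τ
  have hχ : ∀ r t, χ r t = τ t ^ (p ^ (r.1 + c)) := fun r t => rfl
  have hinj : Function.Injective χ := by
    have key : ∀ r r' : Fin n, r.1 < r'.1 → χ r ≠ χ r' := by
      intro r r' hlt he
      obtain ⟨t, ht⟩ := exists_pow_ne (k := k) hp hcard (a := r'.1 - r.1) (by omega)
        (by have := r'.2; omega)
      apply ht
      have h1 := DFunLike.congr_fun he t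
      rw [hχ, hχ, ← map_pow, ← map_pow] at h1
      have h2 := hτ h1
      have h5 : (t ^ p ^ (r'.1 - r.1)) ^ p ^ (r.1 + c) = t ^ p ^ (r.1 + c) := by
        rw [← pow_mul, ← pow_add, show (r'.1 - r.1) + (r.1 + c) = r'.1 + c by omega]
        exact h2.symm
      exact (iterateFrobenius k p (r.1 + c)).injective (by simpa [iterateFrobenius_def] using h5)
    intro r r' he
    rcases lt_trichotomy r.1 r'.1 with h1 | h1 | h1
    · exact absurd he (key r r' h1)
    · exact Fin.ext h1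
    · exact absurd he.symm (key r' r h1)
  have hli := (linearIndependent_monoidHom k K).comp χ hinj
  refine Fintype.linearIndependent_iff.mp hli a ?_ r
  funext t
  simp only [Function.comp, Finset.sum_apply, Pi.smul_apply, smul_eq_mul, Pi.zero_apply, hχ]
  exact h t

end Dedekind

/-! ### Gradient vanishing -/

section Flow

variable {p : ℕ} {ℓ : ℕ → MvPolynomial (Fin d) K}
variable {k : Type*} [Field k] [Fintype k]

/-- The flow hypothesis at `y` relative to the set `Z`: output of the equivariance (D3). -/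
def HasFlow (p d : ℕ) (ℓ : ℕ → MvPolynomial (Fin d) K) (τ : k →* K) (Z : Set (Fin d → K))
    (y : Fin d → K) : Prop :=
  ∀ (t : k) (s : Fin (d + 1)), ∃ (y' : ℕ → Fin d → K) (T : ℕ → K),
    (∀ᶠ w in atTop, y' w ∈ Z) ∧ (∀ b, Tendsto (fun w => y' w b) atTop (𝓝 (y b))) ∧
    (∀ᶠ w in atTop, ‖T w‖ = 1) ∧
    ∀ᶠ w in atTop, ∀ i : ℕ, s.1 ≤ i → T w * evalS (PhiS p d ℓ i) (y' w) =
      evalS (PhiS p d ℓ i) y + (p : K) ^ w * τ t ^ (p ^ (i - s.1)) * evalS (PhiS p d ℓ (i - s.1)) y

/-- Periodicity at a point. -/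
lemma evalS_PhiS_add (hp : 1 < p) (hπ0 : (p : K) ≠ 0) (hπ1 : ‖(p : K)‖ < 1)
    (h : IsLogSeq (K := K) p d ℓ) {z : Fin d → K} (hz : ∀ i, ‖z i‖ < 1) (r : ℕ) :
    (p : K) * evalS (PhiS p d ℓ (r + (d + 1))) z = evalS (PhiS p d ℓ r) z := by
  obtain ⟨ρ, hρ0, hρ1, hzρ⟩ := exists_radius_lt hz
  obtain ⟨C, _, hC⟩ := exists_isB_PhiS hp hπ0 hπ1 h hρ0 hρ1 (r + (d + 1))
  rw [← PhiS_add hp hπ0 hπ1 h r, evalS_mul hρ0 (isB_C (σ := Fin d) ρ hρ0.le _) hC hzρ, evalS_C]

/-- **Gradient vanishing** along a flow. -/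
theorem grad_zero (hpp : p.Prime) [CharP k p] (hcard : Fintype.card k = p ^ (d + 1))
    (hπ0 : (p : K) ≠ 0) (hπ1 : ‖(p : K)‖ < 1)
    (h : IsLogSeq (K := K) p d ℓ) (τ : k →* K) (hτ : Function.Injective τ)
    {Z : Set (Fin d → K)} (hZ : ∀ z ∈ Z, ∀ i, ‖z i‖ < 1) {y : Fin d → K} (hy : ∀ i, ‖y i‖ < 1)
    (hflow : HasFlow p d ℓ τ Z y) {f : MvPowerSeries (Fin d) K} {C₀ : ℝ} (hf : IsB 1 C₀ f)
    (hfZ : ∀ z ∈ Z, evalS f z = 0) (hfy : evalS f y = 0) (b : Fin d) :
    evalS (hasse (Finsupp.single b 1) f) y = 0 := by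
  classical
  have hp := hpp.one_lt
  set M := wrM (PhiS p d ℓ) y with hM
  have hdet := norm_det_wrM hp hπ0 hπ1 h hy
  have hdet0 : M.det ≠ 0 := by
    intro h0
    rw [← hM, h0, norm_zero, zero_mul] at hdet
    exact zero_ne_one hdet
  set Mi := M⁻¹ with hMi
  have hMiM : Mi * M = 1 := Matrix.nonsing_inv_mul _ (isUnit_iff_ne_zero.mpr hdet0)
  obtain ⟨ρ, hρ0, hρ1, hyρ⟩ := exists_radius_lt hy
  choose Cr hCr0 hCr using fun r : Fin (d + 1) => exists_isB_PhiS hp hπ0 hπ1 h hρ0 hρ1 r.1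
  set C := ∑ r, Cr r with hC
  have hΦ : ∀ r : Fin (d + 1), IsB ρ C (PhiS p d ℓ r.1) := fun r =>
    (hCr r).mono (Finset.single_le_sum (f := Cr) (fun i _ => hCr0 i) (Finset.mem_univ r))
  -- the row vector
  set c : Fin (d + 1) → K := Fin.cases 0 (fun b => evalS (hasse (Finsupp.single b 1) f) y) with hc
  set u : Fin (d + 1) → K := Matrix.vecMul c Mi with hu
  -- the vectors `e_{t,s}`
  let e : k → Fin (d + 1) → Fin (d + 1) → K := fun t s r =>
    (p : K) * (τ t ^ (p ^ (r.1 + (d + 1 - s.1))) * evalS (PhiS p d ℓ (r.1 + (d + 1 - s.1))) y)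
  have hu_e : ∀ t s, ∑ r, u r * e t s r = 0 := by
    intro t s
    obtain ⟨y', T, hy'Z, hy', hT, heq⟩ := hflow t s
    have heq' : ∀ᶠ w in atTop, ∀ r : Fin (d + 1), T w * evalS (PhiS p d ℓ r.1) (y' w) =
        evalS (PhiS p d ℓ r.1) y + (p : K) ^ w * e t s r := by
      filter_upwards [heq, hy'Z] with w hw hwZ r
      have hs := s.2
      have hi : s.1 ≤ r.1 + (d + 1) := by omega
      have h1 := hw (r.1 + (d + 1)) hi
      have h2 := evalS_PhiS_add hp hπ0 hπ1 h (hZ _ hwZ) r.1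
      have h3 := evalS_PhiS_add hp hπ0 hπ1 h hy r.1
      have hsub : r.1 + (d + 1) - s.1 = r.1 + (d + 1 - s.1) := by omega
      rw [hsub] at h1
      rw [← h2, ← h3]
      simp only [e]
      linear_combination (p : K) * h1
    have hfirst := flow_first_order hρ0 hΦ hyρ hπ0 hπ1 M (fun r k => rfl) Mi hMiM (e t s) hy' hT heq'
      one_pos hf hy hfy (by filter_upwards [hy'Z] with w hw using hfZ _ hw)
    have h1 : u ⬝ᵥ e t s = c ⬝ᵥ Mi.mulVec (e t s) := by
      rw [hu, Matrix.dotProduct_mulVec]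
    have h2 : c ⬝ᵥ Mi.mulVec (e t s) = ∑ b, evalS (hasse (Finsupp.single b 1) f) y *
        Mi.mulVec (e t s) b.succ := by
      simp [dotProduct, Fin.sum_univ_succ, hc]
    rw [h2, hfirst] at h1
    exact h1
  -- `u = 0`
  have hu0 : ∀ r₁, u r₁ = 0 := by
    intro r₁
    -- a nonzero entry of the first column
    obtain ⟨r₀, hr₀⟩ : ∃ r₀ : Fin (d + 1), evalS (PhiS p d ℓ r₀.1) y ≠ 0 := by
      by_contra hcon
      push Not at hcon
      exact hdet0 (Matrix.det_eq_zero_of_column_eq_zero 0 fun r => by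
        simpa [hM, wrM] using hcon r)
    have hn0 : 0 < d + 1 := Nat.succ_pos d
    let s : Fin (d + 1) := ⟨(r₁.1 + (d + 1) - r₀.1) % (d + 1), Nat.mod_lt _ hn0⟩
    set c₀ := d + 1 - s.1 with hc₀
    have hne : evalS (PhiS p d ℓ (r₁.1 + c₀)) y ≠ 0 := by
      have hr1 := r₁.2
      have hr0 := r₀.2
      by_cases hle : r₀.1 ≤ r₁.1
      · have hs : s.1 = r₁.1 - r₀.1 := by
          show (r₁.1 + (d + 1) - r₀.1) % (d + 1) = _
          rw [show r₁.1 + (d + 1) - r₀.1 = (r₁.1 - r₀.1) + (d + 1) by omega, Nat.add_mod_right,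
            Nat.mod_eq_of_lt (by omega)]
        have h1 : r₁.1 + c₀ = r₀.1 + (d + 1) := by omega
        rw [h1]
        intro h0
        have := evalS_PhiS_add hp hπ0 hπ1 h hy r₀.1
        rw [h0, mul_zero] at this
        exact hr₀ this.symm
      · have hs : s.1 = r₁.1 + (d + 1) - r₀.1 := by
          show (r₁.1 + (d + 1) - r₀.1) % (d + 1) = _
          rw [Nat.mod_eq_of_lt (by omega)]
        have h1 : r₁.1 + c₀ = r₀.1 := by omega
        rw [h1]
        exact hr₀
    have hdep := chars_indep hpp hcard τ hτ c₀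
      (fun r => u r * ((p : K) * evalS (PhiS p d ℓ (r.1 + c₀)) y)) (fun t => by
        rw [← hu_e t s]
        refine Finset.sum_congr rfl fun r _ => ?_
        simp only [e, ← hc₀]
        ring) r₁
    exact (mul_eq_zero.mp hdep).resolve_right (mul_ne_zero hπ0 hne)
  have hc0 : c = 0 := by
    have h1 : Matrix.vecMul u M = c := by
      rw [hu, Matrix.vecMul_vecMul, hMiM, Matrix.vecMul_one]
    have hu' : u = 0 := funext hu0
    rw [hu', Matrix.zero_vecMul] at h1
    exact h1.symm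
  have := congrFun hc0 b.succ
  simpa [hc] using this

/-- Evaluation at the origin. -/
lemma evalS_zero_point (g : MvPowerSeries (Fin d) K) : evalS g 0 = MvPowerSeries.constantCoeff g := by
  classical
  rw [evalS, tsum_eq_single 0]
  · simp
  · intro γ hγ
    obtain ⟨i, hi⟩ : ∃ i, γ i ≠ 0 := by
      by_contra hcon
      push Not at hcon
      exact hγ (Finsupp.ext hcon)
    have : mval (0 : Fin d → K) γ = 0 := by
      rw [mval]
      exact Finset.prod_eq_zero (Finset.mem_univ i) (by simp [hi])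
    rw [this, mul_zero]

omit [Fintype k] [CompleteSpace K] in
lemma mchoose_self (β : Fin d →₀ ℕ) : mchoose (0 + β) β = 1 := by
  simp [mchoose]

omit [Fintype k] [CompleteSpace K] in
lemma mchoose_succ (β : Fin d →₀ ℕ) (b : Fin d) :
    mchoose (Finsupp.single b 1 + β) β = β b + 1 := by
  classical
  rw [mchoose, Finset.prod_eq_single b]
  · simp only [Finsupp.add_apply, Finsupp.single_eq_same]
    rw [add_comm 1, Nat.choose_succ_self_right]
  · intro i _ hi
    simp [Finsupp.single_apply, hi.symm]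
  · simp

/-- **Vanishing along a flow-stable set forces vanishing.** -/
theorem eq_zero_of_flow [CharZero K] (hpp : p.Prime) [CharP k p]
    (hcard : Fintype.card k = p ^ (d + 1))
    (hπ0 : (p : K) ≠ 0) (hπ1 : ‖(p : K)‖ < 1)
    (h : IsLogSeq (K := K) p d ℓ) (τ : k →* K) (hτ : Function.Injective τ)
    {Z : Set (Fin d → K)} (hZ : ∀ z ∈ Z, ∀ i, ‖z i‖ < 1)
    (hflow : ∀ z ∈ Z, HasFlow p d ℓ τ Z z) {y : Fin d → K} (hyZ : y ∈ Z)
    {f : MvPowerSeries (Fin d) K} {C₀ : ℝ} (hf : IsB 1 C₀ f) (hfZ : ∀ z ∈ Z, evalS f z = 0) :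
    f = 0 := by
  classical
  have hall : ∀ (N : ℕ) (β : Fin d →₀ ℕ), Finsupp.degree β = N → ∀ z ∈ Z,
      evalS (hasse β f) z = 0 := by
    intro N
    induction N with
    | zero =>
      intro β hβ z hz
      have : β = 0 := (Finsupp.degree_eq_zero_iff β).mp hβ
      rw [this, hasse_zero]
      exact hfZ z hz
    | succ N ih =>
      intro β hβ z hz
      obtain ⟨b, hb⟩ : ∃ b, β b ≠ 0 := by
        by_contra hcon
        push Not at hcon
        have : β = 0 := Finsupp.ext hcon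
        rw [this] at hβ
        simp at hβ
      set β' := β - Finsupp.single b 1 with hβ'
      have hβe : Finsupp.single b 1 + β' = β := by
        ext i
        simp only [hβ', Finsupp.add_apply, Finsupp.tsub_apply, Finsupp.single_apply]
        split_ifs with h1
        · subst h1; omega
        · simp
      have hdeg : Finsupp.degree β' = N := by
        have : Finsupp.degree β = Finsupp.degree (Finsupp.single b 1) + Finsupp.degree β' := by
          rw [← hβe, map_add]
        simp at this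
        omega
      have hIB : IsB 1 C₀ (hasse β' f) := by
        simpa using hf.hasse one_pos β'
      have h1 := grad_zero hpp hcard hπ0 hπ1 h τ hτ hZ (hZ z hz) (hflow z hz) hIB (ih β' hdeg)
        (ih β' hdeg z hz) b
      have h2 : hasse (Finsupp.single b 1) (hasse β' f) =
          MvPowerSeries.C (((β' b + 1 : ℕ)) : K) * hasse β f := by
        rw [hasse_hasse, mchoose_succ, hβe]
        ext γ
        rw [MvPowerSeries.coeff_C_mul, map_smul, smul_eq_mul]
      have hβB : IsB 1 C₀ (hasse β f) := by simpa using hf.hasse one_pos β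
      rw [h2, evalS_mul one_pos (isB_C (σ := Fin d) 1 zero_le_one _) hβB (hZ z hz), evalS_C] at h1
      refine (mul_eq_zero.mp h1).resolve_left ?_
      exact_mod_cast Nat.succ_ne_zero (β' b)
  ext β
  have hyy := hZ y hyZ
  have hβB : IsB 1 C₀ (hasse β f) := by simpa using hf.hasse one_pos β
  have hsh : shift y (hasse β f) = 0 := by
    ext γ
    rw [coeff_shift, map_zero]
    have h1 : hasse γ (hasse β f) = MvPowerSeries.C ((mchoose (γ + β) β : ℕ) : K) *
        hasse (γ + β) f := by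
      rw [hasse_hasse]
      ext a
      rw [MvPowerSeries.coeff_C_mul, map_smul, smul_eq_mul]
    have hB2 : IsB 1 C₀ (hasse (γ + β) f) := by simpa using hf.hasse one_pos (γ + β)
    rw [h1, evalS_mul one_pos (isB_C (σ := Fin d) 1 zero_le_one _) hB2 hyy,
      hall _ _ rfl y hyZ, mul_zero]
  have h2 := evalS_shift one_pos hβB hyy (w := -y) (fun i => by simpa using hyy i)
  rw [hsh, evalS_zero, add_neg_cancel, evalS_zero_point, ← MvPowerSeries.coeff_zero_eq_constantCoeff_apply,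
    coeff_hasse, mchoose_self, Nat.cast_one, one_mul, zero_add] at h2
  rw [← h2, map_zero]

end Flow

end Period
end Crest.Agent.LT
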