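/-
Part II of the classification (BLUEPRINT §D): a stable prime of `E₀` not containing `p` is zero.
-/
import Crest.Agent.Lib.LT.P2Flow
import Crest.Agent.Lib.LT.P2Digits
import Crest.Agent.Lib.LT.Field0
import Crest.Agent.Lib.LT.PointEval
import Crest.Agent.Lib.LT.E0
import Crest.Agent.Lib.LT.Bridge

set_option autoImplicit false
set_option linter.unusedSectionVars false
set_option linter.unusedVariables false
set_option linter.deprecated false
set_option linter.unusedSimpArgs false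
set_option linter.unnecessarySimpa false

namespace Crest.Agent.LT

open Crest.LubinTate Filter Topology

section Bridge

variable (p : ℕ) [Fact p.Prime] (d : ℕ) (K : Type*) [NontriviallyNormedField K] [CharZero K]

/-- The coefficients of the logarithm over `K`. -/
noncomputable def lK (m : ℕ) : MvPolynomial (Fin d) K :=
  MvPolynomial.map (algebraMap ℚ K) (hazeLogCoeff p (d + 1) m)

variable {K}

lemma eval_lK (y : Fin d → K) (m : ℕ) :
    MvPolynomial.eval y (lK p d K m) = MvPolynomial.aeval y (hazeLogCoeff p (d + 1) m) := by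
  rw [lK, MvPolynomial.eval_map, MvPolynomial.aeval_def]

/-- The parameters over `K`. -/
noncomputable def vK (j : ℕ) : MvPolynomial (Fin d) K :=
  MvPolynomial.map (algebraMap ℚ K) (vv (d + 1) ℚ j)

lemma vK_eq (j : ℕ) : (vK d j : MvPolynomial (Fin d) K) = vv (d + 1) K j :=
  map_vv (d + 1) (algebraMap ℚ K) j

lemma vK_vP (i : ℕ) (hi : i ≤ d) : vK d (i + 1) = (Period.vP d i : MvPolynomial (Fin d) K) := by
  rw [vK_eq]
  unfold vv Period.vP
  by_cases h : i < d
  · have h1 : 1 ≤ i + 1 ∧ i + 1 < d + 1 := ⟨by omega, by omega⟩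
    rw [dif_pos h1, dif_pos h]
    rfl
  · have h1 : ¬ (1 ≤ i + 1 ∧ i + 1 < d + 1) := by omega
    have h2 : i + 1 = d + 1 := by omega
    rw [dif_neg h1, dif_neg h, if_pos h2]

lemma vK_large (j : ℕ) (hj : d + 1 < j) : vK d j = (0 : MvPolynomial (Fin d) K) := by
  rw [vK_eq]
  exact vv_large (d + 1) K j hj

variable (K)

lemma lK_rec (m : ℕ) : (p : MvPolynomial (Fin d) K) * lK p d K (m + 1) =
    ∑ a ∈ Finset.range (m + 1), lK p d K a * vK d (m + 1 - a) ^ (p ^ a) := by
  have h1 := congrArg (MvPolynomial.map (algebraMap ℚ K)) (hazeLogCoeff_rec p (d + 1) m)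
  rw [map_mul, map_natCast, map_sum] at h1
  refine h1.trans (Finset.sum_congr rfl fun a _ => ?_)
  rw [map_mul, map_pow]
  rfl

theorem isLogSeq_lK [IsUltrametricDist K] : Period.IsLogSeq (K := K) p d (lK p d K) where
  zero := by simp [lK, hazeLogCoeff_zero]
  succ := fun m => by
    have h2 : MvPolynomial.C (p : K) = ((p : MvPolynomial (Fin d) K)) := by simp
    rw [h2, lK_rec, ← Finset.sum_range_reflect]
    -- the two sums over `i`
    have h4 : ∀ i ∈ Finset.range (m + 1), lK p d K (m + 1 - 1 - i) *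
          vK d (m + 1 - (m + 1 - 1 - i)) ^ (p ^ (m + 1 - 1 - i)) =
        if i ≤ d then lK p d K (m - i) * Period.vP d i ^ (p ^ (m - i)) else 0 := by
      intro i hi
      have hi' : i ≤ m := Nat.lt_succ_iff.mp (Finset.mem_range.mp hi)
      have e1 : m + 1 - 1 - i = m - i := by omega
      have e2 : m + 1 - (m - i) = i + 1 := by omega
      rw [e1, e2]
      split_ifs with hid
      · rw [vK_vP d i hid]
      · rw [vK_large d (i + 1) (by omega), zero_pow (pow_ne_zero _ (Fact.out : p.Prime).ne_zero),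
          mul_zero]
    rw [Finset.sum_congr rfl h4]
    rw [← Finset.sum_filter, ← Finset.sum_filter]
    refine Finset.sum_congr ?_ fun _ _ => rfl
    ext i
    simp only [Finset.mem_filter, Finset.mem_range]
    omega

end Bridge

section Good

variable (p : ℕ) [Fact p.Prime] (d : ℕ)
variable {K : Type*} [NontriviallyNormedField K] [IsUltrametricDist K] [CompleteSpace K]

local notation "E" => LTRing p (d + 1)
local notation "kk" => GaloisField p (d + 1)
local notation "res" => LTRing.residue p (d + 1)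

/-- Ring homomorphisms sending `E₀` to the integers and `𝔪` to the maximal ideal. -/
structure GoodPt (χ : E →+* K) : Prop where
  le : ∀ f, ‖χ f‖ ≤ 1
  lt : ∀ f, res f = 0 → ‖χ f‖ < 1

variable {p d}

/-- Uniform contraction on powers of the maximal ideal. -/
lemma GoodPt.exists_pow_bound {χ : E →+* K} (h : GoodPt p d χ) :
    ∃ ρ : ℝ, 0 ≤ ρ ∧ ρ < 1 ∧ ∀ (c : ℕ), ∀ x ∈ (IsLocalRing.maximalIdeal E) ^ c, ‖χ x‖ ≤ ρ ^ c := by
  classical
  obtain ⟨ρ₁, h10, h11, h1⟩ := exists_radius (K := K) (σ := Fin d) (z := fun i => χ (MvPowerSeries.X i))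
    one_pos (fun i => h.lt _ (residue_X p (d + 1) i))
  have hpres : res (p : E) = 0 := by
    have hx2 : (p : E) ∈ mE p (d + 1) := p_mem_mE p (d + 1)
    rw [mE_eq, ← ker_residue] at hx2
    exact hx2
  have hp1 : ‖χ (p : E)‖ < 1 := h.lt _ hpres
  set ρ : ℝ := max ρ₁ ‖χ (p : E)‖ with hρ
  have hρ0 : 0 ≤ ρ := le_max_of_le_left h10
  have hρ1 : ρ < 1 := max_lt h11 hp1
  have hm : ∀ x ∈ IsLocalRing.maximalIdeal E, ‖χ x‖ ≤ ρ := by
    intro x hx
    rw [← mE_eq] at hx
    refine Submodule.span_induction (p := fun x _ => ‖χ x‖ ≤ ρ) ?_ ?_ ?_ ?_ hx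
    · rintro x (hx | ⟨i, rfl⟩)
      · rw [Set.mem_singleton_iff] at hx
        subst hx
        exact le_max_right _ _
      · exact (h1 i).trans (le_max_left _ _)
    · simpa using hρ0
    · intro a b _ _ ha hb
      rw [map_add]
      exact (IsUltrametricDist.norm_add_le_max _ _).trans (max_le ha hb)
    · intro a x _ hx
      rw [smul_eq_mul, map_mul, norm_mul]
      calc _ ≤ 1 * ρ := mul_le_mul (h.le a) hx (norm_nonneg _) zero_le_one
        _ = ρ := one_mul _
  refine ⟨ρ, hρ0, hρ1, fun c => ?_⟩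
  induction c with
  | zero =>
    intro x _
    simpa using h.le x
  | succ c ih =>
    intro x hx
    rw [pow_succ] at hx
    refine Submodule.mul_induction_on hx ?_ ?_
    · intro a ha b hb
      rw [map_mul, norm_mul, pow_succ]
      exact mul_le_mul (ih a ha) (hm b hb) (norm_nonneg _) (by positivity)
    · intro a b ha hb
      rw [map_add]
      exact (IsUltrametricDist.norm_add_le_max _ _).trans (max_le ha hb)

variable (p d)

/-- The Teichmüller character at a point. -/
noncomputable def tauHom (ψ : E →+* K) : kk →* K :=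
  ((ψ.comp (MvPowerSeries.C : WittVector p kk →+* E)) : WittVector p kk →* K).comp
    (WittVector.teichmuller p)

variable {p d}

lemma tauHom_apply (ψ : E →+* K) (t : kk) :
    tauHom p d ψ t = ψ (MvPowerSeries.C (WittVector.teichmuller p t)) := rfl

lemma res_C_teich (t : kk) : res (MvPowerSeries.C (WittVector.teichmuller p t)) = t := by
  simp [LTRing.residue]

lemma tauHom_inj {ψ : E →+* K} (h : GoodPt p d ψ) : Function.Injective (tauHom p d ψ) := by
  intro t t' he
  by_contra hne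
  have h1 : res (MvPowerSeries.C (WittVector.teichmuller p t) -
      MvPowerSeries.C (WittVector.teichmuller p t')) ≠ 0 := by
    rw [map_sub, res_C_teich, res_C_teich]
    exact sub_ne_zero.mpr hne
  have hu := (residue_unit_iff p (d + 1) _).mpr h1
  have h2 := hu.map ψ
  apply h2.ne_zero
  rw [map_sub, sub_eq_zero]
  exact he

lemma tauHom_norm {ψ : E →+* K} (h : GoodPt p d ψ) (t : kk) : ‖tauHom p d ψ t‖ ≤ 1 := h.le _

lemma tauHom_pow (ψ : E →+* K) (t : kk) : tauHom p d ψ t ^ (p ^ (d + 1)) = tauHom p d ψ t := by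
  rw [← map_pow, t_pow_card p (d + 1) (by omega) t]

end Good

/-! ### The flow -/

section FlowSec

variable {R : Type*} [CommRing R]

lemma congX_cmp {M : ℕ} {f g : PowerSeries R} (hf : CongX M f) (hg : CongX M g)
    (h0 : PowerSeries.constantCoeff g = 0) : CongX M (cmp f g) := by
  refine congX_of_dvd ?_
  have h1 := dvd_cmp_sub_of_congX hf h0
  have h2 : (PowerSeries.X : PowerSeries R) ^ M ∣ g - PowerSeries.X := by
    rw [PowerSeries.X_pow_dvd_iff]
    intro i hi
    rw [map_sub, hg i hi, sub_self]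
  have := dvd_add h1 h2
  simpa using this

end FlowSec

section Main

variable (p : ℕ) [Fact p.Prime] (d : ℕ)
variable {K : Type*} [NontriviallyNormedField K] [IsUltrametricDist K] [CompleteSpace K]
  [CharZero K]

local notation "E" => LTRing p (d + 1)
local notation "kk" => GaloisField p (d + 1)
local notation "res" => LTRing.residue p (d + 1)
local notation "ΓΓ" => Γ₀ p (d + 1)
local notation "HH" => hazeE0 p (d + 1)

/-- The orbit of the point `ψ`. -/
def orbitZ (A : DeepAction res (IsLocalRing.maximalIdeal E) ΓΓ HH) (ψ : E →+* K) (M : ℕ) :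
    Set (Fin d → K) :=
  {z | ∃ g, IsFGAut ΓΓ g ∧ CongX M g ∧ z = fun i : Fin d => ψ (A.φ g (MvPowerSeries.X i))}

variable {p d}

lemma GoodPt.comp {ψ : E →+* K} (h : GoodPt p d ψ) {φ : E →+* E} (hφ : RingHom.comp (res) φ = res) :
    GoodPt p d (ψ.comp φ) where
  le := fun f => h.le _
  lt := fun f hf => h.lt _ (by
    have := RingHom.congr_fun hφ f
    rw [RingHom.comp_apply] at this
    rw [this, hf])

theorem hasFlow_orbit (A : DeepAction res (IsLocalRing.maximalIdeal E) ΓΓ HH) (hlin : ∀ (g : PowerSeries kk) (a : WittVector p kk), A.φ g (MvPowerSeries.C a : E) = (MvPowerSeries.C a : E))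
    {ψ : E →+* K} (hψ : GoodPt p d ψ) {M : ℕ} {g₁ : PowerSeries kk} (hg₁ : IsFGAut ΓΓ g₁)
    (hc₁ : CongX M g₁) (hπ0 : (p : K) ≠ 0) (hπ1 : ‖(p : K)‖ < 1) :
    Period.HasFlow p d (lK p d K) (tauHom p d ψ) (orbitZ p d A ψ M)
      (fun i : Fin d => ψ (A.φ g₁ (MvPowerSeries.X i))) := by
  classical
  intro t s
  have hpp : p.Prime := Fact.out
  have hp1 : 1 < p := hpp.one_lt
  have hn1 : 1 ≤ d + 1 := by omega
  -- the point `χ`
  set χ : E →+* K := ψ.comp (A.φ g₁) with hχ
  have hχG : GoodPt p d χ := hψ.comp (A.res_φ g₁ hg₁)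
  have hχC : ∀ a, χ (MvPowerSeries.C a) = ψ (MvPowerSeries.C a) := fun a => by
    simp only [hχ, RingHom.comp_apply, hlin]
  set r : ℕ → ℕ := fun w => s.1 + (d + 1) * w with hr
  set g : ℕ → PowerSeries kk := fun w => gTR p (d + 1) t (r w) with hg
  have hrw : ∀ w, w ≤ r w := fun w => by
    have := Nat.le_mul_of_pos_left w (show 0 < d + 1 by omega)
    simp only [hr]; omega
  have hr1 : ∀ w, 1 ≤ w → 1 ≤ r w := fun w hw => hw.trans (hrw w)
  have hgaut : ∀ w, 1 ≤ w → IsFGAut ΓΓ (g w) := fun w hw => gTR_aut p (d + 1) hn1 t (hr1 w hw)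
  have hgc : ∀ M' w, M' ≤ w → CongX M' (g w) := by
    intro M' w hw i hi
    refine gTR_congX p (d + 1) t (r w) i (lt_of_lt_of_le hi ?_)
    exact hw.trans ((hrw w).trans (Nat.lt_pow_self hp1).le)
  -- the digits
  have hdig : ∀ w, ∃ T : ℕ → K, 1 ≤ w → (∀ j, ‖T j‖ ≤ 1) ∧ ‖T 0 - 1‖ < 1 ∧
      ‖T (r w) - χ (MvPowerSeries.C (WittVector.teichmuller p t))‖ < 1 ∧
      (∀ j, j ≠ 0 → j ≠ r w → ‖T j‖ < 1) ∧
      ∀ m, T 0 * MvPolynomial.aeval (fun i => χ (A.φ (g w) (MvPowerSeries.X i)))
          (hazeLogCoeff p (d + 1) m) = ∑ j ∈ Finset.range (m + 1),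
        MvPolynomial.aeval (fun i => χ (MvPowerSeries.X i)) (hazeLogCoeff p (d + 1) (m - j)) *
          T j ^ (p ^ (m - j)) := by
    intro w
    by_cases hw : 1 ≤ w
    · obtain ⟨T, hT⟩ := digit_eq p (d + 1) hn1 χ hχG.le hχG.lt (A.φ (g w)) (A.θ (g w))
        (A.hom _ (hgaut w hw)) t (r w) (hr1 w hw) (A.red _ (hgaut w hw))
      exact ⟨T, fun _ => hT⟩
    · exact ⟨fun _ => 0, fun h => absurd h hw⟩
  choose T hT using hdig
  refine ⟨fun w i => χ (A.φ (g w) (MvPowerSeries.X i)), fun w => T w 0, ?_, ?_, ?_, ?_⟩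
  · -- orbit membership
    filter_upwards [eventually_ge_atTop (max 1 M)] with w hw
    have hw1 : 1 ≤ w := (le_max_left _ _).trans hw
    have hwM : M ≤ w := (le_max_right _ _).trans hw
    refine ⟨cmp g₁ (g w), (hg₁.comp (hgaut w hw1)), congX_cmp hc₁ (hgc M w hwM)
      (hgaut w hw1).1.1, ?_⟩
    rw [A.comp (g w) g₁ (hgaut w hw1) hg₁]
    rfl
  · -- convergence
    intro b
    obtain ⟨ρ, hρ0, hρ1, hρ⟩ := hχG.exists_pow_bound
    rw [Metric.tendsto_atTop]
    intro ε hε
    obtain ⟨c, hc⟩ := exists_pow_lt_of_lt_one hε hρ1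
    obtain ⟨M', hM'⟩ := A.deep c 1
    refine ⟨max 1 M', fun w hw => ?_⟩
    have hw1 : 1 ≤ w := (le_max_left _ _).trans hw
    have hwM : M' ≤ w := (le_max_right _ _).trans hw
    have h1 := (hM' (g w) (hgaut w hw1) (hgc M' w hwM)).1 (MvPowerSeries.X b)
    have h2 := hρ c _ h1
    rw [dist_eq_norm]
    show ‖χ (A.φ (g w) (MvPowerSeries.X b)) - χ (MvPowerSeries.X b)‖ < ε
    rw [← map_sub]
    exact h2.trans_lt hc
  · -- unit
    filter_upwards [eventually_ge_atTop 1] with w hw
    have h1 := (hT w hw).2.1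
    have h2 : T w 0 = 1 + (T w 0 - 1) := by ring
    rw [h2]
    exact Period.norm_one_add_of_lt h1
  · -- flow equation
    filter_upwards [eventually_ge_atTop 1] with w hw i hi
    obtain ⟨h1, h2, h3, h4, h5⟩ := hT w hw
    have hXres : ∀ b : Fin d, ‖χ (MvPowerSeries.X b)‖ < 1 := fun b =>
      hχG.lt _ (residue_X p (d + 1) b)
    have hX' : ∀ b : Fin d, ‖χ (A.φ (g w) (MvPowerSeries.X b))‖ < 1 := fun b => by
      refine hχG.lt _ ?_
      have := RingHom.congr_fun (A.res_φ (g w) (hgaut w hw)) (MvPowerSeries.X b)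
      rw [RingHom.comp_apply] at this
      rw [this]
      exact residue_X p (d + 1) b
    have hτ : χ (MvPowerSeries.C (WittVector.teichmuller p t)) = tauHom p d ψ t := hχC _
    rw [hτ] at h3
    refine Period.limit_eq (K := K) hpp hπ0 hπ1 (isLogSeq_lK p d K) (y := fun b => χ (MvPowerSeries.X b))
      (y' := fun b => χ (A.φ (g w) (MvPowerSeries.X b))) hXres hX' (T := T w)
      (τ := tauHom p d ψ t) h1 h2 s.1 w (hr1 w hw) h3 (tauHom_norm hψ t) (tauHom_pow ψ t) h4
      (fun m => ?_) i hi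
    rw [eval_lK]
    refine (h5 m).trans (Finset.sum_congr rfl fun j _ => ?_)
    rw [eval_lK]
    rfl

/-- **Part II**, at a point. -/
theorem partII_pt (A : DeepAction res (IsLocalRing.maximalIdeal E) ΓΓ HH) (hlin : ∀ (g : PowerSeries kk) (a : WittVector p kk), A.φ g (MvPowerSeries.C a : E) = (MvPowerSeries.C a : E))
    {ψ : E →+* K} (hψ : GoodPt p d ψ) (hinj : Function.Injective (ψ.comp MvPowerSeries.C))
    {M : ℕ} (hM : 1 ≤ M) (P : Ideal E) (hP : ∀ f ∈ P, ψ f = 0)
    (hst : ∀ g, IsFGAut ΓΓ g → CongX M g → P.comap (A.φ g) = P) : P = ⊥ := by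
  classical
  have hpp : p.Prime := Fact.out
  have hπ0 : (p : K) ≠ 0 := by exact_mod_cast hpp.ne_zero
  have hpres : res (p : E) = 0 := by
    have hx2 : (p : E) ∈ mE p (d + 1) := p_mem_mE p (d + 1)
    rw [mE_eq, ← ker_residue] at hx2
    exact hx2
  have hπ1 : ‖(p : K)‖ < 1 := by
    have := hψ.lt _ hpres
    rwa [map_natCast] at this
  haveI : Finite kk := Nat.finite_of_card_ne_zero (by
    rw [GaloisField.card p (d + 1) (by omega)]
    exact pow_ne_zero _ hpp.ne_zero)
  letI : Fintype kk := Fintype.ofFinite _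
  have hcard : Fintype.card kk = p ^ (d + 1) := by
    rw [Fintype.card_eq_nat_card, GaloisField.card p (d + 1) (by omega)]
  refine (Submodule.eq_bot_iff P).mpr fun f hf => ?_
  set F : MvPowerSeries (Fin d) K := MvPowerSeries.map (ψ.comp MvPowerSeries.C) f with hF
  have hFB : IsB (1 : ℝ) 1 F := by
    intro γ
    rw [one_pow, mul_one, hF, MvPowerSeries.coeff_map]
    exact hψ.le _
  set Z := orbitZ p d A ψ M with hZdef
  have hZ : ∀ z ∈ Z, ∀ i, ‖z i‖ < 1 := by
    rintro z ⟨g, hg, _, rfl⟩ i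
    refine hψ.lt _ ?_
    have := RingHom.congr_fun (A.res_φ g hg) (MvPowerSeries.X i)
    rw [RingHom.comp_apply] at this
    rw [this]
    exact residue_X p (d + 1) i
  have hflow : ∀ z ∈ Z, Period.HasFlow p d (lK p d K) (tauHom p d ψ) Z z := by
    rintro z ⟨g, hg, hc, rfl⟩
    exact hasFlow_orbit A hlin hψ hg hc hπ0 hπ1
  have hyZ : (fun i : Fin d => ψ (MvPowerSeries.X i)) ∈ Z := by
    refine ⟨PowerSeries.X, isFGAut_X _, fun i _ => rfl, ?_⟩
    rw [A.one]
    rfl
  have hfZ : ∀ z ∈ Z, evalS F z = 0 := by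
    rintro z ⟨g, hg, hc, rfl⟩
    have hχG : GoodPt p d (ψ.comp (A.φ g)) := hψ.comp (A.res_φ g hg)
    have h1 := ringHom_eq_evalS (σ := Fin d) (ψ.comp (A.φ g)) hχG.le
      (fun i => hχG.lt _ (residue_X p (d + 1) i)) f
    have h2 : (ψ.comp (A.φ g)).comp MvPowerSeries.C = ψ.comp MvPowerSeries.C := by
      ext a
      simp [hlin]
    rw [h2] at h1
    have h3 : A.φ g f ∈ P := by
      have : f ∈ P.comap (A.φ g) := by rw [hst g hg hc]; exact hf
      exact this
    have h4 := hP _ h3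
    rw [RingHom.comp_apply, h4] at h1
    exact h1.symm
  have hF0 := Period.eq_zero_of_flow hpp hcard hπ0 hπ1 (isLogSeq_lK p d K) (tauHom p d ψ)
    (tauHom_inj hψ) hZ hflow hyZ hFB hfZ
  ext γ
  have h5 := congrArg (MvPowerSeries.coeff γ) hF0
  rw [hF, MvPowerSeries.coeff_map, map_zero] at h5
  have h6 := hinj (h5.trans (map_zero (ψ.comp MvPowerSeries.C)).symm)
  rw [h6, map_zero]

end Main

section Final

variable (p : ℕ) [Fact p.Prime] (n : ℕ)

/-- **Part II**: a prime of `E₀` not containing `p` and stable under a basic open subgroup of the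
automorphism group of the Honda law, acting on the Hazewinkel law, is zero. -/
theorem partII (hn : 1 ≤ n)
    (A : DeepAction (LTRing.residue p n) (IsLocalRing.maximalIdeal (LTRing p n)) (Γ₀ p n)
      (hazeE0 p n))
    (hlin : ∀ g a, A.φ g (algebraMap (WittVector p (GaloisField p n)) (LTRing p n) a) =
      algebraMap (WittVector p (GaloisField p n)) (LTRing p n) a)
    (M : ℕ) (hM : 1 ≤ M)
    (P : Ideal (LTRing p n)) [P.IsPrime] (hp : (p : LTRing p n) ∉ P)
    (hst : ∀ g, IsFGAut (Γ₀ p n) g → CongX M g → P.comap (A.φ g) = P) : P = ⊥ := by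
  obtain ⟨d, rfl⟩ : ∃ d, n = d + 1 := ⟨n - 1, by omega⟩
  obtain ⟨ψ, hP, hinj, h1, hm, -⟩ := exists_point_char0 p (d + 1) P hp
  exact partII_pt (K := ℂ_[p]) A (fun g a => hlin g a) ⟨h1, hm⟩ hinj hM P hP hst

end Final

end Crest.Agent.LT
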