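/-
The final chain: the statement of S0351 from `CoordTarget` (T13).
-/
import Crest.Agent.Lib.LT.P3Main
import Crest.Agent.Lib.LT.P2Main
import Crest.Agent.Lib.LT.CharPIn
import Crest.Agent.Lib.LT.Reduction

set_option autoImplicit false

namespace Crest.Agent.LT

open Crest.LubinTate

theorem result_of_coord (p : ℕ) [Fact p.Prime] (n : ℕ) (hn : 1 ≤ n)
    (Γ : FormalGroup (GaloisField p n)) [Γ.IsComm]
    (hΓ : mulSeries Γ p = PowerSeries.X ^ (p ^ n))
    (H : FormalGroup (LTRing p n)) [H.IsComm] (hH : IsUniversalDeformation p n Γ H)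
    (M : ℕ) (hM : 1 ≤ M)
    (hC : ∀ {h d : ℕ} (I : CharPInput p n h d), CoordTarget p n I) :
    (∀ P : Ideal (LTRing p n),
        (P.IsPrime ∧ IsStableIdeal p n Γ H M P) ↔ ∃ h : ℕ, h ≤ n ∧ P = heightIdeal p n H h) ∧
    (∀ J : Ideal (LTRing p n),
        (J.IsRadical ∧ IsStableIdeal p n Γ H M J) ↔
          (∃ h : ℕ, h ≤ n ∧ J = heightIdeal p n H h) ∨ J = ⊤) := by
  refine main_of_class (hazeClass_of hn ?_ ?_) (haze_hIdeal_prime p n hn) hn hΓ hH M hM
  · intro A hlin M hM P _ hp hst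
    exact partII p n hn A hlin M hM P hp hst
  · intro h d I M hM P _ hy hst
    exact partIII_of p n I (hC I) M hM P hy hst

end Crest.Agent.LT
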